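import Mathlib

/-!
# R213 / Abs : abstract "variational triple" and the solution concept (frozen definitions)

`V`, `H` real Hilbert spaces, `ι : V → H` injective with dense range, `a` a bounded coercive
(NOT symmetric) bilinear form on `V`, and `G : H → V` the solution operator `a (G h) w = ⟪h, ι w⟫`.
`V*` is identified with `V` through `a`, so "`v' = a(Z,·)` in `V*`" reads `G (U s) = G (U s0) + ∫ Z`,
where `U` is the continuous `H`-valued representative of `v ∈ L²(V)`.
-/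

set_option autoImplicit false

open MeasureTheory Set
open scoped InnerProductSpace

namespace Crest.Agent.R213

structure Trip (V H : Type) [NormedAddCommGroup V] [InnerProductSpace ℝ V]
    [NormedAddCommGroup H] [InnerProductSpace ℝ H] where
  ι : V →L[ℝ] H
  a : V →L[ℝ] V →L[ℝ] ℝ
  G : H →L[ℝ] V
  hG : ∀ h w, a (G h) w = ⟪h, ι w⟫_ℝ
  coer : ∃ c : ℝ, 0 < c ∧ ∀ v, c * ‖v‖ ^ 2 ≤ a v v
  inj : Function.Injective ι
  dense : DenseRange ι

variable {V H : Type} [NormedAddCommGroup V] [InnerProductSpace ℝ V]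
  [NormedAddCommGroup H] [InnerProductSpace ℝ H]

/-- `(v, Z, U)` on `[s0, s1]`: `v, Z ∈ L²(V)`, `U ∈ C(H)`, `ι v = U` a.e., `G U = G U(s0) + ∫ Z`. -/
structure IsSol (T : Trip V H) (s0 s1 : ℝ) (v Z : ℝ → V) (U : ℝ → H) : Prop where
  v2 : MemLp v 2 (volume.restrict (Ioc s0 s1))
  Z2 : MemLp Z 2 (volume.restrict (Ioc s0 s1))
  cont : ContinuousOn U (Icc s0 s1)
  rep : ∀ᵐ s ∂(volume.restrict (Ioc s0 s1)), T.ι (v s) = U s
  int : ∀ s ∈ Icc s0 s1, T.G (U s) = T.G (U s0) + ∫ r in s0..s, Z r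

/-- `(1 + P)²` as an operator. -/
noncomputable def sq1 (P : V →L[ℝ] V) : V →L[ℝ] V := (1 + P) ^ 2

end Crest.Agent.R213
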