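import Crest.Agent.R213.IExist

/-!
# R213 / Ang1 : tools for Angenent's trick (implicit function, solution operator, multipliers)
-/

set_option autoImplicit false

open MeasureTheory Set Filter Topology
open scoped InnerProductSpace ContDiff

namespace Crest.Agent.R213

/-- implicit function theorem for a small perturbation of the identity -/
theorem Ang_ift {X : Type} [NormedAddCommGroup X] [NormedSpace ℝ X] [CompleteSpace X] {N : ℝ × X → X}
    (hN : ContDiffAt ℝ ∞ N (1, 0)) (h0 : N (1, 0) = 0)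
    (hl : ∀ᶠ F in 𝓝 (0 : X), ‖N (1, F)‖ ≤ 1 / 2 * ‖F‖) :
    ∃ φ : ℝ → X, ContDiffAt ℝ ∞ φ 1 ∧ ∀ᶠ l in 𝓝 (1 : ℝ), φ l + N (l, φ l) = 0 := by
  have hd := (hN.differentiableAt (by simp)).hasFDerivAt
  have hB : ‖fderiv ℝ N (1, 0) ∘L .inr ℝ ℝ X‖ ≤ 1 / 2 :=
    (hd.comp (0 : X) (hasFDerivAt_prodMk_right (1 : ℝ) (0 : X))).le_of_lip' (by norm_num)
      (by simpa [h0] using hl)
  have hf : ContDiffAt ℝ ∞ (fun p : ℝ × X => p.2 + N p) (1, 0) := contDiffAt_snd.add hN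
  have hi : (fderiv ℝ (fun p : ℝ × X => p.2 + N p) (1, 0) ∘L .inr ℝ ℝ X).IsInvertible := by
    refine ⟨ContinuousLinearEquiv.ofUnit (Units.oneSub (-(fderiv ℝ N (1, 0) ∘L .inr ℝ ℝ X))
      (by rw [norm_neg]; linarith)), ?_⟩
    rw [(hasFDerivAt_snd.fun_add hd).fderiv]
    ext x
    simp [ContinuousLinearEquiv.ofUnit]
  exact ⟨_, hf.contDiffAt_implicitFunction (by simp) hi,
    by simpa [h0] using hf.eventually_apply_implicitFunction (by simp) hi⟩

/-- a bounded linear relation that is everywhere defined is a bounded operator -/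
theorem Ang_sel {X Y : Type} [NormedAddCommGroup X] [NormedSpace ℝ X] [NormedAddCommGroup Y]
    [NormedSpace ℝ Y] (R : X → Y → Prop) (hex : ∀ x, ∃ y, R x y)
    (hlin : ∀ x y x' y' (t : ℝ), R x y → R x' y' → R (x + t • x') (y + t • y')) {K : ℝ}
    (hb : ∀ x y, R x y → ‖y‖ ≤ K * ‖x‖) : ∃ S : X →L[ℝ] Y, ∀ x, R x (S x) := by
  choose S hS using hex
  have key : ∀ x y, R x y → S x = y := fun x y h => by
    have := hb _ _ (hlin _ _ _ _ (-1) (hS x) h)
    rwa [neg_one_smul, neg_one_smul, add_neg_cancel, norm_zero, mul_zero, norm_le_zero_iff,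
      add_neg_eq_zero] at this
  have h0 : S 0 = 0 := by simpa using hb _ _ (hS 0)
  exact ⟨LinearMap.mkContinuous ⟨⟨S, fun x x' => key _ _ (by simpa using hlin _ _ _ _ 1 (hS x) (hS x'))⟩,
    fun t x => key _ _ (by simpa [h0] using hlin _ _ _ _ t (hS 0) (hS x))⟩ K fun x => hb _ _ (hS x), hS⟩

/-- the dilated coefficient depends smoothly on the dilation parameter -/
theorem Ang_k (r0 r1 : ℝ) : ∃ k : ℝ → C(Icc r0 r1, ℝ), ContDiff ℝ ∞ k ∧
    ∀ l s, k l s = l * Real.exp (-(l * s + (r0 - l * r0))) := by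
  let τ : C(Icc r0 r1, ℝ) := ⟨fun s => r0 - s, by fun_prop⟩
  have he : ContDiff ℝ ∞ (NormedSpace.exp : C(Icc r0 r1, ℝ) → C(Icc r0 r1, ℝ)) :=
    contDiff_iff_contDiffAt.2 fun x => (NormedSpace.exp_analytic x).contDiffAt
  refine ⟨fun l => (l * Real.exp (-r0)) • NormedSpace.exp (l • τ), by fun_prop, fun l s => ?_⟩
  have := NormedSpace.map_exp_of_mem_ball (𝕂 := ℝ) (ContinuousMap.evalAlgHom ℝ ℝ s)
    (continuous_eval_const s) (l • τ) (by rw [NormedSpace.expSeries_radius_eq_top]; exact edist_lt_top _ _)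
  change NormedSpace.exp (l • τ) s = NormedSpace.exp (l * (r0 - s)) at this
  rw [ContinuousMap.smul_apply, this, ← Real.exp_eq_exp_ℝ, smul_eq_mul, mul_assoc, ← Real.exp_add]
  congr 2
  ring

variable {V H : Type} [NormedAddCommGroup V] [InnerProductSpace ℝ V] [CompleteSpace V]
  [NormedAddCommGroup H] [InnerProductSpace ℝ H] [CompleteSpace H]

omit [CompleteSpace V] in
/-- continuous operator-valued functions act on `L²` -/
theorem Ang_act {r0 r1 : ℝ} (h : r0 ≤ r1) : ∃ act : C(Icc r0 r1, V →L[ℝ] V) →L[ℝ]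
      Lp V 2 (volume.restrict (Ioc r0 r1)) →L[ℝ] Lp V 2 (volume.restrict (Ioc r0 r1)),
    (∀ A w, ‖act A w‖ ≤ ‖A‖ * ‖w‖) ∧
      ∀ A w, ∀ᵐ s ∂volume.restrict (Ioc r0 r1), act A w s = A (projIcc r0 r1 h s) (w s) := by
  let act := ((ContinuousLinearMap.id ℝ (V →L[ℝ] V)).holderL (volume.restrict (Ioc r0 r1)) ⊤ 2 2).comp
    ((BoundedContinuousFunction.toLp ⊤ (volume.restrict (Ioc r0 r1)) ℝ).comp
      ((BoundedContinuousFunction.compContinuousCLM (V →L[ℝ] V) ℝ ⟨projIcc r0 r1 h, continuous_projIcc⟩).comp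
        (ContinuousMap.linearIsometryBoundedOfCompact (Icc r0 r1) (V →L[ℝ] V) ℝ).toContinuousLinearEquiv.toContinuousLinearMap))
  have key : ∀ A w, ∀ᵐ s ∂volume.restrict (Ioc r0 r1), act A w s = A (projIcc r0 r1 h s) (w s) := by
    intro A w
    filter_upwards [(ContinuousLinearMap.id ℝ (V →L[ℝ] V)).coeFn_holder (p := ⊤) (r := 2) _ w,
      BoundedContinuousFunction.coeFn_toLp ⊤ (volume.restrict (Ioc r0 r1)) ℝ
        ((BoundedContinuousFunction.mkOfCompact A).compContinuous ⟨projIcc r0 r1 h, continuous_projIcc⟩)]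
      with s h1 h2
    exact h1.trans (congrArg (fun B : V →L[ℝ] V => B (w s)) h2)
  refine ⟨act, fun A w => Lp.norm_le_mul_norm_of_ae_le_mul ((key A w).mono fun s hs => ?_), key⟩
  rw [hs]
  exact ContinuousLinearMap.le_of_opNorm_le _ (A.norm_coe_le_norm _) _

omit [CompleteSpace V] in
theorem Ang_norm {r0 r1 : ℝ} (h : r0 ≤ r1) (F : Lp V 2 (volume.restrict (Ioc r0 r1))) :
    ∫ q in r0..r1, ‖F q‖ ^ 2 = ‖F‖ ^ 2 := by
  rw [intervalIntegral.integral_of_le h, ← real_inner_self_eq_norm_sq, L2.inner_def]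
  simp

/-- the solution operator of the linear problem -/
theorem Ang_sol (T : Trip V H) {r0 r1 : ℝ} (h : r0 ≤ r1) (A : C(Icc r0 r1, V →L[ℝ] V)) {c C K : ℝ}
    (hc : 0 < c) (hC : 0 ≤ C) (gar : ∀ s u, c * ‖u‖ ^ 2 - C * ‖T.ι u‖ ^ 2 ≤ T.a (A s u) u) (hK : 0 ≤ K)
    (hK' : Real.exp (2 * C * (r1 - r0)) * (‖T.a‖ ^ 2 / c) ≤ K ^ 2) :
    ∃ S : Lp V 2 (volume.restrict (Ioc r0 r1)) →L[ℝ]
        C(Icc r0 r1, H) × Lp V 2 (volume.restrict (Ioc r0 r1)), ∀ F, ‖(S F).1‖ ≤ K * ‖F‖ ∧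
      IsSol T r0 r1 (S F).2 (fun s => -(A (projIcc r0 r1 h s) ((S F).2 s)) + F s)
        (fun s => (S F).1 (projIcc r0 r1 h s)) ∧ (S F).1 (projIcc r0 r1 h r0) = 0 := by
  let R : Lp V 2 (volume.restrict (Ioc r0 r1)) →
      C(Icc r0 r1, H) × Lp V 2 (volume.restrict (Ioc r0 r1)) → Prop := fun F w =>
    IsSol T r0 r1 w.2 (fun s => -(A (projIcc r0 r1 h s) (w.2 s)) + F s)
      (fun s => w.1 (projIcc r0 r1 h s)) ∧ w.1 (projIcc r0 r1 h r0) = 0
  have hb : ∀ F w, R F w → ∀ s ∈ Icc r0 r1, ‖w.1 (projIcc r0 r1 h s)‖ ^ 2 +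
      c * ∫ q in r0..s, ‖w.2 q‖ ^ 2 ≤ (K * ‖F‖) ^ 2 := fun F w hw s hs => by
    refine (apriori T hw.1 (fun s => A (projIcc r0 r1 h s)) hc hC (fun s _ => gar _) (Lp.memLp F)
      (ae_of_all _ fun _ => rfl) hs).trans ?_
    have h1 : ∫ q in r0..s, ‖F q‖ ^ 2 ≤ ‖F‖ ^ 2 := by
      rw [← Ang_norm h]
      exact intervalIntegral.integral_mono_interval le_rfl hs.1 hs.2 (ae_of_all _ fun _ => sq_nonneg _)
        ((intervalIntegrable_iff_integrableOn_Ioc_of_le h).2 (Lp.memLp F).integrable_norm_pow')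
    rw [hw.2, norm_zero, zero_pow two_ne_zero, zero_add, mul_pow, ← mul_assoc]
    refine mul_le_mul (le_trans ?_ hK') h1 (intervalIntegral.integral_nonneg hs.1 fun _ _ => sq_nonneg _)
      (sq_nonneg _)
    gcongr
    exact hs.2
  have hb1 : ∀ F w, R F w → ‖w.1‖ ≤ K * ‖F‖ := fun F w hw =>
    (ContinuousMap.norm_le _ (by positivity)).2 fun s => by
      have h1 := hb F w hw s s.2
      rw [projIcc_val] at h1
      exact le_of_sq_le_sq ((le_add_of_nonneg_right (mul_nonneg hc.le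
        (intervalIntegral.integral_nonneg s.2.1 fun _ _ => sq_nonneg _))).trans h1) (by positivity)
  refine (Ang_sel R (fun F => ?_) (fun F w F' w' t hw hw' => ⟨?_, ?_⟩)
    (K := K + K / √c) fun F w hw => ?_).imp fun S hS F => ⟨hb1 _ _ (hS F), hS F⟩
  · obtain ⟨v, Z, U, h1, h2, h3⟩ := exists_sol T h (fun s => A (projIcc r0 r1 h s))
      (A.continuous.comp continuous_projIcc).continuousOn hc (fun s _ => gar _) F (Lp.memLp F)
    refine ⟨(⟨_, h1.cont.domRestrict⟩, h1.v2.toLp v), h1.congr h h1.v2.coeFn_toLp ?_ fun s hs => ?_, ?_⟩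
    · filter_upwards [h1.v2.coeFn_toLp, h3] with s a1 a2
      rw [a2, a1]
    · simp [projIcc_of_mem h hs]
    · simpa using h2
  · have h1 : ∀ F F' : Lp V 2 (volume.restrict (Ioc r0 r1)), ∀ᵐ s ∂volume.restrict (Ioc r0 r1),
        (F + t • F') s = F s + t • F' s := fun F F' => by
      filter_upwards [Lp.coeFn_add F (t • F'), Lp.coeFn_smul t F'] with s a1 a2
      rw [a1, Pi.add_apply, a2, Pi.smul_apply]
    refine (hw.1.add_smul hw'.1 t).congr h (h1 _ _) ?_ fun s _ => rfl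
    filter_upwards [h1 F F', h1 w.2 w'.2] with s a1 a2
    rw [Prod.snd_add, Prod.smul_snd, a1, a2, map_add, map_smul, smul_add, smul_neg]
    abel
  · change w.1 _ + t • w'.1 _ = 0
    rw [hw.2, hw'.2, smul_zero, add_zero]
  · have h1 := hb F w hw r1 (right_mem_Icc.2 h)
    rw [Ang_norm h] at h1
    have h2 : ‖w.2‖ ≤ K / √c * ‖F‖ := le_of_sq_le_sq (by
      rw [mul_pow, div_pow, Real.sq_sqrt hc.le, div_mul_eq_mul_div, le_div_iff₀' hc, ← mul_pow]
      linarith [sq_nonneg ‖w.1 (projIcc r0 r1 h r1)‖]) (by positivity)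
    rw [Prod.norm_def, add_mul]
    exact max_le ((hb1 F w hw).trans (le_add_of_nonneg_right (by positivity)))
      (h2.trans (le_add_of_nonneg_left (by positivity)))

end Crest.Agent.R213
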