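import Crest.Agent.R213.IEnergy

/-!
# R213 / Stab : stability estimate for the quasilinear equation
-/

set_option autoImplicit false

open MeasureTheory Set
open scoped InnerProductSpace ContDiff

namespace Crest.Agent.R213

variable {V H : Type} [NormedAddCommGroup V] [InnerProductSpace ℝ V] [CompleteSpace V]
  [NormedAddCommGroup H] [InnerProductSpace ℝ H] [CompleteSpace H]

omit [CompleteSpace V] in
theorem sq1_sub_norm (P Q : V →L[ℝ] V) {N : ℝ} (hP : ‖P‖ ≤ N) (hQ : ‖Q‖ ≤ N) :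
    ‖sq1 P - sq1 Q‖ ≤ (2 + 2 * N) * ‖P - Q‖ := by
  have e : sq1 P - sq1 Q = (1 + P) * (P - Q) + (P - Q) * (1 + Q) := by
    unfold sq1; noncomm_ring
  have h1 : ‖(1 : V →L[ℝ] V)‖ ≤ 1 := ContinuousLinearMap.norm_id_le
  have hp : ‖1 + P‖ ≤ 1 + N := (norm_add_le _ _).trans (by linarith)
  have hq : ‖1 + Q‖ ≤ 1 + N := (norm_add_le _ _).trans (by linarith)
  have h0 := norm_nonneg (P - Q)
  rw [e]
  calc ‖(1 + P) * (P - Q) + (P - Q) * (1 + Q)‖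
      ≤ ‖1 + P‖ * ‖P - Q‖ + ‖P - Q‖ * ‖1 + Q‖ :=
        (norm_add_le _ _).trans (add_le_add (norm_mul_le _ _) (norm_mul_le _ _))
    _ ≤ (1 + N) * ‖P - Q‖ + ‖P - Q‖ * (1 + N) := by gcongr
    _ = (2 + 2 * N) * ‖P - Q‖ := by ring

theorem stab_young {c κ κ0 C1 L A x u w f K t1 t2 t3 : ℝ} (hc : 0 < c) (hκ0 : 0 < κ0)
    (h1 : κ0 ≤ κ) (h2 : κ ≤ 4 * κ0) (hC1 : 0 ≤ C1) (hL : 0 ≤ L) (hx : 0 ≤ x)
    (hu : 0 ≤ u) (hw : 0 ≤ w) (hK : K = 8 + 32 * L ^ 2 / c + 2 * A ^ 2 / c)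
    (ht1 : c * x ^ 2 - C1 * u ^ 2 ≤ t1) (ht2 : |t2| ≤ L * u * w * x) (ht3 : |t3| ≤ A * f * x) :
    2 * (-(κ * t1) - κ * t2 - t3) + c * κ0 * x ^ 2 ≤
      K * κ0 * (C1 + w ^ 2) * u ^ 2 + K / κ0 * f ^ 2 := by
  have hκ : 0 < κ := hκ0.trans_le h1
  have a1 : -(κ * t1) ≤ -(κ0 * (c * x ^ 2)) + 4 * κ0 * (C1 * u ^ 2) := by
    have b1 : κ * (c * x ^ 2 - C1 * u ^ 2) ≤ κ * t1 := mul_le_mul_of_nonneg_left ht1 hκ.le
    have b2 : κ0 * (c * x ^ 2) ≤ κ * (c * x ^ 2) :=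
      mul_le_mul_of_nonneg_right h1 (by positivity)
    have b3 : κ * (C1 * u ^ 2) ≤ 4 * κ0 * (C1 * u ^ 2) :=
      mul_le_mul_of_nonneg_right h2 (by positivity)
    linarith
  have a2 : -(κ * t2) ≤ 4 * κ0 * (L * u * w * x) := by
    have b1 : -t2 ≤ L * u * w * x := (neg_le_abs t2).trans ht2
    have b2 : κ * (-t2) ≤ κ * (L * u * w * x) := mul_le_mul_of_nonneg_left b1 hκ.le
    have b3 : κ * (L * u * w * x) ≤ 4 * κ0 * (L * u * w * x) :=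
      mul_le_mul_of_nonneg_right h2 (by positivity)
    linarith
  have a3 : -t3 ≤ A * f * x := (neg_le_abs t3).trans ht3
  have y2 : 8 * (L * u * w * x) ≤ c / 2 * x ^ 2 + 32 * L ^ 2 / c * (w ^ 2 * u ^ 2) := by
    have : c / 2 * x ^ 2 + 32 * L ^ 2 / c * (w ^ 2 * u ^ 2) - 8 * (L * u * w * x) =
        (c * x - 8 * L * u * w) ^ 2 / (2 * c) := by field_simp; ring
    have h0 : 0 ≤ (c * x - 8 * L * u * w) ^ 2 / (2 * c) := by positivity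
    linarith
  have y3 : 2 * (A * f * x) ≤ κ0 * (c / 2 * x ^ 2) + 2 * A ^ 2 / c / κ0 * f ^ 2 := by
    have : κ0 * (c / 2 * x ^ 2) + 2 * A ^ 2 / c / κ0 * f ^ 2 - 2 * (A * f * x) =
        (κ0 * c * x - 2 * A * f) ^ 2 / (2 * c * κ0) := by field_simp; ring
    have h0 : 0 ≤ (κ0 * c * x - 2 * A * f) ^ 2 / (2 * c * κ0) := by positivity
    linarith
  have y2' := mul_le_mul_of_nonneg_left y2 hκ0.le
  have k1 : 8 ≤ K := by
    have : 0 ≤ 32 * L ^ 2 / c + 2 * A ^ 2 / c := by positivity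
    linarith
  have k2 : 32 * L ^ 2 / c ≤ K := by
    have : 0 ≤ 2 * A ^ 2 / c := by positivity
    linarith
  have k3 : 2 * A ^ 2 / c ≤ K := by
    have : 0 ≤ 32 * L ^ 2 / c := by positivity
    linarith
  have z1 : 8 * (κ0 * (C1 * u ^ 2)) ≤ K * (κ0 * (C1 * u ^ 2)) :=
    mul_le_mul_of_nonneg_right k1 (by positivity)
  have z2 : 32 * L ^ 2 / c * (κ0 * (w ^ 2 * u ^ 2)) ≤ K * (κ0 * (w ^ 2 * u ^ 2)) :=
    mul_le_mul_of_nonneg_right k2 (by positivity)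
  have z3 : 2 * A ^ 2 / c / κ0 * f ^ 2 ≤ K / κ0 * f ^ 2 := by gcongr
  nlinarith

theorem stab' (T : Trip V H) (M : H →L[ℝ] V →L[ℝ] V) (c N : ℝ) (hc : 0 < c) :
    ∃ K : ℝ, 0 < K ∧ ∀ {s0 s1 κ0 C1 : ℝ} {v1 Z1 v2 Z2 F : ℝ → V} {U1 U2 : ℝ → H} {κ : ℝ → ℝ},
      s0 ≤ s1 → 0 < κ0 → 0 ≤ C1 → IsSol T s0 s1 v1 Z1 U1 → IsSol T s0 s1 v2 Z2 U2 →
      (∀ s ∈ Icc s0 s1, κ0 ≤ κ s ∧ κ s ≤ 4 * κ0) →
      MemLp F 2 (volume.restrict (Ioc s0 s1)) →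
      (∀ᵐ s ∂(volume.restrict (Ioc s0 s1)), Z1 s = -(κ s • sq1 (M (U1 s)) (v1 s))) →
      (∀ᵐ s ∂(volume.restrict (Ioc s0 s1)), Z2 s = -(κ s • sq1 (M (U2 s)) (v2 s)) + F s) →
      (∀ s ∈ Icc s0 s1, ∀ u,
        c * ‖u‖ ^ 2 - C1 * ‖T.ι u‖ ^ 2 ≤ T.a (sq1 (M (U1 s)) u) u) →
      (∀ s ∈ Icc s0 s1, ‖M (U1 s)‖ ≤ N ∧ ‖M (U2 s)‖ ≤ N) → U1 s0 = U2 s0 →
      ∀ s ∈ Icc s0 s1, ‖U1 s - U2 s‖ ^ 2 + c * κ0 * ∫ q in s0..s, ‖v1 q - v2 q‖ ^ 2 ≤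
        Real.exp (K * κ0 * (C1 * (s1 - s0) + ∫ q in s0..s1, ‖v2 q‖ ^ 2)) *
          (K / κ0 * ∫ q in s0..s1, ‖F q‖ ^ 2) := by
  obtain ⟨L, hLdef⟩ : ∃ L : ℝ, L = ‖T.a‖ * (2 + 2 * |N|) * ‖M‖ := ⟨_, rfl⟩
  have hL : 0 ≤ L := by rw [hLdef]; positivity
  obtain ⟨K, hK⟩ : ∃ K : ℝ, K = 8 + 32 * L ^ 2 / c + 2 * ‖T.a‖ ^ 2 / c := ⟨_, rfl⟩
  have hK0 : 0 < K := by rw [hK]; positivity
  refine ⟨K, hK0, ?_⟩
  intro s0 s1 κ0 C1 v1 Z1 v2 Z2 F U1 U2 κ h01 hκ0 hC1 h1 h2 hκ hF hZ1 hZ2 gar hN h0 s hs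
  have hd := h1.sub h2
  -- integrability
  have iv : IntegrableOn (fun q => ‖v1 q - v2 q‖ ^ 2) (Ioc s0 s1) :=
    hd.v2.integrable_norm_pow two_ne_zero
  have iv2 : IntegrableOn (fun q => ‖v2 q‖ ^ 2) (Ioc s0 s1) :=
    h2.v2.integrable_norm_pow two_ne_zero
  have iF : IntegrableOn (fun q => ‖F q‖ ^ 2) (Ioc s0 s1) :=
    hF.integrable_norm_pow two_ne_zero
  have ic : IntegrableOn (fun _ : ℝ => C1) (Ioc s0 s1) := integrableOn_const (by simp)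
  have iD : IntegrableOn (fun q => c * κ0 * ‖v1 q - v2 q‖ ^ 2) (Ioc s0 s1) := iv.const_mul _
  have iβ : IntegrableOn (fun q => K * κ0 * (C1 + ‖v2 q‖ ^ 2)) (Ioc s0 s1) :=
    (ic.add iv2).const_mul _
  have if' : IntegrableOn (fun q => K / κ0 * ‖F q‖ ^ 2) (Ioc s0 s1) := iF.const_mul _
  have he : ContinuousOn (fun q => ‖U1 q - U2 q‖ ^ 2) (Icc s0 s1) := hd.cont.norm.pow 2
  have iβe : IntegrableOn (fun q => K * κ0 * (C1 + ‖v2 q‖ ^ 2) * ‖U1 q - U2 q‖ ^ 2) (Ioc s0 s1) :=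
    iβ.mul_continuousOn_of_subset he measurableSet_Ioc isCompact_Icc Ioc_subset_Icc_self
  -- pointwise bound
  have pt : ∀ᵐ q ∂(volume.restrict (Ioc s0 s1)),
      2 * T.a (Z1 q - Z2 q) (v1 q - v2 q) + c * κ0 * ‖v1 q - v2 q‖ ^ 2 ≤
        K * κ0 * (C1 + ‖v2 q‖ ^ 2) * ‖U1 q - U2 q‖ ^ 2 + K / κ0 * ‖F q‖ ^ 2 := by
    filter_upwards [hZ1, hZ2, hd.rep, ae_restrict_mem measurableSet_Ioc] with q e1 e2 e3 hq
    have hq' : q ∈ Icc s0 s1 := Ioc_subset_Icc_self hq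
    have eZ : Z1 q - Z2 q = -(κ q • sq1 (M (U1 q)) (v1 q - v2 q)) -
        κ q • (sq1 (M (U1 q)) - sq1 (M (U2 q))) (v2 q) - F q := by
      rw [e1, e2]
      simp only [map_sub, _root_.sub_apply, smul_sub]
      abel
    have ea : T.a (Z1 q - Z2 q) (v1 q - v2 q) =
        -(κ q * T.a (sq1 (M (U1 q)) (v1 q - v2 q)) (v1 q - v2 q)) -
          κ q * T.a ((sq1 (M (U1 q)) - sq1 (M (U2 q))) (v2 q)) (v1 q - v2 q) -
          T.a (F q) (v1 q - v2 q) := by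
      rw [eZ]
      generalize v1 q - v2 q = x
      generalize sq1 (M (U1 q)) x = y
      generalize (sq1 (M (U1 q)) - sq1 (M (U2 q))) (v2 q) = z
      simp only [map_sub, map_neg, map_smul, _root_.sub_apply,
        _root_.neg_apply, _root_.smul_apply, smul_eq_mul]
    rw [ea]
    have g := gar q hq' (v1 q - v2 q)
    rw [e3] at g
    refine stab_young (A := ‖T.a‖) hc hκ0 (hκ q hq').1 (hκ q hq').2 hC1 hL (norm_nonneg _)
      (norm_nonneg _) (norm_nonneg _) hK g ?_ ?_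
    · have n1 := sq1_sub_norm (N := |N|) _ _ ((hN q hq').1.trans (le_abs_self N))
        ((hN q hq').2.trans (le_abs_self N))
      have n2 : ‖M (U1 q) - M (U2 q)‖ ≤ ‖M‖ * ‖U1 q - U2 q‖ := by
        rw [← map_sub]; exact M.le_opNorm _
      have n3 : ‖(sq1 (M (U1 q)) - sq1 (M (U2 q))) (v2 q)‖ ≤
          (2 + 2 * |N|) * (‖M‖ * ‖U1 q - U2 q‖) * ‖v2 q‖ := by
        refine (ContinuousLinearMap.le_opNorm _ _).trans ?_
        gcongr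
        refine n1.trans ?_
        gcongr
      rw [← Real.norm_eq_abs]
      refine (T.a.le_opNorm₂ _ _).trans ?_
      calc ‖T.a‖ * ‖(sq1 (M (U1 q)) - sq1 (M (U2 q))) (v2 q)‖ * ‖v1 q - v2 q‖
          ≤ ‖T.a‖ * ((2 + 2 * |N|) * (‖M‖ * ‖U1 q - U2 q‖) * ‖v2 q‖) * ‖v1 q - v2 q‖ := by
            gcongr
        _ = L * ‖U1 q - U2 q‖ * ‖v2 q‖ * ‖v1 q - v2 q‖ := by rw [hLdef]; ring
    · rw [← Real.norm_eq_abs]
      exact T.a.le_opNorm₂ _ _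
  have key := gronwall_int (s0 := s0) (s1 := s1) (e := fun q => ‖U1 q - U2 q‖ ^ 2)
    (D := fun q => c * κ0 * ‖v1 q - v2 q‖ ^ 2) (β := fun q => K * κ0 * (C1 + ‖v2 q‖ ^ 2))
    (f := fun q => K / κ0 * ‖F q‖ ^ 2) he (fun _ _ => by positivity) iD iβ if'
    (fun _ => by positivity) (fun _ => by positivity) (fun _ => by positivity) ?_ hs
  · have hsub : Ioc s0 s ⊆ Ioc s0 s1 := Ioc_subset_Ioc_right hs.2
    have m1 : ∫ q in s0..s, K * κ0 * (C1 + ‖v2 q‖ ^ 2) ≤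
        K * κ0 * (C1 * (s1 - s0) + ∫ q in s0..s1, ‖v2 q‖ ^ 2) := by
      have : ∫ q in s0..s1, K * κ0 * (C1 + ‖v2 q‖ ^ 2) =
          K * κ0 * (C1 * (s1 - s0) + ∫ q in s0..s1, ‖v2 q‖ ^ 2) := by
        rw [intervalIntegral.integral_const_mul, intervalIntegral.integral_add
          ((intervalIntegrable_iff_integrableOn_Ioc_of_le h01).2 ic)
          ((intervalIntegrable_iff_integrableOn_Ioc_of_le h01).2 iv2)]
        simp [mul_comm]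
      rw [← this, intervalIntegral.integral_of_le hs.1, intervalIntegral.integral_of_le h01]
      exact setIntegral_mono_set iβ (Filter.Eventually.of_forall fun _ => by positivity)
        hsub.eventuallyLE
    have m2 : ∫ q in s0..s, K / κ0 * ‖F q‖ ^ 2 ≤ K / κ0 * ∫ q in s0..s1, ‖F q‖ ^ 2 := by
      rw [← intervalIntegral.integral_const_mul, intervalIntegral.integral_of_le hs.1,
        intervalIntegral.integral_of_le h01]
      exact setIntegral_mono_set if' (Filter.Eventually.of_forall fun _ => by positivity)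
        hsub.eventuallyLE
    have m3 : 0 ≤ ∫ q in s0..s, K / κ0 * ‖F q‖ ^ 2 :=
      intervalIntegral.integral_nonneg hs.1 fun _ _ => by positivity
    simp only [h0, sub_self, norm_zero, ne_eq, OfNat.ofNat_ne_zero, not_false_eq_true, zero_pow,
      zero_add] at key
    rw [intervalIntegral.integral_const_mul] at key
    refine key.trans ?_
    gcongr
  · intro r hr
    have hsub : Ioc s0 r ⊆ Ioc s0 s1 := Ioc_subset_Ioc_right hr.2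
    obtain ⟨ie, ee⟩ := energy_one T hd le_rfl hr.1 hr.2
    have iD' := (intervalIntegrable_iff_integrableOn_Ioc_of_le hr.1).2 (iD.mono_set hsub)
    rw [ee, add_assoc, ← intervalIntegral.integral_add ie iD']
    gcongr
    rw [intervalIntegral.integral_of_le hr.1, intervalIntegral.integral_of_le hr.1]
    refine integral_mono_ae ((intervalIntegrable_iff_integrableOn_Ioc_of_le hr.1).1 (ie.add iD'))
      ((iβe.add if').mono_set hsub) ?_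
    exact ae_restrict_of_ae_restrict_of_subset hsub pt

end Crest.Agent.R213
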