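import Crest.Agent.R213.Ang1
import Crest.Agent.R213.Stab

/-!
# R213 / Ang2 : Angenent's trick, smoothness in time
-/

set_option autoImplicit false

open MeasureTheory Set Filter Topology
open scoped InnerProductSpace ContDiff

namespace Crest.Agent.R213

variable {V H : Type} [NormedAddCommGroup V] [InnerProductSpace ℝ V] [CompleteSpace V]
  [NormedAddCommGroup H] [InnerProductSpace ℝ H] [CompleteSpace H]

/-- uniqueness for the quasilinear equation -/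
theorem Ang_uniq (T : Trip V H) (M : H →L[ℝ] V →L[ℝ] V) {s0 s1 κ0 c C1 : ℝ} {v1 Z1 v2 Z2 : ℝ → V}
    {U1 U2 : ℝ → H} {κ : ℝ → ℝ} (h01 : s0 ≤ s1) (hc : 0 < c) (hκ0 : 0 < κ0) (hC1 : 0 ≤ C1)
    (h1 : IsSol T s0 s1 v1 Z1 U1) (h2 : IsSol T s0 s1 v2 Z2 U2)
    (hκ : ∀ s ∈ Icc s0 s1, κ0 ≤ κ s ∧ κ s ≤ 4 * κ0)
    (hZ1 : ∀ᵐ s ∂(volume.restrict (Ioc s0 s1)), Z1 s = -(κ s • sq1 (M (U1 s)) (v1 s)))
    (hZ2 : ∀ᵐ s ∂(volume.restrict (Ioc s0 s1)), Z2 s = -(κ s • sq1 (M (U2 s)) (v2 s)))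
    (gar : ∀ s ∈ Icc s0 s1, ∀ u, c * ‖u‖ ^ 2 - C1 * ‖T.ι u‖ ^ 2 ≤ T.a (sq1 (M (U1 s)) u) u)
    (h0 : U1 s0 = U2 s0) : U1 s1 = U2 s1 := by
  obtain ⟨N1, a1⟩ := isCompact_Icc.exists_bound_of_continuousOn (M.continuous.comp_continuousOn h1.cont)
  obtain ⟨N2, a2⟩ := isCompact_Icc.exists_bound_of_continuousOn (M.continuous.comp_continuousOn h2.cont)
  obtain ⟨K, -, hK⟩ := stab' T M c (max N1 N2) hc
  have a3 := hK (F := fun _ => 0) h01 hκ0 hC1 h1 h2 hκ (memLp_const 0) hZ1 (by simpa using hZ2) gar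
    (fun s hs => ⟨(a1 s hs).trans (le_max_left _ _), (a2 s hs).trans (le_max_right _ _)⟩) h0 s1
    (right_mem_Icc.2 h01)
  have a4 : 0 ≤ c * κ0 * ∫ q in s0..s1, ‖v1 q - v2 q‖ ^ 2 :=
    mul_nonneg (by positivity) (intervalIntegral.integral_nonneg h01 fun _ _ => sq_nonneg _)
  simp only [norm_zero, ne_eq, OfNat.ofNat_ne_zero, not_false_eq_true, zero_pow,
    intervalIntegral.integral_zero, mul_zero] at a3
  exact sub_eq_zero.1 (norm_eq_zero.1 (pow_eq_zero_iff two_ne_zero |>.1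
    (le_antisymm (by linarith) (sq_nonneg _))))

/-- the smooth family of solutions of the dilated equations on a short window -/
theorem Ang_fam (T : Trip V H) (M : H →L[ℝ] V →L[ℝ] V) {r0 r1 c C K E N : ℝ} {v Z : ℝ → V} {U : ℝ → H}
    (h : r0 ≤ r1) (hs : IsSol T r0 r1 v Z U) (hc : 0 < c) (hC : 0 ≤ C)
    (hZ : ∀ᵐ s ∂(volume.restrict (Ioc r0 r1)), Z s = -(Real.exp (-s) • sq1 (M (U s)) (v s)))
    (gar : ∀ s ∈ Icc r0 r1, ∀ u,
      c * ‖u‖ ^ 2 - C * ‖T.ι u‖ ^ 2 ≤ Real.exp (-s) * T.a (sq1 (M (U s)) u) u)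
    (hK : 0 ≤ K) (hK' : Real.exp (2 * C * (r1 - r0)) * (‖T.a‖ ^ 2 / c) ≤ K ^ 2)
    (hE : Real.exp (-r0) ≤ E) (hN : ∀ s ∈ Icc r0 r1, ‖M (U s)‖ ≤ N)
    (hv : E * ((2 + 2 * (N + 1)) * (‖M‖ * K)) * √(∫ q in r0..r1, ‖v q‖ ^ 2) ≤ 1 / 4) :
    ∃ g : ℝ → H, ContDiffAt ℝ ∞ g 1 ∧ ∀ᶠ l in 𝓝 (1 : ℝ), ∃ v2 Z2 U2, IsSol T r0 r1 v2 Z2 U2 ∧
      (∀ᵐ s ∂(volume.restrict (Ioc r0 r1)),
        Z2 s = -((l * Real.exp (-(l * s + (r0 - l * r0)))) • sq1 (M (U2 s)) (v2 s))) ∧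
      U2 r0 = U r0 ∧ U2 r1 = g l := by
  obtain ⟨k, hk, hk'⟩ := Ang_k r0 r1
  obtain ⟨act, ha, ha'⟩ := Ang_act (V := V) h
  let U0 : C(Icc r0 r1, H) := ⟨_, hs.cont.domRestrict⟩
  let j := (ContinuousLinearMap.toSpanSingleton ℝ (1 : V →L[ℝ] V)).compLeftContinuous ℝ (Icc r0 r1)
  let Mc := M.compLeftContinuous ℝ (Icc r0 r1)
  let B : ℝ × C(Icc r0 r1, H) → C(Icc r0 r1, V →L[ℝ] V) := fun p => j (k p.1) * (1 + Mc (U0 + p.2)) ^ 2
  have hB : ∀ l W s, B (l, W) s = (l * Real.exp (-(l * s + (r0 - l * r0)))) • sq1 (M (U s + W s)) :=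
    fun l W s => by rw [← hk']; exact smul_one_mul (k l s) (sq1 (M (U s + W s)))
  have hB0 : ∀ s, B (1, 0) s = Real.exp (-s) • sq1 (M (U s)) := fun s => by simp [hB]
  have hj : ContDiff ℝ ∞ j := ContinuousLinearMap.contDiff (𝕜 := ℝ) (E := C(Icc r0 r1, ℝ))
    (F := C(Icc r0 r1, V →L[ℝ] V)) j
  have hMc : ContDiff ℝ ∞ Mc := ContinuousLinearMap.contDiff (𝕜 := ℝ) (E := C(Icc r0 r1, H))
    (F := C(Icc r0 r1, V →L[ℝ] V)) Mc
  have hBd : ContDiff ℝ ∞ B := ContDiff.mul (𝕜 := ℝ) (𝔸 := C(Icc r0 r1, V →L[ℝ] V))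
    (hj.comp (hk.comp contDiff_fst)) (ContDiff.pow (𝕜 := ℝ) (𝔸 := C(Icc r0 r1, V →L[ℝ] V))
      (contDiff_const.add (hMc.comp (contDiff_const.add contDiff_snd))) 2)
  clear_value B
  obtain ⟨S, hS⟩ := Ang_sol T h (B (1, 0)) hc hC (fun s u => by simpa [hB0] using gar s s.2 u) hK hK'
  have hE0 : 0 ≤ E := (Real.exp_pos _).le.trans hE
  have hN0 : 0 ≤ N := (norm_nonneg _).trans (hN r0 (left_mem_Icc.2 h))
  have hv0 : ‖hs.v2.toLp v‖ = √(∫ q in r0..r1, ‖v q‖ ^ 2) := by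
    rw [← Real.sqrt_sq (norm_nonneg _), ← Ang_norm h, intervalIntegral.integral_of_le h,
      intervalIntegral.integral_of_le h]
    exact congrArg _ (integral_congr_ae (hs.v2.coeFn_toLp.mono fun s e => by simp only [e]))
  obtain ⟨φ, hφ, hφ'⟩ := Ang_ift
    (N := fun p => act (B (p.1, (S p.2).1) - B (1, 0)) (hs.v2.toLp v + (S p.2).2))
    (ContDiff.contDiffAt (by fun_prop)) (by simp) (by
      have c1 : Continuous fun F : Lp V 2 (volume.restrict (Ioc r0 r1)) => ‖M‖ * (K * ‖F‖) := by fun_prop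
      have c2 : Continuous fun F => E * ((2 + 2 * (N + 1)) * (‖M‖ * K)) * ‖(S F).2‖ := by fun_prop
      filter_upwards [(c1.tendsto 0).eventually_lt_const (u := 1) (by simp),
        (c2.tendsto 0).eventually_lt_const (u := 1 / 4) (by simp)] with F b1 b2
      have b3 : ‖B (1, (S F).1) - B (1, 0)‖ ≤ E * ((2 + 2 * (N + 1)) * (‖M‖ * K)) * ‖F‖ := by
        refine (ContinuousMap.norm_le _ (by positivity)).2 fun s => ?_
        have b4 : ‖M ((S F).1 s)‖ ≤ ‖M‖ * (K * ‖F‖) :=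
          M.le_opNorm_of_le (((S F).1.norm_coe_le_norm s).trans (hS F).1)
        have b5 := sq1_sub_norm (M (U s + (S F).1 s)) (M (U s)) (N := N + 1)
          (by rw [map_add]; exact (norm_add_le _ _).trans (add_le_add (hN s s.2) (b4.trans b1.le)))
          ((hN s s.2).trans (by linarith))
        rw [map_add M, add_sub_cancel_left, ← map_add M] at b5
        rw [ContinuousMap.sub_apply, hB, hB0, one_mul, one_mul, one_mul, sub_self, add_zero, ← smul_sub,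
          norm_smul, Real.norm_of_nonneg (Real.exp_pos _).le, mul_assoc, mul_assoc, mul_assoc]
        exact mul_le_mul ((Real.exp_le_exp.2 (neg_le_neg s.2.1)).trans hE)
          (b5.trans (by gcongr)) (norm_nonneg _) hE0
      refine (ha _ _).trans ((mul_le_mul b3 (norm_add_le _ _) (norm_nonneg _) (by positivity)).trans ?_)
      rw [hv0]
      nlinarith [norm_nonneg F])
  refine ⟨fun l => U r1 + ContinuousMap.evalCLM ℝ (projIcc r0 r1 h r1) (S (φ l)).1, by fun_prop,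
    hφ'.mono fun l hl => ⟨_, _, _, hs.add_smul (hS (φ l)).2.1 1, ?_, by simp only [(hS (φ l)).2.2]; simp,
      by simp⟩⟩
  filter_upwards [hZ, ae_restrict_mem measurableSet_Ioc, Lp.coeFn_add (hs.v2.toLp v) (S (φ l)).2,
    hs.v2.coeFn_toLp, ha' (B (l, (S (φ l)).1) - B (1, 0)) (hs.v2.toLp v + (S (φ l)).2),
    Lp.coeFn_neg (φ l)] with s b1 b2 b3 b4 b5 b6
  rw [(neg_eq_of_add_eq_zero_right hl).symm, b6, b3, Pi.neg_apply, Pi.add_apply, b4, neg_eq_iff_eq_neg] at b5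
  rw [b1, b5, ContinuousMap.sub_apply, hB0, hB, projIcc_of_mem h (Ioc_subset_Icc_self b2)]
  simp only [one_smul, sub_apply, smul_apply, map_add, smul_add]
  abel

theorem Ang_main (T : Trip V H) (M : H →L[ℝ] V →L[ℝ] V) {s0 s1 c C1 : ℝ}
    {v Z : ℝ → V} {U : ℝ → H} (h : IsSol T s0 s1 v Z U) (hc : 0 < c)
    (hZ : ∀ᵐ s ∂(volume.restrict (Ioc s0 s1)),
      Z s = -(Real.exp (-s) • sq1 (M (U s)) (v s)))
    (gar : ∀ s ∈ Icc s0 s1, ∀ u,
      c * ‖u‖ ^ 2 - C1 * ‖T.ι u‖ ^ 2 ≤ T.a (sq1 (M (U s)) u) u) :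
    ContDiffOn ℝ ∞ U (Ioo s0 s1) := by
  refine fun r1 ⟨h0, h1⟩ => ContDiffAt.contDiffWithinAt ?_
  obtain ⟨C, hC, gar⟩ : ∃ C, 0 ≤ C ∧ ∀ s ∈ Icc s0 s1, ∀ u,
      c * ‖u‖ ^ 2 - C * ‖T.ι u‖ ^ 2 ≤ T.a (sq1 (M (U s)) u) u :=
    ⟨max C1 0, le_max_right _ _, fun s hs u => le_trans (by gcongr; exact le_max_left _ _) (gar s hs u)⟩
  obtain ⟨N, hN⟩ := isCompact_Icc.exists_bound_of_continuousOn (M.continuous.comp_continuousOn h.cont)
  obtain ⟨K, hK, hK'⟩ : ∃ K, 0 ≤ K ∧ Real.exp (2 * (Real.exp (-s0) * C) * (s1 - s0)) *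
      (‖T.a‖ ^ 2 / (Real.exp (-s1) * c)) ≤ K ^ 2 := ⟨√_, Real.sqrt_nonneg _, (Real.sq_sqrt (by positivity)).ge⟩
  have hP := intervalIntegral.continuousOn_primitive_interval_left (μ := volume) (a := s0) (b := r1)
    (f := fun q => ‖v q‖ ^ 2) (by
      rw [uIcc_of_le h0.le, integrableOn_Icc_iff_integrableOn_Ioc]
      exact IntegrableOn.mono_set h.v2.integrable_norm_pow' (Ioc_subset_Ioc_right h1.le))
  rw [uIcc_of_le h0.le] at hP
  have hP' := ((hP r1 (right_mem_Icc.2 h0.le)).sqrt.tendsto.const_mul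
    (Real.exp (-s0) * ((2 + 2 * (N + 1)) * (‖M‖ * K)))).eventually_lt_const (u := 1 / 4) (by simp)
  obtain ⟨r0, a1, a2, a3⟩ : ∃ r0, Real.exp (-s0) * ((2 + 2 * (N + 1)) * (‖M‖ * K)) *
      √(∫ q in r0..r1, ‖v q‖ ^ 2) < 1 / 4 ∧ r0 ∈ Ioo s0 r1 ∧ r0 ∈ Ioo (r1 - 1 / 2) r1 :=
    ((hP'.filter_mono (nhdsWithin_le_of_mem (Icc_mem_nhdsLT h0))).and
      (Eventually.and (Ioo_mem_nhdsLT h0) (Ioo_mem_nhdsLT (by linarith)))).exists
  have hI : Icc r0 r1 ⊆ Icc s0 s1 := Icc_subset_Icc a2.1.le h1.le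
  obtain ⟨g, hg, hg'⟩ := Ang_fam T M a2.2.le (h.mono a2.1.le a2.2.le h1.le)
    (c := Real.exp (-s1) * c) (C := Real.exp (-s0) * C) (by positivity) (by positivity)
    (ae_restrict_of_ae_restrict_of_subset (Ioc_subset_Ioc a2.1.le h1.le) hZ) (fun s hs u => by
      refine le_trans ?_ (mul_le_mul_of_nonneg_left (gar s (hI hs) u) (Real.exp_pos _).le)
      rw [mul_sub, mul_assoc, mul_assoc]
      gcongr
      exacts [(hI hs).2, (hI hs).1]) hK (le_trans (by gcongr; exact a2.1.le) hK')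
    (Real.exp_le_exp.2 (neg_le_neg a2.1.le)) (fun s hs => hN s (hI hs)) a1.le
  have hd : 0 < r1 - r0 := sub_pos.2 a2.2
  have key : ∀ᶠ l in 𝓝 (1 : ℝ), U (l * r1 + (r0 - l * r0)) = g l := by
    have c1 : Continuous fun l : ℝ => l * r1 + (r0 - l * r0) := by fun_prop
    filter_upwards [hg', Ioo_mem_nhds zero_lt_one one_lt_two, (c1.tendsto 1).eventually_lt_const (u := s1)
      (by simpa using h1)] with l ⟨v2, Z2, U2, b1, b2, b3, b4⟩ ⟨b5, b6⟩ b7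
    have b8 : ∀ s ∈ Icc r0 r1, l * s + (r0 - l * r0) ∈ Icc s0 s1 := fun s hs =>
      ⟨by nlinarith [hs.1, a2.1], by nlinarith [hs.2]⟩
    have b9 := (h.mono (b8 _ (left_mem_Icc.2 a2.2.le)).1 (by nlinarith) b7.le).affine b5
    rw [← b4]
    refine Ang_uniq T M (κ0 := l * Real.exp (-(l * r1 + (r0 - l * r0)))) a2.2.le hc (by positivity) hC b9 b1
      (fun s hs => ⟨by gcongr; exact hs.2, ?_⟩) ?_ b2 (fun s hs => gar _ (b8 s hs)) (by simp [b3])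
    · rw [mul_left_comm]
      refine mul_le_mul_of_nonneg_left ((Real.exp_le_exp.2 (?_ : _ ≤ 1 + -(l * r1 + (r0 - l * r0)))).trans ?_)
        b5.le
      · nlinarith [hs.1, a3.1]
      · rw [Real.exp_add]
        gcongr
        linarith [Real.exp_one_lt_d9]
    · have q : Measure.QuasiMeasurePreserving (fun s => l * s + (r0 - l * r0)) volume volume :=
        (measurePreserving_add_right volume _).quasiMeasurePreserving.comp
          ⟨by fun_prop, by rw [Real.map_volume_mul_left b5.ne']; exact Measure.smul_absolutelyContinuous⟩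
      filter_upwards [ae_restrict_of_ae (q.ae ((ae_restrict_iff' measurableSet_Ioc).1 hZ)),
        ae_restrict_mem measurableSet_Ioc] with s d1 d2
      rw [d1 ⟨by nlinarith [d2.1, a2.1], (b8 s (Ioc_subset_Icc_self d2)).2⟩, smul_neg, smul_smul]
  have e1 : (r1 - r0) / (r1 - r0) = 1 := div_self hd.ne'
  have c2 : ContDiff ℝ ∞ fun s : ℝ => (s - r0) / (r1 - r0) := by fun_prop
  refine ((e1 ▸ hg).comp r1 c2.contDiffAt).congr_of_eventuallyEq
    ((c2.continuous.continuousAt.eventually (e1 ▸ key)).mono fun s hs => ?_)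
  rw [Function.comp, ← hs]
  congr 1
  field_simp
  ring

end Crest.Agent.R213
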