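import Crest.Agent.R213.Defs

/-! # R213 / ApxB : a symbol class for the bounds of the approximate solution

`Bd n m F`: `F` is jointly smooth and `|∂ₓ^j F(s,x)| ≤ C (x + lam s)^{m-j}` for `j ≤ n`, `s ≥ 0`, `x ∈ [0,1]`. -/

set_option autoImplicit false

open Set Filter Topology
open scoped ContDiff

noncomputable section

namespace Crest.Agent.R213
namespace ApxP

def Sm (F : ℝ → ℝ → ℝ) : Prop := ContDiff ℝ ∞ (Function.uncurry F)
def DD (F : ℝ → ℝ → ℝ) : ℝ → ℝ → ℝ := fun s => deriv (F s)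

theorem Sm.slice {F : ℝ → ℝ → ℝ} (h : Sm F) (s : ℝ) : ContDiff ℝ ∞ (F s) :=
  ContDiff.comp (g := Function.uncurry F) (f := fun x : ℝ => (s, x)) h
    (contDiff_const.prodMk contDiff_id)

theorem Sm.diff {F : ℝ → ℝ → ℝ} (h : Sm F) (s x : ℝ) : DifferentiableAt ℝ (F s) x :=
  ((h.slice s).differentiable (by simp)) x

theorem Sm.dd {F : ℝ → ℝ → ℝ} (h : Sm F) : Sm (DD F) := by
  have h1 : ContDiff ℝ ∞ (Function.uncurry fun (p : ℝ × ℝ) (x : ℝ) => F p.1 x) :=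
    ContDiff.comp (g := Function.uncurry F) (f := fun q : (ℝ × ℝ) × ℝ => (q.1.1, q.2)) h
      (by fun_prop)
  exact ContDiff.fderiv_apply (𝕜 := ℝ) (n := ∞) (m := ∞)
    (f := fun (p : ℝ × ℝ) (x : ℝ) => F p.1 x) (g := Prod.snd) (k := fun _ => (1 : ℝ)) h1
    contDiff_snd contDiff_const (by simp)

theorem Sm.mul {F G : ℝ → ℝ → ℝ} (hF : Sm F) (hG : Sm G) : Sm fun s x => F s x * G s x :=
  ContDiff.mul (f := Function.uncurry F) (g := Function.uncurry G) hF hG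

theorem Sm.add {F G : ℝ → ℝ → ℝ} (hF : Sm F) (hG : Sm G) : Sm fun s x => F s x + G s x :=
  ContDiff.add (f := Function.uncurry F) (g := Function.uncurry G) hF hG

theorem Sm.inv {F : ℝ → ℝ → ℝ} (hF : Sm F) (h0 : ∀ s x, F s x ≠ 0) : Sm fun s x => (F s x)⁻¹ :=
  ContDiff.inv (f := Function.uncurry F) hF fun p => h0 p.1 p.2

theorem Sm.fixed {f : ℝ → ℝ} (hf : ContDiff ℝ ∞ f) : Sm fun _ x => f x :=
  ContDiff.comp (g := f) (f := fun p : ℝ × ℝ => p.2) hf contDiff_snd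

theorem Sm.scale {f : ℝ → ℝ} (hf : ContDiff ℝ ∞ f) (a : ℕ) :
    Sm fun s x => Real.exp (s / 2) ^ a * f (Real.exp (s / 2) * x) := by
  show ContDiff ℝ ∞ fun p : ℝ × ℝ => Real.exp (p.1 / 2) ^ a * f (Real.exp (p.1 / 2) * p.2)
  have h1 : ContDiff ℝ ∞ fun p : ℝ × ℝ => Real.exp (p.1 / 2) := by fun_prop
  exact (h1.pow a).mul (hf.comp (h1.mul contDiff_snd))

def B0 (m : ℤ) (F : ℝ → ℝ → ℝ) : Prop :=
  ∃ C, 0 ≤ C ∧ ∀ s, 0 ≤ s → ∀ x ∈ Icc (0 : ℝ) 1, |F s x| ≤ C * (x + lam s) ^ m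

def Bd : ℕ → ℤ → (ℝ → ℝ → ℝ) → Prop
  | 0, m, F => Sm F ∧ B0 m F
  | n + 1, m, F => (Sm F ∧ B0 m F) ∧ Bd n (m - 1) (DD F)

theorem lam_pos (s : ℝ) : 0 < lam s := Real.exp_pos _
theorem lam_le {s : ℝ} (hs : 0 ≤ s) : lam s ≤ 1 := Real.exp_le_one_iff.2 (by linarith)
theorem lam_mul (s : ℝ) : Real.exp (s / 2) * lam s = 1 := by
  unfold lam; rw [← Real.exp_add]; simp
theorem r_pos (s : ℝ) {x : ℝ} (hx : x ∈ Icc (0 : ℝ) 1) : 0 < x + lam s := by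
  have := lam_pos s; have := hx.1; linarith

theorem Bd.sm : ∀ {n : ℕ} {m : ℤ} {F : ℝ → ℝ → ℝ}, Bd n m F → Sm F
  | 0, _, _, h => h.1
  | _ + 1, _, _, h => h.1.1

theorem Bd.b0 : ∀ {n : ℕ} {m : ℤ} {F : ℝ → ℝ → ℝ}, Bd n m F → B0 m F
  | 0, _, _, h => h.2
  | _ + 1, _, _, h => h.1.2

theorem Bd.dd {n : ℕ} {m : ℤ} {F : ℝ → ℝ → ℝ} (h : Bd (n + 1) m F) : Bd n (m - 1) (DD F) := h.2

theorem Bd.pred : ∀ {n : ℕ} {m : ℤ} {F : ℝ → ℝ → ℝ}, Bd (n + 1) m F → Bd n m F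
  | 0, _, _, h => h.1
  | _ + 1, _, _, h => ⟨h.1, Bd.pred h.2⟩

theorem Bd.le {n n' : ℕ} {m : ℤ} {F : ℝ → ℝ → ℝ} (h : Bd n m F) (hn : n' ≤ n) : Bd n' m F := by
  induction hn with
  | refl => exact h
  | step _ ih => exact ih h.pred

theorem B0.pred {m : ℤ} {F : ℝ → ℝ → ℝ} (h : B0 m F) : B0 (m - 1) F := by
  obtain ⟨C, hC, h⟩ := h
  refine ⟨2 * C, by positivity, fun s hs x hx => (h s hs x hx).trans ?_⟩
  have hr := r_pos s hx
  have h2 : x + lam s ≤ 2 := by have := lam_le hs; have := hx.2; linarith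
  have h3 : (x + lam s) ^ m = (x + lam s) ^ (m - 1) * (x + lam s) := by
    rw [zpow_sub_one₀ hr.ne', mul_assoc, inv_mul_cancel₀ hr.ne', mul_one]
  rw [h3]
  have h4 : 0 ≤ C * (x + lam s) ^ (m - 1) := mul_nonneg hC (zpow_pos hr _).le
  nlinarith

theorem Bd.mpred : ∀ {n : ℕ} {m : ℤ} {F : ℝ → ℝ → ℝ}, Bd n m F → Bd n (m - 1) F
  | 0, _, _, h => ⟨h.1, h.2.pred⟩
  | _ + 1, _, _, h => ⟨⟨h.1.1, h.1.2.pred⟩, Bd.mpred h.2⟩

theorem Bd.cast {n : ℕ} {m m' : ℤ} {F : ℝ → ℝ → ℝ} (h : Bd n m F) (hm : m = m') : Bd n m' F :=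
  hm ▸ h

theorem Bd.congr {n : ℕ} {m : ℤ} {F G : ℝ → ℝ → ℝ} (h : Bd n m F) (hm : ∀ s x, G s x = F s x) :
    Bd n m G := by
  have : G = F := funext fun s => funext fun x => hm s x
  rw [this]; exact h

theorem B0.add {m : ℤ} {F G : ℝ → ℝ → ℝ} (hF : B0 m F) (hG : B0 m G) :
    B0 m fun s x => F s x + G s x := by
  obtain ⟨C, hC, h⟩ := hF
  obtain ⟨D, hD, h'⟩ := hG
  refine ⟨C + D, by positivity, fun s hs x hx => (abs_add_le _ _).trans ?_⟩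
  have := h s hs x hx; have := h' s hs x hx
  linarith

theorem B0.mul {m m' : ℤ} {F G : ℝ → ℝ → ℝ} (hF : B0 m F) (hG : B0 m' G) :
    B0 (m + m') fun s x => F s x * G s x := by
  obtain ⟨C, hC, h⟩ := hF
  obtain ⟨D, hD, h'⟩ := hG
  refine ⟨C * D, by positivity, fun s hs x hx => ?_⟩
  have hr := r_pos s hx
  rw [abs_mul, zpow_add₀ hr.ne']
  calc |F s x| * |G s x| ≤ (C * (x + lam s) ^ m) * (D * (x + lam s) ^ m') :=
        mul_le_mul (h s hs x hx) (h' s hs x hx) (abs_nonneg _)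
          (mul_nonneg hC (zpow_pos hr _).le)
    _ = _ := by ring

theorem Bd.add : ∀ {n : ℕ} {m : ℤ} {F G : ℝ → ℝ → ℝ}, Bd n m F → Bd n m G →
    Bd n m fun s x => F s x + G s x
  | 0, _, _, _, h, h' => ⟨h.1.add h'.1, h.2.add h'.2⟩
  | _ + 1, _, F, G, h, h' => ⟨⟨h.1.1.add h'.1.1, h.1.2.add h'.1.2⟩,
      (Bd.add h.2 h'.2).congr fun s x =>
        ((h.1.1.diff s x).hasDerivAt.add (h'.1.1.diff s x).hasDerivAt).deriv⟩

theorem Bd.mul : ∀ {n : ℕ} {m m' : ℤ} {F G : ℝ → ℝ → ℝ}, Bd n m F → Bd n m' G →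
    Bd n (m + m') fun s x => F s x * G s x
  | 0, _, _, _, _, h, h' => ⟨h.1.mul h'.1, h.2.mul h'.2⟩
  | _ + 1, m, m', F, G, h, h' => ⟨⟨h.1.1.mul h'.1.1, h.1.2.mul h'.1.2⟩,
      (((Bd.mul h.2 h'.pred).cast (by ring)).add ((Bd.mul h.pred h'.2).cast (by ring))).congr
        fun s x => ((h.1.1.diff s x).hasDerivAt.mul (h'.1.1.diff s x).hasDerivAt).deriv⟩

theorem Bd.fixed : ∀ (n : ℕ) {f : ℝ → ℝ}, ContDiff ℝ ∞ f → Bd n 0 fun _ x => f x := by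
  have h0 : ∀ {f : ℝ → ℝ}, ContDiff ℝ ∞ f → B0 0 fun _ x => f x := by
    intro f hf
    obtain ⟨C, hC⟩ := isCompact_Icc.exists_bound_of_continuousOn
      (s := Icc (0 : ℝ) 1) hf.continuous.continuousOn
    refine ⟨max C 0, le_max_right _ _, fun s _ x hx => ?_⟩
    rw [zpow_zero, mul_one]
    exact (hC x hx).trans (le_max_left _ _)
  intro n
  induction n with
  | zero => exact fun hf => ⟨Sm.fixed hf, h0 hf⟩
  | succ n ih =>
    intro f hf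
    exact ⟨⟨Sm.fixed hf, h0 hf⟩, (ih (contDiff_infty_iff_deriv.1 hf).2).mpred⟩

theorem Bd.const (n : ℕ) (c : ℝ) : Bd n 0 fun _ _ => c := Bd.fixed n (f := fun _ => c) contDiff_const

theorem Bd.cmul {n : ℕ} {m : ℤ} {F : ℝ → ℝ → ℝ} (c : ℝ) (h : Bd n m F) :
    Bd n m fun s x => c * F s x := ((Bd.const n c).mul h).cast (zero_add m)

theorem Bd.fmul {n : ℕ} {m : ℤ} {F : ℝ → ℝ → ℝ} {f : ℝ → ℝ} (hf : ContDiff ℝ ∞ f)
    (h : Bd n m F) : Bd n m fun s x => f x * F s x := ((Bd.fixed n hf).mul h).cast (zero_add m)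

theorem Bd.id (n : ℕ) : Bd n 1 fun _ x => x := by
  have h0 : Sm (fun _ x => x) ∧ B0 1 fun _ x => x := by
    refine ⟨Sm.fixed contDiff_id, 1, zero_le_one, fun s _ x hx => ?_⟩
    rw [abs_of_nonneg hx.1, zpow_one, one_mul]
    have := lam_pos s; linarith
  cases n with
  | zero => exact h0
  | succ n =>
    refine ⟨h0, ((Bd.const n 1).cast (by norm_num)).congr fun s x => ?_⟩
    simp [DD]

theorem Bd.xmul {n : ℕ} {m : ℤ} {F : ℝ → ℝ → ℝ} (h : Bd n m F) :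
    Bd n (m + 1) fun s x => x * F s x := ((Bd.id n).mul h).cast (add_comm _ _)

theorem Bd.inv {c : ℝ} (hc : 0 < c) : ∀ {n : ℕ} {F : ℝ → ℝ → ℝ}, Bd n 0 F → (∀ s x, c ≤ F s x) →
    Bd n 0 fun s x => (F s x)⁻¹ := by
  have h0 : ∀ {F : ℝ → ℝ → ℝ}, Sm F → (∀ s x, c ≤ F s x) →
      Sm (fun s x => (F s x)⁻¹) ∧ B0 0 fun s x => (F s x)⁻¹ := by
    intro F hF hl
    refine ⟨hF.inv fun s x => (hc.trans_le (hl s x)).ne', c⁻¹, by positivity, fun s _ x _ => ?_⟩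
    rw [zpow_zero, mul_one, abs_of_pos (inv_pos.2 (hc.trans_le (hl s x)))]
    exact inv_anti₀ hc (hl s x)
  intro n
  induction n with
  | zero => exact fun h hl => h0 h.1 hl
  | succ n ih =>
    intro F h hl
    have hi := ih h.pred hl
    refine ⟨h0 h.1.1 hl, ((((h.2.mul hi).mul hi).cmul (-1)).cast (by ring)).congr fun s x => ?_⟩
    have hne : F s x ≠ 0 := (hc.trans_le (hl s x)).ne'
    have := ((h.1.1.diff s x).hasDerivAt.inv hne).deriv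
    show deriv (fun x => (F s x)⁻¹) x = _
    rw [show (fun x => (F s x)⁻¹) = (F s)⁻¹ from rfl, this]
    simp only [DD]
    field_simp

theorem Bd.scale : ∀ (n a : ℕ) {f : ℝ → ℝ}, ContDiff ℝ ∞ f →
    (∀ j ≤ n, ∃ C, ∀ y, 0 ≤ y → |iteratedDeriv j f y| * (1 + y) ^ (j + a) ≤ C) →
    Bd n (-(a : ℤ)) fun s x => Real.exp (s / 2) ^ a * f (Real.exp (s / 2) * x) := by
  have h0 : ∀ (a : ℕ) {f : ℝ → ℝ}, (∃ C, ∀ y, 0 ≤ y → |f y| * (1 + y) ^ a ≤ C) →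
      B0 (-(a : ℤ)) fun s x => Real.exp (s / 2) ^ a * f (Real.exp (s / 2) * x) := by
    rintro a f ⟨C, hC⟩
    refine ⟨C, le_trans (by positivity) (hC 0 le_rfl), fun s _ x hx => ?_⟩
    have hr := r_pos s hx
    have hk : 0 < Real.exp (s / 2) := Real.exp_pos _
    have h1 := hC (Real.exp (s / 2) * x) (mul_nonneg hk.le hx.1)
    have h2 : 1 + Real.exp (s / 2) * x = Real.exp (s / 2) * (x + lam s) := by
      rw [mul_add, lam_mul]; ring
    rw [h2, mul_pow] at h1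
    rw [zpow_neg, zpow_natCast, ← div_eq_mul_inv, le_div_iff₀ (pow_pos hr a), abs_mul,
      abs_of_pos (pow_pos hk a)]
    linarith
  intro n
  induction n with
  | zero =>
    intro a f hf h
    exact ⟨Sm.scale hf a, h0 a (by simpa using h 0 le_rfl)⟩
  | succ n ih =>
    intro a f hf h
    refine ⟨⟨Sm.scale hf a, h0 a (by simpa using h 0 (Nat.zero_le _))⟩, ?_⟩
    have h1 := ih (a + 1) (contDiff_infty_iff_deriv.1 hf).2 fun j hj => by
      obtain ⟨C, hC⟩ := h (j + 1) (by omega)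
      refine ⟨C, fun y hy => ?_⟩
      have := hC y hy
      rwa [iteratedDeriv_succ', show j + 1 + a = j + (a + 1) by ring] at this
    refine (h1.cast (by push_cast; ring)).congr fun s x => ?_
    have hd : HasDerivAt f (deriv f (Real.exp (s / 2) * x)) (Real.exp (s / 2) * x) :=
      (hf.differentiable (by simp) _).hasDerivAt
    have := ((hd.comp x ((hasDerivAt_id x).const_mul (Real.exp (s / 2)))).const_mul
      (Real.exp (s / 2) ^ a)).deriv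
    refine this.trans ?_
    ring

theorem dd_lt {F G : ℝ → ℝ → ℝ} {a : ℝ} (h : ∀ s x, x < a → F s x = G s x) :
    ∀ s x, x < a → DD F s x = DD G s x := fun s x hx =>
  Filter.EventuallyEq.deriv_eq ((eventually_lt_nhds hx).mono fun y hy => h s y hy)

theorem dd_gt {F G : ℝ → ℝ → ℝ} {a : ℝ} (h : ∀ s x, a < x → F s x = G s x) :
    ∀ s x, a < x → DD F s x = DD G s x := fun s x hx =>
  Filter.EventuallyEq.deriv_eq ((eventually_gt_nhds hx).mono fun y hy => h s y hy)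

theorem Bd.glue {a b : ℝ} (hab : b < a) : ∀ {n : ℕ} {m : ℤ} {F F1 F2 : ℝ → ℝ → ℝ}, Sm F →
    Bd n m F1 → Bd n m F2 → (∀ s x, x < a → F s x = F1 s x) → (∀ s x, b < x → F s x = F2 s x) →
    Bd n m F := by
  have h0 : ∀ {m : ℤ} {F F1 F2 : ℝ → ℝ → ℝ}, B0 m F1 → B0 m F2 →
      (∀ s x, x < a → F s x = F1 s x) → (∀ s x, b < x → F s x = F2 s x) → B0 m F := by
    rintro m F F1 F2 ⟨C, hC, h⟩ ⟨D, hD, h'⟩ e1 e2
    refine ⟨C + D, by positivity, fun s hs x hx => ?_⟩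
    have hr := zpow_pos (r_pos s hx) m
    have := mul_nonneg hC hr.le
    have := mul_nonneg hD hr.le
    rcases lt_or_ge x a with hxa | hxa
    · rw [e1 s x hxa]; have := h s hs x hx; linarith
    · rw [e2 s x (hab.trans_le hxa)]; have := h' s hs x hx; linarith
  intro n
  induction n with
  | zero => exact fun hF h1 h2 e1 e2 => ⟨hF, h0 h1.2 h2.2 e1 e2⟩
  | succ n ih =>
    intro m F F1 F2 hF h1 h2 e1 e2
    exact ⟨⟨hF, h0 h1.1.2 h2.1.2 e1 e2⟩, ih hF.dd h1.2 h2.2 (dd_lt e1) (dd_gt e2)⟩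

/-- one constant for the three first levels. -/
theorem Bd.two {m : ℤ} {F : ℝ → ℝ → ℝ} (h : Bd 2 m F) : ∃ C, 0 ≤ C ∧ ∀ s, 0 ≤ s →
    ∀ x ∈ Icc (0 : ℝ) 1, |F s x| ≤ C * (x + lam s) ^ m ∧
      |deriv (F s) x| ≤ C * (x + lam s) ^ (m - 1) ∧
      |deriv (deriv (F s)) x| ≤ C * (x + lam s) ^ (m - 2) := by
  obtain ⟨C0, h0, b0⟩ := h.b0
  obtain ⟨C1, h1, b1⟩ := h.dd.b0
  obtain ⟨C2, h2, b2⟩ := h.dd.dd.b0
  refine ⟨C0 + C1 + C2, by positivity, fun s hs x hx => ?_⟩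
  have hr := r_pos s hx
  refine ⟨(b0 s hs x hx).trans ?_, (b1 s hs x hx).trans ?_, (b2 s hs x hx).trans ?_⟩
  · exact mul_le_mul_of_nonneg_right (by linarith) (zpow_pos hr _).le
  · exact mul_le_mul_of_nonneg_right (by linarith) (zpow_pos hr _).le
  · rw [show m - 1 - 1 = m - 2 by ring]
    exact mul_le_mul_of_nonneg_right (by linarith) (zpow_pos hr _).le

end ApxP
end Crest.Agent.R213

end
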