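import Crest.Agent.R213.ApxB

/-! # R213 / ApxD : the approximate solution, definitions and exact formulas -/

set_option autoImplicit false

open Set Filter Topology
open scoped ContDiff

noncomputable section

namespace Crest.Agent.R213
namespace ApxP

def chi (x : ℝ) : ℝ := Real.smoothTransition ((9 / 20 - x) / (3 / 20))

theorem chi_sm : ContDiff ℝ ∞ chi := Real.smoothTransition.contDiff.comp (by fun_prop)
theorem chi_one {x : ℝ} (h : x ≤ 3 / 10) : chi x = 1 :=
  Real.smoothTransition.one_of_one_le (by rw [le_div_iff₀ (by norm_num)]; linarith)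
theorem chi_zero {x : ℝ} (h : 9 / 20 ≤ x) : chi x = 0 :=
  Real.smoothTransition.zero_of_nonpos (div_nonpos_of_nonpos_of_nonneg (by linarith) (by norm_num))
theorem chi_nonneg (x : ℝ) : 0 ≤ chi x := Real.smoothTransition.nonneg _
theorem chi_le (x : ℝ) : chi x ≤ 1 := Real.smoothTransition.le_one _
theorem chi2_sm : ContDiff ℝ ∞ fun x => chi (2 * x) := chi_sm.comp (by fun_prop)

theorem sm_div {f q : ℝ → ℝ} (hf : ContDiff ℝ ∞ f) (hq : ContDiff ℝ ∞ q)
    (h : ∀ x, q x = 0 → ∀ᶠ y in 𝓝 x, f y = 0) : ContDiff ℝ ∞ fun x => f x / q x := by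
  refine contDiff_iff_contDiffAt.2 fun x => ?_
  by_cases hx : q x = 0
  · refine (contDiffAt_const (c := (0 : ℝ))).congr_of_eventuallyEq ((h x hx).mono fun y hy => ?_)
    simp [hy]
  · exact hf.contDiffAt.div hq.contDiffAt hx

def eta (x : ℝ) : ℝ := chi x / (1 - x)
def th1 (x : ℝ) : ℝ := (1 - chi (2 * x)) / x
def th2 (x : ℝ) : ℝ := (1 - chi (2 * x)) / x ^ 2

theorem eta_sm : ContDiff ℝ ∞ eta := by
  refine sm_div chi_sm (by fun_prop) fun x hx => ?_
  have : (9 / 20 : ℝ) < x := by linarith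
  exact (eventually_gt_nhds this).mono fun y hy => chi_zero hy.le

theorem th_ev : ∀ᶠ y in 𝓝 (0 : ℝ), 1 - chi (2 * y) = 0 := by
  have : (0 : ℝ) < 3 / 20 := by norm_num
  exact (eventually_lt_nhds this).mono fun y hy => by rw [chi_one (by linarith), sub_self]

theorem th1_sm : ContDiff ℝ ∞ th1 :=
  sm_div (contDiff_const.sub chi2_sm) contDiff_id fun x hx => by
    obtain rfl : x = 0 := hx
    exact th_ev

theorem th2_sm : ContDiff ℝ ∞ th2 :=
  sm_div (contDiff_const.sub chi2_sm) (by fun_prop) fun x hx => by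
    obtain rfl : x = 0 := pow_eq_zero_iff two_ne_zero |>.1 hx
    exact th_ev

theorem eta_mul (x : ℝ) : (1 - x) * eta x = chi x := by
  unfold eta
  by_cases hx : 1 - x = 0
  · rw [hx, zero_mul, chi_zero (by linarith)]
  · field_simp

variable (P : Shr)

def GG (s x : ℝ) : ℝ := P.G (Real.exp (s / 2) * x)
def G1 (s x : ℝ) : ℝ := Real.exp (s / 2) ^ 3 * deriv P.G (Real.exp (s / 2) * x)
def SS (s x : ℝ) : ℝ := Real.exp (s / 2) * P.s (Real.exp (s / 2) * x)
def g (s x : ℝ) : ℝ := eta x * GG P s x + (1 - chi x)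
def xt (s x : ℝ) : ℝ := chi x * (x * (GG P s x + (x - 1)))
def out (s x : ℝ) : ℝ := (1 - chi (2 * x)) * DD (DD (xt P)) s x + 18 * th1 x * DD (xt P) s x +
  72 * th2 x * xt P s x
def st (s x : ℝ) : ℝ := chi (2 * x) * (110 - SS P s x) + out P s x
def s2 : ℝ → ℝ → ℝ := DD (DD (st P))
def vt (s x : ℝ) : ℝ := (x * (1 - x)) ^ 2 * s2 P s x
def b (s x : ℝ) : ℝ := -2 * (g P s x * (x * ((1 - x) * s2 P s x)))
def E (s x : ℝ) : ℝ := chi x * (x * (x * G1 P s x)) / 2 + g P s x ^ 2 * vt P s x

theorem GG_pos (s x : ℝ) : 0 < GG P s x := P.c1_pos.trans_le (P.lower _)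

theorem xt_eq (s x : ℝ) : xt P s x = x * (1 - x) * (g P s x - 1) := by
  unfold xt g
  have := eta_mul x
  linear_combination (-x * GG P s x) * this

theorem out_eq (s x : ℝ) : out P s x = (1 - chi (2 * x)) * C0 (xt P s) x := by
  unfold out C0 th1 th2 DD
  ring

theorem hd_scale {f : ℝ → ℝ} (hf : ContDiff ℝ ∞ f) (k x : ℝ) :
    HasDerivAt (fun x => f (k * x)) (deriv f (k * x) * k) x := by
  have hd : HasDerivAt f (deriv f (k * x)) (k * x) := (hf.differentiable (by simp) _).hasDerivAt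
  exact (hd.comp x ((hasDerivAt_id' x).const_mul k)).congr_deriv (by ring)

theorem smG1 : ContDiff ℝ ∞ (deriv P.G) := (contDiff_infty_iff_deriv.1 P.smG).2

theorem C0_in (s : ℝ) {x : ℝ} (h0 : 0 < x) (hx : x < 3 / 10) :
    C0 (xt P s) x = 110 - SS P s x := by
  have e0 : ∀ s x, x < 3 / 10 → xt P s x = (fun s x => x * (GG P s x + (x - 1))) s x := by
    intro s x hx; unfold xt; rw [chi_one hx.le, one_mul]
  have d1 : DD (fun s x => x * (GG P s x + (x - 1))) = fun s x => (GG P s x + (x - 1)) +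
      x * (deriv P.G (Real.exp (s / 2) * x) * Real.exp (s / 2) + 1) := by
    funext s x
    have := ((hasDerivAt_id' x).mul ((hd_scale P.smG (Real.exp (s / 2)) x).add
      ((hasDerivAt_id' x).sub_const 1))).deriv
    refine this.trans ?_
    simp [GG]
  have e1 := dd_lt e0
  rw [d1] at e1
  have e2 := dd_lt e1 s x hx
  have d2 := (((hd_scale P.smG (Real.exp (s / 2)) x).add ((hasDerivAt_id' x).sub_const 1)).add
    ((hasDerivAt_id' x).mul ((((hd_scale (smG1 P) (Real.exp (s / 2)) x).mul_const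
      (Real.exp (s / 2)))).add_const 1))).deriv
  have e3 := e2.trans d2
  have ode := P.ode (Real.exp (s / 2) * x) (by positivity)
  have e4 := e1 s x hx
  have e5 := e0 s x hx
  unfold C0
  change DD (DD (xt P)) s x + 18 * DD (xt P) s x / x + 72 * xt P s x / x ^ 2 = _
  rw [e3, e4, e5]
  simp only [GG, SS]
  field_simp
  linear_combination ode

theorem st_in (s x : ℝ) (hx : x < 3 / 10) : st P s x = 110 - SS P s x := by
  unfold st
  rw [out_eq]
  rcases le_or_gt x (3 / 20) with h | h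
  · rw [chi_one (by linarith)]; ring
  · rw [C0_in P s (by linarith) hx]; ring

theorem st_out (s x : ℝ) (hx : 9 / 40 < x) : st P s x = out P s x := by
  unfold st
  rw [chi_zero (by linarith)]; ring

theorem st_eq (s : ℝ) {x : ℝ} (h0 : 0 < x) : st P s x = C0 (xt P s) x := by
  rcases lt_or_ge x (3 / 10) with h | h
  · rw [st_in P s x h, C0_in P s h0 h]
  · rw [st_out P s x (by linarith), out_eq, chi_zero (by linarith)]; ring

theorem s2_in (s x : ℝ) (hx : x < 3 / 10) :
    s2 P s x = -(1 / 2) * (G1 P s x * (GG P s x)⁻¹ * (GG P s x)⁻¹) := by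
  have d1 : DD (fun s x => 110 - SS P s x) = fun s x =>
      -(Real.exp (s / 2) * ((P.c - 1 / 2 * (GG P s x)⁻¹) * Real.exp (s / 2))) := by
    funext s x
    have := (((hd_scale P.sms (Real.exp (s / 2)) x).const_mul (Real.exp (s / 2))).const_sub
      110).deriv
    refine this.trans ?_
    rw [P.ds]
    simp only [GG]
    ring
  have e1 := dd_lt (F := st P) (G := fun s x => 110 - SS P s x) (st_in P)
  rw [d1] at e1
  have e2 := dd_lt e1 s x hx
  have d2 := (((((((hd_scale P.smG (Real.exp (s / 2)) x).inv (GG_pos P s x).ne').const_mul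
    (1 / 2)).const_sub P.c).mul_const (Real.exp (s / 2))).const_mul (Real.exp (s / 2))).neg).deriv
  refine (e2.trans d2).trans ?_
  have := (GG_pos P s x).ne'
  simp only [GG, G1] at this ⊢
  field_simp

theorem s2_out (s x : ℝ) (hx : 9 / 40 < x) : s2 P s x = DD (DD (out P)) s x :=
  dd_gt (dd_gt (st_out P)) s x hx

theorem dd_zero : DD (fun _ _ => (0 : ℝ)) = fun _ _ => 0 := by
  funext s x; simp [DD]

theorem xt_far (s x : ℝ) (hx : 9 / 20 < x) : xt P s x = 0 := by
  unfold xt; rw [chi_zero hx.le, zero_mul]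

theorem s2_far (s x : ℝ) (hx : 9 / 20 < x) : s2 P s x = 0 := by
  have e1 := dd_gt (G := fun _ _ => 0) (xt_far P)
  rw [dd_zero] at e1
  have e2 := dd_gt e1
  rw [dd_zero] at e2
  have e3 : ∀ s x, 9 / 20 < x → st P s x = (fun _ _ => 0 : ℝ → ℝ → ℝ) s x := by
    intro s x hx
    rw [st_out P s x (by linarith)]
    unfold out
    rw [e1 s x hx, e2 s x hx, xt_far P s x hx]; simp
  have e4 := dd_gt e3
  rw [dd_zero] at e4
  have e5 := dd_gt e4
  rw [dd_zero] at e5
  exact e5 s x hx

theorem g_in (s x : ℝ) (hx : x < 3 / 10) : g P s x = GG P s x / (1 - x) := by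
  unfold g eta
  rw [chi_one hx.le]; ring

theorem E_in (s x : ℝ) (hx : x < 3 / 10) : E P s x = 0 := by
  unfold E vt
  rw [g_in P s x hx, s2_in P s x hx, chi_one hx.le]
  have := (GG_pos P s x).ne'
  have : 1 - x ≠ 0 := by linarith
  field_simp
  ring

theorem b_in (s x : ℝ) (hx : x < 3 / 10) : b P s x = x * G1 P s x / GG P s x := by
  unfold b
  rw [g_in P s x hx, s2_in P s x hx]
  have := (GG_pos P s x).ne'
  have : 1 - x ≠ 0 := by linarith
  field_simp

theorem eta_nonneg (x : ℝ) : 0 ≤ eta x := by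
  unfold eta
  rcases lt_or_ge x 1 with h | h
  · exact div_nonneg (chi_nonneg x) (by linarith)
  · rw [chi_zero (by linarith), zero_div]

theorem g_pos (s x : ℝ) : 0 < g P s x := by
  unfold g
  have h1 := GG_pos P s x
  rcases (chi_le x).lt_or_eq with h | h
  · have := mul_nonneg (eta_nonneg x) h1.le
    linarith
  · have hx : x < 1 := by
      by_contra hx
      rw [chi_zero (by linarith)] at h; norm_num at h
    unfold eta
    rw [h]
    have : 0 < 1 - x := by linarith
    have : 0 < 1 / (1 - x) * GG P s x := by positivity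
    linarith

theorem g_lo (s : ℝ) {x : ℝ} (hx : x ∈ Icc (0 : ℝ) 1) : min P.c1 1 ≤ g P s x := by
  unfold g
  have h1 : min P.c1 1 ≤ GG P s x := (min_le_left _ _).trans (P.lower _)
  have h2 : min P.c1 1 ≤ 1 := min_le_right _ _
  have h3 : chi x ≤ eta x := by
    have := eta_mul x
    have := mul_nonneg hx.1 (eta_nonneg x)
    linarith
  have h4 := mul_le_mul h3 h1 (lt_min P.c1_pos one_pos).le (eta_nonneg x)
  have h5 := mul_le_mul_of_nonneg_left h2 (sub_nonneg.2 (chi_le x))
  linarith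

theorem exp_lam (s h x : ℝ) : Real.exp ((s + h) / 2) * (lam h * x) = Real.exp (s / 2) * x := by
  rw [add_div, Real.exp_add]
  linear_combination (Real.exp (s / 2) * x) * lam_mul h

theorem lam_lt {h x : ℝ} (hh : 0 ≤ h) (hx : x ∈ Icc (0 : ℝ) (1 / 4)) : lam h * x < 3 / 10 := by
  have := mul_le_mul_of_nonneg_right (lam_le hh) hx.1
  linarith [hx.2]

theorem sim_g (s h : ℝ) (hh : 0 ≤ h) (x : ℝ) (hx : x ∈ Icc (0 : ℝ) (1 / 4)) :
    (1 - lam h * x) * g P (s + h) (lam h * x) = (1 - x) * g P s x := by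
  have h1 := lam_lt hh hx
  have h2 : x < 3 / 10 := by linarith [hx.2]
  rw [g_in P _ _ h1, g_in P _ _ h2, mul_div_cancel₀ _ (by linarith), mul_div_cancel₀ _ (by linarith)]
  unfold GG
  rw [exp_lam]

theorem sim_b (s h : ℝ) (hh : 0 ≤ h) (x : ℝ) (hx : x ∈ Icc (0 : ℝ) (1 / 4)) :
    b P (s + h) (lam h * x) = Real.exp h * b P s x := by
  have h1 := lam_lt hh hx
  have h2 : x < 3 / 10 := by linarith [hx.2]
  rw [b_in P _ _ h1, b_in P _ _ h2]
  unfold GG G1
  rw [exp_lam, ← mul_div_assoc]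
  congr 1
  have e1 : Real.exp h = Real.exp (h / 2) ^ 2 := by rw [← Real.exp_nat_mul]; congr 1; ring
  rw [add_div, Real.exp_add, e1]
  linear_combination (x * Real.exp (s / 2) ^ 3 * Real.exp (h / 2) ^ 2 *
    deriv P.G (Real.exp (s / 2) * x)) * lam_mul h

theorem flow (s x : ℝ) :
    HasDerivAt (fun r => xt P r x) (Real.exp (-s) * (E P s x - g P s x ^ 2 * vt P s x)) s := by
  have hd : HasDerivAt P.G (deriv P.G (Real.exp (s / 2) * x)) (Real.exp (s / 2) * x) :=
    (P.smG.differentiable (by simp) _).hasDerivAt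
  have h1 : HasDerivAt (fun r : ℝ => Real.exp (r / 2) * x) (Real.exp (s / 2) * (1 / 2) * x) s :=
    (((hasDerivAt_id' s).div_const 2).exp).mul_const x
  have h2 := ((((hd.comp s h1).add_const (x - 1)).const_mul x).const_mul (chi x))
  refine h2.congr_deriv ?_
  have e1 : Real.exp (-s) * Real.exp (s / 2) ^ 2 = 1 := by
    rw [← Real.exp_nat_mul, ← Real.exp_add]; simp only [Nat.cast_ofNat]
    rw [show -s + 2 * (s / 2) = 0 by ring, Real.exp_zero]
  unfold E G1
  linear_combination (-(chi x * x ^ 2 * Real.exp (s / 2) * deriv P.G (Real.exp (s / 2) * x) / 2)) * e1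

end ApxP
end Crest.Agent.R213

end
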