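import Crest.Agent.R213.ApxD

/-! # R213 / ApxE : bounds of the approximate solution and the structure `Apx` -/

set_option autoImplicit false

open Set Filter Topology
open scoped ContDiff

noncomputable section

namespace Crest.Agent.R213
namespace ApxP

variable (P : Shr)

theorem bd_GG : Bd 6 0 (GG P) := by
  have := Bd.scale 6 0 P.smG fun j hj => ⟨P.C, fun y hy => by
    rcases Nat.eq_zero_or_pos j with rfl | h
    · simp only [iteratedDeriv_zero, add_zero, pow_zero, mul_one]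
      rw [abs_of_pos (P.c1_pos.trans_le (P.lower y))]; exact P.upper y
    · refine le_trans ?_ (P.decay j h hj y hy)
      exact mul_le_mul_of_nonneg_left (pow_le_pow_right₀ (by linarith) (by omega)) (abs_nonneg _)⟩
  exact (this.cast (by simp)).congr fun s x => by simp [GG]

theorem bd_G1 : Bd 2 (-3) (G1 P) :=
  (Bd.scale 2 3 (smG1 P) fun j hj => ⟨P.C, fun y hy => by
    have := P.decay (j + 1) (by omega) (by omega) y hy
    rwa [iteratedDeriv_succ'] at this⟩).cast (by simp)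

theorem bd_xt : Bd 6 1 (xt P) :=
  (Bd.fmul chi_sm ((bd_GG P).add (Bd.fixed 6 (f := fun x => x - 1) (by fun_prop))).xmul).cast
    (by norm_num)

theorem bd_out : Bd 4 (-1) (out P) := by
  have h := bd_xt P
  have h2 : Bd 4 (-1) (DD (DD (xt P))) := h.dd.dd.cast (by norm_num)
  have h1 : Bd 4 (-1) (DD (xt P)) := h.dd.pred.mpred.cast (by norm_num)
  have h0 : Bd 4 (-1) (xt P) := h.pred.pred.mpred.mpred.cast (by norm_num)
  exact ((Bd.fmul (contDiff_const.sub chi2_sm) h2).add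
    (Bd.fmul (f := fun x => 18 * th1 x) (contDiff_const.mul th1_sm) h1)).add
    (Bd.fmul (f := fun x => 72 * th2 x) (contDiff_const.mul th2_sm) h0)

theorem sm_st : Sm (st P) := by
  have h1 : Sm fun s x => 110 - SS P s x := by
    have := (Sm.fixed (f := fun _ => (110 : ℝ)) contDiff_const).add
      ((Sm.fixed (f := fun _ => (-1 : ℝ)) contDiff_const).mul (Sm.scale P.sms 1))
    convert this using 3 with s x
    simp only [SS]; ring
  exact ((Sm.fixed chi2_sm).mul h1).add (bd_out P).sm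

theorem bd_s2 : Bd 2 (-3) (s2 P) := by
  have hi := Bd.inv P.c1_pos ((bd_GG P).le (by norm_num : 2 ≤ 6)) fun s x => P.lower _
  refine Bd.glue (a := 3 / 10) (b := 9 / 40) (by norm_num) (sm_st P).dd.dd
    (((((bd_G1 P).mul hi).mul hi).cmul (-(1 / 2))).cast (by norm_num))
    ((bd_out P).dd.dd.cast (by norm_num)) (s2_in P) (s2_out P)

theorem bd_g : Bd 2 0 (g P) :=
  (Bd.fmul eta_sm ((bd_GG P).le (by norm_num))).add
    (Bd.fixed 2 (f := fun x => 1 - chi x) (contDiff_const.sub chi_sm))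

theorem bd_w : Bd 2 (-2) fun s x => x * ((1 - x) ^ 2 * s2 P s x) :=
  (Bd.fmul (f := fun x => (1 - x) ^ 2) (by fun_prop) (bd_s2 P)).xmul.cast (by norm_num)

theorem bd_vt : Bd 2 (-1) (vt P) :=
  ((bd_w P).xmul.cast (by norm_num)).congr fun s x => by unfold vt; ring

theorem bd_b : Bd 2 (-2) (b P) :=
  (((bd_g P).mul (Bd.fmul (f := fun x => 1 - x) (by fun_prop) (bd_s2 P)).xmul).cmul (-2)).cast
    (by norm_num)

theorem bd_E : Bd 2 (-1) (E P) :=
  (((((bd_G1 P).xmul.xmul.fmul chi_sm).cmul (1 / 2)).cast (by norm_num)).add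
    (((bd_g P).mul ((bd_g P).mul (bd_vt P))).cast (by norm_num))).congr fun s x => by
    unfold E; ring

theorem g_bd : ∃ C, 0 ≤ C ∧ ∀ s, 0 ≤ s → ∀ x ∈ Ioo (0 : ℝ) 1, |g P s x| ≤ C ∧
    |x * deriv (g P s) x| ≤ C * (x / (x + lam s)) ∧
    |x ^ 2 * deriv (deriv (g P s)) x| ≤ C * (x / (x + lam s)) := by
  obtain ⟨C, hC, h⟩ := (bd_g P).two
  refine ⟨C, hC, fun s hs x hx => ?_⟩
  obtain ⟨h0, h1, h2⟩ := h s hs x (Ioo_subset_Icc_self hx)
  have hr := r_pos s (Ioo_subset_Icc_self hx)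
  have hl := lam_pos s
  have hx0 := hx.1
  set r := x + lam s with hrd
  have hq : x / r ≤ 1 := (div_le_one hr).2 (by linarith)
  have hq0 : 0 ≤ x / r := by positivity
  refine ⟨by simpa using h0, ?_, ?_⟩
  · rw [abs_mul, abs_of_pos hx0]
    refine (mul_le_mul_of_nonneg_left h1 hx0.le).trans (le_of_eq ?_)
    norm_num; ring
  · rw [abs_mul, abs_of_pos (pow_pos hx0 2)]
    refine (mul_le_mul_of_nonneg_left h2 (by positivity)).trans ?_
    have : x ^ 2 * (C * r ^ ((0 : ℤ) - 2)) = C * (x / r) * (x / r) := by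
      norm_num; field_simp
    rw [this]
    exact mul_le_of_le_one_right (by positivity) hq

theorem lam_sq (s : ℝ) : lam s ^ 2 = Real.exp (-s) := by
  unfold lam; rw [← Real.exp_nat_mul]; congr 1; ring

/-- the three levels with the weights `1, x, x²`. -/
theorem wt {m : ℤ} {C r x u v : ℝ} (hC : 0 ≤ C) (hx : 0 < x) (hr : x ≤ r)
    (h1 : |u| ≤ C * r ^ (m - 1)) (h2 : |v| ≤ C * r ^ (m - 2)) :
    |x * u| ≤ C * r ^ m ∧ |x * v| ≤ C * r ^ (m - 1) ∧ |x ^ 2 * v| ≤ C * r ^ m := by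
  have hr0 : 0 < r := hx.trans_le hr
  have key : ∀ (k : ℤ) (w : ℝ), |w| ≤ C * r ^ (k - 1) → |x * w| ≤ C * r ^ k := by
    intro k w hw
    rw [abs_mul, abs_of_pos hx]
    refine (mul_le_mul hr hw (abs_nonneg _) hr0.le).trans (le_of_eq ?_)
    rw [zpow_sub_one₀ hr0.ne']; field_simp
  have h3 := key (m - 1) v (by rwa [show m - 1 - 1 = m - 2 by ring])
  refine ⟨key m u h1, h3, ?_⟩
  rw [show x ^ 2 * v = x * (x * v) by ring]
  exact key m _ h3

theorem b_bd : ∃ C, 0 ≤ C ∧ ∀ s, 0 ≤ s → ∀ x ∈ Ioo (0 : ℝ) 1,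
    |b P s x| ≤ C / (x ^ 2 + Real.exp (-s)) ∧
    |x * deriv (b P s) x| ≤ C / (x ^ 2 + Real.exp (-s)) ∧
    |x ^ 2 * deriv (deriv (b P s)) x| ≤ C / (x ^ 2 + Real.exp (-s)) := by
  obtain ⟨C, hC, h⟩ := (bd_b P).two
  refine ⟨C, hC, fun s hs x hx => ?_⟩
  obtain ⟨h0, h1, h2⟩ := h s hs x (Ioo_subset_Icc_self hx)
  have hl := lam_pos s
  have hx0 := hx.1
  obtain ⟨k1, -, k2⟩ := wt hC hx0 (by linarith) h1 h2
  have : C * (x + lam s) ^ (-2 : ℤ) ≤ C / (x ^ 2 + Real.exp (-s)) := by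
    rw [← lam_sq, zpow_neg, zpow_ofNat, ← div_eq_mul_inv]
    exact div_le_div_of_nonneg_left hC (by positivity) (by nlinarith)
  exact ⟨h0.trans this, k1.trans this, k2.trans this⟩

theorem E_bd : ∃ C, 0 ≤ C ∧ ∀ s, 0 ≤ s → ∀ x ∈ Ioo (0 : ℝ) 1, |E P s x| ≤ C ∧
    |deriv (E P s) x| ≤ C ∧ |deriv (deriv (E P s)) x| ≤ C := by
  obtain ⟨C, hC, h⟩ := (bd_E P).two
  refine ⟨64 * C, by positivity, fun s hs x hx => ?_⟩
  rcases lt_or_ge x (3 / 10) with hx3 | hx3
  · have e1 := dd_lt (G := fun _ _ => 0) (E_in P)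
    rw [dd_zero] at e1
    have e2 := dd_lt e1
    rw [dd_zero] at e2
    have e3 : deriv (E P s) x = 0 := e1 s x hx3
    have e4 : deriv (deriv (E P s)) x = 0 := e2 s x hx3
    rw [E_in P s x hx3, e3, e4, abs_zero]
    exact ⟨by positivity, by positivity, by positivity⟩
  · obtain ⟨h0, h1, h2⟩ := h s hs x (Ioo_subset_Icc_self hx)
    have hl := lam_pos s
    have key : ∀ k : ℕ, k ≤ 3 → C * (x + lam s) ^ (-(k : ℤ)) ≤ 64 * C := by
      intro k hk
      rw [zpow_neg, zpow_natCast, ← inv_pow, mul_comm]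
      refine mul_le_mul_of_nonneg_right ?_ hC
      have : (x + lam s)⁻¹ ≤ 4 := by
        rw [inv_le_comm₀ (by linarith) (by norm_num)]; linarith
      calc (x + lam s)⁻¹ ^ k ≤ 4 ^ k := pow_le_pow_left₀ (by have := hx.1; positivity) this k
        _ ≤ 4 ^ 3 := pow_le_pow_right₀ (by norm_num) hk
        _ = 64 := by norm_num
    exact ⟨h0.trans (key 1 (by norm_num)), h1.trans (key 2 (by norm_num)),
      h2.trans (key 3 (by norm_num))⟩

theorem vt_bd : ∃ C, 0 ≤ C ∧ ∀ s, 0 ≤ s → ∀ x ∈ Ioo (0 : ℝ) 1,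
    |vt P s x| ≤ C * Real.exp s * x ∧
    |deriv (vt P s) x| ≤ C * Real.exp s ∧ |x * deriv (deriv (vt P s)) x| ≤ C * Real.exp s := by
  obtain ⟨C, hC, h⟩ := (bd_vt P).two
  obtain ⟨D, hD, h'⟩ := (bd_w P).b0
  refine ⟨C + D, by positivity, fun s hs x hx => ?_⟩
  obtain ⟨-, h1, h2⟩ := h s hs x (Ioo_subset_Icc_self hx)
  have h0 := h' s hs x (Ioo_subset_Icc_self hx)
  have hl := lam_pos s
  have hx0 := hx.1
  obtain ⟨-, k1, -⟩ := wt hC hx0 (by linarith) h1 h2
  have he : (x + lam s) ^ (-2 : ℤ) ≤ Real.exp s := by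
    rw [zpow_neg, zpow_ofNat, inv_le_comm₀ (by positivity) (Real.exp_pos s), ← Real.exp_neg,
      ← lam_sq]
    nlinarith
  have hp := Real.exp_pos s
  have k2 : C * (x + lam s) ^ ((-1 : ℤ) - 1) ≤ (C + D) * Real.exp s :=
    mul_le_mul (by linarith) he (zpow_pos (by linarith) _).le (by positivity)
  refine ⟨?_, h1.trans k2, k1.trans k2⟩
  have : vt P s x = x * ((1 - x) ^ 2 * s2 P s x) * x := by unfold vt; ring
  rw [this, abs_mul, abs_of_pos hx0]
  refine mul_le_mul_of_nonneg_right (h0.trans ?_) hx0.le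
  exact mul_le_mul (by linarith) he (zpow_pos (by linarith) _).le (by positivity)

include P in
theorem apx_ex : Nonempty Apx := by
  obtain ⟨C1, p1, h1⟩ := g_bd P
  obtain ⟨C2, p2, h2⟩ := b_bd P
  obtain ⟨C3, p3, h3⟩ := E_bd P
  obtain ⟨C4, p4, h4⟩ := vt_bd P
  refine ⟨{
    g := g P, b := b P, E := E P, xt := xt P, st := st P, vt := vt P, a := P.s 0
    c1 := min P.c1 1, C := C1 + C2 + C3 + C4
    a_pos := P.s0_pos
    c1_pos := lt_min P.c1_pos one_pos
    smg := (bd_g P).sm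
    smb := (bd_b P).sm
    smE := (bd_E P).sm
    smxt := (bd_xt P).sm
    smst := sm_st P
    smvt := (bd_vt P).sm
    g_pos := g_pos P
    g_lo := fun s x hx => g_lo P s hx
    g_bd := fun s hs x hx => ?_
    b_bd := fun s hs x hx => ?_
    E_bd := fun s hs x hx => ?_
    vt_bd := fun s hs x hx => ?_
    far := fun s x hx => ?_
    E_near := fun s x hx => E_in P s x (by linarith [hx.2])
    sim_g := sim_g P
    sim_b := sim_b P
    xt_eq := xt_eq P
    st_eq := fun s x hx => st_eq P s hx.1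
    st_zero := fun s => ?_
    vt_eq := fun s x => rfl
    b_eq := fun s x _ => ?_
    flow := fun s x _ => flow P s x }⟩
  · obtain ⟨a, b, c⟩ := h1 s hs x hx
    have hq : 0 ≤ x / (x + lam s) := div_nonneg hx.1.le (r_pos s (Ioo_subset_Icc_self hx)).le
    have : C1 * (x / (x + lam s)) ≤ (C1 + C2 + C3 + C4) * (x / (x + lam s)) :=
      mul_le_mul_of_nonneg_right (by linarith) hq
    exact ⟨by linarith, b.trans this, c.trans this⟩
  · obtain ⟨a, b, c⟩ := h2 s hs x hx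
    have : C2 / (x ^ 2 + Real.exp (-s)) ≤ (C1 + C2 + C3 + C4) / (x ^ 2 + Real.exp (-s)) :=
      div_le_div_of_nonneg_right (by linarith) (by positivity)
    exact ⟨a.trans this, b.trans this, c.trans this⟩
  · obtain ⟨a, b, c⟩ := h3 s hs x hx
    exact ⟨by linarith, by linarith, by linarith⟩
  · obtain ⟨a, b, c⟩ := h4 s hs x hx
    have : C4 * Real.exp s ≤ (C1 + C2 + C3 + C4) * Real.exp s :=
      mul_le_mul_of_nonneg_right (by linarith) (Real.exp_pos s).le
    exact ⟨a.trans (mul_le_mul_of_nonneg_right this hx.1.le), b.trans this, c.trans this⟩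
  · have hx' : 9 / 20 < x := by linarith
    have hv : vt P s x = 0 := by unfold vt; rw [s2_far P s x hx', mul_zero]
    refine ⟨?_, ?_, ?_, xt_far P s x hx', hv⟩
    · unfold g eta; rw [chi_zero hx'.le]; simp
    · unfold b; rw [s2_far P s x hx']; simp
    · unfold E; rw [hv, chi_zero hx'.le]; simp
  · rw [st_in P s 0 (by norm_num)]
    simp only [SS, mul_zero]; ring
  · unfold b vt; ring

end ApxP
end Crest.Agent.R213

end
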