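import Mathlib

/-! # R213 / Base : the operator `C0` -/

set_option autoImplicit false

namespace Crest.Agent.R213

/-- `C0 f = x^{-9} (x^9 f)''`. -/
noncomputable def C0 (f : ℝ → ℝ) (x : ℝ) : ℝ :=
  deriv (deriv f) x + 18 * deriv f x / x + 72 * f x / x ^ 2

end Crest.Agent.R213
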