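import Crest.Agent.R213.BootS

/-! # R213 / BootA : averaging operators, primitives, linear families -/

set_option autoImplicit false

open MeasureTheory Set Filter Topology
open scoped ContDiff

namespace Crest.Agent.R213.Boot

variable {I : Set ℝ} {F G : ℝ → ℝ → ℝ}

/-- the averaging operator as a bounded operator on `C([0,1])` (`LinearMap.mkContinuous`; continuity in `x` by
dominated convergence, e.g. `intervalIntegral.continuous_of_dominated_interval` on the subtype `KK`). -/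
theorem exists_avL (c : ℝ) {κ : ℝ → ℝ → ℝ} {B : ℝ}
    (hm : ∀ x ∈ Icc (0 : ℝ) 1, ContinuousOn (fun t => κ t x) (Ioo 0 1))
    (hx : ∀ t ∈ Ioo (0 : ℝ) 1, ContinuousOn (κ t) (Icc 0 1))
    (hb : ∀ t ∈ Ioo (0 : ℝ) 1, ∀ x ∈ Icc (0 : ℝ) 1, |κ t x| ≤ B) :
    ∃ L : XX →L[ℝ] XX, ∀ f, ∀ x ∈ Icc (0 : ℝ) 1, ex (L f) x = av c κ (ex f) x := by
  have hae : ∀ᵐ t ∂(volume : Measure ℝ), t ∈ uIoc (0 : ℝ) 1 → t ∈ Ioo (0 : ℝ) 1 := by
    filter_upwards [Measure.ae_ne volume (1 : ℝ)] with t ht h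
    rw [uIoc_of_le zero_le_one] at h
    exact ⟨h.1, lt_of_le_of_ne h.2 ht⟩
  have hmeas : ∀ (f : XX) (x : ℝ), x ∈ Icc (0 : ℝ) 1 →
      AEStronglyMeasurable (fun t => κ t x * ex f (c + t * (x - c))) (volume.restrict (uIoc (0 : ℝ) 1)) := by
    intro f x hx'
    rw [uIoc_of_le zero_le_one, ← Measure.restrict_congr_set Ioo_ae_eq_Ioc]
    refine ContinuousOn.aestronglyMeasurable ?_ measurableSet_Ioo
    exact (hm x hx').mul ((continuous_ex f).comp (by fun_prop)).continuousOn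
  have hbd : ∀ (f : XX) (x : ℝ), x ∈ Icc (0 : ℝ) 1 → ∀ᵐ t ∂(volume : Measure ℝ), t ∈ uIoc (0 : ℝ) 1 →
      ‖κ t x * ex f (c + t * (x - c))‖ ≤ B * ‖f‖ := by
    intro f x hx'
    filter_upwards [hae] with t ht h
    rw [Real.norm_eq_abs, abs_mul]
    exact mul_le_mul (hb t (ht h) x hx') (abs_ex_le _ _) (abs_nonneg _)
      ((abs_nonneg _).trans (hb t (ht h) x hx'))
  have hint : ∀ (f : XX) (x : ℝ), x ∈ Icc (0 : ℝ) 1 →
      IntervalIntegrable (fun t => κ t x * ex f (c + t * (x - c))) volume 0 1 := by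
    intro f x hx'
    rw [intervalIntegrable_iff]
    refine Integrable.mono' (g := fun _ => B * ‖f‖)
      (intervalIntegrable_iff.1 (intervalIntegrable_const (c := B * ‖f‖))) (hmeas f x hx') ?_
    rw [ae_restrict_iff' measurableSet_uIoc]
    exact hbd f x hx'
  have hcont : ∀ f : XX, Continuous fun x : KK => av c κ (ex f) x := by
    intro f
    refine intervalIntegral.continuous_of_dominated_interval (bound := fun _ => B * ‖f‖)
      (fun x => hmeas f x x.2) (fun x => hbd f x x.2) intervalIntegrable_const ?_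
    filter_upwards [hae] with t ht h
    exact ((hx t (ht h)).domRestrict).mul ((continuous_ex f).comp (by fun_prop))
  let L0 : XX →ₗ[ℝ] XX :=
    { toFun := fun f => ⟨fun x => av c κ (ex f) x, hcont f⟩
      map_add' := fun f g => by
        ext x
        change av c κ (ex (f + g)) x = av c κ (ex f) x + av c κ (ex g) x
        simp only [av]
        rw [← intervalIntegral.integral_add (hint f x x.2) (hint g x x.2)]
        simp only [ex_add, mul_add]
      map_smul' := fun a f => by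
        ext x
        change av c κ (ex (a • f)) x = a * av c κ (ex f) x
        simp only [av]
        rw [← intervalIntegral.integral_const_mul]
        simp only [ex_smul, mul_left_comm] }
  have hB : 0 ≤ B := (abs_nonneg _).trans (hb (1 / 2) (by norm_num) 0 (by norm_num))
  refine ⟨L0.mkContinuous B fun f => ?_, fun f x hx' => ?_⟩
  · rw [ContinuousMap.norm_le _ (by positivity)]
    intro x
    change ‖av c κ (ex f) x‖ ≤ _
    have := intervalIntegral.norm_integral_le_of_norm_le_const_ae (hbd f x x.2)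
    simpa [av] using this
  · rw [ex_of_mem _ hx']
    rfl

/-- `av` only sees the values on `(0,1)` (`seg_mem`, `intervalIntegral.integral_congr_ae`). -/
theorem av_congr {c : ℝ} (hc : c ∈ Icc (0 : ℝ) 1) (κ : ℝ → ℝ → ℝ) {f g : ℝ → ℝ}
    (e : ∀ x ∈ Ioo (0 : ℝ) 1, f x = g x) {x : ℝ} (hx : x ∈ Ioo (0 : ℝ) 1) : av c κ f x = av c κ g x := by
  refine intervalIntegral.integral_congr_ae (Eventually.of_forall fun t ht => ?_)
  rw [uIoc_of_le zero_le_one] at ht
  rw [e _ (seg_mem hc hx ht)]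

theorem Sm.av (hF : Sm I F) {c : ℝ} (hc : c ∈ Icc (0 : ℝ) 1) {κ : ℝ → ℝ → ℝ} {B : ℝ}
    (hm : ∀ x ∈ Icc (0 : ℝ) 1, ContinuousOn (fun t => κ t x) (Ioo 0 1))
    (hx : ∀ t ∈ Ioo (0 : ℝ) 1, ContinuousOn (κ t) (Icc 0 1))
    (hb : ∀ t ∈ Ioo (0 : ℝ) 1, ∀ x ∈ Icc (0 : ℝ) 1, |κ t x| ≤ B) :
    Sm I fun s => av c κ (F s) := by
  obtain ⟨Φ, hΦ, h1⟩ := hF
  obtain ⟨L, hL⟩ := exists_avL c hm hx hb
  refine ⟨fun s => L (Φ s), L.contDiff.comp_contDiffOn hΦ, fun s hs y hy => ?_⟩
  rw [hL _ y (Ioo_subset_Icc_self hy)]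
  exact av_congr hc κ (h1 s hs) hy

/-- `∫_c^x f = (x - c) ∫_0^1 f (c + t (x - c)) dt` (`intervalIntegral.smul_integral_comp_add_mul`). -/
theorem integral_eq_av (c x : ℝ) (f : ℝ → ℝ) :
    ∫ r in c..x, f r = (x - c) * ∫ t in (0 : ℝ)..1, f (c + t * (x - c)) := by
  have := intervalIntegral.smul_integral_comp_add_mul (a := 0) (b := 1) f (x - c) c
  simp only [smul_eq_mul, mul_zero, add_zero, mul_one, add_sub_cancel] at this
  rw [← this]
  simp only [mul_comm]

/-- the primitive as a bounded operator. -/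
theorem exists_primL : ∃ L : XX →L[ℝ] XX, ∀ f, ∀ x ∈ Icc (0 : ℝ) 1,
    ex (L f) x = ∫ r in (1 / 2 : ℝ)..x, ex f r := by
  obtain ⟨L, hL⟩ := exists_avL (1 / 2) (κ := fun _ x => x - 1 / 2) (B := 1)
    (fun _ _ => continuousOn_const) (fun _ _ => by fun_prop)
    (fun _ _ x hx => abs_le.2 ⟨by linarith [hx.1], by linarith [hx.2]⟩)
  refine ⟨L, fun f x hx => ?_⟩
  rw [hL f x hx, integral_eq_av, av, intervalIntegral.integral_const_mul]

theorem Sm.prim (hF : Sm I F) : Sm I fun s x => ∫ r in (1 / 2 : ℝ)..x, F s r := by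
  obtain ⟨Φ, hΦ, h1⟩ := hF
  obtain ⟨L, hL⟩ := exists_primL
  refine ⟨fun s => L (Φ s), L.contDiff.comp_contDiffOn hΦ, fun s hs y hy => ?_⟩
  rw [hL _ y (Ioo_subset_Icc_self hy)]
  refine intervalIntegral.integral_congr fun r hr => h1 s hs r ?_
  exact (ordConnected_Ioo.uIcc_subset (by norm_num : (1 / 2 : ℝ) ∈ Ioo (0 : ℝ) 1) hy) hr

/-- a linear family of functions that vanish at the end points, applied to a smooth curve: the map
`h ↦ (x ↦ if x ∈ Ioo 0 1 then T h x else 0)` is a bounded linear map `E → C([0,1])` (squeeze at `0`, `1`). -/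
theorem Sm.of_lin {E : Type} [NormedAddCommGroup E] [NormedSpace ℝ E] {T : E → ℝ → ℝ} {w : ℝ → ℝ}
    (hlin : ∀ h k t, ∀ x ∈ Ioo (0 : ℝ) 1, T (h + t • k) x = T h x + t * T k x)
    (hc : ∀ h, ContinuousOn (T h) (Ioo 0 1)) (hw : Continuous w) (hw0 : w 0 = 0) (hw1 : w 1 = 0)
    (hb : ∀ h, ∀ x ∈ Ioo (0 : ℝ) 1, |T h x| ≤ ‖h‖ * w x) {U : ℝ → E} (hU : ContDiffOn ℝ ∞ U I) :
    Sm I fun s => T (U s) := by
  classical
  let g : E → ℝ → ℝ := fun h x => if x ∈ Ioo (0 : ℝ) 1 then T h x else 0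
  have hg : ∀ h, ∀ x ∈ Ioo (0 : ℝ) 1, g h x = T h x := fun h x hx => if_pos hx
  have hg' : ∀ h, ∀ x, x ∉ Ioo (0 : ℝ) 1 → g h x = 0 := fun h x hx => if_neg hx
  have hgb : ∀ h x, |g h x| ≤ ‖h‖ * |w x| := by
    intro h x
    by_cases hx : x ∈ Ioo (0 : ℝ) 1
    · rw [hg h x hx]
      exact (hb h x hx).trans (mul_le_mul_of_nonneg_left (le_abs_self _) (norm_nonneg _))
    · rw [hg' h x hx, abs_zero]
      positivity
  have hend : ∀ h (a : ℝ), w a = 0 → a ∉ Ioo (0 : ℝ) 1 → ContinuousAt (g h) a := by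
    intro h a ha ha'
    rw [ContinuousAt, hg' h a ha']
    refine squeeze_zero_norm (a := fun x => ‖h‖ * |w x|) (fun x => hgb h x) ?_
    have : ContinuousAt (fun x => ‖h‖ * |w x|) a := (continuous_const.mul hw.abs).continuousAt
    simpa [ContinuousAt, ha] using this
  have hcont : ∀ h, ContinuousOn (g h) (Icc 0 1) := by
    intro h x hx
    by_cases hx' : x ∈ Ioo (0 : ℝ) 1
    · refine ContinuousAt.continuousWithinAt ?_
      refine ((hc h).continuousAt (isOpen_Ioo.mem_nhds hx')).congr ?_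
      filter_upwards [isOpen_Ioo.mem_nhds hx'] with y hy using (hg h y hy).symm
    · refine (hend h x ?_ hx').continuousWithinAt
      rcases hx.1.eq_or_lt with h0 | h0
      · rw [← h0, hw0]
      · rcases hx.2.eq_or_lt with h1 | h1
        · rw [h1, hw1]
        · exact absurd ⟨h0, h1⟩ hx'
  have h0 : ∀ x ∈ Ioo (0 : ℝ) 1, T 0 x = 0 := by
    intro x hx
    have := hb 0 x hx
    rw [norm_zero, zero_mul] at this
    exact abs_nonpos_iff.1 this
  let L0 : E →ₗ[ℝ] XX :=
    { toFun := fun h => ⟨fun x => g h x, (hcont h).domRestrict⟩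
      map_add' := fun h k => by
        ext x
        change g (h + k) x = g h x + g k x
        by_cases hx : (x : ℝ) ∈ Ioo (0 : ℝ) 1
        · have := hlin h k 1 x hx
          rw [one_smul, one_mul] at this
          rw [hg _ _ hx, hg _ _ hx, hg _ _ hx, this]
        · rw [hg' _ _ hx, hg' _ _ hx, hg' _ _ hx, add_zero]
      map_smul' := fun a h => by
        ext x
        change g (a • h) x = a * g h x
        by_cases hx : (x : ℝ) ∈ Ioo (0 : ℝ) 1
        · have := hlin 0 h a x hx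
          rw [zero_add, h0 x hx, zero_add] at this
          rw [hg _ _ hx, hg _ _ hx, this]
        · rw [hg' _ _ hx, hg' _ _ hx, mul_zero] }
  let W : XX := ⟨fun x => w x, hw.comp continuous_subtype_val⟩
  let L : E →L[ℝ] XX := L0.mkContinuous ‖W‖ fun h => by
    rw [ContinuousMap.norm_le _ (by positivity)]
    intro x
    change ‖g h x‖ ≤ _
    rw [mul_comm]
    exact (hgb h x).trans (mul_le_mul_of_nonneg_left (W.norm_coe_le_norm x) (norm_nonneg _))
  refine ⟨fun s => L (U s), L.contDiff.comp_contDiffOn hU, fun s _ y hy => ?_⟩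
  rw [ex_of_mem _ (Ioo_subset_Icc_self hy)]
  exact hg _ _ hy

end Crest.Agent.R213.Boot
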