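import Crest.Agent.R213.BootA

/-! # R213 / BootC : closure properties of `Cl` (inductions on `k`, generalizing the functions) -/

set_option autoImplicit false

open MeasureTheory Set Filter Topology
open scoped ContDiff

namespace Crest.Agent.R213.Boot

variable {I : Set ℝ} {F G : ℝ → ℝ → ℝ} {k : ℕ}

theorem Cl.sm (h : Cl I k F) : Sm I F := by
  cases k with
  | zero => exact h
  | succ k => exact h.1

theorem Cl.congr (h : Cl I k F) (e : ∀ s ∈ I, ∀ x ∈ Ioo (0 : ℝ) 1, G s x = F s x) : Cl I k G := by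
  cases k with
  | zero => exact Sm.congr h e
  | succ k =>
    obtain ⟨h0, F1, h1, hd⟩ := h
    refine ⟨h0.congr e, F1, h1, fun s hs x hx => (hd s hs x hx).congr_of_eventuallyEq ?_⟩
    filter_upwards [Ioo_mem_nhds hx.1 hx.2] with y hy using e s hs y hy

theorem Cl.pred (h : Cl I (k + 1) F) : Cl I k F := by
  induction k generalizing F with
  | zero => exact h.1
  | succ k ih =>
    obtain ⟨h0, F1, h1, hd⟩ := h
    exact ⟨h0, F1, ih h1, hd⟩

theorem Cl.add (hF : Cl I k F) (hG : Cl I k G) : Cl I k fun s x => F s x + G s x := by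
  induction k generalizing F G with
  | zero => exact Sm.add hF hG
  | succ k ih =>
    obtain ⟨h0, F1, h1, hd⟩ := hF
    obtain ⟨g0, G1, g1, gd⟩ := hG
    exact ⟨h0.add g0, fun s x => F1 s x + G1 s x, ih h1 g1,
      fun s hs x hx => (hd s hs x hx).add (gd s hs x hx)⟩

theorem Cl.mul (hF : Cl I k F) (hG : Cl I k G) : Cl I k fun s x => F s x * G s x := by
  induction k generalizing F G with
  | zero => exact Sm.mul hF hG
  | succ k ih =>
    have hF' := hF.pred
    have hG' := hG.pred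
    obtain ⟨h0, F1, h1, hd⟩ := hF
    obtain ⟨g0, G1, g1, gd⟩ := hG
    exact ⟨h0.mul g0, fun s x => F1 s x * G s x + F s x * G1 s x, (ih h1 hG').add (ih hF' g1),
      fun s hs x hx => (hd s hs x hx).mul (gd s hs x hx)⟩

theorem Cl.fix {p : ℝ → ℝ} (hp : ContDiff ℝ ∞ p) : Cl I k fun _ x => p x := by
  induction k generalizing p with
  | zero => exact Sm.fix hp.continuous
  | succ k ih =>
    have h := contDiff_infty_iff_deriv.1 hp
    exact ⟨Sm.fix hp.continuous, fun _ x => deriv p x, ih h.2,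
      fun s _ x _ => (h.1 x).hasDerivAt⟩

theorem Cl.scal {a : ℝ → ℝ} (ha : ContDiffOn ℝ ∞ a I) : Cl I k fun s _ => a s := by
  cases k with
  | zero => exact Sm.scal ha
  | succ k =>
    exact ⟨Sm.scal ha, fun _ _ => 0, Cl.fix (p := fun _ => 0) contDiff_const,
      fun s _ x _ => hasDerivAt_const x (a s)⟩

/-- derivative `-F1 · F⁻¹ · F⁻¹`. -/
theorem Cl.inv (hF : Cl I k F) (hc : ∀ s ∈ I, ∃ c, 0 < c ∧ ∀ x ∈ Ioo (0 : ℝ) 1, c ≤ F s x) :
    Cl I k fun s x => (F s x)⁻¹ := by
  induction k generalizing F with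
  | zero => exact Sm.inv hF hc
  | succ k ih =>
    have hi := ih hF.pred hc
    obtain ⟨h0, F1, h1, hd⟩ := hF
    refine ⟨h0.inv hc, fun s x => (-1 * F1 s x) * ((F s x)⁻¹ * (F s x)⁻¹),
      ((Cl.fix (p := fun _ => -1) contDiff_const).mul h1).mul (hi.mul hi), fun s hs x hx => ?_⟩
    obtain ⟨c, hc0, hc1⟩ := hc s hs
    have hne : F s x ≠ 0 := (hc0.trans_le (hc1 x hx)).ne'
    have e : -1 * F1 s x * ((F s x)⁻¹ * (F s x)⁻¹) = -F1 s x / F s x ^ 2 := by field_simp
    exact ((hd s hs x hx).inv hne).congr_deriv e.symm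

/-- FTC on `(0,1)`. -/
theorem eq_prim {f e : ℝ → ℝ} (he : ContinuousOn e (Ioo 0 1))
    (hd : ∀ x ∈ Ioo (0 : ℝ) 1, HasDerivAt f (e x) x) {x : ℝ} (hx : x ∈ Ioo (0 : ℝ) 1) :
    f x = f (1 / 2) + ∫ r in (1 / 2 : ℝ)..x, e r := by
  have hsub : uIcc (1 / 2 : ℝ) x ⊆ Ioo 0 1 :=
    ordConnected_Ioo.uIcc_subset ⟨by norm_num, by norm_num⟩ hx
  rw [intervalIntegral.integral_eq_sub_of_hasDerivAt (fun y hy => hd y (hsub hy))
    (he.mono hsub).intervalIntegrable]
  ring

/-- gain of one derivative (`eq_prim`, `Sm.prim`, `Sm.scal`). -/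
theorem Cl.prim {E : ℝ → ℝ → ℝ} (hE : Cl I k E) (ha : ContDiffOn ℝ ∞ (fun s => F s (1 / 2)) I)
    (hd : ∀ s ∈ I, ∀ x ∈ Ioo (0 : ℝ) 1, HasDerivAt (F s) (E s x) x) : Cl I (k + 1) F := by
  refine ⟨((Sm.scal ha).add hE.sm.prim).congr fun s hs x hx => ?_, E, hE, hd⟩
  exact eq_prim (hE.sm.continuousOn hs) (hd s hs) hx

/-- `F r x = F r ½ + ex (L (Φ1 r)) x` (`eq_prim`, `exists_primL`); differentiate in `r` (`ds_rep`, `exL`):
`ds F s x = ds F s ½ + ∫_{½}^x ex (deriv Φ1 s)`, whose `x`-derivative is `ds F1 s x`. -/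
theorem Cl.ds (hI : IsOpen I) (hF : Cl I k F) : Cl I k (ds F) := by
  induction k generalizing F with
  | zero => exact Sm.ds hI hF
  | succ k ih =>
    obtain ⟨h0, F1, h1, hd⟩ := hF
    refine ⟨h0.ds hI, _, ih h1, fun s hs x hx => ?_⟩
    obtain ⟨Φ, hΦ, e⟩ := h1.sm
    obtain ⟨-, hΦd, hΦe⟩ := ds_rep hI hΦ e
    obtain ⟨L, hL⟩ := exists_primL
    have hhalf : (1 / 2 : ℝ) ∈ Ioo (0 : ℝ) 1 := ⟨by norm_num, by norm_num⟩
    have hrep : ∀ y ∈ Ioo (0 : ℝ) 1, Boot.ds F s y =
        Boot.ds F s (1 / 2) + ∫ r in (1 / 2 : ℝ)..y, ex (deriv Φ s) r := by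
      intro y hy
      have a1 : HasDerivAt (fun r => F r (1 / 2)) (Boot.ds F s (1 / 2)) s :=
        (((h0.eval hhalf).contDiffAt (hI.mem_nhds hs)).differentiableAt (by simp)).hasDerivAt
      have a2 : HasDerivAt (fun r => ex (L (Φ r)) y) (ex (L (deriv Φ s)) y) s :=
        ((exL y).comp L).hasFDerivAt.comp_hasDerivAt s (hΦd s hs)
      have a3 : (fun r => F r y) =ᶠ[𝓝 s] fun r => F r (1 / 2) + ex (L (Φ r)) y := by
        filter_upwards [hI.mem_nhds hs] with r hr
        rw [eq_prim (h1.sm.continuousOn hr) (hd r hr) hy, hL _ y (Ioo_subset_Icc_self hy)]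
        congr 1
        refine intervalIntegral.integral_congr fun z hz => ?_
        exact (e r hr z (ordConnected_Ioo.uIcc_subset hhalf hy hz)).symm
      rw [← hL _ y (Ioo_subset_Icc_self hy)]
      exact ((a1.add a2).congr_of_eventuallyEq a3).deriv
    have hc := continuous_ex (deriv Φ s)
    have b1 := (intervalIntegral.integral_hasDerivAt_right (hc.intervalIntegrable (1 / 2) x)
      (hc.stronglyMeasurableAtFilter _ _) hc.continuousAt).const_add (Boot.ds F s (1 / 2))
    rw [hΦe s hs x hx] at b1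
    refine b1.congr_of_eventuallyEq ?_
    filter_upwards [Ioo_mem_nhds hx.1 hx.2] with y hy using hrep y hy

/-- differentiation under the integral (`intervalIntegral.hasDerivAt_integral_of_dominated_loc_of_deriv_le`,
`seg_mem`, `Sm.bound`, `Sm.continuousOn`); the derivative is `av c (t κ t) (F1 s)`. -/
theorem Cl.av (hF : Cl I k F) {c : ℝ} (hc : c ∈ Icc (0 : ℝ) 1) {κ : ℝ → ℝ} (hκ : Continuous κ) :
    Cl I k fun s => av c (fun t _ => κ t) (F s) := by
  have hsm : ∀ {G : ℝ → ℝ → ℝ} {κ : ℝ → ℝ}, Sm I G → Continuous κ →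
      Sm I fun s => Boot.av c (fun t _ => κ t) (G s) := by
    intro G κ hG hκ
    obtain ⟨B, hB⟩ := (isCompact_Icc (a := (0 : ℝ)) (b := 1)).exists_bound_of_continuousOn
      hκ.continuousOn
    exact hG.av hc (B := B) (fun _ _ => hκ.continuousOn) (fun _ _ => continuousOn_const)
      fun t ht _ _ => hB t (Ioo_subset_Icc_self ht)
  induction k generalizing F κ with
  | zero => exact hsm hF hκ
  | succ k ih =>
    obtain ⟨h0, F1, h1, hd⟩ := hF
    refine ⟨hsm h0 hκ, fun s => Boot.av c (fun t _ => κ t * t) (F1 s),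
      ih h1 (hκ.mul continuous_id), fun s hs x hx => ?_⟩
    obtain ⟨B, hB⟩ := (isCompact_Icc (a := (0 : ℝ)) (b := 1)).exists_bound_of_continuousOn
      hκ.continuousOn
    have hB0 : 0 ≤ B := (norm_nonneg _).trans (hB 0 ⟨le_rfl, zero_le_one⟩)
    obtain ⟨B0, hB0'⟩ := h0.bound hs
    obtain ⟨B1, hB1⟩ := h1.sm.bound hs
    have hI01 : uIoc (0 : ℝ) 1 = Ioc 0 1 := uIoc_of_le zero_le_one
    have hcomp : ∀ {f : ℝ → ℝ}, ContinuousOn f (Ioo 0 1) → ∀ y ∈ Ioo (0 : ℝ) 1,
        ContinuousOn (fun t => f (c + t * (y - c))) (Ioc 0 1) := fun hf y hy =>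
      hf.comp (by fun_prop) fun t ht => seg_mem hc hy ht
    have hmeas : ∀ y ∈ Ioo (0 : ℝ) 1, AEStronglyMeasurable
        (fun t => κ t * F s (c + t * (y - c))) (volume.restrict (uIoc (0 : ℝ) 1)) := by
      intro y hy
      rw [hI01]
      exact (hκ.continuousOn.mul (hcomp (h0.continuousOn hs) y hy)).aestronglyMeasurable
        measurableSet_Ioc
    have key := intervalIntegral.hasDerivAt_integral_of_dominated_loc_of_deriv_le
      (μ := volume) (a := 0) (b := 1) (F := fun y t => κ t * F s (c + t * (y - c)))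
      (F' := fun y t => κ t * t * F1 s (c + t * (y - c))) (x₀ := x) (bound := fun _ => B * B1)
      (Ioo_mem_nhds hx.1 hx.2) ?_ ?_ ?_ ?_ intervalIntegrable_const ?_
    · exact key.2
    · filter_upwards [Ioo_mem_nhds hx.1 hx.2] with y hy using hmeas y hy
    · rw [intervalIntegrable_iff]
      have hm := hmeas x hx
      rw [hI01] at hm ⊢
      refine Integrable.of_bound hm (B * B0) ?_
      filter_upwards [ae_restrict_mem measurableSet_Ioc] with t ht
      rw [norm_mul]
      exact mul_le_mul (hB t (Ioc_subset_Icc_self ht)) (hB0' _ (seg_mem hc hx ht))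
        (norm_nonneg _) hB0
    · rw [hI01]
      exact ((hκ.mul continuous_id).continuousOn.mul
        (hcomp (h1.sm.continuousOn hs) x hx)).aestronglyMeasurable measurableSet_Ioc
    · refine Eventually.of_forall fun t ht y hy => ?_
      rw [hI01] at ht
      rw [norm_mul, norm_mul]
      have a1 : ‖κ t‖ * ‖t‖ ≤ B := by
        rw [Real.norm_of_nonneg ht.1.le]
        exact (mul_le_of_le_one_right (norm_nonneg _) ht.2).trans (hB t (Ioc_subset_Icc_self ht))
      exact mul_le_mul a1 (hB1 _ (seg_mem hc hy ht)) (norm_nonneg _) hB0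
    · refine Eventually.of_forall fun t ht y hy => ?_
      rw [hI01] at ht
      have a1 : HasDerivAt (fun y => c + t * (y - c)) t y := by
        simpa using (((hasDerivAt_id y).sub_const c).const_mul t).const_add c
      have a2 := ((hd s hs _ (seg_mem hc hy ht)).comp y a1).const_mul (κ t)
      have e : κ t * t * F1 s (c + t * (y - c)) = κ t * (F1 s (c + t * (y - c)) * t) := by ring
      rw [e]
      exact a2

end Crest.Agent.R213.Boot
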