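import Mathlib

/-! # R213 / BootD : classes of curves of functions on `(0,1)` that extend to `[0,1]` (definitions)

`Sm I F`: `s ↦ F s` is (on `I`, for `x ∈ (0,1)`) a `C^∞` curve in the Banach algebra `C([0,1],ℝ)`.
`Cl I k F`: the same for the `x`-derivatives up to order `k`.  Only the values on `I × (0,1)` matter. -/

set_option autoImplicit false

open MeasureTheory Set Filter Topology
open scoped ContDiff

noncomputable section

namespace Crest.Agent.R213.Boot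

abbrev KK : Type := Icc (0 : ℝ) 1
abbrev XX : Type := C(KK, ℝ)

/-- extension of a continuous function on `[0,1]` to `ℝ` (constant outside). -/
def ex (f : XX) (y : ℝ) : ℝ := f (projIcc 0 1 zero_le_one y)

def Sm (I : Set ℝ) (F : ℝ → ℝ → ℝ) : Prop :=
  ∃ Φ : ℝ → XX, ContDiffOn ℝ ∞ Φ I ∧ ∀ s ∈ I, ∀ x ∈ Ioo (0 : ℝ) 1, ex (Φ s) x = F s x

def Cl (I : Set ℝ) : ℕ → (ℝ → ℝ → ℝ) → Prop
  | 0, F => Sm I F
  | k + 1, F => Sm I F ∧ ∃ F1, Cl I k F1 ∧ ∀ s ∈ I, ∀ x ∈ Ioo (0 : ℝ) 1, HasDerivAt (F s) (F1 s x) x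

/-- time derivative. -/
def ds (F : ℝ → ℝ → ℝ) (s x : ℝ) : ℝ := deriv (fun r => F r x) s

/-- averaging along the segment from `c` to `x`. -/
def av (c : ℝ) (κ : ℝ → ℝ → ℝ) (f : ℝ → ℝ) (x : ℝ) : ℝ :=
  ∫ t in (0 : ℝ)..1, κ t x * f (c + t * (x - c))

theorem continuous_ex (f : XX) : Continuous (ex f) :=
  f.continuous.comp continuous_projIcc

theorem ex_of_mem (f : XX) {x : ℝ} (hx : x ∈ Icc (0 : ℝ) 1) : ex f x = f ⟨x, hx⟩ := by
  simp only [ex, projIcc_of_mem _ hx]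

theorem ex_coe (f : XX) (x : KK) : ex f x = f x := ex_of_mem f x.2

theorem abs_ex_le (f : XX) (y : ℝ) : |ex f y| ≤ ‖f‖ := f.norm_coe_le_norm _

/-- evaluation as a continuous linear functional. -/
def exL (y : ℝ) : XX →L[ℝ] ℝ := ContinuousMap.evalCLM ℝ (projIcc 0 1 zero_le_one y)

theorem exL_apply (y : ℝ) (f : XX) : exL y f = ex f y := rfl

theorem ex_add (f g : XX) (y : ℝ) : ex (f + g) y = ex f y + ex g y := rfl
theorem ex_sub (f g : XX) (y : ℝ) : ex (f - g) y = ex f y - ex g y := rfl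
theorem ex_mul (f g : XX) (y : ℝ) : ex (f * g) y = ex f y * ex g y := rfl
theorem ex_smul (a : ℝ) (f : XX) (y : ℝ) : ex (a • f) y = a * ex f y := rfl
theorem ex_one (y : ℝ) : ex (1 : XX) y = 1 := rfl

/-- a closed property of the values holds on `[0,1]` once it holds on `(0,1)`. -/
theorem ex_mem_closed (f : XX) {A : Set ℝ} (hA : IsClosed A) (h : ∀ x ∈ Ioo (0 : ℝ) 1, ex f x ∈ A)
    (y : ℝ) : ex f y ∈ A := by
  have h1 : closure (Ioo (0 : ℝ) 1) ⊆ ex f ⁻¹' A :=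
    closure_minimal h (hA.preimage (continuous_ex f))
  rw [closure_Ioo zero_ne_one] at h1
  have h2 := h1 (projIcc 0 1 zero_le_one y).2
  rw [mem_preimage, ex_coe] at h2
  exact h2

theorem ext_Ioo {f g : XX} (h : ∀ x ∈ Ioo (0 : ℝ) 1, ex f x = ex g x) : f = g := by
  ext x
  have := ex_mem_closed (f - g) (isClosed_singleton (x := (0 : ℝ)))
    (fun y hy => by rw [mem_singleton_iff, ex_sub, h y hy, sub_self]) x
  rw [mem_singleton_iff, ex_sub, ex_coe, ex_coe] at this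
  exact sub_eq_zero.1 this

theorem seg_mem {c x t : ℝ} (hc : c ∈ Icc (0 : ℝ) 1) (hx : x ∈ Ioo (0 : ℝ) 1) (ht : t ∈ Ioc (0 : ℝ) 1) :
    c + t * (x - c) ∈ Ioo (0 : ℝ) 1 := by
  obtain ⟨c0, c1⟩ := hc
  obtain ⟨x0, x1⟩ := hx
  obtain ⟨t0, t1⟩ := ht
  constructor
  · nlinarith [mul_pos t0 x0, mul_nonneg (sub_nonneg.2 t1) c0]
  · nlinarith [mul_pos t0 (sub_pos.2 x1), mul_nonneg (sub_nonneg.2 t1) (sub_nonneg.2 c1)]

end Crest.Agent.R213.Boot

end
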