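import Crest.Agent.R213.IExist
import Crest.Agent.R213.Stab
import Crest.Agent.R213.Ang2

/-!
# R213 / IAng : quasilinear equation `Z = -κ(s) (1 + M U)² v`: stability and smoothness in time
-/

set_option autoImplicit false

open MeasureTheory Set
open scoped InnerProductSpace ContDiff

namespace Crest.Agent.R213

variable {V H : Type} [NormedAddCommGroup V] [InnerProductSpace ℝ V] [CompleteSpace V]
  [NormedAddCommGroup H] [InnerProductSpace ℝ H] [CompleteSpace H]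

/-- Stability.  `energy_one` for the difference `v = v1 - v2`, `U = U1 - U2`;
`(1+P1)² - (1+P2)² = (1+P1)(P1-P2) + (P1-P2)(1+P2)`, `P1 - P2 = M U`, so
`2 a (Z1-Z2) v ≤ -2κc‖v‖² + 2κ C1‖U‖² + 2κ‖a‖(2+2N)‖M‖‖U‖‖v2‖‖v‖ + 2‖a‖‖F‖‖v‖`; Young, `gronwall_int`. -/
theorem stab (T : Trip V H) (M : H →L[ℝ] V →L[ℝ] V) (c N : ℝ) (hc : 0 < c) :
    ∃ K : ℝ, 0 < K ∧ ∀ {s0 s1 κ0 C1 : ℝ} {v1 Z1 v2 Z2 F : ℝ → V} {U1 U2 : ℝ → H} {κ : ℝ → ℝ},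
      s0 ≤ s1 → 0 < κ0 → 0 ≤ C1 → IsSol T s0 s1 v1 Z1 U1 → IsSol T s0 s1 v2 Z2 U2 →
      (∀ s ∈ Icc s0 s1, κ0 ≤ κ s ∧ κ s ≤ 4 * κ0) →
      MemLp F 2 (volume.restrict (Ioc s0 s1)) →
      (∀ᵐ s ∂(volume.restrict (Ioc s0 s1)), Z1 s = -(κ s • sq1 (M (U1 s)) (v1 s))) →
      (∀ᵐ s ∂(volume.restrict (Ioc s0 s1)), Z2 s = -(κ s • sq1 (M (U2 s)) (v2 s)) + F s) →
      (∀ s ∈ Icc s0 s1, ∀ u,
        c * ‖u‖ ^ 2 - C1 * ‖T.ι u‖ ^ 2 ≤ T.a (sq1 (M (U1 s)) u) u) →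
      (∀ s ∈ Icc s0 s1, ‖M (U1 s)‖ ≤ N ∧ ‖M (U2 s)‖ ≤ N) → U1 s0 = U2 s0 →
      ∀ s ∈ Icc s0 s1, ‖U1 s - U2 s‖ ^ 2 + c * κ0 * ∫ q in s0..s, ‖v1 q - v2 q‖ ^ 2 ≤
        Real.exp (K * κ0 * (C1 * (s1 - s0) + ∫ q in s0..s1, ‖v2 q‖ ^ 2)) *
          (K / κ0 * ∫ q in s0..s1, ‖F q‖ ^ 2) :=
  stab' T M c N hc

/-- Angenent's trick.  Fix `s* ∈ (s0,s1)`; take a short window `[r0,r1] ∋ s*` strictly inside with
`∫_{r0}^{r1} ‖v‖²` small.  `W0` = closed subspace of `C(Icc r0 r1,H) × L²V × L²V` (solutions with zero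
initial value).  `Φ(l, w) = Z + w_Z + k_l • (1 + M(U + w_U))² (v + w_v) ∈ L²V`,
`k_l(s) = l·exp(-(r0 + l(s-r0))) ∈ C(Icc r0 r1, ℝ)` smooth in `l`; `Φ` is `C^∞` (bounded multilinear
maps `C(I,ℝ) × C(I, V →L V) × L²V → L²V`), `Φ(1,0) = 0`, `D_wΦ(1,0) = L0 + B` with
`L0 w = w_Z + k_1(1+MU)² w_v` invertible (`exists_sol`, `apriori`, norm of the inverse bounded
independently of the window) and `‖B w‖ ≤ K‖w_U‖_∞ ‖v‖_{L²(window)}` small.  The inverse function theorem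
(`ContDiffAt.to_localInverse` for `(l,w) ↦ (l,Φ)`) gives `w_l` smooth in `l`; by `stab` (with `F = 0`;
solution 1 = the dilated one, `IsSol.affine`), `U (r0 + l (s - r0)) = U s + (w_l)_U s` for `l` near 1;
evaluate at `s = s*`. -/
theorem time_smooth (T : Trip V H) (M : H →L[ℝ] V →L[ℝ] V) {s0 s1 c C1 : ℝ}
    {v Z : ℝ → V} {U : ℝ → H} (h : IsSol T s0 s1 v Z U) (hc : 0 < c)
    (hZ : ∀ᵐ s ∂(volume.restrict (Ioc s0 s1)),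
      Z s = -(Real.exp (-s) • sq1 (M (U s)) (v s)))
    (gar : ∀ s ∈ Icc s0 s1, ∀ u,
      c * ‖u‖ ^ 2 - C1 * ‖T.ι u‖ ^ 2 ≤ T.a (sq1 (M (U s)) u) u) :
    ContDiffOn ℝ ∞ U (Ioo s0 s1) :=
  Ang_main T M h hc hZ gar

end Crest.Agent.R213
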