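import Crest.Agent.R213.ISp
import Crest.Agent.R213.IAng

/-! # R213 / BootE : smoothness in time and the equation at EVERY time -/

set_option autoImplicit false

open MeasureTheory Set Filter Topology
open scoped ContDiff InnerProductSpace

namespace Crest.Agent.R213.Boot

/-- `time_smooth` on `[s1, s2]` with `C1 = C e^{s2}` (`contDiffOn_of_locally_contDiffOn` or `ContDiffAt`). -/
theorem U_smooth (S : Sp) (P : Nl S) : ContDiffOn ℝ ∞ P.U (Ioi P.s1) := by
  intro s hs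
  have hs' : P.s1 < s := hs
  have h := time_smooth S.T S.M (C1 := P.C * Real.exp (s + 1)) (P.sol (s + 1) (by linarith))
    P.c_pos (ae_restrict_of_ae_restrict_of_subset Ioc_subset_Ioi_self P.eqn) fun r hr u => by
      refine le_trans ?_ (P.gar r hr.1 u)
      have h1 : P.C * Real.exp r ≤ P.C * Real.exp (s + 1) :=
        mul_le_mul_of_nonneg_left (Real.exp_le_exp.2 hr.2) P.C_pos.le
      have h2 := mul_le_mul_of_nonneg_right h1 (sq_nonneg ‖S.T.ι u‖)
      linarith
  exact (h.contDiffAt (Ioo_mem_nhds hs' (by linarith))).contDiffWithinAt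

theorem be_mkL (φ : L2 → ℝ) (K : ℝ) (h1 : ∀ (h k : L2) (t : ℝ), φ (h + t • k) = φ h + t * φ k)
    (h2 : ∀ h, |φ h| ≤ K * ‖h‖) : ∃ A : L2 →L[ℝ] ℝ, ∀ h, A h = φ h := by
  have h0 : φ 0 = 0 := by
    have := h1 0 0 1
    simp only [smul_zero, add_zero, one_mul] at this
    linarith
  refine ⟨LinearMap.mkContinuous ⟨⟨φ, fun h k => ?_⟩, fun t k => ?_⟩ K h2, fun _ => rfl⟩
  · have := h1 h k 1
    rwa [one_smul, one_mul] at this
  · have := h1 0 k t
    rwa [zero_add, h0, zero_add] at this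

/-- bounded functionals (`sig_lin`, `sig_bd`, `xi_bd`; `LinearMap.mkContinuous`). -/
theorem exists_evalL {x : ℝ} (hx : x ∈ Ioo (0 : ℝ) 1) : ∃ A B D : L2 →L[ℝ] ℝ,
    ∀ h, A h = sig h x ∧ B h = sig1 h x ∧ D h = xi h x := by
  obtain ⟨C, -, hC⟩ := sig_bd
  obtain ⟨C', -, hC'⟩ := xi_bd
  have h0 := hx.1
  have h1 := Real.sqrt_pos.2 hx.1
  have h2 := Real.sqrt_pos.2 (sub_pos.2 hx.2)
  obtain ⟨A, hA⟩ := be_mkL (fun h => sig h x) (C / Real.sqrt x)
    (fun h k t => (sig_lin h k t hx).1) fun h => by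
      rw [div_mul_eq_mul_div, le_div_iff₀ h1]
      exact (hC h x hx).1
  obtain ⟨B, hB⟩ := be_mkL (fun h => sig1 h x) (C / (x * Real.sqrt x * Real.sqrt (1 - x)))
    (fun h k t => (sig_lin h k t hx).2.1) fun h => by
      rw [div_mul_eq_mul_div, le_div_iff₀ (by positivity)]
      exact (hC h x hx).2
  obtain ⟨D, hD⟩ := be_mkL (fun h => xi h x) (C' * (x * Real.sqrt x * (1 - x) ^ 2))
    (fun h k t => (sig_lin h k t hx).2.2) fun h => by
      refine (hC' h x hx).1.trans (le_of_eq ?_)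
      ring
  exact ⟨A, B, D, fun h => ⟨hA h, hB h, hD h⟩⟩

/-- multiplication by `xi h / φ0` on `H` -/
noncomputable def be_N (S : Sp) (h : L2) : L2 →L[ℝ] L2 := S.mulH fun x => xi h x / (x * (1 - x))

theorem be_ι (S : Sp) (h : L2) (u : VV) : S.T.ι (S.M h u) = be_N S h (S.T.ι u) := by
  rw [S.M_eq, S.ι_mul (S.M_mult h)]
  rfl

theorem be_spec (S : Sp) (h : L2) :
    (∀ k : L2, be_N S h k =ᵐ[ν] fun x => xi h x / (x * (1 - x)) * k x) ∧
      ‖be_N S h‖ ≤ S.CM * ‖h‖ :=
  S.mulH_eq _ _ (S.M_mult h).sm.continuousOn (S.M_mult h).b0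

theorem be_sub (S : Sp) (h k : L2) : be_N S h - be_N S k = be_N S (h - k) := by
  refine ContinuousLinearMap.coeFn_injective
    (S.T.dense.equalizer (be_N S h - be_N S k).continuous (be_N S (h - k)).continuous ?_)
  funext u
  simp only [Function.comp_apply, sub_apply, ← be_ι, map_sub]

theorem be_cont (S : Sp) : Continuous (be_N S) := by
  refine (LipschitzWith.of_dist_le_mul (K := S.CM.toNNReal) fun h k => ?_).continuous
  rw [dist_eq_norm, dist_eq_norm, be_sub]
  exact (be_spec S _).2.trans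
    (mul_le_mul_of_nonneg_right (Real.le_coe_toNNReal _) (norm_nonneg _))

theorem be_sq (S : Sp) (h : L2) (u : VV) : S.T.ι (sq1 (S.M h) u) =
    (S.T.ι u + be_N S h (S.T.ι u)) + be_N S h (S.T.ι u + be_N S h (S.T.ι u)) := by
  have e : sq1 (S.M h) u = (u + S.M h u) + S.M h (u + S.M h u) := by
    rw [sq1, pow_two]
    rfl
  rw [e, map_add, be_ι, map_add, be_ι]

theorem be_eq (S : Sp) (P : Nl S) {s : ℝ} (hs : P.s1 < s) :
    S.T.ι (S.T.G (deriv P.U s)) = -(Real.exp (-s) • ((P.U s + be_N S (P.U s) (P.U s)) +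
      be_N S (P.U s) (P.U s + be_N S (P.U s) (P.U s)))) := by
  obtain ⟨Y, hY⟩ : ∃ Y : ℝ → L2, Y = fun r => -(Real.exp (-r) •
      ((P.U r + be_N S (P.U r) (P.U r)) +
        be_N S (P.U r) (P.U r + be_N S (P.U r) (P.U r)))) := ⟨_, rfl⟩
  have sol := P.sol (s + 1) (by linarith)
  have hN : ContinuousOn (fun r => be_N S (P.U r)) (Icc P.s1 (s + 1)) :=
    (be_cont S).comp_continuousOn sol.cont
  have hYc : ContinuousOn Y (Icc P.s1 (s + 1)) := by
    have h1 := sol.cont.add (hN.clm_apply sol.cont)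
    rw [hY]
    exact ((Real.continuous_exp.comp continuous_neg).continuousOn.smul
      (h1.add (hN.clm_apply h1))).neg
  have hZ : IntegrableOn P.Z (Ioc P.s1 (s + 1)) := sol.Z2.integrable one_le_two
  have hae : ∀ᵐ r ∂(volume.restrict (Ioc P.s1 (s + 1))), S.T.ι (P.Z r) = Y r := by
    filter_upwards [ae_restrict_of_ae_restrict_of_subset Ioc_subset_Ioi_self P.eqn, sol.rep]
      with r h1 h2
    rw [h1, map_neg, map_smul, be_sq, h2, hY]
  have hnb : Ioo P.s1 (s + 1) ∈ 𝓝 s := Ioo_mem_nhds hs (by linarith)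
  have hev : (fun b => S.T.ι (S.T.G (P.U b))) =ᶠ[𝓝 s]
      fun b => S.T.ι (S.T.G (P.U P.s1)) + ∫ r in P.s1..b, Y r := by
    filter_upwards [hnb] with b hb
    have hZb : IntervalIntegrable P.Z volume P.s1 b :=
      (intervalIntegrable_iff_integrableOn_Ioc_of_le hb.1.le).2
        (hZ.mono_set (Ioc_subset_Ioc_right hb.2.le))
    rw [sol.int b (Ioo_subset_Icc_self hb), map_add,
      ← ContinuousLinearMap.intervalIntegral_comp_comm _ hZb,
      intervalIntegral.integral_of_le hb.1.le, intervalIntegral.integral_of_le hb.1.le]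
    congr 1
    exact integral_congr_ae
      (ae_restrict_of_ae_restrict_of_subset (Ioc_subset_Ioc_right hb.2.le) hae)
  have d1 : HasDerivAt P.U (deriv P.U s) s :=
    (((U_smooth S P).contDiffAt (Ioi_mem_nhds hs)).differentiableAt (by simp)).hasDerivAt
  have d2 : HasDerivAt (fun b => S.T.ι (S.T.G (P.U b))) (S.T.ι (S.T.G (deriv P.U s))) s :=
    (S.T.ι.comp S.T.G).hasFDerivAt.comp_hasDerivAt s d1
  have hYi : IntervalIntegrable Y volume P.s1 s := by
    refine ContinuousOn.intervalIntegrable (hYc.mono ?_)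
    rw [uIcc_of_le hs.le]
    exact Icc_subset_Icc_right (by linarith)
  have d3 := (intervalIntegral.integral_hasDerivAt_right hYi
    ((hYc.mono Ioo_subset_Icc_self).stronglyMeasurableAtFilter isOpen_Ioo s ⟨hs, by linarith⟩)
    (hYc.continuousAt (mem_of_superset hnb Ioo_subset_Icc_self))).const_add
      (S.T.ι (S.T.G (P.U P.s1)))
  have := d2.unique (d3.congr_of_eventuallyEq hev)
  rw [this, hY]

/-- On `[a,b] ⊂ I` the continuous function `W r = ι G (U' r) + e^{-r} (1 + mulH p_r)² U r` has zero integrals: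
`G (U b) - G (U a) = ∫ G (U' r)` (FTC) `= ∫ Z` (`IsSol.int`), `ι Z r = -e^{-r} ι sq1 (M U r) (v r)` and
`ι (M h u) = N h (ι u)` with `N h = mulH (xi h/φ0)` (`M_eq`, `M_mult`, `ι_mul`); `h ↦ N h` is continuous
(`‖N h - N k‖ ≤ CM ‖h - k‖` by density of the range of `ι` or by `mulH_eq`).  So `W = 0` everywhere (differentiate the
primitive).  Then read off a.e. values: `ι_eq`, `G_rep`, `Rep.d`, `mulH_eq`. -/
theorem eqn_all (S : Sp) (P : Nl S) {s : ℝ} (hs : P.s1 < s) :
    hv (P.U s) =ᵐ[ν] fun x => -(Real.exp s * xi (deriv P.U s) x /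
      (1 + xi (P.U s) x / (x * (1 - x))) ^ 2) := by
  have h := be_eq S P hs
  obtain ⟨k, hk⟩ : ∃ k, k = P.U s + be_N S (P.U s) (P.U s) := ⟨_, rfl⟩
  rw [← hk] at h
  have h1 := S.ι_eq (S.T.G (deriv P.U s))
  rw [h] at h1
  have h2 : k =ᵐ[ν] P.U s + be_N S (P.U s) (P.U s) := hk ▸ Lp.coeFn_add _ _
  filter_upwards [h1, (S.G_rep (deriv P.U s)).d.1, h2, (be_spec S (P.U s)).1 (P.U s),
    (be_spec S (P.U s)).1 k, Lp.coeFn_neg (Real.exp (-s) • (k + be_N S (P.U s) k)),
    Lp.coeFn_smul (Real.exp (-s)) (k + be_N S (P.U s) k), Lp.coeFn_add k (be_N S (P.U s) k),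
    ae_restrict_mem measurableSet_Ioo] with x e1 e2 e3 e4 e5 e6 e7 e8 hx
  have hp : 0 < 1 + xi (P.U s) x / (x * (1 - x)) := P.c_pos.trans_le (P.pos s hs.le x hx)
  unfold hv at e1 ⊢
  rw [e6, Pi.neg_apply, e7, Pi.smul_apply, e8, Pi.add_apply, e5, e3, Pi.add_apply, e4, e2,
    smul_eq_mul] at e1
  rw [← e1, Real.exp_neg]
  generalize xi (P.U s) x / (x * (1 - x)) = p at hp ⊢
  have := Real.exp_pos s
  field_simp

end Crest.Agent.R213.Boot
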