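import Crest.Agent.R213.BootC

/-! # R213 / BootJ : joint smoothness on `I × [0,1]` -/

set_option autoImplicit false

open MeasureTheory Set Filter Topology
open scoped ContDiff

namespace Crest.Agent.R213.Boot

variable {I : Set ℝ}

/-- Total derivative from the derivative of the curve and the `x`-derivative of one slice:
`Φ(s+a)(y) - Φ(s)(x) = [Φ(s+a) - Φ s - a Φ'](y) + a (Φ'(y) - Φ'(x)) + a Φ'(x) + (Φ s y - Φ s x)`. -/
theorem hasFDerivWithinAt_ex {Φ : ℝ → XX} {Φ' : XX} {s x d : ℝ} (A : Set ℝ) (hs : HasDerivAt Φ Φ' s)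
    (hd : HasDerivWithinAt (ex (Φ s)) d (Icc 0 1) x) :
    HasFDerivWithinAt (fun p : ℝ × ℝ => ex (Φ p.1) p.2)
      (ex Φ' x • ContinuousLinearMap.fst ℝ ℝ ℝ + d • ContinuousLinearMap.snd ℝ ℝ ℝ) (A ×ˢ Icc 0 1) (s, x) := by
  have hA : HasFDerivWithinAt (fun p : ℝ × ℝ => ex (Φ s) p.2) (d • ContinuousLinearMap.snd ℝ ℝ ℝ)
      (A ×ˢ Icc 0 1) (s, x) := by
    have h2 : HasFDerivWithinAt (fun p : ℝ × ℝ => p.2) (ContinuousLinearMap.snd ℝ ℝ ℝ) (A ×ˢ Icc 0 1)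
        (s, x) := hasFDerivWithinAt_snd
    exact HasDerivWithinAt.comp_hasFDerivWithinAt (s, x) hd h2 fun p hp => hp.2
  have hB : HasFDerivAt (fun p : ℝ × ℝ => ex (Φ p.1) p.2 - ex (Φ s) p.2)
      (ex Φ' x • ContinuousLinearMap.fst ℝ ℝ ℝ) (s, x) := by
    rw [hasFDerivAt_iff_isLittleO]
    have hf : (fun p : ℝ × ℝ => p.1 - s) =O[𝓝 (s, x)] fun p : ℝ × ℝ => p - (s, x) :=
      Asymptotics.IsBigO.of_bound 1 (Eventually.of_forall fun p => by
        rw [one_mul]; exact norm_fst_le (p - (s, x)))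
    have h1 : (fun p : ℝ × ℝ => ex (Φ p.1 - Φ s - (p.1 - s) • Φ') p.2) =o[𝓝 (s, x)]
        fun p : ℝ × ℝ => p - (s, x) := by
      have h0 := (hasDerivAt_iff_isLittleO.1 hs).comp_tendsto
        (continuous_fst.tendsto' ((s, x) : ℝ × ℝ) s rfl)
      refine Asymptotics.IsBigO.trans_isLittleO ?_ (h0.trans_isBigO hf)
      exact Asymptotics.IsBigO.of_bound 1 (Eventually.of_forall fun p => by
        rw [one_mul]; exact abs_ex_le _ _)
    have h2 : (fun p : ℝ × ℝ => (ex Φ' p.2 - ex Φ' x) * (p.1 - s)) =o[𝓝 (s, x)]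
        fun p : ℝ × ℝ => p - (s, x) := by
      have h3 : (fun p : ℝ × ℝ => ex Φ' p.2 - ex Φ' x) =o[𝓝 (s, x)] fun _ => (1 : ℝ) := by
        rw [Asymptotics.isLittleO_one_iff]
        have := (((continuous_ex Φ').comp continuous_snd).sub
          (continuous_const (y := ex Φ' x))).tendsto' ((s, x) : ℝ × ℝ) 0 (by simp)
        exact this
      have h4 := h3.mul_isBigO (Asymptotics.isBigO_refl (fun p : ℝ × ℝ => p.1 - s) (𝓝 (s, x)))
      simp only [one_mul] at h4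
      exact h4.trans_isBigO hf
    refine (h1.add h2).congr_left fun p => ?_
    simp only [ex_sub, ex_smul, smul_apply, ContinuousLinearMap.coe_fst',
      Prod.fst_sub, smul_eq_mul]
    ring
  have h := hB.hasFDerivWithinAt.add hA
  refine h.congr (fun p _ => ?_) ?_ <;> simp

/-- derivative up to the end points: `ex f y = ex f ½ + ∫_{½}^y ex f1` on `(0,1)` (`eq_prim`), hence on `[0,1]`
(`exists_primL`, `ext_Ioo`); FTC for the continuous function `ex f1`. -/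
theorem hasDerivWithinAt_ex {f f1 : XX} (h : ∀ x ∈ Ioo (0 : ℝ) 1, HasDerivAt (ex f) (ex f1 x) x)
    {x : ℝ} (hx : x ∈ Icc (0 : ℝ) 1) : HasDerivWithinAt (ex f) (ex f1 x) (Icc 0 1) x := by
  obtain ⟨L, hL⟩ := exists_primL
  have e : f = ContinuousMap.const _ (ex f (1 / 2)) + L f1 := by
    refine ext_Ioo fun y hy => ?_
    rw [ex_add, hL f1 y (Ioo_subset_Icc_self hy), eq_prim (continuous_ex f1).continuousOn h hy]
    rfl
  have h1 : HasDerivAt (fun y => ex f (1 / 2) + ∫ r in (1 / 2 : ℝ)..y, ex f1 r) (ex f1 x) x :=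
    ((continuous_ex f1).integral_hasStrictDerivAt (1 / 2) x).hasDerivAt.const_add _
  have e2 : ∀ y ∈ Icc (0 : ℝ) 1, ex f y = ex f (1 / 2) + ∫ r in (1 / 2 : ℝ)..y, ex f1 r := by
    intro y hy
    conv_lhs => rw [e]
    rw [ex_add, hL f1 y hy]
    rfl
  exact h1.hasDerivWithinAt.congr e2 (e2 x hx)

/-- induction on `n`: the two partial derivatives are represented by `deriv Φ` (`ds_rep`, `Cl.ds`, `Cl.pred`)
and by the representative of `F1`; `contDiffOn_succ_iff_hasFDerivWithinAt_of_uniqueDiffOn` or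
`contDiffOn_succ_of_fderivWithin`. -/
theorem Cl.joint_nat (hI : IsOpen I) (n : ℕ) : ∀ {F : ℝ → ℝ → ℝ} {Φ : ℝ → XX}, Cl I n F →
    ContDiffOn ℝ ∞ Φ I → (∀ s ∈ I, ∀ x ∈ Ioo (0 : ℝ) 1, ex (Φ s) x = F s x) →
    ContDiffOn ℝ n (fun p : ℝ × ℝ => ex (Φ p.1) p.2) (I ×ˢ Icc 0 1) := by
  induction n with
  | zero =>
    intro F Φ _ hΦ _
    rw [Nat.cast_zero, contDiffOn_zero]
    have h1 : ContinuousOn (fun p : ℝ × ℝ => ((Φ p.1, projIcc 0 1 zero_le_one p.2) : XX × KK))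
        (I ×ˢ Icc 0 1) :=
      (hΦ.continuousOn.comp continuousOn_fst fun p hp => hp.1).prodMk
        (continuous_projIcc.comp continuous_snd).continuousOn
    exact continuous_eval.comp_continuousOn h1
  | succ n ih =>
    intro F Φ hF hΦ e
    obtain ⟨h1, h2, h3⟩ := ds_rep hI hΦ e
    have i1 := ih (Cl.ds hI hF.pred) h1 h3
    obtain ⟨-, F1, hF1, hd⟩ := hF
    obtain ⟨Ψ, hΨ, eΨ⟩ := hF1.sm
    have i2 := ih hF1 hΨ eΨ
    have hu : UniqueDiffOn ℝ (I ×ˢ Icc (0 : ℝ) 1) := hI.uniqueDiffOn.prod (uniqueDiffOn_Icc zero_lt_one)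
    rw [Nat.cast_succ, contDiffOn_succ_iff_hasFDerivWithinAt_of_uniqueDiffOn hu]
    refine ⟨fun h => absurd h (by simp), fun p => ex (deriv Φ p.1) p.2 • ContinuousLinearMap.fst ℝ ℝ ℝ +
      ex (Ψ p.1) p.2 • ContinuousLinearMap.snd ℝ ℝ ℝ,
      (i1.smul contDiffOn_const).add (i2.smul contDiffOn_const), ?_⟩
    rintro ⟨s, x⟩ ⟨hs, hx⟩
    refine hasFDerivWithinAt_ex I (h2 s hs) (hasDerivWithinAt_ex (fun y hy => ?_) hx)
    rw [eΨ s hs y hy]
    refine (hd s hs y hy).congr_of_eventuallyEq ?_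
    filter_upwards [isOpen_Ioo.mem_nhds hy] with z hz using e s hs z hz

theorem joint (hI : IsOpen I) {F : ℝ → ℝ → ℝ} (h : ∀ k, Cl I k F) :
    ∃ G : ℝ → ℝ → ℝ, ContDiffOn ℝ ∞ (Function.uncurry G) (I ×ˢ Icc 0 1) ∧
      ∀ s ∈ I, ∀ x ∈ Ioo (0 : ℝ) 1, G s x = F s x := by
  obtain ⟨Φ, hΦ, e⟩ := (h 0).sm
  exact ⟨fun s x => ex (Φ s) x, contDiffOn_infty.2 fun n => Cl.joint_nat hI n (h n) hΦ e, e⟩

end Crest.Agent.R213.Boot
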