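import Crest.Agent.R213.BootJ
import Crest.Agent.R213.BootE

/-! # R213 / BootM : the bootstrap (first pass, induction, assembly) -/

set_option autoImplicit false

open MeasureTheory Set Filter Topology
open scoped ContDiff InnerProductSpace

noncomputable section

namespace Crest.Agent.R213.Boot

/-- `g = 1 + ξ/φ0`. -/
def gF (U : ℝ → L2) (s x : ℝ) : ℝ := 1 + xi (U s) x / (x * (1 - x))
/-- `q = ξ/φ0²`. -/
def qF (U : ℝ → L2) (s x : ℝ) : ℝ := xi (U s) x / (x * (1 - x)) ^ 2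
/-- the continuous representative of `ε`. -/
def eF (U : ℝ → L2) (s x : ℝ) : ℝ :=
  -(Real.exp s * xi (deriv U s) x / gF U s x ^ 2) / (x * (1 - x)) ^ 2

theorem phi_pos {x : ℝ} (hx : x ∈ Ioo (0 : ℝ) 1) : 0 < x * (1 - x) :=
  mul_pos hx.1 (sub_pos.2 hx.2)

theorem half_mem : (1 / 2 : ℝ) ∈ Ioo (0 : ℝ) 1 := by constructor <;> norm_num

theorem uIcc_sub {x y : ℝ} (hx : x ∈ Ioo (0 : ℝ) 1) (hy : y ∈ Ioo (0 : ℝ) 1) : uIcc x y ⊆ Ioo 0 1 :=
  (ordConnected_Ioo).uIcc_subset hx hy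

variable {S : Sp} (P : Nl S)

theorem g_pos {s : ℝ} (hs : s ∈ Ioi P.s1) {x : ℝ} (hx : x ∈ Ioo (0 : ℝ) 1) : 0 < gF P.U s x :=
  P.c_pos.trans_le (P.pos s (le_of_lt hs) x hx)

theorem hasDerivAt_U {s : ℝ} (hs : s ∈ Ioi P.s1) : HasDerivAt P.U (deriv P.U s) s :=
  (((U_smooth S P).contDiffAt (isOpen_Ioi.mem_nhds hs)).differentiableAt (by simp)).hasDerivAt

theorem U'_smooth : ContDiffOn ℝ ∞ (deriv P.U) (Ioi P.s1) :=
  (U_smooth S P).deriv_of_isOpen isOpen_Ioi (by simp)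

theorem hasDerivAt_xi {s : ℝ} (hs : s ∈ Ioi P.s1) {x : ℝ} (hx : x ∈ Ioo (0 : ℝ) 1) :
    HasDerivAt (fun r => xi (P.U r) x) (xi (deriv P.U s) x) s := by
  obtain ⟨A, B, D, h⟩ := exists_evalL hx
  have h1 := D.hasFDerivAt.comp_hasDerivAt s (hasDerivAt_U P hs)
  rw [(h _).2.2] at h1
  refine h1.congr_of_eventuallyEq (Eventually.of_forall fun r => ?_)
  exact ((h _).2.2).symm

theorem sig_half_smooth : ContDiffOn ℝ ∞ (fun s => sig (P.U s) (1 / 2)) (Ioi P.s1) ∧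
    ContDiffOn ℝ ∞ (fun s => sig1 (P.U s) (1 / 2)) (Ioi P.s1) := by
  obtain ⟨A, B, D, h⟩ := exists_evalL half_mem
  exact ⟨(A.contDiff.comp_contDiffOn (U_smooth S P)).congr fun s _ => ((h _).1).symm,
    (B.contDiff.comp_contDiffOn (U_smooth S P)).congr fun s _ => ((h _).2.1).symm⟩

theorem eF_cont {s : ℝ} (hs : s ∈ Ioi P.s1) : ContinuousOn (eF P.U s) (Ioo 0 1) := by
  have h1 := (xi_contDiffOn (P.U s)).continuousOn
  have h2 := (xi_contDiffOn (deriv P.U s)).continuousOn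
  have h3 : ContinuousOn (fun x : ℝ => x * (1 - x)) (Ioo 0 1) := by fun_prop
  have h4 : ContinuousOn (gF P.U s) (Ioo 0 1) :=
    continuousOn_const.add (h1.div h3 fun x hx => (phi_pos hx).ne')
  exact (((continuousOn_const.mul h2).div (h4.pow 2) fun x hx => (pow_pos (g_pos P hs hx) 2).ne').neg).div
    (h3.pow 2) fun x hx => (pow_pos (phi_pos hx) 2).ne'

theorem eps_int {s : ℝ} (hs : s ∈ Ioi P.s1) (k : ℝ → ℝ) {x y : ℝ} (hx : x ∈ Ioo (0 : ℝ) 1)
    (hy : y ∈ Ioo (0 : ℝ) 1) :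
    ∫ r in x..y, k r * eps (P.U s) r = ∫ r in x..y, k r * eF P.U s r := by
  have h := (ae_restrict_iff' measurableSet_Ioo).1 (eqn_all S P hs)
  refine intervalIntegral.integral_congr_ae ?_
  filter_upwards [h] with r hr hm
  have hr' : r ∈ Ioo (0 : ℝ) 1 := uIcc_sub hx hy (uIoc_subset_uIcc hm)
  have h1 := hr hr'
  have h2 : eps (P.U s) r = hv (P.U s) r / (r * (1 - r)) ^ 2 := by
    have a1 : r ≠ 0 := hr'.1.ne'
    have a2 : 1 - r ≠ 0 := (sub_pos.2 hr'.2).ne'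
    simp only [eps, hv]
    field_simp
  rw [h2, h1]
  rfl

theorem hasDerivAt_sig1 {s : ℝ} (hs : s ∈ Ioi P.s1) {x : ℝ} (hx : x ∈ Ioo (0 : ℝ) 1) :
    HasDerivAt (sig1 (P.U s)) (eF P.U s x) x := by
  have hc := eF_cont P hs
  have h1 : HasDerivAt (fun y => ∫ r in (1 / 2 : ℝ)..y, eF P.U s r) (eF P.U s x) x :=
    intervalIntegral.integral_hasDerivAt_right ((hc.mono (uIcc_sub half_mem hx)).intervalIntegrable)
      (hc.stronglyMeasurableAtFilter isOpen_Ioo x hx) (hc.continuousAt (isOpen_Ioo.mem_nhds hx))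
  refine (h1.const_add (sig1 (P.U s) (1 / 2))).congr_of_eventuallyEq ?_
  filter_upwards [isOpen_Ioo.mem_nhds hx] with y hy
  have h2 := sig1_sub (P.U s) half_mem hy
  have h3 := eps_int P hs (fun _ => 1) half_mem hy
  simp only [one_mul] at h3
  rw [h3] at h2
  linarith

theorem sm_R {U : ℝ → L2} {I : Set ℝ} (hU : ContDiffOn ℝ ∞ U I) :
    Sm I fun s x => xi (U s) x / (x * (1 - x)) := by
  obtain ⟨C, hC, hb⟩ := xi_bd
  refine Sm.of_lin (T := fun h x => xi h x / (x * (1 - x)))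
    (w := fun x => C * (Real.sqrt x * (1 - x))) ?_ ?_ (by fun_prop) (by simp) (by simp) ?_ hU
  · intro h k t x hx
    rw [(sig_lin h k t hx).2.2]
    ring
  · intro h
    exact (xi_contDiffOn h).continuousOn.div (by fun_prop) fun x hx => (phi_pos hx).ne'
  · intro h x hx
    rw [abs_div, abs_of_pos (phi_pos hx), div_le_iff₀ (phi_pos hx)]
    refine (hb h x hx).1.trans (le_of_eq ?_)
    ring

theorem g_lower : ∀ s ∈ Ioi P.s1, ∃ c, 0 < c ∧ ∀ x ∈ Ioo (0 : ℝ) 1, c ≤ gF P.U s x :=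
  fun s hs => ⟨P.c, P.c_pos, fun x hx => P.pos s (le_of_lt hs) x hx⟩

theorem exp_smooth (I : Set ℝ) : ContDiffOn ℝ ∞ (fun s => -Real.exp s) I :=
  Real.contDiff_exp.neg.contDiffOn

theorem sm_W : Sm (Ioi P.s1) fun s x => x * (1 - x) * eF P.U s x := by
  have hg : Sm (Ioi P.s1) (gF P.U) := (Sm.fix continuous_const).add (sm_R (U_smooth S P))
  have hi := hg.inv (g_lower P)
  refine ((((Sm.scal (exp_smooth _)).mul (sm_R (U'_smooth P))).mul hi).mul hi).congr fun s hs x hx => ?_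
  have a1 := (g_pos P hs hx).ne'
  have a2 := (phi_pos hx).ne'
  simp only [eF]
  field_simp

theorem ker_lower {t x : ℝ} (ht : t ∈ Ioo (0 : ℝ) 1) (hx : x ∈ Icc (0 : ℝ) 1) :
    (1 - t) / 4 ≤ (1 / 2 + t * (x - 1 / 2)) * (1 - (1 / 2 + t * (x - 1 / 2))) := by
  obtain ⟨t0, t1⟩ := ht
  obtain ⟨x0, x1⟩ := hx
  have h1 : (x - 1 / 2) ^ 2 ≤ 1 / 4 := by nlinarith
  have h2 : t ^ 2 ≤ t := by nlinarith
  have h3 : t ^ 2 * (x - 1 / 2) ^ 2 ≤ t * (1 / 4) :=
    mul_le_mul h2 h1 (sq_nonneg _) t0.le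
  nlinarith

theorem sm_sig : Sm (Ioi P.s1) fun s x => sig (P.U s) x := by
  have hpos : ∀ t ∈ Ioo (0 : ℝ) 1, ∀ x ∈ Icc (0 : ℝ) 1,
      0 < (1 / 2 + t * (x - 1 / 2)) * (1 - (1 / 2 + t * (x - 1 / 2))) := fun t ht x hx =>
    lt_of_lt_of_le (by linarith [ht.2]) (ker_lower ht hx)
  have h1 := (sm_W P).av (c := 1 / 2) (Ioo_subset_Icc_self half_mem)
    (κ := fun t x => (1 - t) / ((1 / 2 + t * (x - 1 / 2)) * (1 - (1 / 2 + t * (x - 1 / 2))))) (B := 4)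
    (fun x hx => ContinuousOn.div (by fun_prop) (by fun_prop) fun t ht => (hpos t ht x hx).ne')
    (fun t ht => ContinuousOn.div (by fun_prop) (by fun_prop) fun x hx => (hpos t ht x hx).ne')
    (fun t ht x hx => by
      rw [abs_div, abs_of_pos (hpos t ht x hx), abs_of_pos (sub_pos.2 ht.2), div_le_iff₀ (hpos t ht x hx)]
      linarith [ker_lower ht hx])
  have h2 := ((Sm.scal (sig_half_smooth P).1).add
    ((Sm.fix (p := fun x => x - 1 / 2) (by fun_prop)).mul (Sm.scal (sig_half_smooth P).2))).add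
    ((Sm.fix (p := fun x => (x - 1 / 2) ^ 2) (by fun_prop)).mul h1)
  refine h2.congr fun s hs x hx => ?_
  rw [sig_taylor (P.U s) half_mem hx, eps_int P hs (fun r => x - r) half_mem hx, integral_eq_av]
  simp only [av]
  congr 1
  rw [sq, mul_assoc, ← intervalIntegral.integral_const_mul (x - 1 / 2)
    (fun t => (1 - t) / ((1 / 2 + t * (x - 1 / 2)) * (1 - (1 / 2 + t * (x - 1 / 2)))) *
      ((1 / 2 + t * (x - 1 / 2)) * (1 - (1 / 2 + t * (x - 1 / 2))) * eF P.U s (1 / 2 + t * (x - 1 / 2))))]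
  congr 1
  refine intervalIntegral.integral_congr_ae (Eventually.of_forall fun t ht => ?_)
  rw [uIoc_of_le zero_le_one] at ht
  have a1 := (phi_pos (seg_mem (Ioo_subset_Icc_self half_mem) hx ht)).ne'
  rw [← mul_assoc ((1 - t) / _), div_mul_cancel₀ _ a1]
  ring

theorem cl_q {k : ℕ} (h : Cl (Ioi P.s1) k fun s x => sig (P.U s) x) : Cl (Ioi P.s1) k (qF P.U) := by
  have h0 := h.av (c := 0) (left_mem_Icc.2 zero_le_one) (κ := fun t => (1 - t) * t ^ 9) (by fun_prop)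
  have h1 := ((Cl.fix (p := fun x => x ^ 9) (by fun_prop)).mul h).av (c := 1)
    (right_mem_Icc.2 zero_le_one) (κ := fun t => 1 - t) (by fun_prop)
  have h2 := ((Cl.fix (p := fun x => 1 + 2 * x + 3 * x ^ 2 + 4 * x ^ 3 + 5 * x ^ 4 + 6 * x ^ 5 + 7 * x ^ 6 +
    8 * x ^ 7 + 9 * x ^ 8 + 10 * x ^ 9 + 11 * x ^ 10) (by fun_prop)).mul h0).add
    ((Cl.fix (p := fun x => 12 - 11 * x) (by fun_prop)).mul h1)
  refine h2.congr fun s _ x hx => ?_
  have a1 : x ≠ 0 := hx.1.ne'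
  have a2 : 1 - x ≠ 0 := (sub_pos.2 hx.2).ne'
  have e0 : av 0 (fun t _ => (1 - t) * t ^ 9) (fun x => sig (P.U s) x) x = xi (P.U s) x / x ^ 2 := by
    rw [xi_zero _ hx, mul_div_cancel_left₀ _ (pow_ne_zero 2 a1)]
    simp only [av, zero_add, sub_zero, mul_comm x]
  have e1 : av 1 (fun t _ => 1 - t) (fun x => x ^ 9 * sig (P.U s) x) x =
      xi (P.U s) x * x ^ 9 / (1 - x) ^ 2 := by
    have e : ∀ t : ℝ, 1 + t * (x - 1) = 1 - t * (1 - x) := fun t => by ring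
    rw [xi_one _ hx]
    simp only [av, e]
    generalize (∫ t in (0 : ℝ)..1, (1 - t) * ((1 - t * (1 - x)) ^ 9 * sig (P.U s) (1 - t * (1 - x)))) = J
    field_simp
  simp only [qF]
  rw [e0, e1]
  field_simp
  ring

theorem ds_q {s : ℝ} (hs : s ∈ Ioi P.s1) {x : ℝ} (hx : x ∈ Ioo (0 : ℝ) 1) :
    ds (qF P.U) s x = xi (deriv P.U s) x / (x * (1 - x)) ^ 2 :=
  ((hasDerivAt_xi P hs hx).div_const _).deriv

theorem g_eq (U : ℝ → L2) (s : ℝ) {x : ℝ} (hx : x ∈ Ioo (0 : ℝ) 1) :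
    gF U s x = 1 + x * (1 - x) * qF U s x := by
  have a2 := (phi_pos hx).ne'
  simp only [gF, qF]
  field_simp

theorem cl_e {k : ℕ} (h : Cl (Ioi P.s1) k (qF P.U)) : Cl (Ioi P.s1) k (eF P.U) := by
  have hg : Cl (Ioi P.s1) k (gF P.U) :=
    ((Cl.fix (p := fun _ => 1) contDiff_const).add
      ((Cl.fix (p := fun x => x * (1 - x)) (by fun_prop)).mul h)).congr fun s _ x hx => g_eq _ s hx
  have hi := hg.inv (g_lower P)
  refine ((((Cl.scal (exp_smooth _)).mul (h.ds isOpen_Ioi)).mul hi).mul hi).congr fun s hs x hx => ?_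
  have a1 := (g_pos P hs hx).ne'
  have a2 := (phi_pos hx).ne'
  rw [ds_q P hs hx]
  simp only [eF]
  field_simp

theorem cl_sig (k : ℕ) : Cl (Ioi P.s1) k fun s x => sig (P.U s) x := by
  induction k with
  | zero => exact sm_sig P
  | succ k ih =>
    have h1 : Cl (Ioi P.s1) (k + 1) fun s x => sig1 (P.U s) x :=
      (cl_e P (cl_q P ih)).prim (sig_half_smooth P).2 fun s hs x hx => hasDerivAt_sig1 P hs hx
    exact h1.pred.prim (sig_half_smooth P).1 fun s _ x hx => hasDerivAt_sig (P.U s) hx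

theorem boot' : ∃ q Sc : ℝ → ℝ → ℝ,
    ContDiffOn ℝ ∞ (Function.uncurry q) (Ioi P.s1 ×ˢ Icc 0 1) ∧
    ContDiffOn ℝ ∞ (Function.uncurry Sc) (Ioi P.s1 ×ˢ Icc 0 1) ∧
    (∀ s, P.s1 < s → ∀ x ∈ Ioo (0 : ℝ) 1,
      xi (P.U s) x = (x * (1 - x)) ^ 2 * q s x ∧ Sc s x = 110 - sig (P.U s) x) ∧
    ∀ s, P.s1 < s → ∀ x ∈ Ioo (0 : ℝ) 1, HasDerivAt (fun r => xi (P.U r) x)
      (Real.exp (-s) * ((x * (1 - x) * (1 + x * (1 - x) * q s x)) ^ 2 * deriv (deriv (Sc s)) x)) s := by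
  obtain ⟨q, hq, eq⟩ := joint isOpen_Ioi fun k => cl_q P (cl_sig P k)
  obtain ⟨Sc, hS, eS⟩ := joint (F := fun s x => 110 - sig (P.U s) x) isOpen_Ioi fun k =>
    ((Cl.fix (p := fun _ => 110) contDiff_const).add
      ((Cl.fix (p := fun _ => -1) contDiff_const).mul (cl_sig P k))).congr fun s _ x _ => by ring
  refine ⟨q, Sc, hq, hS, fun s hs x hx => ⟨?_, eS s hs x hx⟩, fun s hs x hx => ?_⟩
  · have a1 : x ≠ 0 := hx.1.ne'
    have a2 : 1 - x ≠ 0 := (sub_pos.2 hx.2).ne'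
    rw [eq s hs x hx]
    simp only [qF]
    field_simp
  · have d1 : ∀ y ∈ Ioo (0 : ℝ) 1, deriv (Sc s) y = -sig1 (P.U s) y := by
      intro y hy
      refine (((hasDerivAt_sig (P.U s) hy).const_sub 110).congr_of_eventuallyEq ?_).deriv
      filter_upwards [isOpen_Ioo.mem_nhds hy] with z hz using eS s hs z hz
    have d2 : deriv (deriv (Sc s)) x = -eF P.U s x := by
      refine ((hasDerivAt_sig1 P hs hx).neg.congr_of_eventuallyEq ?_).deriv
      filter_upwards [isOpen_Ioo.mem_nhds hx] with z hz using d1 z hz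
    rw [d2, eq s hs x hx, ← g_eq _ s hx]
    convert hasDerivAt_xi P hs hx using 1
    have a1 := (g_pos P hs hx).ne'
    have a0 : x ≠ 0 := hx.1.ne'
    have a2 : 1 - x ≠ 0 := (sub_pos.2 hx.2).ne'
    have a3 := (Real.exp_pos s).ne'
    rw [Real.exp_neg]
    simp only [eF]
    field_simp

end Crest.Agent.R213.Boot

end
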