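import Crest.Agent.R213.BootD

/-! # R213 / BootS : closure properties of `Sm` -/

set_option autoImplicit false

open MeasureTheory Set Filter Topology
open scoped ContDiff

namespace Crest.Agent.R213.Boot

variable {I : Set ℝ} {F G : ℝ → ℝ → ℝ}

theorem Sm.congr (h : Sm I F) (e : ∀ s ∈ I, ∀ x ∈ Ioo (0 : ℝ) 1, G s x = F s x) : Sm I G := by
  obtain ⟨Φ, hΦ, h'⟩ := h
  exact ⟨Φ, hΦ, fun s hs x hx => (h' s hs x hx).trans (e s hs x hx).symm⟩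

theorem Sm.add (hF : Sm I F) (hG : Sm I G) : Sm I fun s x => F s x + G s x := by
  obtain ⟨Φ, hΦ, h1⟩ := hF
  obtain ⟨Ψ, hΨ, h2⟩ := hG
  exact ⟨fun s => Φ s + Ψ s, hΦ.add hΨ, fun s hs x hx => by rw [ex_add, h1 s hs x hx, h2 s hs x hx]⟩

theorem Sm.mul (hF : Sm I F) (hG : Sm I G) : Sm I fun s x => F s x * G s x := by
  obtain ⟨Φ, hΦ, h1⟩ := hF
  obtain ⟨Ψ, hΨ, h2⟩ := hG
  exact ⟨fun s => Φ s * Ψ s, hΦ.mul hΨ, fun s hs x hx => by rw [ex_mul, h1 s hs x hx, h2 s hs x hx]⟩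

theorem Sm.fix {p : ℝ → ℝ} (hp : Continuous p) : Sm I fun _ x => p x := by
  exact ⟨fun _ => ⟨fun y => p y, hp.comp continuous_subtype_val⟩, contDiffOn_const,
    fun s _ x hx => ex_of_mem _ (Ioo_subset_Icc_self hx)⟩

theorem Sm.scal {a : ℝ → ℝ} (ha : ContDiffOn ℝ ∞ a I) : Sm I fun s _ => a s := by
  exact ⟨fun s => a s • (1 : XX), ha.smul contDiffOn_const, fun s _ x _ => by rw [ex_smul, ex_one, mul_one]⟩

/-- `Φ s ≥ c > 0` on `[0,1]` (`ex_mem_closed`), so `Φ s` is a unit (`ContinuousMap.isUnit_iff_forall_ne_zero`);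
`contDiffAt_ringInverse`; evaluate `Φ s * Ring.inverse (Φ s) = 1`. -/
theorem Sm.inv (hF : Sm I F) (hc : ∀ s ∈ I, ∃ c, 0 < c ∧ ∀ x ∈ Ioo (0 : ℝ) 1, c ≤ F s x) :
    Sm I fun s x => (F s x)⁻¹ := by
  obtain ⟨Φ, hΦ, h1⟩ := hF
  have hu : ∀ s ∈ I, IsUnit (Φ s) := fun s hs => by
    obtain ⟨c, hc0, hc⟩ := hc s hs
    rw [ContinuousMap.isUnit_iff_forall_ne_zero]
    intro x
    have := ex_mem_closed (Φ s) (isClosed_Ici (a := c)) (fun y hy => by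
      rw [mem_Ici, h1 s hs y hy]
      exact hc y hy) x
    rw [mem_Ici, ex_coe] at this
    exact (hc0.trans_le this).ne'
  refine ⟨fun s => Ring.inverse (Φ s), fun s hs => ?_, fun s hs x hx => ?_⟩
  · obtain ⟨u, hu'⟩ := hu s hs
    have h2 : ContDiffAt ℝ ∞ (Ring.inverse : XX → XX) (Φ s) := hu' ▸ contDiffAt_ringInverse ℝ u
    exact h2.comp_contDiffWithinAt s (hΦ s hs)
  · have h2 := congrArg (fun f => ex f x) (Ring.mul_inverse_cancel _ (hu s hs))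
    simp only [ex_mul, ex_one, h1 s hs x hx] at h2
    exact eq_inv_of_mul_eq_one_right h2

theorem Sm.continuousOn (hF : Sm I F) {s : ℝ} (hs : s ∈ I) : ContinuousOn (F s) (Ioo 0 1) := by
  obtain ⟨Φ, -, h1⟩ := hF
  exact (continuous_ex (Φ s)).continuousOn.congr fun x hx => (h1 s hs x hx).symm

theorem Sm.bound (hF : Sm I F) {s : ℝ} (hs : s ∈ I) : ∃ B, ∀ x ∈ Ioo (0 : ℝ) 1, |F s x| ≤ B := by
  obtain ⟨Φ, -, h1⟩ := hF
  exact ⟨‖Φ s‖, fun x hx => h1 s hs x hx ▸ abs_ex_le _ _⟩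

theorem Sm.eval (hF : Sm I F) {x : ℝ} (hx : x ∈ Ioo (0 : ℝ) 1) : ContDiffOn ℝ ∞ (fun s => F s x) I := by
  obtain ⟨Φ, hΦ, h1⟩ := hF
  exact ((exL x).contDiff.comp_contDiffOn hΦ).congr fun s hs => (h1 s hs x hx).symm

/-- the time derivative is represented by `deriv Φ` (`exL`, `I` open). -/
theorem ds_rep (hI : IsOpen I) {Φ : ℝ → XX} (hΦ : ContDiffOn ℝ ∞ Φ I)
    (e : ∀ s ∈ I, ∀ x ∈ Ioo (0 : ℝ) 1, ex (Φ s) x = F s x) :
    ContDiffOn ℝ ∞ (deriv Φ) I ∧ (∀ s ∈ I, HasDerivAt Φ (deriv Φ s) s) ∧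
      ∀ s ∈ I, ∀ x ∈ Ioo (0 : ℝ) 1, ex (deriv Φ s) x = ds F s x := by
  have hd : ∀ s ∈ I, HasDerivAt Φ (deriv Φ s) s := fun s hs =>
    ((hΦ.contDiffAt (hI.mem_nhds hs)).differentiableAt (by simp)).hasDerivAt
  refine ⟨((contDiffOn_infty_iff_deriv_of_isOpen hI).1 hΦ).2, hd, fun s hs x hx => ?_⟩
  have h1 : HasDerivAt (fun r => ex (Φ r) x) (ex (deriv Φ s) x) s :=
    (exL x).hasFDerivAt.comp_hasDerivAt s (hd s hs)
  have h2 : (fun r => F r x) =ᶠ[𝓝 s] fun r => ex (Φ r) x := by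
    filter_upwards [hI.mem_nhds hs] with r hr using (e r hr x hx).symm
  exact ((h1.congr_of_eventuallyEq h2).deriv).symm

theorem Sm.ds (hI : IsOpen I) (hF : Sm I F) : Sm I (ds F) := by
  obtain ⟨Φ, hΦ, h1⟩ := hF
  obtain ⟨h2, -, h3⟩ := ds_rep hI hΦ h1
  exact ⟨deriv Φ, h2, h3⟩

end Crest.Agent.R213.Boot
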