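import Crest.Agent.R213.Abs
import Crest.Agent.R213.Base

/-!
# R213 / Defs : concrete spaces and the data structures of the proof (FROZEN; proof plan in the headers of the `I*.lean` files)

`x ∈ (0,1)` momentum coordinate, `φ0 = x(1-x)`, `s = -log(T-t)`, `τ = e^{-s}`, `lam s = e^{-s/2}`,
`y = x / lam s`, `ρ = x² + τ`, `wh s x = τ/ρ = 1/(1+y²)`.
`H = L2`: `h ∈ L²(0,1)` stands for the function `v = hv h = (1-x) h`, so `‖h‖² = ∫ v²/(1-x)²`.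
`V = VV`: closure of `C²_c(0,1)` for `‖v‖² = ∫ (v/(x(1-x)²))² + (v'/(1-x))² + (x v'')²`;
`d0 u, d1 u, d2 u` are `v, v', v''` (a.e. classes).
For `h ∈ H`: `ε = eps h = v/φ0²`, `σ = sig h` with `σ'' = ε`, `∫ r⁹σ = ∫ r¹⁰σ = 0`, `ξ = xi h` with
`C0 ξ = σ`, `ξ = O(x^{3/2})`, `ξ = O((1-x)²)`;  `G h = ξ`.
-/

set_option autoImplicit false

open MeasureTheory Set Filter Topology
open scoped ContDiff

noncomputable section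

namespace Crest.Agent.R213

abbrev ν : Measure ℝ := volume.restrict (Ioo (0 : ℝ) 1)
abbrev L2 : Type := Lp ℝ 2 ν
abbrev E3 : Type := PiLp 2 (fun _ : Fin 3 => L2)

def RepE (u : E3) (f : ℝ → ℝ) : Prop :=
  (u 0 =ᵐ[ν] fun x => f x / (x * (1 - x) ^ 2)) ∧ (u 1 =ᵐ[ν] fun x => deriv f x / (1 - x)) ∧
    (u 2 =ᵐ[ν] fun x => x * deriv (deriv f) x)

def Test (f : ℝ → ℝ) : Prop :=
  ContDiff ℝ 2 f ∧ ∃ δ : ℝ, 0 < δ ∧ ∀ x, x ∉ Ioo δ (1 - δ) → f x = 0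

def Vs : Submodule ℝ E3 := (Submodule.span ℝ {u | ∃ f, Test f ∧ RepE u f}).topologicalClosure

def VV : Type := Vs

instance : NormedAddCommGroup VV := inferInstanceAs (NormedAddCommGroup Vs)
instance : InnerProductSpace ℝ VV := inferInstanceAs (InnerProductSpace ℝ Vs)
instance : CompleteSpace VV := Submodule.topologicalClosure.completeSpace _

/-- the underlying triple. -/
def VV.e (u : VV) : E3 := Subtype.val u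
/-- an element of `V` from a triple. -/
def VV.mk (u : E3) (h : u ∈ Vs) : VV := (⟨u, h⟩ : Vs)
theorem VV.e_mem (u : VV) : u.e ∈ Vs := Subtype.property u
theorem VV.e_mk (u : E3) (h : u ∈ Vs) : (VV.mk u h).e = u := rfl
theorem VV.e_add (u w : VV) : (u + w).e = u.e + w.e := rfl
theorem VV.e_sub (u w : VV) : (u - w).e = u.e - w.e := rfl
theorem VV.e_neg (u : VV) : (-u).e = -u.e := rfl
theorem VV.e_zero : (0 : VV).e = 0 := rfl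
theorem VV.e_smul (t : ℝ) (u : VV) : (t • u).e = t • u.e := rfl
theorem VV.norm_e (u : VV) : ‖u.e‖ = ‖u‖ := rfl
theorem VV.e_inj {u w : VV} (h : u.e = w.e) : u = w := Subtype.ext h
/-- the inclusion `V → E3` as a linear isometry. -/
def VV.eL : VV →ₗᵢ[ℝ] E3 := Vs.subtypeₗᵢ
theorem VV.eL_apply (u : VV) : VV.eL u = u.e := rfl

def d0 (u : VV) (x : ℝ) : ℝ := x * (1 - x) ^ 2 * u.e 0 x
def d1 (u : VV) (x : ℝ) : ℝ := (1 - x) * u.e 1 x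
def d2 (u : VV) (x : ℝ) : ℝ := u.e 2 x / x
def hv (h : L2) (x : ℝ) : ℝ := (1 - x) * h x
/-- `u ∈ V` is the class of the function `f` (which is `C²` on `(0,1)` in all uses). -/
def Rep (u : VV) (f : ℝ → ℝ) : Prop := RepE u.e f

def eps (h : L2) (r : ℝ) : ℝ := h r / (r ^ 2 * (1 - r))
def sg0 (h : L2) (x : ℝ) : ℝ := ∫ r in (1 / 2 : ℝ)..x, (x - r) * eps h r
def mA (h : L2) : ℝ := ∫ r in (0 : ℝ)..1, r ^ 9 * sg0 h r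
def mB (h : L2) : ℝ := ∫ r in (0 : ℝ)..1, r ^ 10 * sg0 h r
def sig (h : L2) (x : ℝ) : ℝ :=
  sg0 h x + (1320 * mB h - 1210 * mA h) + (1320 * mA h - 1452 * mB h) * x
def sig1 (h : L2) (x : ℝ) : ℝ :=
  (∫ r in (1 / 2 : ℝ)..x, eps h r) + (1320 * mA h - 1452 * mB h)
def xi (h : L2) (x : ℝ) : ℝ := (∫ r in (0 : ℝ)..x, (x - r) * r ^ 9 * sig h r) / x ^ 9

/-- multipliers of `V`. -/
structure Mult (p : ℝ → ℝ) (N : ℝ) : Prop where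
  sm : ContDiffOn ℝ 2 p (Ioo 0 1)
  b0 : ∀ x ∈ Ioo (0 : ℝ) 1, |p x| ≤ N
  b1 : ∀ x ∈ Ioo (0 : ℝ) 1, |x * (1 - x) * deriv p x| ≤ N
  b2 : ∀ x ∈ Ioo (0 : ℝ) 1, |(x * (1 - x)) ^ 2 * deriv (deriv p) x| ≤ N

/-- the operators on the concrete spaces. -/
structure Sp where
  T : Trip VV L2
  mul : (ℝ → ℝ) → VV →L[ℝ] VV
  mulH : (ℝ → ℝ) → L2 →L[ℝ] L2
  M : L2 →L[ℝ] VV →L[ℝ] VV
  ell : VV →L[ℝ] ℝ
  CM : ℝ
  ι_eq : ∀ u, hv (T.ι u) =ᵐ[ν] d0 u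
  a_eq : ∀ u w, T.a u w = ∫ x in Ioo (0 : ℝ) 1,
    (x * d2 u x + 18 * d1 u x + 72 * d0 u x / x) * (x * d2 w x + 4 * d1 w x + 2 * d0 w x / x)
  mul_eq : ∀ p N, Mult p N → ∀ u,
    (d0 (mul p u) =ᵐ[ν] fun x => p x * d0 u x) ∧
    (d1 (mul p u) =ᵐ[ν] fun x => p x * d1 u x + deriv p x * d0 u x) ∧
    (d2 (mul p u) =ᵐ[ν] fun x =>
      p x * d2 u x + 2 * deriv p x * d1 u x + deriv (deriv p) x * d0 u x)
  mul_le : ∀ p N, Mult p N → ‖mul p‖ ≤ 4 * N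
  mulH_eq : ∀ p N, ContinuousOn p (Ioo 0 1) → (∀ x ∈ Ioo (0 : ℝ) 1, |p x| ≤ N) →
    (∀ h, mulH p h =ᵐ[ν] fun x => p x * h x) ∧ ‖mulH p‖ ≤ N
  G_rep : ∀ h, Rep (T.G h) (xi h)
  M_eq : ∀ h, M h = mul (fun x => xi h x / (x * (1 - x)))
  M_mult : ∀ h, Mult (fun x => xi h x / (x * (1 - x))) (CM * ‖h‖)
  ell_eq : ∀ u, Tendsto (sig (T.ι u)) (𝓝[>] 0) (𝓝 (ell u))

/-- the shrinker: `φ = x G(x/√τ)`, `S = τ^{-1/2} s(x/√τ)`. -/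
structure Shr where
  G : ℝ → ℝ
  s : ℝ → ℝ
  c : ℝ
  c1 : ℝ
  C : ℝ
  smG : ContDiff ℝ ∞ G
  sms : ContDiff ℝ ∞ s
  c1_pos : 0 < c1
  lower : ∀ y, c1 ≤ G y
  upper : ∀ y, G y ≤ C
  s0_pos : 0 < s 0
  ds : ∀ y, deriv s y = c - 1 / (2 * G y)
  ode : ∀ y, 0 ≤ y → y ^ 2 * deriv (deriv G) y + 20 * y * deriv G y + 90 * G y + y * s y = 90
  decay : ∀ j : ℕ, 1 ≤ j → j ≤ 6 → ∀ y, 0 ≤ y → |iteratedDeriv j G y| * (1 + y) ^ (j + 2) ≤ C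

def lam (s : ℝ) : ℝ := Real.exp (-(s / 2))
def wh (s x : ℝ) : ℝ := 1 / (1 + x ^ 2 * Real.exp s)

/-- the approximate solution `φ̃ = φ0 g`; `xt = φ̃ - φ0`, `st = C0 xt = 110 - S̃`, `vt = φ0² st''`,
`b = 2 φ̃ S̃_xx`, `E = φ̃_t - φ̃² S̃_xx`. First argument `s`, second `x`. -/
structure Apx where
  g : ℝ → ℝ → ℝ
  b : ℝ → ℝ → ℝ
  E : ℝ → ℝ → ℝ
  xt : ℝ → ℝ → ℝ
  st : ℝ → ℝ → ℝ
  vt : ℝ → ℝ → ℝ
  a : ℝ
  c1 : ℝ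
  C : ℝ
  a_pos : 0 < a
  c1_pos : 0 < c1
  smg : ContDiff ℝ ∞ (Function.uncurry g)
  smb : ContDiff ℝ ∞ (Function.uncurry b)
  smE : ContDiff ℝ ∞ (Function.uncurry E)
  smxt : ContDiff ℝ ∞ (Function.uncurry xt)
  smst : ContDiff ℝ ∞ (Function.uncurry st)
  smvt : ContDiff ℝ ∞ (Function.uncurry vt)
  g_pos : ∀ s x, 0 < g s x
  g_lo : ∀ s, ∀ x ∈ Icc (0 : ℝ) 1, c1 ≤ g s x
  g_bd : ∀ s, 0 ≤ s → ∀ x ∈ Ioo (0 : ℝ) 1, |g s x| ≤ C ∧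
    |x * deriv (g s) x| ≤ C * (x / (x + lam s)) ∧
    |x ^ 2 * deriv (deriv (g s)) x| ≤ C * (x / (x + lam s))
  b_bd : ∀ s, 0 ≤ s → ∀ x ∈ Ioo (0 : ℝ) 1, |b s x| ≤ C / (x ^ 2 + Real.exp (-s)) ∧
    |x * deriv (b s) x| ≤ C / (x ^ 2 + Real.exp (-s)) ∧
    |x ^ 2 * deriv (deriv (b s)) x| ≤ C / (x ^ 2 + Real.exp (-s))
  E_bd : ∀ s, 0 ≤ s → ∀ x ∈ Ioo (0 : ℝ) 1, |E s x| ≤ C ∧ |deriv (E s) x| ≤ C ∧
    |deriv (deriv (E s)) x| ≤ C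
  vt_bd : ∀ s, 0 ≤ s → ∀ x ∈ Ioo (0 : ℝ) 1, |vt s x| ≤ C * Real.exp s * x ∧
    |deriv (vt s) x| ≤ C * Real.exp s ∧ |x * deriv (deriv (vt s)) x| ≤ C * Real.exp s
  far : ∀ s x, 1 / 2 ≤ x → g s x = 1 ∧ b s x = 0 ∧ E s x = 0 ∧ xt s x = 0 ∧ vt s x = 0
  E_near : ∀ s, ∀ x ∈ Icc (0 : ℝ) (1 / 4), E s x = 0
  sim_g : ∀ s h, 0 ≤ h → ∀ x ∈ Icc (0 : ℝ) (1 / 4),
    (1 - lam h * x) * g (s + h) (lam h * x) = (1 - x) * g s x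
  sim_b : ∀ s h, 0 ≤ h → ∀ x ∈ Icc (0 : ℝ) (1 / 4),
    b (s + h) (lam h * x) = Real.exp h * b s x
  xt_eq : ∀ s x, xt s x = x * (1 - x) * (g s x - 1)
  st_eq : ∀ s, ∀ x ∈ Ioo (0 : ℝ) 1, st s x = C0 (xt s) x
  st_zero : ∀ s, st s 0 = 110 - a * Real.exp (s / 2)
  vt_eq : ∀ s x, vt s x = (x * (1 - x)) ^ 2 * deriv (deriv (st s)) x
  b_eq : ∀ s, ∀ x ∈ Ioo (0 : ℝ) 1, b s x * (x * (1 - x)) = -(2 * g s x * vt s x)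
  flow : ∀ s, ∀ x ∈ Ioo (0 : ℝ) 1,
    HasDerivAt (fun r => xt r x) (Real.exp (-s) * (E s x - g s x ^ 2 * vt s x)) s

/-- anchors: dual to the affine functions `1, y`. -/
structure Anc where
  ψ : Fin 2 → ℝ → ℝ
  sm : ∀ j, ContDiff ℝ ∞ (ψ j)
  supp : ∀ j y, y ∉ Ioo (1 : ℝ) 2 → ψ j y = 0
  m00 : ∫ y, ψ 0 y = 1
  m01 : ∫ y, y * ψ 0 y = 0
  m10 : ∫ y, ψ 1 y = 0
  m11 : ∫ y, y * ψ 1 y = 1

/-- `α_j = ∫ σ(x) ψ_j(x/λ) dx/λ`. -/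
def Anc.al (N : Anc) (j : Fin 2) (s : ℝ) (h : L2) : ℝ :=
  (∫ x in Ioo (0 : ℝ) 1, sig h x * N.ψ j (x / lam s)) / lam s

/-- the weighted energy. -/
def Anc.En (N : Anc) (s : ℝ) (h : L2) : ℝ :=
  (∫ x in Ioo (0 : ℝ) 1, (wh s x * h x) ^ 2) + lam s * (N.al 0 s h ^ 2 + N.al 1 s h ^ 2)

/-- the linearised right-hand side without feedback: `τ(-g² v + b ξ)`. -/
def lin0 (S : Sp) (A : Apx) (s : ℝ) (u : VV) (h : L2) : VV :=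
  Real.exp (-s) • (S.mul (A.b s) (S.T.G h) - S.mul (fun x => A.g s x ^ 2) u)

/-- finite-rank feedback that makes the weighted energy decay at rate `7/4`. -/
structure Fb (S : Sp) (A : Apx) (N : Anc) where
  m : ℕ
  γ : ℝ
  sst : ℝ
  R : ℝ
  C : ℝ
  F : Fin m → ℝ → ℝ
  Ψ : Fin m → ℝ → ℝ
  f : Fin m → ℝ → VV
  L : Fin m → ℝ → VV →L[ℝ] ℝ
  sst_ge : 4 ≤ sst
  R_pos : 0 < R
  C_pos : 0 < C
  R_small : lam sst * R ≤ 1 / 16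
  smF : ∀ i, ContDiff ℝ ∞ (F i)
  smΨ : ∀ i, ContDiff ℝ ∞ (Ψ i)
  F_supp : ∀ i y, R ≤ y → F i y = 0
  Ψ_supp : ∀ i y, y ∉ Ioo R⁻¹ R → Ψ i y = 0
  f_cont : ∀ i, Continuous (f i)
  L_cont : ∀ i, Continuous (L i)
  f_rep : ∀ i s, sst ≤ s → Rep (f i s) (fun x => Real.exp (-(3 * s / 4)) * F i (x / lam s))
  L_eq : ∀ i s u, L i s u = Real.exp (s / 4) * ∫ x in Ioo (0 : ℝ) 1,
    (d2 u x + 18 * d1 u x / x + 72 * d0 u x / x ^ 2) * Ψ i (x / lam s)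
  f_le : ∀ i s, sst ≤ s → ‖f i s‖ ^ 2 ≤ C * Real.exp (-s)
  obs_le : ∀ s, sst ≤ s → ∀ h, ∑ i, (γ * L i s (S.T.G h)) ^ 2 ≤ C * N.En s h
  est : ∀ μ, μ ≤ 7 / 8 → ∀ s0 s1, sst ≤ s0 → s0 ≤ s1 →
    ∀ (v Z Fo : ℝ → VV) (U : ℝ → L2) (g : ℝ → EuclideanSpace ℝ (Fin m)),
      IsSol S.T s0 s1 v Z U → U s0 = 0 → MemLp Fo 2 (volume.restrict (Ioc s0 s1)) →
      MemLp g 2 (volume.restrict (Ioc s0 s1)) →
      (∀ᵐ s ∂(volume.restrict (Ioc s0 s1)), Z s = lin0 S A s (v s) (U s) + Fo s +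
        ∑ i, (g s i - γ * L i s (S.T.G (U s))) • f i s) →
      Real.exp (2 * μ * s1) * N.En s1 (U s1) +
        ∫ r in s0..s1, Real.exp (2 * μ * r) *
          (Real.exp (-r) * ‖S.mul (wh r) (v r)‖ ^ 2 + N.En r (U r)) ≤
      C * ∫ r in s0..s1, Real.exp (2 * μ * r) *
          (Real.exp r * ‖S.mul (wh r) (Fo r)‖ ^ 2 + ‖g r‖ ^ 2)

/-- the observed vector `γ L ξ`. -/
def Fb.obs {S : Sp} {A : Apx} {N : Anc} (B : Fb S A N) (s : ℝ) (h : L2) :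
    EuclideanSpace ℝ (Fin B.m) :=
  WithLp.toLp 2 fun i => B.γ * B.L i s (S.T.G h)

/-- global solution of the feedback system started at `sst` with zero data. -/
structure FbSol {S : Sp} {A : Apx} {N : Anc} (B : Fb S A N) (Fo : ℝ → VV)
    (g : ℝ → EuclideanSpace ℝ (Fin B.m)) (v Z : ℝ → VV) (U : ℝ → L2) : Prop where
  sol : ∀ s1, B.sst ≤ s1 → IsSol S.T B.sst s1 v Z U
  cont : Continuous U
  zero : ∀ s, s ≤ B.sst → U s = 0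
  eqn : ∀ᵐ s ∂(volume.restrict (Ioi B.sst)), Z s = lin0 S A s (v s) (U s) + Fo s +
    ∑ i, (g s i - B.γ * B.L i s (S.T.G (U s))) • B.f i s

/-- the weight of the fixed point space. -/
def Th (μ s x : ℝ) : ℝ := Real.exp (μ * s) * wh s x + 1

abbrev YY (s1 : ℝ) : Type := Lp VV 2 (volume.restrict (Ioi s1))

/-- bounded right inverse of the linearised operator on `(s1, ∞)`. -/
structure LinInv (S : Sp) (A : Apx) (μ C s1 : ℝ) where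
  R0 : YY s1 →L[ℝ] BoundedContinuousFunction ℝ L2
  R1 : YY s1 →L[ℝ] YY s1
  R2 : YY s1 →L[ℝ] YY s1
  R0_le : ‖R0‖ ≤ C
  R1_le : ‖R1‖ ≤ C
  R2_le : ‖R2‖ ≤ C
  spec : ∀ F : YY s1, ∃ v Z : ℝ → VV, (∀ s2, s1 ≤ s2 → IsSol S.T s1 s2 v Z (R0 F)) ∧
    (∀ᵐ s ∂(volume.restrict (Ioi s1)),
      Z s = lin0 S A s (v s) (R0 F s) +
        Real.exp (-(s / 2)) • S.mul (fun x => 1 / Th μ s x) (F s) ∧
      R1 F s = Real.exp (-(s / 2)) • S.mul (Th μ s) (S.mul (fun x => A.g s x ^ 2) (v s)) ∧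
      R2 F s = Real.exp (-(s / 2)) • S.mul (Th μ s) (S.mul (A.b s) (S.T.G (R0 F s)))) ∧
    IntegrableOn (fun s => Real.exp ((2 * μ - 1 / 2) * s) * S.ell (v s) ^ 2) (Ioi s1)

/-- the (weak) solution of the full nonlinear equation on `[s1, ∞)`. -/
structure Nl (S : Sp) where
  s1 : ℝ
  μ : ℝ
  a : ℝ
  c : ℝ
  C : ℝ
  v : ℝ → VV
  Z : ℝ → VV
  U : ℝ → L2
  a_pos : 0 < a
  c_pos : 0 < c
  C_pos : 0 < C
  μ_gt : 3 / 4 < μ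
  s1_ge : 0 ≤ s1
  sol : ∀ s2, s1 ≤ s2 → IsSol S.T s1 s2 v Z U
  eqn : ∀ᵐ s ∂(volume.restrict (Ioi s1)), Z s = -(Real.exp (-s) • sq1 (S.M (U s)) (v s))
  gar : ∀ s, s1 ≤ s → ∀ u,
    c * ‖u‖ ^ 2 - C * Real.exp s * ‖S.T.ι u‖ ^ 2 ≤ S.T.a (sq1 (S.M (U s)) u) u
  Mbd : ∀ s, s1 ≤ s → ‖S.M (U s)‖ ≤ C
  pos : ∀ s, s1 ≤ s → ∀ x ∈ Ioo (0 : ℝ) 1, c ≤ 1 + xi (U s) x / (x * (1 - x))
  win : ∀ s, s1 ≤ s → Real.exp (-s) * ∫ r in s..(s + Real.exp (-s)), ‖v r‖ ^ 2 ≤ C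
  ell : IntegrableOn (fun s => Real.exp ((2 * μ - 1 / 2) * s) *
    (S.ell (v s) - (110 - a * Real.exp (s / 2))) ^ 2) (Ioi s1)

end Crest.Agent.R213

end
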