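import Crest.Agent.R213.Abs

/-!
# R213 / EnergyRes : resolvent regularisation in a variational triple
-/

set_option autoImplicit false

open MeasureTheory Set Filter
open scoped InnerProductSpace Topology

namespace Crest.Agent.R213
namespace EnergyAux

theorem tendsto_of_dense {E F : Type*} [NormedAddCommGroup E] [NormedSpace ℝ E]
    [NormedAddCommGroup F] [NormedSpace ℝ F] (A : ℕ → E →L[ℝ] F) (B : E →L[ℝ] F) {C : ℝ}
    (hC0 : 0 ≤ C) (hC : ∀ n x, ‖A n x‖ ≤ C * ‖x‖) {D : Set E} (hD : Dense D)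
    (h : ∀ x ∈ D, Tendsto (fun n => A n x) atTop (𝓝 (B x))) (x : E) :
    Tendsto (fun n => A n x) atTop (𝓝 (B x)) := by
  have hL : ∀ n, LipschitzWith ⟨C, hC0⟩ (A n) := fun n =>
    (A n).lipschitzWith_of_opNorm_le ((A n).opNorm_le_bound hC0 (hC n))
  have hE : Equicontinuous (fun n => (A n : E → F)) :=
    (LipschitzWith.uniformEquicontinuous (fun n => (A n : E → F)) _ hL).equicontinuous
  have hcl := hE.isClosed_setOfPred_tendsto (l := atTop) B.continuous
  exact closure_minimal h hcl (hD x)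

variable {V H : Type} [NormedAddCommGroup V] [InnerProductSpace ℝ V] [CompleteSpace V]
  [NormedAddCommGroup H] [InnerProductSpace ℝ H]

omit [CompleteSpace V] in
theorem a_nondeg (T : Trip V H) {x : V} (h : T.a x x = 0) : x = 0 := by
  obtain ⟨c, hc, hco⟩ := T.coer
  have h1 := hco x
  rw [h] at h1
  have h2 : ‖x‖ ^ 2 ≤ 0 := by
    by_contra hn
    push Not at hn
    have := mul_pos hc hn
    linarith
  have h3 : ‖x‖ ^ 2 = 0 := le_antisymm h2 (sq_nonneg _)
  simpa using h3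

theorem denseRange_G (T : Trip V H) : DenseRange T.G := by
  have hco : IsCoercive T.a.flip := by
    obtain ⟨c, hc, hco⟩ := T.coer
    refine ⟨c, hc, fun u => ?_⟩
    have := hco u
    simp only [ContinuousLinearMap.flip_apply]
    nlinarith
  have h1 : (T.G.range : Submodule ℝ V).topologicalClosure = ⊤ := by
    rw [Submodule.topologicalClosure_eq_top_iff, Submodule.eq_bot_iff]
    intro z hz
    obtain ⟨w, rfl⟩ := hco.continuousLinearEquivOfBilin.surjective z
    have h2 : T.ι w = 0 := by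
      have h3 := (Submodule.mem_orthogonal' _ _).1 hz (T.G (T.ι w)) ⟨T.ι w, rfl⟩
      rw [hco.continuousLinearEquivOfBilin_apply, ContinuousLinearMap.flip_apply, T.hG] at h3
      exact inner_self_eq_zero.1 h3
    have h4 : w = 0 := T.inj (by rw [h2, map_zero])
    rw [h4, map_zero]
  exact Submodule.dense_iff_topologicalClosure_eq_top.2 h1

theorem exists_res (T : Trip V H) {ε : ℝ} (hε : 0 < ε) :
    ∃ R : V →L[ℝ] V, ∀ x w, ε * T.a (R x) w + ⟪T.ι (R x), T.ι w⟫_ℝ = T.a x w := by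
  obtain ⟨c, hc, hco⟩ := T.coer
  let b : V →L[ℝ] V →L[ℝ] ℝ := ε • T.a + T.a.comp (T.G.comp T.ι)
  have hb : ∀ u w, b u w = ε * T.a u w + ⟪T.ι u, T.ι w⟫_ℝ := fun u w => by
    simp [b, T.hG]
  have hbc : IsCoercive b := by
    refine ⟨ε * c, mul_pos hε hc, fun u => ?_⟩
    rw [hb]
    have h1 := mul_le_mul_of_nonneg_left (hco u) hε.le
    have h2 : 0 ≤ ⟪T.ι u, T.ι u⟫_ℝ := real_inner_self_nonneg
    nlinarith
  have hac : IsCoercive T.a := by
    refine ⟨c, hc, fun u => ?_⟩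
    have := hco u
    nlinarith
  refine ⟨(hbc.continuousLinearEquivOfBilin.symm : V →L[ℝ] V).comp
    (hac.continuousLinearEquivOfBilin : V →L[ℝ] V), fun x w => ?_⟩
  rw [← hb, ← hbc.continuousLinearEquivOfBilin_apply, ← hac.continuousLinearEquivOfBilin_apply]
  simp

theorem exists_approx (T : Trip V H) :
    ∃ (R S : ℕ → V →L[ℝ] V) (K : ℝ), 0 ≤ K ∧
      (∀ n x, R n (T.G (T.ι x)) = S n x) ∧ (∀ n x, T.G (T.ι (R n x)) = S n x) ∧
      (∀ n x, ‖S n x‖ ≤ K * ‖x‖) ∧ (∀ n h, ‖T.ι (R n (T.G h))‖ ≤ ‖h‖) ∧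
      (∀ x, Tendsto (fun n => S n x) atTop (𝓝 x)) ∧
      (∀ h, Tendsto (fun n => T.ι (R n (T.G h))) atTop (𝓝 h)) := by
  obtain ⟨c, hc, hco⟩ := T.coer
  let ε : ℕ → ℝ := fun n => 1 / ((n : ℝ) + 1)
  have hε : ∀ n, 0 < ε n := fun n => Nat.one_div_pos_of_nat
  have hε0 : Tendsto ε atTop (𝓝 0) := tendsto_one_div_add_atTop_nhds_zero_nat
  choose R hR using fun n => exists_res T (hε n)
  let W : ℕ → V →L[ℝ] V := fun n => ε n • R n
  have hW : ∀ n x, W n x = ε n • R n x := fun n x => rfl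
  -- right inverse
  have h1 : ∀ n x, T.G (T.ι (R n x)) = x - W n x := by
    intro n x
    have h : ∀ w, T.a (T.G (T.ι (R n x)) - (x - W n x)) w = 0 := by
      intro w
      have := hR n x w
      simp only [map_sub, ContinuousLinearMap.sub_apply, hW, map_smul,
        ContinuousLinearMap.smul_apply, smul_eq_mul, T.hG]
      linarith
    exact sub_eq_zero.1 (a_nondeg T (h _))
  -- left inverse
  have h2 : ∀ n x, R n (T.G (T.ι x)) = x - W n x := by
    intro n x
    set d := R n (T.G (T.ι x)) - (x - W n x) with hd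
    have h : ∀ w, ε n * T.a d w + ⟪T.ι d, T.ι w⟫_ℝ = 0 := by
      intro w
      have e1 := hR n x w
      have e2 := hR n (T.G (T.ι x)) w
      rw [T.hG] at e2
      simp only [hd, map_sub, ContinuousLinearMap.sub_apply, hW, map_smul,
        ContinuousLinearMap.smul_apply, smul_eq_mul, inner_sub_left, real_inner_smul_left]
      have e3 : ε n * (ε n * T.a (R n x) w + ⟪T.ι (R n x), T.ι w⟫_ℝ) = ε n * T.a x w := by
        rw [e1]
      linarith
    have h3 := h d
    have h4 : 0 ≤ ⟪T.ι d, T.ι d⟫_ℝ := real_inner_self_nonneg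
    have h5 : 0 ≤ T.a d d := le_trans (by positivity) (hco d)
    have h6 : ε n * T.a d d = 0 := le_antisymm (by linarith) (mul_nonneg (hε n).le h5)
    have h7 : T.a d d = 0 := (mul_eq_zero.1 h6).resolve_left (hε n).ne'
    exact sub_eq_zero.1 (a_nondeg T h7)
  -- bound for `W`
  have hWb : ∀ n x, ‖W n x‖ ≤ ‖T.a‖ / c * ‖x‖ := by
    intro n x
    have e1 := hR n x (R n x)
    have h4 : 0 ≤ ⟪T.ι (R n x), T.ι (R n x)⟫_ℝ := real_inner_self_nonneg
    have h5 := hco (R n x)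
    have h6 : T.a x (R n x) ≤ ‖T.a‖ * ‖x‖ * ‖R n x‖ :=
      (le_abs_self _).trans (T.a.le_opNorm₂ x (R n x))
    have h7 : ε n * (c * ‖R n x‖ ^ 2) ≤ ‖T.a‖ * ‖x‖ * ‖R n x‖ := by
      have := mul_le_mul_of_nonneg_left h5 (hε n).le
      linarith
    rw [hW, norm_smul, Real.norm_eq_abs, abs_of_pos (hε n), div_mul_eq_mul_div ‖T.a‖, le_div_iff₀ hc]
    rcases (norm_nonneg (R n x)).eq_or_lt with h0 | h0
    · rw [← h0]; simp only [mul_zero, zero_mul]; positivity
    · refine le_of_mul_le_mul_right ?_ h0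
      nlinarith
  -- bound on the range of `G`
  have hJ : ∀ n h, ‖T.ι (R n (T.G h))‖ ≤ ‖h‖ ∧ ε n * (c * ‖R n (T.G h)‖ ^ 2) ≤ ‖h‖ ^ 2 := by
    intro n h
    set w := R n (T.G h) with hw
    have e1 := hR n (T.G h) w
    rw [T.hG, ← hw, real_inner_self_eq_norm_sq] at e1
    have h5 := mul_le_mul_of_nonneg_left (hco w) (hε n).le
    have h6 : ⟪h, T.ι w⟫_ℝ ≤ ‖h‖ * ‖T.ι w‖ := real_inner_le_norm _ _
    have h7 : 0 ≤ ε n * (c * ‖w‖ ^ 2) := mul_nonneg (hε n).le (by positivity)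
    have h8 : ‖T.ι w‖ ≤ ‖h‖ := by
      rcases (norm_nonneg (T.ι w)).eq_or_lt with h0 | h0
      · rw [← h0]; exact norm_nonneg _
      · refine le_of_mul_le_mul_right ?_ h0
        nlinarith
    refine ⟨h8, ?_⟩
    have h9 : ‖h‖ * ‖T.ι w‖ ≤ ‖h‖ * ‖h‖ := mul_le_mul_of_nonneg_left h8 (norm_nonneg _)
    nlinarith [sq_nonneg ‖T.ι w‖]
  have hW0 : ∀ x, Tendsto (fun n => W n x) atTop (𝓝 0) := by
    intro x
    have := tendsto_of_dense W 0 (by positivity) hWb (denseRange_G T) ?_ x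
    · simpa using this
    rintro _ ⟨h, rfl⟩
    simp only [ContinuousLinearMap.zero_apply]
    rw [tendsto_zero_iff_norm_tendsto_zero]
    have hs : Tendsto (fun n => Real.sqrt (ε n * (‖h‖ ^ 2 / c))) atTop (𝓝 0) := by
      have := (hε0.mul_const (‖h‖ ^ 2 / c)).sqrt
      simpa using this
    refine squeeze_zero (fun n => norm_nonneg _) (fun n => ?_) hs
    apply Real.le_sqrt_of_sq_le
    rw [hW, norm_smul, Real.norm_eq_abs, abs_of_pos (hε n), mul_pow, ← mul_div_assoc,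
      le_div_iff₀ hc]
    have := mul_le_mul_of_nonneg_left (hJ n h).2 (hε n).le
    nlinarith
  have hS : ∀ x, Tendsto (fun n => x - W n x) atTop (𝓝 x) := fun x => by
    simpa using (hW0 x).const_sub x
  refine ⟨R, fun n => 1 - W n, 1 + ‖T.a‖ / c, by positivity, h2, h1, fun n x => ?_,
    fun n h => (hJ n h).1, hS, fun h => ?_⟩
  · calc ‖(1 - W n) x‖ = ‖x - W n x‖ := rfl
      _ ≤ ‖x‖ + ‖W n x‖ := norm_sub_le _ _
      _ ≤ ‖x‖ + ‖T.a‖ / c * ‖x‖ := by gcongr; exact hWb n x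
      _ = _ := by ring
  · have := tendsto_of_dense (fun n => T.ι.comp ((R n).comp T.G)) (ContinuousLinearMap.id ℝ H)
      zero_le_one (fun n h => by simpa using (hJ n h).1) T.dense ?_ h
    · simpa using this
    rintro _ ⟨x, rfl⟩
    simp only [ContinuousLinearMap.comp_apply, ContinuousLinearMap.id_apply, h2]
    exact (T.ι.continuous.tendsto x).comp (hS x)

end EnergyAux
end Crest.Agent.R213
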