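import Crest.Agent.R213.EnergyAC
import Crest.Agent.R213.EnergyRes

/-!
# R213 / Energy : the energy identity (by resolvent regularisation)
-/

set_option autoImplicit false

open MeasureTheory Set Filter
open scoped InnerProductSpace Topology

namespace Crest.Agent.R213
namespace EnergyAux

variable {V H : Type} [NormedAddCommGroup V] [InnerProductSpace ℝ V] [CompleteSpace V]
  [NormedAddCommGroup H] [InnerProductSpace ℝ H] [CompleteSpace H]

theorem aesm_apply {α E F : Type*} [MeasurableSpace α] {ν : Measure α}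
    [NormedAddCommGroup E] [NormedSpace ℝ E] [NormedAddCommGroup F] [NormedSpace ℝ F]
    {A : α → E →L[ℝ] F} {x : α → E} (hA : AEStronglyMeasurable A ν)
    (hx : AEStronglyMeasurable x ν) : AEStronglyMeasurable (fun q => A q (x q)) ν :=
  (ContinuousLinearMap.id ℝ (E →L[ℝ] F)).aestronglyMeasurable_comp₂ hA hx

theorem energy_aux (T : Trip V H) {s0 s1 : ℝ} {v Z : ℝ → V} {U : ℝ → H}
    (h : IsSol T s0 s1 v Z U)
    (μ : ℝ → V →L[ℝ] V) (m m' : ℝ → H →L[ℝ] H) (hμ : Continuous μ)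
    (hm : ∀ s, HasDerivAt m (m' s) s) (hm' : Continuous m')
    (hc : ∀ s u, T.ι (μ s u) = m s (T.ι u))
    (hs : ∀ s x y, ⟪m s x, y⟫_ℝ = ⟪x, m s y⟫_ℝ)
    {r s : ℝ} (hr : s0 ≤ r) (hrs : r ≤ s) (hs1 : s ≤ s1) :
    IntervalIntegrable (fun q => 2 * T.a (Z q) (μ q (v q)) + ⟪U q, m' q (U q)⟫_ℝ) volume r s ∧
    ⟪U s, m s (U s)⟫_ℝ = ⟪U r, m r (U r)⟫_ℝ +
      ∫ q in r..s, (2 * T.a (Z q) (μ q (v q)) + ⟪U q, m' q (U q)⟫_ℝ) := by
  obtain ⟨R, S, K, hK, hS1, hS2, hSb, hJb, hSt, hJt⟩ := exists_approx T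
  have hsub : Ioc r s ⊆ Ioc s0 s1 := Ioc_subset_Ioc hr hs1
  have hsub' : Icc r s ⊆ Icc s0 s1 := Icc_subset_Icc hr hs1
  have hle : volume.restrict (Ioc r s) ≤ volume.restrict (Ioc s0 s1) :=
    Measure.restrict_mono hsub le_rfl
  have hv2 : MemLp v 2 (volume.restrict (Ioc r s)) := h.v2.mono_measure hle
  have hZ2 : MemLp Z 2 (volume.restrict (Ioc r s)) := h.Z2.mono_measure hle
  have hrep : ∀ᵐ q ∂(volume.restrict (Ioc r s)), T.ι (v q) = U q := ae_mono hle h.rep
  have hUc : ContinuousOn U (Icc r s) := h.cont.mono hsub'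
  have hUm : AEStronglyMeasurable U (volume.restrict (Ioc r s)) :=
    (hUc.mono Ioc_subset_Icc_self).aestronglyMeasurable measurableSet_Ioc
  obtain ⟨CU, hCU⟩ := isCompact_Icc.exists_bound_of_continuousOn hUc
  obtain ⟨Cμ, hCμ⟩ := (isCompact_Icc (a := r) (b := s)).exists_bound_of_continuousOn
    hμ.continuousOn
  obtain ⟨Cm, hCm⟩ := (isCompact_Icc (a := r) (b := s)).exists_bound_of_continuousOn
    hm'.continuousOn
  -- the general integrand
  let F : (V →L[ℝ] V) → (H →L[ℝ] H) → ℝ → ℝ := fun A J q =>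
    2 * T.a (A (Z q)) (μ q (A (v q))) + ⟪J (U q), m' q (J (U q))⟫_ℝ
  have hFm : ∀ A J, AEStronglyMeasurable (F A J) (volume.restrict (Ioc r s)) := by
    intro A J
    have h1 := A.continuous.comp_aestronglyMeasurable hZ2.1
    have h2 := A.continuous.comp_aestronglyMeasurable hv2.1
    have h3 := J.continuous.comp_aestronglyMeasurable hUm
    exact ((T.a.aestronglyMeasurable_comp₂ h1 (aesm_apply hμ.aestronglyMeasurable h2)).const_mul
      2).add (h3.inner (aesm_apply hm'.aestronglyMeasurable h3))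
  let bound : ℝ → ℝ := fun q =>
    2 * (‖T.a‖ * (K + 1) * Cμ * (K + 1)) * (‖Z q‖ * ‖v q‖) + CU * (Cm * CU)
  have hbi : Integrable bound (volume.restrict (Ioc r s)) :=
    ((hZ2.norm.integrable_mul hv2.norm).const_mul _).add (integrable_const _)
  have hFb : ∀ (A : V →L[ℝ] V) (J : H →L[ℝ] H), (∀ x, ‖A x‖ ≤ (K + 1) * ‖x‖) →
      (∀ x, ‖J x‖ ≤ ‖x‖) → ∀ q ∈ Ioc r s, ‖F A J q‖ ≤ bound q := by
    intro A J hA hJ q hq
    have hq' : q ∈ Icc r s := Ioc_subset_Icc_self hq
    have hCμ0 : 0 ≤ Cμ := (norm_nonneg _).trans (hCμ q hq')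
    have hCm0 : 0 ≤ Cm := (norm_nonneg _).trans (hCm q hq')
    have hCU0 : 0 ≤ CU := (norm_nonneg _).trans (hCU q hq')
    have e1 : ‖μ q (A (v q))‖ ≤ Cμ * ((K + 1) * ‖v q‖) :=
      ((μ q).le_opNorm _).trans (mul_le_mul (hCμ q hq') (hA _) (norm_nonneg _) hCμ0)
    have e2 : ‖T.a (A (Z q)) (μ q (A (v q)))‖ ≤
        ‖T.a‖ * ((K + 1) * ‖Z q‖) * (Cμ * ((K + 1) * ‖v q‖)) := by
      refine (T.a.le_opNorm₂ _ _).trans ?_
      gcongr
      exact hA _
    have e3 : ‖J (U q)‖ ≤ CU := (hJ _).trans (hCU q hq')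
    have e4 : ‖m' q (J (U q))‖ ≤ Cm * CU :=
      ((m' q).le_opNorm _).trans (mul_le_mul (hCm q hq') e3 (norm_nonneg _) hCm0)
    have e5 : ‖⟪J (U q), m' q (J (U q))⟫_ℝ‖ ≤ CU * (Cm * CU) :=
      (norm_inner_le_norm _ _).trans (mul_le_mul e3 e4 (norm_nonneg _) hCU0)
    calc ‖F A J q‖ ≤ ‖2 * T.a (A (Z q)) (μ q (A (v q)))‖ + ‖⟪J (U q), m' q (J (U q))⟫_ℝ‖ :=
          norm_add_le _ _
      _ ≤ 2 * (‖T.a‖ * ((K + 1) * ‖Z q‖) * (Cμ * ((K + 1) * ‖v q‖))) + CU * (Cm * CU) := by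
          rw [norm_mul, Real.norm_ofNat]
          gcongr
      _ = bound q := by simp only [bound]; ring
  have hone : ∀ x : V, ‖(1 : V →L[ℝ] V) x‖ ≤ (K + 1) * ‖x‖ := fun x => by
    have := norm_nonneg x
    simp only [ContinuousLinearMap.one_apply]
    nlinarith
  have hint : Integrable (F 1 1) (volume.restrict (Ioc r s)) :=
    hbi.mono' (hFm 1 1) ((ae_restrict_iff' measurableSet_Ioc).2
      (Eventually.of_forall (hFb 1 1 hone fun x => le_rfl)))
  refine ⟨(intervalIntegrable_iff_integrableOn_Ioc_of_le hrs).2 hint, ?_⟩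
  let J : ℕ → H →L[ℝ] H := fun n => T.ι.comp ((R n).comp T.G)
  have hJ : ∀ n x, J n x = T.ι (R n (T.G x)) := fun n x => rfl
  have hZ1 : ∀ t ∈ Icc s0 s1, IntervalIntegrable Z volume s0 t := fun t ht =>
    (intervalIntegrable_iff_integrableOn_Ioc_of_le ht.1).2
      (IntegrableOn.mono_set (h.Z2.integrable one_le_two) (Ioc_subset_Ioc le_rfl ht.2))
  have hZrs : IntervalIntegrable Z volume r s :=
    (intervalIntegrable_iff_integrableOn_Ioc_of_le hrs).2 (hZ2.integrable one_le_two)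
  -- the regularised identity
  have hn : ∀ n, ⟪J n (U s), m s (J n (U s))⟫_ℝ = ⟪J n (U r), m r (J n (U r))⟫_ℝ +
      ∫ q in r..s, F (S n) (J n) q := by
    intro n
    let L : V →L[ℝ] H := T.ι.comp (R n)
    have hf : IntervalIntegrable (fun q => L (Z q)) volume r s :=
      ⟨L.integrable_comp hZrs.1, L.integrable_comp hZrs.2⟩
    have hy : ∀ t ∈ Icc r s, J n (U t) = J n (U r) + ∫ q in r..t, L (Z q) := by
      intro t ht
      have hr' : r ∈ Icc s0 s1 := hsub' ⟨le_rfl, hrs⟩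
      have e1 := h.int t (hsub' ht)
      have e2 := h.int r hr'
      have e3 : T.G (U t) = T.G (U r) + ∫ q in r..t, Z q := by
        rw [e1, e2, add_assoc, intervalIntegral.integral_add_adjacent_intervals (hZ1 r hr')
          (hZrs.mono_set (by rw [uIcc_of_le hrs, uIcc_of_le ht.1]; exact Icc_subset_Icc le_rfl ht.2))]
      rw [L.intervalIntegral_comp_comm
        (hZrs.mono_set (by rw [uIcc_of_le hrs, uIcc_of_le ht.1]; exact Icc_subset_Icc le_rfl ht.2))]
      change L (T.G (U t)) = L (T.G (U r)) + _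
      rw [e3, map_add]
    have key := prod_rule (y := fun t => J n (U t)) hrs hf hy m m' hm hm' hs
    rw [key]
    congr 1
    rw [intervalIntegral.integral_of_le hrs, intervalIntegral.integral_of_le hrs]
    refine integral_congr_ae ?_
    filter_upwards [hrep] with q hq
    have e1 : J n (U q) = T.ι (S n (v q)) := by rw [hJ, ← hq, hS1]
    have e2 : ⟪L (Z q), m q (J n (U q))⟫_ℝ = T.a (S n (Z q)) (μ q (S n (v q))) := by
      rw [e1, ← hc, ← hS2 n (Z q), T.hG]
      rfl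
    simp only [F, e2]
  have hlimI : Tendsto (fun n => ∫ q in r..s, F (S n) (J n) q) atTop
      (𝓝 (∫ q in r..s, F 1 1 q)) := by
    simp only [intervalIntegral.integral_of_le hrs]
    refine tendsto_integral_of_dominated_convergence bound (fun n => hFm _ _) hbi (fun n => ?_)
      (Eventually.of_forall fun q => ?_)
    · refine (ae_restrict_iff' measurableSet_Ioc).2 (Eventually.of_forall (hFb _ _ ?_ (hJb n)))
      intro x
      have := norm_nonneg x
      have := hSb n x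
      nlinarith
    · have t1 := hSt (Z q)
      have t2 := ((μ q).continuous.tendsto _).comp (hSt (v q))
      have t3 := (T.a.continuous₂.tendsto (Z q, μ q (v q))).comp (t1.prodMk_nhds t2)
      have t4 := hJt (U q)
      have t5 := ((m' q).continuous.tendsto _).comp t4
      exact (t3.const_mul 2).add (t4.inner t5)
  have hlim : ∀ t, Tendsto (fun n => ⟪J n (U t), m t (J n (U t))⟫_ℝ) atTop
      (𝓝 ⟪U t, m t (U t)⟫_ℝ) := fun t =>
    (hJt (U t)).inner (((m t).continuous.tendsto _).comp (hJt (U t)))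
  have := (hlim r).add hlimI
  simp only [← hn] at this
  exact tendsto_nhds_unique (hlim s) this

theorem energy_one_aux (T : Trip V H) {s0 s1 : ℝ} {v Z : ℝ → V} {U : ℝ → H}
    (h : IsSol T s0 s1 v Z U) {r s : ℝ} (hr : s0 ≤ r) (hrs : r ≤ s) (hs1 : s ≤ s1) :
    IntervalIntegrable (fun q => 2 * T.a (Z q) (v q)) volume r s ∧
    ‖U s‖ ^ 2 = ‖U r‖ ^ 2 + ∫ q in r..s, 2 * T.a (Z q) (v q) := by
  have := energy_aux T h (fun _ => 1) (fun _ => 1) (fun _ => 0) continuous_const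
    (fun s => hasDerivAt_const s _) continuous_const (fun _ _ => rfl) (fun _ _ _ => rfl) hr hrs hs1
  simpa only [ContinuousLinearMap.one_apply, ContinuousLinearMap.zero_apply, inner_zero_right,
    add_zero, real_inner_self_eq_norm_sq] using this

end EnergyAux
end Crest.Agent.R213
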