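import Crest.Agent.R213.Abs

/-!
# R213 / EnergyAC : product rule for primitives of Bochner integrable functions
-/

set_option autoImplicit false

open MeasureTheory Set Filter
open scoped InnerProductSpace Topology

namespace Crest.Agent.R213
namespace EnergyAux

theorem ac_of_le {X Y : Type*} [PseudoMetricSpace X] [PseudoMetricSpace Y] {f : ℝ → X}
    {g : ℝ → Y} {a b C : ℝ} (hg : AbsolutelyContinuousOnInterval g a b)
    (h : ∀ x ∈ uIcc a b, ∀ y ∈ uIcc a b, dist (f x) (f y) ≤ C * dist (g x) (g y)) :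
    AbsolutelyContinuousOnInterval f a b := by
  unfold AbsolutelyContinuousOnInterval at hg ⊢
  apply squeeze_zero' ?_ ?_ (by simpa using hg.const_mul C)
  · exact Filter.Eventually.of_forall <| fun _ ↦ Finset.sum_nonneg (fun i hi ↦ dist_nonneg)
  rw [eventually_inf_principal]
  filter_upwards with E hE
  rw [Finset.mul_sum]
  refine Finset.sum_le_sum fun i hi => ?_
  exact h _ (hE.1 i hi).1 _ (hE.1 i hi).2

theorem ac_prod {X Y : Type*} [PseudoMetricSpace X] [PseudoMetricSpace Y] {f : ℝ → X}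
    {g : ℝ → Y} {a b : ℝ} (hf : AbsolutelyContinuousOnInterval f a b)
    (hg : AbsolutelyContinuousOnInterval g a b) :
    AbsolutelyContinuousOnInterval (fun t => (f t, g t)) a b := by
  unfold AbsolutelyContinuousOnInterval at hf hg ⊢
  apply squeeze_zero (fun t => ?_) (fun t => ?_) (by simpa using hf.add hg)
  · exact Finset.sum_nonneg (fun i hi ↦ dist_nonneg)
  · rw [← Finset.sum_add_distrib]
    refine Finset.sum_le_sum fun i _ => ?_
    rw [Prod.dist_eq]
    exact max_le (le_add_of_nonneg_right dist_nonneg) (le_add_of_nonneg_left dist_nonneg)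

theorem ac_comp {X Y : Type*} [SeminormedAddCommGroup X] [PseudoMetricSpace Y] {Φ : X → Y}
    {g : ℝ → X} {a b : ℝ}
    (hΦ : LocallyLipschitz Φ) (hg : AbsolutelyContinuousOnInterval g a b) :
    AbsolutelyContinuousOnInterval (fun t => Φ (g t)) a b := by
  have hK : IsCompact (g '' uIcc a b) := isCompact_uIcc.image_of_continuousOn hg.continuousOn
  obtain ⟨K, hL⟩ := LocallyLipschitzOn.exists_lipschitzOnWith_of_compact hK
    (hΦ.locallyLipschitzOn (s := g '' uIcc a b))
  have h : ∀ x ∈ uIcc a b, ∀ y ∈ uIcc a b,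
      dist (Φ (g x)) (Φ (g y)) ≤ (K : ℝ) * dist (g x) (g y) := fun x hx y hy =>
    hL.dist_le_mul _ (mem_image_of_mem g hx) _ (mem_image_of_mem g hy)
  exact ac_of_le (f := fun t => Φ (g t)) hg h

theorem ac_integral {E : Type*} [NormedAddCommGroup E] [NormedSpace ℝ E] {f : ℝ → E} {a b : ℝ}
    (hf : IntervalIntegrable f volume a b) :
    AbsolutelyContinuousOnInterval (fun x => ∫ t in a..x, f t) a b := by
  have h1 := hf.norm.absolutelyContinuousOnInterval_intervalIntegral (c := a) left_mem_uIcc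
  refine ac_of_le (C := 1) h1 fun x hx y hy => ?_
  have hx' : IntervalIntegrable f volume a x := hf.mono_set (uIcc_subset_uIcc left_mem_uIcc hx)
  have hy' : IntervalIntegrable f volume a y := hf.mono_set (uIcc_subset_uIcc left_mem_uIcc hy)
  rw [dist_eq_norm, intervalIntegral.integral_interval_sub_left hx' hy', one_mul, Real.dist_eq,
    intervalIntegral.integral_interval_sub_left hx'.norm hy'.norm]
  exact intervalIntegral.norm_integral_le_abs_integral_norm

/-- product rule -/
theorem prod_rule {H : Type*} [NormedAddCommGroup H] [InnerProductSpace ℝ H] [CompleteSpace H]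
    {f y : ℝ → H} {r s : ℝ} (hrs : r ≤ s) (hf : IntervalIntegrable f volume r s)
    (hy : ∀ t ∈ Icc r s, y t = y r + ∫ q in r..t, f q)
    (m m' : ℝ → H →L[ℝ] H) (hm : ∀ t, HasDerivAt m (m' t) t) (hm' : Continuous m')
    (hs : ∀ t x y, ⟪m t x, y⟫_ℝ = ⟪x, m t y⟫_ℝ) :
    ⟪y s, m s (y s)⟫_ℝ = ⟪y r, m r (y r)⟫_ℝ +
      ∫ q in r..s, (2 * ⟪f q, m q (y q)⟫_ℝ + ⟪y q, m' q (y q)⟫_ℝ) := by
  set Y : ℝ → H := fun t => y r + ∫ q in r..t, f q with hY
  have hYac : AbsolutelyContinuousOnInterval Y r s := by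
    refine ac_of_le (f := Y) (C := 1) (ac_integral hf) fun x _ z _ => ?_
    rw [one_mul]
    exact (dist_add_left (y r) _ _).le
  have hmC : ContDiff ℝ 1 m := by
    rw [contDiff_one_iff_deriv]
    refine ⟨fun t => (hm t).differentiableAt, ?_⟩
    have : deriv m = m' := funext fun t => (hm t).deriv
    rw [this]; exact hm'
  have hmac : AbsolutelyContinuousOnInterval m r s :=
    hmC.contDiffOn.absolutelyContinuousOnInterval
  have hΦ : ContDiff ℝ 1 (fun p : H × (H →L[ℝ] H) => ⟪p.1, p.2 p.1⟫_ℝ) :=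
    contDiff_fst.inner ℝ (contDiff_snd.clm_apply contDiff_fst)
  have hac : AbsolutelyContinuousOnInterval (fun t => ⟪Y t, m t (Y t)⟫_ℝ) r s :=
    ac_comp (Φ := fun p : H × (H →L[ℝ] H) => ⟪p.1, p.2 p.1⟫_ℝ) (g := fun t => (Y t, m t))
      hΦ.locallyLipschitz (ac_prod hYac hmac)
  have key := hac.integral_deriv_eq_sub
  have hYs : Y s = y s := (hy s ⟨hrs, le_rfl⟩).symm
  have hYr : Y r = y r := (hy r ⟨le_rfl, hrs⟩).symm
  rw [hYs, hYr] at key
  have : ∫ q in r..s, (2 * ⟪f q, m q (y q)⟫_ℝ + ⟪y q, m' q (y q)⟫_ℝ) =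
      ∫ x in r..s, deriv (fun t => ⟪Y t, m t (Y t)⟫_ℝ) x := by
    apply intervalIntegral.integral_congr_ae
    filter_upwards [hf.ae_hasDerivAt_integral] with x hx hxI
    have hxI' : x ∈ uIcc r s := uIoc_subset_uIcc hxI
    have h1 : HasDerivAt Y (f x) x := (hx hxI' r left_mem_uIcc).const_add (y r)
    have h2 : HasDerivAt (fun t => m t (Y t)) (m' x (Y x) + m x (f x)) x := (hm x).clm_apply h1
    have h3 := h1.inner ℝ h2
    rw [h3.deriv]
    have hYx : Y x = y x := (hy x (by rwa [uIcc_of_le hrs] at hxI')).symm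
    rw [hYx, inner_add_right, ← hs x (y x) (f x), real_inner_comm (f x) (m x (y x))]
    ring
  rw [this, key]
  ring

end EnergyAux
end Crest.Agent.R213
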