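import Crest.Agent.R213.EqvDefs

/-! # R213 / EqvC : calculus of `comb` and the commutator formula (aux prefix `ec_`) -/

set_option autoImplicit false

open MeasureTheory Set Filter Topology
open scoped ContDiff InnerProductSpace

namespace Crest.Agent.R213.Eqv

theorem ec_ev {c : ℝ → ℝ} (hc : Cf c) {x : ℝ} (hx : x ∉ Icc (1 / 8 : ℝ) (3 / 16)) :
    c =ᶠ[𝓝 x] fun _ => 0 := by
  filter_upwards [isClosed_Icc.isOpen_compl.mem_nhds hx] with y hy
  exact hc.2 y hy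

theorem Cf.der {c : ℝ → ℝ} (hc : Cf c) : Cf (deriv c) := by
  refine ⟨(contDiff_infty_iff_deriv.1 hc.1).2, fun x hx => ?_⟩
  rw [(ec_ev hc hx).deriv_eq, deriv_const]

theorem Cf.add {c c' : ℝ → ℝ} (hc : Cf c) (hc' : Cf c') : Cf fun x => c x + c' x :=
  ⟨hc.1.add hc'.1, fun x hx => by simp only [hc.2 x hx, hc'.2 x hx, add_zero]⟩

theorem Cf.mul {c p : ℝ → ℝ} (hc : Cf c) (hp : ContDiff ℝ ∞ p) : Cf fun x => p x * c x :=
  ⟨hp.mul hc.1, fun x hx => by simp only [hc.2 x hx, mul_zero]⟩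

/-- `c` vanishes near `0`. -/
theorem Cf.div_id {c : ℝ → ℝ} (hc : Cf c) : Cf fun x => c x / x := by
  refine ⟨contDiff_iff_contDiffAt.2 fun x => ?_, fun x hx => by simp only [hc.2 x hx, zero_div]⟩
  rcases eq_or_ne x 0 with hx | hx
  · refine (contDiffAt_const (c := (0 : ℝ))).congr_of_eventuallyEq ?_
    have h0 : x ∉ Icc (1 / 8 : ℝ) (3 / 16) := fun h => by linarith [h.1]
    filter_upwards [ec_ev hc h0] with y hy
    rw [hy, zero_div]
  · exact hc.1.contDiffAt.div contDiffAt_id hx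

theorem Cf.bdd {c : ℝ → ℝ} (hc : Cf c) : ∃ M : ℝ, 0 < M ∧ ∀ x, |c x| ≤ M := by
  obtain ⟨M, hM⟩ := (isCompact_Icc (a := (1 / 8 : ℝ)) (b := 3 / 16)).exists_bound_of_continuousOn
    hc.1.continuous.continuousOn
  refine ⟨max M 1, lt_max_of_lt_right one_pos, fun x => ?_⟩
  by_cases hx : x ∈ Icc (1 / 8 : ℝ) (3 / 16)
  · exact le_max_of_le_left (hM x hx)
  · rw [hc.2 x hx, abs_zero]
    exact le_max_of_le_right zero_le_one

theorem ec_sub {c c' : ℝ → ℝ} (hc : Cf c) (hc' : Cf c') (a : ℝ) : Cf fun x => c x - a * c' x :=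
  ⟨hc.1.sub (contDiff_const.mul hc'.1), fun x hx => by simp only [hc.2 x hx, hc'.2 x hx, mul_zero, sub_zero]⟩

theorem cf_dc {c : Fin 4 → ℝ → ℝ} (hc : ∀ i, Cf (c i)) (i : Fin 4) : Cf (dc c i) := by
  fin_cases i
  · exact ec_sub (hc 0).der (hc 1).div_id.div_id 72
  · exact ec_sub ((hc 0).add (hc 1).der) (hc 1).div_id 18
  · exact (hc 1).add (hc 2).der
  · exact (hc 2).add (hc 3).der

theorem cf_deriv_chi : Cf (deriv chi) := by
  refine ⟨(contDiff_infty_iff_deriv.1 chi_sm).2, fun x hx => ?_⟩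
  rw [mem_Icc, not_and_or, not_le, not_le] at hx
  rcases hx with hx | hx
  · have : chi =ᶠ[𝓝 x] fun _ => 1 := by
      filter_upwards [Iio_mem_nhds hx] with y hy
      exact chi_one (le_of_lt hy)
    rw [this.deriv_eq, deriv_const]
  · have : chi =ᶠ[𝓝 x] fun _ => 0 := by
      filter_upwards [Ioi_mem_nhds hx] with y hy
      exact chi_zero (le_of_lt hy)
    rw [this.deriv_eq, deriv_const]

theorem ec_sig1 (h : L2) {x : ℝ} (hx : x ∈ Ioo (0 : ℝ) 1) : sig1 h =ᶠ[𝓝 x] deriv (sig h) := by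
  filter_upwards [isOpen_Ioo.mem_nhds hx] with y hy
  exact (hasDerivAt_sig h hy).deriv.symm

theorem ec_der {g : ℝ → ℝ} {n m : WithTop ℕ∞} (hg : ContDiffOn ℝ n g (Ioo 0 1)) (hm : m + 1 ≤ n) :
    ContDiffOn ℝ m (deriv g) (Ioo 0 1) :=
  hg.deriv_of_isOpen isOpen_Ioo hm

theorem ec_has {g : ℝ → ℝ} {n : WithTop ℕ∞} (hg : ContDiffOn ℝ n g (Ioo 0 1)) (hn : n ≠ 0) {x : ℝ}
    (hx : x ∈ Ioo (0 : ℝ) 1) : HasDerivAt g (deriv g x) x :=
  ((hg.contDiffAt (isOpen_Ioo.mem_nhds hx)).differentiableAt hn).hasDerivAt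

/-- `xi_contDiffOn`, `C0_xi` (`ξ'' = σ - 18ξ'/x - 72ξ/x²`), `hasDerivAt_sig`, and `sig_reg`
(`sig1 h = deriv (sig h)` on the open set `(0,1)`). -/
theorem comb_hasDerivAt {c : Fin 4 → ℝ → ℝ} (hc : ∀ i, Cf (c i)) {h : L2} {f : ℝ → ℝ}
    (hf : ContDiffOn ℝ 2 f (Ioo 0 1)) (he : hv h =ᵐ[ν] f) {x : ℝ} (hx : x ∈ Ioo (0 : ℝ) 1) :
    HasDerivAt (comb c h) (comb (dc c) h x + c 3 x * (f x / (x * (1 - x)) ^ 2)) x := by
  obtain ⟨hs, -, hd⟩ := sig_reg h (n := 2) hf he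
  have hcd : ∀ i, HasDerivAt (c i) (deriv (c i) x) x := fun i =>
    ((hc i).1.differentiable (by simp) x).hasDerivAt
  have h0 : HasDerivAt (xi h) (deriv (xi h) x) x := ec_has (xi_contDiffOn h) (by norm_num) hx
  have h1 : HasDerivAt (deriv (xi h)) (deriv (deriv (xi h)) x) x :=
    ec_has (ec_der (m := 2) (xi_contDiffOn h) (by norm_num)) (by norm_num) hx
  have h2 : HasDerivAt (sig h) (sig1 h x) x := hasDerivAt_sig h hx
  have h3 : HasDerivAt (sig1 h) (f x / (x * (1 - x)) ^ 2) x := by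
    rw [← hd x hx]
    exact (ec_has (ec_der (m := 1) hs (by norm_num)) (by norm_num) hx).congr_of_eventuallyEq (ec_sig1 h hx)
  have e : deriv (deriv (xi h)) x = sig h x - 18 * deriv (xi h) x / x - 72 * xi h x / x ^ 2 := by
    have := C0_xi h hx
    unfold C0 at this
    linarith
  have := ((((hcd 0).mul h0).add ((hcd 1).mul h1)).add ((hcd 2).mul h2)).add ((hcd 3).mul h3)
  refine HasDerivAt.congr_deriv (f := comb c h) this ?_
  rw [e]
  simp only [comb, dc, Matrix.cons_val_zero, Matrix.cons_val_one, Matrix.cons_val]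
  have hx0 : x ≠ 0 := hx.1.ne'
  field_simp
  ring

theorem comb_contDiffOn {c : Fin 4 → ℝ → ℝ} (hc : ∀ i, Cf (c i)) {h : L2} {f : ℝ → ℝ}
    (hf : ContDiffOn ℝ 2 f (Ioo 0 1)) (he : hv h =ᵐ[ν] f) : ContDiffOn ℝ 2 (comb c h) (Ioo 0 1) := by
  obtain ⟨hs, -, -⟩ := sig_reg h (n := 2) hf he
  have hcd : ∀ i, ContDiffOn ℝ 2 (c i) (Ioo 0 1) := fun i =>
    ((hc i).1.of_le (WithTop.coe_le_coe.2 (le_top : (2 : ℕ∞) ≤ ⊤))).contDiffOn
  have h0 : ContDiffOn ℝ 2 (xi h) (Ioo 0 1) := (xi_contDiffOn h).of_le (by norm_num)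
  have h1 : ContDiffOn ℝ 2 (deriv (xi h)) (Ioo 0 1) := ec_der (xi_contDiffOn h) (by norm_num)
  have h2 : ContDiffOn ℝ 2 (sig h) (Ioo 0 1) := hs.of_le (by norm_num)
  have h3 : ContDiffOn ℝ 2 (sig1 h) (Ioo 0 1) :=
    (ec_der (m := 2) hs (by norm_num)).congr fun y hy => (hasDerivAt_sig h hy).deriv.symm
  exact ((((hcd 0).mul h0).add ((hcd 1).mul h1)).add ((hcd 2).mul h2)).add ((hcd 3).mul h3)

theorem comb_continuousOn {c : Fin 4 → ℝ → ℝ} (hc : ∀ i, Cf (c i)) (h : L2) :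
    ContinuousOn (comb c h) (Ioo 0 1) := by
  have hcd : ∀ i, ContinuousOn (c i) (Ioo 0 1) := fun i => (hc i).1.continuous.continuousOn
  have h0 : ContinuousOn (xi h) (Ioo 0 1) := (xi_contDiffOn h).continuousOn
  have h1 : ContinuousOn (deriv (xi h)) (Ioo 0 1) :=
    (ec_der (m := 2) (xi_contDiffOn h) (by norm_num)).continuousOn
  exact ((((hcd 0).mul h0).add ((hcd 1).mul h1)).add ((hcd 2).mul (ISig_cont h))).add
    ((hcd 3).mul (sig1_continuousOn h))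

end Crest.Agent.R213.Eqv
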