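import Crest.Agent.R213.EqvLift

/-! # R213 / EqvD1 : the dilation of functions and on `H` (aux prefix `ed1_`) -/

set_option autoImplicit false

open MeasureTheory Set Filter Topology
open scoped ContDiff InnerProductSpace

namespace Crest.Agent.R213.Eqv

/-- null sets are preserved by `x ↦ x / κ` (`Real.map_volume_mul_right`, `ae_restrict_iff'`). -/
theorem ae_dl {κ : ℝ} (hκ : 0 < κ) {p : ℝ → Prop} (h : ∀ᵐ y ∂ν, p y) :
    ∀ᵐ x ∂ν, x < κ → p (x / κ) := by
  have q : Measure.QuasiMeasurePreserving (fun x : ℝ => x * κ⁻¹) volume volume :=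
    ⟨measurable_id.mul_const _, by
      rw [Real.map_volume_mul_right (inv_ne_zero hκ.ne')]
      exact Measure.smul_absolutelyContinuous⟩
  have h1 := q.ae ((ae_restrict_iff' measurableSet_Ioo).1 h)
  filter_upwards [ae_restrict_of_ae h1, ae_restrict_mem measurableSet_Ioo] with x a hx hlt
  rw [div_eq_mul_inv]
  refine a ⟨mul_pos hx.1 (inv_pos.2 hκ), ?_⟩
  rw [← div_eq_mul_inv, div_lt_one hκ]
  exact hlt

theorem dl_congr {κ : ℝ} (hκ : 0 < κ) {f g : ℝ → ℝ} (h : f =ᵐ[ν] g) : dl κ f =ᵐ[ν] dl κ g := by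
  filter_upwards [ae_dl hκ h] with x hx
  unfold dl
  split_ifs with h1
  · exact hx h1
  · rfl

/-- `dl κ F` is the indicator of `Iio κ`; `intervalIntegral.integral_comp_div` (no integrability needed). -/
theorem integral_dl {κ : ℝ} (hκ : 0 < κ) (h1 : κ ≤ 1) (F : ℝ → ℝ) :
    ∫ x in Ioo (0 : ℝ) 1, dl κ F x = κ * ∫ y in Ioo (0 : ℝ) 1, F y := by
  have e1 : ∫ x in Ioo (0 : ℝ) 1, dl κ F x = ∫ x in Ioo (0 : ℝ) κ, dl κ F x :=
    setIntegral_eq_of_subset_of_forall_diff_eq_zero measurableSet_Ioo (Ioo_subset_Ioo_right h1)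
      fun x hx => if_neg fun hlt => hx.2 ⟨hx.1.1, hlt⟩
  have e2 : ∫ x in Ioo (0 : ℝ) κ, dl κ F x = ∫ x in Ioo (0 : ℝ) κ, F (x / κ) :=
    setIntegral_congr_fun measurableSet_Ioo fun x hx => if_pos hx.2
  rw [e1, e2, ← integral_Ioc_eq_integral_Ioo, ← intervalIntegral.integral_of_le hκ.le,
    intervalIntegral.integral_comp_div F hκ.ne', zero_div, div_self hκ.ne',
    intervalIntegral.integral_of_le zero_le_one, integral_Ioc_eq_integral_Ioo, smul_eq_mul]

theorem integrable_dl {κ : ℝ} (hκ : 0 < κ) (h1 : κ ≤ 1) {F : ℝ → ℝ} (hF : Integrable F ν) :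
    Integrable (dl κ F) ν := by
  have h2 : IntervalIntegrable F volume 0 1 :=
    (intervalIntegrable_iff_integrableOn_Ioo_of_le zero_le_one).2 hF
  have h3 := h2.comp_mul_right (c := κ⁻¹)
  rw [zero_div, one_div, inv_inv, intervalIntegrable_iff_integrableOn_Ioo_of_le hκ.le] at h3
  have e : dl κ F = (Iio κ).indicator fun x => F (x * κ⁻¹) := by
    funext x
    simp only [dl, indicator, mem_Iio, div_eq_mul_inv]
  rw [e, integrable_indicator_iff measurableSet_Iio, IntegrableOn,
    Measure.restrict_restrict measurableSet_Iio]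
  exact h3.mono_set fun x hx => ⟨hx.2.1, hx.1⟩

/-- homogeneity, for every function (`deriv_comp_mul_left`, `deriv_const_mul_field'`). -/
theorem deriv_dil (κ t : ℝ) (F : ℝ → ℝ) :
    deriv (fun x => t * F (x / κ)) = fun x => t / κ * deriv F (x / κ) := by
  funext x
  have e : (fun x => F (x / κ)) = fun x => F (κ⁻¹ * x) := by
    funext x; rw [div_eq_inv_mul]
  rw [deriv_const_mul_field, e, deriv_comp_mul_left, smul_eq_mul, div_eq_inv_mul x, div_eq_mul_inv t,
    mul_assoc]

theorem C0_dil {κ : ℝ} (hκ : κ ≠ 0) (t : ℝ) (F : ℝ → ℝ) :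
    C0 (fun x => t * F (x / κ)) = fun x => t / κ ^ 2 * C0 F (x / κ) := by
  funext x
  unfold C0
  rw [deriv_dil, deriv_dil]
  rcases eq_or_ne x 0 with rfl | hx
  · simp only [zero_div, div_zero, ne_eq, OfNat.ofNat_ne_zero, not_false_eq_true, zero_pow, add_zero]
    field_simp
  · field_simp

/-- `DH h` is the class of `x ↦ dl κ (hv h) x / (1 - x)`, dominated by `dl κ |h|` as `1 - x/κ ≤ 1 - x`. -/
theorem dilH_exists {κ : ℝ} (hκ : 0 < κ) (h1 : κ ≤ 1) :
    ∃ DH : L2 →L[ℝ] L2, ∀ h, hv (DH h) =ᵐ[ν] dl κ (hv h) := by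
  have hi : ∀ h : L2, Integrable (hv h) ν := by
    intro h
    haveI : IsFiniteMeasure ν := by constructor; simp [ν]
    refine ((Lp.memLp h).integrable (by norm_num)).bdd_mul (c := 1)
      (continuous_const.sub continuous_id).aestronglyMeasurable ?_
    filter_upwards [ae_restrict_mem measurableSet_Ioo] with x hx
    rw [Real.norm_of_nonneg (by linarith [hx.2])]
    linarith [hx.1]
  obtain ⟨K, hK⟩ := el_mkL2 (fun h x => dl κ (hv h) x / (1 - x)) zero_le_one
    (fun h => ((integrable_dl hκ h1 (hi h)).1.aemeasurable.div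
      (measurable_const.sub measurable_id).aemeasurable).aestronglyMeasurable)
    (fun h => ⟨dl κ fun y => h y ^ 2, integrable_dl hκ h1 (Lp.memLp h).integrable_sq, by
      filter_upwards [ae_restrict_mem measurableSet_Ioo] with x hx
      unfold dl hv
      split_ifs with hlt
      · have a1 : 0 < 1 - x := sub_pos.2 hx.2
        have a2 : 0 ≤ 1 - x / κ := sub_nonneg.2 ((div_le_one hκ).2 hlt.le)
        have a3 : x ≤ x / κ := (le_div_iff₀ hκ).2 (by nlinarith [hx.1])
        rw [div_pow, div_le_iff₀ (by positivity), mul_pow, mul_comm]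
        exact mul_le_mul_of_nonneg_left (pow_le_pow_left₀ a2 (by linarith) 2) (sq_nonneg _)
      · simp, by
      rw [integral_dl hκ h1, ← norm_sq_H, one_mul]
      nlinarith [sq_nonneg ‖h‖]⟩)
    (fun h k t => by
      have e : hv (h + t • k) =ᵐ[ν] fun y => hv h y + t * hv k y := by
        filter_upwards [Lp.coeFn_add h (t • k), Lp.coeFn_smul t k] with y a b
        simp only [hv, a, Pi.add_apply, b, Pi.smul_apply, smul_eq_mul]
        ring
      filter_upwards [dl_congr hκ e] with x hx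
      rw [hx]
      unfold dl
      split_ifs
      · ring
      · simp)
  refine ⟨K, fun h => ?_⟩
  filter_upwards [hK h, ae_restrict_mem measurableSet_Ioo] with x a hx
  have a1 : 1 - x ≠ 0 := (sub_pos.2 hx.2).ne'
  rw [hv, a]
  field_simp

end Crest.Agent.R213.Eqv
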