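import Crest.Agent.R213.EqvLift
import Crest.Agent.R213.EqvD1

/-! # R213 / EqvD : the dilation (aux prefix `ed_`) -/

set_option autoImplicit false

open MeasureTheory Set Filter Topology
open scoped ContDiff InnerProductSpace

namespace Crest.Agent.R213.Eqv

theorem ed_ae_mem : ∀ᵐ x ∂ν, x ∈ Ioo (0 : ℝ) 1 := ae_restrict_mem measurableSet_Ioo

theorem ed_deriv_zero {f : ℝ → ℝ} {a : ℝ} (hf : ∀ x, a < x → f x = 0) :
    ∀ x, a < x → deriv f x = 0 := by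
  intro x hx
  have : f =ᶠ[𝓝 x] fun _ => 0 := by
    filter_upwards [Ioi_mem_nhds hx] with y hy using hf y hy
  rw [this.deriv_eq, deriv_const]

theorem ed_deriv1 (κ : ℝ) (f : ℝ → ℝ) :
    deriv (fun x => f (x / κ)) = fun x => 1 / κ * deriv f (x / κ) := by
  have := deriv_dil κ 1 f
  simpa only [one_mul] using this

theorem ed_deriv2 (κ : ℝ) (f : ℝ → ℝ) :
    deriv (deriv (fun x => f (x / κ))) = fun x => 1 / κ / κ * deriv (deriv f) (x / κ) := by
  rw [ed_deriv1, deriv_dil]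

theorem ed_test {κ : ℝ} (hκ : 0 < κ) (h1 : κ ≤ 1) {f : ℝ → ℝ} (hf : Test f) :
    Test (fun x => f (x / κ)) := by
  obtain ⟨hs, δ, hδ, hz⟩ := hf
  refine ⟨hs.comp (contDiff_id.div_const κ), κ * δ, mul_pos hκ hδ, fun x hx => hz _ fun hy => hx ?_⟩
  obtain ⟨hy1, hy2⟩ := hy
  rw [lt_div_iff₀ hκ] at hy1
  rw [div_lt_iff₀ hκ] at hy2
  constructor <;> nlinarith

theorem ed_norm {u : VV} {f : ℝ → ℝ} (h : Rep u f) : ‖u‖ ^ 2 = ∫ x in Ioo (0 : ℝ) 1,
    ((f x / (x * (1 - x) ^ 2)) ^ 2 + (deriv f x / (1 - x)) ^ 2 + (x * deriv (deriv f) x) ^ 2) := by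
  rw [norm_sq_V]
  obtain ⟨h0, h1, h2⟩ := h.d
  refine integral_congr_ae ?_
  filter_upwards [h0, h1, h2] with x e0 e1 e2
  rw [e0, e1, e2]

theorem ed_int {u : VV} {f : ℝ → ℝ} (h : Rep u f) : Integrable (fun x =>
    ((f x / (x * (1 - x) ^ 2)) ^ 2 + (deriv f x / (1 - x)) ^ 2 + (x * deriv (deriv f) x) ^ 2)) ν := by
  obtain ⟨m0, m1, m2⟩ := d_memLp u
  obtain ⟨h0, h1, h2⟩ := h.d
  refine ((m0.integrable_sq.add m1.integrable_sq).add m2.integrable_sq).congr ?_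
  filter_upwards [h0, h1, h2] with x e0 e1 e2
  simp only [Pi.add_apply]
  rw [e0, e1, e2]

theorem ed_pt {κ x a b c : ℝ} (hκ : 0 < κ) (h1 : κ ≤ 1) (hx : 0 < x) (hxκ : x < κ) :
    (a / (x * (1 - x) ^ 2)) ^ 2 + (1 / κ * b / (1 - x)) ^ 2 + (x * (1 / κ / κ * c)) ^ 2 ≤
      (κ ^ 2)⁻¹ * ((a / (x / κ * (1 - x / κ) ^ 2)) ^ 2 + (b / (1 - x / κ)) ^ 2 + (x / κ * c) ^ 2) := by
  have hy0 : 0 < x / κ := div_pos hx hκ
  have hy1 : x / κ < 1 := (div_lt_one hκ).2 hxκ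
  have hxy : x ≤ x / κ := by
    rw [le_div_iff₀ hκ]; nlinarith
  set y := x / κ with hy
  have hxe : x = κ * y := by rw [hy]; field_simp
  have hp : 0 < 1 - y := by linarith
  have hq : 1 - y ≤ 1 - x := by linarith
  have hq0 : 0 < 1 - x := by linarith
  have e1 : (a / (x * (1 - x) ^ 2)) ^ 2 ≤ (κ ^ 2)⁻¹ * (a / (y * (1 - y) ^ 2)) ^ 2 := by
    have : (κ ^ 2)⁻¹ * (a / (y * (1 - y) ^ 2)) ^ 2 = (a / (x * (1 - y) ^ 2)) ^ 2 := by
      rw [hxe]; field_simp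
    rw [this, div_pow, div_pow]
    refine div_le_div_of_nonneg_left (sq_nonneg _) (by positivity) ?_
    gcongr
  have e2 : (1 / κ * b / (1 - x)) ^ 2 ≤ (κ ^ 2)⁻¹ * (b / (1 - y)) ^ 2 := by
    have : (κ ^ 2)⁻¹ * (b / (1 - y)) ^ 2 = (1 / κ * b / (1 - y)) ^ 2 := by
      field_simp
    rw [this, div_pow, div_pow (1 / κ * b)]
    refine div_le_div_of_nonneg_left (sq_nonneg _) (by positivity) ?_
    gcongr
  have e3 : (x * (1 / κ / κ * c)) ^ 2 = (κ ^ 2)⁻¹ * (y * c) ^ 2 := by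
    rw [hxe]; field_simp
  rw [mul_add, mul_add, e3]
  linarith

/-- `lift` with `C = 1/√κ`: for a test function `f`, `x ↦ f (x/κ)` is a test function (`δ' = κ δ`), equal to `dl κ f`
(`dl_eq`), and each of the three terms of `norm_sq_V` is at most `κ⁻² · dl κ (term for f)`, pointwise on `(0,1)`
(`deriv_dil`, `1 - x/κ ≤ 1 - x`; for `x ≥ κ` all of `f, f', f''` vanish at `x/κ`); `integral_dl`. -/
theorem dil_exists (S : Sp) {κ : ℝ} (hκ : 0 < κ) (h1 : κ ≤ 1) : ∃ DH D, Dil S κ DH D := by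
  obtain ⟨DH, hDH⟩ := dilH_exists hκ h1
  have hsq : 0 < Real.sqrt κ := Real.sqrt_pos.2 hκ
  obtain ⟨D, hD1, hD2⟩ := lift S (DH.comp S.T.ι) (1 / Real.sqrt κ) (by
    intro u f hf hu
    obtain ⟨w, hw⟩ := exists_rep_test (ed_test hκ h1 hf)
    obtain ⟨hs, δ, hδ, hz⟩ := hf
    have hz0 : ∀ y, 1 - δ < y → f y = 0 := fun y hy => hz y fun h => absurd h.2 (not_lt.2 hy.le)
    have hz1 := ed_deriv_zero hz0
    have hz2 := ed_deriv_zero hz1
    refine ⟨w, ?_, ?_⟩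
    · refine ext_hv ?_
      have e1 : hv (S.T.ι w) =ᵐ[ν] fun x => f (x / κ) := (S.ι_eq w).trans hw.d.1
      have e2 : hv (DH (S.T.ι u)) =ᵐ[ν] dl κ f :=
        (hDH _).trans (dl_congr hκ ((S.ι_eq u).trans hu.d.1))
      have e3 : dl κ f = fun x => f (x / κ) :=
        funext (dl_eq hκ fun y hy => hz0 y (by linarith))
      rw [e3] at e2
      exact e1.trans e2.symm
    · have key : ‖w‖ ^ 2 ≤ κ⁻¹ * ‖u‖ ^ 2 := by
        rw [ed_norm hw, ed_norm hu, ed_deriv2, ed_deriv1]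
        have hI := integrable_dl hκ h1 (ed_int hu)
        have hJ := integral_dl hκ h1 (fun x => ((f x / (x * (1 - x) ^ 2)) ^ 2 +
          (deriv f x / (1 - x)) ^ 2 + (x * deriv (deriv f) x) ^ 2))
        refine le_trans (integral_mono_of_nonneg (Eventually.of_forall fun x => by positivity)
          (hI.const_mul (κ ^ 2)⁻¹) ?_) ?_
        · filter_upwards [ed_ae_mem] with x hx
          unfold dl
          split_ifs with hxκ
          · exact ed_pt hκ h1 hx.1 hxκ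
          · have hy : 1 - δ < x / κ := by
              have := (one_le_div hκ).2 (not_lt.1 hxκ)
              linarith
            simp only [hz0 _ hy, hz1 _ hy, hz2 _ hy]
            simp
        · rw [integral_const_mul, hJ, ← mul_assoc]
          refine le_of_eq ?_
          congr 1
          field_simp
      have e : (1 / Real.sqrt κ * ‖u‖) ^ 2 = κ⁻¹ * ‖u‖ ^ 2 := by
        rw [mul_pow, div_pow, Real.sq_sqrt hκ.le, one_pow, one_div]
      exact abs_le_of_sq_le_sq' (by rw [e]; exact key) (by positivity) |>.2)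
  refine ⟨DH, D, hκ, h1, hDH, fun u => hD1 u, fun u => ?_⟩
  have h2 : ‖D u‖ ^ 2 ≤ (1 / Real.sqrt κ * ‖u‖) ^ 2 := by
    gcongr
    exact hD2 u
  rw [mul_pow, div_pow, Real.sq_sqrt hκ.le, one_pow] at h2
  calc κ * ‖D u‖ ^ 2 ≤ κ * (1 / κ * ‖u‖ ^ 2) := by gcongr
    _ = ‖u‖ ^ 2 := by field_simp

/-- from `ι_eq`. -/
theorem Dil.d0_eq {S : Sp} {κ : ℝ} {DH : L2 →L[ℝ] L2} {D : VV →L[ℝ] VV} (hD : Dil S κ DH D) (u : VV) :
    d0 (D u) =ᵐ[ν] dl κ (d0 u) := by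
  have e1 := S.ι_eq (D u)
  rw [hD.hι] at e1
  exact e1.symm.trans ((hD.hH _).trans (dl_congr hD.pos (S.ι_eq u)))

/-- `ext_d0`, `mul_eq`, `ae_dl`. -/
theorem Dil.comm {S : Sp} {κ : ℝ} {DH : L2 →L[ℝ] L2} {D : VV →L[ℝ] VV} (hD : Dil S κ DH D)
    {q : ℝ → ℝ} {M : ℝ} (hq : Mult q M) {w w' : VV}
    (h : ∀ᵐ y ∂ν, q (κ * y) * d0 w y = d0 w' y) : S.mul q (D w) = D w' := by
  refine ext_d0 ?_
  filter_upwards [(S.mul_eq q M hq (D w)).1, hD.d0_eq w, hD.d0_eq w', ae_dl hD.pos h]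
    with x e1 e2 e3 e4
  rw [e1, e2, e3]
  unfold dl
  split_ifs with hx
  · have := e4 hx
    rwa [mul_div_cancel₀ _ hD.pos.ne'] at this
  · simp

/-- `P` on a class with a `C²` representative (`rep_of_d0`; near a point with `x/κ > 3/16` the function vanishes). -/
theorem Dil.rep_P {S : Sp} {κ : ℝ} {DH : L2 →L[ℝ] L2} {D : VV →L[ℝ] VV} (hD : Dil S κ DH D) (t : ℝ)
    {n : ℕ} {f : ℝ → ℝ} (hf : ContDiffOn ℝ n f (Ioo 0 1)) :
    ContDiffOn ℝ n (fun x => t * (chi (x / κ) * f (x / κ))) (Ioo 0 1) ∧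
    (2 ≤ n → ∀ u, Rep u f → Rep (opP S t D u) (fun x => t * (chi (x / κ) * f (x / κ)))) := by
  have hκ := hD.pos
  have hs : ContDiffOn ℝ n (fun x => t * (chi (x / κ) * f (x / κ))) (Ioo 0 1) := by
    intro x hx
    refine ContDiffAt.contDiffWithinAt ?_
    rcases lt_or_ge (x / κ) 1 with hy | hy
    · have hfa : ContDiffAt ℝ n f (x / κ) :=
        hf.contDiffAt (Ioo_mem_nhds (div_pos hx.1 hκ) hy)
      have hd : ContDiffAt ℝ n (fun x : ℝ => x / κ) x := contDiffAt_id.div_const κ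
      have hc : ContDiffAt ℝ n chi (x / κ) :=
        (chi_sm.of_le (by exact_mod_cast le_top)).contDiffAt
      exact contDiffAt_const.mul ((hc.comp x hd).mul (hfa.comp x hd))
    · refine (contDiffAt_const (c := (0 : ℝ))).congr_of_eventuallyEq ?_
      have hc : ContinuousAt (fun x : ℝ => x / κ) x := continuousAt_id.div_const κ
      filter_upwards [hc.eventually (Ioi_mem_nhds (show (3 / 16 : ℝ) < x / κ by linarith))]
        with y hy
      rw [chi_zero (le_of_lt hy)]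
      simp
  refine ⟨hs, fun hn u hu => rep_of_d0 (hs.of_le (by exact_mod_cast hn)) ?_⟩
  obtain ⟨N, hN⟩ := mult_sm chi_sm
  have e1 : d0 (S.mul chi u) =ᵐ[ν] fun x => chi x * f x := by
    filter_upwards [(S.mul_eq chi N hN u).1, hu.d.1] with x a b
    rw [a, b]
  have e2 : d0 (D (S.mul chi u)) =ᵐ[ν] dl κ fun x => chi x * f x :=
    (hD.d0_eq _).trans (dl_congr hκ e1)
  have e3 : opP S t D u = t • D (S.mul chi u) := rfl
  rw [e3]
  filter_upwards [(d_smul (D (S.mul chi u)) t).1, e2] with x a b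
  rw [a, b, dl_eq hκ fun y hy => by rw [chi_zero (by linarith), zero_mul]]

end Crest.Agent.R213.Eqv
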