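import Crest.Agent.R213.ISol

/-! # R213 / EqvDefs : definitions and plan for `equiv` (`IEqv.lean`; owner helper3).  DO NOT EDIT.

`κ = lam h = e^{-h/2}`, `t = e^{-3h/4}`, `y = x/κ`.  `D` is the dilation `(D u)(x) = 1_{x<κ} u(x/κ)` on `V` (`DH` on `H`);
no cut-off is needed since `1 - κ y ≥ 1 - y`.  `chi = 1` on `x ≤ 1/8`, `0` on `x ≥ 3/16`.
`x² (C0 (chi ξ))'' = chi2 · v + comb c h` (`kformula`), `comb c h` is a combination of `ξ, ξ', σ, σ'` with smooth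
coefficients supported in `J = [1/8, 3/16]`; `KH`, `KV` are the operators `h ↦ comb c h` on `H` and on `V`.
`P = t D chi`, `Q = (t/κ²) om D (chi2 + KV)`, `W s = e^{-s} t D g(s)² om KV` with `om = (1-x)²`.
Files: `EqvLift` (abstract tools), `EqvD` (dilation), `EqvC` (calculus of `comb`), `EqvK1, EqvK2, EqvK` (operator `K`),
`EqvS` (smallness), `EqvG, EqvI, EqvL` (the identities of `Tr`), `EqvT` (transformed solution), `EqvE` (estimate). -/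

set_option autoImplicit false

open MeasureTheory Set Filter Topology
open scoped ContDiff InnerProductSpace

noncomputable section

namespace Crest.Agent.R213.Eqv

def chi (x : ℝ) : ℝ := Real.smoothTransition (3 - 16 * x)
def chi2 (x : ℝ) : ℝ := chi x / (1 - x) ^ 2
def om (x : ℝ) : ℝ := (1 - x) ^ 2

/-- smooth coefficients supported in `J = [1/8, 3/16]`. -/
def Cf (c : ℝ → ℝ) : Prop := ContDiff ℝ ∞ c ∧ ∀ x, x ∉ Icc (1 / 8 : ℝ) (3 / 16) → c x = 0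

def comb (c : Fin 4 → ℝ → ℝ) (h : L2) (x : ℝ) : ℝ :=
  c 0 x * xi h x + c 1 x * deriv (xi h) x + c 2 x * sig h x + c 3 x * sig1 h x

/-- coefficients of the derivative of `comb c h` (up to the term `c 3 · ε`). -/
def dc (c : Fin 4 → ℝ → ℝ) : Fin 4 → ℝ → ℝ :=
  ![fun x => deriv (c 0) x - 72 * (c 1 x / x / x), fun x => c 0 x + deriv (c 1) x - 18 * (c 1 x / x),
    fun x => c 1 x + deriv (c 2) x, fun x => c 2 x + deriv (c 3) x]

def jet (f : ℝ → ℝ) (h : L2) (x : ℝ) : ℝ :=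
  f x ^ 2 + deriv f x ^ 2 + xi h x ^ 2 + deriv (xi h) x ^ 2 + sig h x ^ 2 + sig1 h x ^ 2

/-- dilation of functions on `(0,1)`. -/
def dl (κ : ℝ) (f : ℝ → ℝ) (x : ℝ) : ℝ := if x < κ then f (x / κ) else 0

/-- the dilation operators. -/
structure Dil (S : Sp) (κ : ℝ) (DH : L2 →L[ℝ] L2) (D : VV →L[ℝ] VV) : Prop where
  pos : 0 < κ
  le_one : κ ≤ 1
  hH : ∀ h, hv (DH h) =ᵐ[ν] dl κ (hv h)
  hι : ∀ u, S.T.ι (D u) = DH (S.T.ι u)
  le : ∀ u, κ * ‖D u‖ ^ 2 ≤ ‖u‖ ^ 2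

/-- the commutator operators. -/
structure Kop (S : Sp) (c : Fin 4 → ℝ → ℝ) (KH : L2 →L[ℝ] L2) (KV : VV →L[ℝ] VV) (C : ℝ) : Prop where
  cf : ∀ i, Cf (c i)
  pos : 0 < C
  hH : ∀ h, hv (KH h) =ᵐ[ν] comb c h
  hι : ∀ u, S.T.ι (KV u) = KH (S.T.ι u)
  le : ∀ u f, Test f → Rep u f →
    ‖KV u‖ ^ 2 ≤ C * ∫ x in Ioo (1 / 8 : ℝ) (3 / 16), jet f (S.T.ι u) x

/-- the commutator formula. -/
def KForm (c : Fin 4 → ℝ → ℝ) : Prop :=
  ∀ (h : L2) (f : ℝ → ℝ), ContDiffOn ℝ 2 f (Ioo 0 1) → hv h =ᵐ[ν] f → ∀ x ∈ Ioo (0 : ℝ) 1,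
    x ^ 2 * deriv (deriv (C0 fun y => chi y * xi h y)) x = chi2 x * f x + comb c h x

def opP (S : Sp) (t : ℝ) (D : VV →L[ℝ] VV) : VV →L[ℝ] VV := t • D.comp (S.mul chi)
def opQ (S : Sp) (κ t : ℝ) (D KV : VV →L[ℝ] VV) : VV →L[ℝ] VV :=
  (t / κ ^ 2) • (S.mul om).comp (D.comp (S.mul chi2 + KV))
def opQH (S : Sp) (κ t : ℝ) (DH KH : L2 →L[ℝ] L2) : L2 →L[ℝ] L2 :=
  (t / κ ^ 2) • (S.mulH om).comp (DH.comp (S.mulH chi2 + KH))
def opW (S : Sp) (A : Apx) (t : ℝ) (D KV : VV →L[ℝ] VV) (s : ℝ) : VV →L[ℝ] VV :=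
  (Real.exp (-s) * t) • D.comp ((S.mul fun x => A.g s x ^ 2).comp ((S.mul om).comp KV))

/-- the transfer data for the time shift `h`. -/
structure Tr {S : Sp} {A : Apx} {N : Anc} (B : Fb S A N) (δ C h : ℝ) (P Q : VV →L[ℝ] VV)
    (QH : L2 →L[ℝ] L2) (W : ℝ → VV →L[ℝ] VV) : Prop where
  ιQ : ∀ u, S.T.ι (Q u) = QH (S.T.ι u)
  GQ : ∀ k, S.T.G (QH k) = P (S.T.G k)
  Pf : ∀ i s, B.sst ≤ s → P (B.f i s) = B.f i (s + h)
  LP : ∀ i s, B.sst ≤ s → ∀ u, B.L i (s + h) (P u) = B.L i s u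
  lin : ∀ s u k, P (lin0 S A s u k) = lin0 S A (s + h) (Q u) (QH k) + W s u
  Wc : Continuous W
  Wle : ∀ s, B.sst ≤ s → ∀ u, Real.exp (s + h) * ‖S.mul (wh (s + h)) (W s u)‖ ^ 2 ≤
    Real.exp (-s) * (δ * ‖S.mul (wh s) u‖ ^ 2 + C * N.En s (S.T.ι u))

theorem chi_sm : ContDiff ℝ ∞ chi :=
  Real.smoothTransition.contDiff.comp (contDiff_const.sub (contDiff_const.mul contDiff_id))

theorem chi_one {x : ℝ} (hx : x ≤ 1 / 8) : chi x = 1 :=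
  Real.smoothTransition.one_of_one_le (by linarith)

theorem chi_zero {x : ℝ} (hx : 3 / 16 ≤ x) : chi x = 0 :=
  Real.smoothTransition.zero_of_nonpos (by linarith)

theorem chi2_zero {x : ℝ} (hx : 3 / 16 ≤ x) : chi2 x = 0 := by
  rw [chi2, chi_zero hx, zero_div]

theorem chi2_sm : ContDiff ℝ ∞ chi2 := by
  refine contDiff_iff_contDiffAt.2 fun x => ?_
  rcases lt_or_ge x (1 / 2) with hx | hx
  · exact chi_sm.contDiffAt.div ((contDiffAt_const.sub contDiffAt_id).pow 2)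
      (pow_ne_zero 2 (by linarith [show (0 : ℝ) < 1 - x by linarith] : (1 : ℝ) - x ≠ 0))
  · refine (contDiffAt_const (c := (0 : ℝ))).congr_of_eventuallyEq ?_
    filter_upwards [Ioi_mem_nhds (show (3 / 16 : ℝ) < x by linarith)] with y hy
    exact chi2_zero (le_of_lt hy)

theorem om_sm : ContDiff ℝ ∞ om := (contDiff_const.sub contDiff_id).pow 2

theorem mult_sm {p : ℝ → ℝ} (hp : ContDiff ℝ ∞ p) : ∃ N, Mult p N :=
  mult_of_contDiff (hp.of_le (WithTop.coe_le_coe.2 (le_top : (2 : ℕ∞) ≤ ⊤)))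

theorem comb_zero {c : Fin 4 → ℝ → ℝ} (hc : ∀ i, Cf (c i)) (h : L2) {x : ℝ}
    (hx : x ∉ Icc (1 / 8 : ℝ) (3 / 16)) : comb c h x = 0 := by
  simp only [comb, (hc _).2 x hx, zero_mul, add_zero]

theorem dl_eq {κ : ℝ} (hκ : 0 < κ) {f : ℝ → ℝ} (hf : ∀ y, 1 ≤ y → f y = 0) (x : ℝ) :
    dl κ f x = f (x / κ) := by
  unfold dl
  split_ifs with hx
  · rfl
  · exact (hf _ ((one_le_div hκ).2 (not_lt.1 hx))).symm

theorem lam_add (s h : ℝ) : lam (s + h) = lam h * lam s := by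
  rw [lam, lam, lam, ← Real.exp_add]; congr 1; ring

theorem lam_pos (s : ℝ) : 0 < lam s := Real.exp_pos _

theorem lam_le_one {h : ℝ} (hh : 0 ≤ h) : lam h ≤ 1 :=
  Real.exp_le_one_iff.2 (by linarith)

theorem lam_R {S : Sp} {A : Apx} {N : Anc} (B : Fb S A N) {s : ℝ} (hs : B.sst ≤ s) :
    lam s * B.R ≤ 1 / 16 :=
  le_trans (mul_le_mul_of_nonneg_right (Real.exp_le_exp.2 (by linarith)) B.R_pos.le) B.R_small

end Crest.Agent.R213.Eqv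

end
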