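import Crest.Agent.R213.EqvC

/-! # R213 / EqvF : the commutator formula (aux prefix `ef_`) -/

set_option autoImplicit false

open MeasureTheory Set Filter Topology
open scoped ContDiff InnerProductSpace

namespace Crest.Agent.R213.Eqv

theorem ef_zero : Cf fun _ => (0 : ℝ) := ⟨contDiff_const, fun _ _ => rfl⟩

theorem ef_deriv {F G : ℝ → ℝ} {d x : ℝ} (hx : x ∈ Ioo (0 : ℝ) 1) (h : ∀ y ∈ Ioo (0 : ℝ) 1, F y = G y)
    (hd : HasDerivAt G d x) : deriv F x = d := by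
  have e : F =ᶠ[𝓝 x] G := by
    filter_upwards [isOpen_Ioo.mem_nhds hx] with y hy using h y hy
  rw [e.deriv_eq, hd.deriv]

theorem ef_sig1 {h : L2} {f : ℝ → ℝ} (hf : ContDiffOn ℝ 2 f (Ioo 0 1)) (he : hv h =ᵐ[ν] f) {x : ℝ}
    (hx : x ∈ Ioo (0 : ℝ) 1) : HasDerivAt (sig1 h) (f x / (x * (1 - x)) ^ 2) x := by
  obtain ⟨h1, -, h3⟩ := sig_reg h (n := 2) (by exact_mod_cast hf) he
  have h4 : ContDiffOn ℝ 1 (deriv (sig h)) (Ioo 0 1) :=
    h1.deriv_of_isOpen isOpen_Ioo (by norm_num)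
  have h5 : HasDerivAt (deriv (sig h)) (deriv (deriv (sig h)) x) x :=
    ((h4.contDiffAt (isOpen_Ioo.mem_nhds hx)).differentiableAt (by simp)).hasDerivAt
  rw [h3 x hx] at h5
  refine h5.congr_of_eventuallyEq ?_
  filter_upwards [isOpen_Ioo.mem_nhds hx] with y hy using (hasDerivAt_sig h hy).deriv.symm

noncomputable def ef_a : Fin 4 → ℝ → ℝ :=
  ![fun x => deriv (deriv chi) x + 18 * (deriv chi x / x), fun x => 2 * deriv chi x, fun _ => 0, fun _ => 0]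
/-- add `deriv chi` to the coefficient number `k`. -/
noncomputable def ef_up (c : Fin 4 → ℝ → ℝ) (k : Fin 4) : Fin 4 → ℝ → ℝ :=
  fun i x => dc c i x + if i = k then deriv chi x else 0
noncomputable def ef_b : Fin 4 → ℝ → ℝ := ef_up ef_a 2
noncomputable def ef_c : Fin 4 → ℝ → ℝ := ef_up ef_b 3

theorem ef_cfup {c : Fin 4 → ℝ → ℝ} (hc : ∀ i, Cf (c i)) (k i : Fin 4) : Cf (ef_up c k i) := by
  refine (cf_dc hc i).add ?_
  by_cases h : i = k
  · simp only [h, if_true]; exact cf_deriv_chi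
  · simp only [h, if_false]; exact ef_zero

theorem ef_cfa (i : Fin 4) : Cf (ef_a i) := by
  fin_cases i
  · exact cf_deriv_chi.der.add (cf_deriv_chi.div_id.mul (p := fun _ => 18) contDiff_const)
  · exact cf_deriv_chi.mul (p := fun _ => 2) contDiff_const
  · exact ef_zero
  · exact ef_zero

theorem ef_cfb (i : Fin 4) : Cf (ef_b i) := ef_cfup ef_cfa 2 i

theorem ef_cfc (i : Fin 4) : Cf (ef_c i) := ef_cfup ef_cfb 3 i

theorem ef_dc3 (c : Fin 4 → ℝ → ℝ) (x : ℝ) : dc c 3 x = c 2 x + deriv (c 3) x := rfl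

theorem ef_b3 (x : ℝ) : ef_b 3 x = 0 := by
  have e3 : ef_a 2 = fun _ => 0 := rfl
  have e4 : ef_a 3 = fun _ => 0 := rfl
  simp only [ef_b, ef_up, ef_dc3, e3, e4]
  simp

theorem ef_comb_b (h : L2) (y : ℝ) : comb ef_b h y = comb (dc ef_a) h y + deriv chi y * sig h y := by
  simp only [comb, ef_b, ef_up]
  simp
  ring

theorem ef_comb_c (h : L2) (y : ℝ) : comb (fun i x => x ^ 2 * ef_c i x) h y =
    y ^ 2 * (comb (dc ef_b) h y + deriv chi y * sig1 h y) := by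
  simp only [comb, ef_c, ef_up]
  simp
  ring

theorem ef_chi1 (x : ℝ) : HasDerivAt chi (deriv chi x) x :=
  (chi_sm.differentiable (by simp) x).hasDerivAt

theorem ef_chi2 (x : ℝ) : HasDerivAt (deriv chi) (deriv (deriv chi) x) x :=
  (cf_deriv_chi.1.differentiable (by simp) x).hasDerivAt

theorem ef_step0 (h : L2) {x : ℝ} (hx : x ∈ Ioo (0 : ℝ) 1) :
    C0 (fun y => chi y * xi h y) x = chi x * sig h x + comb ef_a h x := by
  have h3 := xi_contDiffOn h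
  have x1 : ∀ y ∈ Ioo (0 : ℝ) 1, HasDerivAt (xi h) (deriv (xi h) y) y := fun y hy =>
    ((h3.contDiffAt (isOpen_Ioo.mem_nhds hy)).differentiableAt (by simp)).hasDerivAt
  have h4 : ContDiffOn ℝ 1 (deriv (xi h)) (Ioo 0 1) :=
    h3.deriv_of_isOpen isOpen_Ioo (by norm_num)
  have x2 : HasDerivAt (deriv (xi h)) (deriv (deriv (xi h)) x) x :=
    ((h4.contDiffAt (isOpen_Ioo.mem_nhds hx)).differentiableAt (by simp)).hasDerivAt
  have d1 : ∀ y ∈ Ioo (0 : ℝ) 1, deriv (fun y => chi y * xi h y) y =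
      deriv chi y * xi h y + chi y * deriv (xi h) y := fun y hy =>
    ((ef_chi1 y).fun_mul (x1 y hy)).deriv
  have d2 := ef_deriv hx d1 (((ef_chi2 x).fun_mul (x1 x hx)).fun_add ((ef_chi1 x).fun_mul x2))
  rw [← C0_xi h hx]
  simp only [C0]
  rw [d2, d1 x hx]
  show _ = _ + ((deriv (deriv chi) x + 18 * (deriv chi x / x)) * xi h x +
    2 * deriv chi x * deriv (xi h) x + 0 * sig h x + 0 * sig1 h x)
  ring

/-- On `(0,1)`, with `e = f/φ0²`: `C0 (χ ξ) = χ σ + comb a h`, `a = ![χ'' + 18χ'/x, 2χ', 0, 0]`;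
derivative `χ σ' + comb a' h`, `a' = dc a + ![0,0,χ',0]` (`a 3 = 0`); second derivative `χ e + comb a'' h`,
`a'' = dc a' + ![0,0,0,χ']` (`a' 3 = 0`); `c i x = x² a'' i x`. -/
theorem kformula : ∃ c : Fin 4 → ℝ → ℝ, (∀ i, Cf (c i)) ∧ KForm c := by
  refine ⟨fun i x => x ^ 2 * ef_c i x, fun i => (ef_cfc i).mul (contDiff_id.pow 2), ?_⟩
  intro h f hf he x hx
  have d1 : ∀ y ∈ Ioo (0 : ℝ) 1, deriv (C0 fun y => chi y * xi h y) y =
      chi y * sig1 h y + comb ef_b h y := by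
    intro y hy
    rw [ef_deriv hy (fun z hz => ef_step0 h hz) (((ef_chi1 y).fun_mul (hasDerivAt_sig h hy)).fun_add
      (comb_hasDerivAt ef_cfa hf he hy))]
    have e4 : ef_a 3 = fun _ => 0 := rfl
    rw [ef_comb_b, e4]
    ring
  rw [ef_deriv hx d1 (((ef_chi1 x).fun_mul (ef_sig1 hf he hx)).fun_add (comb_hasDerivAt ef_cfb hf he hx)),
    ef_b3, ef_comb_c]
  have h0 : x ≠ 0 := hx.1.ne'
  have h1 : 1 - x ≠ 0 := (sub_pos.2 hx.2).ne'
  simp only [chi2]
  field_simp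
  ring

end Crest.Agent.R213.Eqv
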