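import Crest.Agent.R213.EqvD

/-! # R213 / EqvI : the feedback is equivariant (aux prefix `ei_`) -/

set_option autoImplicit false

open MeasureTheory Set Filter Topology
open scoped ContDiff InnerProductSpace

namespace Crest.Agent.R213.Eqv

variable {S : Sp} {A : Apx} {N : Anc} {DH : L2 →L[ℝ] L2} {D : VV →L[ℝ] VV} {h : ℝ}

theorem ei_R (B : Fb S A N) {s : ℝ} (hs : B.sst ≤ s) {y : ℝ} (hy : 1 / 16 ≤ y) : B.R ≤ y / lam s := by
  rw [le_div_iff₀ (lam_pos s), mul_comm]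
  exact (lam_R B hs).trans hy

theorem ei_C0 {u : VV} {f : ℝ → ℝ} (hu : Rep u f) (ψ : ℝ → ℝ) :
    ∫ x in Ioo (0 : ℝ) 1, (d2 u x + 18 * d1 u x / x + 72 * d0 u x / x ^ 2) * ψ x =
      ∫ x in Ioo (0 : ℝ) 1, C0 f x * ψ x := by
  refine integral_congr_ae ?_
  filter_upwards [hu.d.1, hu.d.2.1, hu.d.2.2] with x h0 h1 h2
  rw [h0, h1, h2, C0]

theorem ei_chi (f : ℝ → ℝ) {y : ℝ} (hy : y < 1 / 8) : C0 (fun y => chi y * f y) y = C0 f y := by
  have h : (fun y => chi y * f y) =ᶠ[𝓝 y] f := by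
    filter_upwards [Iio_mem_nhds hy] with z hz
    rw [chi_one (le_of_lt hz), one_mul]
  unfold C0
  rw [h.deriv.deriv_eq, h.deriv_eq]
  simp only [chi_one hy.le, one_mul]

/-- `ext_d0`, `f_rep`, `Dil.rep_P`, `lam_add`; if `y = x/κ > 1/8` then `y / lam s ≥ R` (`lam_R`), so `F = 0`. -/
theorem Pf_eq (B : Fb S A N) (hh : 0 ≤ h) (hD : Dil S (lam h) DH D) (i : Fin B.m) {s : ℝ}
    (hs : B.sst ≤ s) : opP S (Real.exp (-(3 * h / 4))) D (B.f i s) = B.f i (s + h) := by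
  have hf : ContDiffOn ℝ (2 : ℕ) (fun x => Real.exp (-(3 * s / 4)) * B.F i (x / lam s)) (Ioo 0 1) :=
    (contDiff_const.mul (((B.smF i).of_le (WithTop.coe_le_coe.2 (le_top : (2 : ℕ∞) ≤ ⊤))).comp
      (contDiff_id.div_const _))).contDiffOn
  have h1 := (hD.rep_P (Real.exp (-(3 * h / 4))) hf).2 le_rfl _ (B.f_rep i s hs)
  have h2 := B.f_rep i (s + h) (by linarith)
  refine ext_d0 (h1.d.1.trans (EventuallyEq.trans (Eventually.of_forall fun x => ?_) h2.d.1.symm))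
  have e1 : Real.exp (-(3 * (s + h) / 4)) = Real.exp (-(3 * h / 4)) * Real.exp (-(3 * s / 4)) := by
    rw [← Real.exp_add]
    congr 1
    ring
  simp only [lam_add, ← div_div, e1]
  rcases le_or_gt (x / lam h) (1 / 8) with hx | hx
  · rw [chi_one hx]
    ring
  · rw [B.F_supp i _ (ei_R B hs (by linarith))]
    ring

/-- `V_ind`; for `Rep u f`: `L_eq`, `Dil.rep_P`, `Rep.d`, the integrand is `C0 f̃ x · Ψ (x/lam (s+h))`; `C0_dil`;
`integral_dl` and `dl_eq` for `F y = C0 (chi f) y · Ψ (y/lam s)`, which equals `C0 f y · Ψ (y / lam s)`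
(`chi f = f` near `y < 1/8`, `Ψ (y/lam s) = 0` for `y ≥ 1/16`); `e^{h/4} t/κ = 1`. -/
theorem LP_eq (B : Fb S A N) (hD : Dil S (lam h) DH D) (i : Fin B.m) {s : ℝ}
    (hs : B.sst ≤ s) (u : VV) :
    B.L i (s + h) (opP S (Real.exp (-(3 * h / 4))) D u) = B.L i s u := by
  refine V_ind (P := fun u => B.L i (s + h) (opP S (Real.exp (-(3 * h / 4))) D u) = B.L i s u)
    (isClosed_eq ((B.L i (s + h)).continuous.comp (opP S _ D).continuous) (B.L i s).continuous)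
    (fun u f hf hu => ?_) u
  have h1 := (hD.rep_P (Real.exp (-(3 * h / 4))) (n := 2) hf.1.contDiffOn).2 le_rfl _ hu
  have h0 : ∀ y : ℝ, 1 / 16 ≤ y → B.Ψ i (y / lam s) = 0 := fun y hy =>
    B.Ψ_supp i _ fun hm => absurd hm.2 (not_lt.2 (ei_R B hs hy))
  have h2 : ∀ x, C0 (fun x => Real.exp (-(3 * h / 4)) * (chi (x / lam h) * f (x / lam h))) x *
      B.Ψ i (x / lam (s + h)) = Real.exp (-(3 * h / 4)) / lam h ^ 2 *
        dl (lam h) (fun y => C0 f y * B.Ψ i (y / lam s)) x := fun x => by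
    rw [C0_dil hD.pos.ne' _ fun y => chi y * f y,
      dl_eq hD.pos (fun y hy => by rw [h0 y (by linarith), mul_zero]), lam_add, ← div_div]
    rcases lt_or_ge (x / lam h) (1 / 8) with hx | hx
    · simp only [ei_chi f hx, mul_assoc]
    · simp only [h0 _ (show 1 / 16 ≤ x / lam h by linarith), mul_zero]
  rw [B.L_eq, B.L_eq, ei_C0 h1, ei_C0 hu]
  simp only [h2]
  rw [integral_const_mul, integral_dl hD.pos hD.le_one, ← mul_assoc, ← mul_assoc]
  congr 1
  have e1 : Real.exp ((s + h) / 4) * Real.exp (-(3 * h / 4)) = Real.exp (s / 4) * lam h := by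
    rw [lam, ← Real.exp_add, ← Real.exp_add]
    congr 1
    ring
  have := hD.pos.ne'
  rw [← mul_div_assoc, e1]
  field_simp

end Crest.Agent.R213.Eqv
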