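import Crest.Agent.R213.EqvDefs

/-! # R213 / EqvLift : abstract tools (aux prefix `el_`) -/

set_option autoImplicit false

open MeasureTheory Set Filter Topology
open scoped ContDiff InnerProductSpace

namespace Crest.Agent.R213.Eqv

/-- **Lifting to `V`.**  The classes of test functions form a dense submodule `T` of `V` (`Test` is closed under sums and
scalar multiples, `d_add_smul`, `Rep.d`, `rep_of_d`; density from `V_ind` with `P u = u ∈ closure T`).  On `T` choose `w`;
the choice is linear since `ι` is injective; extend (`LinearMap.mkContinuous`, `ContinuousLinearMap.extend` along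
`T.subtypeL`, or `LinearMap.extendOfNorm`); both conclusions are closed conditions (`V_ind`). -/
theorem lift (S : Sp) (A : VV →L[ℝ] L2) (C : ℝ)
    (h : ∀ u f, Test f → Rep u f → ∃ w : VV, S.T.ι w = A u ∧ ‖w‖ ≤ C * ‖u‖) :
    ∃ B : VV →L[ℝ] VV, (∀ u, S.T.ι (B u) = A u) ∧ ∀ u, ‖B u‖ ≤ C * ‖u‖ := by
  have key : ∀ u : VV, ∃ w : VV, S.T.ι w = A u ∧ ‖w‖ ≤ C * ‖u‖ := by
    intro u
    have hu : u ∈ closure {u : VV | ∃ f, Test f ∧ Rep u f} :=
      V_ind (P := fun u => u ∈ closure {u : VV | ∃ f, Test f ∧ Rep u f}) isClosed_closure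
        (fun u f hf hr => subset_closure ⟨f, hf, hr⟩) u
    obtain ⟨x, hx, hl⟩ := mem_closure_iff_seq_limit.1 hu
    choose f hf hr using hx
    choose w hw hle using fun n => h (x n) (f n) (hf n) (hr n)
    have hd : ∀ n m, dist (w n) (w m) ≤ C * dist (x n) (x m) := by
      intro n m
      have ht : Test fun y => f n y + (-1) * f m y := VA.test_add (hf n) (VA.test_smul (hf m) (-1))
      have hr' : Rep (x n - x m) fun y => f n y + (-1) * f m y := by
        refine rep_of_d0 ht.1.contDiffOn ?_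
        filter_upwards [(d_sub (x n) (x m)).1, (hr n).d.1, (hr m).d.1] with y a b c
        rw [a, b, c]; ring
      obtain ⟨w', h1, h2⟩ := h _ _ ht hr'
      have e : w' = w n - w m := S.T.inj (by rw [h1, map_sub, map_sub, hw, hw])
      rw [dist_eq_norm, dist_eq_norm, ← e]
      exact h2
    have hc : CauchySeq w := by
      rw [cauchySeq_iff_tendsto_dist_atTop_0]
      refine squeeze_zero (fun _ => dist_nonneg) (fun p => hd p.1 p.2) ?_
      simpa using (cauchySeq_iff_tendsto_dist_atTop_0.1 hl.cauchySeq).const_mul C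
    obtain ⟨w0, hw0⟩ := cauchySeq_tendsto_of_complete hc
    refine ⟨w0, ?_, le_of_tendsto_of_tendsto' hw0.norm (hl.norm.const_mul C) hle⟩
    refine tendsto_nhds_unique ((S.T.ι.continuous.tendsto w0).comp hw0) ?_
    exact ((A.continuous.tendsto u).comp hl).congr fun n => (hw n).symm
  choose B hB hle using key
  let L : VV →ₗ[ℝ] VV :=
    { toFun := B
      map_add' := fun u v => S.T.inj (by rw [map_add, hB, hB, hB, map_add])
      map_smul' := fun t u => S.T.inj (by rw [map_smul, hB, hB, map_smul]; rfl) }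
  exact ⟨L.mkContinuous C hle, hB, hle⟩

/-- an element of `H` is determined by `hv`. -/
theorem ext_hv {h k : L2} (e : hv h =ᵐ[ν] hv k) : h = k := by
  refine Lp.ext ?_
  filter_upwards [e, ae_restrict_mem measurableSet_Ioo] with x hx hm
  exact mul_left_cancel₀ (sub_pos.2 hm.2).ne' hx

/-- `∫ (wh h)² = ‖mulH (wh s) h‖²` (or directly), and `al j s` is linear (`sig_lin`, `sig_moments`) and bounded
(`sig_bd`; `ψ j (x/λ) = 0` for `x ≤ λ`, `ψ j` is bounded). -/
theorem En_cont (S : Sp) (N : Anc) (s : ℝ) : Continuous (N.En s) := by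
  have al : ∀ j, Continuous (N.al j s) := by
    intro j
    obtain ⟨C, hC, hb, hd⟩ := sig_sub_le
    have hψc : Continuous (N.ψ j) := (N.sm j).continuous
    obtain ⟨K, hK⟩ : ∃ K, ∀ y, ‖N.ψ j y‖ ≤ K := by
      refine hψc.bounded_above_of_compact_support
        (HasCompactSupport.intro (isCompact_Icc (a := (1 : ℝ)) (b := 2)) fun y hy => ?_)
      exact N.supp j y fun h => hy (Ioo_subset_Icc_self h)
    unfold Anc.al
    refine Continuous.div_const ?_ _
    rw [continuous_iff_continuousAt]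
    intro h0
    refine continuousAt_of_dominated
      (bound := fun x => C * (‖h0‖ + 1) * x ^ (-(1 / 2 : ℝ)) * K) ?_ ?_ ?_ ?_
    · refine Eventually.of_forall fun h => ?_
      have h1 : ContinuousOn (sig h) (Ioo 0 1) := fun x hx =>
        (hasDerivAt_sig h hx).continuousAt.continuousWithinAt
      exact (h1.aestronglyMeasurable measurableSet_Ioo).mul
        (hψc.comp (continuous_id.div_const _)).aestronglyMeasurable
    · have h1 : ∀ᶠ h in 𝓝 h0, ‖h‖ < ‖h0‖ + 1 :=
        continuous_norm.continuousAt.eventually (gt_mem_nhds (lt_add_one _))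
      filter_upwards [h1] with h hs
      filter_upwards [ae_restrict_mem measurableSet_Ioo] with x hx
      rw [norm_mul, Real.norm_eq_abs]
      have h2 : 0 ≤ x ^ (-(1 / 2 : ℝ)) := Real.rpow_nonneg hx.1.le _
      have h3 : |sig h x| ≤ C * (‖h0‖ + 1) * x ^ (-(1 / 2 : ℝ)) :=
        (hb _ x hx).trans (by gcongr)
      exact mul_le_mul h3 (hK _) (norm_nonneg _) (by positivity)
    · have h1 := (intervalIntegral.intervalIntegrable_rpow' (r := -(1 / 2 : ℝ)) (a := 0) (b := 1)
        (by norm_num)).1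
      exact ((h1.mono_set Ioo_subset_Ioc_self).const_mul _).mul_const _
    · filter_upwards [ae_restrict_mem measurableSet_Ioo] with x hx
      refine ContinuousAt.mul ?_ continuousAt_const
      rw [ContinuousAt, tendsto_iff_norm_sub_tendsto_zero]
      refine squeeze_zero (fun _ => norm_nonneg _) (fun h => hd h h0 x hx) ?_
      have h1 : Continuous fun h : L2 => C * ‖h - h0‖ * x ^ (-(1 / 2 : ℝ)) := by fun_prop
      simpa using h1.tendsto h0
  unfold Anc.En
  simp only [EH_eq S]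
  exact ((S.mulH (wh s)).continuous.norm.pow 2).add
    (continuous_const.mul (((al 0).pow 2).add ((al 1).pow 2)))

theorem En_nonneg (N : Anc) (s : ℝ) (h : L2) : 0 ≤ N.En s h := by
  exact En_nonneg' N s h

/-- `sig 0 = 0` on `(0,1)` (`sig_bd`). -/
theorem En_zero (N : Anc) (s : ℝ) : N.En s 0 = 0 := by
  obtain ⟨C, -, hb, -⟩ := sig_sub_le
  have al : ∀ j, N.al j s 0 = 0 := by
    intro j
    unfold Anc.al
    rw [setIntegral_eq_zero_of_forall_eq_zero, zero_div]
    intro x hx
    have := hb 0 x hx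
    rw [norm_zero, mul_zero, zero_mul, abs_nonpos_iff] at this
    rw [this, zero_mul]
  have e : ∫ x in Ioo (0 : ℝ) 1, (wh s x * (0 : L2) x) ^ 2 = 0 := by
    refine integral_eq_zero_of_ae ?_
    filter_upwards [Lp.coeFn_zero ℝ 2 ν] with x hx
    rw [hx]; simp
  unfold Anc.En
  rw [e, al, al]; simp

/-- `ε s = inf_{δ > 0} (δ + C δ e^{-s})`. -/
theorem eps_exists (C : ℝ → ℝ) (hC : ∀ δ, 0 < δ → 0 ≤ C δ) : ∃ ε : ℝ → ℝ, Tendsto ε atTop (𝓝 0) ∧
    ∀ s a I : ℝ, 0 ≤ I → (∀ δ, 0 < δ → a ≤ (δ + C δ * Real.exp (-s)) * I) → a ≤ ε s * I := by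
  have hn : ∀ s, ∀ δ : Ioi (0 : ℝ), 0 ≤ (δ : ℝ) + C δ * Real.exp (-s) := fun s δ =>
    add_nonneg (le_of_lt δ.2) (mul_nonneg (hC δ δ.2) (Real.exp_pos _).le)
  refine ⟨fun s => ⨅ δ : Ioi (0 : ℝ), ((δ : ℝ) + C δ * Real.exp (-s)), ?_, fun s a I hI ha => ?_⟩
  · rw [tendsto_order]
    refine ⟨fun b hb => Eventually.of_forall fun s => hb.trans_le (Real.iInf_nonneg (hn s)),
      fun b hb => ?_⟩
    have t : Tendsto (fun s : ℝ => C (b / 2) * Real.exp (-s)) atTop (𝓝 (C (b / 2) * 0)) :=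
      Real.tendsto_exp_neg_atTop_nhds_zero.const_mul _
    rw [mul_zero] at t
    filter_upwards [t.eventually_lt_const (half_pos hb)] with s hs
    have := ciInf_le (f := fun δ : Ioi (0 : ℝ) => (δ : ℝ) + C δ * Real.exp (-s))
      ⟨0, fun _ ⟨δ, hδ⟩ => hδ ▸ hn s δ⟩ ⟨b / 2, half_pos hb⟩
    exact this.trans_lt (by simp only; linarith)
  · rcases hI.eq_or_lt with h0 | h0
    · have := ha 1 one_pos
      rw [← h0, mul_zero] at this ⊢
      exact this
    · rw [← div_le_iff₀ h0]
      exact le_ciInf fun δ => (div_le_iff₀ h0).2 (ha δ δ.2)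

/-- a bounded operator on `H` from a pointwise formula. -/
theorem el_mkL2 (F : L2 → ℝ → ℝ) {C : ℝ} (hC : 0 ≤ C) (hm : ∀ h, AEStronglyMeasurable (F h) ν)
    (hb : ∀ h, ∃ G : ℝ → ℝ, Integrable G ν ∧ (∀ᵐ x ∂ν, F h x ^ 2 ≤ G x) ∧
      ∫ x in Ioo (0 : ℝ) 1, G x ≤ (C * ‖h‖) ^ 2)
    (hl : ∀ h k t, F (h + t • k) =ᵐ[ν] fun x => F h x + t * F k x) :
    ∃ K : L2 →L[ℝ] L2, ∀ h, K h =ᵐ[ν] F h := by
  have hi : ∀ h, Integrable (fun x => F h x ^ 2) ν := by
    intro h
    obtain ⟨G, hG, h1, -⟩ := hb h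
    refine hG.mono' ((hm h).pow 2) ?_
    filter_upwards [h1] with x hx
    rwa [Real.norm_of_nonneg (sq_nonneg _)]
  have hp : ∀ h, MemLp (F h) 2 ν := fun h => (memLp_two_iff_integrable_sq (hm h)).2 (hi h)
  have hn : ∀ h, ‖(hp h).toLp _‖ ≤ C * ‖h‖ := by
    intro h
    obtain ⟨G, hG, h1, h2⟩ := hb h
    refine (pow_le_pow_iff_left₀ (norm_nonneg _) (by positivity) two_ne_zero).1 ?_
    rw [norm_sq_H]
    refine le_trans (integral_mono_ae (Lp.memLp _).integrable_sq hG ?_) h2
    filter_upwards [h1, (hp h).coeFn_toLp] with x a b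
    rw [b]; exact a
  have hl' : ∀ h k (t : ℝ), (hp (h + t • k)).toLp _ = (hp h).toLp _ + t • (hp k).toLp _ := by
    intro h k t
    refine Lp.ext ?_
    filter_upwards [(hp (h + t • k)).coeFn_toLp, (hp h).coeFn_toLp, (hp k).coeFn_toLp, hl h k t,
      Lp.coeFn_add ((hp h).toLp _) (t • (hp k).toLp _), Lp.coeFn_smul t ((hp k).toLp _)]
      with x a b c d e f
    rw [a, e, Pi.add_apply, f, Pi.smul_apply, b, c, d, smul_eq_mul]
  have h0 : (hp 0).toLp _ = 0 := norm_le_zero_iff.1 (by simpa using hn 0)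
  let L : L2 →ₗ[ℝ] L2 :=
    { toFun := fun h => (hp h).toLp _
      map_add' := fun h k => by simpa using hl' h k 1
      map_smul' := fun t k => by simpa [h0] using hl' 0 k t }
  exact ⟨L.mkContinuous C hn, fun h => (hp h).coeFn_toLp⟩

end Crest.Agent.R213.Eqv
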