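import Crest.Agent.R213.EqvK2
import Crest.Agent.R213.EqvLift

/-! # R213 / EqvS1 : the jet on `J` is small (aux prefix `es1_`) -/

set_option autoImplicit false

open MeasureTheory Set Filter Topology
open scoped ContDiff InnerProductSpace

namespace Crest.Agent.R213.Eqv

theorem es1_tau {s x : ℝ} (hs : 0 ≤ s) (hx0 : 0 ≤ x) (hx1 : x ≤ 1) :
    Real.exp (-s) ≤ 2 * wh s x := by
  have hE : 1 ≤ Real.exp s := Real.one_le_exp hs
  have hx2 : x ^ 2 ≤ 1 := by nlinarith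
  have hd : 0 < 1 + x ^ 2 * Real.exp s := IneqC.wh_den_pos s x
  have h1 : x ^ 2 * Real.exp s ≤ Real.exp s := by nlinarith [Real.exp_pos s]
  rw [Real.exp_neg, wh, mul_one_div, inv_eq_one_div, div_le_div_iff₀ (Real.exp_pos s) hd]
  linarith

theorem es1_tau_sq {s x : ℝ} (hs : 0 ≤ s) (hx0 : 0 ≤ x) (hx1 : x ≤ 1) :
    Real.exp (-s) ^ 2 ≤ 4 * wh s x ^ 2 := by
  have h := es1_tau hs hx0 hx1
  have h0 := (Real.exp_pos (-s)).le
  nlinarith

theorem es1_EH_int (s : ℝ) (h : L2) : Integrable (fun x => (wh s x * h x) ^ 2) ν := by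
  have h1 : MemLp (fun x => wh s x * h x) 2 ν := by
    refine (Lp.memLp h).of_le
      ((IneqC.wh_cont s).aestronglyMeasurable.mul (Lp.aestronglyMeasurable h))
      (Eventually.of_forall fun x => ?_)
    rw [norm_mul, Real.norm_of_nonneg (IneqC.wh_pos s x).le]
    exact mul_le_of_le_one_left (norm_nonneg _) (IneqC.wh_le_one s x)
  exact h1.integrable_sq

theorem es1_A_int (w : VV) : Integrable (fun x => (x / (x + 1) * d1 w x) ^ 2) ν := by
  have h1 : MemLp (fun x => x / (x + 1) * d1 w x) 2 ν := by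
    refine (d_memLp w).2.1.of_le
      ((by fun_prop : Measurable fun x : ℝ => x / (x + 1)).aestronglyMeasurable.mul (d_meas w).2.1) ?_
    filter_upwards [ae_restrict_mem measurableSet_Ioo] with x hx
    have h0 := hx.1
    have h1 : 0 < 1 - x := sub_pos.2 hx.2
    rw [Real.norm_eq_abs, Real.norm_eq_abs, abs_mul, abs_div (d1 w x), abs_of_pos h1,
      abs_of_pos (by positivity : 0 < x / (x + 1)), le_div_iff₀ h1]
    have h2 : x / (x + 1) ≤ 1 := by rw [div_le_one (by linarith)]; linarith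
    have h3 : x / (x + 1) * (1 - x) ≤ 1 := by
      have : 0 ≤ x / (x + 1) := by positivity
      nlinarith
    have := abs_nonneg (d1 w x)
    nlinarith
  exact h1.integrable_sq

/-- the pointwise bound on `J`. -/
theorem es1_pt {x w t f f1 w1 D1 k a a1 a2 b b1 : ℝ} (hx0 : 1 / 8 < x) (hx1 : x < 3 / 16)
    (ht : t ^ 2 ≤ 4 * w ^ 2) (hw1 : |x * w1| ≤ 8 * w) (hf : (1 - x) * k = f)
    (hD : D1 = w * f1 + w1 * f) :
    t ^ 2 * (f ^ 2 + f1 ^ 2 + a ^ 2 + a1 ^ 2 + b ^ 2 + b1 ^ 2) ≤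
      648 * (x / (x + 1) * D1) ^ 2 + 40000 * (w * k) ^ 2 +
        256 * (w ^ 2 * (b ^ 2 + (x * b1) ^ 2)) +
        t ^ 2 * (1 * ((a / x) ^ 2 + a1 ^ 2 + (x * a2) ^ 2)) := by
  have hx : 0 < x := by linarith
  have hf2 : f ^ 2 ≤ k ^ 2 := by
    rw [← hf, mul_pow]
    have : (1 - x) ^ 2 ≤ 1 := by nlinarith
    nlinarith [sq_nonneg k]
  have hwf : (w * f) ^ 2 ≤ (w * k) ^ 2 := by
    rw [mul_pow, mul_pow]; exact mul_le_mul_of_nonneg_left hf2 (sq_nonneg w)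
  have e1 : t ^ 2 * f ^ 2 ≤ 4 * (w * k) ^ 2 := by
    have := mul_le_mul_of_nonneg_right ht (sq_nonneg f)
    nlinarith
  have hw2 : w1 ^ 2 ≤ 4096 * w ^ 2 := by
    have h1 : (x * w1) ^ 2 ≤ (8 * w) ^ 2 := by
      rw [← sq_abs (x * w1)]
      exact pow_le_pow_left₀ (abs_nonneg _) hw1 2
    have h2 : 1 / 64 ≤ x ^ 2 := by nlinarith
    have h3 := mul_le_mul_of_nonneg_right h2 (sq_nonneg w1)
    nlinarith
  have hD2 : D1 ^ 2 ≤ 81 * (x / (x + 1) * D1) ^ 2 := by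
    have h1 : 1 / 9 ≤ x / (x + 1) := by
      rw [div_le_div_iff₀ (by norm_num) (by linarith)]; linarith
    have h2 : 1 / 81 ≤ (x / (x + 1)) ^ 2 := by nlinarith
    have h3 := mul_le_mul_of_nonneg_right h2 (sq_nonneg D1)
    rw [mul_pow]; linarith
  have e2 : t ^ 2 * f1 ^ 2 ≤ 648 * (x / (x + 1) * D1) ^ 2 + 32768 * (w * k) ^ 2 := by
    have h1 := mul_le_mul_of_nonneg_right ht (sq_nonneg f1)
    have h2 : (w * f1) ^ 2 ≤ 2 * D1 ^ 2 + 2 * (w1 * f) ^ 2 := by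
      have : w * f1 = D1 - w1 * f := by rw [hD]; ring
      rw [this]; nlinarith [sq_nonneg (D1 + w1 * f)]
    have h3 : (w1 * f) ^ 2 ≤ 4096 * (w * f) ^ 2 := by
      have := mul_le_mul_of_nonneg_right hw2 (sq_nonneg f)
      rw [mul_pow, mul_pow]; linarith
    have h4 : (w * f1) ^ 2 = w ^ 2 * f1 ^ 2 := mul_pow _ _ _
    linarith
  have e3 : t ^ 2 * a ^ 2 ≤ t ^ 2 * (a / x) ^ 2 := by
    refine mul_le_mul_of_nonneg_left ?_ (sq_nonneg t)
    rw [div_pow, le_div_iff₀ (by positivity)]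
    have : x ^ 2 ≤ 1 := by nlinarith
    nlinarith [sq_nonneg a]
  have e4 : t ^ 2 * b ^ 2 ≤ 4 * (w ^ 2 * b ^ 2) := by
    have := mul_le_mul_of_nonneg_right ht (sq_nonneg b)
    linarith
  have e5 : t ^ 2 * b1 ^ 2 ≤ 256 * (w ^ 2 * (x * b1) ^ 2) := by
    have h1 := mul_le_mul_of_nonneg_right ht (sq_nonneg b1)
    have h2 : 1 / 64 ≤ x ^ 2 := by nlinarith
    have h3 := mul_le_mul_of_nonneg_right h2 (mul_nonneg (sq_nonneg w) (sq_nonneg b1))
    rw [mul_pow]; nlinarith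
  have e6 : 0 ≤ t ^ 2 * (x * a2) ^ 2 := by positivity
  have e7 : 0 ≤ w ^ 2 * b ^ 2 := by positivity
  have e8 : 0 ≤ (w * k) ^ 2 := by positivity
  nlinarith

theorem es1_mono {F : ℝ → ℝ} {b : ℝ} (hb : 3 / 16 ≤ b) (hF : IntegrableOn F (Ioo 0 b))
    (h0 : ∀ x, 0 ≤ F x) :
    IntegrableOn F (Ioo (1 / 8 : ℝ) (3 / 16)) ∧
      ∫ x in Ioo (1 / 8 : ℝ) (3 / 16), F x ≤ ∫ x in Ioo (0 : ℝ) b, F x := by
  have hs : Ioo (1 / 8 : ℝ) (3 / 16) ⊆ Ioo 0 b := Ioo_subset_Ioo (by norm_num) hb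
  exact ⟨hF.mono_set hs, setIntegral_mono_set hF (Eventually.of_forall h0) hs.eventuallyLE⟩

theorem es1_sum {μ : Measure ℝ} {A B C D : ℝ → ℝ} (hA : Integrable A μ) (hB : Integrable B μ)
    (hC : Integrable C μ) (hD : Integrable D μ) (a b c d : ℝ) :
    ∫ x, (a * A x + b * B x + c * C x + d * D x) ∂μ =
      a * (∫ x, A x ∂μ) + b * (∫ x, B x ∂μ) + c * (∫ x, C x ∂μ) + d * ∫ x, D x ∂μ := by
  have i1 : Integrable (fun x => a * A x + b * B x) μ := (hA.const_mul _).add (hB.const_mul _)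
  have i2 : Integrable (fun x => a * A x + b * B x + c * C x) μ := i1.add (hC.const_mul _)
  rw [integral_add i2 (hD.const_mul _), integral_add i1 (hC.const_mul _),
    integral_add (hA.const_mul _) (hB.const_mul _), integral_const_mul, integral_const_mul,
    integral_const_mul, integral_const_mul]

/-- `e^{-s} ≤ 2 wh` on `(0,1)`.  `f²`: `f = (1-x) ι u` a.e.;  `σ, σ'`: `hardy` (`j = 2`, `hardy_int`);  `ξ, ξ'`: `xi_wbound`
(`Ω = 1`, `b = 1/2`) then `hardy`;  `f'²`: `ũ = mul (wh s) u` has `d1 ũ = wh f' + wh' f`, `|wh'| ≤ 2 wh/x`, and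
`interp` with `x0 = 1` (`x/(x+1) ≥ 1/9` on `J`, `d0 ũ = wh f`). -/
theorem jet_small (S : Sp) (N : Anc) (δ : ℝ) (hδ : 0 < δ) : ∃ C : ℝ, 0 ≤ C ∧ ∀ s, 4 ≤ s →
    ∀ u f, Test f → Rep u f →
      Real.exp (-s) ^ 2 * ∫ x in Ioo (1 / 8 : ℝ) (3 / 16), jet f (S.T.ι u) x ≤
        δ * ‖S.mul (wh s) u‖ ^ 2 + C * N.En s (S.T.ι u) := by
  obtain ⟨CI, hCI, hI⟩ := interp (δ / 648) (by positivity)
  obtain ⟨CH, hCH, hH⟩ := hardy N
  obtain ⟨CX, hCX, hX⟩ := xi_wbound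
  refine ⟨648 * CI + 40000 + 256 * CH + 4 * CX * CH, by positivity, fun s hs u f _ hu => ?_⟩
  have hs0 : 0 ≤ s := by linarith
  set h := S.T.ι u with hh
  set w := S.mul (wh s) u with hw
  set t := Real.exp (-s) with ht
  obtain ⟨r0, r1, -⟩ := hu.d
  obtain ⟨m0, m1, -⟩ := S.mul_eq (wh s) 6 (mult_wh s) u
  have hι : hv h =ᵐ[ν] d0 u := S.ι_eq u
  -- energy pieces
  have hEn0 : 0 ≤ lam s * (N.al 0 s h ^ 2 + N.al 1 s h ^ 2) :=
    mul_nonneg (lam_pos s).le (by positivity)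
  have hEW : ∫ x in Ioo (0 : ℝ) 1, (wh s x * h x) ^ 2 ≤ N.En s h := by
    unfold Anc.En; linarith
  have hW0 : 0 ≤ ∫ x in Ioo (0 : ℝ) 1, (wh s x * h x) ^ 2 :=
    integral_nonneg fun x => sq_nonneg _
  have hEn : 0 ≤ N.En s h := le_trans hW0 hEW
  have hHd : ∫ x in Ioo (0 : ℝ) (1 / 2), wh s x ^ 2 * (sig h x ^ 2 + (x * sig1 h x) ^ 2) ≤
      CH * N.En s h := by
    have := hH 2 (Or.inl rfl) s hs h (hardy_int 2 s h)
    simpa only [Anc.En, mul_pow] using this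
  obtain ⟨x1, x2, x3⟩ := hX h (fun _ => 1) (1 / 2) (by norm_num) le_rfl continuous_const
    (fun _ => zero_le_one) (fun _ _ _ _ _ => le_rfl)
  have hX2 : t ^ 2 * ∫ x in Ioo (0 : ℝ) (1 / 2), 1 * (x * sig h x) ^ 2 ≤ 4 * (CH * N.En s h) := by
    rw [← integral_const_mul]
    refine le_trans ?_ (mul_le_mul_of_nonneg_left hHd (by norm_num : (0 : ℝ) ≤ 4))
    rw [← integral_const_mul]
    refine setIntegral_mono_on (x2.const_mul _) ((hardy_int 2 s h).const_mul _) measurableSet_Ioo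
      fun x hx => ?_
    have h1 := es1_tau_sq hs0 hx.1.le (by linarith [hx.2])
    have h2 : (x * sig h x) ^ 2 ≤ sig h x ^ 2 := by
      rw [mul_pow]
      have : x ^ 2 ≤ 1 := by nlinarith [hx.1, hx.2]
      nlinarith [sq_nonneg (sig h x)]
    have h3 := mul_le_mul h1 h2 (sq_nonneg _) (by positivity)
    have h4 : 0 ≤ wh s x ^ 2 * (x * sig1 h x) ^ 2 := by positivity
    rw [← ht] at h3
    nlinarith
  have hA : ∫ x in Ioo (0 : ℝ) 1, (x / (x + 1) * d1 w x) ^ 2 ≤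
      δ / 648 * ‖w‖ ^ 2 + CI * N.En s h := by
    refine le_trans (hI 1 one_pos w) (add_le_add le_rfl (mul_le_mul_of_nonneg_left ?_ hCI.le))
    refine le_trans ?_ hEW
    refine integral_mono_of_nonneg (Eventually.of_forall fun x => sq_nonneg _) (es1_EH_int s h) ?_
    filter_upwards [m0, hι, ae_restrict_mem measurableSet_Ioo] with x e0 e1 hx
    have h0 := hx.1
    have h1 := hx.2
    rw [e0, ← e1, hv, div_pow, div_le_iff₀ (by positivity), mul_pow, mul_pow, mul_pow]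
    have h2 : (1 - x) ^ 2 ≤ (x + 1) ^ 2 := by nlinarith
    have h3 := mul_le_mul_of_nonneg_left h2 (mul_nonneg (sq_nonneg (wh s x)) (sq_nonneg (h x)))
    linarith
  obtain ⟨iA, lA⟩ := es1_mono (b := 1) (by norm_num) (es1_A_int w) (fun x => sq_nonneg _)
  obtain ⟨iW, lW⟩ := es1_mono (b := 1) (by norm_num) (es1_EH_int s h) (fun x => sq_nonneg _)
  obtain ⟨iH, lH⟩ := es1_mono (b := 1 / 2) (by norm_num) (hardy_int 2 s h) (fun x => by positivity)
  obtain ⟨iX, lX⟩ := es1_mono (b := 1 / 2) (by norm_num) x1 (fun x => by positivity)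
  have hsub : Ioo (1 / 8 : ℝ) (3 / 16) ⊆ Ioo 0 1 := Ioo_subset_Ioo (by norm_num) (by norm_num)
  have key : t ^ 2 * ∫ x in Ioo (1 / 8 : ℝ) (3 / 16), jet f h x ≤
      ∫ x in Ioo (1 / 8 : ℝ) (3 / 16), (648 * (x / (x + 1) * d1 w x) ^ 2 +
        40000 * (wh s x * h x) ^ 2 + 256 * (wh s x ^ 2 * (sig h x ^ 2 + (x * sig1 h x) ^ 2)) +
        t ^ 2 * (1 * ((xi h x / x) ^ 2 + deriv (xi h) x ^ 2 +
          (x * deriv (deriv (xi h)) x) ^ 2))) := by
    rw [← integral_const_mul]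
    refine integral_mono_of_nonneg (Eventually.of_forall fun x => ?_)
      ((((iA.const_mul _).add (iW.const_mul _)).add (iH.const_mul _)).add (iX.const_mul _)) ?_
    · unfold jet; positivity
    · filter_upwards [ae_restrict_of_ae_restrict_of_subset hsub m1,
        ae_restrict_of_ae_restrict_of_subset hsub hι, ae_restrict_of_ae_restrict_of_subset hsub r0,
        ae_restrict_of_ae_restrict_of_subset hsub r1, ae_restrict_mem measurableSet_Ioo]
        with x e1 e2 e3 e4 hx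
      unfold jet
      refine es1_pt hx.1 hx.2 (es1_tau_sq hs0 (by linarith [hx.1]) (by linarith [hx.2]))
        (IneqC.wh_bd s x).2.1 ?_ ?_
      · rw [← e3, ← e2, hv]
      · rw [e1, e3, e4]
  rw [es1_sum iA iW iH iX] at key
  have h5 := mul_le_mul_of_nonneg_left (lX.trans x3) (sq_nonneg t)
  have h6 := mul_le_mul_of_nonneg_left hX2 hCX.le
  nlinarith

end Crest.Agent.R213.Eqv
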