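import Crest.Agent.R213.EqvK
import Crest.Agent.R213.EqvS1

/-! # R213 / EqvS : smallness of the commutator (aux prefix `es_`) -/

set_option autoImplicit false

open MeasureTheory Set Filter Topology
open scoped ContDiff InnerProductSpace

namespace Crest.Agent.R213.Eqv

theorem es_q_sm : ContDiff ℝ ∞ (fun x : ℝ => x ^ 2 + 1 - Real.smoothTransition (16 * x - 1)) :=
  ((contDiff_id.pow 2).add contDiff_const).sub
    (Real.smoothTransition.contDiff.comp ((contDiff_const.mul contDiff_id).sub contDiff_const))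

theorem es_q_lo {x : ℝ} (hx : 0 < x) : 1 / 256 ≤ x ^ 2 + 1 - Real.smoothTransition (16 * x - 1) := by
  rcases le_or_gt x (1 / 16) with h | h
  · rw [Real.smoothTransition.zero_of_nonpos (by linarith)]
    nlinarith [sq_nonneg x]
  · have := Real.smoothTransition.le_one (16 * x - 1)
    nlinarith

theorem es_q_eq {x : ℝ} (hx : 1 / 8 ≤ x) : x ^ 2 + 1 - Real.smoothTransition (16 * x - 1) = x ^ 2 := by
  rw [Real.smoothTransition.one_of_one_le (by linarith)]; ring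

/-- `q x = x² + 1 - smoothTransition (16 x - 1)` is smooth, `≥ 1/256`, and `= x²` on `x ≥ 1/8`.  With `τ = e^{-s} ≤ 1`:
`mul (wh s) w = τ • mul (1/(τ + q)) w` (`ext_d0`; `wh = τ/(τ + x²)`), and `Mult (1/(τ+q)) M` uniformly
(`Mult.inv`, `Mult.add`, `Mult.const`, `Mult.mono`), `mul_le`. -/
theorem wh_loc (S : Sp) : ∃ C : ℝ, 0 < C ∧ ∀ s, 0 ≤ s → ∀ w : VV,
    (∀ᵐ x ∂ν, x ∉ Icc (1 / 8 : ℝ) (3 / 16) → d0 w x = 0) →
      ‖S.mul (wh s) w‖ ≤ C * Real.exp (-s) * ‖w‖ := by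
  obtain ⟨M, hM⟩ := mult_sm es_q_sm
  have hM0 : 0 ≤ M := VC_nonneg hM
  set M' : ℝ := 1 / (1 / 256) + (1 + M) / (1 / 256) ^ 2 + 2 * (1 + M) ^ 2 / (1 / 256) ^ 3 with hM'
  have hM'0 : 0 < M' := by positivity
  refine ⟨4 * M', by positivity, fun s hs w hw => ?_⟩
  have hτ0 : 0 < Real.exp (-s) := Real.exp_pos _
  have hτ1 : Real.exp (-s) ≤ 1 := Real.exp_le_one_iff.2 (by linarith)
  have h1 : Mult (fun x => Real.exp (-s) + (x ^ 2 + 1 - Real.smoothTransition (16 * x - 1))) (1 + M) :=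
    ((Mult.const (Real.exp (-s))).add hM).mono (by rw [abs_of_pos hτ0]; linarith)
  have h2 : Mult (fun x => 1 / (Real.exp (-s) + (x ^ 2 + 1 - Real.smoothTransition (16 * x - 1)))) M' :=
    h1.inv (c := 1 / 256) (by norm_num) (fun x hx => by linarith [es_q_lo hx.1])
  have e : S.mul (wh s) w = Real.exp (-s) •
      S.mul (fun x => 1 / (Real.exp (-s) + (x ^ 2 + 1 - Real.smoothTransition (16 * x - 1)))) w := by
    refine ext_d0 ?_
    filter_upwards [S.mul_d0 (mult_wh s) w, (d_smul (S.mul (fun x => 1 / (Real.exp (-s) +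
      (x ^ 2 + 1 - Real.smoothTransition (16 * x - 1)))) w) (Real.exp (-s))).1, S.mul_d0 h2 w, hw]
      with x e1 e2 e3 e4
    rw [e1, e2, e3]
    by_cases hx : x ∈ Icc (1 / 8 : ℝ) (3 / 16)
    · rw [es_q_eq hx.1, wh, Real.exp_neg]
      have : 0 < Real.exp s := Real.exp_pos _
      field_simp
    · rw [e4 hx]; simp
  rw [e, norm_smul, Real.norm_eq_abs, abs_of_pos hτ0]
  have h3 := (ContinuousLinearMap.le_opNorm _ w).trans
    (mul_le_mul_of_nonneg_right (S.mul_le _ _ h2) (norm_nonneg w))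
  calc _ ≤ Real.exp (-s) * (4 * M' * ‖w‖) := mul_le_mul_of_nonneg_left h3 hτ0.le
    _ = _ := by ring

/-- `V_ind` (`En_cont`), `wh_loc` (`Kop.d0_eq`, `comb_zero`), `Kop.le`, `jet_small`. -/
theorem k_small {S : Sp} (N : Anc) {c : Fin 4 → ℝ → ℝ} {KH : L2 →L[ℝ] L2} {KV : VV →L[ℝ] VV} {C : ℝ}
    (hK : Kop S c KH KV C) (δ : ℝ) (hδ : 0 < δ) : ∃ C' : ℝ, 0 ≤ C' ∧ ∀ s, 4 ≤ s → ∀ u,
      ‖S.mul (wh s) (KV u)‖ ^ 2 ≤ δ * ‖S.mul (wh s) u‖ ^ 2 + C' * N.En s (S.T.ι u) := by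
  obtain ⟨C1, hC1, h1⟩ := wh_loc S
  have hC := hK.pos
  obtain ⟨C2, hC2, h2⟩ := jet_small S N (δ / (C1 ^ 2 * C)) (by positivity)
  refine ⟨C1 ^ 2 * C * C2, by positivity, fun s hs u => ?_⟩
  refine V_ind (P := fun u => ‖S.mul (wh s) (KV u)‖ ^ 2 ≤
    δ * ‖S.mul (wh s) u‖ ^ 2 + C1 ^ 2 * C * C2 * N.En s (S.T.ι u)) ?_ ?_ u
  · refine isClosed_le ?_ ?_
    · exact (((S.mul (wh s)).continuous.comp KV.continuous).norm).pow 2
    · exact (continuous_const.mul ((S.mul (wh s)).continuous.norm.pow 2)).add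
        (continuous_const.mul ((En_cont S N s).comp S.T.ι.continuous))
  · intro u f hf hu
    have a1 := h1 s (by linarith) (KV u) (by
      filter_upwards [hK.d0_eq u] with x e hx
      rw [e, comb_zero hK.cf _ hx])
    have a2 := hK.le u f hf hu
    have a3 := h2 s hs u f hf hu
    have hτ0 : 0 < Real.exp (-s) := Real.exp_pos _
    have a4 : ‖S.mul (wh s) (KV u)‖ ^ 2 ≤ (C1 * Real.exp (-s) * ‖KV u‖) ^ 2 :=
      pow_le_pow_left₀ (norm_nonneg _) a1 2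
    calc _ ≤ (C1 * Real.exp (-s) * ‖KV u‖) ^ 2 := a4
      _ = C1 ^ 2 * Real.exp (-s) ^ 2 * ‖KV u‖ ^ 2 := by ring
      _ ≤ C1 ^ 2 * Real.exp (-s) ^ 2 *
          (C * ∫ x in Ioo (1 / 8 : ℝ) (3 / 16), jet f (S.T.ι u) x) :=
        mul_le_mul_of_nonneg_left a2 (by positivity)
      _ = C1 ^ 2 * C *
          (Real.exp (-s) ^ 2 * ∫ x in Ioo (1 / 8 : ℝ) (3 / 16), jet f (S.T.ι u) x) := by ring
      _ ≤ C1 ^ 2 * C * (δ / (C1 ^ 2 * C) * ‖S.mul (wh s) u‖ ^ 2 + C2 * N.En s (S.T.ι u)) :=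
        mul_le_mul_of_nonneg_left a3 (by positivity)
      _ = _ := by field_simp

end Crest.Agent.R213.Eqv
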