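import Crest.Agent.R213.EqvG
import Crest.Agent.R213.EqvI
import Crest.Agent.R213.EqvS
import Crest.Agent.R213.EqvF

/-! # R213 / EqvL : the transformed equation and the source (aux prefix `elq_`) -/

set_option autoImplicit false

open MeasureTheory Set Filter Topology
open scoped ContDiff InnerProductSpace

namespace Crest.Agent.R213.Eqv

variable {S : Sp} {h : ℝ} {DH KH : L2 →L[ℝ] L2} {D KV : VV →L[ℝ] VV} {c : Fin 4 → ℝ → ℝ} {C : ℝ}

theorem elq_d0 (S : Sp) {p : ℝ → ℝ} (hp : ∃ N, Mult p N) (u : VV) :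
    d0 (S.mul p u) =ᵐ[ν] fun x => p x * d0 u x :=
  (S.mul_eq p _ hp.choose_spec u).1

theorem elq_add (u w : VV) : d0 (u + w) =ᵐ[ν] fun x => d0 u x + d0 w x := by
  simpa using (d_add_smul u w 1).1

theorem elq_b (A : Apx) (s : ℝ) : ∃ N, Mult (A.b s) N :=
  mult_sm (A.smb.comp (contDiff_const.prodMk contDiff_id))

theorem elq_g (A : Apx) (s : ℝ) : ∃ N, Mult (fun x => A.g s x ^ 2) N :=
  mult_sm ((A.smg.comp (contDiff_const.prodMk contDiff_id)).pow 2)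

theorem elq_comm (S : Sp) {p q : ℝ → ℝ} (hp : ∃ N, Mult p N) (hq : ∃ N, Mult q N) (u : VV) :
    S.mul p (S.mul q u) = S.mul q (S.mul p u) := by
  obtain ⟨N, hp⟩ := hp
  obtain ⟨N', hq⟩ := hq
  rw [S.mul_mul hp hq, S.mul_mul hq hp]
  simp only [mul_comm]

theorem elq_lam_sq (h : ℝ) : lam h ^ 2 = Real.exp (-h) := by
  rw [lam, ← Real.exp_nat_mul]; congr 1; push_cast; ring

/-- `Dil.comm`, `sim_b` for `y ≤ 1/4`, `chi y = 0` otherwise. -/
theorem b_comm (A : Apx) (hh : 0 ≤ h) (hD : Dil S (lam h) DH D) (s : ℝ) (w : VV) :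
    S.mul (A.b (s + h)) (D (S.mul chi w)) = Real.exp h • D (S.mul chi (S.mul (A.b s) w)) := by
  obtain ⟨M, hM⟩ := elq_b A (s + h)
  rw [← map_smul]
  refine hD.comm hM ?_
  filter_upwards [elq_d0 S (mult_sm chi_sm) w,
    (d_smul (S.mul chi (S.mul (A.b s) w)) (Real.exp h)).1,
    elq_d0 S (mult_sm chi_sm) (S.mul (A.b s) w), elq_d0 S (elq_b A s) w,
    ae_restrict_mem measurableSet_Ioo] with y h1 h2 h3 h4 hy
  rw [h1, h2, h3, h4]
  rcases le_or_gt y (1 / 4) with h5 | h5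
  · rw [A.sim_b s h hh y ⟨hy.1.le, h5⟩]; ring
  · rw [chi_zero (by linarith)]; ring

/-- `mul_mul`, `Dil.comm`, `sim_g` for `y ≤ 1/4`; otherwise `chi, chi2, comb` vanish. -/
theorem g_comm (A : Apx) (hh : 0 ≤ h) (hD : Dil S (lam h) DH D) (hK : Kop S c KH KV C) (s : ℝ) (u : VV) :
    S.mul (fun x => A.g (s + h) x ^ 2) (S.mul om (D (S.mul chi2 u + KV u))) =
      D (S.mul chi (S.mul (fun x => A.g s x ^ 2) u)) +
        D (S.mul (fun x => A.g s x ^ 2) (S.mul om (KV u))) := by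
  obtain ⟨M, hM⟩ := elq_g A (s + h)
  obtain ⟨M', hM'⟩ := mult_sm om_sm
  rw [S.mul_mul hM hM', ← map_add]
  refine hD.comm (hM.mul hM') ?_
  filter_upwards [elq_add (S.mul chi2 u) (KV u), elq_d0 S (mult_sm chi2_sm) u, hK.d0_eq u,
    elq_add (S.mul chi (S.mul (fun x => A.g s x ^ 2) u))
      (S.mul (fun x => A.g s x ^ 2) (S.mul om (KV u))),
    elq_d0 S (mult_sm chi_sm) (S.mul (fun x => A.g s x ^ 2) u), elq_d0 S (elq_g A s) u,
    elq_d0 S (elq_g A s) (S.mul om (KV u)), elq_d0 S (mult_sm om_sm) (KV u),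
    ae_restrict_mem measurableSet_Ioo] with y h1 h2 h3 h4 h5 h6 h7 h8 hy
  rw [h1, h2, h4, h5, h6, h7, h8, h3]
  rcases le_or_gt y (1 / 4) with h9 | h9
  · have e := A.sim_g s h hh y ⟨hy.1.le, h9⟩
    have e2 : A.g (s + h) (lam h * y) ^ 2 * om (lam h * y) = (1 - y) ^ 2 * A.g s y ^ 2 := by
      rw [om, ← mul_pow, ← mul_pow, mul_comm, e]
    have a2 : 1 - y ≠ 0 := by linarith [hy.2]
    rw [e2, chi2, om]
    field_simp
  · rw [chi_zero (by linarith), chi2_zero (by linarith),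
      comb_zero hK.cf _ (fun hx => by linarith [hx.2])]
    ring

/-- `wh (s+h) (κ y) = wh s y`. -/
theorem wh_comm (hD : Dil S (lam h) DH D) (s : ℝ) (w : VV) :
    S.mul (wh (s + h)) (D w) = D (S.mul (wh s) w) := by
  refine hD.comm (mult_wh (s + h)) ?_
  filter_upwards [elq_d0 S ⟨_, mult_wh s⟩ w] with y h1
  rw [h1, wh, wh, mul_pow, elq_lam_sq, Real.exp_add]
  congr 3
  rw [Real.exp_neg]
  field_simp

/-- `GQ_eq`, `b_comm`, `g_comm`, `κ² = e^{-h}`. -/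
theorem lin_eq (A : Apx) (hh : 0 ≤ h) (hD : Dil S (lam h) DH D) (hK : Kop S c KH KV C) (hF : KForm c)
    (t s : ℝ) (u : VV) (k : L2) :
    opP S t D (lin0 S A s u k) =
      lin0 S A (s + h) (opQ S (lam h) t D KV u) (opQH S (lam h) t DH KH k) + opW S A t D KV s u := by
  have e1 : Real.exp (-(s + h)) * Real.exp h = Real.exp (-s) := by
    rw [← Real.exp_add]; congr 1; ring
  have e2 : Real.exp (-(s + h)) * (t / lam h ^ 2) = Real.exp (-s) * t := by
    rw [elq_lam_sq, ← e1, Real.exp_neg h]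
    field_simp
  rw [lin0, lin0, GQ_eq hD hK hF]
  simp only [opP, opQ, opW, smul_apply, ContinuousLinearMap.comp_apply,
    add_apply, map_smul, map_sub]
  rw [b_comm A hh hD, g_comm A hh hD hK, smul_sub (Real.exp (-(s + h))),
    smul_smul (Real.exp (-(s + h))) (t / lam h ^ 2), e2, smul_comm t (Real.exp h),
    smul_smul (Real.exp (-(s + h))) (Real.exp h), e1]
  module

/-- `mul_family`. -/
theorem W_cont (A : Apx) (t : ℝ) : Continuous (opW S A t D KV) := by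
  have h1 : Continuous fun s => S.mul fun x => A.g s x ^ 2 :=
    S.mul_family (p := fun s x => A.g s x ^ 2) (A.smg.pow 2)
  unfold opW
  have h2 : Continuous fun s : ℝ => Real.exp (-s) * t := by fun_prop
  exact h2.smul (continuous_const.clm_comp (h1.clm_comp continuous_const))

/-- `wh_comm`, `Dil.le`, `mul_mul` (multipliers commute), `garding_g` (`Mult (g²) C`), `mul_le`;
`e^{s+h} e^{-2s} t²/κ = e^{-s}`. -/
theorem W_le (S : Sp) (A : Apx) : ∃ M : ℝ, 0 < M ∧ ∀ (h : ℝ) (DH : L2 →L[ℝ] L2) (D KV : VV →L[ℝ] VV),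
    Dil S (lam h) DH D → ∀ s, 0 ≤ s → ∀ u,
      Real.exp (s + h) * ‖S.mul (wh (s + h)) (opW S A (Real.exp (-(3 * h / 4))) D KV s u)‖ ^ 2 ≤
        M * (Real.exp (-s) * ‖S.mul (wh s) (KV u)‖ ^ 2) := by
  obtain ⟨c, C, -, hC, hg⟩ := garding_g S A
  obtain ⟨M', hM'⟩ := mult_sm om_sm
  have hM0 : 0 ≤ M' := (abs_nonneg _).trans (hM'.b0 (1 / 2) ⟨by norm_num, by norm_num⟩)
  refine ⟨(4 * C * (4 * M')) ^ 2 + 1, by positivity, fun h DH D KV hD s hs u => ?_⟩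
  have hg2 : Mult (fun x => A.g s x ^ 2) C := (hg s hs).2.2.2.2.2.1
  set z : VV := S.mul (fun x => A.g s x ^ 2) (S.mul om (S.mul (wh s) (KV u))) with hz
  have e : S.mul (wh (s + h)) (opW S A (Real.exp (-(3 * h / 4))) D KV s u) =
      (Real.exp (-s) * Real.exp (-(3 * h / 4))) • D z := by
    simp only [opW, smul_apply, ContinuousLinearMap.comp_apply, map_smul]
    rw [wh_comm hD, elq_comm S ⟨_, mult_wh s⟩ ⟨_, hg2⟩, elq_comm S ⟨_, mult_wh s⟩ ⟨_, hM'⟩]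
  have n1 : ‖z‖ ≤ 4 * C * (4 * M') * ‖S.mul (wh s) (KV u)‖ := by
    rw [mul_assoc (4 * C)]
    refine ((S.mul _).le_of_opNorm_le (S.mul_le _ _ hg2) _).trans ?_
    exact mul_le_mul_of_nonneg_left ((S.mul _).le_of_opNorm_le (S.mul_le _ _ hM') _)
      (by positivity)
  have n2 : ‖z‖ ^ 2 ≤ ((4 * C * (4 * M')) ^ 2 + 1) * ‖S.mul (wh s) (KV u)‖ ^ 2 := by
    have := pow_le_pow_left₀ (norm_nonneg _) n1 2
    rw [mul_pow] at this
    nlinarith [sq_nonneg ‖S.mul (wh s) (KV u)‖]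
  have e2 : Real.exp (s + h) * (Real.exp (-s) * Real.exp (-(3 * h / 4))) ^ 2 =
      Real.exp (-s) * lam h := by
    rw [lam, ← Real.exp_add, ← Real.exp_nat_mul, ← Real.exp_add, ← Real.exp_add]
    congr 1; push_cast; ring
  rw [e, norm_smul, mul_pow, Real.norm_eq_abs, sq_abs, ← mul_assoc, e2, mul_assoc,
    mul_left_comm _ (Real.exp (-s))]
  exact mul_le_mul_of_nonneg_left ((hD.le z).trans n2) (Real.exp_pos _).le

theorem tr_exists {A : Apx} {N : Anc} (B : Fb S A N) (δ : ℝ) (hδ : 0 < δ) : ∃ C : ℝ, 0 ≤ C ∧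
    ∀ h, 0 ≤ h → ∃ P Q QH W, Tr B δ C h P Q QH W := by
  obtain ⟨c, hc, hF⟩ := kformula
  obtain ⟨KH, KV, CK, hK⟩ := kop_exists S hc
  obtain ⟨M, hM, hW⟩ := W_le S A
  obtain ⟨C', hC', hs⟩ := k_small N hK (δ / M) (by positivity)
  refine ⟨M * C', by positivity, fun h hh => ?_⟩
  obtain ⟨DH, D, hD⟩ := dil_exists S (lam_pos h) (lam_le_one hh)
  refine ⟨_, _, _, _, ιQ_eq hD hK _, GQ_eq hD hK hF _, fun i s hs => Pf_eq B hh hD i hs,
    fun i s hs u => LP_eq B hD i hs u, lin_eq A hh hD hK hF _, W_cont A _, fun s hs1 u => ?_⟩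
  have h4 : 4 ≤ s := B.sst_ge.trans hs1
  refine (hW h DH D KV hD s (by linarith) u).trans ?_
  calc M * (Real.exp (-s) * ‖S.mul (wh s) (KV u)‖ ^ 2)
      ≤ M * (Real.exp (-s) * (δ / M * ‖S.mul (wh s) u‖ ^ 2 + C' * N.En s (S.T.ι u))) := by
        gcongr; exact hs s h4 u
    _ = _ := by field_simp

end Crest.Agent.R213.Eqv
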