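import Crest.Agent.R213.EqvT
import Crest.Agent.R213.EqvL

/-! # R213 / EqvE : the estimate (aux prefix `ee_`) -/

set_option autoImplicit false

open MeasureTheory Set Filter Topology
open scoped ContDiff InnerProductSpace

namespace Crest.Agent.R213.Eqv

variable {S : Sp} {A : Apx} {N : Anc}

/-- If `s ≤ s0` both observations vanish (`FbSol.causal`).  Otherwise `U'(s+h) - QH (U s)` is the value at `s + h` of the
solution `FbSol.add_smul … (-1)` with control `0` and source `-Fo` (`tr_sol`, `tr_adm`); its observation is the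
left side (`GQ`, `LP`); `obs_le`, `FbSol.est` with `μ = 7/8`, shift the integral by `h`, `Wle`, `ι v = U` a.e.,
`e^{-r} En r (U r) ≤ e^{-s0} En r (U r)` (`U r = 0` for `r ≤ s0`, `En_zero`), and `FbSol.est` for `(v, Z, U)`. -/
theorem tr_est {B : Fb S A N} {δ C h : ℝ} {P Q : VV →L[ℝ] VV} {QH : L2 →L[ℝ] L2}
    {W : ℝ → VV →L[ℝ] VV} (hT : Tr B δ C h P Q QH W) (hδ : 0 ≤ δ) (hC : 0 ≤ C) (hh : 0 ≤ h)
    {s0 : ℝ} (hs0 : B.sst ≤ s0) {g : ℝ → EuclideanSpace ℝ (Fin B.m)} (hg : LocAdm s0 g)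
    {v Z v' Z' : ℝ → VV} {U U' : ℝ → L2} (h1 : FbSol B (fun _ => 0) g v Z U)
    (h2 : FbSol B (fun _ => 0) (fun r => g (r - h)) v' Z' U') (s : ℝ) :
    ‖B.obs (s + h) (U' (s + h)) - B.obs s (U s)‖ ^ 2 ≤ B.C ^ 3 * (δ + C * Real.exp (-s0)) *
      ∫ r in Ioc s0 s, Real.exp (-(2 * (7 / 8) * (s - r))) * ‖g r‖ ^ 2 := by
  have obs0 : ∀ r, B.obs r 0 = 0 := by
    intro r; ext i; simp [Fb.obs]
  have hBC := B.C_pos
  have hg0 : ∀ r, r ≤ B.sst → g r = 0 := fun r hr => hg.1 r (hr.trans hs0)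
  have hU0 : ∀ r, r ≤ s0 → U r = 0 := (h1.causal (ae_of_all _ fun _ => rfl)
    (ae_restrict_of_forall_mem measurableSet_Ioc fun r hr => hg.1 r hr.2)).1
  rcases le_or_gt s s0 with hs | hs
  · have hU' : U' (s + h) = 0 := (h2.causal (s0 := s0 + h) (ae_of_all _ fun _ => rfl)
      (ae_restrict_of_forall_mem measurableSet_Ioc fun r hr =>
        hg.1 _ (by linarith [hr.2]))).1 _ (by linarith)
    rw [hU', hU0 s hs, obs0, obs0, Ioc_eq_empty (not_lt.2 hs)]
    simp
  have hss : B.sst ≤ s := hs0.trans hs.le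
  obtain ⟨vt, Zt, ht⟩ := tr_sol hT hh hg0 h1
  have hFo := tr_adm hT.Wc hh h1
  set Fo : ℝ → VV := (Ioi (B.sst + h)).indicator fun r => W (r - h) (v (r - h)) with hFodef
  have hd := h2.add_smul ht (-1)
  have e0 : (fun r => g (r - h) + (-1 : ℝ) • g (r - h)) = fun _ => 0 := by
    funext r; simp
  rw [e0] at hd
  have hz : ∀ {E : Type} [NormedAddCommGroup E], LocAdm B.sst (fun _ => (0 : E)) :=
    ⟨fun _ _ => rfl, fun _ => MemLp.zero'⟩
  obtain ⟨i1, i2, -, i4⟩ := hd.est (spk_add hz hFo (-1)) hz (μ := 7 / 8) le_rfl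
    (s := s + h) (by linarith)
  obtain ⟨j1, -, -, j4⟩ := h1.est hz (spk_mono hs0 hg) (μ := 7 / 8) le_rfl hss
  set E1 : ℝ → ℝ := fun r => Real.exp (2 * (7 / 8) * r) *
    (Real.exp (-r) * ‖S.mul (wh r) (v r)‖ ^ 2 + N.En r (U r)) with hE1
  set F2 : ℝ → ℝ := fun r => Real.exp (2 * (7 / 8) * r) *
    (Real.exp r * ‖S.mul (wh r) (0 + (-1 : ℝ) • Fo r)‖ ^ 2 +
      ‖(0 : EuclideanSpace ℝ (Fin B.m))‖ ^ 2) with hF2
  set I : ℝ := ∫ r in Ioc s0 s, Real.exp (-(2 * (7 / 8) * (s - r))) * ‖g r‖ ^ 2 with hI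
  set η : ℝ := δ + C * Real.exp (-s0) with hη
  have hη0 : 0 ≤ η := by positivity
  -- the observation
  have hobs : ‖B.obs (s + h) (U' (s + h)) - B.obs s (U s)‖ ^ 2 ≤
      B.C * N.En (s + h) (U' (s + h) + (-1 : ℝ) • QH (U (s + h - h))) := by
    refine le_trans (le_of_eq ?_) (B.obs_le (s + h) (by linarith) _)
    rw [EuclideanSpace.norm_sq_eq]
    refine Finset.sum_congr rfl fun i _ => ?_
    rw [Real.norm_eq_abs, sq_abs, add_sub_cancel_right]
    simp only [Fb.obs, PiLp.sub_apply, map_add, map_smul, hT.GQ, hT.LP i s hss, smul_eq_mul]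
    ring
  -- the control side
  have hG : ∫ r in B.sst..s, Real.exp (2 * (7 / 8) * r) *
      (Real.exp r * ‖S.mul (wh r) (0 : VV)‖ ^ 2 + ‖g r‖ ^ 2) = Real.exp (2 * (7 / 8) * s) * I := by
    rw [intervalIntegral.integral_of_le hss, hI, ← integral_const_mul,
      setIntegral_eq_of_subset_of_forall_sdiff_eq_zero measurableSet_Ioc (Ioc_subset_Ioc_left hs0)]
    · refine setIntegral_congr_fun measurableSet_Ioc fun r _ => ?_
      simp only [map_zero, norm_zero]
      rw [← mul_assoc, ← Real.exp_add]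
      ring_nf
    · intro r hr
      have : r ≤ s0 := by
        by_contra hc
        exact hr.2 ⟨not_le.1 hc, hr.1.2⟩
      simp [hg.1 r this]
  have hE : ∫ r in B.sst..s, E1 r ≤ B.C * (Real.exp (2 * (7 / 8) * s) * I) := by
    rw [← hG]
    refine le_trans (le_add_of_nonneg_left ?_) j4
    exact mul_nonneg (Real.exp_pos _).le (En_nonneg _ _ _)
  -- the source side
  have a1 : B.sst ≤ B.sst + h := by linarith
  have a2 : B.sst + h ≤ s + h := by linarith
  have i2a : IntervalIntegrable F2 volume B.sst (B.sst + h) :=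
    i2.mono_set (by rw [uIcc_of_le a1, uIcc_of_le (a1.trans a2)]; exact Icc_subset_Icc_right a2)
  have i2b : IntervalIntegrable F2 volume (B.sst + h) (s + h) :=
    i2.mono_set (by rw [uIcc_of_le a2, uIcc_of_le (a1.trans a2)]; exact Icc_subset_Icc_left a1)
  have z1 : ∫ r in B.sst..(B.sst + h), F2 r = 0 := by
    rw [intervalIntegral.integral_of_le a1]
    refine setIntegral_eq_zero_of_forall_eq_zero fun r hr => ?_
    simp only [hF2, hFodef, indicator_of_notMem (show r ∉ Ioi (B.sst + h) from not_lt.2 hr.2)]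
    simp
  have hF : ∫ r in B.sst..(s + h), F2 r ≤
      Real.exp (2 * (7 / 8) * h) * η * ∫ r in B.sst..s, E1 r := by
    rw [← intervalIntegral.integral_add_adjacent_intervals i2a i2b, z1, zero_add,
      ← intervalIntegral.integral_comp_add_right, ← intervalIntegral.integral_const_mul,
      intervalIntegral.integral_of_le hss, intervalIntegral.integral_of_le hss]
    have i2c := i2b.comp_add_right h
    rw [add_sub_cancel_right, add_sub_cancel_right] at i2c
    refine integral_mono_ae i2c.1 (j1.const_mul _).1 ?_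
    filter_upwards [ae_restrict_mem measurableSet_Ioc, (h1.sol s hss).rep] with r hr hrep
    have hW := hT.Wle r hr.1.le (v r)
    rw [hrep] at hW
    have hEn := En_nonneg N r (U r)
    have h3 : Real.exp (-r) * N.En r (U r) ≤ Real.exp (-s0) * N.En r (U r) := by
      rcases le_or_gt r s0 with h4 | h4
      · rw [hU0 r h4, En_zero]; simp
      · gcongr
    have h5 : F2 (r + h) = Real.exp (2 * (7 / 8) * h) * (Real.exp (2 * (7 / 8) * r) *
        (Real.exp (r + h) * ‖S.mul (wh (r + h)) (W r (v r))‖ ^ 2)) := by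
      simp only [hF2, hFodef,
        indicator_of_mem (show r + h ∈ Ioi (B.sst + h) from add_lt_add_left hr.1 h)]
      rw [← mul_assoc (Real.exp (2 * (7 / 8) * h)), ← Real.exp_add]
      simp only [add_sub_cancel_right, zero_add, neg_smul, one_smul, map_neg, norm_neg, norm_zero]
      ring_nf
    rw [h5, mul_assoc _ η]
    refine mul_le_mul_of_nonneg_left ?_ (Real.exp_pos _).le
    simp only [hE1]
    rw [mul_left_comm η]
    refine mul_le_mul_of_nonneg_left (hW.trans ?_) (Real.exp_pos _).le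
    have h6 : 0 ≤ Real.exp (-r) * ‖S.mul (wh r) (v r)‖ ^ 2 := by positivity
    have h7 : 0 ≤ C * Real.exp (-s0) * (Real.exp (-r) * ‖S.mul (wh r) (v r)‖ ^ 2) := by positivity
    have h8 := mul_le_mul_of_nonneg_left h3 hC
    have h9 := mul_nonneg hδ hEn
    rw [hη]
    nlinarith
  have hEn : Real.exp (2 * (7 / 8) * (s + h)) *
      N.En (s + h) (U' (s + h) + (-1 : ℝ) • QH (U (s + h - h))) ≤
      B.C * ∫ r in B.sst..(s + h), F2 r := by
    refine le_trans (le_add_of_nonneg_right ?_) i4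
    refine intervalIntegral.integral_nonneg (a1.trans a2) fun r _ => ?_
    exact mul_nonneg (Real.exp_pos _).le (add_nonneg (by positivity) (En_nonneg _ _ _))
  have hfin : N.En (s + h) (U' (s + h) + (-1 : ℝ) • QH (U (s + h - h))) ≤ B.C ^ 2 * η * I := by
    refine le_of_mul_le_mul_left (hEn.trans ?_) (Real.exp_pos (2 * (7 / 8) * (s + h)))
    calc B.C * ∫ r in B.sst..(s + h), F2 r
        ≤ B.C * (Real.exp (2 * (7 / 8) * h) * η * (B.C * (Real.exp (2 * (7 / 8) * s) * I))) := by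
          refine mul_le_mul_of_nonneg_left (hF.trans ?_) hBC.le
          exact mul_le_mul_of_nonneg_left hE (by positivity)
      _ = _ := by rw [mul_add _ s h, Real.exp_add]; ring
  calc _ ≤ _ := hobs
    _ ≤ B.C * (B.C ^ 2 * η * I) := mul_le_mul_of_nonneg_left hfin hBC.le
    _ = _ := by ring

theorem equiv_aux (B : Fb S A N) : ∃ ε : ℝ → ℝ, Tendsto ε atTop (𝓝 0) ∧ ∀ s0, B.sst ≤ s0 →
    ∀ g : ℝ → EuclideanSpace ℝ (Fin B.m), LocAdm s0 g → ∀ h, 0 ≤ h →
    ∀ {v Z v' Z' : ℝ → VV} {U U' : ℝ → L2}, FbSol B (fun _ => 0) g v Z U →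
      FbSol B (fun _ => 0) (fun r => g (r - h)) v' Z' U' → ∀ s,
      ‖B.obs (s + h) (U' (s + h)) - B.obs s (U s)‖ ^ 2 ≤
        ε s0 * ∫ r in Ioc s0 s, Real.exp (-(2 * (7 / 8) * (s - r))) * ‖g r‖ ^ 2 := by
  have hB := B.C_pos
  choose! C hC0 hC using fun δ (hδ : 0 < δ) => tr_exists B δ hδ
  obtain ⟨ε, hε, hle⟩ := eps_exists (fun δ => B.C ^ 3 * C (δ / B.C ^ 3))
    (fun δ hδ => mul_nonneg (by positivity) (hC0 _ (by positivity)))
  refine ⟨ε, hε, fun s0 hs0 g hg h hh v Z v' Z' U U' h1 h2 s => ?_⟩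
  refine hle s0 _ _ (integral_nonneg fun r => by positivity) fun δ hδ => ?_
  obtain ⟨P, Q, QH, W, hT⟩ := hC (δ / B.C ^ 3) (by positivity) h hh
  refine (tr_est hT (by positivity) (hC0 _ (by positivity)) hh hs0 hg h1 h2 s).trans (le_of_eq ?_)
  congr 1
  field_simp

end Crest.Agent.R213.Eqv
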