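import Crest.Agent.R213.EqvC

/-! # R213 / EqvK2 : the `V`-norm of `comb c h` (aux prefix `ek2_`) -/

set_option autoImplicit false

open MeasureTheory Set Filter Topology
open scoped ContDiff InnerProductSpace

namespace Crest.Agent.R213.Eqv

theorem ek2_J : Icc (1 / 8 : ℝ) (3 / 16) ⊆ Ioo (0 : ℝ) 1 := fun _ hx =>
  ⟨by linarith [hx.1], by linarith [hx.2]⟩

theorem ek2_jet_cont (h : L2) {f : ℝ → ℝ} (hf : ContDiffOn ℝ 2 f (Ioo 0 1)) :
    ContinuousOn (jet f h) (Ioo 0 1) := by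
  have h1 : ContinuousOn f (Ioo 0 1) := hf.continuousOn
  have h2 : ContinuousOn (deriv f) (Ioo 0 1) :=
    hf.continuousOn_deriv_of_isOpen isOpen_Ioo (by norm_num)
  have h3 : ContinuousOn (xi h) (Ioo 0 1) := (xi_contDiffOn h).continuousOn
  have h4 : ContinuousOn (deriv (xi h)) (Ioo 0 1) :=
    (xi_contDiffOn h).continuousOn_deriv_of_isOpen isOpen_Ioo (by norm_num)
  have h5 : ContinuousOn (sig h) (Ioo 0 1) := fun x hx =>
    (hasDerivAt_sig h hx).continuousAt.continuousWithinAt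
  have h6 := sig1_continuousOn h
  exact (((((h1.pow 2).add (h2.pow 2)).add (h3.pow 2)).add (h4.pow 2)).add (h5.pow 2)).add
    (h6.pow 2)

theorem ek2_jet_Icc (h : L2) {f : ℝ → ℝ} (hf : ContDiffOn ℝ 2 f (Ioo 0 1)) :
    IntegrableOn (jet f h) (Icc (1 / 8 : ℝ) (3 / 16)) :=
  ((ek2_jet_cont h hf).mono ek2_J).integrableOn_Icc

theorem jet_integrableOn {h : L2} {f : ℝ → ℝ} (hf : ContDiffOn ℝ 2 f (Ioo 0 1)) :
    IntegrableOn (jet f h) (Ioo (1 / 8 : ℝ) (3 / 16)) :=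
  (ek2_jet_Icc h hf).mono_set Ioo_subset_Icc_self

theorem ek2_jet_nonneg (f : ℝ → ℝ) (h : L2) (x : ℝ) : 0 ≤ jet f h x := by
  unfold jet; positivity

theorem ek2_cf_div {c : ℝ → ℝ} (hc : Cf c) : Cf fun x => c x / (x * (1 - x)) ^ 2 := by
  refine ⟨contDiff_iff_contDiffAt.2 fun x => ?_, fun x hx => by simp only [hc.2 x hx, zero_div]⟩
  by_cases hx : x ∈ Icc (1 / 8 : ℝ) (3 / 16)
  · have h1 := ek2_J hx
    exact hc.1.contDiffAt.div ((contDiffAt_id.mul (contDiffAt_const.sub contDiffAt_id)).pow 2)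
      (pow_ne_zero 2 (mul_ne_zero h1.1.ne' (sub_pos.2 h1.2).ne'))
  · refine (contDiffAt_const (c := (0 : ℝ))).congr_of_eventuallyEq ?_
    filter_upwards [isClosed_Icc.isOpen_compl.mem_nhds hx] with y hy
    simp only [hc.2 y hy, zero_div]

theorem ek2_comb_sq {c : Fin 4 → ℝ → ℝ} (hc : ∀ i, Cf (c i)) : ∃ M : ℝ, 0 < M ∧
    ∀ (h : L2) (f : ℝ → ℝ) (x : ℝ), comb c h x ^ 2 ≤ M * jet f h x := by
  choose M hM0 hM using fun i => (hc i).bdd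
  refine ⟨M 0 ^ 2 + M 1 ^ 2 + M 2 ^ 2 + M 3 ^ 2, by have := hM0 0; positivity, fun h f x => ?_⟩
  have b : ∀ i, c i x ^ 2 ≤ M i ^ 2 := fun i => by
    rw [← sq_abs]; exact pow_le_pow_left₀ (abs_nonneg _) (hM i x) 2
  have cs : comb c h x ^ 2 ≤ (c 0 x ^ 2 + c 1 x ^ 2 + c 2 x ^ 2 + c 3 x ^ 2) *
      (xi h x ^ 2 + deriv (xi h) x ^ 2 + sig h x ^ 2 + sig1 h x ^ 2) := by
    unfold comb
    generalize xi h x = p
    generalize deriv (xi h) x = q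
    generalize sig h x = r
    generalize sig1 h x = s
    generalize c 0 x = a0
    generalize c 1 x = a1
    generalize c 2 x = a2
    generalize c 3 x = a3
    nlinarith [sq_nonneg (a0 * q - a1 * p), sq_nonneg (a0 * r - a2 * p), sq_nonneg (a0 * s - a3 * p),
      sq_nonneg (a1 * r - a2 * q), sq_nonneg (a1 * s - a3 * q), sq_nonneg (a2 * s - a3 * r)]
  refine cs.trans (mul_le_mul (by linarith [b 0, b 1, b 2, b 3]) ?_ (by positivity) (by positivity))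
  unfold jet
  nlinarith [sq_nonneg (f x), sq_nonneg (deriv f x)]

theorem ek2_mul_sq {g : ℝ → ℝ} (hg : Cf g) : ∃ M : ℝ, 0 < M ∧
    ∀ (h : L2) (f : ℝ → ℝ) (x : ℝ), (g x * f x) ^ 2 ≤ M * jet f h x ∧
      (g x * deriv f x) ^ 2 ≤ M * jet f h x := by
  obtain ⟨M, hM0, hM⟩ := hg.bdd
  refine ⟨M ^ 2, by positivity, fun h f x => ?_⟩
  have b : g x ^ 2 ≤ M ^ 2 := by
    rw [← sq_abs]; exact pow_le_pow_left₀ (abs_nonneg _) (hM x) 2
  have p1 := sq_nonneg (f x)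
  have p2 := sq_nonneg (deriv f x)
  have p3 := sq_nonneg (xi h x)
  have p4 := sq_nonneg (deriv (xi h) x)
  have p5 := sq_nonneg (sig h x)
  have p6 := sq_nonneg (sig1 h x)
  rw [mul_pow, mul_pow]
  constructor
  · exact mul_le_mul b (by unfold jet; linarith) p1 (by positivity)
  · exact mul_le_mul b (by unfold jet; linarith) p2 (by positivity)

theorem ek2_d1 {c : Fin 4 → ℝ → ℝ} (hc : ∀ i, Cf (c i)) {h : L2} {f : ℝ → ℝ}
    (hf : ContDiffOn ℝ 2 f (Ioo 0 1)) (he : hv h =ᵐ[ν] f) {x : ℝ} (hx : x ∈ Ioo (0 : ℝ) 1) :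
    deriv (comb c h) x = comb (dc c) h x + c 3 x / (x * (1 - x)) ^ 2 * f x := by
  rw [(comb_hasDerivAt hc hf he hx).deriv]; ring

theorem ek2_d2 {c : Fin 4 → ℝ → ℝ} (hc : ∀ i, Cf (c i)) {h : L2} {f : ℝ → ℝ}
    (hf : ContDiffOn ℝ 2 f (Ioo 0 1)) (he : hv h =ᵐ[ν] f) {x : ℝ} (hx : x ∈ Ioo (0 : ℝ) 1) :
    deriv (deriv (comb c h)) x = comb (dc (dc c)) h x + dc c 3 x / (x * (1 - x)) ^ 2 * f x +
      (deriv (fun y => c 3 y / (y * (1 - y)) ^ 2) x * f x +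
        c 3 x / (x * (1 - x)) ^ 2 * deriv f x) := by
  have e : deriv (comb c h) =ᶠ[𝓝 x]
      fun y => comb (dc c) h y + c 3 y / (y * (1 - y)) ^ 2 * f y := by
    filter_upwards [isOpen_Ioo.mem_nhds hx] with y hy using ek2_d1 hc hf he hy
  rw [e.deriv_eq]
  have h1 := comb_hasDerivAt (cf_dc hc) hf he hx
  have h2 : HasDerivAt (fun y => c 3 y / (y * (1 - y)) ^ 2)
      (deriv (fun y => c 3 y / (y * (1 - y)) ^ 2) x) x :=
    ((ek2_cf_div (hc 3)).1.differentiable (by simp) x).hasDerivAt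
  have h3 : HasDerivAt f (deriv f x) x :=
    ((hf.differentiableOn (by norm_num)).differentiableAt (isOpen_Ioo.mem_nhds hx)).hasDerivAt
  rw [(h1.fun_add (h2.fun_mul h3)).deriv]
  ring

theorem ek2_alg {x a a1 a2 a3 a3' a4 a5 j M0 M1 M2 M3 M4 M5 : ℝ} (x1 : 1 / 8 ≤ x) (x2 : x ≤ 3 / 16)
    (c0 : a ^ 2 ≤ M0 * j) (c1 : a1 ^ 2 ≤ M1 * j) (c2 : a2 ^ 2 ≤ M2 * j) (c3 : a3 ^ 2 ≤ M3 * j)
    (c3' : a3' ^ 2 ≤ M3 * j) (c4 : a4 ^ 2 ≤ M4 * j) (c5 : a5 ^ 2 ≤ M5 * j) :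
    (a / (x * (1 - x) ^ 2)) ^ 2 + ((a1 + a3) / (1 - x)) ^ 2 + (x * (a2 + a4 + (a5 + a3'))) ^ 2 ≤
      (1024 * M0 + 8 * (M1 + M3) + 4 * (M2 + M4 + M5 + M3)) * j := by
  have y1 : 1 / 2 ≤ 1 - x := by linarith
  have y0 : 1 / 4 ≤ (1 - x) ^ 2 := by nlinarith
  have y2 : 1 / 32 ≤ x * (1 - x) ^ 2 := by nlinarith
  have t0 : (a / (x * (1 - x) ^ 2)) ^ 2 ≤ 1024 * a ^ 2 := by
    rw [div_pow, div_le_iff₀ (by positivity)]
    have h1 : 1 / 1024 ≤ (x * (1 - x) ^ 2) ^ 2 := by nlinarith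
    have h2 := mul_le_mul_of_nonneg_left h1 (sq_nonneg a)
    linarith
  have t1 : ((a1 + a3) / (1 - x)) ^ 2 ≤ 4 * (a1 + a3) ^ 2 := by
    rw [div_pow, div_le_iff₀ (by positivity)]
    have h2 := mul_le_mul_of_nonneg_left y0 (sq_nonneg (a1 + a3))
    linarith
  have t2 : (x * (a2 + a4 + (a5 + a3'))) ^ 2 ≤ (a2 + a4 + (a5 + a3')) ^ 2 := by
    rw [mul_pow]
    exact mul_le_of_le_one_left (sq_nonneg _) (by nlinarith)
  have t3 : (a1 + a3) ^ 2 ≤ 2 * (a1 ^ 2 + a3 ^ 2) := by nlinarith [sq_nonneg (a1 - a3)]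
  have t4 : (a2 + a4 + (a5 + a3')) ^ 2 ≤ 4 * (a2 ^ 2 + a4 ^ 2 + a5 ^ 2 + a3' ^ 2) := by
    nlinarith [sq_nonneg (a2 - a4), sq_nonneg (a2 - a5), sq_nonneg (a2 - a3'), sq_nonneg (a4 - a5),
      sq_nonneg (a4 - a3'), sq_nonneg (a5 - a3')]
  have e : (1024 * M0 + 8 * (M1 + M3) + 4 * (M2 + M4 + M5 + M3)) * j = 1024 * (M0 * j) +
      8 * (M1 * j + M3 * j) + 4 * (M2 * j + M4 * j + M5 * j + M3 * j) := by ring
  rw [e]
  linarith

/-- pointwise on `(0,1)`, with `k = comb c h`, `e = f/φ0²`: `k' = comb (dc c) h + c₃ e`,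
`k'' = comb (dc (dc c)) h + (dc c)₃ e + c₃' e + c₃ e'` (`comb_hasDerivAt` twice); on `J` `|e|, |e'| ≤ C (|f| + |f'|)`;
outside `J` all three vanish. -/
theorem comb_ptw {c : Fin 4 → ℝ → ℝ} (hc : ∀ i, Cf (c i)) : ∃ C : ℝ, 0 < C ∧ ∀ (h : L2) (f : ℝ → ℝ),
    ContDiffOn ℝ 2 f (Ioo 0 1) → hv h =ᵐ[ν] f → ∀ x ∈ Ioo (0 : ℝ) 1,
      (comb c h x / (x * (1 - x) ^ 2)) ^ 2 + (deriv (comb c h) x / (1 - x)) ^ 2 +
        (x * deriv (deriv (comb c h)) x) ^ 2 ≤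
      (Icc (1 / 8 : ℝ) (3 / 16)).indicator (fun x => C * jet f h x) x := by
  obtain ⟨M0, p0, b0⟩ := ek2_comb_sq hc
  obtain ⟨M1, p1, b1⟩ := ek2_comb_sq (cf_dc hc)
  obtain ⟨M2, p2, b2⟩ := ek2_comb_sq (cf_dc (cf_dc hc))
  obtain ⟨M3, p3, b3⟩ := ek2_mul_sq (ek2_cf_div (hc 3))
  obtain ⟨M4, p4, b4⟩ := ek2_mul_sq (ek2_cf_div (cf_dc hc 3))
  obtain ⟨M5, p5, b5⟩ := ek2_mul_sq (ek2_cf_div (hc 3)).der
  refine ⟨1024 * M0 + 8 * (M1 + M3) + 4 * (M2 + M4 + M5 + M3), by positivity,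
    fun h f hf he x hx => ?_⟩
  rw [ek2_d1 hc hf he hx, ek2_d2 hc hf he hx]
  by_cases hJ : x ∈ Icc (1 / 8 : ℝ) (3 / 16)
  · rw [indicator_of_mem hJ]
    have c0 := b0 h f x
    have c1 := b1 h f x
    have c2 := b2 h f x
    obtain ⟨c3, c3'⟩ := b3 h f x
    have c4 := (b4 h f x).1
    have c5 := (b5 h f x).1
    exact ek2_alg hJ.1 hJ.2 c0 c1 c2 c3 c3' c4 c5
  · rw [indicator_of_notMem hJ, comb_zero hc h hJ, comb_zero (cf_dc hc) h hJ,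
      comb_zero (cf_dc (cf_dc hc)) h hJ, (hc 3).2 x hJ, (cf_dc hc 3).2 x hJ,
      (ek2_cf_div (hc 3)).der.2 x hJ]
    simp

/-- `exists_rep` (the three functions are continuous on `(0,1)` and bounded by `comb_ptw`), `norm_sq_V`, `Rep.d`. -/
theorem comb_rep {c : Fin 4 → ℝ → ℝ} (hc : ∀ i, Cf (c i)) : ∃ C : ℝ, 0 < C ∧ ∀ (h : L2) (f : ℝ → ℝ),
    ContDiffOn ℝ 2 f (Ioo 0 1) → hv h =ᵐ[ν] f → ∃ w : VV, Rep w (comb c h) ∧
      ‖w‖ ^ 2 ≤ C * ∫ x in Ioo (1 / 8 : ℝ) (3 / 16), jet f h x := by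
  obtain ⟨C, hC, hb⟩ := comb_ptw hc
  refine ⟨C, hC, fun h f hf he => ?_⟩
  have hk := comb_contDiffOn hc hf he
  have k0 : ContinuousOn (comb c h) (Ioo 0 1) := hk.continuousOn
  have hk1 : ContDiffOn ℝ 1 (deriv (comb c h)) (Ioo 0 1) :=
    hk.deriv_of_isOpen isOpen_Ioo (by norm_num)
  have k1 : ContinuousOn (deriv (comb c h)) (Ioo 0 1) := hk1.continuousOn
  have k2 : ContinuousOn (deriv (deriv (comb c h))) (Ioo 0 1) :=
    hk1.continuousOn_deriv_of_isOpen isOpen_Ioo le_rfl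
  have g0 : ContinuousOn (fun x => comb c h x / (x * (1 - x) ^ 2)) (Ioo 0 1) :=
    k0.div (by fun_prop) fun x hx => mul_ne_zero hx.1.ne' (pow_ne_zero 2 (sub_pos.2 hx.2).ne')
  have g1 : ContinuousOn (fun x => deriv (comb c h) x / (1 - x)) (Ioo 0 1) :=
    k1.div (by fun_prop) fun x hx => (sub_pos.2 hx.2).ne'
  have g2 : ContinuousOn (fun x => x * deriv (deriv (comb c h)) x) (Ioo 0 1) :=
    continuousOn_id.mul k2
  have iI : Integrable ((Icc (1 / 8 : ℝ) (3 / 16)).indicator fun x => C * jet f h x) ν :=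
    ((integrable_indicator_iff measurableSet_Icc).2
      ((ek2_jet_Icc h hf).const_mul C)).integrableOn
  have hae : ∀ᵐ x ∂ν, (comb c h x / (x * (1 - x) ^ 2)) ^ 2 + (deriv (comb c h) x / (1 - x)) ^ 2 +
      (x * deriv (deriv (comb c h)) x) ^ 2 ≤
      (Icc (1 / 8 : ℝ) (3 / 16)).indicator (fun x => C * jet f h x) x := by
    filter_upwards [ae_restrict_mem measurableSet_Ioo] with x hx using hb h f hf he x hx
  have mem : ∀ {g : ℝ → ℝ}, ContinuousOn g (Ioo 0 1) →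
      (∀ᵐ x ∂ν, g x ^ 2 ≤ (Icc (1 / 8 : ℝ) (3 / 16)).indicator (fun x => C * jet f h x) x) →
      MemLp g 2 ν := by
    intro g hg hle
    have m := hg.aestronglyMeasurable (μ := volume) measurableSet_Ioo
    refine (memLp_two_iff_integrable_sq m).2 (iI.mono' (m.pow 2) ?_)
    filter_upwards [hle] with x hx
    rwa [Real.norm_eq_abs, abs_of_nonneg (sq_nonneg _)]
  obtain ⟨w, hw⟩ := exists_rep hk
    (mem g0 (hae.mono fun x hx => le_trans (by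
      nlinarith [sq_nonneg (deriv (comb c h) x / (1 - x)),
        sq_nonneg (x * deriv (deriv (comb c h)) x)]) hx))
    (mem g1 (hae.mono fun x hx => le_trans (by
      nlinarith [sq_nonneg (comb c h x / (x * (1 - x) ^ 2)),
        sq_nonneg (x * deriv (deriv (comb c h)) x)]) hx))
    (mem g2 (hae.mono fun x hx => le_trans (by
      nlinarith [sq_nonneg (comb c h x / (x * (1 - x) ^ 2)),
        sq_nonneg (deriv (comb c h) x / (1 - x))]) hx))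
  refine ⟨w, hw, ?_⟩
  obtain ⟨e0, e1, e2⟩ := hw.d
  have e : ∫ x, (Icc (1 / 8 : ℝ) (3 / 16)).indicator (fun x => C * jet f h x) x ∂ν =
      C * ∫ x in Ioo (1 / 8 : ℝ) (3 / 16), jet f h x := by
    rw [setIntegral_indicator measurableSet_Icc, inter_eq_right.2 ek2_J,
      integral_Icc_eq_integral_Ioo, integral_const_mul]
  rw [norm_sq_V, ← e]
  refine integral_mono_of_nonneg (Eventually.of_forall fun x => by positivity) iI ?_
  filter_upwards [e0, e1, e2, hae] with x a0 a1 a2 hx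
  rw [a0, a1, a2]
  exact hx

end Crest.Agent.R213.Eqv
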