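import Crest.Agent.R213.EqvK1
import Crest.Agent.R213.EqvK2

/-! # R213 / EqvK : the operator `K` on `V` (aux prefix `ek_`) -/

set_option autoImplicit false

open MeasureTheory Set Filter Topology
open scoped ContDiff InnerProductSpace

namespace Crest.Agent.R213.Eqv

/-- `lift` for `A = KH ∘ ι` (`comb_rep`, `jet_le`, `ext_hv`); `KV u = w` by injectivity of `ι`. -/
theorem kop_exists (S : Sp) {c : Fin 4 → ℝ → ℝ} (hc : ∀ i, Cf (c i)) :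
    ∃ KH KV C, Kop S c KH KV C := by
  obtain ⟨KH, hKH⟩ := kH_exists hc
  obtain ⟨C1, hC1, h1⟩ := comb_rep hc
  obtain ⟨C2, hC2, h2⟩ := jet_le S
  have key : ∀ u f, Test f → Rep u f → ∃ w : VV, S.T.ι w = KH (S.T.ι u) ∧
      ‖w‖ ^ 2 ≤ C1 * ∫ x in Ioo (1 / 8 : ℝ) (3 / 16), jet f (S.T.ι u) x := by
    intro u f hf hu
    obtain ⟨w, hw, hle⟩ := h1 (S.T.ι u) f hf.1.contDiffOn ((S.ι_eq u).trans hu.d.1)
    exact ⟨w, ext_hv (((S.ι_eq w).trans hw.d.1).trans (hKH _).symm), hle⟩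
  obtain ⟨KV, hι, -⟩ := lift S (KH.comp S.T.ι) (√(C1 * C2)) (fun u f hf hu => by
    obtain ⟨w, hw, hle⟩ := key u f hf hu
    refine ⟨w, hw, ?_⟩
    refine le_of_sq_le_sq ?_ (by positivity)
    rw [mul_pow, Real.sq_sqrt (by positivity), mul_assoc]
    exact hle.trans (mul_le_mul_of_nonneg_left (h2 u f hf hu) hC1.le))
  refine ⟨KH, KV, C1, hc, hC1, hKH, hι, fun u f hf hu => ?_⟩
  obtain ⟨w, hw, hle⟩ := key u f hf hu
  rwa [S.T.inj ((hι u).trans hw.symm)]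

theorem Kop.d0_eq {S : Sp} {c : Fin 4 → ℝ → ℝ} {KH : L2 →L[ℝ] L2} {KV : VV →L[ℝ] VV} {C : ℝ}
    (hK : Kop S c KH KV C) (u : VV) : d0 (KV u) =ᵐ[ν] comb c (S.T.ι u) := by
  refine (S.ι_eq (KV u)).symm.trans ?_
  rw [hK.hι]
  exact hK.hH _

end Crest.Agent.R213.Eqv
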