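import Crest.Agent.R213.EqvD
import Crest.Agent.R213.EqvK

/-! # R213 / EqvG : the intertwining relations (aux prefix `eg_`) -/

set_option autoImplicit false

open MeasureTheory Set Filter Topology
open scoped ContDiff InnerProductSpace

namespace Crest.Agent.R213.Eqv

variable {S : Sp} {κ : ℝ} {DH KH : L2 →L[ℝ] L2} {D KV : VV →L[ℝ] VV} {c : Fin 4 → ℝ → ℝ} {C : ℝ}

/-- `ι_mul` (`mult_sm`), `Dil.hι`, `Kop.hι`. -/
theorem ιQ_eq (hD : Dil S κ DH D) (hK : Kop S c KH KV C) (t : ℝ) (u : VV) :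
    S.T.ι (opQ S κ t D KV u) = opQH S κ t DH KH (S.T.ι u) := by
  obtain ⟨N1, m1⟩ := mult_sm om_sm
  obtain ⟨N2, m2⟩ := mult_sm chi2_sm
  simp only [opQ, opQH, smul_apply, ContinuousLinearMap.comp_apply, add_apply, map_smul,
    S.ι_mul m1, hD.hι, map_add, S.ι_mul m2, hK.hι]

theorem d0_Q (hD : Dil S κ DH D) (hK : Kop S c KH KV C) (t : ℝ) (u : VV) :
    d0 (opQ S κ t D KV u) =ᵐ[ν] fun x =>
      t / κ ^ 2 * ((1 - x) ^ 2 * dl κ (fun y => chi2 y * d0 u y + comb c (S.T.ι u) y) x) := by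
  obtain ⟨N1, m1⟩ := mult_sm om_sm
  obtain ⟨N2, m2⟩ := mult_sm chi2_sm
  have e : opQ S κ t D KV u = (t / κ ^ 2) • S.mul om (D (S.mul chi2 u + (1 : ℝ) • KV u)) := by
    simp only [opQ, smul_apply, ContinuousLinearMap.comp_apply, add_apply, one_smul]
  have e1 : d0 (S.mul chi2 u + (1 : ℝ) • KV u) =ᵐ[ν]
      fun y => chi2 y * d0 u y + comb c (S.T.ι u) y := by
    filter_upwards [(d_add_smul (S.mul chi2 u) (KV u) 1).1, (S.mul_eq _ _ m2 u).1, hK.d0_eq u]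
      with y a1 a2 a3
    rw [a1, a2, a3, one_mul]
  rw [e]
  filter_upwards [(d_smul (S.mul om (D (S.mul chi2 u + (1 : ℝ) • KV u))) (t / κ ^ 2)).1,
    (S.mul_eq _ _ m1 (D (S.mul chi2 u + (1 : ℝ) • KV u))).1,
    hD.d0_eq (S.mul chi2 u + (1 : ℝ) • KV u), dl_congr hD.pos e1] with x a1 a2 a3 a4
  rw [a1, a2, a3, a4, om]

/-- By density (`S.T.dense`, `V_ind`) take `k = ι u`, `Rep u f`, `Test f`.  `G_of_rep` with
`ξ̃ x = t (chi (x/κ) xi k (x/κ))` (`sig_reg` with `n = 2`, `Dil.rep_P`, `G_rep`); `hv (QH k) = d0 (Q u)` (`ιQ_eq`, `ι_eq`, `d0_Q`);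
`(C0 ξ̃)'' x = t/κ⁴ (C0 (chi ξ))'' (x/κ)` (`C0_dil`, `deriv_dil` twice); `KForm` at `y = x/κ < 1`; for `y ≥ 1`
`chi ξ` vanishes near `y`, hence so do `C0 (chi ξ)` and its derivatives (`Filter.EventuallyEq.deriv`). -/
theorem GQ_eq (hD : Dil S κ DH D) (hK : Kop S c KH KV C) (hF : KForm c) (t : ℝ) (k : L2) :
    S.T.G (opQH S κ t DH KH k) = opP S t D (S.T.G k) := by
  have hκ := hD.pos
  have cl : Continuous fun k => S.T.G (opQH S κ t DH KH k) :=
    S.T.G.continuous.comp (opQH S κ t DH KH).continuous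
  have cr : Continuous fun k => opP S t D (S.T.G k) :=
    (opP S t D).continuous.comp S.T.G.continuous
  refine S.T.dense.induction_on (p := fun k => S.T.G (opQH S κ t DH KH k) = opP S t D (S.T.G k)) k
    (isClosed_eq cl cr) fun u => ?_
  refine V_ind (P := fun u => S.T.G (opQH S κ t DH KH (S.T.ι u)) = opP S t D (S.T.G (S.T.ι u)))
    (isClosed_eq (cl.comp S.T.ι.continuous) (cr.comp S.T.ι.continuous)) (fun u f hf hu => ?_) u
  have he : hv (S.T.ι u) =ᵐ[ν] f := (S.ι_eq u).trans hu.d.1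
  have h2 : ContDiffOn ℝ (2 : ℕ) f (Ioo 0 1) := hf.1.contDiffOn
  have h4 : ContDiffOn ℝ (4 : ℕ) (xi (S.T.ι u)) (Ioo 0 1) :=
    (sig_reg _ h2 he).2.1.of_le (by norm_cast)
  obtain ⟨r1, r2⟩ := hD.rep_P t h4
  refine S.G_of_rep r1 (r2 (by norm_num) _ (S.G_rep _)) ?_
  have e1 : (fun y => chi2 y * d0 u y + comb c (S.T.ι u) y) =ᵐ[ν]
      fun y => chi2 y * f y + comb c (S.T.ι u) y := by
    filter_upwards [hu.d.1] with y a
    rw [a]
  have e2 := C0_dil hκ.ne' t fun y => chi y * xi (S.T.ι u) y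
  rw [e2, deriv_dil, deriv_dil, ← ιQ_eq hD hK]
  filter_upwards [S.ι_eq (opQ S κ t D KV u), d0_Q hD hK t u, dl_congr hκ e1,
    ae_restrict_mem measurableSet_Ioo] with x a1 a2 a3 hx
  rw [a1, a2, a3]
  unfold dl
  split_ifs with hlt
  · beta_reduce
    rw [← hF _ f hf.1.contDiffOn he (x / κ) ⟨div_pos hx.1 hκ, (div_lt_one hκ).2 hlt⟩]
    field_simp
  · have h1 : 3 / 16 < x / κ := lt_of_lt_of_le (by norm_num) ((one_le_div hκ).2 (not_lt.1 hlt))
    have z0 : (fun y => chi y * xi (S.T.ι u) y) =ᶠ[𝓝 (x / κ)] fun _ => 0 := by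
      filter_upwards [Ioi_mem_nhds h1] with y hy
      rw [chi_zero (le_of_lt hy), zero_mul]
    have z1 : C0 (fun y => chi y * xi (S.T.ι u) y) =ᶠ[𝓝 (x / κ)] fun _ => 0 := by
      filter_upwards [z0, z0.deriv, z0.deriv.deriv] with y b0 b1 b2
      unfold C0
      beta_reduce
      rw [b0, b1, b2]
      simp
    rw [z1.deriv.deriv_eq]
    simp

end Crest.Agent.R213.Eqv
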