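import Crest.Agent.R213.EqvLift
import Crest.Agent.R213.EqvC

/-! # R213 / EqvK1 : the operator `K` on `H` (aux prefix `ek1_`) -/

set_option autoImplicit false

open MeasureTheory Set Filter Topology
open scoped ContDiff InnerProductSpace

namespace Crest.Agent.R213.Eqv

/-- pointwise bounds on `J` (`xi_bd`, `sig_bd`). -/
theorem jet_bd : ∃ C : ℝ, 0 < C ∧ ∀ h : L2, ∀ x ∈ Icc (1 / 8 : ℝ) (3 / 16),
    |xi h x| ≤ C * ‖h‖ ∧ |deriv (xi h) x| ≤ C * ‖h‖ ∧ |sig h x| ≤ C * ‖h‖ ∧ |sig1 h x| ≤ C * ‖h‖ := by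
  obtain ⟨C1, hC1, h1⟩ := xi_bd
  obtain ⟨C2, hC2, h2⟩ := sig_bd
  refine ⟨C1 + 48 * C2, by positivity, fun h x hx => ?_⟩
  have hx' : x ∈ Ioo (0 : ℝ) 1 := ⟨by linarith [hx.1], by linarith [hx.2]⟩
  obtain ⟨a1, a2, -⟩ := h1 h x hx'
  obtain ⟨a3, a4⟩ := h2 h x hx'
  have s1 : √x ≤ 1 := Real.sqrt_le_one.2 hx'.2.le
  have s2 : 1 / 3 ≤ √x := Real.le_sqrt_of_sq_le (by linarith [hx.1])
  have s3 : 1 / 2 ≤ √(1 - x) := Real.le_sqrt_of_sq_le (by linarith [hx.2])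
  have n1 : 0 ≤ C1 * ‖h‖ := by positivity
  have n2 : 0 ≤ C2 * ‖h‖ := by positivity
  have p0 : 0 ≤ 1 - x := by linarith [hx'.2]
  have p1 : 1 - x ≤ 1 := by linarith [hx'.1]
  have b1 : x * √x * (1 - x) ^ 2 ≤ 1 :=
    mul_le_one₀ (mul_le_one₀ hx'.2.le (Real.sqrt_nonneg _) s1) (sq_nonneg _) (pow_le_one₀ p0 p1)
  have b2 : √x * (1 - x) ≤ 1 := mul_le_one₀ s1 p0 p1
  have b3 : 1 / 8 * (1 / 3) * (1 / 2) ≤ x * √x * √(1 - x) :=
    mul_le_mul (mul_le_mul hx.1 s2 (by norm_num) hx'.1.le) s3 (by norm_num)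
      (mul_nonneg hx'.1.le (Real.sqrt_nonneg _))
  have c1 := mul_le_mul_of_nonneg_left b1 n1
  have c2 := mul_le_mul_of_nonneg_left b2 n1
  have c3 := mul_le_mul_of_nonneg_left s2 (abs_nonneg (sig h x))
  have c4 := mul_le_mul_of_nonneg_left b3 (abs_nonneg (sig1 h x))
  refine ⟨?_, ?_, ?_, ?_⟩ <;> rw [add_mul, mul_assoc] <;> linarith

/-- `sig_lin`; for `deriv (xi ·)` use that the identity holds on the open set `(0,1)` and `xi_contDiffOn`. -/
theorem comb_lin (c : Fin 4 → ℝ → ℝ) (h k : L2) (t : ℝ) {x : ℝ} (hx : x ∈ Ioo (0 : ℝ) 1) :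
    comb c (h + t • k) x = comb c h x + t * comb c k x := by
  obtain ⟨a1, a2, a3⟩ := sig_lin h k t hx
  have e : xi (h + t • k) =ᶠ[𝓝 x] fun y => xi h y + t * xi k y :=
    eventuallyEq_of_mem (isOpen_Ioo.mem_nhds hx) fun y hy => (sig_lin h k t hy).2.2
  have hd : ∀ l : L2, HasDerivAt (xi l) (deriv (xi l) x) x := fun l =>
    (((xi_contDiffOn l).differentiableOn (by norm_num)).differentiableAt
      (isOpen_Ioo.mem_nhds hx)).hasDerivAt
  have a4 : deriv (xi (h + t • k)) x = deriv (xi h) x + t * deriv (xi k) x := by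
    rw [e.deriv_eq]
    exact ((hd h).add ((hd k).const_mul t)).deriv
  unfold comb
  rw [a1, a2, a3, a4]
  ring

/-- `KH h` is the class of `comb c h x / (1 - x)`, continuous on `(0,1)` and bounded by `C ‖h‖`
(`MemLp.of_bound`, `MemLp.toLp`, `LinearMap.mkContinuous`). -/
theorem kH_exists {c : Fin 4 → ℝ → ℝ} (hc : ∀ i, Cf (c i)) :
    ∃ KH : L2 →L[ℝ] L2, ∀ h, hv (KH h) =ᵐ[ν] comb c h := by
  obtain ⟨C, hC, hb⟩ := jet_bd
  choose M hM hM' using fun i => (hc i).bdd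
  have hM0 := hM 0
  have hM1 := hM 1
  have hM2 := hM 2
  have hM3 := hM 3
  obtain ⟨K, hK⟩ := el_mkL2 (fun h x => comb c h x / (1 - x))
    (C := 2 * ((M 0 + M 1 + M 2 + M 3) * C)) (by positivity)
    (fun h => ((comb_continuousOn hc h).div (continuous_const.sub continuous_id).continuousOn
      fun x hx => (sub_pos.2 hx.2).ne').aestronglyMeasurable measurableSet_Ioo)
    (fun h => ⟨fun _ => (2 * ((M 0 + M 1 + M 2 + M 3) * C) * ‖h‖) ^ 2,
      integrableOn_const (by simp), by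
      refine Eventually.of_forall fun x => ?_
      by_cases hx : x ∈ Icc (1 / 8 : ℝ) (3 / 16)
      · obtain ⟨a0, a1, a2, a3⟩ := hb h x hx
        have b : ∀ i (y : ℝ), |y| ≤ C * ‖h‖ → |c i x * y| ≤ M i * (C * ‖h‖) := fun i y hy => by
          rw [abs_mul]; exact mul_le_mul (hM' i x) hy (abs_nonneg _) (hM i).le
        have b1 : |comb c h x| ≤ (M 0 + M 1 + M 2 + M 3) * (C * ‖h‖) := by
          have t0 := abs_le.1 (b 0 _ a0)
          have t1 := abs_le.1 (b 1 _ a1)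
          have t2 := abs_le.1 (b 2 _ a2)
          have t3 := abs_le.1 (b 3 _ a3)
          unfold comb
          rw [abs_le]
          constructor <;> linarith [t0.1, t0.2, t1.1, t1.2, t2.1, t2.2, t3.1, t3.2]
        have p : 0 < 1 - x := by linarith [hx.2]
        refine sq_le_sq' ?_ ?_ <;> [rw [le_div_iff₀ p]; rw [div_le_iff₀ p]] <;>
          nlinarith [abs_le.1 b1, hx.2, abs_nonneg (comb c h x)]
      · simp only [comb_zero hc h hx, zero_div]
        exact le_trans (by norm_num) (sq_nonneg _), by simp⟩)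
    (fun h k t => by
      filter_upwards [ae_restrict_mem measurableSet_Ioo] with x hx
      rw [comb_lin c h k t hx]
      ring)
  refine ⟨K, fun h => ?_⟩
  filter_upwards [hK h, ae_restrict_mem measurableSet_Ioo] with x a hx
  have a1 : 1 - x ≠ 0 := (sub_pos.2 hx.2).ne'
  rw [hv, a]
  field_simp

/-- `f² + f'²` is below the integrand of `norm_sq_V`; the other terms by `jet_bd` and `‖ι u‖ ≤ ‖ι‖ ‖u‖`. -/
theorem jet_le (S : Sp) : ∃ C : ℝ, 0 < C ∧ ∀ u f, Test f → Rep u f →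
    ∫ x in Ioo (1 / 8 : ℝ) (3 / 16), jet f (S.T.ι u) x ≤ C * ‖u‖ ^ 2 := by
  obtain ⟨C, hC, hb⟩ := jet_bd
  refine ⟨1 + 4 * (C * ‖S.T.ι‖) ^ 2, by positivity, fun u f _ hu => ?_⟩
  obtain ⟨m0, m1, m2⟩ := d_memLp u
  have sub : Ioo (1 / 8 : ℝ) (3 / 16) ⊆ Ioo 0 1 := Ioo_subset_Ioo (by norm_num) (by norm_num)
  have i1 : IntegrableOn (fun x => (d0 u x / (x * (1 - x) ^ 2)) ^ 2 + (d1 u x / (1 - x)) ^ 2 +
      (x * d2 u x) ^ 2) (Ioo (0 : ℝ) 1) :=
    (m0.integrable_sq.add m1.integrable_sq).add m2.integrable_sq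
  have i2 : IntegrableOn (fun _ : ℝ => 4 * (C * ‖S.T.ι u‖) ^ 2) (Ioo (0 : ℝ) 1) :=
    integrableOn_const (by simp)
  have k1 : ∫ x in Ioo (1 / 8 : ℝ) (3 / 16), jet f (S.T.ι u) x ≤ ∫ x in Ioo (1 / 8 : ℝ) (3 / 16),
      ((d0 u x / (x * (1 - x) ^ 2)) ^ 2 + (d1 u x / (1 - x)) ^ 2 + (x * d2 u x) ^ 2 +
        4 * (C * ‖S.T.ι u‖) ^ 2) := by
    refine integral_mono_of_nonneg (Eventually.of_forall fun x => by unfold jet; positivity)
      ((i1.add i2).mono_set sub) ?_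
    filter_upwards [ae_restrict_of_ae_restrict_of_subset sub hu.d.1,
      ae_restrict_of_ae_restrict_of_subset sub hu.d.2.1, ae_restrict_mem measurableSet_Ioo]
      with x a0 a1 hx
    obtain ⟨b0, b1, b2, b3⟩ := hb (S.T.ι u) x (Ioo_subset_Icc_self hx)
    have hx0 : 0 < x := (sub hx).1
    have hx1 : 0 < 1 - x := sub_pos.2 (sub hx).2
    have q : ∀ y d : ℝ, 0 < d → d ≤ 1 → y ^ 2 ≤ (y / d) ^ 2 := fun y d h0 h1 => by
      rw [div_pow, le_div_iff₀ (by positivity)]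
      exact mul_le_of_le_one_right (sq_nonneg _) (pow_le_one₀ h0.le h1)
    have q0 := q (f x) (x * (1 - x) ^ 2) (by positivity)
      (mul_le_one₀ (by linarith) (sq_nonneg _) (pow_le_one₀ hx1.le (by linarith)))
    have q1 := q (deriv f x) (1 - x) hx1 (by linarith)
    rw [a0, a1]
    unfold jet
    linarith [sq_le_sq' (abs_le.1 b0).1 (abs_le.1 b0).2, sq_le_sq' (abs_le.1 b1).1 (abs_le.1 b1).2,
      sq_le_sq' (abs_le.1 b2).1 (abs_le.1 b2).2, sq_le_sq' (abs_le.1 b3).1 (abs_le.1 b3).2,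
      sq_nonneg (x * d2 u x)]
  have k2 := setIntegral_mono_set (i1.add i2)
    (Eventually.of_forall fun x => by simp only [Pi.zero_apply, Pi.add_apply]; positivity)
    sub.eventuallyLE
  simp only [Pi.add_apply] at k2
  rw [integral_add i1 i2, ← norm_sq_V, setIntegral_const] at k2
  have k3 : (C * ‖S.T.ι u‖) ^ 2 ≤ (C * (‖S.T.ι‖ * ‖u‖)) ^ 2 :=
    pow_le_pow_left₀ (by positivity) (mul_le_mul_of_nonneg_left (S.T.ι.le_opNorm u) hC.le) 2
  simp only [Real.volume_real_Ioo, sub_zero, zero_le_one, sup_of_le_left, smul_eq_mul, one_mul] at k2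
  nlinarith

end Crest.Agent.R213.Eqv
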