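import Crest.Agent.R213.EqvLift

/-! # R213 / EqvT : the transformed solution (aux prefix `et_`) -/

set_option autoImplicit false

open MeasureTheory Set Filter Topology
open scoped ContDiff InnerProductSpace

namespace Crest.Agent.R213.Eqv

variable {S : Sp} {A : Apx} {N : Anc}

theorem et_shift {B : Fb S A N} {h s1 : ℝ} {Fo : ℝ → VV} {g : ℝ → EuclideanSpace ℝ (Fin B.m)} {v Z : ℝ → VV}
    {U : ℝ → L2} (hs : FbSol B Fo g v Z U) (h1 : B.sst + h ≤ s1) :
    IsSol S.T (B.sst + h) s1 (fun r => v (r - h)) (fun r => Z (r - h)) (fun r => U (r - h)) := by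
  have h2 : IsSol S.T (1 * (B.sst + h) + -h) (1 * s1 + -h) v Z U := by
    rw [one_mul, one_mul, add_neg_cancel_right]
    exact hs.sol _ (by linarith)
  simpa only [one_mul, one_smul, ← sub_eq_add_neg] using h2.affine one_pos

/-- `ṽ = indicator (Ioi (sst+h)) (Q v(· - h))`, `Z̃` likewise with `P`.  `sol`: for `s1 ≥ sst + h` use `IsSol.affine`
(`l = 1`, `k = -h`), `IsSol.map`, `IsSol.extend_zero`, `IsSol.congr` (`U r = 0` for `r ≤ sst`), and `IsSol.mono` in general.
`eqn`: for `r ≤ sst + h` all terms vanish; for `r > sst + h` translate the a.e. statement `eqn` (translation preserves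
Lebesgue measure), apply `P` and use `lin, GQ, Pf, LP` at `s = r - h`. -/
theorem tr_sol {B : Fb S A N} {δ C h : ℝ} {P Q : VV →L[ℝ] VV} {QH : L2 →L[ℝ] L2}
    {W : ℝ → VV →L[ℝ] VV} (hT : Tr B δ C h P Q QH W) (hh : 0 ≤ h)
    {g : ℝ → EuclideanSpace ℝ (Fin B.m)} (hg : ∀ s, s ≤ B.sst → g s = 0) {v Z : ℝ → VV} {U : ℝ → L2}
    (hs : FbSol B (fun _ => 0) g v Z U) :
    ∃ v' Z', FbSol B ((Ioi (B.sst + h)).indicator fun r => W (r - h) (v (r - h)))
      (fun r => g (r - h)) v' Z' (fun r => QH (U (r - h))) := by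
  have hz : ∀ r, r ∉ Ioi (B.sst + h) → U (r - h) = 0 := fun r hr =>
    hs.zero _ (sub_le_iff_le_add.2 (not_lt.1 hr))
  refine ⟨(Ioi (B.sst + h)).indicator fun r => Q (v (r - h)), (Ioi (B.sst + h)).indicator fun r => P (Z (r - h)),
    fun s1 h1 => ?_, QH.continuous.comp (hs.cont.comp (continuous_sub_right h)), fun s h1 => ?_, ?_⟩
  · have h2 : B.sst + h ≤ max s1 (B.sst + h) := le_max_right _ _
    have h3 := ((et_shift hs h2).map Q P QH hT.ιQ hT.GQ).extend_zero (r := B.sst) (by linarith) h2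
      (by rw [hz _ self_notMem_Ioi, map_zero])
    refine (h3.congr (by linarith) (ae_of_all _ fun _ => rfl) (ae_of_all _ fun _ => rfl) fun r _ => ?_).mono
      le_rfl h1 (le_max_left _ _)
    by_cases hr : r ∈ Ioi (B.sst + h)
    · rw [indicator_of_mem hr]
    · rw [indicator_of_notMem hr, hz r hr, map_zero]
  · rw [hs.zero _ (by linarith), map_zero]
  · have h1 := (measurePreserving_sub_right volume h).quasiMeasurePreserving.ae
      ((ae_restrict_iff' measurableSet_Ioi).1 hs.eqn)
    refine ae_restrict_of_ae ?_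
    filter_upwards [h1] with r e
    by_cases hr : r ∈ Ioi (B.sst + h)
    · have hr' : B.sst < r - h := lt_sub_iff_add_lt.2 hr
      have e1 := hT.lin (r - h) (v (r - h)) (U (r - h))
      have e2 := fun i => hT.Pf i (r - h) hr'.le
      have e3 := fun i => hT.LP i (r - h) hr'.le
      rw [sub_add_cancel] at e1 e2 e3
      simp only [indicator_of_mem hr]
      rw [e hr', map_add, map_add, map_zero, add_zero, e1, map_sum]
      simp only [map_smul, e2, hT.GQ, e3]
    · have hg0 : g (r - h) = 0 := hg _ (sub_le_iff_le_add.2 (not_lt.1 hr))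
      simp [indicator_of_notMem hr, hz r hr, hg0, lin0]

/-- `W` is continuous, hence bounded on compact intervals; `v ∈ L²(sst, S - h)`. -/
theorem tr_adm {B : Fb S A N} {h : ℝ} {W : ℝ → VV →L[ℝ] VV} (hW : Continuous W) (hh : 0 ≤ h)
    {Fo : ℝ → VV} {g : ℝ → EuclideanSpace ℝ (Fin B.m)} {v Z : ℝ → VV} {U : ℝ → L2}
    (hs : FbSol B Fo g v Z U) :
    LocAdm B.sst ((Ioi (B.sst + h)).indicator fun r => W (r - h) (v (r - h))) := by
  refine ⟨fun s h1 => indicator_of_notMem (fun h2 => ?_) _, fun s1 => ?_⟩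
  · linarith [mem_Ioi.1 h2]
  rw [memLp_indicator_iff_restrict measurableSet_Ioi, Measure.restrict_restrict measurableSet_Ioi, inter_comm,
    Ioc_inter_Ioi, sup_of_le_right (by linarith)]
  rcases lt_or_ge s1 (B.sst + h) with h1 | h1
  · rw [Ioc_eq_empty (by linarith), Measure.restrict_empty]
    exact memLp_measure_zero
  have h2 := (et_shift hs h1).v2
  have hc : Continuous fun r => W (r - h) := hW.comp (continuous_sub_right h)
  obtain ⟨b, hb⟩ := (isCompact_Icc (a := B.sst + h) (b := s1)).exists_bound_of_continuousOn hc.continuousOn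
  refine h2.of_le_mul (c := b) ?_ ?_
  · exact (isBoundedBilinearMap_apply (𝕜 := ℝ) (E := VV) (F := VV)).continuous.comp_aestronglyMeasurable
      (hc.aestronglyMeasurable.prodMk h2.1)
  · filter_upwards [ae_restrict_mem measurableSet_Ioc] with r hr
    exact (W (r - h)).le_of_opNorm_le (hb r (Ioc_subset_Icc_self hr)) _

end Crest.Agent.R213.Eqv
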