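import Crest.Agent.R213.IEnergy

/-!
# R213 / Ex1 : the regularised ODE `T_δ v' + v = F` and approximate solutions for `A = 1`
-/

set_option autoImplicit false

open MeasureTheory Set
open scoped InnerProductSpace

namespace Crest.Agent.R213

variable {V H : Type} [NormedAddCommGroup V] [InnerProductSpace ℝ V] [CompleteSpace V]
  [NormedAddCommGroup H] [InnerProductSpace ℝ H] [CompleteSpace H]

theorem ex_ftc {k : ℝ → V} (hk : Continuous k) (a s : ℝ) :
    HasDerivAt (fun s => ∫ r in a..s, k r) (k s) s :=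
  intervalIntegral.integral_hasDerivAt_right (hk.intervalIntegrable _ _)
    (hk.stronglyMeasurableAtFilter _ _) hk.continuousAt

/-- linear ODE `y' = B (g - y)`, `y s0 = y0`. -/
theorem ex_ode (B : V →L[ℝ] V) (g : ℝ → V) (hg : Continuous g) (y0 : V) (s0 : ℝ) :
    ∃ y : ℝ → V, y s0 = y0 ∧ ∀ s, HasDerivAt y (B (g s - y s)) s := by
  set E : ℝ → V →L[ℝ] V := fun t => NormedSpace.exp (t • B) with hE
  have hEd : ∀ t, HasDerivAt E (B * E t) t := fun t => hasDerivAt_exp_smul_const' B t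
  have hEc : Continuous E := continuous_iff_continuousAt.2 fun t => (hEd t).continuousAt
  have hEinv : ∀ t, E (-t) * E t = 1 := by
    intro t
    have hc : Commute ((-t) • B) (t • B) := ((Commute.refl B).smul_left _).smul_right _
    have := NormedSpace.exp_add_of_commute_of_mem_ball (𝕂 := ℝ) hc
      ((NormedSpace.expSeries_radius_eq_top ℝ (V →L[ℝ] V)).symm ▸ edist_lt_top _ _)
      ((NormedSpace.expSeries_radius_eq_top ℝ (V →L[ℝ] V)).symm ▸ edist_lt_top _ _)
    simp only [hE]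
    rw [← this, ← add_smul, neg_add_cancel, zero_smul, NormedSpace.exp_zero]
  set k : ℝ → V := fun r => E (r - s0) (B (g r)) with hk
  have hkc : Continuous k :=
    (hEc.comp (continuous_id.sub continuous_const)).clm_apply (B.continuous.comp hg)
  set w : ℝ → V := fun s => y0 + ∫ r in s0..s, k r with hw
  have hwd : ∀ s, HasDerivAt w (k s) s := fun s =>
    (ex_ftc hkc s0 s).const_add y0
  refine ⟨fun s => E (-(s - s0)) (w s), ?_, fun s => ?_⟩
  · simp [hw, hE]
  · have h1 : HasDerivAt (fun s => E (-(s - s0))) ((-1 : ℝ) • (B * E (-(s - s0)))) s := by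
      have h2 : HasDerivAt (fun s : ℝ => -(s - s0)) (-1) s := by
        exact ((hasDerivAt_id s).sub_const s0).neg
      exact HasDerivAt.scomp s (hEd _) h2
    have h3 := h1.clm_apply (hwd s)
    convert h3 using 1
    have h4 : E (-(s - s0)) (k s) = B (g s) := by
      simp only [hk]
      rw [← mul_apply_eq_comp, hEinv]; rfl
    rw [h4, map_sub]
    simp only [neg_smul, one_smul, neg_apply, mul_apply_eq_comp]
    abel

omit [CompleteSpace V] [CompleteSpace H] in
theorem ex_isCoercive (T : Trip V H) : IsCoercive T.a := by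
  obtain ⟨c, hc, h⟩ := T.coer
  exact ⟨c, hc, fun u => by have := h u; nlinarith⟩

omit [CompleteSpace V] [CompleteSpace H] in
theorem ex_nondeg (T : Trip V H) {x y : V} (h : ∀ w, T.a x w = T.a y w) : x = y := by
  obtain ⟨c, hc, hco⟩ := T.coer
  have h1 := hco (x - y)
  have h0 : T.a (x - y) (x - y) = 0 := by
    rw [map_sub T.a x y, sub_apply, h, sub_self]
  rw [h0] at h1
  have h2 : ‖x - y‖ ^ 2 ≤ 0 := by
    by_contra h3
    push Not at h3
    have := mul_pos hc h3
    linarith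
  have h3 : ‖x - y‖ = 0 := by
    have := sq_nonneg ‖x - y‖
    exact pow_eq_zero_iff (two_ne_zero) |>.1 (le_antisymm h2 this)
  exact sub_eq_zero.1 (norm_eq_zero.1 h3)

omit [CompleteSpace H] in
theorem ex_A0 (T : Trip V H) : ∃ A0 : V →L[ℝ] V, ∀ u w, T.a (A0 u) w = ⟪u, w⟫_ℝ := by
  refine ⟨((ex_isCoercive T).continuousLinearEquivOfBilin.symm : V →L[ℝ] V), fun u w => ?_⟩
  rw [← (ex_isCoercive T).continuousLinearEquivOfBilin_apply]
  simp

omit [CompleteSpace H] in
theorem ex_B (T : Trip V H) (A0 : V →L[ℝ] V) (hA0 : ∀ u w, T.a (A0 u) w = ⟪u, w⟫_ℝ)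
    {δ : ℝ} (hδ : 0 < δ) : ∃ B : V →L[ℝ] V, ∀ u, T.G (T.ι (B u)) + δ • A0 (B u) = u := by
  set b : V →L[ℝ] V →L[ℝ] ℝ := T.a.comp (T.G.comp T.ι + δ • A0) with hb
  have hbe : ∀ u w, b u w = ⟪T.ι u, T.ι w⟫_ℝ + δ * ⟪u, w⟫_ℝ := by
    intro u w
    simp [hb, T.hG, hA0]
  have hco : IsCoercive b := ⟨δ, hδ, fun u => by
    rw [hbe, real_inner_self_eq_norm_sq, real_inner_self_eq_norm_sq]
    nlinarith [sq_nonneg ‖T.ι u‖]⟩
  refine ⟨(hco.continuousLinearEquivOfBilin.symm : V →L[ℝ] V).comp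
    ((ex_isCoercive T).continuousLinearEquivOfBilin : V →L[ℝ] V), fun u => ?_⟩
  apply ex_nondeg T
  intro w
  rw [← (ex_isCoercive T).continuousLinearEquivOfBilin_apply u w]
  have h1 := hco.continuousLinearEquivOfBilin_apply
    (hco.continuousLinearEquivOfBilin.symm ((ex_isCoercive T).continuousLinearEquivOfBilin u)) w
  rw [ContinuousLinearEquiv.apply_symm_apply] at h1
  rw [h1]
  simp [hb]

omit [CompleteSpace V] [CompleteSpace H] in
theorem ex_a_le (T : Trip V H) (u w : V) : T.a u w ≤ ‖T.a‖ * ‖u‖ * ‖w‖ :=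
  (le_abs_self _).trans (T.a.le_opNorm₂ u w)

/-- approximate solutions for `A = 1` and `C¹` data. -/
theorem ex_approx (T : Trip V H) {s0 s1 : ℝ} (h01 : s0 ≤ s1) (F g : ℝ → V)
    (hF : ∀ s, HasDerivAt F (g s) s) (hg : Continuous g) {ε : ℝ} (hε : 0 < ε) :
    ∃ (v Z F' : ℝ → V) (U : ℝ → H), IsSol T s0 s1 v Z U ∧ U s0 = 0 ∧
      (∀ s, Z s = -(v s) + F' s) ∧ Continuous F' ∧ ∫ q in s0..s1, ‖F' q - F q‖ ^ 2 ≤ ε := by
  obtain ⟨A0, hA0⟩ := ex_A0 T
  obtain ⟨c, hc, hco⟩ := T.coer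
  have hFc : Continuous F := continuous_iff_continuousAt.2 fun t => (hF t).continuousAt
  set M := ‖T.a‖ with hM
  set J := ∫ q in s0..s1, ‖g q‖ ^ 2 with hJ
  have hJ0 : 0 ≤ J := intervalIntegral.integral_nonneg h01 fun q _ => by positivity
  set K := ‖A0‖ ^ 2 / c * (M ^ 2 * ‖F s0‖ ^ 2 + M ^ 2 / c * J) with hK
  have hK0 : 0 ≤ K := by positivity
  set δ := min 1 (ε / (K + 1)) with hδ
  have hδ0 : 0 < δ := lt_min one_pos (by positivity)
  have hδ1 : δ ≤ 1 := min_le_left _ _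
  have hδK : δ * K ≤ ε := by
    have h1 : δ ≤ ε / (K + 1) := min_le_right _ _
    rw [le_div_iff₀ (by positivity)] at h1
    nlinarith
  obtain ⟨B, hB⟩ := ex_B T A0 hA0 hδ0
  obtain ⟨y, hy0, hy⟩ := ex_ode B g hg (B (F s0)) s0
  have hyc : Continuous y := continuous_iff_continuousAt.2 fun t => (hy t).continuousAt
  set v : ℝ → V := fun s => ∫ r in s0..s, y r with hv
  have hvd : ∀ s, HasDerivAt v (y s) s := fun s => ex_ftc hyc s0 s
  have hvc : Continuous v := continuous_iff_continuousAt.2 fun t => (hvd t).continuousAt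
  set Td : V →L[ℝ] V := T.G.comp T.ι + δ • A0 with hTd
  have hTdB : ∀ u, Td (B u) = u := fun u => by simpa [hTd] using hB u
  have hid : ∀ s, Td (y s) + v s - F s = 0 := by
    have hd : ∀ s, HasDerivAt (fun s => Td (y s) + v s - F s) 0 s := by
      intro s
      have h1 := ((Td.hasFDerivAt.comp_hasDerivAt s (hy s)).add (hvd s)).sub (hF s)
      rw [hTdB] at h1
      have h2 : g s - y s + y s - g s = 0 := by abel
      rw [h2] at h1
      exact h1
    intro s
    have h2 := is_const_of_deriv_eq_zero (fun s => (hd s).differentiableAt)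
      (fun s => (hd s).deriv) s s0
    rw [h2, hy0, hTdB]
    simp [hv]
  have hform : ∀ u w, T.a (Td u) w = ⟪T.ι u, T.ι w⟫_ℝ + δ * ⟪u, w⟫_ℝ := by
    intro u w
    simp [hTd, T.hG, hA0]
  -- energy
  set e : ℝ → ℝ := fun s => T.a (Td (y s)) (y s) with he
  have he0 : ∀ s, δ * ‖y s‖ ^ 2 ≤ e s := by
    intro s
    simp only [he]
    rw [hform, real_inner_self_eq_norm_sq, real_inner_self_eq_norm_sq]
    nlinarith [sq_nonneg ‖T.ι (y s)‖]
  have hed : ∀ s, HasDerivAt e (2 * T.a (g s - y s) (y s)) s := by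
    intro s
    have h1 := ((T.a.comp Td).hasFDerivAt.comp_hasDerivAt s (hy s)).clm_apply (hy s)
    have h2 : HasDerivAt e (T.a (Td (B (g s - y s))) (y s) + T.a (Td (y s)) (B (g s - y s))) s := h1
    convert h2 using 1
    rw [hTdB, hform (y s), real_inner_comm (T.ι (B (g s - y s))), real_inner_comm (B (g s - y s)),
      ← hform, hTdB]
    ring
  have hec : Continuous fun s => 2 * T.a (g s - y s) (y s) :=
    continuous_const.mul ((T.a.continuous.comp (hg.sub hyc)).clm_apply hyc)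
  have hint := intervalIntegral.integral_eq_sub_of_hasDerivAt (fun s _ => hed s)
    (hec.intervalIntegrable s0 s1)
  have hpt : ∀ s, 2 * T.a (g s - y s) (y s) ≤ M ^ 2 / c * ‖g s‖ ^ 2 - c * ‖y s‖ ^ 2 := by
    intro s
    rw [map_sub, sub_apply]
    have h1 := ex_a_le T (g s) (y s)
    have h2 := hco (y s)
    have h3 : 2 * (M * ‖g s‖ * ‖y s‖) ≤ M ^ 2 / c * ‖g s‖ ^ 2 + c * ‖y s‖ ^ 2 := by
      have h4 : M ^ 2 / c * ‖g s‖ ^ 2 + c * ‖y s‖ ^ 2 - 2 * (M * ‖g s‖ * ‖y s‖)
          = (M * ‖g s‖ - c * ‖y s‖) ^ 2 / c := by field_simp; ring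
      have h5 : 0 ≤ (M * ‖g s‖ - c * ‖y s‖) ^ 2 / c := by positivity
      linarith
    linarith
  set Y := ∫ q in s0..s1, ‖y q‖ ^ 2 with hY
  have hg2 : Continuous fun q => ‖g q‖ ^ 2 := hg.norm.pow 2
  have hy2 : Continuous fun q => ‖y q‖ ^ 2 := hyc.norm.pow 2
  have hle : e s1 - e s0 ≤ M ^ 2 / c * J - c * Y := by
    rw [← hint, hJ, hY, ← intervalIntegral.integral_const_mul, ← intervalIntegral.integral_const_mul,
      ← intervalIntegral.integral_sub ((hg2.intervalIntegrable _ _).const_mul _)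
        ((hy2.intervalIntegrable _ _).const_mul _)]
    exact intervalIntegral.integral_mono_on h01 (hec.intervalIntegrable _ _)
      (((continuous_const.mul hg2).sub (continuous_const.mul hy2)).intervalIntegrable _ _)
      fun s _ => hpt s
  have hes0 : δ * e s0 ≤ M ^ 2 * ‖F s0‖ ^ 2 := by
    have h1 : e s0 ≤ M * ‖F s0‖ * ‖y s0‖ := by
      simp only [he]
      conv_lhs => rw [hy0, hTdB, ← hy0]
      exact ex_a_le T _ _
    have h2 := he0 s0
    nlinarith [sq_nonneg (M * ‖F s0‖ - δ * ‖y s0‖)]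
  have hes1 : 0 ≤ e s1 := le_trans (by positivity) (he0 s1)
  have hcY : c * Y ≤ e s0 + M ^ 2 / c * J := by linarith
  refine ⟨v, fun s => T.G (T.ι (y s)), fun s => F s - δ • A0 (y s), fun s => T.ι (v s),
    IsSol.of_hasDerivAt T hvc (T.G.continuous.comp (T.ι.continuous.comp hyc)) fun s =>
      (T.G.comp T.ι).hasFDerivAt.comp_hasDerivAt s (hvd s), by simp [hv], fun s => ?_,
    hFc.sub ((A0.continuous.comp hyc).const_smul δ), ?_⟩
  · have h1 := hid s
    simp only [hTd, add_apply, ContinuousLinearMap.comp_apply, smul_apply] at h1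
    rw [← sub_eq_zero, ← h1]
    module
  · have h1 : ∫ q in s0..s1, ‖F q - δ • A0 (y q) - F q‖ ^ 2
        ≤ ∫ q in s0..s1, δ ^ 2 * ‖A0‖ ^ 2 * ‖y q‖ ^ 2 := by
      refine intervalIntegral.integral_mono_on h01
        ((((hFc.sub ((A0.continuous.comp hyc).const_smul δ)).sub hFc).norm.pow 2).intervalIntegrable
          _ _) ((continuous_const.mul hy2).intervalIntegrable _ _) fun q _ => ?_
      rw [sub_sub_cancel_left, norm_neg, norm_smul, Real.norm_of_nonneg hδ0.le, ← mul_pow,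
        ← mul_pow, mul_assoc]
      gcongr
      exact A0.le_opNorm _
    rw [intervalIntegral.integral_const_mul] at h1
    refine h1.trans (le_trans ?_ hδK)
    rw [← hY, hK]
    have h2 : δ * Y ≤ (M ^ 2 * ‖F s0‖ ^ 2 + M ^ 2 / c * J) / c := by
      rw [le_div_iff₀ hc]
      have h3 : 0 ≤ M ^ 2 / c * J := by positivity
      nlinarith
    calc δ ^ 2 * ‖A0‖ ^ 2 * Y = δ * (‖A0‖ ^ 2 * (δ * Y)) := by ring
      _ ≤ δ * (‖A0‖ ^ 2 * ((M ^ 2 * ‖F s0‖ ^ 2 + M ^ 2 / c * J) / c)) := by gcongr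
      _ = _ := by ring

end Crest.Agent.R213
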