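import Crest.Agent.R213.Ex1

/-!
# R213 / Ex2 : difference estimate, solvability for `A = 1`
-/

set_option autoImplicit false

open MeasureTheory Set Filter Topology
open scoped InnerProductSpace

namespace Crest.Agent.R213

variable {V H : Type} [NormedAddCommGroup V] [InnerProductSpace ℝ V] [CompleteSpace V]
  [NormedAddCommGroup H] [InnerProductSpace ℝ H] [CompleteSpace H]

omit [CompleteSpace V] in
theorem ex_norm_sq {μ : Measure ℝ} (f : Lp V 2 μ) : ‖f‖ ^ 2 = ∫ q, ‖f q‖ ^ 2 ∂μ := by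
  rw [← real_inner_self_eq_norm_sq, L2.inner_def]
  simp only [real_inner_self_eq_norm_sq]

omit [CompleteSpace V] in
theorem ex_dist_sq {s0 s1 : ℝ} (h01 : s0 ≤ s1) {f g : ℝ → V}
    (f' g' : Lp V 2 (volume.restrict (Ioc s0 s1)))
    (hf : f' =ᵐ[volume.restrict (Ioc s0 s1)] f) (hg : g' =ᵐ[volume.restrict (Ioc s0 s1)] g) :
    ‖f' - g'‖ ^ 2 = ∫ q in s0..s1, ‖f q - g q‖ ^ 2 := by
  rw [ex_norm_sq, intervalIntegral.integral_of_le h01]
  refine integral_congr_ae ?_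
  filter_upwards [Lp.coeFn_sub f' g', hf, hg] with q h1 h2 h3
  rw [h1, Pi.sub_apply, h2, h3]

omit [InnerProductSpace ℝ V] [CompleteSpace V] in
theorem ex_sq_int {s0 s1 : ℝ} {f : ℝ → V} (hf : MemLp f 2 (volume.restrict (Ioc s0 s1))) :
    IntegrableOn (fun q => ‖f q‖ ^ 2) (Ioc s0 s1) := hf.integrable_norm_pow two_ne_zero

theorem ex_diff (T : Trip V H) {s0 s1 : ℝ} (A : ℝ → V →L[ℝ] V) {c C : ℝ} (hc : 0 < c)
    (hC : 0 ≤ C) (gar : ∀ s ∈ Icc s0 s1, ∀ u, c * ‖u‖ ^ 2 - C * ‖T.ι u‖ ^ 2 ≤ T.a (A s u) u)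
    {v Z F v' Z' F' : ℝ → V} {U U' : ℝ → H} (h : IsSol T s0 s1 v Z U)
    (h' : IsSol T s0 s1 v' Z' U') (h0 : U s0 = 0) (h0' : U' s0 = 0)
    (hF : MemLp F 2 (volume.restrict (Ioc s0 s1))) (hF' : MemLp F' 2 (volume.restrict (Ioc s0 s1)))
    (hZ : ∀ᵐ s ∂(volume.restrict (Ioc s0 s1)), Z s = -(A s (v s)) + F s)
    (hZ' : ∀ᵐ s ∂(volume.restrict (Ioc s0 s1)), Z' s = -(A s (v' s)) + F' s)
    {s : ℝ} (hs : s ∈ Icc s0 s1) :
    ‖U s - U' s‖ ^ 2 + c * ∫ q in s0..s, ‖v q - v' q‖ ^ 2 ≤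
      Real.exp (2 * C * (s1 - s0)) * (‖T.a‖ ^ 2 / c) * ∫ q in s0..s1, ‖F q - F' q‖ ^ 2 := by
  have hFF : MemLp (fun q => F q - F' q) 2 (volume.restrict (Ioc s0 s1)) := hF.sub hF'
  have h1 := apriori T (h.sub h') A hc hC gar hFF (by
    filter_upwards [hZ, hZ'] with q h1 h2
    rw [h1, h2, map_sub]; abel) hs
  refine h1.trans ?_
  rw [h0, h0', sub_zero, norm_zero, mul_assoc _ (‖T.a‖ ^ 2 / c)]
  have h2 : ∫ q in s0..s, ‖F q - F' q‖ ^ 2 ≤ ∫ q in s0..s1, ‖F q - F' q‖ ^ 2 := by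
    rw [intervalIntegral.integral_of_le hs.1, intervalIntegral.integral_of_le (hs.1.trans hs.2)]
    exact setIntegral_mono_set (ex_sq_int hFF) (Eventually.of_forall fun q => by positivity)
      (Ioc_subset_Ioc_right hs.2).eventuallyLE
  have h3 : 0 ≤ ∫ q in s0..s, ‖F q - F' q‖ ^ 2 :=
    intervalIntegral.integral_nonneg hs.1 fun q _ => by positivity
  have h4 : 2 * C * (s - s0) ≤ 2 * C * (s1 - s0) := by
    have := hs.2
    gcongr
  have h5 : (0 : ℝ) ^ 2 + ‖T.a‖ ^ 2 / c * ∫ q in s0..s, ‖F q - F' q‖ ^ 2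
      = ‖T.a‖ ^ 2 / c * ∫ q in s0..s, ‖F q - F' q‖ ^ 2 := by ring
  rw [h5]
  gcongr

omit [CompleteSpace V] in
theorem ex_int_tendsto {s0 s1 : ℝ} (f : ℕ → Lp V 2 (volume.restrict (Ioc s0 s1)))
    (g : Lp V 2 (volume.restrict (Ioc s0 s1))) (h : Tendsto f atTop (𝓝 g)) {s : ℝ}
    (hs : s ∈ Icc s0 s1) :
    Tendsto (fun n => ∫ q in s0..s, f n q) atTop (𝓝 (∫ q in s0..s, g q)) := by
  have hI : ∀ k : ℝ → V, ∫ q in s0..s, k q = ∫ q in Ioc s0 s, k q ∂(volume.restrict (Ioc s0 s1)) := by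
    intro k
    rw [intervalIntegral.integral_of_le hs.1, Measure.restrict_restrict measurableSet_Ioc,
      inter_eq_left.2 (Ioc_subset_Ioc_right hs.2)]
  simp only [hI]
  refine tendsto_setIntegral_of_L1' _ (Lp.aestronglyMeasurable g)
    (Eventually.of_forall fun n => (Lp.memLp (f n)).integrable one_le_two) ?_ _
  have h1 := (Lp.tendsto_Lp_iff_tendsto_eLpNorm' f g).1 h
  have h2 := ENNReal.Tendsto.mul_const (b := (volume.restrict (Ioc s0 s1)) univ ^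
    (1 / (1 : ENNReal).toReal - 1 / (2 : ENNReal).toReal)) h1 (Or.inr (by
      refine ENNReal.rpow_ne_top_of_nonneg (by norm_num) (measure_ne_top _ _)))
  rw [zero_mul] at h2
  refine tendsto_of_tendsto_of_tendsto_of_le_of_le tendsto_const_nhds h2
    (fun n => bot_le) fun n => ?_
  exact eLpNorm_le_eLpNorm_mul_rpow_measure_univ one_le_two
    ((Lp.aestronglyMeasurable (f n)).sub (Lp.aestronglyMeasurable g))

/-- approximate solvability for `A = 1` and `L²` data. -/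
theorem ex_approx2 (T : Trip V H) {s0 s1 : ℝ} (h01 : s0 ≤ s1)
    (F : Lp V 2 (volume.restrict (Ioc s0 s1))) {ε : ℝ} (hε : 0 < ε) :
    ∃ (v Z : ℝ → V) (F' : Lp V 2 (volume.restrict (Ioc s0 s1))) (U : ℝ → H),
      IsSol T s0 s1 v Z U ∧ U s0 = 0 ∧
      (∀ᵐ s ∂(volume.restrict (Ioc s0 s1)), Z s = -(v s) + F' s) ∧ ‖F' - F‖ ≤ ε := by
  have hd := Lp.dense_hasCompactSupport_contDiff (F := V) (μ := volume.restrict (Ioc s0 s1))
    (p := 2) (by norm_num)
  obtain ⟨F1, ⟨g, hg1, -, hg3⟩, hF1⟩ := hd.exists_dist_lt F (half_pos hε)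
  have hgd : Differentiable ℝ g := hg3.differentiable (by simp)
  have hgc : Continuous (deriv g) := hg3.continuous_deriv (by simp)
  obtain ⟨v, Z, F', U, hsol, hU, hZ, hF'c, hF'⟩ := ex_approx T h01 g (deriv g)
    (fun s => (hgd s).hasDerivAt) hgc (ε := (ε / 2) ^ 2) (by positivity)
  have hm : MemLp F' 2 (volume.restrict (Ioc s0 s1)) := by
    have h1 : F' = fun s => Z s + v s := by
      funext s; rw [hZ s]; abel
    rw [h1]
    exact hsol.Z2.add hsol.v2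
  refine ⟨v, Z, hm.toLp F', U, hsol, hU, ?_, ?_⟩
  · filter_upwards [hm.coeFn_toLp] with s hs
    rw [hs, hZ s]
  · have h1 := ex_dist_sq h01 (hm.toLp F') F1 hm.coeFn_toLp hg1
    have h2 : ‖hm.toLp F' - F1‖ ≤ ε / 2 :=
      abs_le_of_sq_le_sq' (h1.le.trans hF') (by positivity) |>.2
    rw [dist_comm, dist_eq_norm] at hF1
    calc ‖hm.toLp F' - F‖ = ‖(hm.toLp F' - F1) + (F1 - F)‖ := by congr 1; abel
      _ ≤ ‖hm.toLp F' - F1‖ + ‖F1 - F‖ := norm_add_le _ _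
      _ ≤ ε := by linarith

/-- solvability for `A = 1`. -/
theorem ex_sol_one (T : Trip V H) {s0 s1 : ℝ} (h01 : s0 ≤ s1)
    (F : ℝ → V) (hF : MemLp F 2 (volume.restrict (Ioc s0 s1))) :
    ∃ (v Z : ℝ → V) (U : ℝ → H), IsSol T s0 s1 v Z U ∧ U s0 = 0 ∧
      ∀ᵐ s ∂(volume.restrict (Ioc s0 s1)), Z s = -(v s) + F s := by
  obtain ⟨c, hc, hco⟩ := T.coer
  set F0 := hF.toLp F with hF0
  have hex := fun n : ℕ => ex_approx2 T h01 F0 (ε := 1 / ((n : ℝ) + 1)) (by positivity)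
  choose v Z Fn U hsol hU hZ hFn using hex
  set K := ‖T.a‖ ^ 2 / c with hK
  have hK0 : 0 ≤ K := by positivity
  have hFF : ∀ N n m : ℕ, N ≤ n → N ≤ m → ‖Fn n - Fn m‖ ≤ 2 * (1 / ((N : ℝ) + 1)) := by
    intro N n m hn hm
    have h1 : (1 : ℝ) / ((n : ℝ) + 1) ≤ 1 / ((N : ℝ) + 1) := Nat.one_div_le_one_div hn
    have h2 : (1 : ℝ) / ((m : ℝ) + 1) ≤ 1 / ((N : ℝ) + 1) := Nat.one_div_le_one_div hm
    calc ‖Fn n - Fn m‖ = ‖(Fn n - F0) - (Fn m - F0)‖ := by congr 1; abel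
      _ ≤ ‖Fn n - F0‖ + ‖Fn m - F0‖ := norm_sub_le _ _
      _ ≤ _ := by linarith [hFn n, hFn m]
  have hdiff : ∀ n m : ℕ, ∀ s ∈ Icc s0 s1, ‖U n s - U m s‖ ^ 2 +
      c * ∫ q in s0..s, ‖v n q - v m q‖ ^ 2 ≤ K * ‖Fn n - Fn m‖ ^ 2 := by
    intro n m s hs
    have h1 := ex_diff T (fun _ => 1) hc le_rfl (fun s _ u => by simpa using hco u)
      (hsol n) (hsol m) (hU n) (hU m) (Lp.memLp (Fn n)) (Lp.memLp (Fn m)) (hZ n) (hZ m) hs
    rw [← ex_dist_sq h01 (Fn n) (Fn m) EventuallyEq.rfl EventuallyEq.rfl] at h1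
    simpa using h1
  set b : ℕ → ℝ := fun N => 2 * (1 / ((N : ℝ) + 1)) with hb
  have hb0 : Tendsto b atTop (𝓝 0) := by
    have := (tendsto_one_div_add_atTop_nhds_zero_nat (𝕜 := ℝ)).const_mul 2
    rwa [mul_zero] at this
  have hbp : ∀ N, 0 ≤ b N := fun N => by positivity
  have hUU : ∀ N n m : ℕ, N ≤ n → N ≤ m → ∀ s ∈ Icc s0 s1,
      dist (U n s) (U m s) ≤ Real.sqrt K * b N := by
    intro N n m hn hm s hs
    have h1 := hdiff n m s hs
    have h2 : 0 ≤ ∫ q in s0..s, ‖v n q - v m q‖ ^ 2 :=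
      intervalIntegral.integral_nonneg hs.1 fun q _ => by positivity
    have h3 : K * ‖Fn n - Fn m‖ ^ 2 ≤ K * b N ^ 2 := by
      have := hFF N n m hn hm
      gcongr
    rw [dist_eq_norm]
    refine (abs_le_of_sq_le_sq' ?_ (mul_nonneg (Real.sqrt_nonneg _) (hbp N))).2
    rw [mul_pow, Real.sq_sqrt hK0]
    nlinarith [mul_nonneg hc.le h2]
  set vn : ℕ → Lp V 2 (volume.restrict (Ioc s0 s1)) := fun n => (hsol n).v2.toLp (v n) with hvn
  have hvv : ∀ n m N : ℕ, N ≤ n → N ≤ m → dist (vn n) (vn m) ≤ Real.sqrt (K / c) * b N := by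
    intro n m N hn hm
    have h1 := hdiff n m s1 ⟨h01, le_rfl⟩
    rw [← ex_dist_sq h01 (vn n) (vn m) (hsol n).v2.coeFn_toLp (hsol m).v2.coeFn_toLp] at h1
    have h3 : K * ‖Fn n - Fn m‖ ^ 2 ≤ K * b N ^ 2 := by
      have := hFF N n m hn hm
      gcongr
    rw [dist_eq_norm]
    refine (abs_le_of_sq_le_sq' ?_ (mul_nonneg (Real.sqrt_nonneg _) (hbp N))).2
    rw [mul_pow, Real.sq_sqrt (by positivity), div_mul_eq_mul_div, le_div_iff₀ hc]
    nlinarith [sq_nonneg ‖U n s1 - U m s1‖]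
  have hvc : CauchySeq vn := cauchySeq_of_le_tendsto_0 _ hvv (by simpa using hb0.const_mul _)
  obtain ⟨v0, hv0⟩ := cauchySeq_tendsto_of_complete hvc
  have hUc : ∀ s ∈ Icc s0 s1, CauchySeq fun n => U n s := fun s hs =>
    cauchySeq_of_le_tendsto_0 (fun N => Real.sqrt K * b N)
      (fun n m N hn hm => hUU N n m hn hm s hs) (by simpa using hb0.const_mul _)
  set U0 : ℝ → H := fun s => limUnder atTop fun n => U n s with hU0
  have hUt : ∀ s ∈ Icc s0 s1, Tendsto (fun n => U n s) atTop (𝓝 (U0 s)) := fun s hs =>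
    (hUc s hs).tendsto_limUnder
  have hUu : TendstoUniformlyOn U U0 atTop (Icc s0 s1) := by
    rw [Metric.tendstoUniformlyOn_iff]
    intro ε hε
    have h1 : Tendsto (fun N => Real.sqrt K * b N) atTop (𝓝 0) := by simpa using hb0.const_mul _
    filter_upwards [h1.eventually (gt_mem_nhds hε)] with n hn s hs
    refine lt_of_le_of_lt ?_ hn
    refine le_of_tendsto ((hUt s hs).dist tendsto_const_nhds) ?_
    filter_upwards [eventually_ge_atTop n] with m hm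
    exact hUU n m n hm le_rfl s hs
  have hFt : Tendsto Fn atTop (𝓝 F0) := by
    rw [tendsto_iff_norm_sub_tendsto_zero]
    exact squeeze_zero (fun _ => norm_nonneg _) hFn tendsto_one_div_add_atTop_nhds_zero_nat
  have hZt : Tendsto (fun n => -vn n + Fn n) atTop (𝓝 (-v0 + F0)) := hv0.neg.add hFt
  have hU00 : U0 s0 = 0 := by
    have h1 := hUt s0 ⟨le_rfl, h01⟩
    simp only [hU] at h1
    exact tendsto_nhds_unique h1 tendsto_const_nhds
  refine ⟨v0, (-v0 + F0 : Lp V 2 _), U0, ⟨Lp.memLp _, Lp.memLp _,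
    hUu.continuousOn (Eventually.of_forall fun n => (hsol n).cont).frequently, ?_, ?_⟩, hU00, ?_⟩
  · obtain ⟨ns, hns, hae⟩ := (tendstoInMeasure_of_tendsto_Lp hv0).exists_seq_tendsto_ae
    have h1 : ∀ᵐ s ∂(volume.restrict (Ioc s0 s1)), ∀ n, T.ι (vn n s) = U n s := by
      rw [ae_all_iff]
      intro n
      filter_upwards [(hsol n).rep, (hsol n).v2.coeFn_toLp] with s h1 h2
      rw [← h1, ← h2]
    filter_upwards [hae, h1, ae_restrict_mem measurableSet_Ioc] with s h2 h3 hs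
    have h4 := (T.ι.continuous.tendsto _).comp h2
    have h5 := (hUt s (Ioc_subset_Icc_self hs)).comp hns.tendsto_atTop
    refine tendsto_nhds_unique h4 (h5.congr fun n => ?_)
    simp [h3]
  · intro s hs
    have h1 := ex_int_tendsto _ _ hZt hs
    have h2 := (T.G.continuous.tendsto _).comp (hUt s hs)
    rw [hU00, map_zero, zero_add]
    refine tendsto_nhds_unique h2 (h1.congr fun n => ?_)
    have h3 := (hsol n).int s hs
    rw [hU n, map_zero, zero_add] at h3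
    simp only [Function.comp]
    rw [h3, intervalIntegral.integral_of_le hs.1, intervalIntegral.integral_of_le hs.1]
    refine integral_congr_ae (ae_restrict_of_ae_restrict_of_subset (Ioc_subset_Ioc_right hs.2) ?_)
    filter_upwards [hZ n, Lp.coeFn_add (-vn n) (Fn n), Lp.coeFn_neg (vn n),
      (hsol n).v2.coeFn_toLp] with q h1 h2 h3 h4
    rw [h1, h2, Pi.add_apply, h3, Pi.neg_apply, ← h4]
  · filter_upwards [Lp.coeFn_add (-v0) F0, Lp.coeFn_neg v0, hF.coeFn_toLp] with q h2 h3 h4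
    rw [h2, Pi.add_apply, h3, Pi.neg_apply, ← h4]

end Crest.Agent.R213
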