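import Crest.Agent.R213.Ex2

/-!
# R213 / Ex3 : the method of continuity
-/

set_option autoImplicit false

open MeasureTheory Set Filter Topology
open scoped InnerProductSpace

namespace Crest.Agent.R213

variable {V H : Type} [NormedAddCommGroup V] [InnerProductSpace ℝ V] [CompleteSpace V]
  [NormedAddCommGroup H] [InnerProductSpace ℝ H] [CompleteSpace H]

omit [CompleteSpace V] in
theorem ex_mul_memLp {s0 s1 : ℝ} {B : ℝ → V →L[ℝ] V} (hB : ContinuousOn B (Icc s0 s1))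
    {g : ℝ → V} (hg : MemLp g 2 (volume.restrict (Ioc s0 s1))) :
    MemLp (fun s => B s (g s)) 2 (volume.restrict (Ioc s0 s1)) := by
  obtain ⟨M, hM⟩ := isCompact_Icc.exists_bound_of_continuousOn hB
  have hBm : AEStronglyMeasurable B (volume.restrict (Ioc s0 s1)) :=
    (hB.mono Ioc_subset_Icc_self).aestronglyMeasurable measurableSet_Ioc
  have hm : AEStronglyMeasurable (fun s => B s (g s)) (volume.restrict (Ioc s0 s1)) :=
    isBoundedBilinearMap_apply.continuous.comp_aestronglyMeasurable (hBm.prodMk hg.1)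
  refine hg.of_le_mul (c := M) hm ?_
  filter_upwards [ae_restrict_mem measurableSet_Ioc] with s hs
  exact (B s).le_of_opNorm_le (hM s (Ioc_subset_Icc_self hs)) _

/-- solvability for all `L²` data. -/
def ExSolv (T : Trip V H) (s0 s1 : ℝ) (A : ℝ → V →L[ℝ] V) : Prop :=
  ∀ F : ℝ → V, MemLp F 2 (volume.restrict (Ioc s0 s1)) →
    ∃ (v Z : ℝ → V) (U : ℝ → H), IsSol T s0 s1 v Z U ∧ U s0 = 0 ∧
      ∀ᵐ s ∂(volume.restrict (Ioc s0 s1)), Z s = -(A s (v s)) + F s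

theorem ex_step (T : Trip V H) {s0 s1 : ℝ} (h01 : s0 ≤ s1) (A B : ℝ → V →L[ℝ] V) {c C η : ℝ}
    (hc : 0 < c) (hC : 0 ≤ C)
    (gar : ∀ s ∈ Icc s0 s1, ∀ u, c * ‖u‖ ^ 2 - C * ‖T.ι u‖ ^ 2 ≤ T.a (A s u) u)
    (hB : ContinuousOn B (Icc s0 s1)) (hη : ∀ s ∈ Icc s0 s1, ‖B s‖ ≤ η)
    (hsmall : Real.exp (2 * C * (s1 - s0)) * (‖T.a‖ ^ 2 / c) * η ^ 2 ≤ c / 4)
    (hA : ExSolv T s0 s1 A) : ExSolv T s0 s1 (fun s => A s + B s) := by
  intro F hF
  have hd : ∀ g : Lp V 2 (volume.restrict (Ioc s0 s1)),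
      MemLp (fun s => F s - B s (g s)) 2 (volume.restrict (Ioc s0 s1)) := fun g =>
    hF.sub (ex_mul_memLp hB (Lp.memLp g))
  choose v Z U hsol hU hZ using fun g => hA _ (hd g)
  set Φ : Lp V 2 (volume.restrict (Ioc s0 s1)) → Lp V 2 (volume.restrict (Ioc s0 s1)) :=
    fun g => (hsol g).v2.toLp (v g) with hΦ
  have hlip : ∀ g g', dist (Φ g) (Φ g') ≤ (1 / 2 : NNReal) * dist g g' := by
    intro g g'
    have h1 := ex_diff T A hc hC gar (hsol g) (hsol g') (hU g) (hU g') (hd g) (hd g') (hZ g)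
      (hZ g') ⟨h01, le_rfl⟩
    rw [← ex_dist_sq h01 (Φ g) (Φ g') (hsol g).v2.coeFn_toLp (hsol g').v2.coeFn_toLp] at h1
    have h2 : ∫ q in s0..s1, ‖F q - B q (g q) - (F q - B q (g' q))‖ ^ 2 ≤ η ^ 2 * ‖g - g'‖ ^ 2 := by
      rw [ex_dist_sq h01 g g' EventuallyEq.rfl EventuallyEq.rfl,
        ← intervalIntegral.integral_const_mul, intervalIntegral.integral_of_le h01,
        intervalIntegral.integral_of_le h01]
      refine setIntegral_mono_on (ex_sq_int ((hd g).sub (hd g')))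
        ((ex_sq_int ((Lp.memLp g).sub (Lp.memLp g'))).const_mul _) measurableSet_Ioc fun q hq => ?_
      have h3 : F q - B q (g q) - (F q - B q (g' q)) = -(B q (g q - g' q)) := by
        rw [map_sub]; abel
      rw [h3, norm_neg, ← mul_pow]
      exact pow_le_pow_left₀ (norm_nonneg _)
        ((B q).le_of_opNorm_le (hη q (Ioc_subset_Icc_self hq)) _) 2
    have h3 : 0 ≤ Real.exp (2 * C * (s1 - s0)) * (‖T.a‖ ^ 2 / c) := by positivity
    have h4 := mul_le_mul_of_nonneg_left h2 h3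
    have h5 := mul_le_mul_of_nonneg_right hsmall (sq_nonneg ‖g - g'‖)
    rw [dist_eq_norm, dist_eq_norm]
    refine (abs_le_of_sq_le_sq' ?_ (by positivity)).2
    have h6 : c * ‖Φ g - Φ g'‖ ^ 2 ≤ c * (1 / 2 * ‖g - g'‖) ^ 2 := by
      nlinarith [sq_nonneg ‖U g s1 - U g' s1‖]
    have h7 := le_of_mul_le_mul_left h6 hc
    simpa using h7
  have hcon : ContractingWith (1 / 2) Φ :=
    ⟨by norm_num, LipschitzWith.of_dist_le_mul hlip⟩
  set g := ContractingWith.fixedPoint Φ hcon with hg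
  have hfix : Φ g = g := hcon.fixedPoint_isFixedPt
  refine ⟨v g, Z g, U g, hsol g, hU g, ?_⟩
  have h1 : (Φ g : ℝ → V) =ᵐ[volume.restrict (Ioc s0 s1)] v g := (hsol g).v2.coeFn_toLp
  rw [hfix] at h1
  filter_upwards [hZ g, h1] with s h2 h3
  rw [h2, h3, add_apply]
  abel

theorem ex_solv (T : Trip V H) {s0 s1 : ℝ} (h01 : s0 ≤ s1) (A : ℝ → V →L[ℝ] V)
    (hA : ContinuousOn A (Icc s0 s1)) {c C : ℝ} (hc : 0 < c)
    (gar : ∀ s ∈ Icc s0 s1, ∀ u, c * ‖u‖ ^ 2 - C * ‖T.ι u‖ ^ 2 ≤ T.a (A s u) u) :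
    ExSolv T s0 s1 A := by
  obtain ⟨c0, hc0, hco⟩ := T.coer
  set c1 := min c0 c with hc1
  set C1 := max C 0 with hC1
  have hc1p : 0 < c1 := lt_min hc0 hc
  have hC1p : 0 ≤ C1 := le_max_right _ _
  have hA1 : ContinuousOn (fun s => A s - 1) (Icc s0 s1) := hA.sub continuousOn_const
  obtain ⟨M, hM⟩ := isCompact_Icc.exists_bound_of_continuousOn hA1
  have hM0 : 0 ≤ M := (norm_nonneg _).trans (hM s0 ⟨le_rfl, h01⟩)
  have hgar : ∀ θ : ℝ, 0 ≤ θ → θ ≤ 1 → ∀ s ∈ Icc s0 s1, ∀ u,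
      c1 * ‖u‖ ^ 2 - C1 * ‖T.ι u‖ ^ 2 ≤ T.a ((1 + θ • (A s - 1)) u) u := by
    intro θ h0 h1 s hs u
    have h2 : T.a ((1 + θ • (A s - 1)) u) u = (1 - θ) * T.a u u + θ * T.a (A s u) u := by
      simp only [add_apply, smul_apply, sub_apply, ContinuousLinearMap.one_def,
        ContinuousLinearMap.id_apply, map_add, map_smul, map_sub, smul_eq_mul]
      ring
    rw [h2]
    have h3 : c1 * ‖u‖ ^ 2 - C1 * ‖T.ι u‖ ^ 2 ≤ T.a u u := by
      have := hco u
      have h4 : c1 * ‖u‖ ^ 2 ≤ c0 * ‖u‖ ^ 2 := by gcongr; exact min_le_left _ _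
      have h5 : 0 ≤ C1 * ‖T.ι u‖ ^ 2 := by positivity
      linarith
    have h4 : c1 * ‖u‖ ^ 2 - C1 * ‖T.ι u‖ ^ 2 ≤ T.a (A s u) u := by
      have := gar s hs u
      have h4 : c1 * ‖u‖ ^ 2 ≤ c * ‖u‖ ^ 2 := by gcongr; exact min_le_right _ _
      have h5 : C * ‖T.ι u‖ ^ 2 ≤ C1 * ‖T.ι u‖ ^ 2 := by gcongr; exact le_max_left _ _
      linarith
    nlinarith [mul_le_mul_of_nonneg_left h3 (sub_nonneg.2 h1), mul_le_mul_of_nonneg_left h4 h0]
  set K := Real.exp (2 * C1 * (s1 - s0)) * (‖T.a‖ ^ 2 / c1) with hK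
  have hK0 : 0 ≤ K := by positivity
  obtain ⟨N, hN⟩ := exists_nat_gt (max 1 (4 * K * M ^ 2 / c1))
  have hN1 : (1 : ℝ) < N := (le_max_left _ _).trans_lt hN
  have hN2 : 4 * K * M ^ 2 / c1 < N := (le_max_right _ _).trans_lt hN
  have hN0 : (0 : ℝ) < N := one_pos.trans hN1
  have hsmall : K * (1 / (N : ℝ) * M) ^ 2 ≤ c1 / 4 := by
    rw [div_lt_iff₀ hc1p] at hN2
    have h1 : K * (1 / (N : ℝ) * M) ^ 2 = K * M ^ 2 / N ^ 2 := by field_simp
    rw [h1, div_le_iff₀ (by positivity)]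
    nlinarith [mul_pos hN0 hc1p]
  have hind : ∀ k : ℕ, k ≤ N → ExSolv T s0 s1 (fun s => 1 + ((k : ℝ) / N) • (A s - 1)) := by
    intro k
    induction k with
    | zero =>
      intro _ F hF
      obtain ⟨v, Z, U, h1, h2, h3⟩ := ex_sol_one T h01 F hF
      exact ⟨v, Z, U, h1, h2, by simpa using h3⟩
    | succ k ih =>
      intro hk
      have hk' : k ≤ N := Nat.le_of_succ_le hk
      have h1 := ex_step T h01 _ (fun s => (1 / (N : ℝ)) • (A s - 1)) (η := 1 / (N : ℝ) * M)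
        hc1p hC1p (hgar ((k : ℝ) / N) (by positivity)
          (by rw [div_le_one hN0]; exact_mod_cast hk'))
        (hA1.const_smul (1 / (N : ℝ))) (fun s hs => by
          rw [norm_smul, Real.norm_of_nonneg (by positivity)]
          gcongr
          exact hM s hs) hsmall (ih hk')
      convert h1 using 2 with s
      push_cast
      rw [add_div, add_smul, add_assoc]
  have h1 := hind N le_rfl
  convert h1 using 2 with s
  rw [div_self hN0.ne', one_smul]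
  abel

end Crest.Agent.R213
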