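import Crest.Agent.R213.FbBasA

/-! # R213 / FbBas : bumps, cut-offs, scaling -/

set_option autoImplicit false

open MeasureTheory Set Filter Topology
open scoped ContDiff InnerProductSpace

namespace Crest.Agent.R213

/-- one-sided uniqueness of the derivative at the end points -/
theorem deriv_eq_zero_of_supp {Ψ : ℝ → ℝ} (h : Differentiable ℝ Ψ) {a b : ℝ}
    (hs : ∀ y, y ∉ Ioo a b → Ψ y = 0) (y : ℝ) (hy : y ∉ Ioo a b) : deriv Ψ y = 0 := by
  have hd := (h y).hasDerivAt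
  rcases le_or_gt y a with h1 | h1
  · have h2 : HasDerivWithinAt Ψ 0 (Iic y) y := by
      refine (hasDerivWithinAt_const y (Iic y) (0 : ℝ)).congr (fun z hz => hs z fun hz' => ?_) (hs y hy)
      exact absurd (hz'.1.trans_le (le_trans hz h1)) (lt_irrefl _)
    exact (uniqueDiffWithinAt_Iic y).eq_deriv _ hd.hasDerivWithinAt h2
  · have h3 : b ≤ y := not_lt.1 fun h3 => hy ⟨h1, h3⟩
    have h2 : HasDerivWithinAt Ψ 0 (Ici y) y := by
      refine (hasDerivWithinAt_const y (Ici y) (0 : ℝ)).congr (fun z hz => hs z fun hz' => ?_) (hs y hy)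
      exact absurd (hz'.2.trans_le (le_trans h3 hz)) (lt_irrefl _)
    exact (uniqueDiffWithinAt_Ici y).eq_deriv _ hd.hasDerivWithinAt h2

theorem Bump.mono {Ψ : ℝ → ℝ} {R R' : ℝ} (h : Bump Ψ R) (hR : R ≤ R') : Bump Ψ R' := by
  refine ⟨h.sm, h.pos.trans_le hR, fun y hy => h.supp y fun hy' => hy ⟨?_, hy'.2.trans_le hR⟩⟩
  exact (inv_anti₀ h.pos hR).trans_lt hy'.1

theorem Bump.deriv {Ψ : ℝ → ℝ} {R : ℝ} (h : Bump Ψ R) : Bump (deriv Ψ) R := by
  obtain ⟨h1, h2⟩ := contDiff_infty_iff_deriv.1 h.sm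
  exact ⟨h2, h.pos, deriv_eq_zero_of_supp h1 h.supp⟩

theorem Bump.mul_left {Ψ p : ℝ → ℝ} {R : ℝ} (h : Bump Ψ R) (hp : ContDiff ℝ ∞ p) :
    Bump (fun y => p y * Ψ y) R := by
  exact ⟨hp.mul h.sm, h.pos, fun y hy => by rw [h.supp y hy, mul_zero]⟩

theorem Bump.add {Ψ Φ : ℝ → ℝ} {R : ℝ} (h : Bump Ψ R) (h' : Bump Φ R) :
    Bump (fun y => Ψ y + Φ y) R := by
  exact ⟨h.sm.add h'.sm, h.pos, fun y hy => by rw [h.supp y hy, h'.supp y hy, add_zero]⟩

/-- division by a power of `y` (`contDiff_iff_contDiffAt`; near `0` the function vanishes) -/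
theorem Bump.div_pow {Ψ : ℝ → ℝ} {R : ℝ} (h : Bump Ψ R) (n : ℕ) : Bump (fun y => Ψ y / y ^ n) R := by
  refine ⟨contDiff_iff_contDiffAt.2 fun y => ?_, h.pos, fun y hy => by rw [h.supp y hy, zero_div]⟩
  rcases eq_or_ne y 0 with rfl | hy
  · refine (contDiffAt_const (c := (0 : ℝ))).congr_of_eventuallyEq ?_
    filter_upwards [Iio_mem_nhds (inv_pos.2 h.pos)] with z hz
    rw [h.supp z fun hz' => absurd (hz'.1.trans hz) (lt_irrefl _), zero_div]
  · exact h.sm.contDiffAt.div (contDiffAt_id.pow n) (pow_ne_zero n hy)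

theorem Bump.dp {Ψ : ℝ → ℝ} {R : ℝ} (h : Bump Ψ R) : Bump (DP Ψ) R := by
  have h1 := (h.mul_left (p := fun _ => (1 / 4 : ℝ)) contDiff_const).add
    (h.deriv.mul_left (p := fun y => y / 2) (contDiff_id.div_const 2))
  have e : DP Ψ = fun y => 1 / 4 * Ψ y + y / 2 * _root_.deriv Ψ y := by
    funext y
    unfold DP
    ring
  rw [e]
  exact h1

theorem Bump.bdd {Ψ : ℝ → ℝ} {R : ℝ} (h : Bump Ψ R) : ∃ M, 0 < M ∧ ∀ y, |Ψ y| ≤ M := by
  obtain ⟨C, hC⟩ := (isCompact_Icc (a := R⁻¹) (b := R)).exists_bound_of_continuousOn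
    h.sm.continuous.continuousOn
  refine ⟨max C 1, lt_max_of_lt_right one_pos, fun y => ?_⟩
  by_cases hy : y ∈ Ioo R⁻¹ R
  · exact (hC y (Ioo_subset_Icc_self hy)).trans (le_max_left _ _)
  · rw [h.supp y hy, abs_zero]
    exact le_max_of_le_right zero_le_one

theorem bump_zero {R : ℝ} (hR : 0 < R) : Bump (fun _ => 0) R := by
  exact ⟨contDiff_const, hR, fun _ _ => rfl⟩

theorem Anc.bump (N : Anc) (j : Fin 2) : Bump (N.ψ j) 2 := by
  refine ⟨N.sm j, two_pos, fun y hy => N.supp j y fun hy' => hy ⟨?_, hy'.2⟩⟩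
  exact lt_trans (by norm_num) hy'.1

/-- scaling (`deriv_comp_mul_left`/`deriv_const_mul_field`; no differentiability needed) -/
theorem deriv_scale (F : ℝ → ℝ) (κ l : ℝ) :
    deriv (fun x => κ * F (x / l)) = fun x => κ / l * deriv F (x / l) := by
  funext x
  have e : (fun x => F (x / l)) = fun x => F (l⁻¹ * x) := by
    funext x
    rw [div_eq_inv_mul]
  rw [deriv_const_mul_field, e, deriv_comp_mul_left, smul_eq_mul, div_eq_inv_mul x, div_eq_mul_inv κ, mul_assoc]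

theorem C0_scale (F : ℝ → ℝ) (κ : ℝ) {l : ℝ} (hl : 0 < l) :
    C0 (fun x => κ * F (x / l)) = fun x => κ / l ^ 2 * C0 F (x / l) := by
  funext x
  unfold C0
  rw [deriv_scale F κ l, deriv_scale (deriv F) (κ / l) l]
  rcases eq_or_ne x 0 with rfl | hx
  · simp only [div_zero, zero_div, ne_eq, OfNat.ofNat_ne_zero, not_false_eq_true, zero_pow, add_zero]
    ring
  · field_simp

/-- a smooth bump in `(0,1)` -/
theorem exists_B : ∃ B : ℝ → ℝ, ContDiff ℝ ∞ B ∧ (∀ t, 0 ≤ B t) ∧ (∀ t, B t ≤ 1) ∧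
    (∀ t, t ∉ Ioo (0 : ℝ) 1 → B t = 0) ∧ 0 < ∫ t in (0 : ℝ)..1, B t := by
  have hc : ContDiff ℝ ∞ fun t : ℝ => Real.smoothTransition t * Real.smoothTransition (1 - t) :=
    Real.smoothTransition.contDiff.mul (Real.smoothTransition.contDiff.comp (contDiff_const.sub contDiff_id))
  refine ⟨fun t => Real.smoothTransition t * Real.smoothTransition (1 - t), hc,
    fun t => mul_nonneg (Real.smoothTransition.nonneg _) (Real.smoothTransition.nonneg _),
    fun t => mul_le_one₀ (Real.smoothTransition.le_one _) (Real.smoothTransition.nonneg _)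
      (Real.smoothTransition.le_one _), fun t ht => ?_, ?_⟩
  · beta_reduce
    rcases le_or_gt t 0 with h1 | h1
    · rw [Real.smoothTransition.zero_of_nonpos h1, zero_mul]
    · have h2 : 1 ≤ t := not_lt.1 fun h2 => ht ⟨h1, h2⟩
      rw [Real.smoothTransition.zero_of_nonpos (show 1 - t ≤ 0 by linarith), mul_zero]
  · refine intervalIntegral.intervalIntegral_pos_of_pos_on (hc.continuous.intervalIntegrable _ _)
      (fun t ht => ?_) one_pos
    exact mul_pos (Real.smoothTransition.pos_of_pos ht.1)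
      (Real.smoothTransition.pos_of_pos (by linarith [ht.2]))

/-- a smooth cut-off (`Real.smoothTransition (2 - t)`) -/
theorem exists_cut : ∃ χ : ℝ → ℝ, ContDiff ℝ ∞ χ ∧ (∀ t, t ≤ 1 → χ t = 1) ∧ ∀ t, 2 ≤ t → χ t = 0 := by
  exact ⟨fun t => Real.smoothTransition (2 - t),
    Real.smoothTransition.contDiff.comp (contDiff_const.sub contDiff_id),
    fun t ht => Real.smoothTransition.one_of_one_le (by linarith),
    fun t ht => Real.smoothTransition.zero_of_nonpos (by linarith)⟩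

theorem bump_bet {B : ℝ → ℝ} (hB : ContDiff ℝ ∞ B) (hs : ∀ t, t ∉ Ioo (0 : ℝ) 1 → B t = 0) {η R : ℝ}
    (hη : 0 < η) (hR : 0 < R) (h1 : R⁻¹ ≤ η) {k : ℕ} (h2 : (k + 2) * η ≤ R) : Bump (bet B η k) R := by
  refine ⟨?_, hR, fun y hy => ?_⟩
  · exact (hB.comp ((contDiff_id.div_const η).sub contDiff_const)).div
      (contDiff_const.add (contDiff_id.pow 2)) fun y => by positivity
  · unfold bet
    rw [hs _ fun hy' => hy ⟨?_, ?_⟩, zero_div]
    · have h3 : (k : ℝ) + 1 < y / η := by linarith [hy'.1]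
      rw [lt_div_iff₀ hη] at h3
      have h4 : (0 : ℝ) ≤ k * η := by positivity
      nlinarith
    · have h3 : y / η < (k : ℝ) + 2 := by linarith [hy'.2]
      rw [div_lt_iff₀ hη] at h3
      linarith

end Crest.Agent.R213
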