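import Crest.Agent.R213.FbDefs

/-! # R213 / FbBasA : elementary facts on `lam`, `wh`, `EH`, `WH`; Cauchy–Schwarz -/

set_option autoImplicit false

open MeasureTheory Set Filter Topology
open scoped ContDiff InnerProductSpace

namespace Crest.Agent.R213

theorem lam_pos' (s : ℝ) : 0 < lam s := Real.exp_pos _

theorem lam_sq (s : ℝ) : lam s ^ 2 = Real.exp (-s) := by
  unfold lam
  rw [sq, ← Real.exp_add]
  congr 1
  ring

theorem exp_half_eq (s : ℝ) : Real.exp (s / 2) = (lam s)⁻¹ := by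
  unfold lam
  rw [Real.exp_neg, inv_inv]

theorem exp_quarter_sq (s : ℝ) : Real.exp (s / 4) ^ 2 = (lam s)⁻¹ := by
  rw [← exp_half_eq, sq, ← Real.exp_add]
  congr 1
  ring

theorem lam_anti {s t : ℝ} (h : s ≤ t) : lam t ≤ lam s := by
  unfold lam
  exact Real.exp_le_exp.2 (by linarith)

theorem lam_le_quarter {s : ℝ} (h : 4 ≤ s) : lam s ≤ 1 / 4 := by
  have h1 : lam s ≤ lam 4 := lam_anti h
  have h2 : (lam 4)⁻¹ = Real.exp 1 * Real.exp 1 := by
    rw [← exp_half_eq, ← Real.exp_add]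
    norm_num
  have h3 : (2 : ℝ) ≤ Real.exp 1 := by
    have := Real.add_one_le_exp 1
    linarith
  have h4 : (4 : ℝ) ≤ (lam 4)⁻¹ := by
    rw [h2]
    nlinarith
  have h5 : lam 4 ≤ 1 / 4 := by
    rw [one_div]
    exact (le_inv_comm₀ (by norm_num) (lam_pos' 4)).1 h4
  linarith

theorem wh_eq (s x : ℝ) : wh s x = 1 / (1 + (x / lam s) ^ 2) := by
  unfold wh
  rw [div_pow, lam_sq, Real.exp_neg, div_inv_eq_mul]

theorem wh_pos' (s x : ℝ) : 0 < wh s x := IneqC.wh_pos s x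

theorem wh_le_one' (s x : ℝ) : wh s x ≤ 1 := IneqC.wh_le_one s x

theorem contDiff_wh : ContDiff ℝ ∞ (Function.uncurry wh) := by
  have : Function.uncurry wh = fun p : ℝ × ℝ => 1 / (1 + p.2 ^ 2 * Real.exp p.1) := by
    funext p
    rfl
  rw [this]
  exact contDiff_const.div (contDiff_const.add ((contDiff_snd.pow 2).mul contDiff_fst.exp))
    fun p => (IneqC.wh_den_pos p.1 p.2).ne' 

theorem continuous_wh (s : ℝ) : Continuous (wh s) := IneqC.wh_cont s

theorem hasDerivAt_wh_sq (s x : ℝ) :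
    HasDerivAt (fun r => wh r x ^ 2) (-2 * wh s x ^ 2 + 2 * wh s x ^ 3) s := by
  have h1 : HasDerivAt (fun r : ℝ => 1 + x ^ 2 * Real.exp r) (x ^ 2 * Real.exp s) s :=
    ((Real.hasDerivAt_exp s).const_mul (x ^ 2)).const_add 1
  have hne := (IneqC.wh_den_pos s x).ne'
  have h2 := (h1.fun_inv hne).fun_pow 2
  have e : (fun r => wh r x ^ 2) = fun r => (1 + x ^ 2 * Real.exp r)⁻¹ ^ 2 := by
    funext r
    simp [wh]
  rw [e]
  refine h2.congr_deriv ?_
  unfold wh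
  push_cast
  field_simp
  ring

theorem memLp_wh_mul (s : ℝ) (h : L2) : MemLp (fun x => wh s x * h x) 2 ν := by
  refine (Lp.memLp h).of_le
    ((continuous_wh s).aestronglyMeasurable.mul (Lp.aestronglyMeasurable h)) ?_
  refine Eventually.of_forall fun x => ?_
  rw [norm_mul, Real.norm_of_nonneg (wh_pos' s x).le]
  exact mul_le_of_le_one_left (norm_nonneg _) (wh_le_one' s x)

theorem integrable_EH (s : ℝ) (h : L2) : Integrable (fun x => (wh s x * h x) ^ 2) ν := (memLp_wh_mul s h).integrable_sq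

theorem integrable_WH (s : ℝ) (h : L2) : Integrable (fun x => wh s x ^ 3 * h x ^ 2) ν := by
  refine (integrable_EH s h).mono'
    ((((continuous_wh s).pow 3).aestronglyMeasurable).mul ((Lp.aestronglyMeasurable h).pow 2)) ?_
  refine Eventually.of_forall fun x => ?_
  have h0 := wh_pos' s x
  rw [Real.norm_of_nonneg (by positivity)]
  have h1 := mul_le_of_le_one_left (sq_nonneg (wh s x * h x)) (wh_le_one' s x)
  calc wh s x ^ 3 * h x ^ 2 = wh s x * (wh s x * h x) ^ 2 := by ring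
    _ ≤ _ := h1

theorem EH_nonneg (s : ℝ) (h : L2) : 0 ≤ EH s h := integral_nonneg fun _ => sq_nonneg _

theorem WH_nonneg (s : ℝ) (h : L2) : 0 ≤ WH s h := integral_nonneg fun x => mul_nonneg (pow_nonneg (wh_pos' s x).le 3) (sq_nonneg _)

/-- `⟪h, mulH p h⟫ = ∫ p h²` (`mulH_eq`, `L2.inner_def`) -/
theorem inner_mulH (S : Sp) {p : ℝ → ℝ} (hp : Continuous p) (h : L2) :
    ⟪h, S.mulH p h⟫_ℝ = ∫ x in Ioo (0 : ℝ) 1, p x * h x ^ 2 := by
  obtain ⟨N, hN⟩ := (isCompact_Icc (a := (0 : ℝ)) (b := 1)).exists_bound_of_continuousOn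
    hp.continuousOn
  have h1 := (S.mulH_eq p N hp.continuousOn (fun x hx => hN x (Ioo_subset_Icc_self hx))).1 h
  rw [L2.inner_def]
  apply integral_congr_ae
  filter_upwards [h1] with x hx
  rw [hx]
  simp
  ring

theorem FbBasA_inner {f g : ℝ → ℝ} (hf : MemLp f 2 ν) (hg : MemLp g 2 ν) :
    ⟪hf.toLp f, hg.toLp g⟫_ℝ = ∫ x, f x * g x ∂ν := by
  rw [L2.inner_def]
  apply integral_congr_ae
  filter_upwards [hf.coeFn_toLp, hg.coeFn_toLp] with x h1 h2
  rw [h1, h2]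
  simp [mul_comm]

theorem FbBasA_cs {f g : ℝ → ℝ} (hf : MemLp f 2 ν) (hg : MemLp g 2 ν) :
    (∫ x, f x * g x ∂ν) ^ 2 ≤ (∫ x, f x ^ 2 ∂ν) * ∫ x, g x ^ 2 ∂ν := by
  have := real_inner_mul_inner_self_le (hf.toLp f) (hg.toLp g)
  rw [FbBasA_inner, FbBasA_inner, FbBasA_inner] at this
  simpa only [sq] using this

/-- Cauchy–Schwarz against a kernel bounded by `M` and supported in `(0, ρ]`
(`|∫ k φ| ≤ ∫ |φ| · M 1_{x ≤ ρ}`, `integral_mul_le_Lp_mul_Lq` or `real_inner_mul_inner_self_le` in `L2`). -/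
theorem cs_supp {φ k : ℝ → ℝ} (hφ : MemLp φ 2 ν) (hk : AEStronglyMeasurable k ν) {M ρ : ℝ}
    (hρ : 0 ≤ ρ) (hb : ∀ x ∈ Ioo (0 : ℝ) 1, |k x| ≤ M) (hs : ∀ x ∈ Ioo (0 : ℝ) 1, ρ < x → k x = 0) :
    Integrable (fun x => k x * φ x) ν ∧
    (∫ x in Ioo (0 : ℝ) 1, k x * φ x) ^ 2 ≤ M ^ 2 * ρ * ∫ x in Ioo (0 : ℝ) 1, φ x ^ 2 := by
  have hmem : ∀ᵐ x ∂ν, x ∈ Ioo (0 : ℝ) 1 := ae_restrict_mem measurableSet_Ioo
  have hk2 : MemLp k 2 ν := MemLp.of_bound hk M (by
    filter_upwards [hmem] with x hx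
    exact hb x hx)
  refine ⟨hk2.integrable_mul hφ, (FbBasA_cs hk2 hφ).trans ?_⟩
  apply mul_le_mul_of_nonneg_right _ (integral_nonneg fun _ => sq_nonneg _)
  have hi : Integrable (indicator (Ioc (0 : ℝ) ρ) fun _ => M ^ 2) ν :=
    (integrable_const _).indicator measurableSet_Ioc
  have h1 : ∫ x, k x ^ 2 ∂ν ≤ ∫ x, indicator (Ioc (0 : ℝ) ρ) (fun _ => M ^ 2) x ∂ν := by
    apply integral_mono_ae hk2.integrable_sq hi
    filter_upwards [hmem] with x hx
    by_cases hx' : ρ < x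
    · rw [hs x hx hx', indicator_of_notMem (fun h => absurd h.2 (not_le.2 hx'))]
      simp
    · rw [indicator_of_mem (show x ∈ Ioc 0 ρ from ⟨hx.1, not_lt.1 hx'⟩), ← sq_abs (k x)]
      exact pow_le_pow_left₀ (abs_nonneg _) (hb x hx) 2
  refine h1.trans ?_
  rw [integral_indicator_const _ measurableSet_Ioc, smul_eq_mul, mul_comm]
  apply mul_le_mul_of_nonneg_left _ (sq_nonneg M)
  have h2 : ν (Ioc 0 ρ) ≤ ENNReal.ofReal ρ := by
    refine (Measure.restrict_apply_le _ _).trans ?_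
    rw [Real.volume_Ioc, sub_zero]
  exact ENNReal.toReal_le_of_le_ofReal hρ h2

/-- the same for kernels dominated by `M wh` (`cs_supp` with `k/wh`, `φ = wh h`) -/
theorem cs_EH (s : ℝ) (h : L2) {k : ℝ → ℝ} (hk : AEStronglyMeasurable k ν) {M ρ : ℝ} (hρ : 0 ≤ ρ)
    (hb : ∀ x ∈ Ioo (0 : ℝ) 1, |k x| ≤ M * wh s x) (hs : ∀ x ∈ Ioo (0 : ℝ) 1, ρ < x → k x = 0) :
    Integrable (fun x => k x * h x) ν ∧
    (∫ x in Ioo (0 : ℝ) 1, k x * h x) ^ 2 ≤ M ^ 2 * ρ * EH s h := by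
  have hk' : AEStronglyMeasurable (fun x => k x / wh s x) ν :=
    (hk.aemeasurable.div (continuous_wh s).measurable.aemeasurable).aestronglyMeasurable
  have := cs_supp (memLp_wh_mul s h) hk' (M := M) hρ
    (fun x hx => by
      rw [abs_div, abs_of_pos (wh_pos' s x), div_le_iff₀ (wh_pos' s x)]
      exact hb x hx)
    (fun x hx hx' => by rw [hs x hx hx', zero_div])
  have e : (fun x => k x / wh s x * (wh s x * h x)) = fun x => k x * h x := by
    funext x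
    have := (wh_pos' s x).ne'
    field_simp
  rw [e] at this
  exact this

end Crest.Agent.R213
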