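import Crest.Agent.R213.Abs

/-!
# R213 / SolAlg : Gronwall lemma, a-priori bound and algebra of solutions (proofs for `IEnergy`)
-/

set_option autoImplicit false

open MeasureTheory Set
open scoped InnerProductSpace

namespace Crest.Agent.R213

theorem sa_ii {E : Type} [NormedAddCommGroup E] {s0 s1 s : ℝ} {f : ℝ → E}
    (hf : IntegrableOn f (Ioc s0 s1)) (hs : s ∈ Icc s0 s1) : IntervalIntegrable f volume s0 s :=
  (intervalIntegrable_iff_integrableOn_Ioc_of_le hs.1).2 (hf.mono_set (Ioc_subset_Ioc_right hs.2))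

theorem sa_ac_exp {B : ℝ → ℝ} {a b : ℝ} (hB : AbsolutelyContinuousOnInterval B a b)
    (h0 : ∀ x ∈ uIcc a b, 0 ≤ B x) :
    AbsolutelyContinuousOnInterval (fun x => Real.exp (-B x)) a b := by
  have key : ∀ x y : ℝ, 0 ≤ x → x ≤ y → |Real.exp (-x) - Real.exp (-y)| ≤ |x - y| := fun x y hx hxy => by
    have h1 : Real.exp (-y) ≤ Real.exp (-x) := Real.exp_le_exp.2 (by linarith)
    have h2 : Real.exp (-x) ≤ 1 := Real.exp_le_one_iff.2 (by linarith)
    have h3 := Real.add_one_le_exp (x - y)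
    have h4 : Real.exp (-y) = Real.exp (-x) * Real.exp (x - y) := by
      rw [← Real.exp_add]
      ring_nf
    rw [abs_of_nonneg (by linarith), abs_of_nonpos (by linarith)]
    nlinarith [Real.exp_pos (-x)]
  rw [absolutelyContinuousOnInterval_iff] at hB ⊢
  intro ε hε
  obtain ⟨δ, hδ, h⟩ := hB ε hε
  refine ⟨δ, hδ, fun E hE h1 => lt_of_le_of_lt (Finset.sum_le_sum fun i hi => ?_) (h E hE h1)⟩
  obtain ⟨a1, a2⟩ := hE.1 i hi
  rw [Real.dist_eq, Real.dist_eq]
  rcases le_total (B (E.2 i).1) (B (E.2 i).2) with h2 | h2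
  · exact key _ _ (h0 _ a1) h2
  · rw [abs_sub_comm, abs_sub_comm (B _)]
    exact key _ _ (h0 _ a2) h2

theorem sa_gronwall {s0 s1 : ℝ} {e D β f : ℝ → ℝ} (he : ContinuousOn e (Icc s0 s1))
    (hβ : IntegrableOn β (Ioc s0 s1)) (hf : IntegrableOn f (Ioc s0 s1))
    (hD0 : ∀ s, 0 ≤ D s) (hβ0 : ∀ s, 0 ≤ β s) (hf0 : ∀ s, 0 ≤ f s)
    (h : ∀ s ∈ Icc s0 s1, e s + ∫ q in s0..s, D q ≤ e s0 + ∫ q in s0..s, (β q * e q + f q))
    {s : ℝ} (hs : s ∈ Icc s0 s1) :
    e s + ∫ q in s0..s, D q ≤ Real.exp (∫ q in s0..s, β q) * (e s0 + ∫ q in s0..s, f q) := by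
  have hu : uIcc s0 s = Icc s0 s := uIcc_of_le hs.1
  have i1 := sa_ii hβ hs
  have i2 := sa_ii hf hs
  have i3 : IntervalIntegrable (fun q => β q * e q + f q) volume s0 s :=
    (i1.mul_continuousOn (hu ▸ he.mono (Icc_subset_Icc_right hs.2))).add i2
  have hB0 : ∀ x ∈ uIcc s0 s, 0 ≤ ∫ q in s0..x, β q := fun x hx =>
    intervalIntegral.integral_nonneg (hu ▸ hx).1 fun q _ => hβ0 q
  have a1 := sa_ac_exp (i1.absolutelyContinuousOnInterval_intervalIntegral left_mem_uIcc) hB0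
  have a2 : AbsolutelyContinuousOnInterval (fun x => e s0 + ∫ q in s0..x, (β q * e q + f q)) s0 s :=
    (contDiffOn_const.absolutelyContinuousOnInterval).fun_add
      (i3.absolutelyContinuousOnInterval_intervalIntegral left_mem_uIcc)
  have a3 := a1.fun_mul a2
  have key := a3.integral_deriv_eq_sub
  have hle : ∫ x in s0..s, deriv (fun x => Real.exp (-∫ q in s0..x, β q) *
      (e s0 + ∫ q in s0..x, (β q * e q + f q))) x ≤ ∫ x in s0..s, f x := by
    refine intervalIntegral.integral_mono_ae_restrict hs.1 a3.intervalIntegrable_deriv i2 ?_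
    rw [Filter.EventuallyLE, ae_restrict_iff' measurableSet_Icc]
    filter_upwards [i1.ae_hasDerivAt_integral, i3.ae_hasDerivAt_integral] with x h1 h3 hx
    have hx' : x ∈ uIcc s0 s := hu ▸ hx
    rw [(((h1 hx' s0 left_mem_uIcc).fun_neg.exp).fun_mul
      ((h3 hx' s0 left_mem_uIcc).const_add (e s0))).deriv]
    have b1 := h x ⟨hx.1, hx.2.trans hs.2⟩
    have b2 : 0 ≤ ∫ q in s0..x, D q := intervalIntegral.integral_nonneg hx.1 fun q _ => hD0 q
    have b3 : Real.exp (-∫ q in s0..x, β q) ≤ 1 := Real.exp_le_one_iff.2 (neg_nonpos.2 (hB0 x hx'))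
    have b4 := Real.exp_pos (-∫ q in s0..x, β q)
    generalize Real.exp (-∫ q in s0..x, β q) = E at *
    have b5 := mul_nonneg (mul_nonneg b4.le (hβ0 x))
      (sub_nonneg.2 ((le_add_of_nonneg_right b2).trans b1))
    have b6 := mul_le_mul_of_nonneg_right b3 (hf0 x)
    linarith
  rw [key] at hle
  simp only [intervalIntegral.integral_same, neg_zero, Real.exp_zero, one_mul, add_zero] at hle
  refine (h s hs).trans ?_
  rw [Real.exp_neg, sub_le_iff_le_add', inv_mul_le_iff₀ (Real.exp_pos _)] at hle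
  exact hle

variable {V H : Type} [NormedAddCommGroup V] [InnerProductSpace ℝ V]
  [NormedAddCommGroup H] [InnerProductSpace ℝ H]

omit [InnerProductSpace ℝ V] in
theorem sa_sq {s0 s1 : ℝ} {v : ℝ → V} (h : MemLp v 2 (volume.restrict (Ioc s0 s1))) :
    IntegrableOn (fun q => ‖v q‖ ^ 2) (Ioc s0 s1) := (memLp_two_iff_integrable_sq_norm h.1).1 h

theorem IsSol.sa_Z {T : Trip V H} {s0 s1 s : ℝ} {v Z : ℝ → V} {U : ℝ → H} (h : IsSol T s0 s1 v Z U)
    (hs : s ∈ Icc s0 s1) : IntervalIntegrable Z volume s0 s :=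
  sa_ii (h.Z2.integrable one_le_two) hs

theorem sa_apriori (T : Trip V H) {s0 s1 : ℝ} {v Z F : ℝ → V} {U : ℝ → H}
    (h : IsSol T s0 s1 v Z U) (A : ℝ → V →L[ℝ] V) {c C : ℝ} (hc : 0 < c) (hC : 0 ≤ C)
    (hE : ∀ s ∈ Icc s0 s1, IntervalIntegrable (fun q => 2 * T.a (Z q) (v q)) volume s0 s ∧
      ‖U s‖ ^ 2 = ‖U s0‖ ^ 2 + ∫ q in s0..s, 2 * T.a (Z q) (v q))
    (gar : ∀ s ∈ Icc s0 s1, ∀ u, c * ‖u‖ ^ 2 - C * ‖T.ι u‖ ^ 2 ≤ T.a (A s u) u)
    (hF : MemLp F 2 (volume.restrict (Ioc s0 s1)))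
    (hZ : ∀ᵐ s ∂(volume.restrict (Ioc s0 s1)), Z s = -(A s (v s)) + F s)
    {s : ℝ} (hs : s ∈ Icc s0 s1) :
    ‖U s‖ ^ 2 + c * ∫ q in s0..s, ‖v q‖ ^ 2 ≤
      Real.exp (2 * C * (s - s0)) * (‖U s0‖ ^ 2 + ‖T.a‖ ^ 2 / c * ∫ q in s0..s, ‖F q‖ ^ 2) := by
  have he : ContinuousOn (fun q => ‖U q‖ ^ 2) (Icc s0 s1) := h.cont.norm.pow 2
  have iD : IntegrableOn (fun q => c * ‖v q‖ ^ 2) (Ioc s0 s1) := (sa_sq h.v2).const_mul c
  have iF : IntegrableOn (fun q => ‖T.a‖ ^ 2 / c * ‖F q‖ ^ 2) (Ioc s0 s1) := (sa_sq hF).const_mul _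
  have iU : IntegrableOn (fun q => 2 * C * ‖U q‖ ^ 2 + ‖T.a‖ ^ 2 / c * ‖F q‖ ^ 2) (Ioc s0 s1) :=
    ((he.integrableOn_Icc.mono_set Ioc_subset_Icc_self).const_mul _).add iF
  have key := sa_gronwall (D := fun q => c * ‖v q‖ ^ 2) (β := fun _ => 2 * C) he
    (integrableOn_const (by simp)) iF (fun _ => by positivity) (fun _ => by positivity)
    (fun _ => by positivity) (fun r hr => ?_) hs
  · rw [intervalIntegral.integral_const, smul_eq_mul, mul_comm (s - s0),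
      intervalIntegral.integral_const_mul, intervalIntegral.integral_const_mul] at key
    exact key
  rw [(hE r hr).2, add_assoc, add_le_add_iff_left,
    ← intervalIntegral.integral_add (hE r hr).1 (sa_ii iD hr), intervalIntegral.integral_of_le hr.1,
    intervalIntegral.integral_of_le hr.1]
  have hsub : Ioc s0 r ⊆ Ioc s0 s1 := Ioc_subset_Ioc_right hr.2
  refine integral_mono_ae ((hE r hr).1.add (sa_ii iD hr)).1 (iU.mono_set hsub) ?_
  filter_upwards [ae_restrict_of_ae_restrict_of_subset hsub hZ,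
    ae_restrict_of_ae_restrict_of_subset hsub h.rep, ae_restrict_mem measurableSet_Ioc] with q h1 h2 h3
  have b1 := gar q (Ioc_subset_Icc_self (hsub h3)) (v q)
  have b2 : T.a (F q) (v q) ≤ ‖T.a‖ * ‖F q‖ * ‖v q‖ := (le_abs_self _).trans (T.a.le_opNorm₂ _ _)
  have b3 : 2 * (‖T.a‖ * ‖F q‖ * ‖v q‖) ≤ ‖T.a‖ ^ 2 / c * ‖F q‖ ^ 2 + c * ‖v q‖ ^ 2 := by
    rw [div_mul_eq_mul_div, div_add' _ _ _ hc.ne', le_div_iff₀ hc]
    nlinarith [sq_nonneg (‖T.a‖ * ‖F q‖ - c * ‖v q‖)]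
  rw [h2] at b1
  simp only [h1, map_add, map_neg, add_apply, neg_apply]
  linarith

theorem sa_add_smul {T : Trip V H} {s0 s1 : ℝ} {v Z v' Z' : ℝ → V} {U U' : ℝ → H}
    (h : IsSol T s0 s1 v Z U) (h' : IsSol T s0 s1 v' Z' U') (t : ℝ) :
    IsSol T s0 s1 (fun s => v s + t • v' s) (fun s => Z s + t • Z' s) (fun s => U s + t • U' s) := by
  refine ⟨h.v2.add (h'.v2.const_smul t), h.Z2.add (h'.Z2.const_smul t),
    h.cont.add (h'.cont.const_smul t), ?_, fun s hs => ?_⟩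
  · filter_upwards [h.rep, h'.rep] with s h1 h2
    rw [map_add, map_smul, h1, h2]
  · have i2 : IntervalIntegrable (fun r => t • Z' r) volume s0 s := (h'.sa_Z hs).smul t
    rw [intervalIntegral.integral_add (h.sa_Z hs) i2, intervalIntegral.integral_smul, map_add, map_add,
      map_smul, map_smul, h.int s hs, h'.int s hs, smul_add]
    abel

theorem sa_sub {T : Trip V H} {s0 s1 : ℝ} {v Z v' Z' : ℝ → V} {U U' : ℝ → H}
    (h : IsSol T s0 s1 v Z U) (h' : IsSol T s0 s1 v' Z' U') :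
    IsSol T s0 s1 (fun s => v s - v' s) (fun s => Z s - Z' s) (fun s => U s - U' s) := by
  simpa only [neg_smul, one_smul, ← sub_eq_add_neg] using sa_add_smul h h' (-1)

theorem sa_mono {T : Trip V H} {s0 s1 r0 r1 : ℝ} {v Z : ℝ → V} {U : ℝ → H}
    (h : IsSol T s0 s1 v Z U) (h0 : s0 ≤ r0) (h01 : r0 ≤ r1) (h1 : r1 ≤ s1) :
    IsSol T r0 r1 v Z U := by
  have hsub : Ioc r0 r1 ⊆ Ioc s0 s1 := Ioc_subset_Ioc h0 h1
  have hm := Measure.restrict_mono hsub (le_refl (volume : Measure ℝ))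
  refine ⟨h.v2.mono_measure hm, h.Z2.mono_measure hm, h.cont.mono (Icc_subset_Icc h0 h1),
    ae_restrict_of_ae_restrict_of_subset hsub h.rep, fun s hs => ?_⟩
  have a1 : s ∈ Icc s0 s1 := ⟨h0.trans hs.1, hs.2.trans h1⟩
  have a2 : r0 ∈ Icc s0 s1 := ⟨h0, h01.trans h1⟩
  rw [h.int s a1, h.int r0 a2, ← intervalIntegral.integral_interval_sub_left (h.sa_Z a1) (h.sa_Z a2)]
  abel

theorem sa_congr {T : Trip V H} {s0 s1 : ℝ} {v Z v' Z' : ℝ → V} {U U' : ℝ → H}
    (h : IsSol T s0 s1 v Z U) (h01 : s0 ≤ s1)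
    (hv : ∀ᵐ s ∂(volume.restrict (Ioc s0 s1)), v' s = v s)
    (hZ : ∀ᵐ s ∂(volume.restrict (Ioc s0 s1)), Z' s = Z s) (hU : ∀ s ∈ Icc s0 s1, U' s = U s) :
    IsSol T s0 s1 v' Z' U' := by
  refine ⟨(memLp_congr_ae hv).2 h.v2, (memLp_congr_ae hZ).2 h.Z2, h.cont.congr hU, ?_, fun s hs => ?_⟩
  · filter_upwards [h.rep, hv, ae_restrict_mem measurableSet_Ioc] with s h1 h2 h3
    rw [h2, h1, hU s (Ioc_subset_Icc_self h3)]
  · rw [hU s hs, hU s0 (left_mem_Icc.2 h01), h.int s hs, intervalIntegral.integral_of_le hs.1,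
      intervalIntegral.integral_of_le hs.1,
      integral_congr_ae (ae_restrict_of_ae_restrict_of_subset (Ioc_subset_Ioc_right hs.2) hZ)]

theorem sa_mp {s0 s1 l k : ℝ} (hl : 0 < l) :
    MeasurePreserving (fun s => l * s + k) (volume.restrict (Ioc s0 s1))
      (ENNReal.ofReal |l⁻¹| • volume.restrict (Ioc (l * s0 + k) (l * s1 + k))) := by
  have h1 : MeasurePreserving (fun s : ℝ => l * s) volume (ENNReal.ofReal |l⁻¹| • volume) :=
    ⟨by fun_prop, Real.map_volume_mul_left hl.ne'⟩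
  have h2 := ((measurePreserving_add_right volume k).smul_measure (ENNReal.ofReal |l⁻¹|)).comp h1
  have h3 := h2.restrict_preimage (measurableSet_Ioc (a := l * s0 + k) (b := l * s1 + k))
  rw [Measure.restrict_smul] at h3
  have e : ((fun x => x + k) ∘ fun s => l * s) ⁻¹' Ioc (l * s0 + k) (l * s1 + k) = Ioc s0 s1 := by
    ext s
    simp [hl]
  rw [e] at h3
  exact h3

theorem sa_affine {T : Trip V H} {s0 s1 l k : ℝ} {v Z : ℝ → V} {U : ℝ → H} (hl : 0 < l)
    (h : IsSol T (l * s0 + k) (l * s1 + k) v Z U) :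
    IsSol T s0 s1 (fun s => v (l * s + k)) (fun s => l • Z (l * s + k))
      (fun s => U (l * s + k)) := by
  have hm : MapsTo (fun s => l * s + k) (Icc s0 s1) (Icc (l * s0 + k) (l * s1 + k)) := fun s hs =>
    ⟨add_le_add_left (mul_le_mul_of_nonneg_left hs.1 hl.le) k,
      add_le_add_left (mul_le_mul_of_nonneg_left hs.2 hl.le) k⟩
  refine ⟨(h.v2.smul_measure ENNReal.ofReal_ne_top).comp_measurePreserving (sa_mp hl),
    ((h.Z2.smul_measure ENNReal.ofReal_ne_top).comp_measurePreserving (sa_mp hl)).const_smul l,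
    h.cont.comp (by fun_prop) hm,
    (sa_mp hl).quasiMeasurePreserving.ae (Measure.ae_smul_measure h.rep _), fun s hs => ?_⟩
  rw [intervalIntegral.integral_smul, intervalIntegral.smul_integral_comp_mul_add]
  exact h.int _ (hm hs)

theorem sa_map [CompleteSpace V] {T : Trip V H} {s0 s1 : ℝ} {v Z : ℝ → V} {U : ℝ → H}
    (h : IsSol T s0 s1 v Z U) (Q P : V →L[ℝ] V) (QH : H →L[ℝ] H)
    (h1 : ∀ u, T.ι (Q u) = QH (T.ι u)) (h2 : ∀ x, T.G (QH x) = P (T.G x)) :
    IsSol T s0 s1 (fun s => Q (v s)) (fun s => P (Z s)) (fun s => QH (U s)) := by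
  refine ⟨Q.comp_memLp' h.v2, P.comp_memLp' h.Z2, QH.continuous.comp_continuousOn h.cont,
    h.rep.mono fun s hs => by rw [h1, hs], fun s hs => ?_⟩
  rw [h2, h2, h.int s hs, map_add, P.intervalIntegral_comp_comm (h.sa_Z hs)]

theorem sa_extend_zero {T : Trip V H} {r s0 s1 : ℝ} {v Z : ℝ → V} {U : ℝ → H}
    (h : IsSol T s0 s1 v Z U) (hr : r ≤ s0) (h01 : s0 ≤ s1) (h0 : U s0 = 0) :
    IsSol T r s1 ((Ioi s0).indicator v) ((Ioi s0).indicator Z) ((Ioi s0).indicator U) := by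
  have e : ∀ s, Ioc r s ∩ Ioi s0 = Ioc s0 s := fun s => by rw [Ioc_inter_Ioi, sup_of_le_right hr]
  have e1 : (volume.restrict (Ioc r s1)).restrict (Ioi s0) = volume.restrict (Ioc s0 s1) := by
    rw [Measure.restrict_restrict measurableSet_Ioi, inter_comm, e]
  have e2 : ∀ s, (Ioi s0).indicator U s = U (max s s0) := fun s => by
    rcases le_or_gt s s0 with hs | hs
    · rw [indicator_of_notMem (by simpa using hs), max_eq_right hs, h0]
    · rw [indicator_of_mem (by simpa using hs), max_eq_left hs.le]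
  have hm : MapsTo (fun s => max s s0) (Icc r s1) (Icc s0 s1) := fun s hs =>
    ⟨le_max_right _ _, max_le hs.2 h01⟩
  refine ⟨(memLp_indicator_iff_restrict measurableSet_Ioi).2 (e1 ▸ h.v2),
    (memLp_indicator_iff_restrict measurableSet_Ioi).2 (e1 ▸ h.Z2),
    (h.cont.comp (by fun_prop) hm).congr fun s _ => e2 s, ?_, fun s hs => ?_⟩
  · have h1 := h.rep
    rw [← e1, ae_restrict_iff' measurableSet_Ioi] at h1
    filter_upwards [h1] with s hs
    by_cases h2 : s ∈ Ioi s0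
    · rw [indicator_of_mem h2, indicator_of_mem h2, hs h2]
    · rw [indicator_of_notMem h2, indicator_of_notMem h2, map_zero]
  · rw [intervalIntegral.integral_of_le hs.1, setIntegral_indicator measurableSet_Ioi, e, e2, e2,
      max_eq_right hr, h.int _ (hm hs), intervalIntegral.integral_of_le (le_max_right _ _)]
    rcases le_total s s0 with h2 | h2
    · rw [max_eq_right h2, Ioc_self, Ioc_eq_empty h2.not_gt]
    · rw [max_eq_left h2]

theorem sa_of_hasDerivAt [CompleteSpace V] (T : Trip V H) {s0 s1 : ℝ} {v Z : ℝ → V}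
    (hv : Continuous v) (hZ : Continuous Z)
    (hd : ∀ s, HasDerivAt (fun r => T.G (T.ι (v r))) (Z s) s) :
    IsSol T s0 s1 v Z (fun s => T.ι (v s)) := by
  refine ⟨(memLp_two_iff_integrable_sq_norm hv.aestronglyMeasurable).2 (hv.norm.pow 2).integrableOn_Ioc,
    (memLp_two_iff_integrable_sq_norm hZ.aestronglyMeasurable).2 (hZ.norm.pow 2).integrableOn_Ioc,
    (T.ι.continuous.comp hv).continuousOn, Filter.Eventually.of_forall fun _ => rfl, fun s _ => ?_⟩
  rw [intervalIntegral.integral_eq_sub_of_hasDerivAt (fun x _ => hd x) (hZ.intervalIntegrable _ _)]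
  abel

end Crest.Agent.R213
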