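import Crest.Agent.R213.Abs
import Crest.Agent.R213.SolAlg
import Crest.Agent.R213.Energy

/-!
# R213 / IEnergy : energy identity with `C¹` weights, a-priori bound, algebra of solutions
-/

set_option autoImplicit false

open MeasureTheory Set
open scoped InnerProductSpace

namespace Crest.Agent.R213

variable {V H : Type} [NormedAddCommGroup V] [InnerProductSpace ℝ V] [CompleteSpace V]
  [NormedAddCommGroup H] [InnerProductSpace ℝ H] [CompleteSpace H]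

/-- Energy identity.  Proof: `e q = ⟪U q, m q (U q)⟫` is continuous.  For `h > 0` and a.e. `q`,
`⟪U(q+h), m q U(q+h)⟫ - e q = ⟪U(q+h) - U q, ι (μ q (v(q+h) + v q))⟫ = a (∫_q^{q+h} Z) (μ q (v(q+h)+v q))`
(symmetry of `m q`, `hG`, `int`).  Integrate over `q ∈ [r, s-h]`, divide by `h`, let `h → 0`:
extend `v, Z` by zero, translations are continuous in `L²(ℝ,V)`, Steklov means
`h⁻¹∫_q^{q+h} Z → Z` in `L²` (Jensen/Cauchy–Schwarz + Fubini), and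
`h⁻¹(m (q+h) - m q) → m' q` uniformly on compacts. -/
theorem energy (T : Trip V H) {s0 s1 : ℝ} {v Z : ℝ → V} {U : ℝ → H} (h : IsSol T s0 s1 v Z U)
    (μ : ℝ → V →L[ℝ] V) (m m' : ℝ → H →L[ℝ] H) (hμ : Continuous μ)
    (hm : ∀ s, HasDerivAt m (m' s) s) (hm' : Continuous m')
    (hc : ∀ s u, T.ι (μ s u) = m s (T.ι u))
    (hs : ∀ s x y, ⟪m s x, y⟫_ℝ = ⟪x, m s y⟫_ℝ)
    {r s : ℝ} (hr : s0 ≤ r) (hrs : r ≤ s) (hs1 : s ≤ s1) :
    IntervalIntegrable (fun q => 2 * T.a (Z q) (μ q (v q)) + ⟪U q, m' q (U q)⟫_ℝ) volume r s ∧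
    ⟪U s, m s (U s)⟫_ℝ = ⟪U r, m r (U r)⟫_ℝ +
      ∫ q in r..s, (2 * T.a (Z q) (μ q (v q)) + ⟪U q, m' q (U q)⟫_ℝ) := by
  exact EnergyAux.energy_aux T h μ m m' hμ hm hm' hc hs hr hrs hs1

/-- unweighted case (`μ = 1`, `m = 1`). -/
theorem energy_one (T : Trip V H) {s0 s1 : ℝ} {v Z : ℝ → V} {U : ℝ → H}
    (h : IsSol T s0 s1 v Z U) {r s : ℝ} (hr : s0 ≤ r) (hrs : r ≤ s) (hs1 : s ≤ s1) :
    IntervalIntegrable (fun q => 2 * T.a (Z q) (v q)) volume r s ∧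
    ‖U s‖ ^ 2 = ‖U r‖ ^ 2 + ∫ q in r..s, 2 * T.a (Z q) (v q) := by
  exact EnergyAux.energy_one_aux T h hr hrs hs1

/-- Integral Gronwall lemma with integrable coefficient, in the form used everywhere:
`e` continuous `≥ 0`, `e s + ∫_{r}^{s} D ≤ e r + ∫_r^s (β e + f)` for all `s0 ≤ r ≤ s ≤ s1`,
`D, β, f ≥ 0` integrable. -/
theorem gronwall_int {s0 s1 : ℝ} {e D β f : ℝ → ℝ} (he : ContinuousOn e (Icc s0 s1))
    (he0 : ∀ s ∈ Icc s0 s1, 0 ≤ e s)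
    (hD : IntegrableOn D (Ioc s0 s1)) (hβ : IntegrableOn β (Ioc s0 s1))
    (hf : IntegrableOn f (Ioc s0 s1))
    (hD0 : ∀ s, 0 ≤ D s) (hβ0 : ∀ s, 0 ≤ β s) (hf0 : ∀ s, 0 ≤ f s)
    (h : ∀ s ∈ Icc s0 s1, e s + ∫ q in s0..s, D q ≤ e s0 + ∫ q in s0..s, (β q * e q + f q))
    {s : ℝ} (hs : s ∈ Icc s0 s1) :
    e s + ∫ q in s0..s, D q ≤ Real.exp (∫ q in s0..s, β q) * (e s0 + ∫ q in s0..s, f q) := by
  exact sa_gronwall he hβ hf hD0 hβ0 hf0 h hs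

/-- linear a-priori bound (hence uniqueness). -/
theorem apriori (T : Trip V H) {s0 s1 : ℝ} {v Z F : ℝ → V} {U : ℝ → H}
    (h : IsSol T s0 s1 v Z U) (A : ℝ → V →L[ℝ] V) {c C : ℝ} (hc : 0 < c) (hC : 0 ≤ C)
    (gar : ∀ s ∈ Icc s0 s1, ∀ u, c * ‖u‖ ^ 2 - C * ‖T.ι u‖ ^ 2 ≤ T.a (A s u) u)
    (hF : MemLp F 2 (volume.restrict (Ioc s0 s1)))
    (hZ : ∀ᵐ s ∂(volume.restrict (Ioc s0 s1)), Z s = -(A s (v s)) + F s)
    {s : ℝ} (hs : s ∈ Icc s0 s1) :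
    ‖U s‖ ^ 2 + c * ∫ q in s0..s, ‖v q‖ ^ 2 ≤
      Real.exp (2 * C * (s - s0)) * (‖U s0‖ ^ 2 + ‖T.a‖ ^ 2 / c * ∫ q in s0..s, ‖F q‖ ^ 2) := by
  exact sa_apriori T h A hc hC (fun _ hr => energy_one T h le_rfl hr.1 hr.2) gar hF hZ hs

theorem IsSol.add_smul {T : Trip V H} {s0 s1 : ℝ} {v Z v' Z' : ℝ → V} {U U' : ℝ → H}
    (h : IsSol T s0 s1 v Z U) (h' : IsSol T s0 s1 v' Z' U') (t : ℝ) :
    IsSol T s0 s1 (fun s => v s + t • v' s) (fun s => Z s + t • Z' s) (fun s => U s + t • U' s) := by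
  exact sa_add_smul h h' t

theorem IsSol.sub {T : Trip V H} {s0 s1 : ℝ} {v Z v' Z' : ℝ → V} {U U' : ℝ → H}
    (h : IsSol T s0 s1 v Z U) (h' : IsSol T s0 s1 v' Z' U') :
    IsSol T s0 s1 (fun s => v s - v' s) (fun s => Z s - Z' s) (fun s => U s - U' s) := by
  exact sa_sub h h'

theorem IsSol.mono {T : Trip V H} {s0 s1 r0 r1 : ℝ} {v Z : ℝ → V} {U : ℝ → H}
    (h : IsSol T s0 s1 v Z U) (h0 : s0 ≤ r0) (h01 : r0 ≤ r1) (h1 : r1 ≤ s1) :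
    IsSol T r0 r1 v Z U := by
  exact sa_mono h h0 h01 h1

theorem IsSol.congr {T : Trip V H} {s0 s1 : ℝ} {v Z v' Z' : ℝ → V} {U U' : ℝ → H}
    (h : IsSol T s0 s1 v Z U) (h01 : s0 ≤ s1)
    (hv : ∀ᵐ s ∂(volume.restrict (Ioc s0 s1)), v' s = v s)
    (hZ : ∀ᵐ s ∂(volume.restrict (Ioc s0 s1)), Z' s = Z s) (hU : ∀ s ∈ Icc s0 s1, U' s = U s) :
    IsSol T s0 s1 v' Z' U' := by
  exact sa_congr h h01 hv hZ hU

/-- affine change of time `s ↦ l * s + k`, `l > 0`. -/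
theorem IsSol.affine {T : Trip V H} {s0 s1 l k : ℝ} {v Z : ℝ → V} {U : ℝ → H} (hl : 0 < l)
    (h : IsSol T (l * s0 + k) (l * s1 + k) v Z U) :
    IsSol T s0 s1 (fun s => v (l * s + k)) (fun s => l • Z (l * s + k))
      (fun s => U (l * s + k)) := by
  exact sa_affine hl h

/-- image under intertwining bounded operators. -/
theorem IsSol.map {T : Trip V H} {s0 s1 : ℝ} {v Z : ℝ → V} {U : ℝ → H}
    (h : IsSol T s0 s1 v Z U) (Q P : V →L[ℝ] V) (QH : H →L[ℝ] H)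
    (h1 : ∀ u, T.ι (Q u) = QH (T.ι u)) (h2 : ∀ x, T.G (QH x) = P (T.G x)) :
    IsSol T s0 s1 (fun s => Q (v s)) (fun s => P (Z s)) (fun s => QH (U s)) := by
  exact sa_map h Q P QH h1 h2

/-- a solution with zero initial value, extended by zero to the left. -/
theorem IsSol.extend_zero {T : Trip V H} {r s0 s1 : ℝ} {v Z : ℝ → V} {U : ℝ → H}
    (h : IsSol T s0 s1 v Z U) (hr : r ≤ s0) (h01 : s0 ≤ s1) (h0 : U s0 = 0) :
    IsSol T r s1 ((Ioi s0).indicator v) ((Ioi s0).indicator Z) ((Ioi s0).indicator U) := by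
  exact sa_extend_zero h hr h01 h0

/-- classical solutions. -/
theorem IsSol.of_hasDerivAt (T : Trip V H) {s0 s1 : ℝ} {v Z : ℝ → V} (hv : Continuous v)
    (hZ : Continuous Z) (hd : ∀ s, HasDerivAt (fun r => T.G (T.ι (v r))) (Z s) s) :
    IsSol T s0 s1 v Z (fun s => T.ι (v s)) := by
  exact sa_of_hasDerivAt T hv hZ hd

end Crest.Agent.R213
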