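import Crest.Agent.R213.IIneq
import Crest.Agent.R213.IEnergy

/-! # R213 / FbDefs : definitions for the proof of `fb_exists` (owner helper77; plan in `IFb.lean`).  DO NOT EDIT.

`λ = lam s`, `τ = e^{-s} = λ²`, `y = x/λ`, `wh s x = 1/(1+y²)`, `e^{s/4} = λ^{-1/2}`. -/

set_option autoImplicit false

open MeasureTheory Set Filter Topology
open scoped ContDiff InnerProductSpace

noncomputable section

namespace Crest.Agent.R213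

/-- `E_H = ∫ (wh h)²` -/
def EH (s : ℝ) (h : L2) : ℝ := ∫ x in Ioo (0 : ℝ) 1, (wh s x * h x) ^ 2

/-- `∫ wh³ h²` -/
def WH (s : ℝ) (h : L2) : ℝ := ∫ x in Ioo (0 : ℝ) 1, wh s x ^ 3 * h x ^ 2

/-- smooth, supported in `(R⁻¹, R)` -/
structure Bump (Ψ : ℝ → ℝ) (R : ℝ) : Prop where
  sm : ContDiff ℝ ∞ Ψ
  pos : 0 < R
  supp : ∀ y, y ∉ Ioo R⁻¹ R → Ψ y = 0

/-- `L s u = λ^{-1/2} ∫ (C0 u)(x) Ψ(x/λ) dx` -/
def IsL (Ψ : ℝ → ℝ) (L : ℝ → VV →L[ℝ] ℝ) : Prop :=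
  ∀ s u, L s u = Real.exp (s / 4) * ∫ x in Ioo (0 : ℝ) 1,
    (d2 u x + 18 * d1 u x / x + 72 * d0 u x / x ^ 2) * Ψ (x / lam s)

/-- the profile of `∂_s L` -/
def DP (Ψ : ℝ → ℝ) (y : ℝ) : ℝ := Ψ y / 4 + y * deriv Ψ y / 2

/-- the anchor functionals and their derivatives -/
structure AncL (N : Anc) (La La' : Fin 2 → ℝ → VV →L[ℝ] ℝ) : Prop where
  isL : ∀ j, IsL (N.ψ j) (La j)
  isL' : ∀ j, IsL (DP (N.ψ j)) (La' j)
  cont : ∀ j, Continuous (La j)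
  cont' : ∀ j, Continuous (La' j)
  der : ∀ j s, HasDerivAt (La j) (La' j s) s

/-- `Λ(p) = a(p, wh² u) + Σ_j c_j L_j p`, `c_j = L_j (G (ι u))` -/
def Lam (S : Sp) (La : Fin 2 → ℝ → VV →L[ℝ] ℝ) (s : ℝ) (u p : VV) : ℝ :=
  S.T.a p (S.mul (fun x => wh s x ^ 2) u) + ∑ j, La j s (S.T.G (S.T.ι u)) * La j s p

/-- the derivative of the energy along `(G U)' = Z`, `U = ι u` -/
def dE (S : Sp) (La La' : Fin 2 → ℝ → VV →L[ℝ] ℝ) (s : ℝ) (u Z : VV) : ℝ :=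
  2 * Lam S La s u Z - 2 * EH s (S.T.ι u) + 2 * WH s (S.T.ι u) +
    2 * ∑ j, La j s (S.T.G (S.T.ι u)) * La' j s (S.T.G (S.T.ι u))

/-- the observation attached to the bump `β` -/
def cb (β : ℝ → ℝ) (s : ℝ) (h : L2) : ℝ :=
  Real.exp (s / 4) * ∫ x in Ioo (0 : ℝ) 1, β (x / lam s) * (h x / (1 - x))

/-- the `k`-th bump, supported in `((k+1)η, (k+2)η)` -/
def bet (B : ℝ → ℝ) (η : ℝ) (k : ℕ) (y : ℝ) : ℝ := B (y / η - (k + 1)) / (1 + y ^ 2)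

end Crest.Agent.R213

end
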