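import Crest.Agent.R213.FbL3

/-! # R213 / FbDis : pointwise dissipation without feedback -/

set_option autoImplicit false

open MeasureTheory Set Filter Topology
open scoped ContDiff InnerProductSpace

namespace Crest.Agent.R213

theorem Lam_add (S : Sp) (La : Fin 2 → ℝ → VV →L[ℝ] ℝ) (s : ℝ) (u p q : VV) :
    Lam S La s u (p + q) = Lam S La s u p + Lam S La s u q := by
  unfold Lam
  simp only [map_add, add_apply, mul_add, Finset.sum_add_distrib]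
  ring

theorem Lam_sum (S : Sp) (La : Fin 2 → ℝ → VV →L[ℝ] ℝ) (s : ℝ) (u : VV) {ι : Type} [Fintype ι]
    (t : ι → ℝ) (f : ι → VV) : Lam S La s u (∑ i, t i • f i) = ∑ i, t i * Lam S La s u (f i) := by
  unfold Lam
  simp only [map_sum, map_smul, sum_apply, smul_apply,
    smul_eq_mul, mul_add, Finset.sum_add_distrib, Finset.mul_sum]
  congr 1
  rw [Finset.sum_comm]
  refine Finset.sum_congr rfl fun i _ => Finset.sum_congr rfl fun j _ => by ring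

theorem FbDis_smul_sub (S : Sp) (La : Fin 2 → ℝ → VV →L[ℝ] ℝ) (s : ℝ) (u p q : VV) (t : ℝ) :
    Lam S La s u (t • (p - q)) = t * Lam S La s u p - t * Lam S La s u q := by
  unfold Lam
  simp only [map_smul, map_sub, sub_apply, smul_apply,
    smul_eq_mul, Fin.sum_univ_two]
  ring

theorem FbDis_y {c K x y : ℝ} (hc : 0 < c) : 2 * (K * y * x) ≤ c / 3 * x ^ 2 + 3 * K ^ 2 / c * y ^ 2 := by
  have h : 0 ≤ (c * x - 3 * K * y) ^ 2 / (3 * c) := by positivity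
  have e : c / 3 * x ^ 2 + 3 * K ^ 2 / c * y ^ 2 - 2 * (K * y * x) = (c * x - 3 * K * y) ^ 2 / (3 * c) := by
    field_simp
    ring
  linarith

theorem FbDis_young {c K2 K3 Cb Cg K' x A β φ a2 W : ℝ} (hc : 0 < c) (hK2 : 0 ≤ K2) (hCb : 0 ≤ Cb)
    (hCg : 0 ≤ Cg) (hK' : 0 ≤ K') (hA : A ^ 2 ≤ 2 * a2) (hβ : β ^ 2 ≤ Cb * (W + a2)) (hW : 0 ≤ W)
    (ha : 0 ≤ a2) :
    2 * (-(c * x ^ 2) + Cg * W + K3 * A * x + K2 * β * (x + A) + K2 * φ * (x + A)) + 2 * W +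
      (a2 + K' * (W + a2)) ≤ -(c * x ^ 2) +
      (2 * Cg + 3 + 6 * K3 ^ 2 / c + (3 * K2 ^ 2 / c + K2) * (Cb + 1) + 4 * K2 + K') * (W + a2) +
      (2 * Cg + 3 + 6 * K3 ^ 2 / c + (3 * K2 ^ 2 / c + K2) * (Cb + 1) + 4 * K2 + K') * φ ^ 2 := by
  have h1 := FbDis_y (K := K3) (x := x) (y := A) hc
  have h2 := FbDis_y (K := K2) (x := x) (y := β) hc
  have h3 := FbDis_y (K := K2) (x := x) (y := φ) hc
  have h4 : 2 * (K2 * β * A) ≤ K2 * (β ^ 2 + A ^ 2) := by nlinarith [mul_nonneg hK2 (sq_nonneg (β - A))]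
  have h5 : 2 * (K2 * φ * A) ≤ K2 * (φ ^ 2 + A ^ 2) := by nlinarith [mul_nonneg hK2 (sq_nonneg (φ - A))]
  set P := 3 * K3 ^ 2 / c with hP
  set Q := 3 * K2 ^ 2 / c with hQ
  have hP0 : 0 ≤ P := by positivity
  have hQ0 : 0 ≤ Q := by positivity
  have e6 : 6 * K3 ^ 2 / c = 2 * P := by rw [hP]; ring
  rw [e6]
  have h6 : P * A ^ 2 ≤ P * (2 * a2) := mul_le_mul_of_nonneg_left hA hP0
  have h7 : (Q + K2) * β ^ 2 ≤ (Q + K2) * (Cb * (W + a2)) :=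
    mul_le_mul_of_nonneg_left hβ (by positivity)
  have h8 : K2 * A ^ 2 ≤ K2 * (2 * a2) := mul_le_mul_of_nonneg_left hA hK2
  have p1 : 0 ≤ P * W := by positivity
  have p2 : 0 ≤ Cg * a2 := by positivity
  have p3 : 0 ≤ (Q + K2) * (W + a2) := by positivity
  have p4 : 0 ≤ K2 * W := by positivity
  have p5 : 0 ≤ (2 * Cg + 3 + 2 * P + (Q + K2) * Cb + 4 * K2 + K') * φ ^ 2 := by positivity
  linarith

theorem FbDis_W (S : Sp) (s : ℝ) (u : VV) :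
    ∫ x in Ioo (0 : ℝ) 1, wh s x ^ 3 * d0 u x ^ 2 ≤ WH s (S.T.ι u) := by
  unfold WH
  refine integral_mono_of_nonneg ?_ (integrable_WH s _) ?_
  · exact Eventually.of_forall fun x => mul_nonneg (pow_nonneg (wh_pos' s x).le 3) (sq_nonneg _)
  · filter_upwards [S.ι_eq u, ae_restrict_mem measurableSet_Ioo] with x hx hm
    refine mul_le_mul_of_nonneg_left ?_ (pow_nonneg (wh_pos' s x).le 3)
    rw [← hx, hv, mul_pow]
    have : (1 - x) ^ 2 ≤ 1 := by nlinarith [hm.1, hm.2]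
    nlinarith [sq_nonneg ((S.T.ι u) x)]


/-- Put `x = λ‖ũ‖`, `A = |c_0| + |c_1|`, `a² = c_0² + c_1²`, `φ = e^{s/2}‖mul wh Fo‖`, `β0 = λ‖mul wh (bξ)‖`.
`|Λ q| ≤ K2 e^{s/2}‖mul wh q‖ (x + A)` (`garding_g`, `IsL.wbound` with `R = 2`, `lam_le_quarter`);
`-τΛ(g²u) ≤ -c x² + C WH + K1 A x` (`d0 u² ≤ h²`; `mul wh (mul g² u) = mul g² ũ` by `mul_mul`, `mul_le`);
`β0² ≤ Cb (WH + a²)` (`bxi_le`, `AncL.sq`); `2 c_j L'_j ξ ≤ c_j² + K'(WH + a²)` (`IsL.sig_bound`, `Bump.dp`); Young. -/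
theorem fb_dis (S : Sp) (A : Apx) {N : Anc} {La La' : Fin 2 → ℝ → VV →L[ℝ] ℝ} (hL : AncL N La La') :
    ∃ c1 C3 : ℝ, 0 < c1 ∧ 0 < C3 ∧ ∀ s, 4 ≤ s → ∀ u Fo p : VV,
      dE S La La' s u (lin0 S A s u (S.T.ι u) + Fo + p) ≤
        -(c1 * (Real.exp (-s) * ‖S.mul (wh s) u‖ ^ 2)) - 2 * EH s (S.T.ι u) +
        C3 * (WH s (S.T.ι u) + ∑ j, La j s (S.T.G (S.T.ι u)) ^ 2) +
        C3 * (Real.exp s * ‖S.mul (wh s) Fo‖ ^ 2) + 2 * Lam S La s u p := by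
  obtain ⟨c, Cg, hc, hCg, hg⟩ := garding_g S A
  obtain ⟨Cb, hCb, hb⟩ := bxi_le S A N
  obtain ⟨K0, hK0, hw0⟩ := (hL.isL 0).wbound S (N.bump 0)
  obtain ⟨K1, hK1, hw1⟩ := (hL.isL 1).wbound S (N.bump 1)
  obtain ⟨J0, hJ0, hs0⟩ := (hL.isL' 0).sig_bound S N (N.bump 0).dp
  obtain ⟨J1, hJ1, hs1⟩ := (hL.isL' 1).sig_bound S N (N.bump 1).dp
  set K2 := Cg + K0 + K1 with hK2
  have hK20 : 0 ≤ K2 := by positivity
  refine ⟨c, 2 * Cg + 3 + 6 * (K2 * (4 * Cg)) ^ 2 / c + (3 * K2 ^ 2 / c + K2) * (Cb + 1) + 4 * K2 +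
    (J0 + J1), hc, by positivity, fun s hs u Fo p => ?_⟩
  obtain ⟨-, hg2, hg3, -, -, hm2, -⟩ := hg s (by linarith)
  have hl := lam_pos' s
  have hl2 : lam s * 2 ≤ 1 / 2 := by linarith [lam_le_quarter hs]
  have hτ : Real.exp (-s) = lam s ^ 2 := (lam_sq s).symm
  have he2 : Real.exp (s / 2) = (lam s)⁻¹ := exp_half_eq s
  have he : Real.exp s = ((lam s)⁻¹) ^ 2 := by
    rw [← he2, ← Real.exp_nat_mul]; congr 1; push_cast; ring
  set h := S.T.ι u with hh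
  set ξ := S.T.G h with hξ
  set c0 := La 0 s ξ with hc0
  set c1 := La 1 s ξ with hc1
  set ut := S.mul (wh s) u with hut
  set x := lam s * ‖ut‖ with hx
  set B := |c0| + |c1| with hB
  have hx0 : 0 ≤ x := by positivity
  have ha2 : lam s * (N.al 0 s h ^ 2 + N.al 1 s h ^ 2) = c0 ^ 2 + c1 ^ 2 := by
    rw [hc0, hc1, hξ, hL.sq S 0 s h, hL.sq S 1 s h]; ring
  -- the anchor part of `Λ`
  have hanc : ∀ q : VV, |c0 * La 0 s q + c1 * La 1 s q| ≤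
      K2 * ((lam s)⁻¹ * ‖S.mul (wh s) q‖) * B := by
    intro q
    have n0 : 0 ≤ (lam s)⁻¹ * ‖S.mul (wh s) q‖ := by positivity
    have b0 := hw0 s hl2 q
    have b1 := hw1 s hl2 q
    rw [he2, mul_assoc] at b0 b1
    have b0' : |La 0 s q| ≤ K2 * ((lam s)⁻¹ * ‖S.mul (wh s) q‖) :=
      b0.trans (mul_le_mul_of_nonneg_right (by rw [hK2]; linarith) n0)
    have b1' : |La 1 s q| ≤ K2 * ((lam s)⁻¹ * ‖S.mul (wh s) q‖) :=
      b1.trans (mul_le_mul_of_nonneg_right (by rw [hK2]; linarith) n0)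
    calc |c0 * La 0 s q + c1 * La 1 s q| ≤ |c0| * |La 0 s q| + |c1| * |La 1 s q| := by
          rw [← abs_mul, ← abs_mul]; exact abs_add_le _ _
      _ ≤ |c0| * (K2 * ((lam s)⁻¹ * ‖S.mul (wh s) q‖)) +
          |c1| * (K2 * ((lam s)⁻¹ * ‖S.mul (wh s) q‖)) :=
          add_le_add (mul_le_mul_of_nonneg_left b0' (abs_nonneg _))
            (mul_le_mul_of_nonneg_left b1' (abs_nonneg _))
      _ = _ := by rw [hB]; ring
  have hLam : ∀ q : VV, Lam S La s u q =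
      S.T.a q (S.mul (fun x => wh s x ^ 2) u) + (c0 * La 0 s q + c1 * La 1 s q) := by
    intro q
    unfold Lam
    rw [Fin.sum_univ_two]
  have hgen : ∀ q : VV, Lam S La s u q ≤ K2 * ((lam s)⁻¹ * ‖S.mul (wh s) q‖) * (x + B) := by
    intro q
    have n0 : 0 ≤ (lam s)⁻¹ * ‖S.mul (wh s) q‖ := by positivity
    have e1 : Cg * ‖S.mul (wh s) q‖ * ‖ut‖ = Cg * ((lam s)⁻¹ * ‖S.mul (wh s) q‖) * x := by
      rw [hx]; field_simp
    have b1 := (le_abs_self _).trans (hg3 q u)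
    rw [← hut, e1] at b1
    have b2 := (le_abs_self _).trans (hanc q)
    have b3 : Cg * ((lam s)⁻¹ * ‖S.mul (wh s) q‖) * x ≤ K2 * ((lam s)⁻¹ * ‖S.mul (wh s) q‖) * x :=
      mul_le_mul_of_nonneg_right (mul_le_mul_of_nonneg_right (by rw [hK2]; linarith) n0) hx0
    rw [hLam]
    linarith
  -- the principal part
  have hcomm : ‖S.mul (wh s) (S.mul (fun x => A.g s x ^ 2) u)‖ ≤ 4 * Cg * ‖ut‖ := by
    have e : S.mul (wh s) (S.mul (fun x => A.g s x ^ 2) u) = S.mul (fun x => A.g s x ^ 2) ut := by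
      rw [hut, S.mul_mul (mult_wh s) hm2, S.mul_mul hm2 (mult_wh s)]
      congr 2
      funext y
      ring
    rw [e]
    exact ((S.mul _).le_opNorm _).trans
      (mul_le_mul_of_nonneg_right (S.mul_le _ _ hm2) (norm_nonneg _))
  have hB0 : 0 ≤ B := by positivity
  have hprin : -(Real.exp (-s) * Lam S La s u (S.mul (fun x => A.g s x ^ 2) u)) ≤
      -(c * x ^ 2) + Cg * WH s h + K2 * (4 * Cg) * B * x := by
    have b1 := hg2 u
    have b2 := FbDis_W S s u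
    have b3 := (neg_le_abs _).trans (hanc (S.mul (fun x => A.g s x ^ 2) u))
    have b4 : K2 * ((lam s)⁻¹ * ‖S.mul (wh s) (S.mul (fun x => A.g s x ^ 2) u)‖) * B ≤
        K2 * ((lam s)⁻¹ * (4 * Cg * ‖ut‖)) * B := by gcongr
    have b5 := mul_le_mul_of_nonneg_left (b3.trans b4) (Real.exp_pos (-s)).le
    have e1 : Real.exp (-s) * (K2 * ((lam s)⁻¹ * (4 * Cg * ‖ut‖)) * B) = K2 * (4 * Cg) * B * x := by
      rw [hτ, hx]; field_simp
    have e2 : c * Real.exp (-s) * ‖ut‖ ^ 2 = c * x ^ 2 := by rw [hτ, hx]; ring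
    rw [e1] at b5
    rw [← hut, e2] at b1
    have b6 := mul_le_mul_of_nonneg_left b2 hCg.le
    rw [← hh] at b6
    rw [hLam]
    linarith
  set β := lam s * ‖S.mul (wh s) (S.mul (A.b s) ξ)‖ with hβ
  set φ := (lam s)⁻¹ * ‖S.mul (wh s) Fo‖ with hφ
  have hbξ : Real.exp (-s) * Lam S La s u (S.mul (A.b s) ξ) ≤ K2 * β * (x + B) := by
    have b1 := mul_le_mul_of_nonneg_left (hgen (S.mul (A.b s) ξ)) (Real.exp_pos (-s)).le
    refine b1.trans (le_of_eq ?_)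
    rw [hτ, hβ]; field_simp
  have hβ2 : β ^ 2 ≤ Cb * (WH s h + (c0 ^ 2 + c1 ^ 2)) := by
    have b1 := (hb s hs h).1
    rw [ha2, hτ] at b1
    rw [hβ, mul_pow]
    exact b1
  have hFo := hgen Fo
  rw [← hφ] at hFo
  have hφ2 : Real.exp s * ‖S.mul (wh s) Fo‖ ^ 2 = φ ^ 2 := by rw [he, hφ]; ring
  have hx2 : Real.exp (-s) * ‖ut‖ ^ 2 = x ^ 2 := by rw [hτ, hx]; ring
  have hd0 := hs0 s hs h
  have hd1 := hs1 s hs h
  rw [ha2, ← hξ] at hd0 hd1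
  have hA2 : B ^ 2 ≤ 2 * (c0 ^ 2 + c1 ^ 2) := by
    rw [hB, ← sq_abs c0, ← sq_abs c1]; linarith [sq_nonneg (|c0| - |c1|)]
  have hy := FbDis_young (c := c) (K2 := K2) (K3 := K2 * (4 * Cg)) (Cb := Cb) (Cg := Cg)
    (K' := J0 + J1) (x := x) (A := B) (β := β) (φ := φ) (a2 := c0 ^ 2 + c1 ^ 2) (W := WH s h) hc hK20
    hCb.le hCg.le (by positivity) hA2 hβ2 (WH_nonneg s h) (by positivity)
  have hder : 2 * (c0 * La' 0 s ξ + c1 * La' 1 s ξ) ≤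
      (c0 ^ 2 + c1 ^ 2) + (J0 + J1) * (WH s h + (c0 ^ 2 + c1 ^ 2)) := by
    linarith [sq_nonneg (c0 - La' 0 s ξ), sq_nonneg (c1 - La' 1 s ξ)]
  unfold dE lin0
  rw [Lam_add, Lam_add, FbDis_smul_sub, Fin.sum_univ_two, Fin.sum_univ_two, hφ2, hx2]
  rw [← hh, ← hξ, ← hc0, ← hc1]
  linarith

end Crest.Agent.R213
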