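import Crest.Agent.R213.FbL2

/-! # R213 / FbF : the feedback identity -/

set_option autoImplicit false

open MeasureTheory Set Filter Topology
open scoped ContDiff InnerProductSpace

namespace Crest.Agent.R213

/-- `a_rep` with `δ = λ δ0` small, `C0_scale`, `deriv_scale`, `mul_eq` (`(mult_wh s).mul (mult_wh s)`), `ι_eq`. -/
theorem a_scaled (S : Sp) {F : ℝ → ℝ} (hF : ContDiff ℝ ∞ F) {δ0 R : ℝ} (hδ : 0 < δ0)
    (hz : ∀ y, 0 < y → y ∉ Ioo δ0 R → deriv (deriv (C0 F)) y = 0) {s : ℝ} (hs : lam s * R ≤ 1 / 2)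
    {f : VV} (hf : Rep f (fun x => Real.exp (-(3 * s / 4)) * F (x / lam s))) (u : VV) :
    S.T.a f (S.mul (fun x => wh s x ^ 2) u) = Real.exp (s / 4) * ∫ x in Ioo (0 : ℝ) 1,
      deriv (deriv (C0 F)) (x / lam s) * (x / lam s) ^ 2 * wh s x ^ 2 * (1 - x) * S.T.ι u x := by
  have hl := lam_pos' s
  have hD : deriv (deriv (C0 (fun x => Real.exp (-(3 * s / 4)) * F (x / lam s)))) =
      fun x => Real.exp (-(3 * s / 4)) / lam s ^ 2 / lam s / lam s *
        deriv (deriv (C0 F)) (x / lam s) := by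
    rw [C0_scale F _ hl, deriv_scale, deriv_scale]
  have hsm : ContDiffOn ℝ 4 (fun x => Real.exp (-(3 * s / 4)) * F (x / lam s)) (Ioo 0 1) := by
    have h4 : ContDiff ℝ 4 F := contDiff_infty.mp hF 4
    exact (contDiff_const.mul (h4.comp (contDiff_id.div_const _))).contDiffOn
  have hδ' : 0 < min (lam s * δ0) (1 / 2) := lt_min (mul_pos hl hδ) (by norm_num)
  have hz' : ∀ x ∈ Ioo (0 : ℝ) 1, x ∉ Ioo (min (lam s * δ0) (1 / 2)) (1 - min (lam s * δ0) (1 / 2)) →
      deriv (deriv (C0 (fun x => Real.exp (-(3 * s / 4)) * F (x / lam s)))) x = 0 := by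
    intro x hx hx'
    rw [hD]
    have : deriv (deriv (C0 F)) (x / lam s) = 0 := by
      apply hz _ (div_pos hx.1 hl)
      rintro ⟨h1, h2⟩
      rw [lt_div_iff₀ hl] at h1
      rw [div_lt_iff₀ hl] at h2
      apply hx'
      have m1 := min_le_left (lam s * δ0) (1 / 2)
      have m2 := min_le_right (lam s * δ0) (1 / 2)
      constructor <;> nlinarith
    simp only [this, mul_zero]
  rw [S.a_rep hsm hf hδ' hz', hD, ← integral_const_mul]
  have hm : Mult (fun x => wh s x ^ 2) (4 * 6 * 6) := by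
    have := (mult_wh s).mul (mult_wh s)
    simpa only [sq] using this
  have hk : Real.exp (-(3 * s / 4)) / lam s ^ 2 = Real.exp (s / 4) := by
    rw [lam_sq, ← Real.exp_sub]; congr 1; ring
  apply integral_congr_ae
  filter_upwards [(S.mul_eq _ _ hm u).1, S.ι_eq u] with x h1 h2
  rw [h1, ← h2, hk]
  simp only [hv]
  field_simp

/-- The feedback identity `Λ(f) = c + r`.  `La j s f = p j` (`IsL.scaled`, `Anc.bump`).  With `e = (C0 F)'' - β(1+y²)²/y²`
(measurable: `measurable_deriv`), `a_scaled` gives `a(f, wh² u) - cb β = r1 + r2`,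
`r1 = λ^{-1/2}∫ e(y) y² wh² (1-x) h`, kernel `≤ (K/R) wh` on `x ≤ 2Rλ`; `r2 = λ^{-1/2}∫ β(y)((1-x) - 1/(1-x)) h`,
kernel `≤ 4 R0 λ M wh` on `x ≤ R0 λ`; `cs_EH`: `r1² ≤ 2K²/R · EH`, `r2² ≤ 16 M² R0³ λ² EH`. -/
theorem lam_f (S : Sp) {N : Anc} {La La' : Fin 2 → ℝ → VV →L[ℝ] ℝ} (hL : AncL N La La')
    {F β : ℝ → ℝ} {p : Fin 2 → ℝ} {R0 R K M : ℝ} (hF : ContDiff ℝ ∞ F) (hβ : Bump β R0)
    (hM : ∀ y, |β y| ≤ M / (1 + y ^ 2)) (hR : 2 ≤ R) (hR0 : R0 ≤ R)
    (he : ∀ y, 0 < y → |deriv (deriv (C0 F)) y - (1 + y ^ 2) ^ 2 * β y / y ^ 2| ≤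
      if y ∈ Icc R (2 * R) then K / R else 0)
    (hp : ∀ j, ∫ y, C0 F y * N.ψ j y = p j) {s : ℝ} (hs : lam s * (2 * R) ≤ 1 / 16) {f : VV}
    (hf : Rep f (fun x => Real.exp (-(3 * s / 4)) * F (x / lam s))) (u : VV) :
    (Lam S La s u f - (∑ j, p j * La j s (S.T.G (S.T.ι u)) + cb β s (S.T.ι u))) ^ 2 ≤
      (4 * K ^ 2 / R + 32 * M ^ 2 * R0 ^ 3 * Real.exp (-s)) * EH s (S.T.ι u) := by
  have hl := lam_pos' s
  have hR0p := hβ.pos
  have hRp : 0 < R := by linarith
  have hMp : 0 ≤ M := by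
    have := hM 0
    have h2 := abs_nonneg (β 0)
    simp only [ne_eq, OfNat.ofNat_ne_zero, not_false_eq_true, zero_pow, add_zero, div_one] at this
    linarith
  have hKR : 0 ≤ K / R := by
    have := he R hRp
    rw [if_pos ⟨le_rfl, by linarith⟩] at this
    exact (abs_nonneg _).trans this
  have hlR : lam s * R ≤ 1 / 32 := by linarith
  have hlR0 : lam s * R0 ≤ 1 / 32 := le_trans (mul_le_mul_of_nonneg_left hR0 hl.le) hlR
  -- values of the anchors
  have hLa : ∀ j, La j s f = p j := by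
    intro j
    rw [← hp j]
    exact (hL.isL j).scaled (N.bump j) (by nlinarith) hf
  set h : L2 := S.T.ι u with hh
  set D : ℝ → ℝ := deriv (deriv (C0 F)) with hD
  have hz : ∀ y, 0 < y → y ∉ Ioo (min R0⁻¹ 1) (4 * R) → D y = 0 := by
    intro y hy hy'
    have m1 := min_le_left R0⁻¹ 1
    have m2 := min_le_right R0⁻¹ 1
    have hb : β y = 0 := by
      apply hβ.supp
      rintro ⟨h1, h2⟩
      exact hy' ⟨by linarith, by linarith⟩
    have h1 := he y hy
    rw [if_neg, hb] at h1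
    · simpa using h1
    · rintro ⟨h1, h2⟩
      exact hy' ⟨by linarith, by linarith⟩
  have ha := a_scaled S hF (lt_min (inv_pos.mpr hR0p) one_pos) hz (s := s) (by linarith) hf u
  -- the kernels
  set k1 : ℝ → ℝ := fun x => (D (x / lam s) - (1 + (x / lam s) ^ 2) ^ 2 * β (x / lam s) / (x / lam s) ^ 2) *
    (x / lam s) ^ 2 * wh s x ^ 2 * (1 - x) with hk1
  set k2 : ℝ → ℝ := fun x => β (x / lam s) * ((1 - x) - 1 / (1 - x)) with hk2
  set k3 : ℝ → ℝ := fun x => β (x / lam s) * (1 / (1 - x)) with hk3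
  have mD : Measurable D := measurable_deriv _
  have mβ : Measurable β := hβ.sm.continuous.measurable
  have mw : Measurable (wh s) := (continuous_wh s).measurable
  have mk1 : AEStronglyMeasurable k1 ν := by
    apply Measurable.aestronglyMeasurable
    rw [hk1]; fun_prop
  have mk2 : AEStronglyMeasurable k2 ν := by
    apply Measurable.aestronglyMeasurable
    rw [hk2]; fun_prop
  have mk3 : AEStronglyMeasurable k3 ν := by
    apply Measurable.aestronglyMeasurable
    rw [hk3]; fun_prop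
  have hβw : ∀ x, |β (x / lam s)| ≤ M * wh s x := by
    intro x
    rw [wh_eq, mul_one_div]
    exact hM _
  have hβ0 : ∀ x, lam s * R0 < x → β (x / lam s) = 0 := by
    intro x hx
    apply hβ.supp
    rintro ⟨_, h2⟩
    rw [div_lt_iff₀ hl] at h2
    nlinarith
  have c1 := cs_EH s h mk1 (M := K / R) (ρ := lam s * (2 * R)) (by positivity)
    (by
      intro x hx
      have hy : 0 < x / lam s := div_pos hx.1 hl
      have h1 : |D (x / lam s) - (1 + (x / lam s) ^ 2) ^ 2 * β (x / lam s) / (x / lam s) ^ 2| ≤ K / R := by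
        refine (he _ hy).trans ?_
        split_ifs
        · exact le_rfl
        · exact hKR
      have hw := wh_pos' s x
      have h2 : (x / lam s) ^ 2 * wh s x ≤ 1 := by
        rw [wh_eq, mul_one_div, div_le_one (by positivity)]; linarith
      have h3 : 0 < 1 - x := by linarith [hx.2]
      have h4 : (x / lam s) ^ 2 * wh s x ^ 2 * (1 - x) ≤ wh s x := by
        have : (x / lam s) ^ 2 * wh s x * (1 - x) ≤ 1 := by
          have h5 : 0 ≤ (x / lam s) ^ 2 * wh s x := by positivity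
          nlinarith [hx.1]
        nlinarith
      have h5 : 0 ≤ (x / lam s) ^ 2 * wh s x ^ 2 * (1 - x) := by positivity
      have : k1 x = (D (x / lam s) - (1 + (x / lam s) ^ 2) ^ 2 * β (x / lam s) / (x / lam s) ^ 2) *
          ((x / lam s) ^ 2 * wh s x ^ 2 * (1 - x)) := by rw [hk1]; ring
      rw [this, abs_mul, abs_of_nonneg h5]
      exact mul_le_mul h1 h4 h5 hKR)
    (by
      intro x hx hx'
      have hy : 0 < x / lam s := div_pos hx.1 hl
      have h1 := he _ hy
      rw [if_neg] at h1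
      · have h2 := abs_nonpos_iff.mp h1
        simp only [hk1, h2, zero_mul]
      · rintro ⟨_, h2⟩
        rw [div_le_iff₀ hl] at h2
        nlinarith)
  have c2 := cs_EH s h mk2 (M := 4 * (lam s * R0) * M) (ρ := lam s * R0) (by positivity)
    (by
      intro x hx
      have hw := wh_pos' s x
      by_cases hx' : lam s * R0 < x
      · simp only [hk2, hβ0 x hx', zero_mul, abs_zero]; positivity
      · push Not at hx'
        have h3 : 0 < 1 - x := by linarith [hx.2]
        have h4 : |(1 - x) - 1 / (1 - x)| ≤ 4 * (lam s * R0) := by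
          have e1 : (1 - x) - 1 / (1 - x) = -(x * (2 - x) / (1 - x)) := by field_simp; ring
          have e2 : 0 ≤ x * (2 - x) / (1 - x) := by
            apply div_nonneg (mul_nonneg hx.1.le (by linarith [hx.2])) h3.le
          rw [e1, abs_neg, abs_of_nonneg e2, div_le_iff₀ h3]
          nlinarith [hx.1]
        simp only [hk2, abs_mul]
        calc |β (x / lam s)| * |(1 - x) - 1 / (1 - x)| ≤ (M * wh s x) * (4 * (lam s * R0)) :=
              mul_le_mul (hβw x) h4 (abs_nonneg _) (by positivity)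
          _ = 4 * (lam s * R0) * M * wh s x := by ring)
    (by
      intro x _ hx'
      simp only [hk2, hβ0 x hx', zero_mul])
  have c3 := cs_EH s h mk3 (M := 2 * M) (ρ := lam s * R0) (by positivity)
    (by
      intro x hx
      have hw := wh_pos' s x
      by_cases hx' : lam s * R0 < x
      · simp only [hk3, hβ0 x hx', zero_mul, abs_zero]; positivity
      · push Not at hx'
        have h3 : 0 < 1 - x := by linarith [hx.2]
        have h4 : |1 / (1 - x)| ≤ 2 := by
          rw [abs_of_pos (by positivity), div_le_iff₀ h3]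
          linarith
        simp only [hk3, abs_mul]
        calc |β (x / lam s)| * |1 / (1 - x)| ≤ (M * wh s x) * 2 :=
              mul_le_mul (hβw x) h4 (abs_nonneg _) (by positivity)
          _ = 2 * M * wh s x := by ring)
    (by
      intro x _ hx'
      simp only [hk3, hβ0 x hx', zero_mul])
  have hI : ∫ x in Ioo (0 : ℝ) 1, D (x / lam s) * (x / lam s) ^ 2 * wh s x ^ 2 * (1 - x) * h x =
      (∫ x in Ioo (0 : ℝ) 1, k1 x * h x) + (∫ x in Ioo (0 : ℝ) 1, k2 x * h x) +
        ∫ x in Ioo (0 : ℝ) 1, k3 x * h x := by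
    have c12 : Integrable (fun x => k1 x * h x + k2 x * h x) ν := c1.1.add c2.1
    rw [← integral_add c1.1 c2.1, ← integral_add c12 c3.1]
    apply setIntegral_congr_fun measurableSet_Ioo
    intro x hx
    have hy : 0 < x / lam s := div_pos hx.1 hl
    simp only [hk1, hk2, hk3, wh_eq]
    generalize x / lam s = y at hy
    have : (1 + y ^ 2) ≠ 0 := by positivity
    have h3 : 1 - x ≠ 0 := by linarith [hx.2]
    field_simp
    ring
  have hcb : cb β s h = Real.exp (s / 4) * ∫ x in Ioo (0 : ℝ) 1, k3 x * h x := by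
    unfold cb
    congr 1
    apply integral_congr_ae
    filter_upwards with x
    simp only [hk3]; ring
  have hE : Lam S La s u f - (∑ j, p j * La j s (S.T.G h) + cb β s h) =
      Real.exp (s / 4) * ((∫ x in Ioo (0 : ℝ) 1, k1 x * h x) + ∫ x in Ioo (0 : ℝ) 1, k2 x * h x) := by
    unfold Lam
    rw [ha, hI, hcb]
    simp only [hLa, ← hh, Fin.sum_univ_two]
    ring
  rw [hE, mul_pow, exp_quarter_sq, ← lam_sq]
  have e1 := c1.2
  have e2 := c2.2
  generalize (∫ x in Ioo (0 : ℝ) 1, k1 x * h x) = r1 at e1 ⊢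
  generalize (∫ x in Ioo (0 : ℝ) 1, k2 x * h x) = r2 at e2 ⊢
  have hsum : (r1 + r2) ^ 2 ≤ 2 * ((K / R) ^ 2 * (lam s * (2 * R)) * EH s h) +
      2 * ((4 * (lam s * R0) * M) ^ 2 * (lam s * R0) * EH s h) := by
    nlinarith [sq_nonneg (r1 - r2)]
  calc (lam s)⁻¹ * (r1 + r2) ^ 2 ≤ (lam s)⁻¹ * (2 * ((K / R) ^ 2 * (lam s * (2 * R)) * EH s h) +
      2 * ((4 * (lam s * R0) * M) ^ 2 * (lam s * R0) * EH s h)) :=
        mul_le_mul_of_nonneg_left hsum (by positivity)
    _ = (4 * K ^ 2 / R + 32 * M ^ 2 * R0 ^ 3 * lam s ^ 2) * EH s h := by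
        field_simp
        ring

end Crest.Agent.R213
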