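import Crest.Agent.R213.FbBas

/-! # R213 / FbF1 : the actuators `f` -/

set_option autoImplicit false

open MeasureTheory Set Filter Topology
open scoped ContDiff InnerProductSpace

namespace Crest.Agent.R213

theorem FbF1_int {g : ℝ → ℝ} {c ρ : ℝ} (h0 : 0 ≤ ρ) (h1 : ρ < 1) (hb : ∀ x ∈ Ioc 0 ρ, |g x| ≤ c)
    (hz : ∀ x, ρ < x → g x = 0) : ∫ x in Ioo (0 : ℝ) 1, g x ≤ c * ρ := by
  rw [setIntegral_eq_of_subset_of_forall_sdiff_eq_zero (s := Ioc 0 ρ) measurableSet_Ioo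
    (fun x hx => ⟨hx.1, hx.2.trans_lt h1⟩) fun x hx => hz x (not_le.1 fun h => hx.2 ⟨hx.1.1, h⟩)]
  have h2 := norm_setIntegral_le_of_norm_le_const (μ := volume) (s := Ioc 0 ρ) (f := g) measure_Ioc_lt_top hb
  rw [Real.volume_real_Ioc_of_le h0, sub_zero] at h2
  exact (le_abs_self _).trans h2

theorem FbF1_deriv_zero {F : ℝ → ℝ} {R : ℝ} (hs : ∀ y, R < y → F y = 0) (y : ℝ) (hy : R < y) : deriv F y = 0 := by
  have h : F =ᶠ[𝓝 y] fun _ => 0 := by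
    filter_upwards [Ioi_mem_nhds hy] with z hz using hs z hz
  rw [h.deriv_eq, deriv_const]

theorem FbF1_bdd {F : ℝ → ℝ} (hF : Continuous F) {R : ℝ} (hs : ∀ y, R < y → F y = 0) :
    ∃ K, 0 < K ∧ ∀ y, 0 ≤ y → |F y| ≤ K := by
  obtain ⟨K, hK⟩ := isCompact_Icc.exists_bound_of_continuousOn (s := Icc 0 R) hF.continuousOn
  refine ⟨max K 1, lt_max_of_lt_right one_pos, fun y hy => ?_⟩
  by_cases h : R < y
  · rw [hs y h, abs_zero]
    exact le_max_of_le_right zero_le_one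
  · exact le_max_of_le_left (hK y ⟨hy, not_lt.1 h⟩)

theorem FbF1_alg {x l κ K a b c : ℝ} (hx : 0 < x) (hx' : x ≤ 1 / 16) (hl : 0 < l) (hκ : κ ^ 2 = l ^ 3)
    (ha : |a| ≤ K * (x / l)) (hb : |b| ≤ K) (hc : |x / l * c| ≤ K) :
    (κ * a / (x * (1 - x) ^ 2)) ^ 2 + (κ / l * b / (1 - x)) ^ 2 + (x * (κ / l / l * c)) ^ 2 ≤ 21 * K ^ 2 * l := by
  have h1 : 0 < 1 - x := by linarith
  have h2 : 1 / 4 ≤ (1 - x) ^ 2 := by nlinarith
  have ha' : a ^ 2 ≤ (K * (x / l)) ^ 2 := sq_le_sq' (abs_le.1 ha).1 (abs_le.1 ha).2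
  have hb' : b ^ 2 ≤ K ^ 2 := sq_le_sq' (abs_le.1 hb).1 (abs_le.1 hb).2
  have hc' : (x / l * c) ^ 2 ≤ K ^ 2 := sq_le_sq' (abs_le.1 hc).1 (abs_le.1 hc).2
  have hK : 0 ≤ K ^ 2 * l := by positivity
  have t1 : (κ * a / (x * (1 - x) ^ 2)) ^ 2 ≤ 16 * K ^ 2 * l := by
    rw [div_pow, div_le_iff₀ (by positivity), mul_pow, hκ]
    have e : l ^ 3 * (K * (x / l)) ^ 2 = K ^ 2 * l * x ^ 2 := by
      field_simp
    have h3 : 1 ≤ 16 * ((1 - x) ^ 2) ^ 2 := by nlinarith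
    calc l ^ 3 * a ^ 2 ≤ l ^ 3 * (K * (x / l)) ^ 2 := by gcongr
      _ = K ^ 2 * l * x ^ 2 * 1 := by rw [e, mul_one]
      _ ≤ K ^ 2 * l * x ^ 2 * (16 * ((1 - x) ^ 2) ^ 2) := by gcongr
      _ = 16 * K ^ 2 * l * (x * (1 - x) ^ 2) ^ 2 := by ring
  have e0 : (κ / l) ^ 2 = l := by
    rw [div_pow, hκ]
    field_simp
  have t2 : (κ / l * b / (1 - x)) ^ 2 ≤ 4 * K ^ 2 * l := by
    rw [div_pow, div_le_iff₀ (by positivity), mul_pow, e0]
    calc l * b ^ 2 ≤ l * K ^ 2 := by gcongr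
      _ = 4 * K ^ 2 * l * (1 / 4) := by ring
      _ ≤ 4 * K ^ 2 * l * (1 - x) ^ 2 := by gcongr
  have t3 : (x * (κ / l / l * c)) ^ 2 ≤ K ^ 2 * l := by
    have e : x * (κ / l / l * c) = κ / l * (x / l * c) := by ring
    rw [e, mul_pow, e0, mul_comm]
    gcongr
  linarith

/-- `rep_family` with `χ(4x) e^{-3s/4} F(x e^{s/2})` (`exists_cut`); for `λ R ≤ 1/16` the cut-off is invisible.
Norm: `norm_sq_V`, `Rep.d`, `deriv_scale`; with `|F y| ≤ K y`, `|F'| ≤ K`, `|y F''| ≤ K` on `y > 0` the integrand is at most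
`48 K² λ` on `x ≤ λ R` and `0` beyond. -/
theorem f_exists {F : ℝ → ℝ} (hF : ContDiff ℝ ∞ F) (h0 : F 0 = 0) {R : ℝ} (hR : 0 < R)
    (hs : ∀ y, R ≤ y → F y = 0) : ∃ (f : ℝ → VV) (K : ℝ), 0 < K ∧ Continuous f ∧
      ∀ s, lam s * R ≤ 1 / 16 → Rep (f s) (fun x => Real.exp (-(3 * s / 4)) * F (x / lam s)) ∧
        ‖f s‖ ^ 2 ≤ K * Real.exp (-s) := by
  obtain ⟨χ, hχ, hχ1, hχ0⟩ := exists_cut
  have hlam : ContDiff ℝ ∞ lam := by
    unfold lam
    fun_prop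
  obtain ⟨u, -, hu, -, hc, -, -⟩ := rep_family
    (f := fun s x => χ (4 * x) * (Real.exp (-(3 * s / 4)) * F (x / lam s)))
    ((hχ.comp (contDiff_const.mul contDiff_snd)).mul
      ((by fun_prop : ContDiff ℝ ∞ fun p : ℝ × ℝ => Real.exp (-(3 * p.1 / 4))).mul
        (hF.comp (contDiff_snd.div (hlam.comp contDiff_fst) fun p => (lam_pos' p.1).ne'))))
    (fun s => by simp [h0]) fun s x hx => by rw [hχ0 _ (by linarith), zero_mul]
  have hF1 : ContDiff ℝ ∞ (deriv F) := (contDiff_infty_iff_deriv.1 hF).2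
  have hF2 : ContDiff ℝ ∞ (deriv (deriv F)) := (contDiff_infty_iff_deriv.1 hF1).2
  have z0 : ∀ y, R < y → F y = 0 := fun y hy => hs y hy.le
  have z1 := FbF1_deriv_zero z0
  have z2 := FbF1_deriv_zero z1
  obtain ⟨K1, hK1, b1⟩ := FbF1_bdd hF1.continuous z1
  obtain ⟨K2, -, b2⟩ := FbF1_bdd (F := fun y => y * deriv (deriv F) y) (continuous_id.mul hF2.continuous)
    (R := R) fun y hy => by rw [z2 y hy, mul_zero]
  have b0 : ∀ y, 0 ≤ y → |F y| ≤ K1 * y := fun y hy => by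
    have h1 := (convex_Ici (0 : ℝ)).norm_image_sub_le_of_norm_deriv_le (f := F) (C := K1)
      (fun x _ => hF.differentiable (by simp) x) (fun x hx => b1 x hx) (mem_Ici.2 le_rfl) hy
    rwa [h0, sub_zero, sub_zero, Real.norm_of_nonneg hy] at h1
  have hK : 0 < max K1 K2 := lt_max_of_lt_left hK1
  refine ⟨u, 21 * max K1 K2 ^ 2 * R, by positivity, hc, fun s hsR => ?_⟩
  have hl := lam_pos' s
  have e1 : (fun x => χ (4 * x) * (Real.exp (-(3 * s / 4)) * F (x / lam s))) =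
      fun x => Real.exp (-(3 * s / 4)) * F (x / lam s) := by
    funext x
    by_cases hx : x ≤ 1 / 4
    · rw [hχ1 _ (by linarith), one_mul]
    · rw [hs (x / lam s) (by rw [le_div_iff₀ hl]; linarith [not_le.1 hx]), mul_zero, mul_zero]
  have hr := hu s
  rw [e1] at hr
  refine ⟨hr, ?_⟩
  obtain ⟨r0, r1, r2⟩ := hr.d
  rw [deriv_scale] at r1 r2
  rw [deriv_scale] at r2
  have hκ : Real.exp (-(3 * s / 4)) ^ 2 = lam s ^ 3 := by
    rw [lam, ← Real.exp_nat_mul, ← Real.exp_nat_mul]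
    congr 1
    push_cast
    ring
  have e2 : ‖u s‖ ^ 2 = ∫ x in Ioo (0 : ℝ) 1,
      ((Real.exp (-(3 * s / 4)) * F (x / lam s) / (x * (1 - x) ^ 2)) ^ 2 +
        (Real.exp (-(3 * s / 4)) / lam s * deriv F (x / lam s) / (1 - x)) ^ 2 +
        (x * (Real.exp (-(3 * s / 4)) / lam s / lam s * deriv (deriv F) (x / lam s))) ^ 2) := by
    rw [norm_sq_V]
    refine integral_congr_ae ?_
    filter_upwards [r0, r1, r2] with x a0 a1 a2
    rw [a0, a1, a2]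
  rw [e2]
  refine (FbF1_int (c := 21 * max K1 K2 ^ 2 * lam s) (ρ := lam s * R) (by positivity) (by linarith)
    (fun x hx => ?_) fun x hx => ?_).trans (le_of_eq ?_)
  · have hy : 0 ≤ x / lam s := (div_pos hx.1 hl).le
    rw [abs_of_nonneg (by positivity)]
    exact FbF1_alg hx.1 (hx.2.trans hsR) hl hκ ((b0 _ hy).trans (by gcongr; exact le_max_left _ _))
      ((b1 _ hy).trans (le_max_left _ _)) ((b2 _ hy).trans (le_max_right _ _))
  · have hy : R < x / lam s := by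
      rw [lt_div_iff₀ hl]
      linarith
    rw [z0 _ hy, z1 _ hy, z2 _ hy]
    simp
  · rw [← lam_sq]
    ring

end Crest.Agent.R213
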