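import Crest.Agent.R213.FbBas

/-! # R213 / FbInt1 : product rule for the anchors -/

set_option autoImplicit false

open MeasureTheory Set Filter Topology
open scoped ContDiff InnerProductSpace

namespace Crest.Agent.R213

/-- `mul_family` (`contDiff_wh`): a continuous operator family applied to an `L²` function; `‖mul wh‖ ≤ 24`. -/
theorem wh_sq_integrable (S : Sp) {s0 s1 : ℝ} (h01 : s0 ≤ s1) {v : ℝ → VV}
    (hv : MemLp v 2 (volume.restrict (Ioc s0 s1))) :
    IntervalIntegrable (fun r => ‖S.mul (wh r) (v r)‖ ^ 2) volume s0 s1 := by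
  have hc : Continuous fun r => S.mul (wh r) := S.mul_family contDiff_wh
  have h1 : MemLp (fun r => S.mul (wh r) (v r)) 2 (volume.restrict (Ioc s0 s1)) := by
    refine MemLp.of_le_mul (c := 24) hv ?_ (Eventually.of_forall fun r => ?_)
    · exact (isBoundedBilinearMap_apply (𝕜 := ℝ)).continuous.comp_aestronglyMeasurable
        (hc.aestronglyMeasurable.prodMk hv.1)
    · refine ((S.mul (wh r)).le_opNorm (v r)).trans ?_
      have := S.mul_le _ _ (mult_wh r)
      gcongr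
      linarith
  exact (intervalIntegrable_iff_integrableOn_Ioc_of_le h01).2 (sa_sq h1)

section
variable {V : Type} [NormedAddCommGroup V] [InnerProductSpace ℝ V] [CompleteSpace V]

/-- Riesz representative as a real linear map -/
noncomputable def FbInt1_J : (V →L[ℝ] ℝ) →L[ℝ] V :=
  LinearMap.mkContinuous
    { toFun := fun L => (InnerProductSpace.toDual ℝ V).symm L
      map_add' := fun a b => map_add _ a b
      map_smul' := fun c a => by simp } 1 fun L => by simp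

theorem FbInt1_J_inner (L : V →L[ℝ] ℝ) (x : V) : ⟪x, FbInt1_J L⟫_ℝ = L x := by
  rw [real_inner_comm]
  exact InnerProductSpace.toDual_symm_apply

/-- the trivial triple -/
noncomputable def FbInt1_T : Trip V V where
  ι := ContinuousLinearMap.id ℝ V
  a := innerSL ℝ
  G := ContinuousLinearMap.id ℝ V
  hG := fun _ _ => rfl
  coer := ⟨1, one_pos, fun v => by
    rw [one_mul, ← real_inner_self_eq_norm_sq]
    exact le_rfl⟩
  inj := fun _ _ h => h
  dense := denseRange_id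

theorem FbInt1_rule {L L' : ℝ → V →L[ℝ] ℝ} (hd : ∀ s, HasDerivAt L (L' s) s) (hc : Continuous L')
    (μ : ℝ) {s0 s1 : ℝ} (h01 : s0 ≤ s1) {ξ Z : ℝ → V} (hξ : ContinuousOn ξ (Icc s0 s1))
    (hZ : MemLp Z 2 (volume.restrict (Ioc s0 s1)))
    (hi : ∀ s ∈ Icc s0 s1, ξ s = ξ s0 + ∫ r in s0..s, Z r) :
    IntervalIntegrable (fun r => Real.exp (2 * μ * r) *
      (2 * μ * L r (ξ r) ^ 2 + 2 * (L r (ξ r) * L r (Z r) + L r (ξ r) * L' r (ξ r)))) volume s0 s1 ∧
    Real.exp (2 * μ * s1) * L s1 (ξ s1) ^ 2 = Real.exp (2 * μ * s0) * L s0 (ξ s0) ^ 2 +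
      ∫ r in s0..s1, Real.exp (2 * μ * r) *
        (2 * μ * L r (ξ r) ^ 2 + 2 * (L r (ξ r) * L r (Z r) + L r (ξ r) * L' r (ξ r))) := by
  have hL : Continuous L := continuous_iff_continuousAt.2 fun s => (hd s).continuousAt
  have hξ2 : MemLp ξ 2 (volume.restrict (Ioc s0 s1)) := by
    obtain ⟨C, hC⟩ := isCompact_Icc.exists_bound_of_continuousOn hξ
    refine MemLp.of_bound ((hξ.mono Ioc_subset_Icc_self).aestronglyMeasurable measurableSet_Ioc) C ?_
    filter_upwards [ae_restrict_mem measurableSet_Ioc] with r hr using hC r (Ioc_subset_Icc_self hr)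
  have hsol : IsSol (FbInt1_T (V := V)) s0 s1 ξ Z ξ :=
    ⟨hξ2, hZ, hξ, Eventually.of_forall fun _ => rfl, hi⟩
  set B : (V →L[ℝ] ℝ) →L[ℝ] V →L[ℝ] V →L[ℝ] V := ContinuousLinearMap.smulRightL ℝ V V with hB
  have hBa : ∀ (A : V →L[ℝ] ℝ) (w u : V), B A w u = A u • w := fun _ _ _ => rfl
  set m : ℝ → V →L[ℝ] V := fun s => Real.exp (2 * μ * s) • B (L s) (FbInt1_J (L s)) with hm
  set m' : ℝ → V →L[ℝ] V := fun s =>
    Real.exp (2 * μ * s) • (B (L s) (FbInt1_J (L' s)) + B (L' s) (FbInt1_J (L s))) +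
      (Real.exp (2 * μ * s) * (2 * μ)) • B (L s) (FbInt1_J (L s)) with hm'
  have hdm : ∀ s, HasDerivAt m (m' s) s := by
    intro s
    have e1 : HasDerivAt (fun s => Real.exp (2 * μ * s)) (Real.exp (2 * μ * s) * (2 * μ)) s := by
      simpa using ((hasDerivAt_id s).const_mul (2 * μ)).exp
    have e3 : HasDerivAt (fun s => (FbInt1_J (L s) : V)) (FbInt1_J (L' s)) s :=
      (FbInt1_J (V := V)).hasFDerivAt.comp_hasDerivAt s (hd s)
    exact e1.smul (B.hasDerivAt_of_bilinear (fun _ => hd s) fun _ => e3)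
  have hmc : Continuous m := continuous_iff_continuousAt.2 fun s => (hdm s).continuousAt
  have hm'c : Continuous m' := by
    have c1 : Continuous fun s => Real.exp (2 * μ * s) := by fun_prop
    have c2 : ∀ {P Q : ℝ → V →L[ℝ] ℝ}, Continuous P → Continuous Q →
        Continuous fun s => B (P s) (FbInt1_J (Q s)) := fun hP hQ =>
      (B.continuous.comp hP).clm_apply ((FbInt1_J (V := V)).continuous.comp hQ)
    exact (c1.smul ((c2 hL hc).add (c2 hc hL))).add ((c1.mul continuous_const).smul (c2 hL hL))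
  have hin : ∀ s x y, ⟪x, m s y⟫_ℝ = Real.exp (2 * μ * s) * (L s y * L s x) := by
    intro s x y
    simp only [hm, ContinuousLinearMap.smul_apply, hBa, real_inner_smul_right, FbInt1_J_inner]
  have hin' : ∀ s x, ⟪x, m' s x⟫_ℝ = Real.exp (2 * μ * s) * (L s x * L' s x + L' s x * L s x) +
      Real.exp (2 * μ * s) * (2 * μ) * (L s x * L s x) := by
    intro s x
    simp only [hm', ContinuousLinearMap.smul_apply, ContinuousLinearMap.add_apply, hBa,
      real_inner_smul_right, inner_add_right, FbInt1_J_inner]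
  obtain ⟨h1, h2⟩ := energy (FbInt1_T (V := V)) hsol m m m' hmc hdm hm'c (fun _ _ => rfl)
    (fun s x y => by rw [real_inner_comm, hin, hin]; ring) le_rfl h01 le_rfl
  have e : (fun q => 2 * (FbInt1_T (V := V)).a (Z q) (m q (ξ q)) + ⟪ξ q, m' q (ξ q)⟫_ℝ) =
      fun r => Real.exp (2 * μ * r) *
        (2 * μ * L r (ξ r) ^ 2 + 2 * (L r (ξ r) * L r (Z r) + L r (ξ r) * L' r (ξ r))) := by
    funext q
    have e1 : (FbInt1_T (V := V)).a (Z q) (m q (ξ q)) = ⟪Z q, m q (ξ q)⟫_ℝ := rfl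
    rw [e1, hin, hin']
    ring
  rw [e] at h1 h2
  rw [hin, hin] at h2
  refine ⟨h1, ?_⟩
  rw [sq, sq]
  exact h2

end

/-- Product rule for `e^{2μ s}(L s (ξ s))²`, `ξ s = ξ s0 + ∫ Z`.  Apply `energy` to the trivial triple
`V = H = VV`, `ι = G = id`, `a = innerSL ℝ`, the solution `(ξ, Z, ξ)`, and
`μ s = m s = e^{2μ s} • (L s).smulRight (ℓ s)`, `ℓ s = (InnerProductSpace.toDual ℝ VV).symm (L s)`. -/
theorem sq_rule {L L' : ℝ → VV →L[ℝ] ℝ} (hd : ∀ s, HasDerivAt L (L' s) s) (hc : Continuous L')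
    (μ : ℝ) {s0 s1 : ℝ} (h01 : s0 ≤ s1) {ξ Z : ℝ → VV} (hξ : ContinuousOn ξ (Icc s0 s1))
    (hZ : MemLp Z 2 (volume.restrict (Ioc s0 s1)))
    (hi : ∀ s ∈ Icc s0 s1, ξ s = ξ s0 + ∫ r in s0..s, Z r) :
    IntervalIntegrable (fun r => Real.exp (2 * μ * r) *
      (2 * μ * L r (ξ r) ^ 2 + 2 * (L r (ξ r) * L r (Z r) + L r (ξ r) * L' r (ξ r)))) volume s0 s1 ∧
    Real.exp (2 * μ * s1) * L s1 (ξ s1) ^ 2 = Real.exp (2 * μ * s0) * L s0 (ξ s0) ^ 2 +
      ∫ r in s0..s1, Real.exp (2 * μ * r) *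
        (2 * μ * L r (ξ r) ^ 2 + 2 * (L r (ξ r) * L r (Z r) + L r (ξ r) * L' r (ξ r))) :=
  FbInt1_rule hd hc μ h01 hξ hZ hi

end Crest.Agent.R213
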