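import Crest.Agent.R213.FbBas

/-! # R213 / FbInt2 : energy identity with the weight `wh²` -/

set_option autoImplicit false

open MeasureTheory Set Filter Topology
open scoped ContDiff InnerProductSpace

namespace Crest.Agent.R213

theorem FbInt2_sm : ContDiff ℝ ∞ (Function.uncurry fun r x => wh r x ^ 2) := contDiff_wh.pow 2

theorem FbInt2_E (S : Sp) (r : ℝ) (h : L2) : ⟪h, S.mulH (fun x => wh r x ^ 2) h⟫_ℝ = EH r h := by
  rw [inner_mulH S (p := fun x => wh r x ^ 2) ((continuous_wh r).pow 2)]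
  unfold EH
  congr 1
  funext x
  ring

theorem FbInt2_D (S : Sp) (r : ℝ) (h : L2) :
    ⟪h, S.mulH (fun x => deriv (fun q => wh q x ^ 2) r) h⟫_ℝ = -2 * EH r h + 2 * WH r h := by
  have e : (fun x => deriv (fun q => wh q x ^ 2) r) = fun x => -2 * wh r x ^ 2 + 2 * wh r x ^ 3 :=
    funext fun x => (hasDerivAt_wh_sq r x).deriv
  have hc := continuous_wh r
  rw [e, inner_mulH S (by fun_prop)]
  unfold EH WH
  rw [← integral_const_mul, ← integral_const_mul,
    ← integral_add ((integrable_EH r h).const_mul _) ((integrable_WH r h).const_mul _)]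
  congr 1
  funext x
  ring

/-- `energy` with `μ r = e^{2μ r} • mul (wh r ²)`, `m r = e^{2μ r} • mulH (wh r ²)` (`mul_family`, `mulH_family`, `ι_mul`,
`mulH_symm`, `inner_mulH`, `hasDerivAt_wh_sq`). -/
theorem EH_rule (S : Sp) (μ : ℝ) {s0 s1 : ℝ} (h01 : s0 ≤ s1) {v Z : ℝ → VV} {U : ℝ → L2}
    (h : IsSol S.T s0 s1 v Z U) :
    IntervalIntegrable (fun r => Real.exp (2 * μ * r) * (2 * μ * EH r (U r) +
      (2 * S.T.a (Z r) (S.mul (fun x => wh r x ^ 2) (v r)) - 2 * EH r (U r) + 2 * WH r (U r))))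
      volume s0 s1 ∧
    Real.exp (2 * μ * s1) * EH s1 (U s1) = Real.exp (2 * μ * s0) * EH s0 (U s0) +
      ∫ r in s0..s1, Real.exp (2 * μ * r) * (2 * μ * EH r (U r) +
        (2 * S.T.a (Z r) (S.mul (fun x => wh r x ^ 2) (v r)) - 2 * EH r (U r) + 2 * WH r (U r))) := by
  obtain ⟨c1, c2, c3⟩ := S.mulH_family FbInt2_sm
  have c0 := S.mul_family FbInt2_sm
  have he : ∀ s, HasDerivAt (fun r => Real.exp (2 * μ * r)) (Real.exp (2 * μ * s) * (2 * μ)) s := fun s => by
    simpa using ((hasDerivAt_id s).const_mul (2 * μ)).exp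
  have hec : Continuous fun r => Real.exp (2 * μ * r) := by fun_prop
  have hM : ∀ r, ∃ N, Mult (fun x => wh r x ^ 2) N := fun r =>
    mult_of_contDiff (((FbInt2_sm.comp (contDiff_const.prodMk contDiff_id)) :
      ContDiff ℝ ∞ fun x => wh r x ^ 2).of_le (by norm_cast))
  have key := energy S.T h (fun r => Real.exp (2 * μ * r) • S.mul fun x => wh r x ^ 2)
    (fun r => Real.exp (2 * μ * r) • S.mulH fun x => wh r x ^ 2)
    (fun r => Real.exp (2 * μ * r) • (S.mulH fun x => deriv (fun q => wh q x ^ 2) r) +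
      (Real.exp (2 * μ * r) * (2 * μ)) • S.mulH fun x => wh r x ^ 2)
    (hec.smul c0) (fun s => (he s).smul (c3 s)) ((hec.smul c2).add ((hec.mul continuous_const).smul c1))
    (fun s u => by
      obtain ⟨N, hN⟩ := hM s
      simp only [_root_.smul_apply, map_smul, S.ι_mul hN])
    (fun s x y => by
      obtain ⟨N, hN⟩ := hM s
      simp only [_root_.smul_apply, real_inner_smul_left, real_inner_smul_right,
        S.mulH_symm hN.sm.continuousOn hN.b0])
    le_rfl h01 le_rfl
  have e : (fun q => 2 * S.T.a (Z q) ((Real.exp (2 * μ * q) • S.mul fun x => wh q x ^ 2) (v q)) +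
      ⟪U q, (Real.exp (2 * μ * q) • (S.mulH fun x => deriv (fun q => wh q x ^ 2) q) +
        (Real.exp (2 * μ * q) * (2 * μ)) • S.mulH fun x => wh q x ^ 2) (U q)⟫_ℝ) =
      fun r => Real.exp (2 * μ * r) * (2 * μ * EH r (U r) +
        (2 * S.T.a (Z r) (S.mul (fun x => wh r x ^ 2) (v r)) - 2 * EH r (U r) + 2 * WH r (U r))) := by
    funext q
    simp only [_root_.add_apply, _root_.smul_apply, map_smul, inner_add_right,
      real_inner_smul_right, FbInt2_E, FbInt2_D, smul_eq_mul]
    ring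
  rw [e] at key
  simpa only [_root_.smul_apply, real_inner_smul_right, FbInt2_E] using key

end Crest.Agent.R213
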