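import Crest.Agent.R213.FbL2
import Crest.Agent.R213.FbInt1
import Crest.Agent.R213.FbInt2

/-! # R213 / FbInt : integration of the dissipation inequality -/

set_option autoImplicit false

open MeasureTheory Set Filter Topology
open scoped ContDiff InnerProductSpace

namespace Crest.Agent.R213

/-- `AncL.En_eq`, `inner_mulH`, `mulH_family` -/
theorem En_continuousOn (S : Sp) {N : Anc} {La La' : Fin 2 → ℝ → VV →L[ℝ] ℝ} (hL : AncL N La La')
    {U : ℝ → L2} {I : Set ℝ} (hU : ContinuousOn U I) : ContinuousOn (fun r => N.En r (U r)) I := by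
  have hsm : ContDiff ℝ ∞ (Function.uncurry fun r x => wh r x ^ 2) :=
    ContDiff.pow (f := Function.uncurry wh) contDiff_wh 2
  have e : (fun r => N.En r (U r)) = fun r => ⟪U r, S.mulH (fun x => wh r x ^ 2) (U r)⟫_ℝ +
      ∑ j, La j r (S.T.G (U r)) ^ 2 := by
    funext r
    rw [hL.En_eq S, inner_mulH S (p := fun x => wh r x ^ 2) ((continuous_wh r).pow 2)]
    simp only [EH, mul_pow]
  rw [e]
  refine (ContinuousOn.inner (𝕜 := ℝ) hU ((S.mulH_family hsm).1.continuousOn.clm_apply hU)).add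
    (continuousOn_finsetSum _ fun j _ => ?_)
  exact ((hL.cont j).continuousOn.clm_apply (S.T.G.continuous.comp_continuousOn hU)).pow 2
/-- add `EH_rule` and `sq_rule` (`j = 0, 1`, `ξ = G U`): `e^{2μ s1} En s1 = ∫ e^{2μ r}(2μ En + dE)`, `2μ En ≤ (7/4) En`. -/
theorem fb_int (S : Sp) {N : Anc} {La La' : Fin 2 → ℝ → VV →L[ℝ] ℝ} (hL : AncL N La La')
    {μ c0 s0 s1 : ℝ} (hμ : μ ≤ 7 / 8) (h01 : s0 ≤ s1) {v Z : ℝ → VV} {U : ℝ → L2}
    (h : IsSol S.T s0 s1 v Z U) (h0 : U s0 = 0) {Φ : ℝ → ℝ} (hΦ : IntervalIntegrable Φ volume s0 s1)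
    (hd : ∀ᵐ r ∂(volume.restrict (Ioc s0 s1)), dE S La La' r (v r) (Z r) + 7 / 4 * N.En r (U r) +
      c0 * (Real.exp (-r) * ‖S.mul (wh r) (v r)‖ ^ 2 + N.En r (U r)) ≤ Φ r) :
    Real.exp (2 * μ * s1) * N.En s1 (U s1) + c0 * ∫ r in s0..s1, Real.exp (2 * μ * r) *
      (Real.exp (-r) * ‖S.mul (wh r) (v r)‖ ^ 2 + N.En r (U r)) ≤
      ∫ r in s0..s1, Real.exp (2 * μ * r) * Φ r := by
  have hξ : ContinuousOn (fun r => S.T.G (U r)) (Icc s0 s1) :=
    S.T.G.continuous.comp_continuousOn h.cont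
  obtain ⟨iA, eA⟩ := EH_rule S μ h01 h
  obtain ⟨i0, e0⟩ := sq_rule (hL.der 0) (hL.cont' 0) μ h01 hξ h.Z2 h.int
  obtain ⟨i1, e1⟩ := sq_rule (hL.der 1) (hL.cont' 1) μ h01 hξ h.Z2 h.int
  have z0 : EH s0 (U s0) = 0 := by
    have h2 := inner_mulH S ((continuous_wh s0).pow 2) (U s0)
    rw [h0, inner_zero_left] at h2
    rw [h0]
    simp only [EH, mul_pow]
    exact h2.symm
  rw [z0] at eA
  simp only [h0, map_zero] at e0 e1
  have hce : Continuous fun r : ℝ => Real.exp (2 * μ * r) := by fun_prop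
  have iW : IntervalIntegrable (fun r => Real.exp (2 * μ * r) *
      (Real.exp (-r) * ‖S.mul (wh r) (v r)‖ ^ 2 + N.En r (U r))) volume s0 s1 := by
    refine IntervalIntegrable.continuousOn_mul ?_ hce.continuousOn
    refine ((wh_sq_integrable S h01 h.v2).continuousOn_mul (by fun_prop)).add ?_
    exact ContinuousOn.intervalIntegrable_of_Icc h01 (En_continuousOn S hL h.cont)
  have iΦ : IntervalIntegrable (fun r => Real.exp (2 * μ * r) * Φ r) volume s0 s1 :=
    hΦ.continuousOn_mul hce.continuousOn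
  have key := intervalIntegral.integral_mono_ae_restrict h01
    (((iA.add i0).add i1).add (iW.const_mul c0)) iΦ (by
      rw [← Measure.restrict_congr_set Ioc_ae_eq_Icc]
      filter_upwards [hd, h.rep] with r h1 h2
      have hE := hL.En_eq S r (U r)
      have hn : 0 ≤ N.En r (U r) := by
        rw [hE]; exact add_nonneg (EH_nonneg _ _) (Finset.sum_nonneg fun j _ => sq_nonneg _)
      have h3 : 2 * μ * N.En r (U r) ≤ 7 / 4 * N.En r (U r) :=
        mul_le_mul_of_nonneg_right (by linarith) hn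
      simp only [dE, Lam, h2, Fin.sum_univ_two] at h1
      rw [Fin.sum_univ_two] at hE
      have h4 := mul_le_mul_of_nonneg_left (show 2 * μ * EH r (U r) +
          (2 * S.T.a (Z r) (S.mul (fun x => wh r x ^ 2) (v r)) - 2 * EH r (U r) + 2 * WH r (U r)) +
          (2 * μ * La 0 r (S.T.G (U r)) ^ 2 + 2 * (La 0 r (S.T.G (U r)) * La 0 r (Z r) +
            La 0 r (S.T.G (U r)) * La' 0 r (S.T.G (U r)))) +
          (2 * μ * La 1 r (S.T.G (U r)) ^ 2 + 2 * (La 1 r (S.T.G (U r)) * La 1 r (Z r) +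
            La 1 r (S.T.G (U r)) * La' 1 r (S.T.G (U r)))) +
          c0 * (Real.exp (-r) * ‖S.mul (wh r) (v r)‖ ^ 2 + N.En r (U r)) ≤ Φ r by
        have : 2 * μ * N.En r (U r) = 2 * μ * EH r (U r) + 2 * μ * La 0 r (S.T.G (U r)) ^ 2 +
          2 * μ * La 1 r (S.T.G (U r)) ^ 2 := by rw [hE]; ring
        linarith) (Real.exp_pos (2 * μ * r)).le
      refine le_trans (le_of_eq ?_) h4
      ring)
  rw [intervalIntegral.integral_add ((iA.add i0).add i1) (iW.const_mul c0),
    intervalIntegral.integral_add (iA.add i0) i1, intervalIntegral.integral_add iA i0,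
    intervalIntegral.integral_const_mul] at key
  rw [hL.En_eq S s1, Fin.sum_univ_two]
  linarith
end Crest.Agent.R213
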