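import Crest.Agent.R213.FbBas

/-! # R213 / FbL1 : the functionals `L` are `C¹` in `s` -/

set_option autoImplicit false

open MeasureTheory Set Filter Topology
open scoped ContDiff InnerProductSpace

namespace Crest.Agent.R213

theorem FbL1_mulH (S : Sp) {q : ℝ → ℝ} (hq : Continuous q) (h : L2) :
    S.mulH q h =ᵐ[ν] fun x => q x * h x := by
  obtain ⟨N, hN⟩ := (isCompact_Icc (a := (0 : ℝ)) (b := 1)).exists_bound_of_continuousOn hq.continuousOn
  exact (S.mulH_eq q N hq.continuousOn fun x hx => hN x (Ioo_subset_Icc_self hx)).1 h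

theorem FbL1_T (S : Sp) : ∃ T : (L2 →L[ℝ] L2) →L[ℝ] (VV →L[ℝ] ℝ), ∀ q : ℝ → ℝ, Continuous q → ∀ u,
    T (S.mulH q) u = ∫ x in Ioo (0 : ℝ) 1, q x * (x * d2 u x + 18 * d1 u x + 72 * d0 u x / x) := by
  let pr : Fin 3 → VV →L[ℝ] L2 := fun i =>
    (PiLp.proj (𝕜 := ℝ) 2 (fun _ : Fin 3 => L2) i).comp VV.eL.toContinuousLinearMap
  have hpr : ∀ i u, pr i u = u.e i := fun i u => rfl
  let P : VV →L[ℝ] L2 := pr 2 + (S.mulH fun x => 18 * (1 - x)).comp (pr 1) +
    (S.mulH fun x => 72 * (1 - x) ^ 2).comp (pr 0)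
  have hP : ∀ u, P u = u.e 2 + S.mulH (fun x => 18 * (1 - x)) (u.e 1) +
      S.mulH (fun x => 72 * (1 - x) ^ 2) (u.e 0) := fun u => rfl
  let one : L2 := (memLp_const (1 : ℝ)).toLp _
  have hone : one =ᵐ[ν] fun _ => (1 : ℝ) := MemLp.coeFn_toLp _
  refine ⟨(ContinuousLinearMap.compL ℝ VV L2 ℝ (innerSL ℝ one)).comp
    ((ContinuousLinearMap.compL ℝ VV L2 L2).flip P), fun q hq u => ?_⟩
  show ⟪one, S.mulH q (P u)⟫_ℝ = _
  rw [L2.inner_def]
  refine integral_congr_ae ?_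
  have h1 := FbL1_mulH S hq (P u)
  have h2 := FbL1_mulH S (q := fun x => 18 * (1 - x)) (by fun_prop) (u.e 1)
  have h3 := FbL1_mulH S (q := fun x => 72 * (1 - x) ^ 2) (by fun_prop) (u.e 0)
  have h4 := Lp.coeFn_add (u.e 2 + S.mulH (fun x => 18 * (1 - x)) (u.e 1))
    (S.mulH (fun x => 72 * (1 - x) ^ 2) (u.e 0))
  have h5 := Lp.coeFn_add (u.e 2) (S.mulH (fun x => 18 * (1 - x)) (u.e 1))
  rw [← hP] at h4
  filter_upwards [hone, h1, h2, h3, h4, h5, ae_restrict_mem measurableSet_Ioo] with x e0 e1 e2 e3 e4 e5 hx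
  have hx0 : x ≠ 0 := hx.1.ne'
  rw [e0, e1, e4, Pi.add_apply, e5, Pi.add_apply, e2, e3]
  simp only [RCLike.inner_apply, conj_trivial, d0, d1, d2]
  field_simp

theorem FbL1_isL (S : Sp) {T : (L2 →L[ℝ] L2) →L[ℝ] (VV →L[ℝ] ℝ)} (hT : ∀ q : ℝ → ℝ, Continuous q → ∀ u,
    T (S.mulH q) u = ∫ x in Ioo (0 : ℝ) 1, q x * (x * d2 u x + 18 * d1 u x + 72 * d0 u x / x))
    {Θ : ℝ → ℝ} {q : ℝ → ℝ → ℝ} (hq : ∀ s, Continuous (q s))
    (he : ∀ s, ∀ x ∈ Ioo (0 : ℝ) 1, q s x = Real.exp (s / 4) * Θ (x / lam s) / x) :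
    IsL Θ fun s => T (S.mulH (q s)) := by
  intro s u
  rw [hT _ (hq s), ← integral_const_mul]
  refine setIntegral_congr_fun measurableSet_Ioo fun x hx => ?_
  have hx0 : x ≠ 0 := hx.1.ne'
  show q s x * _ = _
  rw [he s x hx]
  field_simp

/-- Let `Φ y = Ψ y / y` (`Bump.div_pow`), `P : VV →L L2`, `P u = u.e 2 + mulH (18(1-x)) (u.e 1) + mulH (72(1-x)²) (u.e 0)`
(so `P u = x d2 u + 18 d1 u + 72 d0 u / x` a.e.; `VV.eL`, `PiLp.proj`), `one : L2` the constant `1`.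
`L s = e^{3s/4} • (innerSL ℝ (mulH (fun x => Φ (x e^{s/2})) one)).comp P`.  `mulH_family` with
`p s x = e^{3s/4} Φ (x e^{s/2})` gives continuity and the derivative: `∂_s p = e^{3s/4}(3Φ/4 + yΦ'/2)` and
`y (3Φ/4 + yΦ'/2) = DP Ψ y`. -/
theorem L_exists (S : Sp) {Ψ : ℝ → ℝ} {R : ℝ} (hΨ : Bump Ψ R) :
    ∃ L L' : ℝ → VV →L[ℝ] ℝ, IsL Ψ L ∧ IsL (DP Ψ) L' ∧ Continuous L ∧ Continuous L' ∧
      ∀ s, HasDerivAt L (L' s) s := by
  obtain ⟨T, hT⟩ := FbL1_T S
  have hΦ := hΨ.div_pow 1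
  set Φ : ℝ → ℝ := fun y => Ψ y / y ^ 1 with hΦdef
  have hΦd : Differentiable ℝ Φ := hΦ.sm.differentiable (by simp)
  have hΨd : Differentiable ℝ Ψ := hΨ.sm.differentiable (by simp)
  have hΦc : Continuous (deriv Φ) := hΦ.deriv.sm.continuous
  let p : ℝ → ℝ → ℝ := fun s x => Real.exp (3 * s / 4) * Φ (x * Real.exp (s / 2))
  have hp : ContDiff ℝ ∞ (Function.uncurry p) := by
    have h1 : ContDiff ℝ ∞ fun z : ℝ × ℝ => Real.exp (3 * z.1 / 4) := by fun_prop
    have h2 : ContDiff ℝ ∞ fun z : ℝ × ℝ => z.2 * Real.exp (z.1 / 2) := by fun_prop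
    exact h1.mul (hΦ.sm.comp h2)
  obtain ⟨c1, c2, c3⟩ := S.mulH_family hp
  have hd : ∀ s x, deriv (fun r => p r x) s = Real.exp (3 * s / 4) * (3 / 4) * Φ (x * Real.exp (s / 2)) +
      Real.exp (3 * s / 4) * (deriv Φ (x * Real.exp (s / 2)) * (x * (Real.exp (s / 2) * (1 / 2)))) := by
    intro s x
    have h1 : HasDerivAt (fun r : ℝ => 3 * r / 4) (3 / 4) s := by
      simpa using ((hasDerivAt_id s).const_mul 3).div_const 4
    have h2 : HasDerivAt (fun r : ℝ => r / 2) (1 / 2) s := (hasDerivAt_id s).div_const 2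
    have h3 := (hΦd (x * Real.exp (s / 2))).hasDerivAt.comp s (h2.exp.const_mul x)
    exact (h1.exp.mul h3).deriv
  have hexp : ∀ s : ℝ, Real.exp (3 * s / 4) = Real.exp (s / 4) * Real.exp (s / 2) := fun s => by
    rw [← Real.exp_add]
    congr 1
    ring
  have hy : ∀ s x : ℝ, x / lam s = x * Real.exp (s / 2) := fun s x => by
    rw [exp_half_eq, div_eq_mul_inv]
  refine ⟨fun s => T (S.mulH (p s)), fun s => T (S.mulH fun x => deriv (fun r => p r x) s), ?_, ?_,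
    T.continuous.comp c1, T.continuous.comp c2, fun s => T.hasFDerivAt.comp_hasDerivAt s (c3 s)⟩
  · refine FbL1_isL S hT (fun s => ?_) fun s x hx => ?_
    · have := hΦ.sm.continuous
      show Continuous fun x => Real.exp (3 * s / 4) * Φ (x * Real.exp (s / 2))
      fun_prop
    · have hx0 : x ≠ 0 := hx.1.ne'
      have he := (Real.exp_pos (s / 2)).ne'
      show Real.exp (3 * s / 4) * (Ψ (x * Real.exp (s / 2)) / (x * Real.exp (s / 2)) ^ 1) = _
      rw [hexp, hy]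
      field_simp
  · refine FbL1_isL S hT (q := fun s x => deriv (fun r => p r x) s) (fun s => ?_) fun s x hx => ?_
    · have := hΦ.sm.continuous
      simp only [hd]
      fun_prop
    · have hx0 : x ≠ 0 := hx.1.ne'
      have he := (Real.exp_pos (s / 2)).ne'
      have hy0 : x * Real.exp (s / 2) ≠ 0 := mul_ne_zero hx0 he
      have h1 : deriv Φ (x * Real.exp (s / 2)) = (deriv Ψ (x * Real.exp (s / 2)) * (x * Real.exp (s / 2)) -
          Ψ (x * Real.exp (s / 2)) * 1) / (x * Real.exp (s / 2)) ^ 2 := by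
        have h2 := (hΨd (x * Real.exp (s / 2))).hasDerivAt.div (hasDerivAt_id _) hy0
        have h3 : Φ = Ψ / id := by
          funext y
          simp [hΦdef]
        rw [h3]
        exact h2.deriv
      show deriv (fun r => p r x) s = _
      rw [hd, h1, hexp, hy]
      simp only [hΦdef, DP]
      field_simp
      ring

theorem ancL_exists (S : Sp) (N : Anc) : ∃ La La', AncL N La La' := by
  choose L L' h using fun j => L_exists S (N.bump j)
  exact ⟨L, L', fun j => (h j).1, fun j => (h j).2.1, fun j => (h j).2.2.1, fun j => (h j).2.2.2.1,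
    fun j => (h j).2.2.2.2⟩

end Crest.Agent.R213
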