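import Crest.Agent.R213.FbBas

/-! # R213 / FbL2 : values of the functionals `L` -/

set_option autoImplicit false

open MeasureTheory Set Filter Topology
open scoped ContDiff InnerProductSpace

namespace Crest.Agent.R213

variable {Ψ : ℝ → ℝ} {L : ℝ → VV →L[ℝ] ℝ} {R : ℝ}

/-- `Rep.d` -/
theorem IsL.rep (hL : IsL Ψ L) {u : VV} {f : ℝ → ℝ} (hu : Rep u f) (s : ℝ) :
    L s u = Real.exp (s / 4) * ∫ x in Ioo (0 : ℝ) 1, C0 f x * Ψ (x / lam s) := by
  rw [hL]
  congr 1
  refine integral_congr_ae ?_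
  filter_upwards [hu.d.1, hu.d.2.1, hu.d.2.2] with x h0 h1 h2
  rw [h0, h1, h2, C0]

/-- `G_rep`, `C0_xi` -/
theorem IsL.G_eq (S : Sp) (hL : IsL Ψ L) (s : ℝ) (h : L2) :
    L s (S.T.G h) = Real.exp (s / 4) * ∫ x in Ioo (0 : ℝ) 1, sig h x * Ψ (x / lam s) := by
  rw [hL.rep (S.G_rep h)]
  congr 1
  exact setIntegral_congr_fun measurableSet_Ioo fun x hx => by simp only [C0_xi h hx]

theorem AncL.sq (S : Sp) {N : Anc} {La La' : Fin 2 → ℝ → VV →L[ℝ] ℝ} (hL : AncL N La La') (j : Fin 2)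
    (s : ℝ) (h : L2) : La j s (S.T.G h) ^ 2 = lam s * N.al j s h ^ 2 := by
  have := (lam_pos' s).ne'
  rw [(hL.isL j).G_eq S, mul_pow, exp_quarter_sq, Anc.al]
  field_simp

theorem AncL.En_eq (S : Sp) {N : Anc} {La La' : Fin 2 → ℝ → VV →L[ℝ] ℝ} (hL : AncL N La La')
    (s : ℝ) (h : L2) : N.En s h = EH s h + ∑ j, La j s (S.T.G h) ^ 2 := by
  simp only [Fin.sum_univ_two, hL.sq S, Anc.En, EH, mul_add]

theorem FbL2_supp (hΨ : Bump Ψ R) {s x : ℝ} (h : Ψ (x / lam s) ≠ 0) :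
    lam s * R⁻¹ < x ∧ x < lam s * R := by
  have h1 := not_not.1 fun h2 => h (hΨ.supp _ h2)
  exact ⟨(lt_div_iff₀' (lam_pos' s)).1 h1.1, (div_lt_iff₀' (lam_pos' s)).1 h1.2⟩

/-- `C0 (λ^{3/2} F(·/λ)) = λ^{-1/2} (C0 F)(·/λ)` (`C0_scale`), substitution `x = λ y`
(`Measure.integral_comp_div`; `Ψ(x/λ) = 0` outside `(0,1)`). -/
theorem IsL.scaled (hL : IsL Ψ L) (hΨ : Bump Ψ R) {s : ℝ} (hs : lam s * R ≤ 1) {u : VV} {F : ℝ → ℝ}
    (hu : Rep u (fun x => Real.exp (-(3 * s / 4)) * F (x / lam s))) :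
    L s u = ∫ y, C0 F y * Ψ y := by
  have hl := lam_pos' s
  have hR := hΨ.pos
  rw [hL.rep hu, C0_scale _ _ hl, setIntegral_eq_integral_of_forall_compl_eq_zero fun x hx => by
    by_contra hn
    have := FbL2_supp hΨ (right_ne_zero_of_mul hn)
    exact hx ⟨lt_trans (by positivity) this.1, this.2.trans_le hs⟩]
  simp only [mul_assoc]
  rw [integral_const_mul, Measure.integral_comp_div (fun y => C0 F y * Ψ y), abs_of_pos hl,
    smul_eq_mul]
  have e : Real.exp (s / 4) * Real.exp (-(3 * s / 4)) = lam s := by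
    rw [← Real.exp_add, lam]
    congr 1
    ring
  rw [← mul_assoc, ← mul_assoc, ← mul_div_assoc, e]
  field_simp

/-- `sig_ibp` with `Φ x = x² β(x/λ)`, `Φ'' = (y²β)''(x/λ)` (`deriv_scale`). -/
theorem IsL.bump_eq (S : Sp) {β : ℝ → ℝ} (hL : IsL (deriv (deriv fun y => y ^ 2 * β y)) L)
    (hβ : Bump β R) {s : ℝ} (hs : lam s * R ≤ 1 / 2) (h : L2) : L s (S.T.G h) = cb β s h := by
  have hl := lam_pos' s
  have hR := hβ.pos
  have hQ := hβ.mul_left (p := fun y => y ^ 2) (by fun_prop)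
  have h1 := sig_ibp h (Φ := fun x => lam s ^ 2 * (fun y => y ^ 2 * β y) (x / lam s))
    ⟨contDiff_const.mul ((hQ.sm.of_le (by norm_cast)).comp (contDiff_id.div_const _)),
      min (lam s * R⁻¹) (1 / 2), by positivity, fun x hx => by
        by_contra hn
        have := FbL2_supp hQ (right_ne_zero_of_mul hn)
        exact hx ⟨(min_le_left _ _).trans_lt this.1, by linarith [min_le_right (lam s * R⁻¹) (1 / 2)]⟩⟩
  rw [deriv_scale (fun y => y ^ 2 * β y), deriv_scale,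
    show lam s ^ 2 / lam s / lam s = 1 by field_simp] at h1
  simp only [one_mul] at h1
  rw [hL.G_eq S, cb, h1]
  congr 1
  refine setIntegral_congr_fun measurableSet_Ioo fun x hx => ?_
  have := hx.1.ne'
  simp only [eps]
  field_simp

/-- `cs_EH` with `k = β(x/λ)/(1-x)`, `|k| ≤ 2 M wh`, `ρ = λ R`. -/
theorem cb_sq_le {β : ℝ → ℝ} (hβ : Bump β R) {M : ℝ} (hM : ∀ y, |β y| ≤ M / (1 + y ^ 2)) {s : ℝ}
    (hs : lam s * R ≤ 1 / 2) (h : L2) : cb β s h ^ 2 ≤ 4 * M ^ 2 * R * EH s h := by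
  have hl := lam_pos' s
  have hR := hβ.pos
  have hM0 : 0 ≤ M := by simpa using (abs_nonneg _).trans (hM 0)
  have h1 := (cs_EH s h (k := fun x => β (x / lam s) / (1 - x)) (M := 2 * M) (ρ := lam s * R)
    ((hβ.sm.continuous.measurable.comp (measurable_id.div_const _)).div
      (measurable_const.sub measurable_id)).aestronglyMeasurable (by positivity)
    (fun x hx => by
      by_cases h0 : β (x / lam s) = 0
      · have := wh_pos' s x
        simp only [h0, zero_div, abs_zero]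
        positivity
      · have h2 := (FbL2_supp hβ h0).2
        have h3 := hM (x / lam s)
        rw [abs_div, abs_of_pos (sub_pos.2 hx.2), div_le_iff₀ (sub_pos.2 hx.2), wh_eq]
        refine h3.trans ?_
        rw [mul_assoc 2, mul_one_div, mul_right_comm]
        exact le_mul_of_one_le_left (by positivity) (by linarith))
    fun x _ hx => by
      by_contra hn
      exact lt_asymm hx (FbL2_supp hβ (div_ne_zero_iff.1 hn).1).2).2
  simp only [div_mul_eq_mul_div, mul_div_assoc] at h1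
  rw [cb, mul_pow, exp_quarter_sq, inv_mul_le_iff₀ hl]
  exact h1.trans (le_of_eq (by ring))

end Crest.Agent.R213
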