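import Crest.Agent.R213.FbL2

/-! # R213 / FbL3 : bounds of the functionals `L` -/

set_option autoImplicit false

open MeasureTheory Set Filter Topology
open scoped ContDiff InnerProductSpace

namespace Crest.Agent.R213

variable {Ψ : ℝ → ℝ} {L : ℝ → VV →L[ℝ] ℝ} {R : ℝ}

theorem FbL3_meas (hΨ : Bump Ψ R) (s : ℝ) : Measurable fun x => Ψ (x / lam s) :=
  hΨ.sm.continuous.measurable.comp (measurable_id.div_const _)

theorem FbL3_int (hΨ : Bump Ψ R) (s : ℝ) (u : VV) :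
    Integrable (fun x => d0 u x * Ψ (x / lam s)) ν ∧ Integrable (fun x => d1 u x * Ψ (x / lam s)) ν ∧
      Integrable (fun x => d2 u x * Ψ (x / lam s)) ν := by
  obtain ⟨M, -, hM⟩ := hΨ.bdd
  obtain ⟨M', -, hM'⟩ := (hΨ.div_pow 1).bdd
  have hl := (lam_pos' s).ne'
  have key : ∀ {f q : ℝ → ℝ}, MemLp (fun x => f x / q x) 2 ν → Measurable q →
      (∀ x ∈ Ioo (0 : ℝ) 1, 0 < q x ∧ q x ≤ 1) → Integrable (fun x => f x * Ψ (x / lam s)) ν :=
    fun {f q} hf hq hb => by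
    refine (((hf.integrable one_le_two).mul_bdd (c := 1) hq.aestronglyMeasurable ?_).mul_bdd
      (FbL3_meas hΨ s).aestronglyMeasurable (ae_of_all _ fun x => hM _)).congr ?_
    · filter_upwards [ae_restrict_mem measurableSet_Ioo] with x hx
      rw [Real.norm_of_nonneg (hb x hx).1.le]
      exact (hb x hx).2
    · filter_upwards [ae_restrict_mem measurableSet_Ioo] with x hx
      rw [div_mul_cancel₀ _ (hb x hx).1.ne']
  refine ⟨key (d_memLp u).1 (by fun_prop) fun x hx => ?_, key (d_memLp u).2.1 (by fun_prop) fun x hx =>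
    ⟨sub_pos.2 hx.2, by linarith [hx.1]⟩, ?_⟩
  · have h1 := sub_pos.2 hx.2
    have h2 := hx.1
    exact ⟨by positivity, mul_le_one₀ hx.2.le (by positivity) (pow_le_one₀ h1.le (by linarith))⟩
  · refine ((((d_memLp u).2.2.integrable one_le_two).mul_bdd
      (FbL3_meas (hΨ.div_pow 1) s).aestronglyMeasurable (ae_of_all _ fun x => hM' _)).div_const
      (lam s)).congr ?_
    filter_upwards [ae_restrict_mem measurableSet_Ioo] with x hx
    have := hx.1.ne'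
    field_simp

theorem FbL3_ibp (hΨ : Bump Ψ R) {s : ℝ} (hs : lam s * R ≤ 1 / 2) (u : VV) :
    (∫ x in Ioo (0 : ℝ) 1, d1 u x * Ψ (x / lam s) =
      -((lam s)⁻¹ * ∫ x in Ioo (0 : ℝ) 1, d0 u x * deriv Ψ (x / lam s))) ∧
    (∫ x in Ioo (0 : ℝ) 1, d2 u x * Ψ (x / lam s) =
      -((lam s)⁻¹ * ∫ x in Ioo (0 : ℝ) 1, d1 u x * deriv Ψ (x / lam s))) := by
  have hl := lam_pos' s
  have hR := hΨ.pos
  have h1 := ibp_V u (ψ := fun x => 1 * Ψ (x / lam s))
    (contDiff_const.mul ((hΨ.sm.of_le (by norm_cast)).comp (contDiff_id.div_const _)))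
    (δ := min (lam s * R⁻¹) (1 / 2)) (by positivity) fun x hx => by
      by_contra hn
      have := FbL2_supp hΨ (right_ne_zero_of_mul hn)
      exact hx ⟨(min_le_left _ _).trans_lt this.1, by linarith [min_le_right (lam s * R⁻¹) (1 / 2)]⟩
  rw [deriv_scale] at h1
  simp only [one_mul, one_div, mul_left_comm _ (lam s)⁻¹, integral_const_mul] at h1
  exact h1

theorem FbL3_bd (S : Sp) (hΨ : Bump Ψ R) : ∃ K : ℝ, 0 < K ∧ ∀ s p,
    |Real.exp (s / 4) * ∫ x in Ioo (0 : ℝ) 1, d0 p x * Ψ (x / lam s)| ≤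
      K * lam s * ‖S.mul (wh s) p‖ := by
  obtain ⟨M, hM0, hM⟩ := hΨ.bdd
  have hR := hΨ.pos
  refine ⟨R * (1 + R ^ 2) * M * (1 + R), by positivity, fun s p => ?_⟩
  have hl := lam_pos' s
  obtain ⟨m0, m1, m2⟩ := d_memLp (S.mul (wh s) p)
  have h1 := (cs_supp m0 (k := fun x => x * (1 - x) ^ 2 * (1 + (x / lam s) ^ 2) * Ψ (x / lam s))
    (Measurable.mul (by fun_prop) (FbL3_meas hΨ s)).aestronglyMeasurable
    (M := lam s * R * (1 + R ^ 2) * M) (ρ := lam s * R) (by positivity)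
    (fun x hx => by
      by_cases h0 : Ψ (x / lam s) = 0
      · simp only [h0, mul_zero, abs_zero]
        positivity
      · have h2 := (FbL2_supp hΨ h0).2
        have h3 := hM (x / lam s)
        have h4 := hx.1
        have h5 : (1 - x) ^ 2 ≤ 1 := pow_le_one₀ (sub_pos.2 hx.2).le (by linarith)
        have h6 : x / lam s ≤ R := ((div_lt_iff₀' hl).2 h2).le
        rw [abs_mul, abs_of_nonneg (by positivity), ← mul_one (lam s * R)]
        gcongr)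
    fun x _ hx => by
      by_contra hn
      exact lt_asymm hx (FbL2_supp hΨ (right_ne_zero_of_mul hn)).2).2
  have h2 : ∫ x in Ioo (0 : ℝ) 1, x * (1 - x) ^ 2 * (1 + (x / lam s) ^ 2) * Ψ (x / lam s) *
      (d0 (S.mul (wh s) p) x / (x * (1 - x) ^ 2)) = ∫ x in Ioo (0 : ℝ) 1, d0 p x * Ψ (x / lam s) := by
    refine integral_congr_ae ?_
    filter_upwards [ae_restrict_mem measurableSet_Ioo, (S.mul_eq _ _ (mult_wh s) p).1] with x hx h3
    have h4 := hx.1.ne'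
    have h5 := (sub_pos.2 hx.2).ne'
    rw [h3, wh_eq]
    field_simp
  have h3 : ∫ x in Ioo (0 : ℝ) 1, (d0 (S.mul (wh s) p) x / (x * (1 - x) ^ 2)) ^ 2 ≤
      ‖S.mul (wh s) p‖ ^ 2 := by
    rw [norm_sq_V]
    exact integral_mono m0.integrable_sq ((m0.integrable_sq.add m1.integrable_sq).add m2.integrable_sq)
      fun x => by
        simp only
        linarith [sq_nonneg (d1 (S.mul (wh s) p) x / (1 - x)), sq_nonneg (x * d2 (S.mul (wh s) p) x)]
  rw [h2] at h1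
  refine abs_le_of_sq_le_sq' ?_ (by positivity) |> abs_le.2
  rw [mul_pow, exp_quarter_sq, inv_mul_le_iff₀ hl]
  have h4 : R ≤ (1 + R) ^ 2 := by nlinarith
  calc _ ≤ (lam s * R * (1 + R ^ 2) * M) ^ 2 * (lam s * (1 + R) ^ 2) * ‖S.mul (wh s) p‖ ^ 2 :=
        h1.trans (by gcongr)
    _ = _ := by ring

/-- Weighted bound.  By `ibp_V` (twice for `d2`, once for `d1`)
`L s p = λ^{-5/2} ∫ d0 p · Θ(x/λ)`, `Θ = Ψ'' - 18 (Ψ/y)' + 72 Ψ/y²` (a bump).  With `p̃ = mul wh p`: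
`d0 p = d0 p̃ / wh` a.e. (`mul_eq`, `mult_wh`), `cs_supp` with `φ = d0 p̃/(x(1-x)²)` (`d_memLp`, `norm_sq_V`),
`|k| = x(1-x)²(1+y²)|Θ(y)| ≤ λ R (1+R²) M`, `ρ = λ R`. -/
theorem IsL.wbound (S : Sp) (hL : IsL Ψ L) (hΨ : Bump Ψ R) : ∃ K : ℝ, 0 < K ∧
    ∀ s, lam s * R ≤ 1 / 2 → ∀ p : VV, |L s p| ≤ K * Real.exp (s / 2) * ‖S.mul (wh s) p‖ := by
  obtain ⟨K2, p2, h2⟩ := FbL3_bd S hΨ.deriv.deriv
  obtain ⟨K1, p1, h1⟩ := FbL3_bd S (hΨ.div_pow 1).deriv
  obtain ⟨K0, p0, h0⟩ := FbL3_bd S (hΨ.div_pow 2)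
  refine ⟨K2 + 18 * K1 + 72 * K0, by positivity, fun s hs p => ?_⟩
  have hl := lam_pos' s
  have i2 := (FbL3_int hΨ s p).2.2
  have i1 := (FbL3_int (hΨ.div_pow 1) s p).2.1.const_mul (18 * (lam s)⁻¹)
  have i0 := (FbL3_int (hΨ.div_pow 2) s p).1.const_mul (72 * (lam s)⁻¹ ^ 2)
  have e : ∫ x in Ioo (0 : ℝ) 1, (d2 p x + 18 * d1 p x / x + 72 * d0 p x / x ^ 2) * Ψ (x / lam s) =
      ∫ x in Ioo (0 : ℝ) 1, (d2 p x * Ψ (x / lam s) +
        18 * (lam s)⁻¹ * (d1 p x * (Ψ (x / lam s) / (x / lam s) ^ 1)) +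
        72 * (lam s)⁻¹ ^ 2 * (d0 p x * (Ψ (x / lam s) / (x / lam s) ^ 2))) :=
    setIntegral_congr_fun measurableSet_Ioo fun x hx => by
      have := hx.1.ne'
      field_simp
  rw [hL, e, integral_add (f := fun x => d2 p x * Ψ (x / lam s) +
      18 * (lam s)⁻¹ * (d1 p x * (Ψ (x / lam s) / (x / lam s) ^ 1))) (i2.add i1) i0, integral_add i2 i1, integral_const_mul, integral_const_mul,
    (FbL3_ibp hΨ hs p).2, (FbL3_ibp hΨ.deriv hs p).1, (FbL3_ibp (hΨ.div_pow 1) hs p).1, exp_half_eq]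
  have a2 := abs_le.1 (h2 s p)
  have a1 := abs_le.1 (h1 s p)
  have a0 := abs_le.1 (h0 s p)
  generalize (∫ x in Ioo (0 : ℝ) 1, d0 p x * deriv (deriv Ψ) (x / lam s)) = I2 at *
  generalize (∫ x in Ioo (0 : ℝ) 1, d0 p x * deriv (fun y => Ψ y / y ^ 1) (x / lam s)) = I1 at *
  generalize (∫ x in Ioo (0 : ℝ) 1, d0 p x * (Ψ (x / lam s) / (x / lam s) ^ 2)) = I0 at *
  calc _ = (lam s)⁻¹ ^ 2 * |Real.exp (s / 4) * I2 - 18 * (Real.exp (s / 4) * I1) +
        72 * (Real.exp (s / 4) * I0)| := by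
        rw [← abs_of_pos (show 0 < (lam s)⁻¹ ^ 2 by positivity), ← abs_mul,
          abs_of_pos (show 0 < (lam s)⁻¹ ^ 2 by positivity)]
        congr 1
        ring
    _ ≤ (lam s)⁻¹ ^ 2 * ((K2 + 18 * K1 + 72 * K0) * lam s * ‖S.mul (wh s) p‖) :=
        mul_le_mul_of_nonneg_left (abs_le.2 ⟨by linarith, by linarith⟩) (by positivity)
    _ = _ := by field_simp

/-- `(L ξ)² ≤ λ⁻¹ · M² · 2λ · ∫_{λ/2 < x < 2λ} σ² ≤ C ∫_0^{1/2} wh³ σ²` (`wh ≥ 1/5` there; `cs_supp` with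
`φ = 1_{(0,1/2)} wh^{3/2} σ` or with `φ = 1_{(λ/2, 2λ)} σ`), then `hardy` (`j = 3`), `hardy_int`. -/
theorem IsL.sig_bound (S : Sp) (N : Anc) (hL : IsL Ψ L) (hΨ : Bump Ψ 2) : ∃ K : ℝ, 0 < K ∧
    ∀ s, 4 ≤ s → ∀ h : L2, L s (S.T.G h) ^ 2 ≤
      K * (WH s h + lam s * (N.al 0 s h ^ 2 + N.al 1 s h ^ 2)) := by
  obtain ⟨M, hM0, hM⟩ := hΨ.bdd
  obtain ⟨C, hC, h1⟩ := hardy N
  refine ⟨1250 * M ^ 2 * C, by positivity, fun s hs h => ?_⟩
  have hl := lam_pos' s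
  have hl' := lam_le_quarter hs
  have hi := hardy_int 3 s h
  have hsub : Ioo (0 : ℝ) (1 / 2) ⊆ Ioo 0 1 := Ioo_subset_Ioo le_rfl (by norm_num)
  have hpt : ∀ x, (wh s x ^ 2 * sig h x) ^ 2 ≤ wh s x ^ 3 * (sig h x ^ 2 + (x * sig1 h x) ^ 2) :=
    fun x => by
    have a1 := wh_pos' s x
    calc _ = wh s x ^ 3 * (wh s x * sig h x ^ 2) := by ring
      _ ≤ _ := mul_le_mul_of_nonneg_left ((mul_le_of_le_one_left (sq_nonneg _) (wh_le_one' s x)).trans
        (le_add_of_nonneg_right (sq_nonneg _))) (by positivity)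
  have hm : AEStronglyMeasurable (fun x => wh s x ^ 2 * sig h x) (volume.restrict (Ioo 0 (1 / 2))) :=
    (((continuous_wh s).pow 2).continuousOn.mul ((ISig_cont h).mono hsub)).aestronglyMeasurable
      measurableSet_Ioo
  have hi2 : IntegrableOn (fun x => (wh s x ^ 2 * sig h x) ^ 2) (Ioo 0 (1 / 2)) :=
    hi.mono' (hm.pow 2) (ae_of_all _ fun x => by rw [Real.norm_of_nonneg (sq_nonneg _)]; exact hpt x)
  have hφ : MemLp ((Ioo (0 : ℝ) (1 / 2)).indicator fun x => wh s x ^ 2 * sig h x) 2 ν := by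
    rw [memLp_indicator_iff_restrict measurableSet_Ioo, Measure.restrict_restrict measurableSet_Ioo,
      inter_eq_left.2 hsub]
    exact (memLp_two_iff_integrable_sq hm).2 hi2
  have h2 := (cs_supp hφ (k := fun x => (1 + (x / lam s) ^ 2) ^ 2 * Ψ (x / lam s))
    (Measurable.mul (by fun_prop) (FbL3_meas hΨ s)).aestronglyMeasurable
    (M := 25 * M) (ρ := lam s * 2) (by positivity)
    (fun x hx => by
      by_cases h0 : Ψ (x / lam s) = 0
      · simp only [h0, mul_zero, abs_zero]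
        positivity
      · have h3 := hM (x / lam s)
        have h4 := hx.1
        have h6 : x / lam s ≤ 2 := ((div_lt_iff₀' hl).2 (FbL2_supp hΨ h0).2).le
        rw [abs_mul, abs_of_nonneg (by positivity), show (25 : ℝ) = (1 + 2 ^ 2) ^ 2 by norm_num]
        gcongr)
    fun x _ hx => by
      by_contra hn
      exact lt_asymm hx (FbL2_supp hΨ (right_ne_zero_of_mul hn)).2).2
  have h3 : ∫ x in Ioo (0 : ℝ) 1, (1 + (x / lam s) ^ 2) ^ 2 * Ψ (x / lam s) *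
      (Ioo (0 : ℝ) (1 / 2)).indicator (fun x => wh s x ^ 2 * sig h x) x =
      ∫ x in Ioo (0 : ℝ) 1, sig h x * Ψ (x / lam s) :=
    setIntegral_congr_fun measurableSet_Ioo fun x hx => by
      by_cases h0 : Ψ (x / lam s) = 0
      · simp [h0]
      · rw [indicator_of_mem (show x ∈ Ioo (0 : ℝ) (1 / 2) from
          ⟨hx.1, by linarith [(FbL2_supp hΨ h0).2]⟩), wh_eq]
        field_simp
  have h4 : ∫ x in Ioo (0 : ℝ) 1, (Ioo (0 : ℝ) (1 / 2)).indicator (fun x => wh s x ^ 2 * sig h x) x ^ 2 ≤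
      C * (WH s h + lam s * (N.al 0 s h ^ 2 + N.al 1 s h ^ 2)) := by
    refine le_trans ?_ (h1 3 (Or.inr rfl) s hs h hi)
    have e : ∀ x, (Ioo (0 : ℝ) (1 / 2)).indicator (fun x => wh s x ^ 2 * sig h x) x ^ 2 =
        (Ioo (0 : ℝ) (1 / 2)).indicator (fun x => (wh s x ^ 2 * sig h x) ^ 2) x := fun x => by
      by_cases hx : x ∈ Ioo (0 : ℝ) (1 / 2)
      · simp only [indicator_of_mem hx]
      · simp only [indicator_of_notMem hx, zero_pow two_ne_zero]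
    simp only [e]
    rw [setIntegral_indicator measurableSet_Ioo, inter_eq_right.2 hsub]
    exact integral_mono hi2 hi hpt
  rw [h3] at h2
  rw [hL.G_eq S, mul_pow, exp_quarter_sq, inv_mul_le_iff₀ hl]
  calc _ ≤ (25 * M) ^ 2 * (lam s * 2) * (C * (WH s h + lam s * (N.al 0 s h ^ 2 + N.al 1 s h ^ 2))) :=
        h2.trans (by gcongr)
    _ = _ := by ring

end Crest.Agent.R213
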