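import Crest.Agent.R213.FbBas

/-! # R213 / FbPoin : control of the inner region by the bump observations -/

set_option autoImplicit false

open MeasureTheory Set Filter Topology
open scoped ContDiff InnerProductSpace

namespace Crest.Agent.R213

theorem FbPoin_ii {f : ℝ → ℝ} (hf : Integrable f ν) {p q : ℝ} (hp : 0 ≤ p) (hpq : p ≤ q) (hq : q < 1) :
    IntervalIntegrable f volume p q :=
  (intervalIntegrable_iff_integrableOn_Ioc_of_le hpq).2
    (IntegrableOn.mono_set hf fun _ hx => ⟨hp.trans_lt hx.1, hx.2.trans_lt hq⟩)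

theorem FbPoin_le {f g : ℝ → ℝ} (hf : Integrable f ν) (hg : Integrable g ν) (hg0 : ∀ x, 0 ≤ g x) {p q : ℝ}
    (hp : 0 ≤ p) (hpq : p ≤ q) (hq : q < 1) (h : ∀ x ∈ Ioc p q, f x ≤ g x) :
    ∫ x in p..q, f x ≤ ∫ x in Ioo (0 : ℝ) 1, g x := by
  have hs : Ioc p q ⊆ Ioo (0 : ℝ) 1 := fun _ hx => ⟨hp.trans_lt hx.1, hx.2.trans_lt hq⟩
  rw [intervalIntegral.integral_of_le hpq]
  exact (setIntegral_mono_on (IntegrableOn.mono_set hf hs) (IntegrableOn.mono_set hg hs) measurableSet_Ioc h).trans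
    (setIntegral_mono_set hg (ae_of_all _ hg0) hs.eventuallyLE)

theorem FbPoin_div {a c N : ℝ} (hc : 0 < c) (h : c ≤ N) : a ^ 2 ≤ N ^ 2 * (a / c) ^ 2 := by
  have h1 : c ^ 2 ≤ N ^ 2 := pow_le_pow_left₀ hc.le h 2
  calc a ^ 2 = c ^ 2 * (a / c) ^ 2 := by field_simp
    _ ≤ _ := mul_le_mul_of_nonneg_right h1 (sq_nonneg _)

theorem FbPoin_w0 {x : ℝ} (hx : x ∈ Ioo (0 : ℝ) 1) : 0 < x * (1 - x) ^ 2 ∧ x * (1 - x) ^ 2 ≤ x := by
  have h1 : 0 < 1 - x := sub_pos.2 hx.2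
  have h2 : (1 - x) ^ 2 ≤ 1 := pow_le_one₀ h1.le (by linarith [hx.1])
  exact ⟨mul_pos hx.1 (by positivity), mul_le_of_le_one_right hx.1.le h2⟩

theorem FbPoin_int0 (u : VV) : Integrable (fun x => d0 u x ^ 2) ν := by
  refine (d_memLp u).1.integrable_sq.mono' ((d_meas u).1.pow 2) ?_
  filter_upwards [ae_restrict_mem measurableSet_Ioo] with x hx
  rw [Real.norm_of_nonneg (sq_nonneg _)]
  simpa using FbPoin_div (a := d0 u x) (FbPoin_w0 hx).1 ((FbPoin_w0 hx).2.trans hx.2.le)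

theorem FbPoin_int1 (u : VV) : Integrable (fun x => d1 u x ^ 2) ν := by
  refine (d_memLp u).2.1.integrable_sq.mono' ((d_meas u).2.1.pow 2) ?_
  filter_upwards [ae_restrict_mem measurableSet_Ioo] with x hx
  rw [Real.norm_of_nonneg (sq_nonneg _)]
  simpa using FbPoin_div (a := d1 u x) (N := 1) (sub_pos.2 hx.2) (by linarith [hx.1])

theorem FbPoin_d0 (S : Sp) (s : ℝ) (u : VV) :
    d0 (S.mul (wh s) u) =ᵐ[ν] fun x => wh s x * ((1 - x) * S.T.ι u x) := by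
  filter_upwards [(S.mul_eq _ _ (mult_wh s) u).1, S.ι_eq u] with x h1 h2
  rw [h1, ← h2, hv]

/-- One interval `I = [(k+1)ηλ, (k+2)ηλ]`, `ũ = mul wh u`: `poincare ũ` with `β x = B(x/λ/η - (k+1))/(1-x)²`;
`∫_I β d0 ũ = ∫_0^1 bet(x/λ) h/(1-x) = λ^{1/2} cb` (`d0 ũ = wh (1-x) h` a.e., the integrand vanishes outside `I`),
`∫_I β ≥ ∫_I B(..) = η λ ∫_0^1 B`. -/
theorem inner_one (S : Sp) {B : ℝ → ℝ} (hB : Continuous B) (hB0 : ∀ t, 0 ≤ B t)
    (hBs : ∀ t, t ∉ Ioo (0 : ℝ) 1 → B t = 0) (hm : 0 < ∫ t in (0 : ℝ)..1, B t) {η s : ℝ} (hη : 0 < η)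
    (k : ℕ) (hs : (k + 2) * η * lam s ≤ 1 / 2) (u : VV) :
    ∫ x in ((k + 1) * η * lam s)..((k + 2) * η * lam s), d0 (S.mul (wh s) u) x ^ 2 ≤
      2 * η ^ 2 * Real.exp (-s) *
        (∫ x in ((k + 1) * η * lam s)..((k + 2) * η * lam s), d1 (S.mul (wh s) u) x ^ 2) +
      2 / (η * (∫ t in (0 : ℝ)..1, B t) ^ 2) * cb (bet B η k) s (S.T.ι u) ^ 2 := by
  have hl := lam_pos' s
  obtain ⟨p, hp⟩ : ∃ p : ℝ, p = (k + 1) * η * lam s := ⟨_, rfl⟩
  obtain ⟨q, hq⟩ : ∃ q : ℝ, q = (k + 2) * η * lam s := ⟨_, rfl⟩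
  obtain ⟨m, hm'⟩ : ∃ m : ℝ, m = ∫ t in (0 : ℝ)..1, B t := ⟨_, rfl⟩
  rw [← hq] at hs
  rw [← hp, ← hq, ← hm']
  rw [← hm'] at hm
  have hqp : q - p = η * lam s := by rw [hp, hq]; ring
  have hl' : 0 < η * lam s := mul_pos hη hl
  have hp0 : 0 < p := by rw [hp]; positivity
  have hpq : p < q := by linarith
  have hq1 : q < 1 := by linarith
  have hc : Continuous fun x => B (x / lam s / η - (k + 1)) := hB.comp (by fun_prop)
  have hβ : ContinuousOn (fun x => B (x / lam s / η - (k + 1)) / (1 - x) ^ 2) (Icc p q) :=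
    hc.continuousOn.div (by fun_prop) fun x hx => pow_ne_zero _ (by linarith [hx.2])
  have h1 : ∫ x in p..q, B (x / lam s / η - (k + 1)) = η * lam s * m := by
    simp only [div_div]
    rw [intervalIntegral.integral_comp_div_sub B (mul_pos hl hη).ne', smul_eq_mul, hm', mul_comm η]
    congr 2
    · rw [hp]; field_simp; ring
    · rw [hq]; field_simp; ring
  have h2 : η * lam s * m ≤ ∫ x in p..q, B (x / lam s / η - (k + 1)) / (1 - x) ^ 2 := by
    rw [← h1]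
    refine intervalIntegral.integral_mono_on hpq.le (hc.intervalIntegrable _ _)
      (hβ.intervalIntegrable_of_Icc hpq.le) fun x hx => ?_
    have h3 : 0 < 1 - x := by linarith [hx.2]
    exact le_div_self (hB0 _) (by positivity) (pow_le_one₀ h3.le (by linarith [hx.1]))
  have h0 : 0 < η * lam s * m := mul_pos hl' hm
  have h3 := poincare (S.mul (wh s) u) hp0 hpq hq1 hβ (fun x _ => div_nonneg (hB0 _) (sq_nonneg _))
    (h0.trans_le h2)
  have h4 : ∫ x in p..q, B (x / lam s / η - (k + 1)) / (1 - x) ^ 2 * d0 (S.mul (wh s) u) x =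
      ∫ x in Ioo (0 : ℝ) 1, bet B η k (x / lam s) * (S.T.ι u x / (1 - x)) := by
    rw [intervalIntegral.integral_of_le hpq.le, ← setIntegral_eq_of_subset_of_forall_sdiff_eq_zero
      (t := Ioo (0 : ℝ) 1) measurableSet_Ioo (fun _ hx => ⟨hp0.trans hx.1, hx.2.trans_lt hq1⟩)]
    · refine integral_congr_ae ?_
      filter_upwards [FbPoin_d0 S s u, ae_restrict_mem measurableSet_Ioo] with x hx hx'
      have h5 : 1 - x ≠ 0 := (sub_pos.2 hx'.2).ne'
      rw [hx, bet, wh_eq]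
      field_simp
    · intro x hx
      rw [hBs, zero_div, zero_mul]
      intro h5
      apply hx.2
      have h6 : x / lam s / η = x / (η * lam s) := by rw [div_div, mul_comm]
      rw [h6] at h5
      have h7 : (k + 1 : ℝ) < x / (η * lam s) := by linarith [h5.1]
      have h8 : x / (η * lam s) < k + 2 := by linarith [h5.2]
      rw [lt_div_iff₀ hl'] at h7
      rw [div_lt_iff₀ hl'] at h8
      exact ⟨by rw [hp]; linarith, by rw [hq]; linarith⟩
  rw [h4, hqp, mul_pow, lam_sq] at h3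
  obtain ⟨I, hI⟩ : ∃ I : ℝ, I = ∫ x in Ioo (0 : ℝ) 1, bet B η k (x / lam s) * (S.T.ι u x / (1 - x)) := ⟨_, rfl⟩
  rw [← hI] at h3
  rw [cb, ← hI, mul_pow, exp_quarter_sq]
  have h5 : (I / ∫ x in p..q, B (x / lam s / η - (k + 1)) / (1 - x) ^ 2) ^ 2 ≤ I ^ 2 / (η * lam s * m) ^ 2 := by
    rw [div_pow]
    exact div_le_div_of_nonneg_left (sq_nonneg _) (by positivity) (pow_le_pow_left₀ h0.le h2 2)
  have h6 : 2 * (η * lam s) * (I ^ 2 / (η * lam s * m) ^ 2) = 2 / (η * m ^ 2) * ((lam s)⁻¹ * I ^ 2) := by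
    field_simp
  have h7 := mul_le_mul_of_nonneg_left h5 (by positivity : 0 ≤ 2 * (η * lam s))
  rw [h6] at h7
  linarith

/-- `wh³h² ≤ (wh h)²/(1+(Mη)²)` on `x ≥ (M+1)ηλ`; `wh³h² ≤ 4 (d0 ũ)²` on `x ≤ (M+1)ηλ ≤ 1/2`;
`(d0 ũ)² ≤ η²τ (d0 ũ/(x(1-x)²))²` on `x ≤ ηλ`; `inner_one` on the other `M` intervals
(`intervalIntegral.sum_integral_adjacent_intervals`), `norm_sq_V`. -/
theorem fb_inner (S : Sp) {B : ℝ → ℝ} (hB : Continuous B) (hB0 : ∀ t, 0 ≤ B t)
    (hBs : ∀ t, t ∉ Ioo (0 : ℝ) 1 → B t = 0) (hm : 0 < ∫ t in (0 : ℝ)..1, B t) {η s : ℝ} (hη : 0 < η)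
    (M : ℕ) (hs : (M + 1) * η * lam s ≤ 1 / 2) (u : VV) :
    WH s (S.T.ι u) ≤ EH s (S.T.ι u) / (1 + (M * η) ^ 2) +
      8 * η ^ 2 * (Real.exp (-s) * ‖S.mul (wh s) u‖ ^ 2) +
      8 / (η * (∫ t in (0 : ℝ)..1, B t) ^ 2) *
        ∑ k ∈ Finset.range M, cb (bet B η k) s (S.T.ι u) ^ 2 := by
  have hl := lam_pos' s
  have hl' : 0 < η * lam s := mul_pos hη hl
  obtain ⟨v, hv'⟩ : ∃ v, v = S.mul (wh s) u := ⟨_, rfl⟩
  have hd := FbPoin_d0 S s u
  have hone := fun (k : ℕ) (hk : (k + 2) * η * lam s ≤ 1 / 2) => inner_one S hB hB0 hBs hm hη k hk u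
  rw [← hv'] at hd hone ⊢
  obtain ⟨Q, hQ⟩ : ∃ Q : ℝ, Q = (M + 1) * η * lam s := ⟨_, rfl⟩
  have hQ0 : η * lam s ≤ Q := by
    have : 0 ≤ (M : ℝ) * (η * lam s) := by positivity
    rw [hQ]; linarith
  have hQ1 : Q ≤ 1 / 2 := hQ ▸ hs
  have i0 := FbPoin_int0 v
  have i1 := FbPoin_int1 v
  have iA := (d_memLp v).1.integrable_sq
  have iB := (d_memLp v).2.1.integrable_sq
  have iC := (d_memLp v).2.2.integrable_sq
  have h1 : WH s (S.T.ι u) ≤ EH s (S.T.ι u) / (1 + (M * η) ^ 2) + 4 * ∫ x in (0 : ℝ)..Q, d0 v x ^ 2 := by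
    have e : ∫ x in (0 : ℝ)..Q, d0 v x ^ 2 =
        ∫ x in Ioo (0 : ℝ) 1, (Ioc 0 Q).indicator (fun x => d0 v x ^ 2) x := by
      have hsub : Ioc 0 Q ⊆ Ioo (0 : ℝ) 1 := fun x hx => ⟨hx.1, by linarith [hx.2]⟩
      rw [setIntegral_indicator measurableSet_Ioc, inter_eq_right.2 hsub,
        intervalIntegral.integral_of_le (by linarith)]
    rw [e, WH, EH, ← integral_div, ← integral_const_mul, ← integral_add ((integrable_EH s _).div_const _)
      ((i0.indicator measurableSet_Ioc).const_mul _)]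
    refine integral_mono_ae (integrable_WH s _)
      (((integrable_EH s _).div_const _).add ((i0.indicator measurableSet_Ioc).const_mul _)) ?_
    filter_upwards [hd, ae_restrict_mem measurableSet_Ioo] with x hx hx'
    have hw0 := wh_pos' s x
    have hw1 := wh_le_one' s x
    have h2 : 0 ≤ (wh s x * S.T.ι u x) ^ 2 := sq_nonneg _
    have e2 : wh s x ^ 3 * S.T.ι u x ^ 2 = (wh s x * S.T.ι u x) ^ 2 * wh s x := by ring
    rw [e2]
    by_cases hxQ : x ≤ Q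
    · rw [indicator_of_mem (show x ∈ Ioc 0 Q from ⟨hx'.1, hxQ⟩), hx]
      have h3 : 0 ≤ (wh s x * S.T.ι u x) ^ 2 / (1 + (M * η) ^ 2) := by positivity
      have h4 : 1 ≤ 4 * (1 - x) ^ 2 := by nlinarith
      have h5 : (wh s x * S.T.ι u x) ^ 2 * wh s x ≤ (wh s x * S.T.ι u x) ^ 2 * (4 * (1 - x) ^ 2) :=
        mul_le_mul_of_nonneg_left (hw1.trans h4) h2
      nlinarith
    · rw [indicator_of_notMem (fun h => hxQ h.2), mul_zero, add_zero, div_eq_mul_one_div]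
      refine mul_le_mul_of_nonneg_left ?_ h2
      rw [wh_eq]
      refine one_div_le_one_div_of_le (by positivity) ?_
      have h3 : M * η ≤ x / lam s := by
        rw [le_div_iff₀ hl]
        have := not_le.1 hxQ
        rw [hQ] at this
        linarith
      have := pow_le_pow_left₀ (by positivity) h3 2
      linarith
  have hk : ∀ k < M, (k + 2 : ℝ) * η * lam s ≤ 1 / 2 := fun k hk => by
    have h2 : (k + 2 : ℝ) ≤ M + 1 := by
      have : (k + 1 : ℝ) ≤ M := by exact_mod_cast hk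
      linarith
    have := mul_le_mul_of_nonneg_right h2 hl'.le
    linarith
  have hsum : ∀ {f : ℝ → ℝ}, Integrable f ν →
      ∑ k ∈ Finset.range M, ∫ x in ((k + 1) * η * lam s)..((k + 2) * η * lam s), f x =
        ∫ x in (η * lam s)..Q, f x := by
    intro f hf
    have h2 := intervalIntegral.sum_integral_adjacent_intervals (μ := volume) (f := f)
      (a := fun k : ℕ => (k + 1) * η * lam s) (n := M) fun k hk' => by
        refine FbPoin_ii hf (by positivity) ?_ ?_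
        · push_cast; nlinarith
        · have := hk k hk'
          push_cast; linarith
    simp only [Nat.cast_zero, zero_add, one_mul, ← hQ] at h2
    rw [← h2]
    refine Finset.sum_congr rfl fun k _ => ?_
    congr 1
    push_cast; ring
  have h2 : ∫ x in (0 : ℝ)..Q, d0 v x ^ 2 =
      (∫ x in (0 : ℝ)..(η * lam s), d0 v x ^ 2) + ∫ x in (η * lam s)..Q, d0 v x ^ 2 :=
    (intervalIntegral.integral_add_adjacent_intervals (FbPoin_ii i0 le_rfl hl'.le (by linarith))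
      (FbPoin_ii i0 hl'.le hQ0 (by linarith))).symm
  have h3 : ∫ x in (0 : ℝ)..(η * lam s), d0 v x ^ 2 ≤
      η ^ 2 * Real.exp (-s) * ∫ x in Ioo (0 : ℝ) 1, (d0 v x / (x * (1 - x) ^ 2)) ^ 2 := by
    rw [← integral_const_mul, ← lam_sq, ← mul_pow]
    refine FbPoin_le i0 (iA.const_mul _) (fun x => by positivity) le_rfl hl'.le (by linarith) fun x hx => ?_
    have hx' : x ∈ Ioo (0 : ℝ) 1 := ⟨hx.1, by linarith [hx.2]⟩
    exact FbPoin_div (FbPoin_w0 hx').1 ((FbPoin_w0 hx').2.trans hx.2)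
  have h4 : ∫ x in (η * lam s)..Q, d1 v x ^ 2 ≤ ∫ x in Ioo (0 : ℝ) 1, (d1 v x / (1 - x)) ^ 2 := by
    refine FbPoin_le i1 iB (fun x => sq_nonneg _) hl'.le hQ0 (by linarith) fun x hx => ?_
    simpa using FbPoin_div (a := d1 v x) (c := 1 - x) (N := 1) (by linarith [hx.2]) (by linarith [hx.1])
  have h5 : ∫ x in (η * lam s)..Q, d0 v x ^ 2 ≤
      2 * η ^ 2 * Real.exp (-s) * (∫ x in (η * lam s)..Q, d1 v x ^ 2) +
        2 / (η * (∫ t in (0 : ℝ)..1, B t) ^ 2) * ∑ k ∈ Finset.range M, cb (bet B η k) s (S.T.ι u) ^ 2 := by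
    rw [← hsum i0, ← hsum i1, Finset.mul_sum, Finset.mul_sum, ← Finset.sum_add_distrib]
    exact Finset.sum_le_sum fun k hk' => hone k (hk k (Finset.mem_range.1 hk'))
  have h6 : (∫ x in Ioo (0 : ℝ) 1, (d0 v x / (x * (1 - x) ^ 2)) ^ 2) +
      ∫ x in Ioo (0 : ℝ) 1, (d1 v x / (1 - x)) ^ 2 ≤ ‖v‖ ^ 2 := by
    rw [norm_sq_V, ← integral_add iA iB]
    exact integral_mono (iA.add iB) ((iA.add iB).add iC) fun x => le_add_of_nonneg_right (sq_nonneg _)
  have h7 : 0 ≤ ∫ x in Ioo (0 : ℝ) 1, (d0 v x / (x * (1 - x) ^ 2)) ^ 2 := integral_nonneg fun x => sq_nonneg _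
  have h8 : 0 ≤ η ^ 2 * Real.exp (-s) := by positivity
  have h9 := mul_le_mul_of_nonneg_left h4 h8
  have h10 := mul_le_mul_of_nonneg_left h6 h8
  have h11 := mul_nonneg h8 h7
  have e : 8 / (η * (∫ t in (0 : ℝ)..1, B t) ^ 2) = 4 * (2 / (η * (∫ t in (0 : ℝ)..1, B t) ^ 2)) := by ring
  rw [e]
  linarith

end Crest.Agent.R213
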