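import Crest.Agent.R213.FbBas

/-! # R213 / FbProfB : the cut-off error -/

set_option autoImplicit false

open MeasureTheory Set Filter Topology
open scoped ContDiff InnerProductSpace

namespace Crest.Agent.R213

theorem FbProfB_deriv {H : ℝ → ℝ → ℝ}
    (h : ContDiffOn ℝ ∞ (fun p : ℝ × ℝ => H p.1 p.2) (univ ×ˢ Ioi 0)) :
    ContDiffOn ℝ ∞ (fun p : ℝ × ℝ => deriv (H p.1) p.2) (univ ×ˢ Ioi 0) := by
  have hU : IsOpen ((univ : Set ℝ) ×ˢ Ioi (0 : ℝ)) := isOpen_univ.prod isOpen_Ioi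
  refine ((h.fderiv_of_isOpen hU (by simp)).clm_apply
    (contDiffOn_const (c := ((0, 1) : ℝ × ℝ)))).congr fun p hp => ?_
  exact ((((h.contDiffAt (hU.mem_nhds hp)).differentiableAt (by simp)).hasFDerivAt.comp_hasDerivAt p.2
    ((hasDerivAt_const p.2 p.1).prodMk (hasDerivAt_id p.2))).deriv :)

theorem FbProfB_congr {f g : ℝ → ℝ} {y : ℝ} (h : f =ᶠ[𝓝 y] g) :
    deriv (deriv (C0 f)) y = deriv (deriv (C0 g)) y := by
  refine (EventuallyEq.deriv (EventuallyEq.deriv ?_)).eq_of_nhds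
  filter_upwards [h, h.deriv, h.deriv.deriv] with x h0 h1 h2
  simp only [C0, h0, h1, h2]

/-- The cut-off error.  On `y > R0`: `χ(y/R) F y = Σ_k a_k R^k G_k(y/R)`, `G_k t = χ t * t^k`
(`k = 2, 3, -8, -9`); more simply `χ(y/R) F y = R³ G(y/R)` with
`G t = χ t * (a2 R⁻¹ t² + a3 t³ + a8 R⁻¹¹ / t⁸ + a9 R⁻¹² / t⁹)`; `C0_scale`, `deriv_scale` give
`(C0 (χ(·/R) F))''(y) = R⁻¹ (C0 G)''(y/R)`; `G ↦ (C0 G)''(t)` is linear on functions smooth on `(0,∞)` and the four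
`(C0 G_k)''` are continuous on `[1,2]`, hence bounded; the coefficients are bounded for `R ≥ 1`. -/
theorem prof_cut {χ F : ℝ → ℝ} (hχ : ContDiff ℝ ∞ χ) {R0 a2 a3 a8 a9 : ℝ}
    (hF : ∀ y, R0 ≤ y → F y = a2 * y ^ 2 + a3 * y ^ 3 + a8 / y ^ 8 + a9 / y ^ 9) :
    ∃ K : ℝ, 0 < K ∧ ∀ R, 1 ≤ R → R0 < R → ∀ y ∈ Icc R (2 * R),
      |deriv (deriv (C0 fun y => χ (y / R) * F y)) y| ≤ K / R := by
  set G : ℝ → ℝ → ℝ := fun c t => χ t * (a2 * c * t ^ 2 + a3 * t ^ 3 + a8 * c ^ 11 / t ^ 8 +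
    a9 * c ^ 12 / t ^ 9) with hG
  have hne : ∀ n : ℕ, ∀ p ∈ (univ : Set ℝ) ×ˢ Ioi (0 : ℝ), p.2 ^ n ≠ 0 := fun n p hp =>
    (pow_pos hp.2 n).ne'
  have h0 : ContDiffOn ℝ ∞ (fun p : ℝ × ℝ => G p.1 p.2) (univ ×ˢ Ioi 0) :=
    (hχ.comp contDiff_snd).contDiffOn.mul (((ContDiff.contDiffOn (by fun_prop)).add
      (ContDiffOn.div (by fun_prop) (by fun_prop) (hne 8))).add
      (ContDiffOn.div (by fun_prop) (by fun_prop) (hne 9)))
  have h1 : ContDiffOn ℝ ∞ (fun p : ℝ × ℝ => C0 (G p.1) p.2) (univ ×ˢ Ioi 0) :=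
    ((FbProfB_deriv (H := fun c => deriv (G c)) (FbProfB_deriv h0)).add ((contDiffOn_const.mul (FbProfB_deriv h0)).div
      contDiffOn_snd fun p hp => ne_of_gt hp.2)).add
      ((contDiffOn_const.mul h0).div (by fun_prop) (hne 2))
  obtain ⟨K, hK⟩ := ((isCompact_Icc (a := (0 : ℝ)) (b := 1)).prod
    (isCompact_Icc (a := (1 : ℝ)) (b := 2))).exists_bound_of_continuousOn
    ((FbProfB_deriv (H := fun c => deriv (C0 (G c)))
      (FbProfB_deriv (H := fun c => C0 (G c)) h1)).continuousOn.mono fun p hp =>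
      ⟨trivial, lt_of_lt_of_le one_pos hp.2.1⟩)
  refine ⟨|K| + 1, by positivity, fun R hR hR0 y hy => ?_⟩
  have hR' : 0 < R := one_pos.trans_le hR
  have e : (fun y => χ (y / R) * F y) =ᶠ[𝓝 y] fun y => R ^ 3 * G R⁻¹ (y / R) := by
    filter_upwards [Ioi_mem_nhds (hR0.trans_le hy.1), Ioi_mem_nhds (hR'.trans_le hy.1)] with x a1 a2
    have := (mem_Ioi.1 a2).ne'
    rw [hF x (le_of_lt a1), hG]
    field_simp
  have h2 := hK (R⁻¹, y / R) ⟨⟨by positivity, inv_le_one_of_one_le₀ hR⟩,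
    (one_le_div hR').2 hy.1, (div_le_iff₀ hR').2 hy.2⟩
  rw [FbProfB_congr e, C0_scale _ _ hR', deriv_scale, deriv_scale,
    show R ^ 3 / R ^ 2 / R / R = R⁻¹ by field_simp]
  simp only
  rw [abs_mul, abs_of_pos (inv_pos.2 hR'), inv_mul_eq_div]
  exact div_le_div_of_nonneg_right (h2.trans (by linarith [le_abs_self K])) hR'.le

end Crest.Agent.R213
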