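import Crest.Agent.R213.FbProfA
import Crest.Agent.R213.FbProfB

/-! # R213 / FbProf : the profiles `F` -/

set_option autoImplicit false

open MeasureTheory Set Filter Topology
open scoped ContDiff InnerProductSpace

namespace Crest.Agent.R213

/-- `F = χ(y/R) F̃`: equal to `F̃` near every `y < R`, to `0` near every `y > 2R`; `b = 0` on `y ≥ R0`. -/
theorem profile_exists (N : Anc) {b : ℝ → ℝ} {R0 : ℝ} (hb : Bump b R0) (p : Fin 2 → ℝ) :
    ∃ K : ℝ, 0 < K ∧ ∀ R, 2 ≤ R → R0 < R → ∃ F : ℝ → ℝ, ContDiff ℝ ∞ F ∧ F 0 = 0 ∧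
      (∀ y, 2 * R ≤ y → F y = 0) ∧
      (∀ y, 0 < y → |deriv (deriv (C0 F)) y - b y| ≤ if y ∈ Icc R (2 * R) then K / R else 0) ∧
      ∀ j, ∫ y, C0 F y * N.ψ j y = p j := by
  obtain ⟨F, D, hF, hD, hF0, hC, hDD, hp, a2, a3, a8, a9, ht⟩ := prof_uncut N hb p
  obtain ⟨χ, hχ, hχ1, hχ2⟩ := exists_cut
  obtain ⟨K, hK, hcut⟩ := prof_cut hχ ht
  refine ⟨K, hK, fun R hR hR0 => ?_⟩
  have hRp : 0 < R := by linarith
  have hC0 : ∀ {f g : ℝ → ℝ} {y : ℝ}, f =ᶠ[𝓝 y] g → C0 f =ᶠ[𝓝 y] C0 g := by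
    intro f g y h
    filter_upwards [h, h.deriv, h.deriv.deriv] with z e0 e1 e2
    unfold C0
    rw [e0, e1, e2]
  have hlo : ∀ y, 0 < y → y < R → C0 (fun y => χ (y / R) * F y) =ᶠ[𝓝 y] D := by
    intro y h0 h1
    have h2 : (fun y => χ (y / R) * F y) =ᶠ[𝓝 y] F := by
      filter_upwards [Iio_mem_nhds h1] with z hz
      rw [hχ1 _ ((div_le_one hRp).2 (le_of_lt hz)), one_mul]
    filter_upwards [hC0 h2, Ioi_mem_nhds h0] with z e hz
    rw [e, hC z hz]
  refine ⟨fun y => χ (y / R) * F y, (hχ.comp (contDiff_id.div_const R)).mul hF, by simp [hF0],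
    fun y hy => ?_, fun y hy => ?_, fun j => ?_⟩
  · beta_reduce
    rw [hχ2 _ ((le_div_iff₀ hRp).2 hy), zero_mul]
  · have hb0 : R ≤ y → b y = 0 := fun h => hb.supp y fun h' => by linarith [h'.2]
    split_ifs with h
    · rw [hb0 h.1, sub_zero]
      exact hcut R (by linarith) hR0 y h
    · rcases lt_or_ge y R with h1 | h1
      · rw [(hlo y hy h1).deriv.deriv.eq_of_nhds, hDD, sub_self, abs_zero]
      · have h2 : 2 * R < y := not_le.1 fun h' => h ⟨h1, h'⟩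
        have h3 : (fun y => χ (y / R) * F y) =ᶠ[𝓝 y] fun _ => 0 := by
          filter_upwards [Ioi_mem_nhds h2] with z hz
          rw [hχ2 _ ((le_div_iff₀ hRp).2 (le_of_lt hz)), zero_mul]
        have h4 : C0 (fun _ => (0 : ℝ)) = fun _ => 0 := by
          funext z
          simp [C0]
        rw [(hC0 h3).deriv.deriv.eq_of_nhds, h4, hb0 h1]
        simp
  · rw [← hp j]
    refine integral_congr_ae (Eventually.of_forall fun y => ?_)
    by_cases hy : y ∈ Ioo (1 : ℝ) 2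
    · beta_reduce
      rw [(hlo y (by linarith [hy.1]) (by linarith [hy.2])).eq_of_nhds]
    · simp [N.supp j y hy]

end Crest.Agent.R213
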