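import Crest.Agent.R213.FbL1
import Crest.Agent.R213.FbProf
import Crest.Agent.R213.FbF1
import Crest.Agent.R213.FbF
import Crest.Agent.R213.FbPoin
import Crest.Agent.R213.FbDis
import Crest.Agent.R213.FbInt

/-! # R213 / FbMain : assembly of the stabilising feedback -/

set_option autoImplicit false

open MeasureTheory Set Filter Topology
open scoped ContDiff InnerProductSpace

noncomputable section

namespace Crest.Agent.R213

/-- the bumps (zero for the two anchors) -/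
def fbβ (B : ℝ → ℝ) (η : ℝ) : ℕ → ℝ → ℝ
  | 0 => fun _ => 0
  | 1 => fun _ => 0
  | k + 2 => bet B η k

/-- the observation profiles -/
def fbΨ (N : Anc) (B : ℝ → ℝ) (η : ℝ) : ℕ → ℝ → ℝ
  | 0 => N.ψ 0
  | 1 => N.ψ 1
  | k + 2 => deriv (deriv fun y => y ^ 2 * bet B η k y)

/-- the anchor values -/
def fbp (i : ℕ) (j : Fin 2) : ℝ := if i = j then 1 else 0

theorem FbMain_cb_zero (s : ℝ) (h : L2) : cb (fun _ => 0) s h = 0 := by
  simp [cb]

theorem FbMain_young {γ : ℝ} (hγ : 0 < γ) (g c r : ℝ) :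
    2 * ((g - γ * c) * (c + r)) ≤ -(γ * c ^ 2) + (1 + 2 / γ) * g ^ 2 + (1 + 2 * γ) * r ^ 2 := by
  have h1 : 2 * (g * c) ≤ γ / 2 * c ^ 2 + 2 / γ * g ^ 2 := by
    have : γ / 2 * c ^ 2 + 2 / γ * g ^ 2 - 2 * (g * c) = (γ * c - 2 * g) ^ 2 / (2 * γ) := by
      field_simp
      ring
    have h2 : 0 ≤ (γ * c - 2 * g) ^ 2 / (2 * γ) := by positivity
    linarith
  nlinarith [sq_nonneg (g - r), mul_nonneg hγ.le (sq_nonneg (c + 2 * r))]

theorem FbMain_sum (B : ℝ → ℝ) (η : ℝ) (M : ℕ) (a : Fin 2 → ℝ) (s : ℝ) (h : L2) :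
    ∑ i : Fin (M + 2), (∑ j, fbp i j * a j + cb (fbβ B η i) s h) ^ 2 =
      ∑ j, a j ^ 2 + ∑ k ∈ Finset.range M, cb (bet B η k) s h ^ 2 := by
  rw [Fin.sum_univ_eq_sum_range (fun i => (∑ j, fbp i j * a j + cb (fbβ B η i) s h) ^ 2) (M + 2),
    Finset.sum_range_succ', Finset.sum_range_succ']
  simp [fbp, fbβ, FbMain_cb_zero, Fin.sum_univ_two]
  ring

theorem FbMain_small (a : ℝ) {ε : ℝ} (hε : 0 < ε) : ∃ s : ℝ, 4 ≤ s ∧ ∀ t, s ≤ t → lam t * a ≤ ε := by
  have h : Tendsto (fun t => lam t * a) atTop (𝓝 0) := by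
    have h1 : Tendsto lam atTop (𝓝 0) :=
      Real.tendsto_exp_neg_atTop_nhds_zero.comp (tendsto_id.atTop_div_const two_pos)
    simpa using h1.mul_const a
  obtain ⟨s, hs⟩ := eventually_atTop.1 (h.eventually (eventually_le_nhds hε))
  exact ⟨max 4 s, le_max_left _ _, fun t ht => hs t ((le_max_right _ _).trans ht)⟩

theorem fb_main (S : Sp) (A : Apx) (N : Anc) : Nonempty (Fb S A N) := by
  obtain ⟨La, La', hL⟩ := ancL_exists S N
  obtain ⟨c1, C3, hc1, hC3, hdis⟩ := fb_dis S A hL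
  obtain ⟨B, hB, hB0, hB1, hBs, hm⟩ := exists_B
  obtain ⟨η, hη, hη1⟩ : ∃ η : ℝ, 0 < η ∧ C3 * (8 * η ^ 2) ≤ c1 / 2 := by
    refine ⟨min 1 (c1 / (16 * C3)), by positivity, ?_⟩
    have h1 := min_le_left 1 (c1 / (16 * C3))
    have h2 := min_le_right 1 (c1 / (16 * C3))
    have h3 : 0 < min 1 (c1 / (16 * C3)) := by positivity
    rw [le_div_iff₀ (by positivity)] at h2
    nlinarith [mul_le_mul_of_nonneg_left h1 (mul_pos hC3 h3).le]
  obtain ⟨M, hM⟩ : ∃ M : ℕ, C3 / (1 + (M * η) ^ 2) ≤ 1 / 16 := by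
    obtain ⟨M, hM⟩ := exists_nat_ge ((16 * C3 + 1) / η)
    rw [div_le_iff₀ hη] at hM
    refine ⟨M, ?_⟩
    rw [div_le_iff₀ (by positivity)]
    nlinarith
  obtain ⟨R0, hR2, hRη, hRM⟩ : ∃ R0 : ℝ, 2 ≤ R0 ∧ η⁻¹ ≤ R0 ∧ (M + 1) * η ≤ R0 :=
    ⟨max (max 2 η⁻¹) ((M + 1) * η), (le_max_left _ _).trans (le_max_left _ _),
      (le_max_right _ _).trans (le_max_left _ _), le_max_right _ _⟩
  have hR0 : 0 < R0 := by linarith
  have hbet : ∀ k : ℕ, k < M → Bump (bet B η k) R0 := fun k hk => by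
    refine bump_bet hB hBs hη hR0 (inv_le_of_inv_le₀ hη hRη) (le_trans ?_ hRM)
    have : (k : ℝ) + 1 ≤ M := by exact_mod_cast hk
    exact mul_le_mul_of_nonneg_right (by linarith) hη.le
  have hβ : ∀ i : Fin (M + 2), Bump (fbβ B η i) R0 := by
    rintro ⟨_ | _ | k, hk⟩
    · exact bump_zero hR0
    · exact bump_zero hR0
    · exact hbet k (by omega)
  have hbb : ∀ k y, |bet B η k y| ≤ 1 / (1 + y ^ 2) := fun k y => by
    unfold bet
    rw [abs_of_nonneg (div_nonneg (hB0 _) (by positivity))]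
    exact div_le_div_of_nonneg_right (hB1 _) (by positivity)
  have hβb : ∀ (i : ℕ) y, |fbβ B η i y| ≤ 1 / (1 + y ^ 2) := by
    rintro (_ | _ | k) y
    · simp only [fbβ, abs_zero]
      positivity
    · simp only [fbβ, abs_zero]
      positivity
    · exact hbb k y
  have hΨ : ∀ i : Fin (M + 2), Bump (fbΨ N B η i) R0 := by
    rintro ⟨_ | _ | k, hk⟩
    · exact (N.bump 0).mono hR2
    · exact (N.bump 1).mono hR2
    · exact ((hbet k (by omega)).mul_left (p := fun y => y ^ 2) (by fun_prop)).deriv.deriv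
  choose L L' hL1 _ hL2 _ using fun i => L_exists S (hΨ i)
  have hval : ∀ (i : Fin (M + 2)) s, lam s * R0 ≤ 1 / 2 → ∀ h, L i s (S.T.G h) =
      ∑ j, fbp i j * La j s (S.T.G h) + cb (fbβ B η i) s h := by
    rintro ⟨_ | _ | k, hk⟩ s hs h
    · rw [hL1 ⟨0, hk⟩ s]
      simp [fbp, fbβ, fbΨ, FbMain_cb_zero, Fin.sum_univ_two, hL.isL 0 s]
    · rw [hL1 ⟨1, hk⟩ s]
      simp [fbp, fbβ, fbΨ, FbMain_cb_zero, Fin.sum_univ_two, hL.isL 1 s]
    · rw [IsL.bump_eq S (hL1 ⟨k + 2, hk⟩) (hbet k (by omega)) hs h]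
      simp [fbp, fbβ, Fin.sum_univ_two]
  obtain ⟨γ, hγ, hγ1, hγ2⟩ : ∃ γ : ℝ, 0 < γ ∧ C3 + 2 ≤ γ ∧
      C3 * (8 / (η * (∫ t in (0 : ℝ)..1, B t) ^ 2)) ≤ γ := by
    have h1 : 0 < C3 * (8 / (η * (∫ t in (0 : ℝ)..1, B t) ^ 2)) := by positivity
    exact ⟨C3 + 2 + C3 * (8 / (η * (∫ t in (0 : ℝ)..1, B t) ^ 2)), by linarith, by linarith,
      by linarith⟩
  choose K hK hprof using fun i : Fin (M + 2) => profile_exists N
    (((hβ i).mul_left (p := fun y => (1 + y ^ 2) ^ 2) (by fun_prop)).div_pow 2) (fbp i)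
  obtain ⟨R, hR, hRK⟩ : ∃ R : ℝ, R0 < R ∧ (1 + 2 * γ) * ∑ i, 4 * K i ^ 2 / R ≤ 1 / 16 := by
    have h1 : 0 ≤ (1 + 2 * γ) * ∑ i, 4 * K i ^ 2 :=
      mul_nonneg (by linarith) (Finset.sum_nonneg fun i _ => by positivity)
    refine ⟨R0 + 1 + 16 * ((1 + 2 * γ) * ∑ i, 4 * K i ^ 2), by linarith, ?_⟩
    rw [← Finset.sum_div, ← mul_div_assoc, div_le_iff₀ (by linarith)]
    linarith
  have hRp : 0 < R := by linarith
  choose F hF hF0 hFs hFe hFp using fun i => hprof i R (by linarith) hR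
  choose f Kf hKf hfc hf using fun i => f_exists (hF i) (hF0 i) (R := 2 * R) (by linarith) (hFs i)
  obtain ⟨sst, hs4, hsst⟩ := FbMain_small (2 * R + (1 + 2 * γ) * ((M + 2 : ℕ) * (32 * R0 ^ 3)))
    (ε := 1 / 16) (by norm_num)
  have hq : 0 ≤ (1 + 2 * γ) * ((M + 2 : ℕ) * (32 * R0 ^ 3)) := by positivity
  have hs1 : ∀ s, sst ≤ s → lam s * (2 * R) ≤ 1 / 16 := fun s hs =>
    (mul_le_mul_of_nonneg_left (by linarith) (lam_pos' s).le).trans (hsst s hs)
  have hs2 : ∀ s, sst ≤ s → lam s * R0 ≤ 1 / 2 := fun s hs => by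
    have := mul_le_mul_of_nonneg_left (show R0 ≤ 2 * R by linarith) (lam_pos' s).le
    linarith [hs1 s hs]
  have hs3 : ∀ s, sst ≤ s →
      (1 + 2 * γ) * ((M + 2 : ℕ) * (32 * R0 ^ 3)) * Real.exp (-s) ≤ 1 / 16 := fun s hs => by
    have h1 := lam_le_quarter (hs4.trans hs)
    have h2 := lam_pos' s
    have h3 := (mul_le_mul_of_nonneg_left (show (1 + 2 * γ) * ((M + 2 : ℕ) * (32 * R0 ^ 3)) ≤
      2 * R + (1 + 2 * γ) * ((M + 2 : ℕ) * (32 * R0 ^ 3)) by linarith) h2.le).trans (hsst s hs)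
    rw [← lam_sq]
    nlinarith [mul_nonneg h2.le hq]
  obtain ⟨c0, hc0, hc01, hc02⟩ : ∃ c0 : ℝ, 0 < c0 ∧ c0 ≤ c1 / 2 ∧ c0 ≤ 1 / 16 :=
    ⟨min (c1 / 2) (1 / 16), by positivity, min_le_left _ _, min_le_right _ _⟩
  have hC4 : 0 < C3 + (1 + 2 / γ) := by positivity
  have key : ∀ s, sst ≤ s → ∀ (u Fo : VV) (g : Fin (M + 2) → ℝ),
      dE S La La' s u (lin0 S A s u (S.T.ι u) + Fo +
        ∑ i, (g i - γ * L i s (S.T.G (S.T.ι u))) • f i s) + 7 / 4 * N.En s (S.T.ι u) +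
      c0 * (Real.exp (-s) * ‖S.mul (wh s) u‖ ^ 2 + N.En s (S.T.ι u)) ≤
      (C3 + (1 + 2 / γ)) * (Real.exp s * ‖S.mul (wh s) Fo‖ ^ 2 + ∑ i, g i ^ 2) := by
    intro s hs u Fo g
    have h1 := hdis s (hs4.trans hs) u Fo (∑ i, (g i - γ * L i s (S.T.G (S.T.ι u))) • f i s)
    have h2 := fb_inner S hB.continuous hB0 hBs hm hη M (s := s) (by
      have := mul_le_mul_of_nonneg_left hRM (lam_pos' s).le
      linarith [hs2 s hs]) u
    have hE := EH_nonneg s (S.T.ι u)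
    have h3 : ∀ i, (Lam S La s u (f i s) - L i s (S.T.G (S.T.ι u))) ^ 2 ≤
        (4 * K i ^ 2 / R + 32 * R0 ^ 3 * Real.exp (-s)) * EH s (S.T.ι u) := fun i => by
      have := lam_f S hL (hF i) (hβ i) (hβb i) (by linarith) hR.le (hFe i) (hFp i) (hs1 s hs)
        (hf i s (hs1 s hs)).1 u
      rwa [← hval i s (hs2 s hs), one_pow, mul_one] at this
    have h4 : (1 + 2 * γ) * ∑ i, (Lam S La s u (f i s) - L i s (S.T.G (S.T.ι u))) ^ 2 ≤
        1 / 8 * EH s (S.T.ι u) := by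
      refine (mul_le_mul_of_nonneg_left (Finset.sum_le_sum fun i _ => h3 i) (by linarith)).trans ?_
      rw [← Finset.sum_mul, ← mul_assoc, Finset.sum_add_distrib, Finset.sum_const, Finset.card_univ,
        Fintype.card_fin, nsmul_eq_mul]
      refine mul_le_mul_of_nonneg_right ?_ hE
      have := hs3 s hs
      linarith
    have h5 : 2 * Lam S La s u (∑ i, (g i - γ * L i s (S.T.G (S.T.ι u))) • f i s) ≤
        -(γ * ∑ i, L i s (S.T.G (S.T.ι u)) ^ 2) + (1 + 2 / γ) * ∑ i, g i ^ 2 +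
        (1 + 2 * γ) * ∑ i, (Lam S La s u (f i s) - L i s (S.T.G (S.T.ι u))) ^ 2 := by
      rw [Lam_sum]
      simp only [Finset.mul_sum, ← Finset.sum_neg_distrib, ← Finset.sum_add_distrib]
      refine Finset.sum_le_sum fun i _ => ?_
      have := FbMain_young hγ (g i) (L i s (S.T.G (S.T.ι u)))
        (Lam S La s u (f i s) - L i s (S.T.G (S.T.ι u)))
      rwa [add_sub_cancel] at this
    have h6 : ∑ i, L i s (S.T.G (S.T.ι u)) ^ 2 = ∑ j, La j s (S.T.G (S.T.ι u)) ^ 2 +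
        ∑ k ∈ Finset.range M, cb (bet B η k) s (S.T.ι u) ^ 2 := by
      simp only [hval _ s (hs2 s hs)]
      exact FbMain_sum B η M _ s _
    rw [hL.En_eq S]
    rw [h6] at h5
    generalize dE S La La' s u _ = D at h1 ⊢
    generalize Lam S La s u (∑ i, (g i - γ * L i s (S.T.G (S.T.ι u))) • f i s) = Λ at h1 h5
    have p1 : 0 ≤ Real.exp (-s) * ‖S.mul (wh s) u‖ ^ 2 := by positivity
    have p2 : 0 ≤ Real.exp s * ‖S.mul (wh s) Fo‖ ^ 2 := by positivity
    have p3 : 0 ≤ ∑ i, g i ^ 2 := Finset.sum_nonneg fun i _ => sq_nonneg _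
    have p4 : 0 ≤ ∑ j, La j s (S.T.G (S.T.ι u)) ^ 2 := Finset.sum_nonneg fun i _ => sq_nonneg _
    have p5 : 0 ≤ ∑ k ∈ Finset.range M, cb (bet B η k) s (S.T.ι u) ^ 2 :=
      Finset.sum_nonneg fun i _ => sq_nonneg _
    generalize Real.exp (-s) * ‖S.mul (wh s) u‖ ^ 2 = X at *
    generalize Real.exp s * ‖S.mul (wh s) Fo‖ ^ 2 = φ at *
    generalize ∑ i, g i ^ 2 = G at *
    generalize ∑ j, La j s (S.T.G (S.T.ι u)) ^ 2 = a at *
    generalize ∑ k ∈ Finset.range M, cb (bet B η k) s (S.T.ι u) ^ 2 = b at *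
    generalize EH s (S.T.ι u) = E at *
    generalize WH s (S.T.ι u) = W at *
    have q1 := mul_le_mul_of_nonneg_left h2 hC3.le
    have q2 := mul_le_mul_of_nonneg_right hM hE
    have q3 := mul_le_mul_of_nonneg_right hη1 p1
    have q4 := mul_le_mul_of_nonneg_right hγ2 p5
    have q5 := mul_le_mul_of_nonneg_right hγ1 p4
    have q6 := mul_le_mul_of_nonneg_right hc01 p1
    have q7 := mul_le_mul_of_nonneg_right hc02 hE
    have q8 := mul_le_mul_of_nonneg_right hc02 p4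
    have q9 : 0 ≤ (1 + 2 / γ) * φ := by positivity
    have q10 := mul_nonneg hC3.le p3
    have e1 : C3 * (E / (1 + (M * η) ^ 2)) = C3 / (1 + (M * η) ^ 2) * E := by ring
    linarith
  have hKs : 0 ≤ ∑ i, Kf i := Finset.sum_nonneg fun i _ => (hKf i).le
  have hO : 0 ≤ γ ^ 2 * (1 + M * (4 * R0)) := by positivity
  have hQ : 0 < (C3 + (1 + 2 / γ)) / c0 := by positivity
  refine ⟨{ m := M + 2
            γ := γ
            sst := sst
            R := 2 * R
            C := (C3 + (1 + 2 / γ)) / c0 + ∑ i, Kf i + γ ^ 2 * (1 + M * (4 * R0))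
            F := F
            Ψ := fun i => fbΨ N B η i
            f := f
            L := L
            sst_ge := hs4
            R_pos := by linarith
            C_pos := by linarith
            R_small := hs1 sst le_rfl
            smF := hF
            smΨ := fun i => (hΨ i).sm
            F_supp := hFs
            Ψ_supp := fun i => ((hΨ i).mono (by linarith)).supp
            f_cont := hfc
            L_cont := hL2
            f_rep := fun i s hs => (hf i s (hs1 s hs)).1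
            L_eq := hL1
            f_le := fun i s hs => ?_
            obs_le := fun s hs h => ?_
            est := fun μ hμ s0 s1 h0 h01 v Z Fo U g hsol hU hFo hg hZ => ?_ }⟩
  · refine (hf i s (hs1 s hs)).2.trans (mul_le_mul_of_nonneg_right ?_ (Real.exp_pos _).le)
    have := Finset.single_le_sum (f := Kf) (fun i _ => (hKf i).le) (Finset.mem_univ i)
    linarith
  · simp only [mul_pow, ← Finset.mul_sum, hval _ s (hs2 s hs)]
    rw [FbMain_sum, hL.En_eq S]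
    have h1 : ∑ k ∈ Finset.range M, cb (bet B η k) s h ^ 2 ≤ M * (4 * R0 * EH s h) := by
      refine (Finset.sum_le_card_nsmul _ _ (4 * R0 * EH s h) fun k hk => ?_).trans ?_
      · have := cb_sq_le (hbet k (Finset.mem_range.1 hk)) (hbb k) (hs2 s hs) h
        rwa [one_pow, mul_one] at this
      · rw [Finset.card_range, nsmul_eq_mul]
    have hE := EH_nonneg s h
    have p4 : 0 ≤ ∑ j, La j s (S.T.G h) ^ 2 := Finset.sum_nonneg fun i _ => sq_nonneg _
    generalize ∑ j, La j s (S.T.G h) ^ 2 = a at *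
    have h2 : 0 ≤ (M : ℝ) * (4 * R0) * a := by positivity
    calc _ ≤ γ ^ 2 * ((1 + M * (4 * R0)) * (EH s h + a)) :=
          mul_le_mul_of_nonneg_left (by nlinarith) (sq_nonneg _)
      _ = γ ^ 2 * (1 + M * (4 * R0)) * (EH s h + a) := by ring
      _ ≤ _ := mul_le_mul_of_nonneg_right (by linarith) (by linarith)
  · have hi : IntervalIntegrable (fun r => Real.exp r * ‖S.mul (wh r) (Fo r)‖ ^ 2 + ‖g r‖ ^ 2)
        volume s0 s1 := by
      refine ((wh_sq_integrable S h01 hFo).continuousOn_mul Real.continuous_exp.continuousOn).add ?_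
      rw [intervalIntegrable_iff_integrableOn_Ioc_of_le h01]
      exact (memLp_two_iff_integrable_sq_norm hg.1).1 hg
    have h1 := fb_int S hL (c0 := c0) hμ h01 hsol hU (hi.const_mul (C3 + (1 + 2 / γ))) (by
      filter_upwards [hZ, hsol.rep, ae_restrict_mem measurableSet_Ioc] with r e1 e2 e3
      have := key r (h0.trans e3.1.le) (v r) (Fo r) (g r)
      rwa [e2, ← e1, ← EuclideanSpace.real_norm_sq_eq] at this)
    have e : ∫ r in s0..s1, Real.exp (2 * μ * r) * ((C3 + (1 + 2 / γ)) *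
        (Real.exp r * ‖S.mul (wh r) (Fo r)‖ ^ 2 + ‖g r‖ ^ 2)) =
        (C3 + (1 + 2 / γ)) * ∫ r in s0..s1, Real.exp (2 * μ * r) *
          (Real.exp r * ‖S.mul (wh r) (Fo r)‖ ^ 2 + ‖g r‖ ^ 2) := by
      rw [← intervalIntegral.integral_const_mul]
      congr 1
      funext r
      ring
    rw [e] at h1
    have hJ : 0 ≤ ∫ r in s0..s1, Real.exp (2 * μ * r) *
        (Real.exp r * ‖S.mul (wh r) (Fo r)‖ ^ 2 + ‖g r‖ ^ 2) :=
      intervalIntegral.integral_nonneg h01 fun r _ => by positivity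
    have he : 0 ≤ Real.exp (2 * μ * s1) * N.En s1 (U s1) := by
      rw [hL.En_eq S]
      exact mul_nonneg (Real.exp_pos _).le
        (add_nonneg (EH_nonneg _ _) (Finset.sum_nonneg fun i _ => sq_nonneg _))
    refine le_trans ?_ (mul_le_mul_of_nonneg_right
      (show (C3 + (1 + 2 / γ)) / c0 ≤ _ by linarith) hJ)
    rw [div_mul_eq_mul_div, le_div_iff₀ hc0]
    nlinarith

end Crest.Agent.R213

end
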