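import Crest.Agent.R213.FbBas

/-! # R213 / FbProfA : the profiles before the cut-off -/

set_option autoImplicit false

open MeasureTheory Set Filter Topology
open scoped ContDiff InnerProductSpace

namespace Crest.Agent.R213

theorem FbProfA_prim {f : ℝ → ℝ} (hf : ContDiff ℝ ∞ f) {δ : ℝ} (hδ : 0 < δ) (h0 : ∀ y, y ≤ δ → f y = 0) :
    ∃ K : ℝ → ℝ, ContDiff ℝ ∞ K ∧ (∀ y, HasDerivAt K (f y) y) ∧ ∀ y, y ≤ δ → K y = 0 := by
  have h1 : ∀ y, HasDerivAt (fun y => ∫ r in (0 : ℝ)..y, f r) (f y) y := fun y =>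
    (hf.continuous.integral_hasStrictDerivAt 0 y).hasDerivAt
  refine ⟨_, contDiff_infty_iff_deriv.2 ⟨fun y => (h1 y).differentiableAt, ?_⟩, h1, fun y hy => ?_⟩
  · rwa [show deriv (fun y => ∫ r in (0 : ℝ)..y, f r) = f from funext fun y => (h1 y).deriv]
  · rw [intervalIntegral.integral_congr (g := fun _ => 0) fun r hr => h0 r (hr.2.trans (max_le hδ.le hy))]
    simp

theorem FbProfA_tail {K G f g : ℝ → ℝ} (hK : ∀ y, HasDerivAt K (f y) y) (hG : ∀ y, HasDerivAt G (g y) y)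
    {R : ℝ} (h : ∀ y, R ≤ y → f y = g y) : ∃ c, ∀ y, R ≤ y → K y = G y + c := by
  refine ⟨K R - G R, fun y hy => ?_⟩
  have := constant_of_has_deriv_right_zero (f := fun y => K y - G y) (a := R) (b := y)
    (fun x _ => ((hK x).sub (hG x)).continuousAt.continuousWithinAt)
    (fun x hx => (((hK x).sub (hG x)).congr_deriv (sub_eq_zero.2 (h x hx.1))).hasDerivWithinAt)
    y ⟨hy, le_rfl⟩
  linarith

/-- Uncut profile.  `I f y = ∫_0^y f` is smooth with derivative `f`.  `D0 = I (I b)` vanishes on `y ≤ R0⁻¹` and is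
affine on `y ≥ R0`; `D = D0 + α + β y` with `α = p 0 - ∫ D0 ψ_0`, `β = p 1 - ∫ D0 ψ_1` (`m00 … m11`);
`F = I (I (r⁹ D0)) / y⁹ + α y²/110 + β y³/132`; `C0 f = y^{-9}(y⁹ f)''` on `y > 0`.
On `y ≥ R0` a function with `K'' = k0 y⁹ + k1 y¹⁰` is `k0 y¹¹/110 + k1 y¹²/132 +` affine. -/
theorem prof_uncut (N : Anc) {b : ℝ → ℝ} {R0 : ℝ} (hb : Bump b R0) (p : Fin 2 → ℝ) :
    ∃ F D : ℝ → ℝ, ContDiff ℝ ∞ F ∧ ContDiff ℝ ∞ D ∧ F 0 = 0 ∧ (∀ y, 0 < y → C0 F y = D y) ∧
      deriv (deriv D) = b ∧ (∀ j, ∫ y, D y * N.ψ j y = p j) ∧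
      ∃ a2 a3 a8 a9 : ℝ, ∀ y, R0 ≤ y → F y = a2 * y ^ 2 + a3 * y ^ 3 + a8 / y ^ 8 + a9 / y ^ 9 := by
  have hR := hb.pos
  have hδ : 0 < R0⁻¹ := inv_pos.2 hR
  obtain ⟨D1, s1, d1, z1⟩ := FbProfA_prim hb.sm hδ fun y hy => hb.supp y fun h => h.1.not_ge hy
  obtain ⟨D0, s0, d0, z0⟩ := FbProfA_prim s1 hδ z1
  obtain ⟨K1, t1, e1, y1⟩ := FbProfA_prim (f := fun r => r ^ 9 * D0 r) (by fun_prop) hδ
    fun y hy => by simp [z0 y hy]
  obtain ⟨K, t0, e0, y0⟩ := FbProfA_prim t1 hδ y1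
  set α := p 0 - ∫ y, D0 y * N.ψ 0 y with hα
  set β := p 1 - ∫ y, D0 y * N.ψ 1 y with hβ
  have hi : ∀ {q : ℝ → ℝ}, ContDiff ℝ ∞ q → ∀ j, Integrable fun y => q y * N.ψ j y := fun hq j =>
    (hq.continuous.mul (N.sm j).continuous).integrable_of_hasCompactSupport
      (HasCompactSupport.intro (isCompact_Icc (a := 1) (b := 2)) fun y hy => by
        simp [N.supp j y fun h => hy (Ioo_subset_Icc_self h)])
  refine ⟨fun y => K y / y ^ 9 + α * y ^ 2 / 110 + β * y ^ 3 / 132, fun y => D0 y + α + β * y,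
    (ContDiff.add (contDiff_iff_contDiffAt.2 fun y => ?_) (by fun_prop)).add (by fun_prop),
    by fun_prop, by simp, fun y hy => ?_, ?_, fun j => ?_, ?_⟩
  · rcases eq_or_ne y 0 with rfl | hy
    · refine (contDiffAt_const (c := (0 : ℝ))).congr_of_eventuallyEq ?_
      filter_upwards [Iic_mem_nhds hδ] with x hx
      simp [y0 x hx]
    · exact t0.contDiffAt.div (by fun_prop) (pow_ne_zero _ hy)
  · have a1 : ∀ x, x ≠ 0 → HasDerivAt (fun y => K y / y ^ 9 + α * y ^ 2 / 110 + β * y ^ 3 / 132)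
        (K1 x / x ^ 9 - 9 * (K x / x ^ 10) + α * x / 55 + β * x ^ 2 / 44) x := fun x hx => by
      refine (((((e0 x).div (hasDerivAt_pow 9 x) (pow_ne_zero _ hx)).add
        (((hasDerivAt_pow 2 x).const_mul α).div_const 110)).add
        (((hasDerivAt_pow 3 x).const_mul β).div_const 132))).congr_deriv ?_
      field_simp
      ring
    have a2 : deriv (fun y => K y / y ^ 9 + α * y ^ 2 / 110 + β * y ^ 3 / 132) =ᶠ[𝓝 y]
        fun x => K1 x / x ^ 9 - 9 * (K x / x ^ 10) + α * x / 55 + β * x ^ 2 / 44 := by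
      filter_upwards [Ioi_mem_nhds hy] with x hx using (a1 x (ne_of_gt hx)).deriv
    have a3 := (((((e1 y).div (hasDerivAt_pow 9 y) (pow_ne_zero _ hy.ne')).sub
      (((e0 y).div (hasDerivAt_pow 10 y) (pow_ne_zero _ hy.ne')).const_mul 9)).add
      (((hasDerivAt_id y).const_mul α).div_const 55)).add
      (((hasDerivAt_pow 2 y).const_mul β).div_const 44)).deriv
    rw [C0, a2.deriv_eq, a2.eq_of_nhds]
    refine (congrArg (· + _ + _) a3).trans ?_
    have := hy.ne'
    field_simp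
    ring
  · have a1 : deriv (fun y => D0 y + α + β * y) = fun y => D1 y + β := funext fun y =>
      (((d0 y).add_const α).add ((hasDerivAt_id y).const_mul β)).deriv.trans (by rw [mul_one])
    rw [a1]
    exact funext fun y => ((d1 y).add_const β).deriv
  · simp only [add_mul, mul_assoc β]
    have a1 : Integrable fun y => D0 y * N.ψ j y + α * N.ψ j y := (hi s0 j).add (hi contDiff_const j)
    have a2 : Integrable fun y => β * (y * N.ψ j y) := (hi contDiff_id j).const_mul β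
    rw [integral_add a1 a2, integral_add (hi s0 j) (hi contDiff_const j), integral_const_mul,
      integral_const_mul]
    fin_cases j
    · simp [N.m00, N.m01, hα]
    · simp [N.m10, N.m11, hβ]
  · obtain ⟨c1, b1⟩ := FbProfA_tail d1 (fun y => hasDerivAt_const y (0 : ℝ))
      fun y hy => hb.supp y fun h => h.2.not_ge hy
    obtain ⟨c0, b0⟩ := FbProfA_tail d0 (fun y => (hasDerivAt_id y).const_mul c1) (R := R0)
      fun y hy => by simp [b1 y hy]
    obtain ⟨c2, b2⟩ := FbProfA_tail e1 (fun y => (((hasDerivAt_pow 11 y).const_mul c1).div_const 11).add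
      (((hasDerivAt_pow 10 y).const_mul c0).div_const 10)) (R := R0) fun y hy => by
        simp only [b0 y hy, id]
        push_cast
        ring
    obtain ⟨c3, b3⟩ := FbProfA_tail e0 (fun y => ((((hasDerivAt_pow 12 y).const_mul c1).div_const 132).add
      (((hasDerivAt_pow 11 y).const_mul c0).div_const 110)).add ((hasDerivAt_id y).const_mul c2))
      (R := R0) fun y hy => by
        simp only [b2 y hy, Pi.add_apply]
        push_cast
        ring
    refine ⟨(c0 + α) / 110, (c1 + β) / 132, c2, c3, fun y hy => ?_⟩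
    have := (hR.trans_le hy).ne'
    simp only [b3 y hy, Pi.add_apply, id]
    field_simp
    ring

end Crest.Agent.R213
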