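import Crest.Agent.R213.ISp

/-! # R213 / Gar1 : the interpolation inequality -/

set_option autoImplicit false

open MeasureTheory Set Filter Topology
open scoped ContDiff InnerProductSpace

namespace Crest.Agent.R213

/-- the integrand of the norm -/
noncomputable def garN (u : VV) (x : ℝ) : ℝ :=
  (d0 u x / (x * (1 - x) ^ 2)) ^ 2 + (d1 u x / (1 - x)) ^ 2 + (x * d2 u x) ^ 2

theorem garN_int (u : VV) : Integrable (garN u) ν :=
  ((d_memLp u).1.integrable_sq.add (d_memLp u).2.1.integrable_sq).add (d_memLp u).2.2.integrable_sq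

theorem garN_norm (u : VV) : ∫ x in Ioo (0 : ℝ) 1, garN u x = ‖u‖ ^ 2 := (norm_sq_V u).symm

theorem garN_ge (u : VV) {x : ℝ} (hx : x ∈ Ioo (0 : ℝ) 1) :
    (d0 u x / x) ^ 2 + d1 u x ^ 2 + (x * d2 u x) ^ 2 ≤ garN u x := by
  have h0 := hx.1
  have h1 : 0 < 1 - x := by linarith [hx.2]
  have h2 : (1 - x) ^ 2 ≤ 1 := by nlinarith
  have h3 : ((1 - x) ^ 2) ^ 2 ≤ 1 := by nlinarith [sq_nonneg (1 - x)]
  have e0 : (d0 u x / x) ^ 2 = (d0 u x / (x * (1 - x) ^ 2)) ^ 2 * ((1 - x) ^ 2) ^ 2 := by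
    field_simp
  have e1 : d1 u x ^ 2 = (d1 u x / (1 - x)) ^ 2 * (1 - x) ^ 2 := by
    field_simp
  unfold garN
  rw [e0, e1]
  nlinarith [sq_nonneg (d0 u x / (x * (1 - x) ^ 2)), sq_nonneg (d1 u x / (1 - x))]

theorem gar_ae {P : ℝ → Prop} (h : ∀ x ∈ Ioo (0 : ℝ) 1, P x) : ∀ᵐ x ∂ν, P x :=
  (ae_restrict_iff' measurableSet_Ioo).2 (Eventually.of_forall h)

theorem gar_int_of_le {f : ℝ → ℝ} (u : VV) (K : ℝ) (hf : AEStronglyMeasurable f ν)
    (h : ∀ x ∈ Ioo (0 : ℝ) 1, |f x| ≤ K * garN u x) : Integrable f ν :=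
  ((garN_int u).const_mul K).mono' hf (gar_ae h)

theorem gar_frac {x x0 : ℝ} (hx : 0 < x) (hx0 : 0 < x0) : 0 ≤ x / (x + x0) ∧ x / (x + x0) ≤ 1 :=
  ⟨by positivity, (div_le_one (by positivity)).2 (by linarith)⟩

theorem gar_sq_le1 (u : VV) {x0 : ℝ} (hx0 : 0 < x0) {x : ℝ} (hx : x ∈ Ioo (0 : ℝ) 1) :
    (x / (x + x0) * d1 u x) ^ 2 ≤ d1 u x ^ 2 := by
  obtain ⟨h1, h2⟩ := gar_frac hx.1 hx0
  rw [mul_pow]
  have : (x / (x + x0)) ^ 2 ≤ 1 := by nlinarith
  nlinarith [sq_nonneg (d1 u x)]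

theorem gar_sq_le0 (u : VV) {x0 : ℝ} (hx0 : 0 < x0) {x : ℝ} (hx : x ∈ Ioo (0 : ℝ) 1) :
    (d0 u x / (x + x0)) ^ 2 ≤ (d0 u x / x) ^ 2 := by
  obtain ⟨h1, h2⟩ := gar_frac hx.1 hx0
  have h0 := hx.1
  have e : d0 u x / (x + x0) = x / (x + x0) * (d0 u x / x) := by field_simp
  rw [e, mul_pow]
  have : (x / (x + x0)) ^ 2 ≤ 1 := by nlinarith
  nlinarith [sq_nonneg (d0 u x / x)]

theorem gar_int1 (u : VV) {x0 : ℝ} (hx0 : 0 < x0) :
    Integrable (fun x => (x / (x + x0) * d1 u x) ^ 2) ν := by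
  have hm := (d_meas u).2.1.aemeasurable
  refine gar_int_of_le u 1 (AEMeasurable.aestronglyMeasurable (by fun_prop)) fun x hx => ?_
  rw [abs_of_nonneg (sq_nonneg _)]
  have := garN_ge u hx
  have := gar_sq_le1 u hx0 hx
  nlinarith [sq_nonneg (d0 u x / x), sq_nonneg (x * d2 u x)]

theorem gar_int0 (u : VV) {x0 : ℝ} (hx0 : 0 < x0) :
    Integrable (fun x => (d0 u x / (x + x0)) ^ 2) ν := by
  have hm := (d_meas u).1.aemeasurable
  refine gar_int_of_le u 1 (AEMeasurable.aestronglyMeasurable (by fun_prop)) fun x hx => ?_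
  rw [abs_of_nonneg (sq_nonneg _)]
  have := garN_ge u hx
  have := gar_sq_le0 u hx0 hx
  nlinarith [sq_nonneg (d1 u x), sq_nonneg (x * d2 u x)]

/-- weighted squares are continuous on `L²`. -/
theorem gar_cont {w : ℝ → ℝ} (hw : Measurable w) (hb : ∀ x ∈ Ioo (0 : ℝ) 1, |w x| ≤ 1) (j : Fin 3) :
    Continuous fun u : VV => ∫ x in Ioo (0 : ℝ) 1, (w x * u.e j x) ^ 2 := by
  have hW : MemLp w ⊤ ν := memLp_top_of_bound hw.aestronglyMeasurable 1 (gar_ae hb)
  let T : L2 →L[ℝ] L2 := (ContinuousLinearMap.mul ℝ ℝ).holderL ν ⊤ 2 2 hW.toLp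
  have hT : ∀ h : L2, ∫ x in Ioo (0 : ℝ) 1, (w x * h x) ^ 2 = ‖T h‖ ^ 2 := by
    intro h
    rw [norm_sq_H]
    refine integral_congr_ae ?_
    have h1 := (ContinuousLinearMap.mul ℝ ℝ).coeFn_holder (r := 2) hW.toLp h
    filter_upwards [h1, hW.coeFn_toLp] with x hx1 hx2
    have : T h x = w x * h x := by
      rw [← hx2]
      exact hx1
    rw [this]
  simp_rw [hT]
  have hc : Continuous fun u : VV => u.e j :=
    (PiLp.continuous_apply 2 (fun _ : Fin 3 => L2) j).comp VV.eL.continuous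
  exact ((T.continuous.comp hc).norm).pow 2

theorem gar_test {δ x0 : ℝ} (hδ : 0 < δ) (hx0 : 0 < x0) {f : ℝ → ℝ} (hf : Test f) :
    ∫ x in Ioo (0 : ℝ) 1, (x / (x + x0) * deriv f x) ^ 2 ≤
      δ * (∫ x in Ioo (0 : ℝ) 1, (x * deriv (deriv f) x) ^ 2) +
        (1 / δ + 4) * ∫ x in Ioo (0 : ℝ) 1, (f x / (x + x0)) ^ 2 := by
  obtain ⟨hs, η, hη, hz⟩ := hf
  have hs1 : ContDiff ℝ 1 (deriv f) := (contDiff_succ_iff_deriv.1 (show ContDiff ℝ (1 + 1) f from hs)).2.2
  have c0 := hs.continuous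
  have c1 := hs1.continuous
  have c2 : Continuous (deriv (deriv f)) := hs1.continuous_deriv le_rfl
  have df : Differentiable ℝ f := hs.differentiable (by norm_num)
  have df1 : Differentiable ℝ (deriv f) := hs1.differentiable (by norm_num)
  set F' : ℝ → ℝ := fun x => 2 * (x / (x + x0)) * (x0 / (x + x0) ^ 2) * (f x * deriv f x) +
    (x / (x + x0)) ^ 2 * (deriv f x * deriv f x + f x * deriv (deriv f) x) with hF'
  have hne : ∀ x ∈ Icc (0 : ℝ) 1, x + x0 ≠ 0 := fun x hx => by linarith [hx.1]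
  have hne2 : ∀ x ∈ Icc (0 : ℝ) 1, (x + x0) ^ 2 ≠ 0 := fun x hx => pow_ne_zero 2 (hne x hx)
  have io : ∀ {g : ℝ → ℝ}, ContinuousOn g (Icc 0 1) → Integrable g ν := fun hg =>
    (hg.integrableOn_Icc).mono_set Ioo_subset_Icc_self
  have cF : ContinuousOn F' (Icc 0 1) := by
    simp only [hF']
    fun_prop (disch := assumption)
  have hF : ∫ x in Ioo (0 : ℝ) 1, F' x = 0 := by
    rw [← integral_Ioc_eq_integral_Ioo, ← intervalIntegral.integral_of_le zero_le_one,
      intervalIntegral.integral_eq_sub_of_hasDerivAt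
        (f := fun x => (x / (x + x0)) ^ 2 * (f x * deriv f x)) (fun x hx => ?_)
        (ContinuousOn.intervalIntegrable (by rwa [uIcc_of_le zero_le_one]))]
    · have z1 : f 1 = 0 := hz 1 fun h => by linarith [h.2]
      simp [z1]
    · rw [uIcc_of_le zero_le_one] at hx
      have k1 : HasDerivAt (fun x => x / (x + x0)) (x0 / (x + x0) ^ 2) x := by
        have := (hasDerivAt_id x).fun_div ((hasDerivAt_id x).add_const x0) (hne x hx)
        refine this.congr_deriv ?_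
        simp
      have := (k1.fun_pow 2).fun_mul ((df x).hasDerivAt.fun_mul (df1 x).hasDerivAt)
      refine this.congr_deriv ?_
      simp [hF']
  have i1 : Integrable (fun x => (x / (x + x0) * deriv f x) ^ 2) ν :=
    io (by fun_prop (disch := assumption))
  have i2 : Integrable (fun x => (x * deriv (deriv f) x) ^ 2) ν := io (by fun_prop)
  have i0 : Integrable (fun x => (f x / (x + x0)) ^ 2) ν := io (by fun_prop (disch := assumption))
  have key : ∫ x in Ioo (0 : ℝ) 1, (x / (x + x0) * deriv f x) ^ 2 ≤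
      ∫ x in Ioo (0 : ℝ) 1, (2 * F' x + (δ * (x * deriv (deriv f) x) ^ 2 +
        (1 / δ + 4) * (f x / (x + x0)) ^ 2)) := by
    refine integral_mono_ae i1 (((io cF).const_mul 2).add ((i2.const_mul δ).add (i0.const_mul _)))
      (gar_ae fun x hx => ?_)
    have h0 := hx.1
    obtain ⟨k0, k1⟩ := gar_frac h0 hx0
    have k2 : x0 / (x + x0) = 1 - x / (x + x0) := by field_simp; ring
    have e : F' x = 2 * (1 - x / (x + x0)) * (x / (x + x0) * deriv f x) * (f x / (x + x0)) +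
        (x / (x + x0) * deriv f x) ^ 2 +
        x / (x + x0) * (x * deriv (deriv f) x) * (f x / (x + x0)) := by
      rw [← k2]
      simp only [hF']
      field_simp
      ring
    simp only [e]
    set κ := x / (x + x0)
    set A := κ * deriv f x
    set B := f x / (x + x0)
    set D := x * deriv (deriv f) x
    have t1 : 0 ≤ A ^ 2 + 4 * (1 - κ) * A * B + 4 * B ^ 2 := by
      have : ((1 - κ) * B) ^ 2 ≤ B ^ 2 := by
        rw [mul_pow]
        have : (1 - κ) ^ 2 ≤ 1 := by nlinarith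
        nlinarith [sq_nonneg B]
      nlinarith [sq_nonneg (A + 2 * (1 - κ) * B)]
    have t2 : 0 ≤ δ * D ^ 2 + 2 * κ * D * B + 1 / δ * B ^ 2 := by
      have h3 : (κ * B) ^ 2 ≤ B ^ 2 := by
        rw [mul_pow]
        have : κ ^ 2 ≤ 1 := by nlinarith
        nlinarith [sq_nonneg B]
      have h4 : δ * D ^ 2 + 2 * κ * D * B + 1 / δ * (κ * B) ^ 2 = (δ * D + κ * B) ^ 2 / δ := by
        field_simp
        ring
      have h5 : 0 ≤ (δ * D + κ * B) ^ 2 / δ := by positivity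
      have h6 : 1 / δ * (κ * B) ^ 2 ≤ 1 / δ * B ^ 2 := mul_le_mul_of_nonneg_left h3 (by positivity)
      linarith
    nlinarith
  have i3 : Integrable (fun x => δ * (x * deriv (deriv f) x) ^ 2 +
      (1 / δ + 4) * (f x / (x + x0)) ^ 2) ν := (i2.const_mul δ).add (i0.const_mul _)
  rw [integral_add ((io cF).const_mul 2) i3,
    integral_add (i2.const_mul δ) (i0.const_mul _), integral_const_mul, integral_const_mul,
    integral_const_mul, hF] at key
  linarith

theorem gar_interp (δ : ℝ) (hδ : 0 < δ) : ∃ C : ℝ, 0 < C ∧ ∀ x0, 0 < x0 → ∀ u : VV,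
    ∫ x in Ioo (0 : ℝ) 1, (x / (x + x0) * d1 u x) ^ 2 ≤
      δ * ‖u‖ ^ 2 + C * ∫ x in Ioo (0 : ℝ) 1, (d0 u x / (x + x0)) ^ 2 := by
  refine ⟨1 / δ + 4, by positivity, fun x0 hx0 => V_ind ?_ fun u f hf hu => ?_⟩
  · have c1 : Continuous fun u : VV => ∫ x in Ioo (0 : ℝ) 1, (x / (x + x0) * d1 u x) ^ 2 := by
      have := gar_cont (w := fun x => x / (x + x0) * (1 - x)) (by fun_prop) (fun x hx => by
        obtain ⟨k0, k1⟩ := gar_frac hx.1 hx0
        rw [abs_of_nonneg (mul_nonneg k0 (by linarith [hx.2]))]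
        nlinarith [hx.1, hx.2]) 1
      simpa only [d1, mul_assoc] using this
    have c0 : Continuous fun u : VV => ∫ x in Ioo (0 : ℝ) 1, (d0 u x / (x + x0)) ^ 2 := by
      have := gar_cont (w := fun x => x / (x + x0) * (1 - x) ^ 2) (by fun_prop) (fun x hx => by
        obtain ⟨k0, k1⟩ := gar_frac hx.1 hx0
        have : (1 - x) ^ 2 ≤ 1 := by nlinarith [hx.1, hx.2]
        rw [abs_of_nonneg (mul_nonneg k0 (sq_nonneg _))]
        nlinarith [sq_nonneg (1 - x)]) 0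
      refine this.congr fun u => ?_
      congr 1
      funext x
      unfold d0
      ring
    exact isClosed_le c1 (by fun_prop)
  · obtain ⟨e0, e1, e2⟩ := hu.d
    have a1 : ∫ x in Ioo (0 : ℝ) 1, (x / (x + x0) * d1 u x) ^ 2
        = ∫ x in Ioo (0 : ℝ) 1, (x / (x + x0) * deriv f x) ^ 2 :=
      integral_congr_ae (e1.mono fun x hx => by simp only [hx])
    have a0 : ∫ x in Ioo (0 : ℝ) 1, (d0 u x / (x + x0)) ^ 2
        = ∫ x in Ioo (0 : ℝ) 1, (f x / (x + x0)) ^ 2 :=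
      integral_congr_ae (e0.mono fun x hx => by simp only [hx])
    have a2 : ∫ x in Ioo (0 : ℝ) 1, (x * deriv (deriv f) x) ^ 2 ≤ ‖u‖ ^ 2 := by
      rw [← garN_norm]
      refine integral_mono_of_nonneg (Eventually.of_forall fun x => sq_nonneg _) (garN_int u) ?_
      filter_upwards [e2] with x hx
      rw [← hx]
      unfold garN
      nlinarith [sq_nonneg (d0 u x / (x * (1 - x) ^ 2)), sq_nonneg (d1 u x / (1 - x))]
    rw [a1, a0]
    have := gar_test hδ hx0 hf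
    nlinarith

end Crest.Agent.R213
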