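import Crest.Agent.R213.Gar1

/-! # R213 / Gar2 : the weighted Gårding inequality -/

set_option autoImplicit false

open MeasureTheory Set Filter Topology
open scoped ContDiff InnerProductSpace

namespace Crest.Agent.R213

theorem gar_diff {θ : ℝ → ℝ} (hs : ContDiffOn ℝ 2 θ (Ioo 0 1)) {x : ℝ} (hx : x ∈ Ioo (0 : ℝ) 1) :
    HasDerivAt θ (deriv θ x) x ∧ HasDerivAt (deriv θ) (deriv (deriv θ) x) x := by
  have h1 : ContDiffOn ℝ 1 (deriv θ) (Ioo 0 1) := hs.deriv_of_isOpen isOpen_Ioo (by norm_num)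
  exact ⟨((hs.contDiffAt (isOpen_Ioo.mem_nhds hx)).differentiableAt (by norm_num)).hasDerivAt,
    ((h1.contDiffAt (isOpen_Ioo.mem_nhds hx)).differentiableAt (by norm_num)).hasDerivAt⟩

theorem gar_deriv_inv {θ : ℝ → ℝ} (hs : ContDiffOn ℝ 2 θ (Ioo 0 1))
    (hp : ∀ x ∈ Ioo (0 : ℝ) 1, 0 < θ x) {x : ℝ} (hx : x ∈ Ioo (0 : ℝ) 1) :
    deriv (fun x => 1 / θ x) x = -deriv θ x / θ x ^ 2 ∧
    deriv (deriv (fun x => 1 / θ x)) x
      = -deriv (deriv θ) x / θ x ^ 2 + 2 * deriv θ x ^ 2 / θ x ^ 3 := by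
  have h1 : ∀ y ∈ Ioo (0 : ℝ) 1, deriv (fun x => 1 / θ x) y = -deriv θ y / θ y ^ 2 := by
    intro y hy
    have := ((hasDerivAt_const y (1 : ℝ)).fun_div (gar_diff hs hy).1 (hp y hy).ne').deriv
    rw [this]
    simp
  refine ⟨h1 x hx, ?_⟩
  have h2 : deriv (fun x => 1 / θ x) =ᶠ[𝓝 x] fun y => -deriv θ y / θ y ^ 2 := by
    filter_upwards [isOpen_Ioo.mem_nhds hx] with y hy using h1 y hy
  rw [h2.deriv_eq]
  have h0 := hp x hx
  have := ((gar_diff hs hx).2.fun_neg.fun_div ((gar_diff hs hx).1.fun_pow 2)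
    (pow_ne_zero 2 h0.ne')).deriv
  rw [this]
  field_simp
  ring

/-- `P u` -/
noncomputable def garP (u : VV) (x : ℝ) : ℝ := x * d2 u x + 18 * d1 u x + 72 * d0 u x / x
/-- `Q u` -/
noncomputable def garQ (u : VV) (x : ℝ) : ℝ := x * d2 u x + 4 * d1 u x + 2 * d0 u x / x
/-- `W u` -/
noncomputable def garW (u : VV) (x : ℝ) : ℝ := |d0 u x / x| + |d1 u x| + |x * d2 u x|

theorem garW_nonneg (u : VV) (x : ℝ) : 0 ≤ garW u x := by
  unfold garW
  positivity

theorem garW_sq (u : VV) {x : ℝ} (hx : x ∈ Ioo (0 : ℝ) 1) : garW u x ^ 2 ≤ 3 * garN u x := by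
  have h := garN_ge u hx
  rw [← sq_abs (d0 u x / x), ← sq_abs (d1 u x), ← sq_abs (x * d2 u x)] at h
  unfold garW
  nlinarith [sq_nonneg (|d0 u x / x| - |d1 u x|), sq_nonneg (|d0 u x / x| - |x * d2 u x|),
    sq_nonneg (|d1 u x| - |x * d2 u x|)]

theorem gar_lin (a b A B D : ℝ) (ha : 0 ≤ a) (ha' : a ≤ 72) (hb : 0 ≤ b) (hb' : b ≤ 72) :
    |D + a * B + b * A| ≤ 72 * (|A| + |B| + |D|) := by
  have h1 := abs_add_le (D + a * B) (b * A)
  have h2 := abs_add_le D (a * B)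
  rw [abs_mul, abs_of_nonneg hb] at h1
  rw [abs_mul, abs_of_nonneg ha] at h2
  nlinarith [abs_nonneg A, abs_nonneg B, abs_nonneg D]

theorem garP_le (u : VV) (x : ℝ) : |garP u x| ≤ 72 * garW u x := by
  unfold garP garW
  rw [mul_div_assoc]
  exact gar_lin 18 72 _ _ _ (by norm_num) (by norm_num) (by norm_num) (by norm_num)

theorem garQ_le (u : VV) (x : ℝ) : |garQ u x| ≤ 72 * garW u x := by
  unfold garQ garW
  rw [mul_div_assoc]
  exact gar_lin 4 2 _ _ _ (by norm_num) (by norm_num) (by norm_num) (by norm_num)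

theorem garPQ_int (p u : VV) : Integrable (fun x => garP p x * garQ u x) ν := by
  have m0 := (d_meas p).1.aemeasurable
  have m1 := (d_meas p).2.1.aemeasurable
  have m2 := (d_meas p).2.2.aemeasurable
  have n0 := (d_meas u).1.aemeasurable
  have n1 := (d_meas u).2.1.aemeasurable
  have n2 := (d_meas u).2.2.aemeasurable
  refine (((garN_int p).add (garN_int u)).const_mul (72 ^ 2 * 3)).mono'
    (AEMeasurable.aestronglyMeasurable (by unfold garP garQ; fun_prop)) (gar_ae fun x hx => ?_)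
  rw [Real.norm_eq_abs, abs_mul]
  have h1 := mul_le_mul (garP_le p x) (garQ_le u x) (abs_nonneg _)
    (mul_nonneg (by norm_num) (garW_nonneg p x))
  have h2 := garW_sq p hx
  have h3 := garW_sq u hx
  simp only [Pi.add_apply]
  nlinarith [sq_nonneg (garW p x - garW u x), sq_nonneg (garW p x), sq_nonneg (garW u x)]

/-- the lower order part -/
noncomputable def garE (x0 : ℝ) (u : VV) (x : ℝ) : ℝ :=
  |x / (x + x0) * d1 u x| + |d0 u x / (x + x0)|

theorem garE_le {x0 : ℝ} (hx0 : 0 < x0) (u : VV) {x : ℝ} (hx : x ∈ Ioo (0 : ℝ) 1) :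
    garE x0 u x ≤ garW u x := by
  have h1 := sq_le_sq.1 (gar_sq_le1 u hx0 hx)
  have h0 := sq_le_sq.1 (gar_sq_le0 u hx0 hx)
  unfold garE garW
  linarith [abs_nonneg (x * d2 u x)]

theorem gar_rem {x x0 L a1 a0 : ℝ} (hx0 : 0 < x0) (u : VV) (hx : x ∈ Ioo (0 : ℝ) 1)
    (h1 : |a1| ≤ L * (x / (x + x0))) (h0 : |a0| ≤ L * (x / (x + x0))) :
    |a1 * d1 u x + a0 * (d0 u x / x)| ≤ L * garE x0 u x := by
  have hx' := hx.1
  obtain ⟨k0, -⟩ := gar_frac hx' hx0
  have e : d0 u x / (x + x0) = x / (x + x0) * (d0 u x / x) := by field_simp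
  unfold garE
  rw [e, abs_mul, abs_mul, abs_of_nonneg k0]
  refine le_trans (abs_add_le _ _) ?_
  rw [abs_mul, abs_mul]
  nlinarith [mul_le_mul_of_nonneg_right h1 (abs_nonneg (d1 u x)),
    mul_le_mul_of_nonneg_right h0 (abs_nonneg (d0 u x / x))]

/-- the conjugated form, pointwise -/
theorem gar_conj (S : Sp) {L x0 : ℝ} {θ : ℝ → ℝ} {N N' : ℝ} (hx0 : 0 < x0) (hθ : Mult θ N)
    (hθ' : Mult (fun x => 1 / θ x) N') (hb : ∀ x ∈ Ioo (0 : ℝ) 1, 0 < θ x ∧
      |x * deriv θ x| ≤ L * (x / (x + x0)) * θ x ∧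
      |x ^ 2 * deriv (deriv θ) x| ≤ L * (x / (x + x0)) * θ x) (p u : VV) :
    ∀ᵐ x ∂ν, x ∈ Ioo (0 : ℝ) 1 ∧ ∃ R1 R2 : ℝ, |R1| ≤ (2 * L ^ 2 + 19 * |L|) * garE x0 p x ∧
      |R2| ≤ (2 * L ^ 2 + 19 * |L|) * garE x0 u x ∧
      garP (S.mul (fun x => 1 / θ x) p) x * garQ (S.mul θ u) x
        = (garP p x + R1) * (garQ u x + R2) := by
  obtain ⟨a0, a1, a2⟩ := S.mul_eq _ _ hθ' p
  obtain ⟨b0, b1, b2⟩ := S.mul_eq _ _ hθ u
  filter_upwards [a0, a1, a2, b0, b1, b2, ae_restrict_mem measurableSet_Ioo]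
    with x a0 a1 a2 b0 b1 b2 hx
  obtain ⟨hp, h1, h2⟩ := hb x hx
  obtain ⟨i1, i2⟩ := gar_deriv_inv hθ.sm (fun y hy => (hb y hy).1) hx
  have hx' := hx.1
  obtain ⟨k0, k1⟩ := gar_frac hx' hx0
  set κ := x / (x + x0) with hκ
  set l1 := x * deriv θ x / θ x with hl1
  set l2 := x ^ 2 * deriv (deriv θ) x / θ x with hl2
  have hL : L * κ ≤ |L| * κ := mul_le_mul_of_nonneg_right (le_abs_self L) k0
  have g1 : |l1| ≤ |L| * κ := by
    rw [hl1, abs_div, abs_of_pos hp, div_le_iff₀ hp]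
    exact le_trans h1 (mul_le_mul_of_nonneg_right hL hp.le)
  have g2 : |l2| ≤ |L| * κ := by
    rw [hl2, abs_div, abs_of_pos hp, div_le_iff₀ hp]
    exact le_trans h2 (mul_le_mul_of_nonneg_right hL hp.le)
  have g3 : l1 ^ 2 ≤ L ^ 2 * κ := by
    have := pow_le_pow_left₀ (abs_nonneg l1) g1 2
    rw [sq_abs, mul_pow, sq_abs] at this
    nlinarith [mul_le_mul_of_nonneg_left (show κ ^ 2 ≤ κ by nlinarith) (sq_nonneg L)]
  have hLκ : 0 ≤ |L| * κ := by positivity
  have hL2 : 0 ≤ L ^ 2 * κ := by positivity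
  have q1 := abs_le.1 g1
  have q2 := abs_le.1 g2
  have eM : (2 * L ^ 2 + 19 * |L|) * κ = 2 * (L ^ 2 * κ) + 19 * (|L| * κ) := by ring
  refine ⟨hx, -2 * l1 * d1 p x + (2 * l1 ^ 2 - l2 - 18 * l1) * (d0 p x / x),
    2 * l1 * d1 u x + (l2 + 4 * l1) * (d0 u x / x), gar_rem hx0 p hx ?_ ?_, gar_rem hx0 u hx ?_ ?_, ?_⟩
  · rw [← hκ, eM, abs_le]; constructor <;> linarith [q1.1, q1.2]
  · rw [← hκ, eM, abs_le]; constructor <;> linarith [q1.1, q1.2, q2.1, q2.2, sq_nonneg l1]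
  · rw [← hκ, eM, abs_le]; constructor <;> linarith [q1.1, q1.2]
  · rw [← hκ, eM, abs_le]; constructor <;> linarith [q1.1, q1.2, q2.1, q2.2]
  · have eP : garP (S.mul (fun x => 1 / θ x) p) x = (garP p x +
        (-2 * l1 * d1 p x + (2 * l1 ^ 2 - l2 - 18 * l1) * (d0 p x / x))) / θ x := by
      unfold garP
      rw [a0, a1, a2, i1, i2, hl1, hl2]
      field_simp
      ring
    have eQ : garQ (S.mul θ u) x = (garQ u x +
        (2 * l1 * d1 u x + (l2 + 4 * l1) * (d0 u x / x))) * θ x := by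
      unfold garQ
      rw [b0, b1, b2, hl1, hl2]
      field_simp
      ring
    rw [eP, eQ]
    field_simp

theorem gar_garding (S : Sp) (L : ℝ) : ∃ c C : ℝ, 0 < c ∧ 0 < C ∧ ∀ (x0 : ℝ) (θ : ℝ → ℝ) (N N' : ℝ),
    0 < x0 → Mult θ N → Mult (fun x => 1 / θ x) N' → (∀ x ∈ Ioo (0 : ℝ) 1, 0 < θ x ∧
      |x * deriv θ x| ≤ L * (x / (x + x0)) * θ x ∧
      |x ^ 2 * deriv (deriv θ) x| ≤ L * (x / (x + x0)) * θ x) →
    (∀ u, c * ‖u‖ ^ 2 - C * ∫ x in Ioo (0 : ℝ) 1, (d0 u x / (x + x0)) ^ 2 ≤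
      S.T.a (S.mul (fun x => 1 / θ x) u) (S.mul θ u)) ∧
    ∀ p u, |S.T.a (S.mul (fun x => 1 / θ x) p) (S.mul θ u)| ≤ C * ‖p‖ * ‖u‖ := by
  obtain ⟨c0, hc0, hco⟩ := S.T.coer
  set M : ℝ := 2 * L ^ 2 + 19 * |L| with hM
  have hM0 : 0 ≤ M := by positivity
  set ε : ℝ := c0 / 12 with hε
  have hε0 : 0 < ε := by positivity
  set K : ℝ := 2 * ((72 * M) ^ 2 / ε + M ^ 2) + 1 with hK
  have hK0 : 0 < K := by positivity
  obtain ⟨CI, hCI, hI⟩ := gar_interp (c0 / 4 / K) (by positivity)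
  refine ⟨c0 / 2, K * (CI + 1) + 3 * (72 + M) ^ 2, by positivity, by positivity, ?_⟩
  intro x0 θ N N' hx0 hθ hθ' hb
  have aeq : ∀ p u : VV, S.T.a p u = ∫ x in Ioo (0 : ℝ) 1, garP p x * garQ u x := S.a_eq
  constructor
  · intro u
    have i1 := gar_int1 u hx0
    have i0 := gar_int0 u hx0
    have i2 : Integrable (fun x => (x / (x + x0) * d1 u x) ^ 2 + (d0 u x / (x + x0)) ^ 2) ν :=
      i1.add i0
    have i3 : Integrable (fun x => 3 * ε * garN u x +
        K * ((x / (x + x0) * d1 u x) ^ 2 + (d0 u x / (x + x0)) ^ 2)) ν :=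
      ((garN_int u).const_mul _).add (i2.const_mul _)
    have key : ∫ x in Ioo (0 : ℝ) 1, (garP u x * garQ u x - (3 * ε * garN u x +
        K * ((x / (x + x0) * d1 u x) ^ 2 + (d0 u x / (x + x0)) ^ 2)))
        ≤ S.T.a (S.mul (fun x => 1 / θ x) u) (S.mul θ u) := by
      rw [aeq]
      refine integral_mono_ae ((garPQ_int u u).sub i3) (garPQ_int _ _) ?_
      filter_upwards [gar_conj S hx0 hθ hθ' hb u u] with x ⟨hx, R1, R2, h1, h2, e⟩
      rw [e]
      set E := garE x0 u x with hE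
      set W := garW u x with hW
      have hE0 : 0 ≤ E := by rw [hE]; unfold garE; positivity
      have hW0 : 0 ≤ W := garW_nonneg u x
      have t1 : |garP u x * R2| ≤ 72 * W * (M * E) := by
        rw [abs_mul]
        exact mul_le_mul (garP_le u x) h2 (abs_nonneg _) (by positivity)
      have t2 : |R1 * garQ u x| ≤ M * E * (72 * W) := by
        rw [abs_mul]
        exact mul_le_mul h1 (garQ_le u x) (abs_nonneg _) (by positivity)
      have t3 : |R1 * R2| ≤ M * E * (M * E) := by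
        rw [abs_mul]
        exact mul_le_mul h1 h2 (abs_nonneg _) (by positivity)
      have t4 : 2 * W * (72 * M * E) ≤ ε * W ^ 2 + (72 * M) ^ 2 / ε * E ^ 2 := by
        have : ε * W ^ 2 + (72 * M) ^ 2 / ε * E ^ 2 - 2 * W * (72 * M * E)
            = (ε * W - 72 * M * E) ^ 2 / ε := by
          field_simp
          ring
        have h' : 0 ≤ (ε * W - 72 * M * E) ^ 2 / ε := by positivity
        linarith
      have t5 : E ^ 2 ≤ 2 * ((x / (x + x0) * d1 u x) ^ 2 + (d0 u x / (x + x0)) ^ 2) := by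
        rw [← sq_abs (x / (x + x0) * d1 u x), ← sq_abs (d0 u x / (x + x0)), hE]
        unfold garE
        nlinarith [sq_nonneg (|x / (x + x0) * d1 u x| - |d0 u x / (x + x0)|)]
      have t6 : ε * W ^ 2 ≤ 3 * ε * garN u x := by
        have := mul_le_mul_of_nonneg_left (garW_sq u hx) hε0.le
        linarith
      have t7 : ((72 * M) ^ 2 / ε + M ^ 2) * E ^ 2 ≤
          K * ((x / (x + x0) * d1 u x) ^ 2 + (d0 u x / (x + x0)) ^ 2) := by
        have h3 := mul_le_mul_of_nonneg_left t5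
          (show 0 ≤ (72 * M) ^ 2 / ε + M ^ 2 by positivity)
        have h4 : 0 ≤ (x / (x + x0) * d1 u x) ^ 2 + (d0 u x / (x + x0)) ^ 2 := by positivity
        rw [hK]
        linarith
      have s1 := neg_abs_le (garP u x * R2)
      have s2 := neg_abs_le (R1 * garQ u x)
      have s3 := neg_abs_le (R1 * R2)
      show garP u x * garQ u x - (3 * ε * garN u x +
        K * ((x / (x + x0) * d1 u x) ^ 2 + (d0 u x / (x + x0)) ^ 2)) ≤ _
      linarith
    rw [integral_sub (garPQ_int u u) i3, integral_add ((garN_int u).const_mul _) (i2.const_mul _),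
      integral_const_mul, integral_const_mul, integral_add i1 i0, garN_norm, ← aeq] at key
    have h1 := hco u
    have h2 := mul_le_mul_of_nonneg_left (hI x0 hx0 u) hK0.le
    have h3 : 0 ≤ ∫ x in Ioo (0 : ℝ) 1, (d0 u x / (x + x0)) ^ 2 :=
      integral_nonneg fun x => sq_nonneg _
    have h4 : K * (c0 / 4 / K * ‖u‖ ^ 2 + CI * ∫ x in Ioo (0 : ℝ) 1, (d0 u x / (x + x0)) ^ 2)
        = c0 / 4 * ‖u‖ ^ 2 + K * CI * ∫ x in Ioo (0 : ℝ) 1, (d0 u x / (x + x0)) ^ 2 := by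
      field_simp
    have h5 : 0 ≤ 3 * (72 + M) ^ 2 * ∫ x in Ioo (0 : ℝ) 1, (d0 u x / (x + x0)) ^ 2 := by positivity
    rw [hε] at key
    nlinarith
  · intro p u
    have key : ∀ t : ℝ, 0 < t → |S.T.a (S.mul (fun x => 1 / θ x) p) (S.mul θ u)|
        ≤ 3 * (72 + M) ^ 2 / 2 * (t * ‖p‖ ^ 2 + t⁻¹ * ‖u‖ ^ 2) := by
      intro t ht
      have i1 : Integrable (fun x => t * garN p x + t⁻¹ * garN u x) ν :=
        ((garN_int p).const_mul _).add ((garN_int u).const_mul _)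
      rw [aeq, ← garN_norm, ← garN_norm, ← integral_const_mul, ← integral_const_mul,
        ← integral_add ((garN_int p).const_mul _) ((garN_int u).const_mul _), ← integral_const_mul,
        ← Real.norm_eq_abs]
      refine norm_integral_le_of_norm_le (i1.const_mul _) ?_
      filter_upwards [gar_conj S hx0 hθ hθ' hb p u] with x ⟨hx, R1, R2, h1, h2, e⟩
      rw [e, Real.norm_eq_abs, abs_mul]
      have w1 := garW_nonneg p x
      have w2 := garW_nonneg u x
      have t1 : |garP p x + R1| ≤ (72 + M) * garW p x := by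
        have := abs_add_le (garP p x) R1
        have := garP_le p x
        have := mul_le_mul_of_nonneg_left (garE_le hx0 p hx) hM0
        linarith
      have t2 : |garQ u x + R2| ≤ (72 + M) * garW u x := by
        have := abs_add_le (garQ u x) R2
        have := garQ_le u x
        have := mul_le_mul_of_nonneg_left (garE_le hx0 u hx) hM0
        linarith
      have t3 := mul_le_mul t1 t2 (abs_nonneg _) (by positivity)
      have t4 : 2 * (garW p x * garW u x) ≤ t * garW p x ^ 2 + t⁻¹ * garW u x ^ 2 := by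
        have : t * garW p x ^ 2 + t⁻¹ * garW u x ^ 2 - 2 * (garW p x * garW u x)
            = (t * garW p x - garW u x) ^ 2 / t := by
          field_simp
          ring
        have h' : 0 ≤ (t * garW p x - garW u x) ^ 2 / t := by positivity
        linarith
      have t5 := mul_le_mul_of_nonneg_left (garW_sq p hx) ht.le
      have t6 := mul_le_mul_of_nonneg_left (garW_sq u hx) (inv_pos.2 ht).le
      have t7 : garW p x * garW u x ≤ 3 / 2 * (t * garN p x + t⁻¹ * garN u x) := by linarith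
      have t8 := mul_le_mul_of_nonneg_left t7 (sq_nonneg (72 + M))
      nlinarith
    by_cases hp : p = 0
    · simp [hp]
    by_cases hu : u = 0
    · simp [hu]
    have np : 0 < ‖p‖ := norm_pos_iff.2 hp
    have nu : 0 < ‖u‖ := norm_pos_iff.2 hu
    refine le_trans (key (‖u‖ / ‖p‖) (by positivity)) ?_
    have e : 3 * (72 + M) ^ 2 / 2 * (‖u‖ / ‖p‖ * ‖p‖ ^ 2 + (‖u‖ / ‖p‖)⁻¹ * ‖u‖ ^ 2)
        = 3 * (72 + M) ^ 2 * ‖p‖ * ‖u‖ := by
      field_simp
      ring
    rw [e]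
    have : 0 ≤ K * (CI + 1) * ‖p‖ * ‖u‖ := by positivity
    nlinarith

end Crest.Agent.R213
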