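import Crest.Agent.R213.Gar2

/-! # R213 / Gar3 : the two forms of the Gårding inequality that are used -/

set_option autoImplicit false

open MeasureTheory Set Filter Topology
open scoped ContDiff InnerProductSpace

namespace Crest.Agent.R213

/-- positive weights with controlled logarithmic derivatives -/
structure GarLog (θ : ℝ → ℝ) (L x0 : ℝ) : Prop where
  sm : ContDiffOn ℝ 2 θ (Ioo 0 1)
  L0 : 0 ≤ L
  bd : ∀ x ∈ Ioo (0 : ℝ) 1, 0 < θ x ∧ |x * deriv θ x| ≤ L * (x / (x + x0)) * θ x ∧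
    |x ^ 2 * deriv (deriv θ) x| ≤ L * (x / (x + x0)) * θ x

theorem GarLog.mono {θ : ℝ → ℝ} {L L' x0 : ℝ} (h : GarLog θ L x0) (hx0 : 0 < x0) (hL : L ≤ L') :
    GarLog θ L' x0 := by
  refine ⟨h.sm, h.L0.trans hL, fun x hx => ?_⟩
  obtain ⟨hp, h1, h2⟩ := h.bd x hx
  have := mul_le_mul_of_nonneg_right (mul_le_mul_of_nonneg_right hL (gar_frac hx.1 hx0).1) hp.le
  exact ⟨hp, h1.trans this, h2.trans this⟩

theorem GarLog.inv {θ : ℝ → ℝ} {L x0 : ℝ} (h : GarLog θ L x0) (hx0 : 0 < x0) :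
    GarLog (fun x => 1 / θ x) (L + 2 * L ^ 2) x0 := by
  have hL := h.L0
  refine ⟨contDiffOn_const.div h.sm fun x hx => (h.bd x hx).1.ne', by positivity, fun x hx => ?_⟩
  obtain ⟨hp, h1, h2⟩ := h.bd x hx
  obtain ⟨i1, i2⟩ := gar_deriv_inv h.sm (fun y hy => (h.bd y hy).1) hx
  obtain ⟨k0, k1⟩ := gar_frac hx.1 hx0
  set κ := x / (x + x0)
  have g1 : |x * deriv θ x / θ x| ≤ L * κ := by
    rwa [abs_div, abs_of_pos hp, div_le_iff₀ hp]
  have g2 : |x ^ 2 * deriv (deriv θ) x / θ x| ≤ L * κ := by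
    rwa [abs_div, abs_of_pos hp, div_le_iff₀ hp]
  have g3 : (x * deriv θ x / θ x) ^ 2 ≤ L ^ 2 * κ := by
    have := pow_le_pow_left₀ (abs_nonneg _) g1 2
    rw [sq_abs, mul_pow] at this
    exact this.trans (mul_le_mul_of_nonneg_left (by nlinarith) (sq_nonneg L))
  have hi : 0 < 1 / θ x := by positivity
  have hL2 : 0 ≤ L ^ 2 * κ := by positivity
  have eM : (L + 2 * L ^ 2) * κ = L * κ + 2 * (L ^ 2 * κ) := by ring
  refine ⟨hi, ?_, ?_⟩
  · have e : x * deriv (fun x => 1 / θ x) x = -(x * deriv θ x / θ x) * (1 / θ x) := by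
      rw [i1]; field_simp
    rw [e, abs_mul, abs_neg, abs_of_pos hi, eM]
    exact mul_le_mul_of_nonneg_right (by linarith) hi.le
  · have e : x ^ 2 * deriv (deriv (fun x => 1 / θ x)) x
        = (-(x ^ 2 * deriv (deriv θ) x / θ x) + 2 * (x * deriv θ x / θ x) ^ 2) * (1 / θ x) := by
      rw [i2]; field_simp
    rw [e, abs_mul, abs_of_pos hi, eM]
    refine mul_le_mul_of_nonneg_right ?_ hi.le
    have q := abs_le.1 g2
    rw [abs_le]
    constructor <;> linarith [q.1, q.2, sq_nonneg (x * deriv θ x / θ x)]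

theorem GarLog.mul {θ η : ℝ → ℝ} {L L' x0 : ℝ} (h : GarLog θ L x0) (h' : GarLog η L' x0)
    (hx0 : 0 < x0) : GarLog (fun x => θ x * η x) (L + L' + 2 * L * L') x0 := by
  have hL := h.L0
  have hL' := h'.L0
  refine ⟨h.sm.mul h'.sm, by positivity, fun x hx => ?_⟩
  obtain ⟨hp, h1, h2⟩ := h.bd x hx
  obtain ⟨hp', h1', h2'⟩ := h'.bd x hx
  obtain ⟨k0, k1⟩ := gar_frac hx.1 hx0
  have d1 : ∀ y ∈ Ioo (0 : ℝ) 1, deriv (fun x => θ x * η x) y = deriv θ y * η y + θ y * deriv η y :=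
    fun y hy => ((gar_diff h.sm hy).1.fun_mul (gar_diff h'.sm hy).1).deriv
  have d2 : deriv (deriv (fun x => θ x * η x)) x = deriv (deriv θ) x * η x + deriv θ x * deriv η x +
      (deriv θ x * deriv η x + θ x * deriv (deriv η) x) := by
    have e : deriv (fun x => θ x * η x) =ᶠ[𝓝 x] fun y => deriv θ y * η y + θ y * deriv η y := by
      filter_upwards [isOpen_Ioo.mem_nhds hx] with y hy using d1 y hy
    rw [e.deriv_eq]
    exact (((gar_diff h.sm hx).2.fun_mul (gar_diff h'.sm hx).1).fun_add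
      ((gar_diff h.sm hx).1.fun_mul (gar_diff h'.sm hx).2)).deriv
  set κ := x / (x + x0)
  have a1 : |x * deriv θ x * η x| ≤ L * κ * (θ x * η x) := by
    rw [abs_mul, abs_of_pos hp', ← mul_assoc]
    exact mul_le_mul_of_nonneg_right h1 hp'.le
  have a2 : |θ x * (x * deriv η x)| ≤ L' * κ * (θ x * η x) := by
    rw [abs_mul, abs_of_pos hp]
    exact (mul_le_mul_of_nonneg_left h1' hp.le).trans (le_of_eq (by ring))
  have a3 : |x ^ 2 * deriv (deriv θ) x * η x| ≤ L * κ * (θ x * η x) := by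
    rw [abs_mul, abs_of_pos hp', ← mul_assoc]
    exact mul_le_mul_of_nonneg_right h2 hp'.le
  have a4 : |θ x * (x ^ 2 * deriv (deriv η) x)| ≤ L' * κ * (θ x * η x) := by
    rw [abs_mul, abs_of_pos hp]
    exact (mul_le_mul_of_nonneg_left h2' hp.le).trans (le_of_eq (by ring))
  have a5 : |x * deriv θ x * (x * deriv η x)| ≤ L * L' * κ * (θ x * η x) := by
    rw [abs_mul]
    refine (mul_le_mul h1 h1' (abs_nonneg _) (by positivity)).trans ?_
    have e : L * κ * θ x * (L' * κ * η x) = κ * (L * L' * κ * (θ x * η x)) := by ring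
    rw [e]
    exact mul_le_of_le_one_left (by positivity) k1
  have hpos : 0 ≤ L * L' * κ * (θ x * η x) := by positivity
  have eM : (L + L' + 2 * L * L') * κ * (θ x * η x)
      = L * κ * (θ x * η x) + L' * κ * (θ x * η x) + 2 * (L * L' * κ * (θ x * η x)) := by ring
  refine ⟨mul_pos hp hp', ?_, ?_⟩
  · have e : x * deriv (fun x => θ x * η x) x = x * deriv θ x * η x + θ x * (x * deriv η x) := by
      rw [d1 x hx]; ring
    rw [e, eM]
    linarith [abs_add_le (x * deriv θ x * η x) (θ x * (x * deriv η x))]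
  · have e : x ^ 2 * deriv (deriv (fun x => θ x * η x)) x = x ^ 2 * deriv (deriv θ) x * η x +
        θ x * (x ^ 2 * deriv (deriv η) x) + 2 * (x * deriv θ x * (x * deriv η x)) := by
      rw [d2]; ring
    rw [e, eM, abs_le]
    have q3 := abs_le.1 a3
    have q4 := abs_le.1 a4
    have q5 := abs_le.1 a5
    constructor <;> linarith [q3.1, q3.2, q4.1, q4.2, q5.1, q5.2]

theorem GarLog.mult {θ : ℝ → ℝ} {L x0 B : ℝ} (h : GarLog θ L x0) (hx0 : 0 < x0)
    (hB : ∀ x ∈ Ioo (0 : ℝ) 1, θ x ≤ B) : Mult θ ((1 + L) * B) := by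
  have hL := h.L0
  have key : ∀ x ∈ Ioo (0 : ℝ) 1, L * (x / (x + x0)) * θ x ≤ (1 + L) * B := by
    intro x hx
    obtain ⟨k0, k1⟩ := gar_frac hx.1 hx0
    have hp := (h.bd x hx).1
    exact mul_le_mul (by nlinarith) (hB x hx) hp.le (by positivity)
  refine ⟨h.sm, fun x hx => ?_, fun x hx => ?_, fun x hx => ?_⟩
  · have hp := (h.bd x hx).1
    have := hB x hx
    rw [abs_of_pos hp]
    nlinarith
  · have e : x * (1 - x) * deriv θ x = (1 - x) * (x * deriv θ x) := by ring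
    rw [e, abs_mul, abs_of_pos (by linarith [hx.2] : 0 < 1 - x)]
    exact (mul_le_of_le_one_left (abs_nonneg _) (by linarith [hx.1])).trans
      ((h.bd x hx).2.1.trans (key x hx))
  · have e : (x * (1 - x)) ^ 2 * deriv (deriv θ) x = (1 - x) ^ 2 * (x ^ 2 * deriv (deriv θ) x) := by
      ring
    rw [e, abs_mul, abs_of_nonneg (sq_nonneg (1 - x))]
    exact (mul_le_of_le_one_left (abs_nonneg _) (by nlinarith [hx.1, hx.2])).trans
      ((h.bd x hx).2.2.trans (key x hx))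

theorem gar_lam_pos (s : ℝ) : 0 < lam s := Real.exp_pos _

theorem gar_lam_sq (s : ℝ) : lam s ^ 2 * Real.exp s = 1 := by
  unfold lam
  rw [← Real.exp_nat_mul, ← Real.exp_add]
  norm_num
  ring

theorem garLog_rho (s : ℝ) : GarLog (fun x => 1 + x ^ 2 * Real.exp s) 3 (lam s) := by
  have d1 : deriv (fun x : ℝ => 1 + x ^ 2 * Real.exp s) = fun x => 2 * x * Real.exp s := by
    funext x
    simp
  have d2 : deriv (fun x : ℝ => 2 * x * Real.exp s) = fun _ => 2 * Real.exp s := by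
    funext x
    simp
  refine ⟨by fun_prop, by norm_num, fun x hx => ?_⟩
  have hx0 := hx.1
  have hl := gar_lam_pos s
  have he := Real.exp_pos s
  have key : 2 * x ^ 2 * Real.exp s ≤ 3 * (x / (x + lam s)) * (1 + x ^ 2 * Real.exp s) := by
    rw [mul_div_assoc', div_mul_eq_mul_div, le_div_iff₀ (by positivity)]
    have h1 := gar_lam_sq s
    have h2 : 2 * x * lam s * Real.exp s ≤ 1 + x ^ 2 * Real.exp s := by
      nlinarith [mul_nonneg (sq_nonneg (x - lam s)) he.le]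
    nlinarith [mul_le_mul_of_nonneg_left h2 hx0.le, mul_pos hx0 (mul_pos (mul_pos hx0 hx0) he)]
  rw [d1, d2]
  refine ⟨by positivity, ?_, ?_⟩
  · rw [abs_of_nonneg (by positivity)]
    linarith
  · rw [abs_of_nonneg (by positivity)]
    linarith

theorem garLog_wh (s : ℝ) : GarLog (wh s) 21 (lam s) :=
  ((garLog_rho s).inv (gar_lam_pos s)).mono (gar_lam_pos s) (by norm_num)

theorem gar_wh_pos (s x : ℝ) : 0 < wh s x := by
  unfold wh
  positivity

theorem gar_wh_le (s x : ℝ) : wh s x ≤ 1 := by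
  unfold wh
  rw [div_le_one (by positivity)]
  have : 0 ≤ x ^ 2 * Real.exp s := by positivity
  linarith

theorem gar_inv_wh_le (s : ℝ) {x : ℝ} (hx : x ∈ Ioo (0 : ℝ) 1) : 1 / wh s x ≤ 1 + Real.exp s := by
  unfold wh
  rw [one_div_one_div]
  have : x ^ 2 ≤ 1 := by nlinarith [hx.1, hx.2]
  nlinarith [Real.exp_pos s]

theorem gar_tau_le (s : ℝ) {x : ℝ} (hx : 0 < x) : Real.exp (-s) / (x + lam s) ^ 2 ≤ wh s x := by
  unfold wh
  have hl := gar_lam_pos s
  have he := Real.exp_pos s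
  have h1 := gar_lam_sq s
  rw [Real.exp_neg, div_le_div_iff₀ (by positivity) (by positivity), inv_mul_le_iff₀ he]
  nlinarith [mul_pos (mul_pos hx hl) he]

theorem gar_mul_eq (S : Sp) {p q r : ℝ → ℝ} {N N' N'' : ℝ} (hp : Mult p N) (hq : Mult q N')
    (hr : Mult r N'') (h : ∀ x ∈ Ioo (0 : ℝ) 1, p x * q x = r x) (u : VV) :
    S.mul p (S.mul q u) = S.mul r u := by
  rw [S.mul_mul hp hq, S.mul_congr hr (q := fun x => p x * q x) h]

theorem gar_mul_one (S : Sp) {p q : ℝ → ℝ} {N N' : ℝ} (hp : Mult p N) (hq : Mult q N')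
    (h : ∀ x ∈ Ioo (0 : ℝ) 1, p x * q x = 1) (u : VV) : S.mul p (S.mul q u) = u := by
  rw [gar_mul_eq S hp hq (Mult.const 1) h, S.mul_one]
  rfl

theorem gar_norm_sq_le (S : Sp) {p : ℝ → ℝ} {N : ℝ} (hp : Mult p N) (u : VV) :
    ‖S.mul p u‖ ^ 2 ≤ (4 * N) ^ 2 * ‖u‖ ^ 2 := by
  rw [← mul_pow]
  exact pow_le_pow_left₀ (norm_nonneg _) (((S.mul p).le_opNorm u).trans
    (mul_le_mul_of_nonneg_right (S.mul_le p N hp) (norm_nonneg _))) 2

theorem gar_garding_g (S : Sp) (A : Apx) : ∃ c C : ℝ, 0 < c ∧ 0 < C ∧ ∀ s, 0 ≤ s →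
    (∀ u, c * ‖u‖ ^ 2 - C * ∫ x in Ioo (0 : ℝ) 1, (d0 u x / (x + lam s)) ^ 2 ≤
      S.T.a (S.mul (fun x => A.g s x ^ 2) u) u) ∧
    (∀ u, c * Real.exp (-s) * ‖S.mul (wh s) u‖ ^ 2 - C * ∫ x in Ioo (0 : ℝ) 1, wh s x ^ 3 * d0 u x ^ 2 ≤
      Real.exp (-s) * S.T.a (S.mul (fun x => A.g s x ^ 2) u) (S.mul (fun x => wh s x ^ 2) u)) ∧
    (∀ p u, |S.T.a p (S.mul (fun x => wh s x ^ 2) u)| ≤ C * ‖S.mul (wh s) p‖ * ‖S.mul (wh s) u‖) ∧
    Mult (A.g s) C ∧ Mult (fun x => 1 / A.g s x) C ∧ Mult (fun x => A.g s x ^ 2) C ∧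
    Mult (fun x => 1 / A.g s x ^ 2) C := by
  have hc1 := A.c1_pos
  set B : ℝ := |A.C| + 1 with hB
  have hB0 : 0 < B := by positivity
  have hCB : A.C ≤ B := by linarith [le_abs_self A.C]
  set Lg : ℝ := B / A.c1 with hLg
  set Li : ℝ := Lg + 2 * Lg ^ 2 with hLi
  set L2 : ℝ := Lg + Lg + 2 * Lg * Lg with hL2
  set L : ℝ := 21 + Li + 2 * 21 * Li with hL
  have hLg0 : 0 < Lg := by positivity
  have hLi0 : 0 < Li := by positivity
  have hL20 : 0 < L2 := by positivity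
  obtain ⟨c, C, hc, hC, hG⟩ := gar_garding S L
  set Ni : ℝ := (1 + Li) * (1 / A.c1) with hNi
  have hNi0 : 0 < Ni := by positivity
  set K : ℝ := C * B ^ 2 + C + (1 + Lg) * B + Ni + (1 + L2) * (B * B) +
    (1 + (L2 + 2 * L2 ^ 2)) * (1 / (A.c1 * A.c1)) with hK
  have p1 : 0 < C * B ^ 2 := by positivity
  have p2 : 0 < (1 + Lg) * B := by positivity
  have p3 : 0 < (1 + L2) * (B * B) := by positivity
  have p4 : 0 < (1 + (L2 + 2 * L2 ^ 2)) * (1 / (A.c1 * A.c1)) := by positivity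
  refine ⟨c / (4 * Ni) ^ 2, K, by positivity, by positivity, fun s hs => ?_⟩
  have hl := gar_lam_pos s
  have glo : ∀ x ∈ Ioo (0 : ℝ) 1, A.c1 ≤ A.g s x := fun x hx => A.g_lo s x (Ioo_subset_Icc_self hx)
  have ghi : ∀ x ∈ Ioo (0 : ℝ) 1, A.g s x ≤ B := fun x hx =>
    (le_abs_self _).trans ((A.g_bd s hs x hx).1.trans hCB)
  have gpos := A.g_pos s
  have lg : GarLog (A.g s) Lg (lam s) := by
    refine ⟨(contDiff_infty.1 (A.smg.comp (contDiff_prodMk_right s)) 2).contDiffOn,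
      hLg0.le, fun x hx => ?_⟩
    obtain ⟨-, h1, h2⟩ := A.g_bd s hs x hx
    obtain ⟨k0, -⟩ := gar_frac hx.1 hl
    have h3 : A.C * (x / (x + lam s)) ≤ Lg * (x / (x + lam s)) * A.g s x := by
      have h4 : B ≤ Lg * A.g s x := by
        rw [hLg, div_mul_eq_mul_div, le_div_iff₀ hc1]
        exact mul_le_mul_of_nonneg_left (glo x hx) hB0.le
      calc A.C * (x / (x + lam s)) ≤ Lg * A.g s x * (x / (x + lam s)) :=
            mul_le_mul_of_nonneg_right (hCB.trans h4) k0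
        _ = _ := by ring
    exact ⟨gpos x, h1.trans h3, h2.trans h3⟩
  have li : GarLog (fun x => 1 / A.g s x) Li (lam s) := lg.inv hl
  have l2 : GarLog (fun x => A.g s x * A.g s x) L2 (lam s) := lg.mul lg hl
  have lw := garLog_wh s
  have lq : GarLog (fun x => wh s x * (1 / A.g s x)) L (lam s) := lw.mul li hl
  have ilo : ∀ x ∈ Ioo (0 : ℝ) 1, 1 / A.g s x ≤ 1 / A.c1 := fun x hx =>
    one_div_le_one_div_of_le hc1 (glo x hx)
  have mg : Mult (A.g s) ((1 + Lg) * B) := lg.mult hl ghi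
  have mi : Mult (fun x => 1 / A.g s x) Ni := li.mult hl ilo
  have m2 : Mult (fun x => A.g s x ^ 2) ((1 + L2) * (B * B)) :=
    (l2.mult hl fun x hx => mul_le_mul (ghi x hx) (ghi x hx) (gpos x).le hB0.le).congr
      fun x _ => sq _
  have m2i : Mult (fun x => 1 / A.g s x ^ 2) ((1 + (L2 + 2 * L2 ^ 2)) * (1 / (A.c1 * A.c1))) :=
    ((l2.inv hl).mult hl fun x hx => one_div_le_one_div_of_le (by positivity)
      (mul_le_mul (glo x hx) (glo x hx) hc1.le (gpos x).le)).congr fun x _ => by simp only [sq]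
  have mw := mult_wh s
  have mwi := (lw.inv hl).mult hl fun x hx => gar_inv_wh_le s hx
  have mw2 : Mult (fun x => wh s x ^ 2) (4 * 6 * 6) := (mw.mul mw).congr fun x _ => sq _
  have mii : Mult (fun x => 1 / (1 / A.g s x)) ((1 + Lg) * B) := mg.congr fun x _ => one_div_one_div _
  have mq := mw.mul mi
  have mqi : Mult (fun x => 1 / (wh s x * (1 / A.g s x))) _ :=
    (mwi.mul mg).congr fun x _ => by
      have := (gpos x).ne'
      have := (gar_wh_pos s x).ne'
      field_simp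
  have mgw := mg.mul mw
  have lower : ∀ v w : VV, w = S.mul (fun x => 1 / A.g s x) v → c / (4 * Ni) ^ 2 * ‖w‖ ^ 2 ≤ c * ‖v‖ ^ 2 := by
    intro v w hw
    rw [hw, div_mul_eq_mul_div, div_le_iff₀ (by positivity)]
    have := mul_le_mul_of_nonneg_left (gar_norm_sq_le S mi v) hc.le
    linarith
  refine ⟨fun u => ?_, fun u => ?_, fun p u => ?_, mg.mono (by rw [hK]; linarith),
    mi.mono (by rw [hK]; linarith), m2.mono (by rw [hK]; linarith), m2i.mono (by rw [hK]; linarith)⟩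
  · have h := (hG (lam s) _ _ _ hl mi mii (li.mono hl (by rw [hL]; nlinarith)).bd).1 (S.mul (A.g s) u)
    have e1 := gar_mul_one S mi mg (fun x _ => by have := (gpos x).ne'; field_simp) u
    rw [gar_mul_eq S mii mg m2 (fun x _ => by rw [one_div_one_div, sq]), e1] at h
    have h1 := lower _ u e1.symm
    have h2 : ∫ x in Ioo (0 : ℝ) 1, (d0 (S.mul (A.g s) u) x / (x + lam s)) ^ 2
        ≤ B ^ 2 * ∫ x in Ioo (0 : ℝ) 1, (d0 u x / (x + lam s)) ^ 2 := by
      rw [← integral_const_mul]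
      refine integral_mono_ae (gar_int0 _ hl) ((gar_int0 u hl).const_mul _) ?_
      filter_upwards [(S.mul_eq _ _ mg u).1, ae_restrict_mem measurableSet_Ioo] with x hx hx'
      rw [hx, mul_div_assoc, mul_pow]
      exact mul_le_mul_of_nonneg_right (pow_le_pow_left₀ (gpos x).le (ghi x hx') 2) (sq_nonneg _)
    have h3 : 0 ≤ ∫ x in Ioo (0 : ℝ) 1, (d0 u x / (x + lam s)) ^ 2 :=
      integral_nonneg fun x => sq_nonneg _
    have h4 := mul_le_mul_of_nonneg_left h2 hC.le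
    have h5 : C * B ^ 2 ≤ K := by rw [hK]; linarith
    have h6 := mul_le_mul_of_nonneg_right h5 h3
    linarith
  · have h := (hG (lam s) _ _ _ hl mq mqi lq.bd).1 (S.mul (fun x => A.g s x * wh s x) u)
    rw [gar_mul_eq S mqi mgw m2 (fun x _ => by
        have := (gpos x).ne'
        have := (gar_wh_pos s x).ne'
        field_simp),
      gar_mul_eq S mq mgw mw2 (fun x _ => by
        have := (gpos x).ne'
        field_simp)] at h
    have h1 := lower _ _ (gar_mul_eq S mi mgw mw (fun x _ => by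
      have := (gpos x).ne'
      field_simp) u).symm
    have he := Real.exp_pos (-s)
    have m0 := (d_meas u).1.aemeasurable
    have i3 : Integrable (fun x => wh s x ^ 3 * d0 u x ^ 2) ν := by
      refine gar_int_of_le u 1 (AEMeasurable.aestronglyMeasurable (by unfold wh; fun_prop))
        fun x hx => ?_
      have w0 := gar_wh_pos s x
      have w1 : wh s x ^ 3 ≤ 1 := pow_le_one₀ w0.le (gar_wh_le s x)
      have hx0 := hx.1
      have e : d0 u x ^ 2 = x ^ 2 * (d0 u x / x) ^ 2 := by field_simp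
      have x1 : x ^ 2 ≤ 1 := by nlinarith [hx.2]
      have := garN_ge u hx
      have a1 : wh s x ^ 3 * d0 u x ^ 2 ≤ d0 u x ^ 2 := mul_le_of_le_one_left (sq_nonneg _) w1
      have a2 : x ^ 2 * (d0 u x / x) ^ 2 ≤ (d0 u x / x) ^ 2 := mul_le_of_le_one_left (sq_nonneg _) x1
      rw [abs_of_nonneg (by positivity)]
      linarith [sq_nonneg (d1 u x), sq_nonneg (x * d2 u x)]
    have h2 : Real.exp (-s) * ∫ x in Ioo (0 : ℝ) 1,
        (d0 (S.mul (fun x => A.g s x * wh s x) u) x / (x + lam s)) ^ 2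
        ≤ B ^ 2 * ∫ x in Ioo (0 : ℝ) 1, wh s x ^ 3 * d0 u x ^ 2 := by
      rw [← integral_const_mul, ← integral_const_mul]
      refine integral_mono_ae ((gar_int0 _ hl).const_mul _) (i3.const_mul _) ?_
      filter_upwards [(S.mul_eq _ _ mgw u).1, ae_restrict_mem measurableSet_Ioo] with x hx hx'
      have e : Real.exp (-s) * (A.g s x * wh s x * d0 u x / (x + lam s)) ^ 2
          = A.g s x ^ 2 * (Real.exp (-s) / (x + lam s) ^ 2 * (wh s x ^ 2 * d0 u x ^ 2)) := by
        rw [div_pow]; ring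
      rw [hx, e]
      refine mul_le_mul (pow_le_pow_left₀ (gpos x).le (ghi x hx') 2) ?_ (by positivity) (by positivity)
      exact (mul_le_mul_of_nonneg_right (gar_tau_le s hx'.1) (by positivity)).trans
        (le_of_eq (by ring))
    have h3 : 0 ≤ ∫ x in Ioo (0 : ℝ) 1, wh s x ^ 3 * d0 u x ^ 2 :=
      integral_nonneg fun x => mul_nonneg (pow_nonneg (gar_wh_pos s x).le 3) (sq_nonneg _)
    have h4 := mul_le_mul_of_nonneg_left h2 hC.le
    have h5 : C * B ^ 2 ≤ K := by rw [hK]; linarith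
    have h6 := mul_le_mul_of_nonneg_right h5 h3
    have h7 := mul_le_mul_of_nonneg_left h he.le
    have h8 := mul_le_mul_of_nonneg_left h1 he.le
    linarith
  · have h := (hG (lam s) _ _ _ hl mw mwi (lw.mono hl (by rw [hL]; nlinarith)).bd).2
      (S.mul (wh s) p) (S.mul (wh s) u)
    rw [gar_mul_one S mwi mw (fun x _ => by have := (gar_wh_pos s x).ne'; field_simp),
      gar_mul_eq S mw mw mw2 (fun x _ => (sq _).symm)] at h
    refine h.trans (mul_le_mul_of_nonneg_right (mul_le_mul_of_nonneg_right ?_ (norm_nonneg _))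
      (norm_nonneg _))
    rw [hK]
    linarith

end Crest.Agent.R213
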