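import Crest.Prelude.Def_ProjKahler
import Crest.Agent.R213.Base

/-!
# R213 / GeoDefs : definitions and small lemmas for `geo` (complete, no proofs to fill)
-/

set_option autoImplicit false

open Set Filter Topology
open scoped ContDiff
open Crest.GeometryTopology.ProjKahler

namespace Crest.Agent.R213

/-- The parameter domain `[0,T) × [0,1]`. -/
def gD (T : ℝ) : Set (ℝ × ℝ) := Ico 0 T ×ˢ Icc 0 1

theorem mem_gD {T : ℝ} {p : ℝ × ℝ} : p ∈ gD T ↔ p.1 ∈ Ico 0 T ∧ p.2 ∈ Icc (0 : ℝ) 1 := Iff.rfl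

theorem mk_mem_gD {T t x : ℝ} (ht : t ∈ Ico 0 T) (hx : x ∈ Icc (0 : ℝ) 1) : (t, x) ∈ gD T := ⟨ht, hx⟩

theorem uniqueDiffOn_gD (T : ℝ) : UniqueDiffOn ℝ (gD T) :=
  (uniqueDiffOn_Ico 0 T).prod (uniqueDiffOn_Icc zero_lt_one)

theorem convex_gD (T : ℝ) : Convex ℝ (gD T) := (convex_Ico 0 T).prod (convex_Icc 0 1)

theorem gD_mem_nhds {T t x : ℝ} (ht : t ∈ Ioo 0 T) (hx : x ∈ Ioo (0 : ℝ) 1) : gD T ∈ 𝓝 (t, x) :=
  prod_mem_nhds (Ico_mem_nhds ht.1 ht.2) (Icc_mem_nhds hx.1 hx.2)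

/-- The linear form `a dt + b dx`. -/
noncomputable def pd (a b : ℝ) : ℝ × ℝ →L[ℝ] ℝ :=
  a • ContinuousLinearMap.fst ℝ ℝ ℝ + b • ContinuousLinearMap.snd ℝ ℝ ℝ

@[simp] theorem pd_apply (a b : ℝ) (v : ℝ × ℝ) : pd a b v = a * v.1 + b * v.2 := by simp [pd]

theorem eq_pd (L : ℝ × ℝ →L[ℝ] ℝ) : L = pd (L (1, 0)) (L (0, 1)) := by
  ext <;> simp

theorem contDiffOn_pd {s : Set (ℝ × ℝ)} {n : WithTop ℕ∞} {a b : ℝ × ℝ → ℝ} (ha : ContDiffOn ℝ n a s)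
    (hb : ContDiffOn ℝ n b s) : ContDiffOn ℝ n (fun p => pd (a p) (b p)) s :=
  (ha.smul contDiffOn_const).add (hb.smul contDiffOn_const)

/-- A function whose partial derivatives are `C^n` is `C^(n+1)`. -/
theorem contDiffOn_succ_of_pd {T : ℝ} {n : ℕ} {F a b : ℝ × ℝ → ℝ} (ha : ContDiffOn ℝ n a (gD T))
    (hb : ContDiffOn ℝ n b (gD T)) (hF : ∀ p ∈ gD T, HasFDerivWithinAt F (pd (a p) (b p)) (gD T) p) :
    ContDiffOn ℝ (n + 1 : ℕ) F (gD T) := by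
  rw [Nat.cast_succ, contDiffOn_succ_iff_hasFDerivWithinAt_of_uniqueDiffOn (uniqueDiffOn_gD T)]
  exact ⟨by simp, _, contDiffOn_pd ha hb, hF⟩

theorem contDiffOn_infty_of_pd {T : ℝ} {F a b : ℝ × ℝ → ℝ} (ha : ContDiffOn ℝ ∞ a (gD T))
    (hb : ContDiffOn ℝ ∞ b (gD T)) (hF : ∀ p ∈ gD T, HasFDerivWithinAt F (pd (a p) (b p)) (gD T) p) :
    ContDiffOn ℝ ∞ F (gD T) :=
  contDiffOn_infty.2 fun n =>
    (contDiffOn_succ_of_pd (contDiffOn_infty.1 ha n) (contDiffOn_infty.1 hb n) hF).of_le (by simp)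

/-- A smooth function has smooth partial derivatives. -/
theorem exists_pd {T : ℝ} {F : ℝ × ℝ → ℝ} (hF : ContDiffOn ℝ ∞ F (gD T)) :
    ∃ a b : ℝ × ℝ → ℝ, ContDiffOn ℝ ∞ a (gD T) ∧ ContDiffOn ℝ ∞ b (gD T) ∧
      ∀ p ∈ gD T, HasFDerivWithinAt F (pd (a p) (b p)) (gD T) p := by
  obtain ⟨h1, h2⟩ := (contDiffOn_infty_iff_fderivWithin (uniqueDiffOn_gD T)).1 hF
  refine ⟨fun p => fderivWithin ℝ F (gD T) p (1, 0), fun p => fderivWithin ℝ F (gD T) p (0, 1),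
    h2.clm_apply contDiffOn_const, h2.clm_apply contDiffOn_const, fun p hp => ?_⟩
  rw [← eq_pd]
  exact (h1 p hp).hasFDerivWithinAt

theorem slice_x {T t x a b : ℝ} {F : ℝ × ℝ → ℝ} (ht : t ∈ Ico 0 T)
    (h : HasFDerivWithinAt F (pd a b) (gD T) (t, x)) : HasDerivWithinAt (fun y => F (t, y)) b (Icc 0 1) x := by
  have h1 : HasDerivWithinAt (fun y : ℝ => (t, y)) ((0 : ℝ), (1 : ℝ)) (Icc 0 1) x :=
    ((hasDerivAt_const x t).prodMk (hasDerivAt_id x)).hasDerivWithinAt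
  exact (h.comp_hasDerivWithinAt x h1 fun y hy => mk_mem_gD ht hy).congr_deriv (by simp)

theorem slice_x_at {T t x a b : ℝ} {F : ℝ × ℝ → ℝ} (ht : t ∈ Ico 0 T) (hx : x ∈ Ioo (0 : ℝ) 1)
    (h : HasFDerivWithinAt F (pd a b) (gD T) (t, x)) : HasDerivAt (fun y => F (t, y)) b x :=
  (slice_x ht h).hasDerivAt (Icc_mem_nhds hx.1 hx.2)

theorem slice_t {T t x a b : ℝ} {F : ℝ × ℝ → ℝ} (ht : t ∈ Ioo 0 T) (hx : x ∈ Icc (0 : ℝ) 1)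
    (h : HasFDerivWithinAt F (pd a b) (gD T) (t, x)) : HasDerivAt (fun r => F (r, x)) a t := by
  have h1 : HasDerivWithinAt (fun r : ℝ => (r, x)) ((1 : ℝ), (0 : ℝ)) (Ico 0 T) t :=
    ((hasDerivAt_id t).prodMk (hasDerivAt_const t x)).hasDerivWithinAt
  have h2 : HasDerivWithinAt (fun r => F (r, x)) a (Ico 0 T) t :=
    (h.comp_hasDerivWithinAt t h1 fun y hy => mk_mem_gD hy hx).congr_deriv (by simp)
  exact h2.hasDerivAt (Ico_mem_nhds ht.1 ht.2)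

theorem contDiffOn_slice {T t : ℝ} {n : WithTop ℕ∞} {F : ℝ × ℝ → ℝ} (ht : t ∈ Ico 0 T)
    (hF : ContDiffOn ℝ n F (gD T)) : ContDiffOn ℝ n (fun y => F (t, y)) (Icc 0 1) :=
  hF.comp (contDiffOn_const.prodMk contDiffOn_id) fun _ hy => mk_mem_gD ht hy

/-- The matrix `α 1 + γ z̄ zᵀ`. -/
noncomputable def rad {n : ℕ} (α γ : ℝ) (z : V n) : Matrix (Fin n) (Fin n) ℂ :=
  Matrix.of fun a b => (if a = b then (α : ℂ) else 0) + (γ : ℂ) * ((starRingEnd ℂ) (z a) * z b)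

/-- The profile at a fixed time: `H` is the relative potential as a function of the Fubini–Study momentum, `X` the
momentum of the new metric, `φ` the momentum profile. -/
structure Prof (φ H H1 H2 X : ℝ → ℝ) : Prop where
  d0 : ∀ x ∈ Icc (0 : ℝ) 1, HasDerivWithinAt H (H1 x) (Icc 0 1) x
  d1 : ∀ x ∈ Icc (0 : ℝ) 1, HasDerivWithinAt H1 (H2 x) (Icc 0 1) x
  s1 : ContDiffOn ℝ ∞ H1 (Icc 0 1)
  s2 : ContDiffOn ℝ ∞ H2 (Icc 0 1)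
  A : ∀ x ∈ Icc (0 : ℝ) 1, 0 < 1 + H1 x * (1 - x)
  B : ∀ x ∈ Icc (0 : ℝ) 1, 0 < 1 + (1 - 2 * x) * H1 x + x * (1 - x) * H2 x
  X_eq : ∀ x ∈ Icc (0 : ℝ) 1, X x = x + x * (1 - x) * H1 x
  X_lt : ∀ x ∈ Ico (0 : ℝ) 1, X x < 1
  φ_eq : ∀ x ∈ Icc (0 : ℝ) 1, (1 + (1 - 2 * x) * H1 x + x * (1 - x) * H2 x) * (x * (1 - x)) = φ (X x)

theorem mom_mem {n : ℕ} (z : V n) : ‖z‖ ^ 2 / (1 + ‖z‖ ^ 2) ∈ Ico (0 : ℝ) 1 :=
  ⟨by positivity, by rw [div_lt_one (by positivity)]; linarith⟩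

theorem mom_mem' {n : ℕ} (k : Fin n) (w : V n) : 1 - ‖w k‖ ^ 2 / (1 + ‖w‖ ^ 2) ∈ Icc (0 : ℝ) 1 := by
  have h1 : ‖w k‖ ≤ ‖w‖ := PiLp.norm_apply_le w k
  have h2 : ‖w k‖ ^ 2 ≤ ‖w‖ ^ 2 := pow_le_pow_left₀ (norm_nonneg _) h1 2
  have h3 : ‖w k‖ ^ 2 / (1 + ‖w‖ ^ 2) ≤ 1 := by rw [div_le_one (by positivity)]; linarith
  have h4 : 0 ≤ ‖w k‖ ^ 2 / (1 + ‖w‖ ^ 2) := by positivity
  constructor <;> linarith

end Crest.Agent.R213
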