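import Crest.Agent.R213.GeoDefs

/-!
# R213 / GeoI : a smooth inverse on the closed interval, with a parameter

Prefix helper lemmas with `gi_`.
-/

set_option autoImplicit false

open Set Filter Topology
open scoped ContDiff ComplexOrder
open Crest.GeometryTopology.ProjKahler

namespace Crest.Agent.R213

/-- For each `t` the slice `θ (t, ·)` is continuous and strictly increasing on `[0,1]`
(`strictMonoOn_of_hasDerivWithinAt_pos` / `strictMonoOn_of_deriv_pos`, `slice_x`), so a bijection of `[0,1]`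
(`intermediate_value_Icc`); `X` by choice.  `Ξ p = (p.1, X p)` is continuous on `gD T` (for `ε > 0` and
`x = X p`: `θ (t, x - ε) < x0 < θ (t, x + ε)` persists near `p`; or: a continuous bijection of the compact set
`[0,T'] × [0,1]`).  `HasFDerivWithinAt.of_local_left_inverse` for `Θ p = (p.1, θ p)` (build the equivalence with
`ContinuousLinearEquiv.equivOfInverse`) gives the derivative.  Smoothness: with `exists_pd` (its partials agree with
`θt`, `θx` on `gD T` by `uniqueDiffOn_gD`), induct with `contDiffOn_succ_of_pd`. -/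
theorem exists_inv {T : ℝ} {θ θt θx : ℝ × ℝ → ℝ} (hθ : ContDiffOn ℝ ∞ θ (gD T))
    (hd : ∀ p ∈ gD T, HasFDerivWithinAt θ (pd (θt p) (θx p)) (gD T) p) (hpos : ∀ p ∈ gD T, 0 < θx p)
    (h0 : ∀ t ∈ Ico 0 T, θ (t, 0) = 0) (h1 : ∀ t ∈ Ico 0 T, θ (t, 1) = 1) :
    ∃ X : ℝ × ℝ → ℝ, ContDiffOn ℝ ∞ X (gD T) ∧ (∀ p ∈ gD T, X p ∈ Icc (0 : ℝ) 1 ∧ θ (p.1, X p) = p.2) ∧
      ∀ p ∈ gD T, HasFDerivWithinAt X (pd (-θt (p.1, X p) / θx (p.1, X p)) (1 / θx (p.1, X p))) (gD T) p := by
  have hmono : ∀ t ∈ Ico 0 T, StrictMonoOn (fun y => θ (t, y)) (Icc 0 1) := fun t ht =>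
    strictMonoOn_of_hasDerivWithinAt_pos (f' := fun y => θx (t, y)) (convex_Icc 0 1)
      (contDiffOn_slice ht hθ).continuousOn
      (fun x hx => (slice_x ht (hd _ (mk_mem_gD ht (interior_subset hx)))).mono interior_subset)
      fun x hx => hpos _ (mk_mem_gD ht (interior_subset hx))
  have hex : ∀ p : ℝ × ℝ, ∃ x : ℝ, p ∈ gD T → x ∈ Icc (0 : ℝ) 1 ∧ θ (p.1, x) = p.2 := fun p => by
    by_cases hp : p ∈ gD T
    · have := intermediate_value_Icc zero_le_one (contDiffOn_slice hp.1 hθ).continuousOn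
      rw [h0 _ hp.1, h1 _ hp.1] at this
      obtain ⟨x, hx, hx'⟩ := this hp.2
      exact ⟨x, fun _ => ⟨hx, hx'⟩⟩
    · exact ⟨0, fun h => absurd h hp⟩
  choose X hX using hex
  have hmap : ∀ p ∈ gD T, (p.1, X p) ∈ gD T := fun p hp => mk_mem_gD hp.1 (hX p hp).1
  have hsl : ∀ c ∈ Icc (0 : ℝ) 1, ContinuousOn (fun q : ℝ × ℝ => θ (q.1, c) - q.2) (gD T) := fun c hc =>
    (hθ.continuousOn.comp (continuousOn_fst.prodMk continuousOn_const) fun q hq => mk_mem_gD hq.1 hc).sub
      continuousOn_snd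
  have hcont : ContinuousOn X (gD T) := fun p hp => by
    refine tendsto_order.2 ⟨fun c hc => ?_, fun c hc => ?_⟩
    · by_cases h : c < 0
      · filter_upwards [self_mem_nhdsWithin] with q hq using h.trans_le (hX q hq).1.1
      · have hc' : c ∈ Icc (0 : ℝ) 1 := ⟨not_lt.1 h, hc.le.trans (hX p hp).1.2⟩
        have h2 : θ (p.1, c) - p.2 < 0 := by
          have := hmono _ hp.1 hc' (hX p hp).1 hc
          simp only [(hX p hp).2] at this
          linarith
        filter_upwards [self_mem_nhdsWithin, (hsl c hc' p hp).eventually (gt_mem_nhds h2)] with q hq hq'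
        refine ((hmono _ hq.1).lt_iff_lt hc' (hX q hq).1).1 ?_
        simp only [(hX q hq).2]
        linarith
    · by_cases h : 1 < c
      · filter_upwards [self_mem_nhdsWithin] with q hq using (hX q hq).1.2.trans_lt h
      · have hc' : c ∈ Icc (0 : ℝ) 1 := ⟨(hX p hp).1.1.trans hc.le, not_lt.1 h⟩
        have h2 : 0 < θ (p.1, c) - p.2 := by
          have := hmono _ hp.1 (hX p hp).1 hc' hc
          simp only [(hX p hp).2] at this
          linarith
        filter_upwards [self_mem_nhdsWithin, (hsl c hc' p hp).eventually (lt_mem_nhds h2)] with q hq hq'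
        refine ((hmono _ hq.1).lt_iff_lt (hX q hq).1 hc').1 ?_
        simp only [(hX q hq).2]
        linarith
  have hder : ∀ p ∈ gD T, HasFDerivWithinAt X
      (pd (-θt (p.1, X p) / θx (p.1, X p)) (1 / θx (p.1, X p))) (gD T) p := fun p hp => by
    have hb := (hpos _ (hmap p hp)).ne'
    have hg : Tendsto (fun q : ℝ × ℝ => (q.1, X q)) (𝓝[gD T] p) (𝓝[gD T] (p.1, X p)) :=
      (continuousWithinAt_fst.prodMk (hcont p hp)).tendsto_nhdsWithin hmap
    have hf : HasFDerivWithinAt (fun q : ℝ × ℝ => (q.1, θ q))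
        ((ContinuousLinearMap.fst ℝ ℝ ℝ).prod (pd (θt (p.1, X p)) (θx (p.1, X p)))) (gD T) (p.1, X p) :=
      hasFDerivWithinAt_fst.prodMk (hd _ (hmap p hp))
    have key := HasFDerivWithinAt.of_comp_of_leftInverse (g := fun q : ℝ × ℝ => (q.1, X q))
      (f'symm := (ContinuousLinearMap.fst ℝ ℝ ℝ).prod
        (pd (-θt (p.1, X p) / θx (p.1, X p)) (1 / θx (p.1, X p)))) hg hf (hasFDerivWithinAt_id p (gD T))
      (by
        filter_upwards [self_mem_nhdsWithin] with q hq
        simp only [Function.comp_apply, (hX q hq).2, id])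
      (fun v => by
        ext
        · simp
        · simp only [ContinuousLinearMap.prod_apply, pd_apply, ContinuousLinearMap.coe_fst']
          field_simp
          ring) hp
    exact key.snd.congr_fderiv (by ext <;> simp)
  obtain ⟨a, b, ha, hb, hab⟩ := exists_pd hθ
  have he : ∀ p ∈ gD T, θt p = a p ∧ θx p = b p := fun p hp => by
    have := (uniqueDiffOn_gD T p hp).eq (hd p hp) (hab p hp)
    have e1 := congrArg (fun L : ℝ × ℝ →L[ℝ] ℝ => L (1, 0)) this
    have e2 := congrArg (fun L : ℝ × ℝ →L[ℝ] ℝ => L (0, 1)) this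
    simpa using And.intro e1 e2
  have hn : ∀ n : ℕ, ContDiffOn ℝ n X (gD T) := fun n => by
    induction n with
    | zero => exact contDiffOn_zero.2 hcont
    | succ n ih =>
      have hΞ : ContDiffOn ℝ n (fun q : ℝ × ℝ => (q.1, X q)) (gD T) := contDiffOn_fst.prodMk ih
      have ha' := (contDiffOn_infty.1 ha n).comp hΞ hmap
      have hb' := (contDiffOn_infty.1 hb n).comp hΞ hmap
      have hb0 : ∀ q ∈ gD T, b (q.1, X q) ≠ 0 := fun q hq => by
        rw [← (he _ (hmap q hq)).2]; exact (hpos _ (hmap q hq)).ne'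
      refine contDiffOn_succ_of_pd (a := fun q => -a (q.1, X q) / b (q.1, X q)) (b := fun q => 1 / b (q.1, X q))
        (ha'.neg.div hb' hb0) (contDiffOn_const.div hb' hb0) fun p hp => ?_
      have := hder p hp
      rwa [(he _ (hmap p hp)).1, (he _ (hmap p hp)).2] at this
  exact ⟨X, contDiffOn_infty.2 hn, hX, hder⟩

end Crest.Agent.R213
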