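import Crest.Agent.R213.GeoP
import Crest.Agent.R213.GeoI

/-!
# R213 / GeoH : the Legendre transform

Prefix helper lemmas with `gh_`.  With `F, Ft, f` from `exists_Ff`, `g = 1 + x(1-x)q`, `W = 1 - x + x e^F > 0`:
`θ = x e^F / W`, `θ_x = e^F/(g W²)`, `θ_t = x(1-x) e^F Ft / W²`; `X` from `exists_inv`;
`G = -log W + x F - f`, `G_x = (1 - e^F)/(g W)`, `G_t = x(1-x) Ft (1 - e^F)/W + S - 110`; `Hh p = G (p.1, X p)` has
`dHh = pd (S(t,X) - 110) (J (t,X))` with `J = (e^{-F} - 1) W`.  With `x = X (t,x0)`: `x0 = x e^F/W`, `1 - x0 = (1-x)/W`,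
`1 + J (1 - x0) = W e^{-F}`, `x = x0 + x0 (1-x0) J`; differentiating this within `[0,1]` identifies
`1 + (1-2x0) H1 + x0(1-x0) H2` with `X_{x0} = g W² e^{-F}`.
-/

set_option autoImplicit false

open Set Filter Topology
open scoped ContDiff ComplexOrder
open Crest.GeometryTopology.ProjKahler

namespace Crest.Agent.R213

section gh

variable {s : Set (ℝ × ℝ)} {p : ℝ × ℝ} {u v : ℝ × ℝ → ℝ} {a b c d : ℝ}

theorem gh_congr (h : HasFDerivWithinAt u (pd a b) s p) (h1 : a = c) (h2 : b = d) :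
    HasFDerivWithinAt u (pd c d) s p := h1 ▸ h2 ▸ h

theorem gh_const (k : ℝ) : HasFDerivWithinAt (fun _ : ℝ × ℝ => k) (pd 0 0) s p :=
  (hasFDerivWithinAt_const k p s).congr_fderiv (by ext <;> simp)

theorem gh_snd : HasFDerivWithinAt (fun y : ℝ × ℝ => y.2) (pd 0 1) s p :=
  hasFDerivWithinAt_snd.congr_fderiv (by ext <;> simp)

theorem gh_add (hu : HasFDerivWithinAt u (pd a b) s p) (hv : HasFDerivWithinAt v (pd c d) s p) :
    HasFDerivWithinAt (fun y => u y + v y) (pd (a + c) (b + d)) s p :=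
  (hu.add hv).congr_fderiv (by ext <;> simp)

theorem gh_sub (hu : HasFDerivWithinAt u (pd a b) s p) (hv : HasFDerivWithinAt v (pd c d) s p) :
    HasFDerivWithinAt (fun y => u y - v y) (pd (a - c) (b - d)) s p :=
  (hu.sub hv).congr_fderiv (by ext <;> simp)

theorem gh_mul (hu : HasFDerivWithinAt u (pd a b) s p) (hv : HasFDerivWithinAt v (pd c d) s p) :
    HasFDerivWithinAt (fun y => u y * v y) (pd (u p * c + v p * a) (u p * d + v p * b)) s p :=
  (hu.mul hv).congr_fderiv (by ext <;> simp)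

theorem gh_comp {φ : ℝ → ℝ} {φ' : ℝ} (hφ : HasDerivAt φ φ' (u p)) (hu : HasFDerivWithinAt u (pd a b) s p) :
    HasFDerivWithinAt (fun y => φ (u y)) (pd (φ' * a) (φ' * b)) s p :=
  (hφ.comp_hasFDerivWithinAt p hu).congr_fderiv (by ext <;> simp)

theorem gh_chain {G X : ℝ × ℝ → ℝ} (hG : HasFDerivWithinAt G (pd a b) s (p.1, X p))
    (hX : HasFDerivWithinAt X (pd c d) s p) (hm : MapsTo (fun y : ℝ × ℝ => (y.1, X y)) s s) :
    HasFDerivWithinAt (fun y => G (y.1, X y)) (pd (a + b * c) (b * d)) s p :=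
  (hG.comp p (hasFDerivWithinAt_fst.prodMk hX) hm).congr_fderiv (by ext <;> simp)

theorem gh_W {x e : ℝ} (hx : x ∈ Icc (0 : ℝ) 1) (he : 0 < e) : 0 < 1 - x + x * e := by
  rcases eq_or_lt_of_le hx.2 with h | h
  · rw [h]; simpa using he
  · have := mul_nonneg hx.1 he.le
    linarith

end gh

theorem exists_prof {T : ℝ} {q S : ℝ → ℝ → ℝ} (hq : ContDiffOn ℝ ∞ (Function.uncurry q) (gD T))
    (hS : ContDiffOn ℝ ∞ (Function.uncurry S) (gD T))
    (hpos : ∀ t ∈ Ico 0 T, ∀ x ∈ Icc (0 : ℝ) 1, 0 < 1 + x * (1 - x) * q t x)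
    (hfl : ∀ t ∈ Ioo 0 T, ∀ x ∈ Ioo (0 : ℝ) 1,
      HasDerivAt (fun r => x * (1 - x) * (1 + x * (1 - x) * q r x))
        ((x * (1 - x) * (1 + x * (1 - x) * q t x)) ^ 2 * deriv (deriv (S t)) x) t) :
    ∃ Hh X : ℝ × ℝ → ℝ, ContDiffOn ℝ ∞ Hh (gD T) ∧
      (∀ t ∈ Ioo 0 T, ∀ x ∈ Icc (0 : ℝ) 1, HasDerivAt (fun r => Hh (r, x)) (S t (X (t, x)) - 110) t) ∧
      ∀ t ∈ Ico 0 T, ∃ H1 H2 : ℝ → ℝ, Prof (fun y => y * (1 - y) * (1 + y * (1 - y) * q t y))
        (fun x => Hh (t, x)) H1 H2 fun x => X (t, x) := by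
  obtain ⟨F, Ft, f, sF, sf, dF, df⟩ := exists_Ff hq hS hpos hfl
  have hg : ∀ p ∈ gD T, 0 < 1 + p.2 * (1 - p.2) * q p.1 p.2 := fun p hp => hpos _ hp.1 _ hp.2
  set W : ℝ × ℝ → ℝ := fun p => 1 - p.2 + p.2 * Real.exp (F p) with hWd
  have hW : ∀ p ∈ gD T, 0 < W p := fun p hp => gh_W hp.2 (Real.exp_pos _)
  have sE : ContDiffOn ℝ ∞ (fun p => Real.exp (F p)) (gD T) := sF.exp
  have sW : ContDiffOn ℝ ∞ W (gD T) := (contDiffOn_const.sub contDiffOn_snd).add (contDiffOn_snd.mul sE)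
  have dE := fun p hp => gh_comp (Real.hasDerivAt_exp (F p)) (dF p hp)
  have dxE := fun p hp => gh_mul gh_snd (dE p hp)
  have dW := fun p hp => gh_add (gh_sub (gh_const 1) gh_snd) (dxE p hp)
  -- the change of momentum
  set θ : ℝ × ℝ → ℝ := fun p => p.2 * Real.exp (F p) * (W p)⁻¹ with hθd
  set θt : ℝ × ℝ → ℝ := fun p => p.2 * (1 - p.2) * Real.exp (F p) * Ft p / W p ^ 2 with hθt
  set θx : ℝ × ℝ → ℝ := fun p => Real.exp (F p) / ((1 + p.2 * (1 - p.2) * q p.1 p.2) * W p ^ 2) with hθx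
  have sθ : ContDiffOn ℝ ∞ θ (gD T) := (contDiffOn_snd.mul sE).mul (sW.inv fun p hp => (hW p hp).ne')
  have dθ : ∀ p ∈ gD T, HasFDerivWithinAt θ (pd (θt p) (θx p)) (gD T) p := by
    intro p hp
    have h1 := (hg p hp).ne'
    have h2 := (hW p hp).ne'
    refine gh_congr (gh_mul (dxE p hp) (gh_comp (u := W) (hasDerivAt_inv h2) (dW p hp))) ?_ ?_
    · simp only [hθt]
      field_simp
      simp only [hWd]
      ring
    · simp only [hθx]
      generalize hgd : 1 + p.2 * (1 - p.2) * q p.1 p.2 = g at h1 ⊢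
      field_simp
      subst hgd
      simp only [hWd]
      ring
  have hθx0 : ∀ p ∈ gD T, 0 < θx p := fun p hp =>
    div_pos (Real.exp_pos _) (mul_pos (hg p hp) (pow_pos (hW p hp) 2))
  obtain ⟨X, sX, hX, dX⟩ := exists_inv sθ dθ hθx0 (fun t _ => by simp [hθd])
    (fun t _ => by simp [hθd, hWd])
  have hm : MapsTo (fun y : ℝ × ℝ => (y.1, X y)) (gD T) (gD T) := fun p hp => mk_mem_gD hp.1 (hX p hp).1
  have sΞ : ContDiffOn ℝ ∞ (fun y : ℝ × ℝ => (y.1, X y)) (gD T) := contDiffOn_fst.prodMk sX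
  set G : ℝ × ℝ → ℝ := fun p => p.2 * F p - Real.log (W p) - f p with hGd
  set J : ℝ × ℝ → ℝ := fun p => ((Real.exp (F p))⁻¹ - 1) * W p with hJd
  have sG : ContDiffOn ℝ ∞ G (gD T) :=
    ((contDiffOn_snd.mul sF).sub (sW.log fun p hp => (hW p hp).ne')).sub sf
  have sJ : ContDiffOn ℝ ∞ J (gD T) :=
    ((sE.inv fun p _ => (Real.exp_pos _).ne').sub contDiffOn_const).mul sW
  have dG : ∀ p ∈ gD T, HasFDerivWithinAt G
      (pd (p.2 * (1 - p.2) * Ft p * (1 - Real.exp (F p)) / W p + (S p.1 p.2 - 110))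
        ((1 - Real.exp (F p)) / ((1 + p.2 * (1 - p.2) * q p.1 p.2) * W p))) (gD T) p := by
    intro p hp
    have h1 := (hg p hp).ne'
    have h2 := (hW p hp).ne'
    refine gh_congr (gh_sub (gh_sub (gh_mul gh_snd (dF p hp))
      (gh_comp (u := W) (Real.hasDerivAt_log h2) (dW p hp))) (df p hp)) ?_ ?_
    · field_simp
      simp only [hWd]
      ring
    · generalize hgd : 1 + p.2 * (1 - p.2) * q p.1 p.2 = g at h1 ⊢
      field_simp
      subst hgd
      simp only [hWd]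
      ring
  have dH : ∀ p ∈ gD T, HasFDerivWithinAt (fun y => G (y.1, X y))
      (pd (S p.1 (X p) - 110) (J (p.1, X p))) (gD T) p := by
    intro p hp
    have h1 := (hg _ (hm hp)).ne'
    have h2 := (hW _ (hm hp)).ne'
    have h3 := (Real.exp_pos (F (p.1, X p))).ne'
    refine gh_congr (gh_chain (dG _ (hm hp)) (dX p hp) hm) ?_ ?_
    · simp only [hθt, hθx] at h1 ⊢
      field_simp
      ring
    · simp only [hθx, hJd] at h1 ⊢
      field_simp
  refine ⟨fun y => G (y.1, X y), X, sG.comp sΞ hm, fun t ht x hx =>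
    slice_t ht hx (dH _ (mk_mem_gD (Ioo_subset_Ico_self ht) hx)), fun t ht => ?_⟩
  have s1 : ContDiffOn ℝ ∞ (fun x => J (t, X (t, x))) (Icc 0 1) :=
    contDiffOn_slice (F := fun y => J (y.1, X y)) ht (sJ.comp sΞ hm)
  have uI : UniqueDiffOn ℝ (Icc (0 : ℝ) 1) := uniqueDiffOn_Icc zero_lt_one
  have d1 : ∀ x ∈ Icc (0 : ℝ) 1, HasDerivWithinAt (fun x => J (t, X (t, x)))
      (derivWithin (fun x => J (t, X (t, x))) (Icc 0 1) x) (Icc 0 1) x := fun x hx =>
    (s1.differentiableOn (by simp) x hx).hasDerivWithinAt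
  have hx0 : ∀ x ∈ Icc (0 : ℝ) 1,
      X (t, x) * Real.exp (F (t, X (t, x))) * (W (t, X (t, x)))⁻¹ = x := fun x hx => (hX _ (mk_mem_gD ht hx)).2
  have hx1 : ∀ x ∈ Icc (0 : ℝ) 1, 1 - x = (1 - X (t, x)) * (W (t, X (t, x)))⁻¹ := by
    intro x hx
    have h2 := (hW _ (hm (mk_mem_gD ht hx))).ne'
    have h4 := hx0 x hx
    simp only at h2
    rw [← sub_eq_zero]
    nth_rewrite 1 [← h4]
    field_simp
    simp only [hWd]
    ring
  have hXe : ∀ x ∈ Icc (0 : ℝ) 1, X (t, x) = x + x * (1 - x) * J (t, X (t, x)) := by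
    intro x hx
    have h2 := (hW _ (hm (mk_mem_gD ht hx))).ne'
    have h3 := (Real.exp_pos (F (t, X (t, x)))).ne'
    have h4 := hx0 x hx
    have h5 := hx1 x hx
    simp only at h2
    simp only [hJd]
    rw [h5]
    generalize X (t, x) = y at *
    rw [← h4]
    field_simp
    simp only [hWd]
    ring
  have hB : ∀ x ∈ Icc (0 : ℝ) 1, 1 + (1 - 2 * x) * J (t, X (t, x)) +
      x * (1 - x) * derivWithin (fun x => J (t, X (t, x))) (Icc 0 1) x = 1 / θx (t, X (t, x)) := by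
    intro x hx
    have e1 := slice_x ht (dX _ (mk_mem_gD ht hx))
    have e2 : HasDerivWithinAt (fun y => y + y * (1 - y) * J (t, X (t, y)))
        (1 + (1 - 2 * x) * J (t, X (t, x)) +
          x * (1 - x) * derivWithin (fun x => J (t, X (t, x))) (Icc 0 1) x) (Icc 0 1) x := by
      have i := hasDerivWithinAt_id x (Icc (0 : ℝ) 1)
      exact (i.add ((i.mul ((hasDerivWithinAt_const x _ (1 : ℝ)).sub i)).mul (d1 x hx))).congr_deriv
        (by simp only [id, Pi.mul_apply, Pi.sub_apply]; ring)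
    exact (uI x hx).eq_deriv _ (e2.congr (fun y hy => hXe y hy) (hXe x hx)) e1
  refine ⟨fun x => J (t, X (t, x)), derivWithin (fun x => J (t, X (t, x))) (Icc 0 1),
    fun x hx => slice_x (F := fun y => G (y.1, X y)) ht (dH _ (mk_mem_gD ht hx)), d1, s1,
    s1.derivWithin uI (by simp), fun x hx => ?_, fun x hx => ?_, hXe, fun x hx => ?_, fun x hx => ?_⟩
  · have h2 := hW _ (hm (mk_mem_gD ht hx))
    have h3 := Real.exp_pos (F (t, X (t, x)))
    simp only at h2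
    have e : 1 + J (t, X (t, x)) * (1 - x) = W (t, X (t, x)) / Real.exp (F (t, X (t, x))) := by
      rw [hx1 x hx]
      simp only [hJd]
      field_simp
      simp only [hWd]
      ring
    rw [e]
    positivity
  · rw [hB x hx]
    exact one_div_pos.2 (hθx0 _ (hm (mk_mem_gD ht hx)))
  · have hx' := Ico_subset_Icc_self hx
    have h2 := hW _ (hm (mk_mem_gD ht hx'))
    have h5 := hx1 x hx'
    have h6 : 0 < (1 - X (t, x)) * (W (t, X (t, x)))⁻¹ := by rw [← h5]; linarith [hx.2]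
    have := (mul_pos_iff_of_pos_right (inv_pos.2 h2)).1 h6
    linarith
  · have h1 := (hg _ (hm (mk_mem_gD ht hx))).ne'
    have h2 := (hW _ (hm (mk_mem_gD ht hx))).ne'
    have h3 := (Real.exp_pos (F (t, X (t, x)))).ne'
    have h4 := hx0 x hx
    simp only at h1 h2
    rw [hB x hx, hx1 x hx]
    simp only [hθx]
    generalize X (t, x) = y at *
    rw [← h4]
    field_simp

end Crest.Agent.R213
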