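import Crest.Agent.R213.GeoW

/-!
# R213 / GeoK : positivity in the chart `U_k`

Prefix helper lemmas with `gk_`.  Notation: `N = 1 + ‖w‖²`, `y = ‖w k‖² / N`, `x = 1 - y`,
`m a = δ_{ak} - w k * conj (w a) / N`.  Then `∂_a y = conj (w k) * m a / N`, `∂̄_b y = w k * conj (m b) / N`.
-/

set_option autoImplicit false

open Set Filter Topology
open scoped ContDiff ComplexOrder
open Crest.GeometryTopology.ProjKahler

namespace Crest.Agent.R213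

/-- The vector `m`. -/
noncomputable def mv {n : ℕ} (k : Fin n) (w : V n) (a : Fin n) : ℂ :=
  (if a = k then 1 else 0) - w k * (starRingEnd ℂ) (w a) / ((1 + ‖w‖ ^ 2 : ℝ) : ℂ)

/-- The matrix `A g_FS + c m m* / N`. -/
noncomputable def kMat {n : ℕ} (k : Fin n) (A c : ℝ) (w : V n) : Matrix (Fin n) (Fin n) ℂ :=
  Matrix.of fun a b => (A : ℂ) * ((if a = b then 1 else 0) / ((1 + ‖w‖ ^ 2 : ℝ) : ℂ) -
      (starRingEnd ℂ) (w a) * w b / ((1 + ‖w‖ ^ 2 : ℝ) : ℂ) ^ 2) +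
    (c : ℂ) * (mv k w a * (starRingEnd ℂ) (mv k w b)) / ((1 + ‖w‖ ^ 2 : ℝ) : ℂ)

theorem gk_diff_inv {n : ℕ} (z : V n) :
    DifferentiableAt ℝ (fun u : V n => (((1 + ‖u‖ ^ 2)⁻¹ : ℝ) : ℂ)) z := by
  refine differentiableAt_ofReal ?_
  have h1 : DifferentiableAt ℝ (fun u : V n => ‖u‖ ^ 2) z :=
    (contDiff_normSq.differentiable (by simp)) z
  exact (h1.const_add 1).inv (by positivity)

theorem gk_hasDeriv_inv (r : ℝ) (hr : 0 ≤ r) :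
    HasDerivWithinAt (fun r : ℝ => (1 + r)⁻¹) (-((1 + r)⁻¹) ^ 2) univ r := by
  have h := ((hasDerivAt_id r).const_add 1).inv (by simp only [id]; positivity)
  refine (h.congr_deriv ?_).hasDerivWithinAt
  simp only [id]
  field_simp

theorem gk_dz_inv {n : ℕ} (z : V n) (a : Fin n) :
    dz (fun u : V n => (((1 + ‖u‖ ^ 2)⁻¹ : ℝ) : ℂ)) z a =
      -(((1 + ‖z‖ ^ 2)⁻¹ : ℝ) : ℂ) ^ 2 * (starRingEnd ℂ) (z a) := by
  have h1 : DifferentiableAt ℝ (fun u : V n => ‖u‖ ^ 2) z :=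
    (contDiff_normSq.differentiable (by simp)) z
  have := dz_comp (f := fun r : ℝ => (1 + r)⁻¹) (y := fun u : V n => ‖u‖ ^ 2) (z := z)
    (gk_hasDeriv_inv _ (by positivity)) h1 (fun _ => mem_univ _) a
  rw [this, dz_normSq]
  push_cast
  ring

theorem gk_dzbar_inv {n : ℕ} (z : V n) (a : Fin n) :
    dzbar (fun u : V n => (((1 + ‖u‖ ^ 2)⁻¹ : ℝ) : ℂ)) z a =
      -(((1 + ‖z‖ ^ 2)⁻¹ : ℝ) : ℂ) ^ 2 * z a := by
  have h1 : DifferentiableAt ℝ (fun u : V n => ‖u‖ ^ 2) z :=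
    (contDiff_normSq.differentiable (by simp)) z
  have := dzbar_comp (f := fun r : ℝ => (1 + r)⁻¹) (y := fun u : V n => ‖u‖ ^ 2) (z := z)
    (gk_hasDeriv_inv _ (by positivity)) h1 (fun _ => mem_univ _) a
  rw [this, dzbar_normSq]
  push_cast
  ring

theorem gk_diff_q {n : ℕ} (k : Fin n) (z : V n) :
    DifferentiableAt ℝ (fun u : V n => ((‖u k‖ ^ 2 : ℝ) : ℂ)) z :=
  differentiableAt_ofReal (((contDiff_coordSq k).differentiable (by simp)) z)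

theorem gk_diff_x {n : ℕ} (k : Fin n) (z : V n) :
    DifferentiableAt ℝ (fun u : V n => 1 - ‖u k‖ ^ 2 / (1 + ‖u‖ ^ 2)) z := by
  have h1 : DifferentiableAt ℝ (fun u : V n => ‖u‖ ^ 2) z :=
    (contDiff_normSq.differentiable (by simp)) z
  have h2 : DifferentiableAt ℝ (fun u : V n => ‖u k‖ ^ 2) z :=
    ((contDiff_coordSq k).differentiable (by simp)) z
  have h3 : (1 + ‖z‖ ^ 2 : ℝ) ≠ 0 := by positivity
  simp only [div_eq_mul_inv]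
  exact (h2.fun_mul ((h1.const_add 1).fun_inv h3)).const_sub 1

theorem gk_x_eq {n : ℕ} (k : Fin n) :
    (fun u : V n => ((1 - ‖u k‖ ^ 2 / (1 + ‖u‖ ^ 2) : ℝ) : ℂ)) =
      fun u : V n => (1 : ℂ) + (-1 : ℂ) * (((‖u k‖ ^ 2 : ℝ) : ℂ) * (((1 + ‖u‖ ^ 2)⁻¹ : ℝ) : ℂ)) := by
  funext u
  push_cast
  ring

theorem gk_ite (p : Prop) [Decidable p] (c : ℂ) : (if p then c else (0 : ℂ)) = (if p then (1 : ℂ) else 0) * c := by
  split_ifs <;> simp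

theorem gk_dz_x {n : ℕ} (k : Fin n) (z : V n) (a : Fin n) :
    dz (fun u : V n => ((1 - ‖u k‖ ^ 2 / (1 + ‖u‖ ^ 2) : ℝ) : ℂ)) z a =
      ((‖z k‖ ^ 2 : ℝ) : ℂ) * (((1 + ‖z‖ ^ 2)⁻¹ : ℝ) : ℂ) ^ 2 * (starRingEnd ℂ) (z a) -
        (if a = k then (1 : ℂ) else 0) * (starRingEnd ℂ) (z k) * (((1 + ‖z‖ ^ 2)⁻¹ : ℝ) : ℂ) := by
  have hm := (gk_diff_q k z).fun_mul (gk_diff_inv z)
  rw [gk_x_eq, dz_add (differentiableAt_const _) ((differentiableAt_const _).fun_mul hm), dz_const,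
    dz_mul (differentiableAt_const _) hm, dz_const, dz_mul (gk_diff_q k z) (gk_diff_inv z), dz_coordSq, gk_dz_inv,
    gk_ite (a = k) ((starRingEnd ℂ) (z k))]
  ring

theorem gk_dzbar_x {n : ℕ} (k : Fin n) (z : V n) (a : Fin n) :
    dzbar (fun u : V n => ((1 - ‖u k‖ ^ 2 / (1 + ‖u‖ ^ 2) : ℝ) : ℂ)) z a =
      ((‖z k‖ ^ 2 : ℝ) : ℂ) * (((1 + ‖z‖ ^ 2)⁻¹ : ℝ) : ℂ) ^ 2 * z a -
        (if a = k then (1 : ℂ) else 0) * z k * (((1 + ‖z‖ ^ 2)⁻¹ : ℝ) : ℂ) := by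
  have hm := (gk_diff_q k z).fun_mul (gk_diff_inv z)
  rw [gk_x_eq, dzbar_add (differentiableAt_const _) ((differentiableAt_const _).fun_mul hm), dzbar_const,
    dzbar_mul (differentiableAt_const _) hm, dzbar_const, dzbar_mul (gk_diff_q k z) (gk_diff_inv z), dzbar_coordSq,
    gk_dzbar_inv, gk_ite (a = k) (z k)]
  ring

theorem gk_dzbar_psi {n : ℕ} {H H1 : ℝ → ℝ} (k : Fin n)
    (h0 : ∀ x ∈ Icc (0 : ℝ) 1, HasDerivWithinAt H (H1 x) (Icc 0 1) x) (b : Fin n) :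
    (fun z : V n => dzbar (fun u : V n => ((fsPot u + H (1 - ‖u k‖ ^ 2 / (1 + ‖u‖ ^ 2)) : ℝ) : ℂ)) z b) =
      fun z : V n => (((1 + ‖z‖ ^ 2)⁻¹ : ℝ) : ℂ) * z b + (H1 (1 - ‖z k‖ ^ 2 / (1 + ‖z‖ ^ 2)) : ℂ) *
        ((((‖z k‖ ^ 2 : ℝ) : ℂ) * z b) * ((((1 + ‖z‖ ^ 2)⁻¹ : ℝ) : ℂ) * (((1 + ‖z‖ ^ 2)⁻¹ : ℝ) : ℂ)) +
          (-(if b = k then (1 : ℂ) else 0)) * (z k * (((1 + ‖z‖ ^ 2)⁻¹ : ℝ) : ℂ))) := by
  funext z
  have h1 : DifferentiableAt ℝ (fun u : V n => ‖u‖ ^ 2) z :=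
    (contDiff_normSq.differentiable (by simp)) z
  have hlog : HasDerivWithinAt (fun r : ℝ => Real.log (1 + r)) ((1 + ‖z‖ ^ 2)⁻¹) univ (‖z‖ ^ 2) := by
    have h := ((hasDerivAt_id (‖z‖ ^ 2)).const_add 1).log (by simp only [id]; positivity)
    refine (h.congr_deriv ?_).hasDerivWithinAt
    simp
  have hH := h0 _ (mom_mem' k z)
  have e : (fun u : V n => ((fsPot u + H (1 - ‖u k‖ ^ 2 / (1 + ‖u‖ ^ 2)) : ℝ) : ℂ)) =
      fun u : V n => ((Real.log (1 + ‖u‖ ^ 2) : ℝ) : ℂ) + ((H (1 - ‖u k‖ ^ 2 / (1 + ‖u‖ ^ 2)) : ℝ) : ℂ) := by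
    funext u
    simp only [fsPot, Complex.ofReal_add]
  have d1 : DifferentiableAt ℝ (fun u : V n => ((Real.log (1 + ‖u‖ ^ 2) : ℝ) : ℂ)) z :=
    differentiableAt_ofReal (hasFDerivAt_comp_within (f := fun r : ℝ => Real.log (1 + r))
      (y := fun u : V n => ‖u‖ ^ 2) hlog h1 (fun _ => mem_univ _)).differentiableAt
  have d2 : DifferentiableAt ℝ (fun u : V n => ((H (1 - ‖u k‖ ^ 2 / (1 + ‖u‖ ^ 2)) : ℝ) : ℂ)) z :=
    differentiableAt_ofReal (hasFDerivAt_comp_within (f := H)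
      (y := fun u : V n => 1 - ‖u k‖ ^ 2 / (1 + ‖u‖ ^ 2)) hH (gk_diff_x k z) (mom_mem' k)).differentiableAt
  rw [e, dzbar_add d1 d2, dzbar_comp (f := fun r : ℝ => Real.log (1 + r))
      (y := fun u : V n => ‖u‖ ^ 2) hlog h1 (fun _ => mem_univ _),
    dzbar_comp (f := H) (y := fun u : V n => 1 - ‖u k‖ ^ 2 / (1 + ‖u‖ ^ 2)) hH (gk_diff_x k z) (mom_mem' k),
    dzbar_normSq, gk_dzbar_x]
  ring

/-- For all `w`: `∂̄_b Ψ = w b / N - H1(x) (δ_{bk} w k / N - ‖w k‖² w b / N²)` (write `1/N` as a function of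
`‖w‖²` and use `dzbar_comp`, `dzbar_mul`); then apply `dz_add`, `dz_mul`, `dz_comp`, and finish with `field_simp`,
`ring` and `conj (w k) * w k = ‖w k‖²` (cases `a = b`, `a = k`, `b = k`). -/
theorem cHess_ext {n : ℕ} {H H1 : ℝ → ℝ} {H2 : ℝ} (k : Fin n) (w : V n)
    (h0 : ∀ x ∈ Icc (0 : ℝ) 1, HasDerivWithinAt H (H1 x) (Icc 0 1) x)
    (h1 : HasDerivWithinAt H1 H2 (Icc 0 1) (1 - ‖w k‖ ^ 2 / (1 + ‖w‖ ^ 2))) :
    cHess (fun u => fsPot u + H (1 - ‖u k‖ ^ 2 / (1 + ‖u‖ ^ 2))) w =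
      kMat k (1 + H1 (1 - ‖w k‖ ^ 2 / (1 + ‖w‖ ^ 2)) * (‖w k‖ ^ 2 / (1 + ‖w‖ ^ 2)))
        (‖w k‖ ^ 2 / (1 + ‖w‖ ^ 2) * H2 - H1 (1 - ‖w k‖ ^ 2 / (1 + ‖w‖ ^ 2))) w := by
  ext a b
  have dI := gk_diff_inv w
  have dq := gk_diff_q k w
  have db := differentiableAt_coord b w
  have dk := differentiableAt_coord k w
  have dH : DifferentiableAt ℝ (fun u : V n => ((H1 (1 - ‖u k‖ ^ 2 / (1 + ‖u‖ ^ 2)) : ℝ) : ℂ)) w :=
    differentiableAt_ofReal (hasFDerivAt_comp_within (f := H1)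
      (y := fun u : V n => 1 - ‖u k‖ ^ 2 / (1 + ‖u‖ ^ 2)) h1 (gk_diff_x k w) (mom_mem' k)).differentiableAt
  have d1 := (dq.fun_mul db).fun_mul (dI.fun_mul dI)
  have d2 := (differentiableAt_const (-(if b = k then (1 : ℂ) else 0))).fun_mul (dk.fun_mul dI)
  simp only [cHess, Matrix.of_apply]
  rw [gk_dzbar_psi k h0 b, dz_add (dI.fun_mul db) (dH.fun_mul (d1.fun_add d2)), dz_mul dI db, dz_mul dH (d1.fun_add d2),
    dz_add d1 d2, dz_mul (dq.fun_mul db) (dI.fun_mul dI), dz_mul dq db, dz_mul dI dI,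
    dz_mul (differentiableAt_const _) (dk.fun_mul dI), dz_mul dk dI, dz_const,
    dz_comp (f := H1) (y := fun u : V n => 1 - ‖u k‖ ^ 2 / (1 + ‖u‖ ^ 2)) h1 (gk_diff_x k w) (mom_mem' k),
    gk_dz_x, gk_dz_inv, dz_coordSq, dz_coord, dz_coord, gk_ite (a = k) ((starRingEnd ℂ) (w k))]
  have hq : ((‖w k‖ ^ 2 : ℝ) : ℂ) = w k * (starRingEnd ℂ) (w k) := by
    rw [Complex.mul_conj']; push_cast; ring
  have hN : ((1 + ‖w‖ ^ 2 : ℝ) : ℂ) ≠ 0 := by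
    exact_mod_cast (by positivity : (1 + ‖w‖ ^ 2 : ℝ) ≠ 0)
  have hc : (starRingEnd ℂ) (if b = k then (1 : ℂ) else 0) = if b = k then (1 : ℂ) else 0 := by
    split_ifs <;> simp
  simp only [kMat, mv, Matrix.of_apply, map_sub, map_div₀, map_mul, Complex.conj_conj, Complex.conj_ofReal, hc,
    Complex.ofReal_inv]
  generalize H1 (1 - ‖w k‖ ^ 2 / (1 + ‖w‖ ^ 2)) = h
  rw [Complex.ofReal_add 1 (h * _), Complex.ofReal_sub, Complex.ofReal_mul, Complex.ofReal_mul, Complex.ofReal_div, hq]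
  generalize ((1 + ‖w‖ ^ 2 : ℝ) : ℂ) = N at hN ⊢
  generalize (if a = k then (1 : ℂ) else 0) = dak
  generalize (if b = k then (1 : ℂ) else 0) = dbk
  generalize (if a = b then (1 : ℂ) else 0) = dab
  rw [Complex.ofReal_one]
  field_simp
  ring

theorem gk_ineq (wk xk ν : ℂ) (r s : ℝ) (hr : 0 ≤ r) (hs : 0 ≤ s) (hν : ‖ν‖ ^ 2 ≤ r * s) {N : ℝ}
    (hN : N = 1 + (‖wk‖ ^ 2 + r)) :
    ‖xk - (starRingEnd ℂ) wk * (wk * xk + ν) / (N : ℂ)‖ ^ 2 / N ≤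
      (1 - ‖wk‖ ^ 2 / N) * ((‖xk‖ ^ 2 + s) / N - ‖wk * xk + ν‖ ^ 2 / N ^ 2) := by
  have hN0 : 0 < N := by rw [hN]; positivity
  have hNc : (N : ℂ) ≠ 0 := by exact_mod_cast hN0.ne'
  have hq : ((‖wk‖ ^ 2 : ℝ) : ℂ) = wk * (starRingEnd ℂ) wk := by
    rw [Complex.mul_conj']; push_cast; ring
  have e1 : xk - (starRingEnd ℂ) wk * (wk * xk + ν) / (N : ℂ) =
      (((1 + r : ℝ) : ℂ) * xk - (starRingEnd ℂ) wk * ν) / (N : ℂ) := by
    have : (N : ℂ) = 1 + (wk * (starRingEnd ℂ) wk + r) := by rw [hN, ← hq]; push_cast; ring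
    field_simp
    rw [this]
    push_cast
    ring
  have e2 : (1 + r) * (N * (‖xk‖ ^ 2 + s) - ‖wk * xk + ν‖ ^ 2) -
      ‖((1 + r : ℝ) : ℂ) * xk - (starRingEnd ℂ) wk * ν‖ ^ 2 = N * ((1 + r) * s - ‖ν‖ ^ 2) := by
    rw [hN]
    simp only [Complex.sq_norm, Complex.normSq_apply, Complex.add_re, Complex.add_im, Complex.mul_re, Complex.mul_im,
      Complex.sub_re, Complex.sub_im, Complex.conj_re, Complex.conj_im, Complex.ofReal_re, Complex.ofReal_im]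
    ring
  have e3 : 1 - ‖wk‖ ^ 2 / N = (1 + r) / N := by
    field_simp
    rw [hN]; ring
  have h4 : 0 ≤ N * ((1 + r) * s - ‖ν‖ ^ 2) := mul_nonneg hN0.le (by nlinarith)
  rw [e1, e3, norm_div, Complex.norm_real, Real.norm_eq_abs, abs_of_pos hN0, div_pow]
  have e5 : (1 + r) / N * ((‖xk‖ ^ 2 + s) / N - ‖wk * xk + ν‖ ^ 2 / N ^ 2) =
      (1 + r) * (N * (‖xk‖ ^ 2 + s) - ‖wk * xk + ν‖ ^ 2) / N ^ 2 / N := by
    field_simp
  rw [e5]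
  gcongr
  linarith

theorem gk_cs {ι : Type*} (t : Finset ι) (w x : ι → ℂ) :
    ‖∑ b ∈ t, w b * x b‖ ^ 2 ≤ (∑ b ∈ t, ‖w b‖ ^ 2) * ∑ b ∈ t, ‖x b‖ ^ 2 := by
  refine le_trans ?_ (Finset.sum_mul_sq_le_sq_mul_sq t (fun b => ‖w b‖) fun b => ‖x b‖)
  refine pow_le_pow_left₀ (norm_nonneg _) ((norm_sum_le _ _).trans (le_of_eq ?_)) 2
  simp only [norm_mul]

theorem gk_form {n : ℕ} (k : Fin n) (w : V n) (A c : ℝ) (x : Fin n → ℂ) :
    star x ⬝ᵥ ((kMat k A c w).mulVec x) =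
      ((A * ((∑ b, ‖x b‖ ^ 2) / (1 + ‖w‖ ^ 2) - ‖∑ b, w b * x b‖ ^ 2 / (1 + ‖w‖ ^ 2) ^ 2) +
        c * (‖x k - (starRingEnd ℂ) (w k) * (∑ b, w b * x b) / ((1 + ‖w‖ ^ 2 : ℝ) : ℂ)‖ ^ 2 / (1 + ‖w‖ ^ 2)) : ℝ) :
          ℂ) := by
  have hq : ∀ u : ℂ, ((‖u‖ ^ 2 : ℝ) : ℂ) = (starRingEnd ℂ) u * u := fun u => by
    rw [mul_comm, Complex.mul_conj']; push_cast; ring
  have hμ : ∑ b, (starRingEnd ℂ) (mv k w b) * x b =
      x k - (starRingEnd ℂ) (w k) * (∑ b, w b * x b) / ((1 + ‖w‖ ^ 2 : ℝ) : ℂ) := by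
    have hc : ∀ b : Fin n, (starRingEnd ℂ) (if b = k then (1 : ℂ) else 0) = if b = k then (1 : ℂ) else 0 :=
      fun b => by split_ifs <;> simp
    simp only [mv, map_sub, map_div₀, map_mul, Complex.conj_conj, Complex.conj_ofReal, hc, sub_mul,
      Finset.sum_sub_distrib, ite_mul, one_mul, zero_mul, Finset.sum_ite_eq', Finset.mem_univ, if_true,
      Finset.mul_sum, Finset.sum_div]
    congr 1
    exact Finset.sum_congr rfl fun b _ => by ring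
  rw [← hμ, Complex.ofReal_add, Complex.ofReal_mul, Complex.ofReal_mul, Complex.ofReal_sub, Complex.ofReal_div,
    Complex.ofReal_div, Complex.ofReal_div, hq, hq, Complex.ofReal_pow, Complex.ofReal_sum]
  simp only [hq, kMat, dotProduct, Matrix.mulVec, Matrix.of_apply, Pi.star_apply, map_sum, map_mul, Complex.conj_conj,
    RCLike.star_def]
  generalize ((1 + ‖w‖ ^ 2 : ℝ) : ℂ) = N
  have e : ∀ a, (starRingEnd ℂ) (x a) * ∑ b, ((A : ℂ) * ((if a = b then 1 else 0) / N -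
        (starRingEnd ℂ) (w a) * w b / N ^ 2) + (c : ℂ) * (mv k w a * (starRingEnd ℂ) (mv k w b)) / N) * x b =
      (A : ℂ) / N * ((starRingEnd ℂ) (x a) * x a) -
        (A : ℂ) / N ^ 2 * (∑ b, w b * x b) * ((starRingEnd ℂ) (w a) * (starRingEnd ℂ) (x a)) +
        (c : ℂ) / N * (∑ b, (starRingEnd ℂ) (mv k w b) * x b) * (mv k w a * (starRingEnd ℂ) (x a)) := fun a => by
    have e1 : ∀ b, ((A : ℂ) * ((if a = b then 1 else 0) / N -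
        (starRingEnd ℂ) (w a) * w b / N ^ 2) + (c : ℂ) * (mv k w a * (starRingEnd ℂ) (mv k w b)) / N) * x b =
        (if a = b then (A : ℂ) / N * x b else 0) - (A : ℂ) / N ^ 2 * (starRingEnd ℂ) (w a) * (w b * x b) +
          (c : ℂ) / N * mv k w a * ((starRingEnd ℂ) (mv k w b) * x b) := fun b => by
      split_ifs <;> ring
    simp only [e1, Finset.sum_add_distrib, Finset.sum_sub_distrib, Finset.sum_ite_eq, Finset.mem_univ, if_true,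
      ← Finset.mul_sum]
    ring
  simp only [e, Finset.sum_add_distrib, Finset.sum_sub_distrib, ← Finset.mul_sum]
  ring

/-- With `ν = ∑ w b * x b`, `g = |x|²/N - |ν|²/N² > 0` and `E = |x k - conj (w k) ν / N|² / N` the form is
`A g + c E`, and `0 ≤ E ≤ (1 - y) g`.  (Cauchy–Schwarz in `ℂ × ℂⁿ`: `ζ = (0,x) - (ν/N) (1, conj w)` is orthogonal to
`Z = (1, conj w)`, `|ζ|² = N g`, and `ζ_k = ⟨e, ζ⟩` with `e = e_k - ` its component along `Z`, `|e|² = 1 - y`.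
Elementary version: `ν = w k * x k + ν'`, `r' = ∑_{b≠k} |w b|²`, `s' = ∑_{b≠k} |x b|²`, `|ν'|² ≤ r' s'`, `M = 1 + r'`,
`N = M + |w k|²`; then `N³ ((1-y) g - E) = N (M s' - |ν'|²) ≥ 0`.) -/
theorem kMat_posDef {n : ℕ} (k : Fin n) (w : V n) {A c : ℝ} (hA : 0 < A)
    (hB : 0 < A + (1 - ‖w k‖ ^ 2 / (1 + ‖w‖ ^ 2)) * c) : (kMat k A c w).PosDef := by
  refine Matrix.PosDef.of_dotProduct_mulVec_pos ?_ fun x hx => ?_
  · ext a b
    have hc : (starRingEnd ℂ) (if b = a then (1 : ℂ) else 0) = if a = b then (1 : ℂ) else 0 := by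
      by_cases h : a = b
      · simp [h]
      · simp [h, Ne.symm h]
    simp only [kMat, Matrix.conjTranspose_apply, Matrix.of_apply, RCLike.star_def, map_add, map_sub, map_mul,
      map_div₀, map_pow, Complex.conj_conj, Complex.conj_ofReal, hc]
    ring
  · rw [gk_form, Complex.zero_lt_real]
    have hw : ‖w‖ ^ 2 = ‖w k‖ ^ 2 + ∑ b ∈ Finset.univ.erase k, ‖w b‖ ^ 2 := by
      rw [EuclideanSpace.norm_sq_eq, Finset.add_sum_erase _ (fun b => ‖w b‖ ^ 2) (Finset.mem_univ k)]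
    have hx2 : ∑ b, ‖x b‖ ^ 2 = ‖x k‖ ^ 2 + ∑ b ∈ Finset.univ.erase k, ‖x b‖ ^ 2 :=
      (Finset.add_sum_erase _ (fun b => ‖x b‖ ^ 2) (Finset.mem_univ k)).symm
    have hν : ∑ b, w b * x b = w k * x k + ∑ b ∈ Finset.univ.erase k, w b * x b :=
      (Finset.add_sum_erase _ (fun b => w b * x b) (Finset.mem_univ k)).symm
    have hE := gk_ineq (w k) (x k) _ _ _ (Finset.sum_nonneg fun _ _ => by positivity)
      (Finset.sum_nonneg fun _ _ => by positivity) (gk_cs (Finset.univ.erase k) (fun b => w b) x)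
      (N := 1 + ‖w‖ ^ 2) (by rw [hw])
    rw [← hx2, ← hν] at hE
    have hpos : 0 < ∑ b, ‖x b‖ ^ 2 := by
      obtain ⟨b, hb⟩ := Function.ne_iff.1 hx
      exact Finset.sum_pos' (fun _ _ => by positivity) ⟨b, Finset.mem_univ _, pow_pos (norm_pos_iff.2 hb) 2⟩
    have hcs := gk_cs Finset.univ (fun b => w b) x
    rw [← EuclideanSpace.norm_sq_eq] at hcs
    have hN : 0 < 1 + ‖w‖ ^ 2 := by positivity
    have hg : 0 < (∑ b, ‖x b‖ ^ 2) / (1 + ‖w‖ ^ 2) - ‖∑ b, w b * x b‖ ^ 2 / (1 + ‖w‖ ^ 2) ^ 2 := by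
      rw [sub_pos, div_lt_div_iff₀ (by positivity) hN]
      have : ‖∑ b, w b * x b‖ ^ 2 < (∑ b, ‖x b‖ ^ 2) * (1 + ‖w‖ ^ 2) := by nlinarith
      nlinarith
    have hE0 : 0 ≤ ‖x k - (starRingEnd ℂ) (w k) * (∑ b, w b * x b) / ((1 + ‖w‖ ^ 2 : ℝ) : ℂ)‖ ^ 2 / (1 + ‖w‖ ^ 2) := by
      positivity
    generalize (∑ b, ‖x b‖ ^ 2) / (1 + ‖w‖ ^ 2) - ‖∑ b, w b * x b‖ ^ 2 / (1 + ‖w‖ ^ 2) ^ 2 = g at hE hg ⊢
    generalize ‖x k - (starRingEnd ℂ) (w k) * (∑ b, w b * x b) / ((1 + ‖w‖ ^ 2 : ℝ) : ℂ)‖ ^ 2 / (1 + ‖w‖ ^ 2) = E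
      at hE hE0 ⊢
    generalize 1 - ‖w k‖ ^ 2 / (1 + ‖w‖ ^ 2) = y at hE hB
    rcases le_total 0 c with hc | hc
    · have := mul_pos hA hg
      have := mul_nonneg hc hE0
      linarith
    · have h1 := mul_pos hB hg
      have h2 := mul_le_mul_of_nonpos_left hE hc
      nlinarith

theorem Prof.posDef_ext {φ H H1 H2 X : ℝ → ℝ} (P : Prof φ H H1 H2 X) {n : ℕ} (k : Fin n) (w : V n) :
    (cHess (fun u => fsPot u + H (1 - ‖u k‖ ^ 2 / (1 + ‖u‖ ^ 2))) w).PosDef := by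
  have hm := mom_mem' k w
  rw [cHess_ext k w P.d0 (P.d1 _ hm)]
  have hA := P.A _ hm
  have hB := P.B _ hm
  refine kMat_posDef k w (by simpa using hA) (hB.trans_eq (by ring))

end Crest.Agent.R213
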