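import Crest.Agent.R213.GeoW

/-!
# R213 / GeoL : linear algebra of `rad α γ z = α 1 + γ z̄ zᵀ`, scalar curvature of a radial potential

Prefix helper lemmas with `gl_`.  `∑ a, conj (z a) * z a = ‖z‖²` (`EuclideanSpace.norm_sq_eq`).
-/

set_option autoImplicit false

open Set Filter Topology
open scoped ContDiff ComplexOrder
open Crest.GeometryTopology.ProjKahler

namespace Crest.Agent.R213

theorem gl_sum {n : ℕ} (z : V n) : ∑ a, (starRingEnd ℂ) (z a) * z a = ((‖z‖ ^ 2 : ℝ) : ℂ) := by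
  rw [EuclideanSpace.norm_sq_eq, Complex.ofReal_sum]
  exact Finset.sum_congr rfl fun a _ => by rw [Complex.conj_mul']; simp

theorem gl_trace (a c : ℝ) (z : V 10) : ∑ b, rad a c z b b = ((10 * a + c * ‖z‖ ^ 2 : ℝ) : ℂ) := by
  simp only [rad, Matrix.of_apply, if_true, Finset.sum_add_distrib, ← Finset.mul_sum, gl_sum, Finset.sum_const,
    Finset.card_univ, Fintype.card_fin, nsmul_eq_mul]
  push_cast; ring

/-- `x* (rad α γ z) x = α |x|² + γ |∑ z b * x b|²` and `|∑ z b * x b|² ≤ ‖z‖² |x|²` (Cauchy–Schwarz); distinguish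
`0 ≤ γ` and `γ < 0`.  Use `Matrix.PosDef.of_dotProduct_mulVec_pos`. -/
theorem rad_posDef {n : ℕ} {α γ : ℝ} {z : V n} (hα : 0 < α) (hβ : 0 < α + ‖z‖ ^ 2 * γ) : (rad α γ z).PosDef := by
  refine Matrix.PosDef.of_dotProduct_mulVec_pos ?_ fun x hx => ?_
  · ext a b
    simp only [rad, Matrix.conjTranspose_apply, Matrix.of_apply, star_add, star_mul', RCLike.star_def,
      Complex.conj_ofReal, Complex.conj_conj]
    by_cases h : a = b
    · subst h; simp [mul_comm]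
    · simp [h, Ne.symm h, mul_comm]
  · set s : ℂ := ∑ b, z b * x b with hs
    set N : ℝ := ∑ b, ‖x b‖ ^ 2 with hN
    have hNc : ∑ a, (starRingEnd ℂ) (x a) * x a = (N : ℂ) := by
      rw [hN, Complex.ofReal_sum]
      exact Finset.sum_congr rfl fun a _ => by rw [Complex.conj_mul']; simp
    have key : star x ⬝ᵥ (rad α γ z).mulVec x = ((α * N + γ * ‖s‖ ^ 2 : ℝ) : ℂ) := by
      have h1 : ∀ a, (rad α γ z).mulVec x a = α * x a + γ * ((starRingEnd ℂ) (z a) * s) := by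
        intro a
        simp only [Matrix.mulVec, dotProduct, rad, Matrix.of_apply, add_mul, Finset.sum_add_distrib, ite_mul,
          zero_mul, Finset.sum_ite_eq, Finset.mem_univ, if_true, hs, Finset.mul_sum, mul_assoc]
      have h2 : ∑ a, (starRingEnd ℂ) (x a) * (starRingEnd ℂ) (z a) = (starRingEnd ℂ) s := by
        rw [hs, map_sum]
        exact Finset.sum_congr rfl fun a _ => by rw [map_mul, mul_comm]
      have h3 : star x ⬝ᵥ (rad α γ z).mulVec x =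
          α * ∑ a, (starRingEnd ℂ) (x a) * x a +
            γ * ((∑ a, (starRingEnd ℂ) (x a) * (starRingEnd ℂ) (z a)) * s) := by
        simp only [dotProduct, h1, Pi.star_apply, RCLike.star_def, Finset.mul_sum, Finset.sum_mul,
          ← Finset.sum_add_distrib]
        exact Finset.sum_congr rfl fun a _ => by ring
      rw [h3, hNc, h2, Complex.conj_mul']
      push_cast; ring
    rw [key, Complex.zero_lt_real]
    have hN0 : 0 < N := by
      obtain ⟨a, ha⟩ := Function.ne_iff.1 hx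
      exact Finset.sum_pos' (fun b _ => by positivity)
        ⟨a, Finset.mem_univ a, pow_pos (norm_pos_iff.2 ha) 2⟩
    have hcs : ‖s‖ ^ 2 ≤ ‖z‖ ^ 2 * N := by
      have h1 : ‖s‖ ≤ ∑ b, ‖z b‖ * ‖x b‖ :=
        (norm_sum_le _ _).trans (le_of_eq (Finset.sum_congr rfl fun b _ => norm_mul _ _))
      calc ‖s‖ ^ 2 ≤ (∑ b, ‖z b‖ * ‖x b‖) ^ 2 := pow_le_pow_left₀ (norm_nonneg _) h1 2
        _ ≤ (∑ b, ‖z b‖ ^ 2) * ∑ b, ‖x b‖ ^ 2 := Finset.sum_mul_sq_le_sq_mul_sq _ _ _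
        _ = ‖z‖ ^ 2 * N := by rw [EuclideanSpace.norm_sq_eq]
    rcases le_or_gt 0 γ with hγ | hγ
    · have := mul_pos hα hN0
      have := mul_nonneg hγ (sq_nonneg ‖s‖)
      linarith
    · have h1 := mul_le_mul_of_nonpos_left hcs hγ.le
      have h2 := mul_pos hβ hN0
      nlinarith

/-- `Matrix.det_one_add_replicateCol_mul_replicateRow`, `Matrix.det_smul`. -/
theorem rad_det {α γ : ℝ} {z : V 10} (hα : α ≠ 0) :
    (rad α γ z).det = ((α ^ 9 * (α + ‖z‖ ^ 2 * γ) : ℝ) : ℂ) := by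
  have hα' : (α : ℂ) ≠ 0 := Complex.ofReal_ne_zero.2 hα
  have h : rad α γ z = (α : ℂ) • (1 + Matrix.replicateCol Unit (fun a => (γ / α : ℂ) * (starRingEnd ℂ) (z a)) *
      Matrix.replicateRow Unit (fun b => z b)) := by
    ext a b
    simp only [rad, Matrix.of_apply, Matrix.smul_apply, Matrix.add_apply, Matrix.one_apply, Matrix.mul_apply,
      Matrix.replicateCol_apply, Matrix.replicateRow_apply, Finset.univ_unique, Finset.sum_singleton, smul_eq_mul]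
    split_ifs <;> field_simp <;> ring
  rw [h, Matrix.det_smul, Matrix.det_one_add_replicateCol_mul_replicateRow]
  have h2 : (fun b => z b) ⬝ᵥ (fun a => (γ / α : ℂ) * (starRingEnd ℂ) (z a)) = (γ / α : ℂ) * ((‖z‖ ^ 2 : ℝ) : ℂ) := by
    rw [← gl_sum, Finset.mul_sum]
    exact Finset.sum_congr rfl fun a _ => by ring
  rw [h2, Fintype.card_fin]
  push_cast
  field_simp

theorem rad_mul {n : ℕ} (α γ α' γ' : ℝ) (z : V n) :
    rad α γ z * rad α' γ' z = rad (α * α') (α * γ' + γ * α' + ‖z‖ ^ 2 * (γ * γ')) z := by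
  ext a b
  have h : ∀ c, rad α γ z a c * rad α' γ' z c b =
      (if a = c then (α : ℂ) * ((if c = b then (α' : ℂ) else 0) + γ' * ((starRingEnd ℂ) (z c) * z b)) else 0) +
        (if c = b then (γ : ℂ) * ((starRingEnd ℂ) (z a) * z c) * α' else 0) +
        γ * γ' * ((starRingEnd ℂ) (z a) * z b) * ((starRingEnd ℂ) (z c) * z c) := by
    intro c
    simp only [rad, Matrix.of_apply]
    split_ifs <;> ring
  rw [Matrix.mul_apply, Finset.sum_congr rfl fun c _ => h c, Finset.sum_add_distrib, Finset.sum_add_distrib,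
    ← Finset.mul_sum, gl_sum]
  simp only [Finset.sum_ite_eq, Finset.sum_ite_eq', Finset.mem_univ, if_true, rad, Matrix.of_apply]
  push_cast
  split_ifs <;> ring

/-- `Matrix.inv_eq_left_inv` and `rad_mul`. -/
theorem rad_inv {n : ℕ} {α γ : ℝ} {z : V n} (hα : α ≠ 0) (hβ : α + ‖z‖ ^ 2 * γ ≠ 0) :
    (rad α γ z)⁻¹ = rad α⁻¹ (-γ / (α * (α + ‖z‖ ^ 2 * γ))) z := by
  refine Matrix.inv_eq_left_inv ?_
  rw [rad_mul, inv_mul_cancel₀ hα]
  have : α⁻¹ * γ + -γ / (α * (α + ‖z‖ ^ 2 * γ)) * α + ‖z‖ ^ 2 * (-γ / (α * (α + ‖z‖ ^ 2 * γ)) * γ) = 0 := by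
    obtain ⟨b, hb⟩ : ∃ b, b = α + ‖z‖ ^ 2 * γ := ⟨_, rfl⟩
    rw [← hb] at hβ ⊢
    field_simp
    rw [hb]; ring
  rw [this]
  ext a b
  simp [rad, Matrix.one_apply]

/-- The double sum is the trace of `(rad α γ z)⁻¹ * rad l1 l2 z`; `trace (rad a c z) = 10 a + c ‖z‖²`. -/
theorem rad_trace {α γ l1 l2 : ℝ} {z : V 10} (hα : α ≠ 0) (hβ : α + ‖z‖ ^ 2 * γ ≠ 0) :
    (∑ a, ∑ b, (rad α γ z)⁻¹ b a * rad l1 l2 z a b).re =
      9 * l1 / α + (l1 + ‖z‖ ^ 2 * l2) / (α + ‖z‖ ^ 2 * γ) := by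
  have h1 : ∑ a, ∑ b, (rad α γ z)⁻¹ b a * rad l1 l2 z a b = ∑ b, ((rad α γ z)⁻¹ * rad l1 l2 z) b b := by
    rw [Finset.sum_comm]
    exact Finset.sum_congr rfl fun b _ => by rw [Matrix.mul_apply]
  rw [h1, rad_inv hα hβ, rad_mul, gl_trace, Complex.ofReal_re]
  obtain ⟨b, hb⟩ : ∃ b, b = α + ‖z‖ ^ 2 * γ := ⟨_, rfl⟩
  rw [← hb] at hβ ⊢
  field_simp
  rw [hb]; ring

/-- `cHess_radial` at every point and `rad_det` identify `log det` with the radial function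
`log (α^9 β) (|w|²)`; apply `cHess_radial` again and `rad_trace`. -/
theorem scalarCurv_radial {ψ α γ β l1 : ℝ → ℝ} {l2 : ℝ} {z : V 10}
    (h0 : ∀ r ∈ Ici (0 : ℝ), HasDerivWithinAt ψ (α r) (Ici 0) r)
    (h1 : ∀ r ∈ Ici (0 : ℝ), HasDerivWithinAt α (γ r) (Ici 0) r)
    (hβ : ∀ r ∈ Ici (0 : ℝ), β r = α r + r * γ r) (hα0 : ∀ r ∈ Ici (0 : ℝ), 0 < α r)
    (hβ0 : ∀ r ∈ Ici (0 : ℝ), 0 < β r)
    (hl0 : ∀ r ∈ Ici (0 : ℝ), HasDerivWithinAt (fun r => Real.log (α r ^ 9 * β r)) (l1 r) (Ici 0) r)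
    (hl1 : HasDerivWithinAt l1 l2 (Ici 0) (‖z‖ ^ 2)) :
    scalarCurv (fun u => ψ (‖u‖ ^ 2)) z =
      -(9 * l1 (‖z‖ ^ 2) / α (‖z‖ ^ 2) + (l1 (‖z‖ ^ 2) + ‖z‖ ^ 2 * l2) / β (‖z‖ ^ 2)) := by
  have hm : ∀ w : V 10, ‖w‖ ^ 2 ∈ Ici (0 : ℝ) := fun w => sq_nonneg ‖w‖
  have hG : ∀ w : V 10, cHess (fun u => ψ (‖u‖ ^ 2)) w = rad (α (‖w‖ ^ 2)) (γ (‖w‖ ^ 2)) w := fun w =>
    cHess_radial h0 (h1 _ (hm w))
  have hL : (fun w : V 10 => Real.log ((cHess (fun u => ψ (‖u‖ ^ 2)) w).det.re)) =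
      fun w => (fun r => Real.log (α r ^ 9 * β r)) (‖w‖ ^ 2) := by
    funext w
    rw [hG, rad_det (hα0 _ (hm w)).ne', Complex.ofReal_re]
    simp only [hβ _ (hm w)]
  have hb := hβ _ (hm z)
  have hb0 := hβ0 _ (hm z)
  unfold scalarCurv
  rw [hL, cHess_radial hl0 hl1, hG, rad_trace (hα0 _ (hm z)).ne' (by rw [← hb]; exact hb0.ne'), ← hb]

end Crest.Agent.R213
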