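import Crest.Agent.R213.GeoDefs

/-!
# R213 / GeoP : primitives of closed forms on `[0,T) × [0,1]`

Prefix helper lemmas with `gp_`.
-/

set_option autoImplicit false

open Set Filter Topology
open scoped ContDiff ComplexOrder
open Crest.GeometryTopology.ProjKahler

namespace Crest.Agent.R213

/-- `Convex.exists_forall_hasFDerivWithinAt_of_hasFDerivWithinAt_symmetric` for `ω p = pd (a p) (b p)`.  With
`exists_pd` for `a` and `b`, symmetry means `a_x = b_t` on `gD T`; it holds at interior points (slices and uniqueness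
of derivatives) and both sides are continuous on `gD T ⊆ closure (Ioo 0 T ×ˢ Ioo 0 1)`
(`Set.EqOn.of_subset_closure`).  Smoothness: `contDiffOn_infty_of_pd`. -/
theorem prim2 {T : ℝ} {a b : ℝ × ℝ → ℝ} (ha : ContDiffOn ℝ ∞ a (gD T)) (hb : ContDiffOn ℝ ∞ b (gD T))
    (hcl : ∀ t ∈ Ioo 0 T, ∀ x ∈ Ioo (0 : ℝ) 1, ∃ c, HasDerivAt (fun y => a (t, y)) c x ∧
      HasDerivAt (fun r => b (r, x)) c t) :
    ∃ F : ℝ × ℝ → ℝ, ContDiffOn ℝ ∞ F (gD T) ∧ ∀ p ∈ gD T, HasFDerivWithinAt F (pd (a p) (b p)) (gD T) p := by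
  obtain ⟨at', ax, -, h2, h3⟩ := exists_pd ha
  obtain ⟨bt, bx, h4, -, h6⟩ := exists_pd hb
  have hsub : Ioo 0 T ×ˢ Ioo (0 : ℝ) 1 ⊆ gD T := prod_mono Ioo_subset_Ico_self Ioo_subset_Icc_self
  have he : EqOn ax bt (gD T) := by
    refine EqOn.of_subset_closure (s := Ioo 0 T ×ˢ Ioo (0 : ℝ) 1) ?_ h2.continuousOn h4.continuousOn hsub ?_
    · rintro ⟨t, x⟩ ⟨ht, hx⟩
      obtain ⟨c, c1, c2⟩ := hcl t ht x hx
      have hp := hsub (mk_mem_prod ht hx)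
      rw [(slice_x_at hp.1 hx (h3 _ hp)).unique c1, (slice_t ht hp.2 (h6 _ hp)).unique c2]
    · rintro ⟨t, x⟩ ⟨ht, hx⟩
      rw [closure_prod_eq, closure_Ioo (ht.1.trans_lt ht.2).ne, closure_Ioo zero_ne_one]
      exact ⟨Ico_subset_Icc_self ht, hx⟩
  have hd : ∀ p ∈ gD T, HasFDerivWithinAt (fun p => pd (a p) (b p))
      ((pd (at' p) (ax p)).smulRight (ContinuousLinearMap.fst ℝ ℝ ℝ) +
        (pd (bt p) (bx p)).smulRight (ContinuousLinearMap.snd ℝ ℝ ℝ)) (gD T) p := fun p hp =>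
    ((h3 p hp).smul_const (ContinuousLinearMap.fst ℝ ℝ ℝ)).add
      ((h6 p hp).smul_const (ContinuousLinearMap.snd ℝ ℝ ℝ))
  obtain ⟨F, hF⟩ := (convex_gD T).exists_forall_hasFDerivWithinAt_of_hasFDerivWithinAt_symmetric hd
    (fun p hp x _ y _ => by
      simp [he hp]
      ring)
  exact ⟨F, contDiffOn_infty_of_pd ha hb hF, hF⟩

/-- `Sx` is the `x`-partial of `S` (`exists_pd`), `Ft = -Sx`.  For `F`: in the interior `Sx (t, ·) = deriv (S t)` near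
`x`, and `-q/g = 1/φ - 1/φ0` for `r` near `t`, so `∂_t (-q/g) = -φ_t/φ² = -S_xx`.  For `f`: `∂_x (110 - S) = -Sx = F_t`. -/
theorem exists_Ff {T : ℝ} {q S : ℝ → ℝ → ℝ} (hq : ContDiffOn ℝ ∞ (Function.uncurry q) (gD T))
    (hS : ContDiffOn ℝ ∞ (Function.uncurry S) (gD T))
    (hpos : ∀ t ∈ Ico 0 T, ∀ x ∈ Icc (0 : ℝ) 1, 0 < 1 + x * (1 - x) * q t x)
    (hfl : ∀ t ∈ Ioo 0 T, ∀ x ∈ Ioo (0 : ℝ) 1,
      HasDerivAt (fun r => x * (1 - x) * (1 + x * (1 - x) * q r x))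
        ((x * (1 - x) * (1 + x * (1 - x) * q t x)) ^ 2 * deriv (deriv (S t)) x) t) :
    ∃ F Ft f : ℝ × ℝ → ℝ, ContDiffOn ℝ ∞ F (gD T) ∧ ContDiffOn ℝ ∞ f (gD T) ∧
      (∀ p ∈ gD T, HasFDerivWithinAt F
        (pd (Ft p) (-q p.1 p.2 / (1 + p.2 * (1 - p.2) * q p.1 p.2))) (gD T) p) ∧
      ∀ p ∈ gD T, HasFDerivWithinAt f (pd (110 - S p.1 p.2) (F p)) (gD T) p := by
  obtain ⟨St, Sx, -, h2, h3⟩ := exists_pd hS
  have hg : ContDiffOn ℝ ∞ (fun p : ℝ × ℝ => -q p.1 p.2 / (1 + p.2 * (1 - p.2) * q p.1 p.2)) (gD T) :=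
    hq.neg.div (contDiffOn_const.add ((contDiffOn_snd.mul (contDiffOn_const.sub contDiffOn_snd)).mul hq))
      fun p hp => (hpos _ hp.1 _ hp.2).ne'
  obtain ⟨Sxt, Sxx, -, -, h6⟩ := exists_pd h2
  have hx1 : ∀ t ∈ Ioo 0 T, ∀ x ∈ Ioo (0 : ℝ) 1, HasDerivAt (S t) (Sx (t, x)) x := fun t ht x hx =>
    slice_x_at (Ioo_subset_Ico_self ht) hx
      (h3 _ (mk_mem_gD (Ioo_subset_Ico_self ht) (Ioo_subset_Icc_self hx)))
  obtain ⟨F, hF, hF'⟩ := prim2 h2.neg hg fun t ht x hx => by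
    have ht' := Ioo_subset_Ico_self ht
    have hx' := Ioo_subset_Icc_self hx
    have a1 := slice_x_at ht' hx (h6 _ (mk_mem_gD ht' hx'))
    have a2 : deriv (S t) =ᶠ[𝓝 x] fun y => Sx (t, y) :=
      Filter.mem_of_superset (Ioo_mem_nhds hx.1 hx.2) fun y hy => (hx1 t ht y hy).deriv
    have a3 := hfl t ht x hx
    rw [a2.deriv_eq, a1.deriv] at a3
    have b0 : 0 < x * (1 - x) := mul_pos hx.1 (sub_pos.2 hx.2)
    have b1 := (mul_pos b0 (hpos t ht' x hx')).ne'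
    refine ⟨-Sxx (t, x), a1.fun_neg, (((a3.fun_inv b1).sub_const (x * (1 - x))⁻¹).congr_deriv
      ?_).congr_of_eventuallyEq ?_⟩
    · rw [neg_div, mul_div_cancel_left₀ _ (pow_ne_zero 2 b1)]
    · filter_upwards [Ioo_mem_nhds ht.1 ht.2] with r hr
      have b2 := (hpos r (Ioo_subset_Ico_self hr) x hx').ne'
      have b3 := b0.ne'
      generalize x * (1 - x) = w at *
      generalize q r x = y at *
      have e : y = ((1 + w * y) - 1) / w := by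
        field_simp
        ring
      generalize 1 + w * y = u at *
      rw [e]
      field_simp
      ring
  obtain ⟨f, hf, hf'⟩ := prim2 (a := fun p => 110 - S p.1 p.2) (contDiffOn_const.sub hS) hF fun t ht x hx =>
    ⟨-Sx (t, x), (hx1 t ht x hx).const_sub 110, slice_t ht (Ioo_subset_Icc_self hx)
      (hF' _ (mk_mem_gD (Ioo_subset_Ico_self ht) (Ioo_subset_Icc_self hx)))⟩
  exact ⟨F, _, f, hF, hf, hF', hf'⟩

end Crest.Agent.R213
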