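import Crest.Agent.R213.GeoL

/-!
# R213 / GeoS : the affine chart: positivity and scalar curvature

Prefix helper lemmas with `gs_`.  With `x0 = r/(1+r)`, `ψ r = log (1+r) + H x0`:
`α = ψ' = (1 + H1 x0 (1 - x0))/(1+r)`, `r α = X x0`, `β = (r α)' = (1 + (1-2x0) H1 x0 + x0(1-x0) H2 x0)/(1+r)²`,
`r β = φ (X x0)`.
-/

set_option autoImplicit false

open Set Filter Topology
open scoped ContDiff ComplexOrder
open Crest.GeometryTopology.ProjKahler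

namespace Crest.Agent.R213

/-- For `r > 0`, with `ξ r = r α r`: `log (α^9 β) = 9 log ξ + log (φ ξ) - 10 log r`, so `l1 = M ξ / r` on `(0,∞)` with
`M x = 9 φ x / x + φ' x - 10`, and `l1 + r l2 = M' ξ β`.  At `r = 0` both sides are limits from the right
(`Set.EqOn.of_subset_closure` with `closure_Ioi`). -/
theorem scal_1d {α β l1 l2 φ s : ℝ → ℝ} (cα : ContinuousOn α (Ici 0)) (cβ : ContinuousOn β (Ici 0))
    (c2 : ContinuousOn l2 (Ici 0)) (hα0 : ∀ r ∈ Ici (0 : ℝ), 0 < α r) (hβ0 : ∀ r ∈ Ici (0 : ℝ), 0 < β r)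
    (hl0 : ∀ r ∈ Ici (0 : ℝ), HasDerivWithinAt (fun r => Real.log (α r ^ 9 * β r)) (l1 r) (Ici 0) r)
    (hl1 : ∀ r ∈ Ici (0 : ℝ), HasDerivWithinAt l1 (l2 r) (Ici 0) r)
    (hξ : ∀ r ∈ Ioi (0 : ℝ), HasDerivAt (fun r => r * α r) (β r) r) (hlt : ∀ r ∈ Ici (0 : ℝ), r * α r < 1)
    (hφ : ∀ r ∈ Ioi (0 : ℝ), r * β r = φ (r * α r)) (sφ : ContDiffOn ℝ ∞ φ (Icc 0 1))
    (cs : ContinuousOn s (Icc 0 1)) (hs : ∀ x ∈ Ioo (0 : ℝ) 1, s x = 90 / x - C0 φ x) {r : ℝ} (hr : 0 ≤ r) :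
    -(9 * l1 r / α r + (l1 r + r * l2 r) / β r) = s (r * α r) := by
  have hm : ∀ r ∈ Ioi (0 : ℝ), r * α r ∈ Ioo (0 : ℝ) 1 := fun r hr =>
    ⟨mul_pos hr (hα0 r (Ioi_subset_Ici_self hr)), hlt r (Ioi_subset_Ici_self hr)⟩
  have sφ' : ContDiffOn ℝ ∞ φ (Ioo 0 1) := sφ.mono Ioo_subset_Icc_self
  have sφ1 : ContDiffOn ℝ ∞ (deriv φ) (Ioo 0 1) := sφ'.deriv_of_isOpen isOpen_Ioo (by simp)
  have d0 : ∀ x ∈ Ioo (0 : ℝ) 1, HasDerivAt φ (deriv φ x) x := fun x hx =>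
    ((sφ'.contDiffAt (isOpen_Ioo.mem_nhds hx)).differentiableAt (by simp)).hasDerivAt
  have d1 : ∀ x ∈ Ioo (0 : ℝ) 1, HasDerivAt (deriv φ) (deriv (deriv φ) x) x := fun x hx =>
    ((sφ1.contDiffAt (isOpen_Ioo.mem_nhds hx)).differentiableAt (by simp)).hasDerivAt
  have e1 : ∀ r ∈ Ioi (0 : ℝ), l1 r = (9 * φ (r * α r) / (r * α r) + deriv φ (r * α r) - 10) / r := by
    intro r hr
    have hr0 : (0 : ℝ) < r := hr
    have hφ0 : 0 < φ (r * α r) := by rw [← hφ r hr]; exact mul_pos hr0 (hβ0 r hr0.le)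
    have h1 := (hl0 r hr0.le).hasDerivAt (Ici_mem_nhds hr0)
    have h2 : HasDerivAt (fun r => 9 * Real.log (r * α r) + Real.log (φ (r * α r)) - 10 * Real.log r)
        (9 * (β r / (r * α r)) + deriv φ (r * α r) * β r / φ (r * α r) - 10 * r⁻¹) r :=
      ((((hξ r hr).log (hm r hr).1.ne').const_mul 9).add
        (((d0 _ (hm r hr)).comp r (hξ r hr)).log hφ0.ne')).sub ((Real.hasDerivAt_log hr0.ne').const_mul 10)
    have h3 : (fun r => Real.log (α r ^ 9 * β r)) =ᶠ[𝓝 r]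
        fun r => 9 * Real.log (r * α r) + Real.log (φ (r * α r)) - 10 * Real.log r := by
      filter_upwards [Ioi_mem_nhds hr0] with u hu
      have hu0 : (0 : ℝ) < u := hu
      have ha := (hα0 u hu0.le).ne'
      have hb := (hβ0 u hu0.le).ne'
      rw [← hφ u hu, Real.log_mul (pow_ne_zero _ ha) hb, Real.log_mul hu0.ne' ha, Real.log_mul hu0.ne' hb,
        Real.log_pow]
      push_cast
      ring
    rw [h1.unique (h2.congr_of_eventuallyEq h3), ← hφ r hr]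
    have ha := (hα0 r hr0.le).ne'
    have hb := (hβ0 r hr0.le).ne'
    field_simp
  have e2 : EqOn (fun r => -(9 * l1 r / α r + (l1 r + r * l2 r) / β r)) (fun r => s (r * α r)) (Ioi 0) := by
    intro r hr
    have hr0 : (0 : ℝ) < r := hr
    have hx := hm r hr
    have h1 := (hl1 r hr0.le).hasDerivAt (Ici_mem_nhds hr0)
    have h2 := ((((((d0 _ hx).comp r (hξ r hr)).const_mul 9).div (hξ r hr) hx.1.ne').add
      ((d1 _ hx).comp r (hξ r hr))).sub_const 10).div (hasDerivAt_id r) hr0.ne'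
    have h3 : l1 =ᶠ[𝓝 r] fun r => (9 * φ (r * α r) / (r * α r) + deriv φ (r * α r) - 10) / r := by
      filter_upwards [Ioi_mem_nhds hr0] with u hu using e1 u hu
    have h4 := h1.unique (h2.congr_of_eventuallyEq h3)
    have ha := (hα0 r hr0.le).ne'
    have hb := (hβ0 r hr0.le).ne'
    simp only [Function.comp_apply, Pi.div_apply, Pi.add_apply, id] at h4
    simp only
    rw [hs _ hx, C0, h4, e1 r hr]
    field_simp
    ring
  have c1 : ContinuousOn l1 (Ici 0) := fun r hr => (hl1 r hr).continuousWithinAt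
  refine e2.of_subset_closure (t := Ici 0) ?_ ?_ Ioi_subset_Ici_self (by rw [closure_Ioi]) hr
  · exact (((continuousOn_const.mul c1).div cα fun r hr => (hα0 r hr).ne').add
      ((c1.add (continuousOn_id.mul c2)).div cβ fun r hr => (hβ0 r hr).ne')).neg
  · exact cs.comp (continuousOn_id.mul cα) fun r hr => ⟨mul_nonneg hr (hα0 r hr).le, (hlt r hr).le⟩

/-- The radial data of a profile. -/
theorem Prof.radial {φ H H1 H2 X : ℝ → ℝ} (P : Prof φ H H1 H2 X) : ∃ α γ β : ℝ → ℝ,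
    ContDiffOn ℝ ∞ α (Ici 0) ∧ ContDiffOn ℝ ∞ β (Ici 0) ∧
    (∀ r ∈ Ici (0 : ℝ), HasDerivWithinAt (fun r => Real.log (1 + r) + H (r / (1 + r))) (α r) (Ici 0) r) ∧
    (∀ r ∈ Ici (0 : ℝ), HasDerivWithinAt α (γ r) (Ici 0) r) ∧ (∀ r ∈ Ici (0 : ℝ), β r = α r + r * γ r) ∧
    (∀ r ∈ Ici (0 : ℝ), 0 < α r) ∧ (∀ r ∈ Ici (0 : ℝ), 0 < β r) ∧
    (∀ r ∈ Ici (0 : ℝ), r * α r = X (r / (1 + r))) ∧ ∀ r ∈ Ici (0 : ℝ), r * β r = φ (r * α r) := by
  have h1 : ∀ r ∈ Ici (0 : ℝ), (1 + r) ≠ 0 := fun r hr => by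
    have : (0 : ℝ) ≤ r := hr
    positivity
  have hm : ∀ r ∈ Ici (0 : ℝ), r / (1 + r) ∈ Icc (0 : ℝ) 1 := fun r hr => by
    have : (0 : ℝ) ≤ r := hr
    exact ⟨by positivity, by rw [div_le_one (by positivity)]; linarith⟩
  have s0 : ContDiffOn ℝ ∞ (fun r : ℝ => 1 + r) (Ici 0) := contDiffOn_const.add contDiffOn_id
  have sm : ContDiffOn ℝ ∞ (fun r : ℝ => r / (1 + r)) (Ici 0) := contDiffOn_id.div s0 h1
  have sH1 : ContDiffOn ℝ ∞ (fun r : ℝ => H1 (r / (1 + r))) (Ici 0) := P.s1.comp sm hm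
  have sH2 : ContDiffOn ℝ ∞ (fun r : ℝ => H2 (r / (1 + r))) (Ici 0) := P.s2.comp sm hm
  have d0 : ∀ r : ℝ, HasDerivWithinAt (fun r : ℝ => 1 + r) 1 (Ici 0) r := fun r =>
    (hasDerivWithinAt_id r _).const_add 1
  have dm : ∀ r ∈ Ici (0 : ℝ), HasDerivWithinAt (fun r : ℝ => r / (1 + r)) (1 / (1 + r) ^ 2) (Ici 0) r :=
    fun r hr => ((hasDerivWithinAt_id r _).div (d0 r) (h1 r hr)).congr_deriv (by simp)
  have sα : ContDiffOn ℝ ∞ (fun r : ℝ => 1 / (1 + r) + H1 (r / (1 + r)) / (1 + r) ^ 2) (Ici 0) :=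
    (contDiffOn_const.div s0 h1).add (sH1.div (s0.pow 2) fun r hr => pow_ne_zero _ (h1 r hr))
  have sγ : ContDiffOn ℝ ∞ (fun r : ℝ => -1 / (1 + r) ^ 2 + H2 (r / (1 + r)) / (1 + r) ^ 4 -
      2 * H1 (r / (1 + r)) / (1 + r) ^ 3) (Ici 0) :=
    ((contDiffOn_const.div (s0.pow 2) fun r hr => pow_ne_zero _ (h1 r hr)).add
      (sH2.div (s0.pow 4) fun r hr => pow_ne_zero _ (h1 r hr))).sub
      ((contDiffOn_const.mul sH1).div (s0.pow 3) fun r hr => pow_ne_zero _ (h1 r hr))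
  have eβ : ∀ r ∈ Ici (0 : ℝ), 1 / (1 + r) + H1 (r / (1 + r)) / (1 + r) ^ 2 +
      r * (-1 / (1 + r) ^ 2 + H2 (r / (1 + r)) / (1 + r) ^ 4 - 2 * H1 (r / (1 + r)) / (1 + r) ^ 3) =
      (1 + (1 - 2 * (r / (1 + r))) * H1 (r / (1 + r)) +
        r / (1 + r) * (1 - r / (1 + r)) * H2 (r / (1 + r))) / (1 + r) ^ 2 := fun r hr => by
    have := h1 r hr
    generalize H1 (r / (1 + r)) = a
    generalize H2 (r / (1 + r)) = b
    field_simp
    ring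
  have eX : ∀ r ∈ Ici (0 : ℝ), r * (1 / (1 + r) + H1 (r / (1 + r)) / (1 + r) ^ 2) = X (r / (1 + r)) :=
    fun r hr => by
      have := h1 r hr
      rw [P.X_eq _ (hm r hr)]
      generalize H1 (r / (1 + r)) = a
      field_simp
      ring
  refine ⟨fun r => 1 / (1 + r) + H1 (r / (1 + r)) / (1 + r) ^ 2,
    fun r => -1 / (1 + r) ^ 2 + H2 (r / (1 + r)) / (1 + r) ^ 4 - 2 * H1 (r / (1 + r)) / (1 + r) ^ 3,
    fun r => 1 / (1 + r) + H1 (r / (1 + r)) / (1 + r) ^ 2 +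
      r * (-1 / (1 + r) ^ 2 + H2 (r / (1 + r)) / (1 + r) ^ 4 - 2 * H1 (r / (1 + r)) / (1 + r) ^ 3),
    sα, sα.add (contDiffOn_id.mul sγ), fun r hr => ?_, fun r hr => ?_, fun _ _ => rfl, fun r hr => ?_,
    fun r hr => ?_, eX, fun r hr => ?_⟩
  · exact (((d0 r).log (h1 r hr)).add ((P.d0 _ (hm r hr)).comp r (dm r hr) hm)).congr_deriv (by ring)
  · refine ((((hasDerivWithinAt_const r _ (1 : ℝ)).div (d0 r) (h1 r hr)).add
      ((((P.d1 _ (hm r hr)).comp r (dm r hr) hm)).div ((d0 r).pow 2) (pow_ne_zero _ (h1 r hr)))).congr_deriv ?_)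
    have := h1 r hr
    simp only [Function.comp_apply, Pi.pow_apply]
    generalize H1 (r / (1 + r)) = a
    generalize H2 (r / (1 + r)) = b
    field_simp
    ring
  · have hr0 : (0 : ℝ) ≤ r := hr
    have e : 1 / (1 + r) + H1 (r / (1 + r)) / (1 + r) ^ 2 =
        (1 + H1 (r / (1 + r)) * (1 - r / (1 + r))) / (1 + r) := by
      have := h1 r hr
      generalize H1 (r / (1 + r)) = a
      field_simp
      ring
    simp only [e]
    exact div_pos (P.A _ (hm r hr)) (by positivity)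
  · have hr0 : (0 : ℝ) ≤ r := hr
    simp only [eβ r hr]
    exact div_pos (P.B _ (hm r hr)) (by positivity)
  · simp only [eβ r hr, eX r hr]
    rw [← P.φ_eq _ (hm r hr)]
    have := h1 r hr
    generalize H1 (r / (1 + r)) = a
    generalize H2 (r / (1 + r)) = b
    field_simp
    ring

/-- `Prof.radial`, `cHess_radial`, `rad_posDef`. -/
theorem Prof.posDef_aff {φ H H1 H2 X : ℝ → ℝ} (P : Prof φ H H1 H2 X) {n : ℕ} (z : V n) :
    (cHess (fun u => fsPot u + H (‖u‖ ^ 2 / (1 + ‖u‖ ^ 2))) z).PosDef := by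
  obtain ⟨α, γ, β, -, -, d0, d1, hβ, hα0, hβ0, -, -⟩ := P.radial
  have hz : ‖z‖ ^ 2 ∈ Ici (0 : ℝ) := mem_Ici.2 (sq_nonneg _)
  have e := cHess_radial (z := z) d0 (d1 _ hz)
  exact e ▸ rad_posDef (hα0 _ hz) (hβ _ hz ▸ hβ0 _ hz)

/-- `Prof.radial`, `scalarCurv_radial` with `l1`, `l2` iterated `derivWithin … (Ici 0)`, `scal_1d`. -/
theorem Prof.scal {φ H H1 H2 X s : ℝ → ℝ} (P : Prof φ H H1 H2 X) (sφ : ContDiffOn ℝ ∞ φ (Icc 0 1))
    (cs : ContinuousOn s (Icc 0 1)) (hs : ∀ x ∈ Ioo (0 : ℝ) 1, s x = 90 / x - C0 φ x) (z : V 10) :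
    scalarCurv (fun u => fsPot u + H (‖u‖ ^ 2 / (1 + ‖u‖ ^ 2))) z = s (X (‖z‖ ^ 2 / (1 + ‖z‖ ^ 2))) := by
  obtain ⟨α, γ, β, sα, sβ, d0, d1, hβ, hα0, hβ0, hX, hφ⟩ := P.radial
  have hz : ‖z‖ ^ 2 ∈ Ici (0 : ℝ) := mem_Ici.2 (sq_nonneg _)
  have hu := uniqueDiffOn_Ici (0 : ℝ)
  have s0 : ContDiffOn ℝ ∞ (fun r => Real.log (α r ^ 9 * β r)) (Ici 0) :=
    ((sα.pow 9).mul sβ).log fun r hr => (mul_pos (pow_pos (hα0 r hr) 9) (hβ0 r hr)).ne'
  have s1 := s0.derivWithin (m := ∞) hu (by simp)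
  have s2 := s1.derivWithin (m := ∞) hu (by simp)
  have hl0 := fun r hr => (s0.differentiableOn (by simp) r hr).hasDerivWithinAt
  have hl1 := fun r hr => (s1.differentiableOn (by simp) r hr).hasDerivWithinAt
  have e := scalarCurv_radial (z := z) d0 d1 hβ hα0 hβ0 hl0 (hl1 _ hz)
  refine e.trans ?_
  rw [← hX _ hz]
  refine scal_1d sα.continuousOn sβ.continuousOn s2.continuousOn hα0 hβ0 hl0 hl1 (fun r hr => ?_)
    (fun r hr => ?_) (fun r hr => hφ r (Ioi_subset_Ici_self hr)) sφ cs hs hz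
  · have hr0 : (0 : ℝ) < r := hr
    exact ((hasDerivAt_id r).mul ((d1 r hr0.le).hasDerivAt (Ici_mem_nhds hr0))).congr_deriv
      (by rw [hβ r hr0.le]; simp)
  · have hr0 : (0 : ℝ) ≤ r := hr
    rw [hX r hr]
    exact P.X_lt _ ⟨by positivity, by rw [div_lt_one (by positivity)]; linarith⟩

end Crest.Agent.R213
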