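import Crest.Agent.R213.GeoDefs

/-!
# R213 / GeoW : Wirtinger calculus, the complex Hessian of a radial function

Prefix helper lemmas with `gw_`.  Everything follows from `HasFDerivAt.fderiv` and unfolding `dz`, `dzbar`, `bv`.
-/

set_option autoImplicit false

open Set Filter Topology
open scoped ContDiff ComplexOrder
open Crest.GeometryTopology.ProjKahler

namespace Crest.Agent.R213

variable {n : ℕ}

theorem dz_const (c : ℂ) (z : V n) (a : Fin n) : dz (fun _ => c) z a = 0 := by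
  simp [dz]

theorem dzbar_const (c : ℂ) (z : V n) (a : Fin n) : dzbar (fun _ => c) z a = 0 := by
  simp [dzbar]

theorem dz_add {f g : V n → ℂ} {z : V n} (hf : DifferentiableAt ℝ f z) (hg : DifferentiableAt ℝ g z) (a : Fin n) :
    dz (fun u => f u + g u) z a = dz f z a + dz g z a := by
  simp only [dz, fderiv_fun_add hf hg, add_apply]; ring

theorem dzbar_add {f g : V n → ℂ} {z : V n} (hf : DifferentiableAt ℝ f z) (hg : DifferentiableAt ℝ g z)
    (a : Fin n) : dzbar (fun u => f u + g u) z a = dzbar f z a + dzbar g z a := by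
  simp only [dzbar, fderiv_fun_add hf hg, add_apply]; ring

theorem dz_mul {f g : V n → ℂ} {z : V n} (hf : DifferentiableAt ℝ f z) (hg : DifferentiableAt ℝ g z) (a : Fin n) :
    dz (fun u => f u * g u) z a = dz f z a * g z + f z * dz g z a := by
  simp only [dz, fderiv_fun_mul hf hg, add_apply, smul_apply,
    smul_eq_mul]
  ring

theorem dzbar_mul {f g : V n → ℂ} {z : V n} (hf : DifferentiableAt ℝ f z) (hg : DifferentiableAt ℝ g z)
    (a : Fin n) : dzbar (fun u => f u * g u) z a = dzbar f z a * g z + f z * dzbar g z a := by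
  simp only [dzbar, fderiv_fun_mul hf hg, add_apply, smul_apply,
    smul_eq_mul]
  ring

theorem gw_coord (b : Fin n) (z : V n) : HasFDerivAt (fun u : V n => u b)
    ((EuclideanSpace.proj b : V n →L[ℂ] ℂ).restrictScalars ℝ) z :=
  ((EuclideanSpace.proj b : V n →L[ℂ] ℂ).restrictScalars ℝ).hasFDerivAt

theorem gw_conj (b : Fin n) (z : V n) : HasFDerivAt (fun u : V n => (starRingEnd ℂ) (u b))
    ((Complex.conjCLE : ℂ →L[ℝ] ℂ).comp ((EuclideanSpace.proj b : V n →L[ℂ] ℂ).restrictScalars ℝ)) z :=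
  ((Complex.conjCLE : ℂ →L[ℝ] ℂ).comp ((EuclideanSpace.proj b : V n →L[ℂ] ℂ).restrictScalars ℝ)).hasFDerivAt

theorem gw_dz_conj (b : Fin n) (z : V n) (a : Fin n) : dz (fun u => (starRingEnd ℂ) (u b)) z a = 0 := by
  simp only [dz, (gw_conj b z).fderiv]
  by_cases h : b = a <;> simp [bv, h]

theorem gw_dzbar_conj (b : Fin n) (z : V n) (a : Fin n) :
    dzbar (fun u => (starRingEnd ℂ) (u b)) z a = if a = b then 1 else 0 := by
  simp only [dzbar, (gw_conj b z).fderiv]
  by_cases h : a = b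
  · subst h; simp [bv]
  · simp [bv, h, Ne.symm h]

theorem differentiableAt_coord (b : Fin n) (z : V n) : DifferentiableAt ℝ (fun u : V n => u b) z := by
  exact (gw_coord b z).differentiableAt

theorem dz_coord (b : Fin n) (z : V n) (a : Fin n) : dz (fun u => u b) z a = if a = b then 1 else 0 := by
  simp only [dz, (gw_coord b z).fderiv]
  by_cases h : a = b
  · subst h; simp [bv]
  · simp [bv, h, Ne.symm h]

theorem dzbar_coord (b : Fin n) (z : V n) (a : Fin n) : dzbar (fun u => u b) z a = 0 := by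
  simp only [dzbar, (gw_coord b z).fderiv]
  by_cases h : b = a <;> simp [bv, h]

/-- Chain rule with an outer function that is only differentiable within a set containing the range
(`HasDerivWithinAt.comp_hasFDerivAt`-like: compose within `univ`). -/
theorem hasFDerivAt_comp_within {f : ℝ → ℝ} {f' : ℝ} {s : Set ℝ} {y : V n → ℝ} {z : V n}
    (hf : HasDerivWithinAt f f' s (y z)) (hy : DifferentiableAt ℝ y z) (hs : ∀ u, y u ∈ s) :
    HasFDerivAt (fun u => f (y u)) (f' • fderiv ℝ y z) z := by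
  have := hf.comp_hasFDerivWithinAt z (hy.hasFDerivAt.hasFDerivWithinAt (s := univ)) fun u _ => hs u
  exact hasFDerivWithinAt_univ.1 this

theorem differentiableAt_ofReal {y : V n → ℝ} {z : V n} (hy : DifferentiableAt ℝ y z) :
    DifferentiableAt ℝ (fun u => (y u : ℂ)) z := by
  exact Complex.ofRealCLM.differentiableAt.comp z hy

theorem gw_fderiv {y : V n → ℝ} {z : V n} (hy : DifferentiableAt ℝ y z) (v : V n) :
    fderiv ℝ (fun u => (y u : ℂ)) z v = (fderiv ℝ y z v : ℝ) := by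
  have := (Complex.ofRealCLM.hasFDerivAt.comp z hy.hasFDerivAt).fderiv
  exact congrArg (fun L => L v) this

theorem dz_comp {f : ℝ → ℝ} {f' : ℝ} {s : Set ℝ} {y : V n → ℝ} {z : V n}
    (hf : HasDerivWithinAt f f' s (y z)) (hy : DifferentiableAt ℝ y z) (hs : ∀ u, y u ∈ s) (a : Fin n) :
    dz (fun u => (f (y u) : ℂ)) z a = f' * dz (fun u => (y u : ℂ)) z a := by
  have h := hasFDerivAt_comp_within hf hy hs
  simp only [dz, gw_fderiv h.differentiableAt, gw_fderiv hy, h.fderiv, smul_apply,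
    smul_eq_mul]
  push_cast; ring

theorem dzbar_comp {f : ℝ → ℝ} {f' : ℝ} {s : Set ℝ} {y : V n → ℝ} {z : V n}
    (hf : HasDerivWithinAt f f' s (y z)) (hy : DifferentiableAt ℝ y z) (hs : ∀ u, y u ∈ s) (a : Fin n) :
    dzbar (fun u => (f (y u) : ℂ)) z a = f' * dzbar (fun u => (y u : ℂ)) z a := by
  have h := hasFDerivAt_comp_within hf hy hs
  simp only [dzbar, gw_fderiv h.differentiableAt, gw_fderiv hy, h.fderiv, smul_apply,
    smul_eq_mul]
  push_cast; ring

theorem contDiff_normSq : ContDiff ℝ ∞ fun u : V n => ‖u‖ ^ 2 := by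
  exact contDiff_norm_sq ℂ

theorem contDiff_coordSq (k : Fin n) : ContDiff ℝ ∞ fun u : V n => ‖u k‖ ^ 2 := by
  exact (contDiff_norm_sq ℂ).comp ((EuclideanSpace.proj k : V n →L[ℂ] ℂ).restrictScalars ℝ).contDiff

theorem gw_sq (k : Fin n) :
    (fun u : V n => ((‖u k‖ ^ 2 : ℝ) : ℂ)) = fun u => u k * (starRingEnd ℂ) (u k) := by
  funext u; rw [Complex.mul_conj, Complex.normSq_eq_norm_sq]

theorem gw_sum (z v : V n) : fderiv ℝ (fun u : V n => ((‖u‖ ^ 2 : ℝ) : ℂ)) z v =
    ∑ k, fderiv ℝ (fun u : V n => ((‖u k‖ ^ 2 : ℝ) : ℂ)) z v := by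
  have : (fun u : V n => ((‖u‖ ^ 2 : ℝ) : ℂ)) = fun u => ∑ k, ((‖u k‖ ^ 2 : ℝ) : ℂ) := by
    funext u; rw [EuclideanSpace.norm_sq_eq, Complex.ofReal_sum]
  rw [this, fderiv_fun_sum fun k _ =>
    differentiableAt_ofReal ((contDiff_coordSq k).differentiable (by simp) z), sum_apply]

theorem dz_coordSq (k : Fin n) (z : V n) (a : Fin n) :
    dz (fun u => ((‖u k‖ ^ 2 : ℝ) : ℂ)) z a = if a = k then (starRingEnd ℂ) (z k) else 0 := by
  rw [gw_sq, dz_mul (differentiableAt_coord k z) (gw_conj k z).differentiableAt, dz_coord, gw_dz_conj]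
  simp

theorem dzbar_coordSq (k : Fin n) (z : V n) (a : Fin n) :
    dzbar (fun u => ((‖u k‖ ^ 2 : ℝ) : ℂ)) z a = if a = k then z k else 0 := by
  rw [gw_sq, dzbar_mul (differentiableAt_coord k z) (gw_conj k z).differentiableAt, dzbar_coord, gw_dzbar_conj]
  simp

theorem dz_normSq (z : V n) (a : Fin n) : dz (fun u => ((‖u‖ ^ 2 : ℝ) : ℂ)) z a = (starRingEnd ℂ) (z a) := by
  have : dz (fun u => ((‖u‖ ^ 2 : ℝ) : ℂ)) z a = ∑ k, dz (fun u : V n => ((‖u k‖ ^ 2 : ℝ) : ℂ)) z a := by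
    simp only [dz, gw_sum, Finset.mul_sum, ← Finset.sum_div, Finset.sum_sub_distrib]
  simp only [this, dz_coordSq, Finset.sum_ite_eq, Finset.mem_univ, if_true]

theorem dzbar_normSq (z : V n) (a : Fin n) : dzbar (fun u => ((‖u‖ ^ 2 : ℝ) : ℂ)) z a = z a := by
  have : dzbar (fun u => ((‖u‖ ^ 2 : ℝ) : ℂ)) z a = ∑ k, dzbar (fun u : V n => ((‖u k‖ ^ 2 : ℝ) : ℂ)) z a := by
    simp only [dzbar, gw_sum, Finset.mul_sum, ← Finset.sum_div, Finset.sum_add_distrib]
  simp only [this, dzbar_coordSq, Finset.sum_ite_eq, Finset.mem_univ, if_true]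

/-- `∂̄_b ψ(|w|²) = ψ1(|w|²) w_b` for all `w`, then the product rule. -/
theorem cHess_radial {ψ ψ1 : ℝ → ℝ} {ψ2 : ℝ} {z : V n} (h0 : ∀ r ∈ Ici (0 : ℝ), HasDerivWithinAt ψ (ψ1 r) (Ici 0) r)
    (h1 : HasDerivWithinAt ψ1 ψ2 (Ici 0) (‖z‖ ^ 2)) :
    cHess (fun u => ψ (‖u‖ ^ 2)) z = rad (ψ1 (‖z‖ ^ 2)) ψ2 z := by
  have hd : ∀ w : V n, DifferentiableAt ℝ (fun u : V n => ‖u‖ ^ 2) w := contDiff_normSq.differentiable (by simp)
  have hs : ∀ u : V n, ‖u‖ ^ 2 ∈ Ici (0 : ℝ) := fun u => mem_Ici.2 (sq_nonneg _)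
  ext a b
  have e : (fun w : V n => dzbar (fun u => (ψ (‖u‖ ^ 2) : ℂ)) w b) = fun w => (ψ1 (‖w‖ ^ 2) : ℂ) * w b := by
    funext w
    rw [dzbar_comp (y := fun u : V n => ‖u‖ ^ 2) (h0 _ (hs w)) (hd w) hs, dzbar_normSq]
  simp only [cHess, rad, Matrix.of_apply, e]
  rw [dz_mul (differentiableAt_ofReal
      (hasFDerivAt_comp_within (y := fun u : V n => ‖u‖ ^ 2) h1 (hd z) hs).differentiableAt)
    (differentiableAt_coord b z), dz_comp (y := fun u : V n => ‖u‖ ^ 2) h1 (hd z) hs, dz_normSq, dz_coord]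
  split_ifs <;> ring

end Crest.Agent.R213
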