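import Crest.Agent.R213.ISp

/-! # R213 / Har1 : Hardy inequalities by parts (absolutely continuous functions) -/

set_option autoImplicit false

open MeasureTheory Set Filter Topology
open scoped ContDiff InnerProductSpace

namespace Crest.Agent.R213

theorem har_cont {a b : ℝ} (hab : a ≤ b) {P g : ℝ → ℝ} (hg : IntervalIntegrable g volume a b)
    (hP : ∀ x ∈ Icc a b, P x - P a = ∫ r in a..x, g r) : ContinuousOn P (Icc a b) := by
  have hA := (hg.absolutelyContinuousOnInterval_intervalIntegral left_mem_uIcc).continuousOn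
  rw [uIcc_of_le hab] at hA
  refine ((continuousOn_const (c := P a)).add hA).congr fun x hx => ?_
  simp only [Pi.add_apply]
  rw [← hP x hx]; ring

theorem har_core {a b : ℝ} (hab : a ≤ b) {P g W w : ℝ → ℝ} (hg : IntervalIntegrable g volume a b)
    (hP : ∀ x ∈ Icc a b, P x - P a = ∫ r in a..x, g r)
    (hW : ∀ x ∈ Icc a b, HasDerivAt W (w x) x) (hW1 : ContDiffOn ℝ 1 W (Icc a b)) :
    ∫ x in a..b, (w x * P x ^ 2 + 2 * W x * P x * g x) = W b * P b ^ 2 - W a * P a ^ 2 := by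
  have hA := hg.absolutelyContinuousOnInterval_intervalIntegral left_mem_uIcc
  have hc : AbsolutelyContinuousOnInterval (fun _ : ℝ => P a) a b :=
    (contDiffOn_const (n := 1)).absolutelyContinuousOnInterval
  have hQ := hc.fun_add hA
  have hWa : AbsolutelyContinuousOnInterval W a b := by
    refine ContDiffOn.absolutelyContinuousOnInterval ?_
    rwa [uIcc_of_le hab]
  have k := (hWa.fun_mul (hQ.fun_mul hQ)).integral_deriv_eq_sub
  have eQ : ∀ x ∈ Icc a b, P a + ∫ r in a..x, g r = P x := fun x hx => by rw [← hP x hx]; ring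
  simp only [eQ b ⟨hab, le_rfl⟩, eQ a ⟨le_rfl, hab⟩] at k
  rw [sq, sq, ← k]
  refine intervalIntegral.integral_congr_ae ?_
  filter_upwards [hg.ae_hasDerivAt_integral] with x hx hx'
  have hx1 := uIoc_subset_uIcc hx'
  have hd := (hx hx1 a left_mem_uIcc).const_add (P a)
  rw [uIcc_of_le hab] at hx1
  rw [((hW x hx1).fun_mul (hd.fun_mul hd)).deriv, eQ x hx1]
  ring

theorem har_ineq {a b : ℝ} (hab : a ≤ b) {P g W w Ω : ℝ → ℝ} (hg : IntervalIntegrable g volume a b)
    (hP : ∀ x ∈ Icc a b, P x - P a = ∫ r in a..x, g r)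
    (hW : ∀ x ∈ Icc a b, HasDerivAt W (w x) x) (hW1 : ContDiffOn ℝ 1 W (Icc a b))
    (hw : ContinuousOn w (Icc a b)) (hΩ : ContinuousOn Ω (Icc a b))
    (hg2 : IntervalIntegrable (fun x => Ω x * (x * g x) ^ 2) volume a b)
    (hpt : ∀ x ∈ Icc a b, ∀ p q : ℝ,
      Ω x * (p ^ 2 / 2 - 2 * (x * q) ^ 2) ≤ w x * p ^ 2 + 2 * W x * p * q) :
    ∫ x in a..b, Ω x * P x ^ 2 ≤
      2 * (W b * P b ^ 2 - W a * P a ^ 2) + 4 * ∫ x in a..b, Ω x * (x * g x) ^ 2 := by
  have hPc := har_cont hab hg hP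
  have i1 : IntervalIntegrable (fun x => Ω x * P x ^ 2) volume a b :=
    (hΩ.fun_mul (hPc.fun_pow 2)).intervalIntegrable_of_Icc hab
  have i2 : IntervalIntegrable (fun x => w x * P x ^ 2 + 2 * W x * P x * g x) volume a b := by
    refine ((hw.fun_mul (hPc.fun_pow 2)).intervalIntegrable_of_Icc hab).add ?_
    refine hg.continuousOn_mul ?_
    rw [uIcc_of_le hab]
    exact (continuousOn_const.fun_mul hW1.continuousOn).fun_mul hPc
  have k := intervalIntegral.integral_mono_on hab ((i1.const_mul (1 / 2)).sub (hg2.const_mul 2)) i2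
    (fun x hx => by
      have := hpt x hx (P x) (g x)
      linarith)
  rw [har_core hab hg hP hW hW1, intervalIntegral.integral_sub (i1.const_mul _) (hg2.const_mul _),
    intervalIntegral.integral_const_mul, intervalIntegral.integral_const_mul] at k
  linarith

/-- Hardy, anchored at the right end point. -/
theorem har_left {a b : ℝ} (ha : 0 ≤ a) (hab : a ≤ b) {P g : ℝ → ℝ} (m : ℕ)
    (hg : IntervalIntegrable g volume a b) (hP : ∀ x ∈ Icc a b, P x - P a = ∫ r in a..x, g r)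
    (hg2 : IntervalIntegrable (fun x => x ^ m * (x * g x) ^ 2) volume a b) :
    ∫ x in a..b, x ^ m * P x ^ 2 ≤
      2 * (b ^ (m + 1) * P b ^ 2) + 4 * ∫ x in a..b, x ^ m * (x * g x) ^ 2 := by
  have k := har_ineq hab (W := fun x => x ^ (m + 1)) (w := fun x => ((m : ℝ) + 1) * x ^ m)
    (Ω := fun x => x ^ m) hg hP
    (fun x _ => by simpa using hasDerivAt_pow (m + 1) x) (by fun_prop) (by fun_prop) (by fun_prop) hg2
    (fun x hx p q => by
      have hx0 : 0 ≤ x ^ m := pow_nonneg (ha.trans hx.1) m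
      have h1 : 0 ≤ x ^ m * (p / 2 * p + 2 * p * (x * q) + 2 * (x * q) ^ 2) :=
        mul_nonneg hx0 (by nlinarith [sq_nonneg (p + 2 * (x * q))])
      have h2 : 0 ≤ (m : ℝ) * (x ^ m * p ^ 2) := by positivity
      rw [pow_succ x m]
      nlinarith)
  have : 0 ≤ a ^ (m + 1) * P a ^ 2 := by positivity
  linarith

/-- Hardy, anchored at the left end point. -/
theorem har_right {a b : ℝ} (ha : 0 < a) (hab : a ≤ b) {P g : ℝ → ℝ} (m : ℕ)
    (hg : IntervalIntegrable g volume a b) (hP : ∀ x ∈ Icc a b, P x - P a = ∫ r in a..x, g r)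
    (hg2 : IntervalIntegrable (fun x => (x ^ (m + 2))⁻¹ * (x * g x) ^ 2) volume a b) :
    ∫ x in a..b, (x ^ (m + 2))⁻¹ * P x ^ 2 ≤
      2 * ((a ^ (m + 1))⁻¹ * P a ^ 2) + 4 * ∫ x in a..b, (x ^ (m + 2))⁻¹ * (x * g x) ^ 2 := by
  have hne : ∀ x ∈ Icc a b, x ≠ 0 := fun x hx => (ha.trans_le hx.1).ne'
  have hc : ContinuousOn (fun x : ℝ => (x ^ (m + 2))⁻¹) (Icc a b) :=
    ContinuousOn.inv₀ (by fun_prop) fun x hx => pow_ne_zero _ (hne x hx)
  have k := har_ineq hab (W := fun x => -(x ^ (m + 1))⁻¹)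
    (w := fun x => ((m : ℝ) + 1) * (x ^ (m + 2))⁻¹) (Ω := fun x => (x ^ (m + 2))⁻¹) hg hP
    (fun x hx => by
      have h0 := hne x hx
      refine ((hasDerivAt_pow (m + 1) x).inv (pow_ne_zero _ h0)).neg.congr_deriv ?_
      simp only [Nat.add_sub_cancel]
      push_cast
      field_simp
      ring)
    (ContDiffOn.neg (ContDiffOn.inv (by fun_prop) fun x hx => pow_ne_zero _ (hne x hx)))
    (continuousOn_const.fun_mul hc) hc hg2
    (fun x hx p q => by
      have hx1 : 0 < x := ha.trans_le hx.1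
      have hx0 : 0 ≤ (x ^ (m + 2))⁻¹ := by positivity
      have e : (x ^ (m + 1))⁻¹ = (x ^ (m + 2))⁻¹ * x := by field_simp; ring
      have h1 : 0 ≤ (x ^ (m + 2))⁻¹ * (p / 2 * p - 2 * p * (x * q) + 2 * (x * q) ^ 2) :=
        mul_nonneg hx0 (by nlinarith [sq_nonneg (p - 2 * (x * q))])
      have h2 : 0 ≤ (m : ℝ) * ((x ^ (m + 2))⁻¹ * p ^ 2) := by positivity
      rw [e]
      nlinarith)
  have hb : 0 < b := ha.trans_le hab
  have : 0 ≤ (b ^ (m + 1))⁻¹ * P b ^ 2 := by positivity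
  linarith

theorem har_lim {F : ℝ → ℝ} {b M : ℝ} (hb : 0 < b) (hF : ContinuousOn F (Ioc 0 b))
    (h0 : ∀ x, 0 ≤ F x) (hM : ∀ a ∈ Ioc 0 b, ∫ x in a..b, F x ≤ M) :
    IntegrableOn F (Ioo 0 b) ∧ ∫ x in Ioo 0 b, F x ≤ M := by
  have ht : Tendsto (fun n : ℕ => b / ((n : ℝ) + 1)) atTop (𝓝 0) := by
    simpa [div_eq_mul_inv] using tendsto_one_div_add_atTop_nhds_zero_nat.const_mul b
  have hm : ∀ n : ℕ, b / ((n : ℝ) + 1) ∈ Ioc 0 b := fun n =>
    ⟨by positivity, div_le_self hb.le (by linarith [n.cast_nonneg (α := ℝ)])⟩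
  have hc := aecover_Ioo_of_Ioc (μ := volume) (l := atTop) ht (tendsto_const_nhds (x := b))
  have hi : ∀ n : ℕ, IntegrableOn F (Ioc (b / ((n : ℝ) + 1)) b) := fun n =>
    ((hF.mono fun x hx => ⟨(hm n).1.trans_le hx.1, hx.2⟩).integrableOn_Icc).mono_set
      Ioc_subset_Icc_self
  have hle : ∀ n : ℕ, ∫ x in Ioc (b / ((n : ℝ) + 1)) b, F x ∂(volume.restrict (Ioo 0 b)) ≤ M := by
    intro n
    refine le_trans ?_ (hM _ (hm n))
    rw [intervalIntegral.integral_of_le (hm n).2, Measure.restrict_restrict measurableSet_Ioc]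
    exact setIntegral_mono_set (hi n) (Eventually.of_forall h0) inter_subset_left.eventuallyLE
  have hI : IntegrableOn F (Ioo 0 b) :=
    hc.integrable_of_integral_bounded_of_nonneg_ae M (fun n => (hi n).restrict)
      (Eventually.of_forall h0) (Eventually.of_forall hle)
  exact ⟨hI, le_of_tendsto' (hc.integral_tendsto_of_countably_generated hI) hle⟩

end Crest.Agent.R213
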