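import Crest.Agent.R213.Har1

/-! # R213 / Har2 : Hardy inequalities for `sig`, anchors -/

set_option autoImplicit false

open MeasureTheory Set Filter Topology
open scoped ContDiff InnerProductSpace

namespace Crest.Agent.R213

theorem har_mem {a b x : ℝ} (ha : 0 < a) (hb : b ≤ 1 / 2) (hx : x ∈ Icc a b) : x ∈ Ioo (0 : ℝ) 1 :=
  ⟨ha.trans_le hx.1, by linarith [hx.2]⟩

theorem har_h2 (h : L2) {a b : ℝ} (ha : 0 < a) (hab : a ≤ b) (hb : b ≤ 1 / 2) {Ω : ℝ → ℝ}
    (hΩ : ContinuousOn Ω (Icc a b)) : IntervalIntegrable (fun x => Ω x * h x ^ 2) volume a b := by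
  refine IntervalIntegrable.continuousOn_mul ?_ (by rwa [uIcc_of_le hab])
  rw [intervalIntegrable_iff_integrableOn_Icc_of_le hab]
  exact IntegrableOn.mono_set (t := Ioo 0 1) (Lp.memLp h).integrable_sq fun x hx => har_mem ha hb hx

theorem har_eps_int (h : L2) {a b : ℝ} (ha : 0 < a) (hab : a ≤ b) (hb : b ≤ 1 / 2) {Ω : ℝ → ℝ}
    (hΩ : ContinuousOn Ω (Icc a b)) :
    IntervalIntegrable (fun x => Ω x * (x * eps h x) ^ 2) volume a b := by
  have e : (fun x => Ω x * (x * eps h x) ^ 2) =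
      fun x => (Ω x * (x / (x ^ 2 * (1 - x))) ^ 2) * h x ^ 2 := by
    funext x; simp only [eps]; ring
  rw [e]
  refine har_h2 h ha hab hb (hΩ.fun_mul (ContinuousOn.fun_pow (ContinuousOn.div (by fun_prop)
    (by fun_prop) fun x hx => ?_) 2))
  have := har_mem ha hb hx
  exact mul_ne_zero (pow_ne_zero _ this.1.ne') (sub_pos.2 this.2).ne'

theorem har_eps_le (h : L2) {x : ℝ} (hx0 : 0 < x) (hx : x ≤ 1 / 2) :
    x ^ 2 * (x * eps h x) ^ 2 ≤ 4 * h x ^ 2 := by
  have h1 : 0 < 1 - x := by linarith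
  have e : x ^ 2 * (x * eps h x) ^ 2 = h x ^ 2 / (1 - x) ^ 2 := by
    simp only [eps]; field_simp
  rw [e, div_le_iff₀ (by positivity)]
  have : 1 ≤ 4 * (1 - x) ^ 2 := by nlinarith
  nlinarith [sq_nonneg (h x)]

theorem har_sig1_P (h : L2) {a b : ℝ} (ha : 0 < a) (hab : a ≤ b) (hb : b ≤ 1 / 2) :
    IntervalIntegrable (eps h) volume a b ∧
      ∀ x ∈ Icc a b, sig1 h x - sig1 h a = ∫ r in a..x, eps h r :=
  ⟨eps_intervalIntegrable h (har_mem ha hb ⟨le_rfl, hab⟩) (har_mem ha hb ⟨hab, le_rfl⟩),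
    fun _ hx => sig1_sub h (har_mem ha hb ⟨le_rfl, hab⟩) (har_mem ha hb hx)⟩

theorem har_sig_c (h : L2) {a b : ℝ} (ha : 0 < a) (hb : b ≤ 1 / 2) :
    ContinuousOn (sig h) (Icc a b) ∧ ContinuousOn (sig1 h) (Icc a b) :=
  ⟨(sa_sig_cont h).mono fun _ hx => har_mem ha hb hx,
    (sig1_continuousOn h).mono fun _ hx => har_mem ha hb hx⟩

theorem har_sig_P (h : L2) {a b : ℝ} (ha : 0 < a) (hab : a ≤ b) (hb : b ≤ 1 / 2) :
    IntervalIntegrable (sig1 h) volume a b ∧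
      ∀ x ∈ Icc a b, sig h x - sig h a = ∫ r in a..x, sig1 h r :=
  ⟨(har_sig_c h ha hb).2.intervalIntegrable_of_Icc hab, fun _ hx =>
    (sa_ftc hx.1 (fun _ hr => hasDerivAt_sig h (har_mem ha hb ⟨hr.1, hr.2.trans hx.2⟩))
      (har_sig_c h ha (hx.2.trans hb)).2).symm⟩

theorem har_sigL (h : L2) {a b : ℝ} (ha : 0 < a) (hab : a ≤ b) (hb : b ≤ 1 / 2) :
    ∫ x in a..b, (sig h x ^ 2 + (x * sig1 h x) ^ 2) ≤
      2 * (b * sig h b ^ 2) + 10 * (b * (b * sig1 h b) ^ 2) + 80 * ∫ x in a..b, h x ^ 2 := by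
  obtain ⟨c0, c1⟩ := har_sig_c h ha hb
  have i1 : IntervalIntegrable (fun x => (x * sig1 h x) ^ 2) volume a b :=
    ((continuousOn_id.fun_mul c1).fun_pow 2).intervalIntegrable_of_Icc hab
  have i2 := har_eps_int h ha hab hb (Ω := fun x => x ^ 2) (by fun_prop)
  have i3 := har_h2 h ha hab hb (Ω := fun _ => 4) (by fun_prop)
  have k0 := har_left ha.le hab 0 (har_sig_P h ha hab hb).1 (har_sig_P h ha hab hb).2
    (by simpa only [pow_zero, one_mul] using i1)
  have k1 := har_left ha.le hab 2 (har_sig1_P h ha hab hb).1 (har_sig1_P h ha hab hb).2 i2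
  have k2 := intervalIntegral.integral_mono_on hab i2 i3 fun x hx =>
    har_eps_le h (ha.trans_le hx.1) (hx.2.trans hb)
  simp only [pow_zero, one_mul, zero_add, pow_one] at k0
  simp only [← mul_pow] at k1
  simp only [← mul_pow] at k2
  rw [intervalIntegral.integral_const_mul] at k2
  rw [intervalIntegral.integral_add ((c0.fun_pow 2).intervalIntegrable_of_Icc hab) i1]
  have e : b ^ (2 + 1) * sig1 h b ^ 2 = b * (b * sig1 h b) ^ 2 := by ring
  linarith

theorem har_sigR (h : L2) {a b : ℝ} (ha : 0 < a) (hab : a ≤ b) (hb : b ≤ 1 / 2) (m : ℕ) :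
    ∫ x in a..b, (x ^ (m + 4))⁻¹ * (sig h x ^ 2 + (x * sig1 h x) ^ 2) ≤
      (a ^ (m + 4))⁻¹ * (2 * (a * sig h a ^ 2) + 10 * (a * (a * sig1 h a) ^ 2)) +
        80 * ∫ x in a..b, (x ^ (m + 4))⁻¹ * h x ^ 2 := by
  obtain ⟨c0, c1⟩ := har_sig_c h ha hb
  have hne : ∀ x ∈ Icc a b, x ≠ 0 := fun x hx => (ha.trans_le hx.1).ne'
  have hc : ∀ n : ℕ, ContinuousOn (fun x : ℝ => (x ^ n)⁻¹) (Icc a b) := fun n =>
    ContinuousOn.inv₀ (by fun_prop) fun x hx => pow_ne_zero _ (hne x hx)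
  have i0 : IntervalIntegrable (fun x => (x ^ (m + 4))⁻¹ * sig h x ^ 2) volume a b :=
    ((hc _).fun_mul (c0.fun_pow 2)).intervalIntegrable_of_Icc hab
  have i1 : IntervalIntegrable (fun x => (x ^ (m + 4))⁻¹ * (x * sig1 h x) ^ 2) volume a b :=
    ((hc _).fun_mul ((continuousOn_id.fun_mul c1).fun_pow 2)).intervalIntegrable_of_Icc hab
  have i2 := har_eps_int h ha hab hb (hc (m + 2))
  have i3 := (har_h2 h ha hab hb (hc (m + 4))).const_mul 4
  have k0 := har_right ha hab (m + 2) (har_sig_P h ha hab hb).1 (har_sig_P h ha hab hb).2 i1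
  have k1 := har_right ha hab m (har_sig1_P h ha hab hb).1 (har_sig1_P h ha hab hb).2 i2
  have k2 := intervalIntegral.integral_mono_on hab i2 i3 fun x hx => by
    have hx0 := ha.trans_le hx.1
    have := mul_le_mul_of_nonneg_left (har_eps_le h hx0 (hx.2.trans hb))
      (by positivity : 0 ≤ (x ^ (m + 4))⁻¹)
    have e : (x ^ (m + 2))⁻¹ = (x ^ (m + 4))⁻¹ * x ^ 2 := by field_simp; ring
    rw [e]
    linarith
  have k3 : ∫ x in a..b, (x ^ (m + 4))⁻¹ * (x * sig1 h x) ^ 2 =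
      ∫ x in a..b, (x ^ (m + 2))⁻¹ * sig1 h x ^ 2 := by
    refine intervalIntegral.integral_congr fun x hx => ?_
    rw [uIcc_of_le hab] at hx
    have := hne x hx
    field_simp
    ring
  rw [intervalIntegral.integral_const_mul] at k2
  simp only [mul_add]
  rw [intervalIntegral.integral_add i0 i1]
  have e1 : (a ^ (m + 4))⁻¹ * (2 * (a * sig h a ^ 2)) = 2 * ((a ^ (m + 2 + 1))⁻¹ * sig h a ^ 2) := by
    field_simp; ring
  have e2 : (a ^ (m + 4))⁻¹ * (10 * (a * (a * sig1 h a) ^ 2)) =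
      10 * ((a ^ (m + 1))⁻¹ * sig1 h a ^ 2) := by
    field_simp; ring
  rw [show m + 2 + 2 = m + 4 from rfl] at k0
  rw [e1, e2]
  linarith

theorem har_F_cont (h : L2) {b : ℝ} (hb : b ≤ 1 / 2) :
    ContinuousOn (fun x => sig h x ^ 2 + (x * sig1 h x) ^ 2) (Ioc 0 b) := by
  have hs : Ioc 0 b ⊆ Ioo (0 : ℝ) 1 := fun x hx => ⟨hx.1, by linarith [hx.2]⟩
  exact (((sa_sig_cont h).mono hs).fun_pow 2).fun_add
    ((continuousOn_id.fun_mul ((sig1_continuousOn h).mono hs)).fun_pow 2)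

theorem har_sigL0 (h : L2) {b : ℝ} (hb0 : 0 < b) (hb : b ≤ 1 / 2) :
    IntegrableOn (fun x => sig h x ^ 2 + (x * sig1 h x) ^ 2) (Ioo 0 b) ∧
    ∫ x in Ioo 0 b, (sig h x ^ 2 + (x * sig1 h x) ^ 2) ≤
      2 * (b * sig h b ^ 2) + 10 * (b * (b * sig1 h b) ^ 2) + 80 * ∫ x in Ioc 0 b, h x ^ 2 := by
  refine har_lim hb0 (har_F_cont h hb) (fun x => by positivity) fun a ha => ?_
  have k := har_sigL h ha.1 ha.2 hb
  have : ∫ x in a..b, h x ^ 2 ≤ ∫ x in Ioc 0 b, h x ^ 2 := by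
    rw [intervalIntegral.integral_of_le ha.2]
    refine setIntegral_mono_set ?_ (Eventually.of_forall fun x => sq_nonneg _)
      (Ioc_subset_Ioc_left ha.1.le).eventuallyLE
    exact IntegrableOn.mono_set (t := Ioo 0 1) (Lp.memLp h).integrable_sq
      fun x hx => ⟨hx.1, by linarith [hx.2]⟩
  linarith

theorem har_wh_pos (s x : ℝ) : 0 < wh s x := by unfold wh; positivity

theorem har_wh_le (s x : ℝ) : wh s x ≤ 1 := by
  unfold wh
  exact div_le_one_of_le₀ (le_add_of_nonneg_right (by positivity)) (by positivity)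

theorem har_wh_cont (s : ℝ) : Continuous (wh s) := by
  unfold wh
  exact continuous_const.div (by fun_prop) fun x => by positivity

theorem har_lam_pos (s : ℝ) : 0 < lam s := Real.exp_pos _

theorem har_lam_sq (s : ℝ) : lam s ^ 2 = Real.exp (-s) := by
  rw [lam, sq, ← Real.exp_add]; congr 1; ring

theorem har_lam_le {s : ℝ} (hs : 4 ≤ s) : lam s ≤ 1 / 4 := by
  have h1 : lam s ≤ Real.exp (-2) := Real.exp_le_exp.2 (by linarith)
  have h2 : (4 : ℝ) ≤ Real.exp 2 := by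
    have h3 := Real.add_one_le_exp (1 : ℝ)
    have : Real.exp 2 = Real.exp 1 * Real.exp 1 := by rw [← Real.exp_add]; norm_num
    nlinarith
  rw [Real.exp_neg] at h1
  exact h1.trans (by rw [one_div]; exact inv_anti₀ (by norm_num) h2)

theorem har_wh_eq (s x : ℝ) : wh s x = lam s ^ 2 / (lam s ^ 2 + x ^ 2) := by
  have := Real.exp_pos s
  rw [har_lam_sq, wh, Real.exp_neg]
  field_simp

theorem har_hardy_int (j : ℕ) (s : ℝ) (h : L2) :
    IntegrableOn (fun x => wh s x ^ j * (sig h x ^ 2 + (x * sig1 h x) ^ 2)) (Ioo 0 (1 / 2)) := by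
  refine Integrable.bdd_mul (c := 1) (har_sigL0 h (by norm_num) le_rfl).1
    ((har_wh_cont s).pow j).aestronglyMeasurable (Eventually.of_forall fun x => ?_)
  rw [Real.norm_of_nonneg (pow_nonneg (har_wh_pos s x).le j)]
  exact pow_le_one₀ (har_wh_pos s x).le (har_wh_le s x)

theorem har_wh_int (j : ℕ) (s : ℝ) (h : L2) :
    IntegrableOn (fun x => wh s x ^ j * h x ^ 2) (Ioo 0 1) := by
  refine Integrable.bdd_mul (c := 1) (Lp.memLp h).integrable_sq
    ((har_wh_cont s).pow j).aestronglyMeasurable (Eventually.of_forall fun x => ?_)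
  rw [Real.norm_of_nonneg (pow_nonneg (har_wh_pos s x).le j)]
  exact pow_le_one₀ (har_wh_pos s x).le (har_wh_le s x)

/-- a function dominated by `K wh^j h²` on a subinterval. -/
theorem har_dom (j : ℕ) (s : ℝ) (h : L2) {a b K : ℝ} (ha : 0 ≤ a) (hb : b ≤ 1 / 2) (hK : 0 ≤ K)
    {F : ℝ → ℝ} (hF : IntegrableOn F (Ioc a b)) (hle : ∀ x ∈ Ioc a b, F x ≤ K * (wh s x ^ j * h x ^ 2)) :
    ∫ x in Ioc a b, F x ≤ K * ∫ x in Ioo (0 : ℝ) 1, wh s x ^ j * h x ^ 2 := by
  have hs : Ioc a b ⊆ Ioo (0 : ℝ) 1 := fun x hx => ⟨ha.trans_lt hx.1, by linarith [hx.2]⟩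
  refine (setIntegral_mono_on hF (((har_wh_int j s h).mono_set hs).const_mul K) measurableSet_Ioc
    hle).trans ?_
  rw [integral_const_mul]
  refine mul_le_mul_of_nonneg_left (setIntegral_mono_set (har_wh_int j s h)
    (Eventually.of_forall fun x => ?_) hs.eventuallyLE) hK
  have := har_wh_pos s x
  positivity

theorem har_unanch {j : ℕ} (hj : j = 2 ∨ j = 3) {s : ℝ} (hs : 4 ≤ s) (h : L2) :
    ∫ x in Ioo (0 : ℝ) (1 / 2), wh s x ^ j * (sig h x ^ 2 + (x * sig1 h x) ^ 2) ≤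
      4 * (lam s * sig h (lam s) ^ 2) + 20 * (lam s * (lam s * sig1 h (lam s)) ^ 2) +
        1280 * ∫ x in Ioo (0 : ℝ) 1, wh s x ^ j * h x ^ 2 := by
  have ht := har_lam_pos s
  have ht4 := har_lam_le hs
  have ht2 : lam s ≤ 1 / 2 := by linarith
  have hI := har_hardy_int j s h
  have hw := har_wh_eq s
  obtain ⟨m, hm⟩ : ∃ m, m + 4 = 2 * j := by rcases hj with rfl | rfl; exacts [⟨0, rfl⟩, ⟨2, rfl⟩]
  have h8 : (2 : ℝ) ^ j ≤ 8 := by rcases hj with rfl | rfl <;> norm_num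
  generalize lam s = t at *
  have hI' : IntegrableOn (fun x => wh s x ^ j * (sig h x ^ 2 + (x * sig1 h x) ^ 2))
      (Ioc 0 (1 / 2)) := (integrableOn_Ioc_iff_integrableOn_Ioo).2 hI
  rw [← integral_Ioc_eq_integral_Ioo, ← Ioc_union_Ioc_eq_Ioc ht.le ht2,
    setIntegral_union (Ioc_disjoint_Ioc_of_le le_rfl) measurableSet_Ioc
      (hI'.mono_set (Ioc_subset_Ioc_right ht2)) (hI'.mono_set (Ioc_subset_Ioc_left ht.le))]
  obtain ⟨l0, l1⟩ := har_sigL0 h ht ht2
  have l2 : ∫ x in Ioc 0 t, wh s x ^ j * (sig h x ^ 2 + (x * sig1 h x) ^ 2) ≤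
      ∫ x in Ioo 0 t, (sig h x ^ 2 + (x * sig1 h x) ^ 2) := by
    rw [integral_Ioc_eq_integral_Ioo]
    refine setIntegral_mono_on (hI.mono_set (Ioo_subset_Ioo_right ht2)) l0 measurableSet_Ioo
      fun x _ => mul_le_of_le_one_left (by positivity)
        (pow_le_one₀ (har_wh_pos s x).le (har_wh_le s x))
  have l3 := har_dom j s h le_rfl ht2 (K := 8) (by norm_num) (F := fun x => h x ^ 2)
    (IntegrableOn.mono_set (t := Ioo 0 1) (Lp.memLp h).integrable_sq
      fun x hx => ⟨hx.1, by linarith [hx.2]⟩) fun x hx => by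
      have h1 : 1 ≤ 2 * wh s x := by
        rw [hw, ← mul_div_assoc, le_div_iff₀ (by positivity)]
        nlinarith [hx.1, hx.2]
      have h2 : 1 ≤ 2 ^ j * wh s x ^ j := by rw [← mul_pow]; exact one_le_pow₀ h1
      have h3 : 1 ≤ 8 * wh s x ^ j :=
        h2.trans (mul_le_mul_of_nonneg_right h8 (pow_nonneg (har_wh_pos s x).le j))
      nlinarith [sq_nonneg (h x)]
  have hc : ContinuousOn (fun x : ℝ => (x ^ (m + 4))⁻¹) (Icc t (1 / 2)) :=
    ContinuousOn.inv₀ (by fun_prop) fun x hx => pow_ne_zero _ (ht.trans_le hx.1).ne'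
  have ep : ∀ x, 0 < x → t ^ (m + 4) * (x ^ (m + 4))⁻¹ = (t ^ 2 / x ^ 2) ^ j := by
    intro x hx
    rw [hm, div_pow, ← pow_mul, ← pow_mul, div_eq_mul_inv]
  have r1 := mul_le_mul_of_nonneg_left (har_sigR h ht ht2 le_rfl m) (pow_pos ht (m + 4)).le
  rw [mul_add, ← mul_assoc, mul_inv_cancel₀ (pow_pos ht _).ne', one_mul,
    mul_left_comm (t ^ (m + 4)) 80, ← intervalIntegral.integral_const_mul (t ^ (m + 4)),
    ← intervalIntegral.integral_const_mul (t ^ (m + 4)),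
    intervalIntegral.integral_of_le ht2, intervalIntegral.integral_of_le ht2] at r1
  have r2 : ∫ x in Ioc t (1 / 2), wh s x ^ j * (sig h x ^ 2 + (x * sig1 h x) ^ 2) ≤
      ∫ x in Ioc t (1 / 2), t ^ (m + 4) * ((x ^ (m + 4))⁻¹ * (sig h x ^ 2 + (x * sig1 h x) ^ 2)) := by
    refine setIntegral_mono_on (hI'.mono_set (Ioc_subset_Ioc_left ht.le)) ?_ measurableSet_Ioc
      fun x hx => ?_
    · refine ((continuousOn_const.fun_mul (hc.fun_mul ((har_F_cont h le_rfl).mono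
        fun x hx => ⟨ht.trans_le hx.1, hx.2⟩))).integrableOn_Icc).mono_set Ioc_subset_Icc_self
    · have hx0 := ht.trans hx.1
      rw [← mul_assoc, ep x hx0]
      refine mul_le_mul_of_nonneg_right (pow_le_pow_left₀ (har_wh_pos s x).le ?_ j) (by positivity)
      rw [hw]
      exact div_le_div_of_nonneg_left (by positivity) (by positivity) (by nlinarith)
  have r3 := har_dom j s h ht.le le_rfl (K := 8) (by norm_num)
    (F := fun x => t ^ (m + 4) * ((x ^ (m + 4))⁻¹ * h x ^ 2))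
    ((har_h2 h ht ht2 le_rfl hc).const_mul _).1 fun x hx => by
      have hx0 := ht.trans hx.1
      have h1 : t ^ 2 / x ^ 2 ≤ 2 * wh s x := by
        rw [hw, ← mul_div_assoc, div_le_div_iff₀ (by positivity) (by positivity)]
        have : t ^ 2 ≤ x ^ 2 := pow_le_pow_left₀ ht.le hx.1.le 2
        nlinarith [sq_nonneg t]
      have h2 : (t ^ 2 / x ^ 2) ^ j ≤ 2 ^ j * wh s x ^ j := by
        rw [← mul_pow]; exact pow_le_pow_left₀ (by positivity) h1 j
      have h3 := h2.trans (mul_le_mul_of_nonneg_right h8 (pow_nonneg (har_wh_pos s x).le j))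
      rw [← mul_assoc, ep x hx0, ← mul_assoc]
      exact mul_le_mul_of_nonneg_right h3 (sq_nonneg _)
  linarith

end Crest.Agent.R213
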