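import Crest.Agent.R213.Har2

/-! # R213 / Har3 : anchors, anchored Hardy inequality, bound of `ell` -/

set_option autoImplicit false

open MeasureTheory Set Filter Topology
open scoped ContDiff InnerProductSpace

namespace Crest.Agent.R213

theorem har_anc_exists : Nonempty Anc := by
  let B : ContDiffBump (5 / 4 : ℝ) := ⟨1 / 8, 1 / 4, by norm_num, by norm_num⟩
  obtain ⟨φ, sm, hz, hc, h1⟩ : ∃ φ : ℝ → ℝ, ContDiff ℝ ∞ φ ∧ (∀ y, y ∉ Ioo (1 : ℝ) (3 / 2) → φ y = 0) ∧
      HasCompactSupport φ ∧ ∫ y, φ y = 1 := by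
    refine ⟨B.normed volume, B.contDiff_normed, fun y hy => ?_, B.hasCompactSupport_normed,
      B.integral_normed⟩
    by_contra hne
    have : y ∈ Function.support (B.normed volume) := hne
    rw [B.support_normed_eq, Real.ball_eq_Ioo] at this
    refine hy ⟨?_, ?_⟩
    · have := this.1; simp only [B] at this; linarith
    · have := this.2; simp only [B] at this; linarith
  have i0 : Integrable φ := sm.continuous.integrable_of_hasCompactSupport hc
  have i1 : Integrable fun y => y * φ y :=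
    (continuous_id.mul sm.continuous).integrable_of_hasCompactSupport hc.mul_left
  have j0 : Integrable fun y => φ (y - 1 / 2) := i0.comp_sub_right _
  have e1 : (fun y => y * φ (y - 1 / 2)) =
      fun y => (y - 1 / 2) * φ (y - 1 / 2) + 1 / 2 * φ (y - 1 / 2) := by funext y; ring
  have j1' : Integrable fun y => (y - 1 / 2) * φ (y - 1 / 2) := i1.comp_sub_right _
  have j1 : Integrable fun y => y * φ (y - 1 / 2) := by rw [e1]; exact j1'.add (j0.const_mul _)
  have k0 : ∫ y, φ (y - 1 / 2) = 1 := by rw [integral_sub_right_eq_self, h1]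
  have k1 : ∫ y, y * φ (y - 1 / 2) = (∫ y, y * φ y) + 1 / 2 := by
    rw [e1, integral_add j1' (j0.const_mul _), integral_const_mul, k0,
      integral_sub_right_eq_self (fun y => y * φ y), mul_one]
  have sm' : ContDiff ℝ ∞ fun y => φ (y - 1 / 2) := sm.comp (contDiff_id.sub contDiff_const)
  generalize hm : (∫ y, y * φ y) = μ at k1
  refine ⟨⟨![fun y => (1 + 2 * μ) * φ y - 2 * μ * φ (y - 1 / 2), fun y => 2 * φ (y - 1 / 2) - 2 * φ y],
    ?_, ?_, ?_, ?_, ?_, ?_⟩⟩
  · intro j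
    fin_cases j
    · exact (contDiff_const.mul sm).sub (contDiff_const.mul sm')
    · exact (contDiff_const.mul sm').sub (contDiff_const.mul sm)
  · intro j y hy
    have a0 : φ y = 0 := hz y fun h => hy ⟨h.1, by linarith [h.2]⟩
    have a1 : φ (y - 1 / 2) = 0 := hz _ fun h => hy ⟨by linarith [h.1], by linarith [h.2]⟩
    fin_cases j
    · show (1 + 2 * μ) * φ y - 2 * μ * φ (y - 1 / 2) = 0
      rw [a0, a1]; ring
    · show 2 * φ (y - 1 / 2) - 2 * φ y = 0
      rw [a0, a1]; ring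
  · show ∫ y, ((1 + 2 * μ) * φ y - 2 * μ * φ (y - 1 / 2)) = 1
    rw [integral_sub (i0.const_mul _) (j0.const_mul _), integral_const_mul, integral_const_mul, h1, k0]
    ring
  · show ∫ y, y * ((1 + 2 * μ) * φ y - 2 * μ * φ (y - 1 / 2)) = 0
    simp only [mul_sub, mul_left_comm _ (1 + 2 * μ), mul_left_comm _ (2 * μ)]
    rw [integral_sub (i1.const_mul _) (j1.const_mul _), integral_const_mul, integral_const_mul, hm, k1]
    ring
  · show ∫ y, (2 * φ (y - 1 / 2) - 2 * φ y) = 0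
    rw [integral_sub (j0.const_mul _) (i0.const_mul _), integral_const_mul, integral_const_mul, h1, k0]
    ring
  · show ∫ y, y * (2 * φ (y - 1 / 2) - 2 * φ y) = 1
    simp only [mul_sub, mul_left_comm _ (2 : ℝ)]
    rw [integral_sub (j1.const_mul _) (i1.const_mul _), integral_const_mul, integral_const_mul, hm, k1]
    ring

theorem har_cs (h : L2) {a b K : ℝ} (ha : 0 < a) (hab : a ≤ b) (hb : b ≤ 1 / 2)
    {w : ℝ → ℝ} (hw : ContinuousOn w (Icc a b)) (hle : ∀ r ∈ Icc a b, w r ^ 2 ≤ K) :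
    (∫ r in a..b, w r * h r) ^ 2 ≤ K * (b - a) * ∫ r in Ioc a b, h r ^ 2 := by
  have hsub : Ioc a b ⊆ Ioo 0 1 := fun r hr => har_mem ha hb (Ioc_subset_Icc_self hr)
  have hw2 : IntegrableOn (fun r => w r ^ 2) (Ioc a b) :=
    ((hw.pow 2).integrableOn_Icc).mono_set Ioc_subset_Icc_self
  have m1 : MemLp w 2 (volume.restrict (Ioc a b)) :=
    (memLp_two_iff_integrable_sq
      ((hw.mono Ioc_subset_Icc_self).aestronglyMeasurable measurableSet_Ioc)).2 hw2
  have m2 : MemLp h 2 (volume.restrict (Ioc a b)) :=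
    (Lp.memLp h).mono_measure (Measure.restrict_mono hsub le_rfl)
  have h1 := sa_cs0 m1 m2
  have h3 : ∫ r in Ioc a b, w r ^ 2 ≤ ∫ r in Ioc a b, K :=
    setIntegral_mono_on hw2 (continuousOn_const.integrableOn_Icc.mono_set Ioc_subset_Icc_self)
      measurableSet_Ioc fun r hr => hle r (Ioc_subset_Icc_self hr)
  rw [← intervalIntegral.integral_of_le hab (f := fun _ => K), intervalIntegral.integral_const,
    smul_eq_mul, mul_comm] at h3
  rw [intervalIntegral.integral_of_le hab]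
  exact h1.trans (mul_le_mul_of_nonneg_right h3 (integral_nonneg fun r => sq_nonneg _))

/-- the Taylor remainder on `[λ, 2λ]`. -/
theorem har_rem {j : ℕ} (hj : j ≤ 3) {s : ℝ} (hs : 4 ≤ s) (h : L2) {y : ℝ} (hy : y ∈ Icc (1 : ℝ) 2) :
    lam s * (sig h (lam s * y) - (sig h (lam s) + (y - 1) * (lam s * sig1 h (lam s)))) ^ 2 ≤
      500 * ∫ x in Ioo (0 : ℝ) 1, wh s x ^ j * h x ^ 2 := by
  have ht := har_lam_pos s
  have ht4 := har_lam_le hs
  have hw := har_wh_eq s
  generalize lam s = t at *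
  have h1 : t ≤ t * y := by nlinarith [hy.1]
  have h2 : t * y ≤ 2 * t := by nlinarith [hy.2]
  have h3 : t * y ≤ 1 / 2 := by linarith
  have e : sig h (t * y) - (sig h t + (y - 1) * (t * sig1 h t)) =
      ∫ r in t..(t * y), ((t * y - r) / (r ^ 2 * (1 - r))) * h r := by
    rw [sig_taylor h (har_mem ht h3 ⟨le_rfl, h1⟩) (har_mem ht h3 ⟨h1, le_rfl⟩)]
    have : (fun r => (t * y - r) * eps h r) = fun r => ((t * y - r) / (r ^ 2 * (1 - r))) * h r := by
      funext r; simp only [eps]; ring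
    rw [this]; ring
  have k := har_cs h ht h1 h3 (K := 4 / t ^ 2) (w := fun r => (t * y - r) / (r ^ 2 * (1 - r)))
    (ContinuousOn.div (by fun_prop) (by fun_prop) fun x hx => by
      have := har_mem ht h3 hx
      exact mul_ne_zero (pow_ne_zero _ this.1.ne') (sub_pos.2 this.2).ne') fun r hr => by
      have hr0 : 0 < r := ht.trans_le hr.1
      have hr1 : 1 / 2 ≤ 1 - r := by linarith [hr.2]
      have a1 : (t * y - r) / (r ^ 2 * (1 - r)) ≤ 2 / t := by
        rw [div_le_div_iff₀ (by positivity) ht]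
        have : t ^ 2 ≤ r ^ 2 := pow_le_pow_left₀ ht.le hr.1 2
        have : (t * y - r) * t ≤ t * t := mul_le_mul_of_nonneg_right (by linarith [hr.1]) ht.le
        nlinarith
      have a2 : 0 ≤ (t * y - r) / (r ^ 2 * (1 - r)) := div_nonneg (by linarith [hr.2]) (by positivity)
      calc _ ≤ (2 / t) ^ 2 := pow_le_pow_left₀ a2 a1 2
        _ = 4 / t ^ 2 := by ring
  have l := har_dom j s h ht.le h3 (K := 125) (by norm_num) (F := fun x => h x ^ 2)
    (IntegrableOn.mono_set (t := Ioo 0 1) (Lp.memLp h).integrable_sq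
      fun x hx => har_mem ht h3 (Ioc_subset_Icc_self hx)) fun x hx => by
      have hx0 := ht.trans hx.1
      have b1 : 1 ≤ 5 * wh s x := by
        rw [hw, ← mul_div_assoc, le_div_iff₀ (by positivity)]
        have : x ^ 2 ≤ (2 * t) ^ 2 := pow_le_pow_left₀ hx0.le (hx.2.trans h2) 2
        nlinarith
      have b2 : 1 ≤ 5 ^ j * wh s x ^ j := by rw [← mul_pow]; exact one_le_pow₀ b1
      have b3 : (5 : ℝ) ^ j ≤ 5 ^ 3 := pow_le_pow_right₀ (by norm_num) hj
      have b4 := b2.trans (mul_le_mul_of_nonneg_right b3 (pow_nonneg (har_wh_pos s x).le j))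
      nlinarith [sq_nonneg (h x)]
  have n0 : 0 ≤ ∫ r in Ioc t (t * y), h r ^ 2 := integral_nonneg fun r => sq_nonneg _
  have c : t * (4 / t ^ 2 * (t * y - t)) ≤ 4 := by
    have : t * (4 / t ^ 2 * (t * y - t)) = 4 * (y - 1) := by field_simp
    rw [this]; linarith [hy.2]
  rw [e]
  have := mul_le_mul_of_nonneg_left k ht.le
  rw [← mul_assoc] at this
  nlinarith

theorem har_ψ_int (N : Anc) (i : Fin 2) {F : ℝ → ℝ} (hF : ContinuousOn F (Icc 1 2)) :
    Integrable fun y => F y * N.ψ i y := by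
  refine (integrableOn_iff_integrable_of_support_subset (s := Icc 1 2) fun y hy => ?_).1
    (hF.fun_mul (N.sm i).continuous.continuousOn).integrableOn_Icc
  by_contra hn
  exact hy (by simp only [N.supp i y fun h => hn (Ioo_subset_Icc_self h), mul_zero])

theorem har_al (N : Anc) (i : Fin 2) {s : ℝ} (hs : 4 ≤ s) (h : L2) :
    N.al i s h = ∫ y, sig h (lam s * y) * N.ψ i y := by
  have ht := har_lam_pos s
  have ht4 := har_lam_le hs
  unfold Anc.al
  generalize lam s = t at *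
  rw [setIntegral_eq_integral_of_forall_compl_eq_zero fun x hx => ?_]
  · have k := Measure.integral_comp_div (fun y => sig h (t * y) * N.ψ i y) t
    simp only [mul_div_cancel₀ _ ht.ne'] at k
    rw [k, abs_of_pos ht, smul_eq_mul, mul_div_cancel_left₀ _ ht.ne']
  · rw [N.supp i _ fun hy => hx ?_, mul_zero]
    have h1 := (lt_div_iff₀ ht).1 hy.1
    have h2 := (div_lt_iff₀ ht).1 hy.2
    exact ⟨by linarith, by linarith⟩

theorem har_al_near (N : Anc) (i : Fin 2) {j : ℕ} (hj : j ≤ 3) {s : ℝ} (hs : 4 ≤ s) (h : L2) :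
    lam s * (N.al i s h - ((sig h (lam s) - lam s * sig1 h (lam s)) * (∫ y, N.ψ i y) +
      lam s * sig1 h (lam s) * ∫ y, y * N.ψ i y)) ^ 2 ≤
      (∫ y, |N.ψ i y|) ^ 2 * (500 * ∫ x in Ioo (0 : ℝ) 1, wh s x ^ j * h x ^ 2) := by
  have ht := har_lam_pos s
  have ht4 := har_lam_le hs
  have hR := fun y hy => har_rem hj hs h (y := y) hy
  rw [har_al N i hs]
  generalize lam s = t at *
  generalize (500 * ∫ x in Ioo (0 : ℝ) 1, wh s x ^ j * h x ^ 2) = I at *
  have hI : 0 ≤ I := le_trans (by positivity) (hR 1 ⟨le_rfl, by norm_num⟩)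
  have i0 : Integrable (N.ψ i) := by simpa using har_ψ_int N i (F := fun _ => 1) continuousOn_const
  have i1 := har_ψ_int N i (F := fun y => y) continuousOn_id
  have i2 := har_ψ_int N i (F := fun y => sig h (t * y))
    ((sa_sig_cont h).comp (by fun_prop) fun y hy => ⟨by nlinarith [hy.1], by nlinarith [hy.2]⟩)
  rw [← integral_const_mul, ← integral_const_mul, ← integral_add (i0.const_mul _) (i1.const_mul _),
    ← integral_sub i2 ((i0.const_mul _).fun_add (i1.const_mul _))]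
  have k := norm_integral_le_of_norm_le (μ := volume) (i0.abs.const_mul (Real.sqrt (I / t)))
    (f := fun y => sig h (t * y) * N.ψ i y -
      ((sig h t - t * sig1 h t) * N.ψ i y + t * sig1 h t * (y * N.ψ i y)))
    (Eventually.of_forall fun y => by
      by_cases hy : y ∈ Ioo (1 : ℝ) 2
      · have e : sig h (t * y) * N.ψ i y -
            ((sig h t - t * sig1 h t) * N.ψ i y + t * sig1 h t * (y * N.ψ i y)) =
            (sig h (t * y) - (sig h t + (y - 1) * (t * sig1 h t))) * N.ψ i y := by ring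
        rw [e, Real.norm_eq_abs, abs_mul]
        refine mul_le_mul_of_nonneg_right (Real.abs_le_sqrt ?_) (abs_nonneg _)
        rw [le_div_iff₀ ht, mul_comm]
        exact hR y (Ioo_subset_Icc_self hy)
      · simp [N.supp i y hy])
  rw [integral_const_mul, Real.norm_eq_abs] at k
  have k2 := pow_le_pow_left₀ (abs_nonneg _) k 2
  rw [sq_abs, mul_pow, Real.sq_sqrt (by positivity)] at k2
  have k3 := mul_le_mul_of_nonneg_left k2 ht.le
  rw [← mul_assoc, mul_div_cancel₀ _ ht.ne', mul_comm I] at k3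
  exact k3

theorem har_anchor (N : Anc) : ∃ C : ℝ, 0 < C ∧ ∀ j : ℕ, j ≤ 3 → ∀ s, 4 ≤ s → ∀ h : L2,
    lam s * sig h (lam s) ^ 2 + lam s * (lam s * sig1 h (lam s)) ^ 2 ≤
      C * ((∫ x in Ioo (0 : ℝ) 1, wh s x ^ j * h x ^ 2) +
        lam s * (N.al 0 s h ^ 2 + N.al 1 s h ^ 2)) := by
  refine ⟨6 + 3000 * ((∫ y, |N.ψ 0 y|) ^ 2 + (∫ y, |N.ψ 1 y|) ^ 2), by positivity,
    fun j hj s hs h => ?_⟩
  have k0 := har_al_near N 0 hj hs h
  have k1 := har_al_near N 1 hj hs h
  rw [N.m00, N.m01] at k0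
  rw [N.m10, N.m11] at k1
  have ht := har_lam_pos s
  have hI : 0 ≤ ∫ x in Ioo (0 : ℝ) 1, wh s x ^ j * h x ^ 2 := integral_nonneg fun x => by
    have := har_wh_pos s x
    positivity
  have q0 := sq_nonneg (∫ y, |N.ψ 0 y|)
  have q1 := sq_nonneg (∫ y, |N.ψ 1 y|)
  generalize (∫ y, |N.ψ 0 y|) ^ 2 = K0 at *
  generalize (∫ y, |N.ψ 1 y|) ^ 2 = K1 at *
  generalize (∫ x in Ioo (0 : ℝ) 1, wh s x ^ j * h x ^ 2) = I at *
  generalize lam s * sig1 h (lam s) = B at *
  generalize sig h (lam s) = A at *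
  generalize N.al 0 s h = a0 at *
  generalize N.al 1 s h = a1 at *
  generalize lam s = t at *
  obtain ⟨r0, rfl⟩ : ∃ r0, a0 = A - B + r0 := ⟨a0 - (A - B), by ring⟩
  obtain ⟨r1, rfl⟩ : ∃ r1, a1 = B + r1 := ⟨a1 - B, by ring⟩
  have e0 : A - B + r0 - ((A - B) * 1 + B * 0) = r0 := by ring
  have e1 : B + r1 - ((A - B) * 0 + B * 1) = r1 := by ring
  rw [e0] at k0
  rw [e1] at k1
  have p1 : A ^ 2 + B ^ 2 ≤ 6 * ((A - B + r0) ^ 2 + (B + r1) ^ 2) + 6 * (r0 ^ 2 + r1 ^ 2) := by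
    nlinarith [sq_nonneg (A - B + r0 - (B + r1)), sq_nonneg (A - B + r0 + r0), sq_nonneg (A - B + r0 + r1),
      sq_nonneg (B + r1 + r0), sq_nonneg (B + r1 + r1), sq_nonneg (r0 - r1), sq_nonneg (A - B + r0),
      sq_nonneg r0]
  have p2 := mul_le_mul_of_nonneg_left p1 ht.le
  have p3 : 0 ≤ t * ((A - B + r0) ^ 2 + (B + r1) ^ 2) := by positivity
  have p4 := mul_nonneg (add_nonneg q0 q1) p3
  nlinarith

theorem har_hardy (N : Anc) : ∃ C : ℝ, 0 < C ∧ ∀ j : ℕ, (j = 2 ∨ j = 3) → ∀ s, 4 ≤ s → ∀ h : L2,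
    IntegrableOn (fun x => wh s x ^ j * (sig h x ^ 2 + (x * sig1 h x) ^ 2)) (Ioo 0 (1 / 2)) →
    ∫ x in Ioo (0 : ℝ) (1 / 2), wh s x ^ j * (sig h x ^ 2 + (x * sig1 h x) ^ 2) ≤
      C * ((∫ x in Ioo (0 : ℝ) 1, wh s x ^ j * h x ^ 2) +
        lam s * (N.al 0 s h ^ 2 + N.al 1 s h ^ 2)) := by
  obtain ⟨C, hC, H⟩ := har_anchor N
  refine ⟨20 * C + 1280, by positivity, fun j hj s hs h _ => ?_⟩
  have k0 := har_unanch hj hs h
  have k1 := H j (by omega) s hs h
  have ht := har_lam_pos s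
  have p0 : 0 ≤ lam s * sig h (lam s) ^ 2 := by positivity
  have p1 : 0 ≤ lam s * (N.al 0 s h ^ 2 + N.al 1 s h ^ 2) := by positivity
  linarith

theorem har_eps_V (S : Sp) (s : ℝ) (u : VV) : ∀ᵐ r, r ∈ Ioo (0 : ℝ) 1 →
    eps (S.T.ι u) r = (S.mul (wh s) u).e 0 r / (r * wh s r) := by
  rw [← ae_restrict_iff' measurableSet_Ioo]
  filter_upwards [S.ι_eq u, (S.mul_eq _ _ (mult_wh s) u).1, ae_restrict_mem measurableSet_Ioo]
    with r h1 h2 hr
  have h0 := hr.1.ne'
  have h3 := (sub_pos.2 hr.2).ne'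
  have h4 := (har_wh_pos s r).ne'
  simp only [hv, d0] at h1 h2
  have a1 : (S.T.ι u) r = r * (1 - r) * u.e 0 r := mul_left_cancel₀ h3 (by rw [h1]; ring)
  have a2 : (S.mul (wh s) u).e 0 r = wh s r * u.e 0 r :=
    mul_left_cancel₀ (mul_ne_zero h0 (pow_ne_zero 2 h3)) (by rw [h2]; ring)
  rw [eps, a1, a2]
  field_simp

theorem har_ell_le (S : Sp) (N : Anc) : ∃ C : ℝ, 0 < C ∧ ∀ s, 4 ≤ s → ∀ u : VV,
    lam s * S.ell u ^ 2 ≤ C * (N.En s (S.T.ι u) + Real.exp (-s) * ‖S.mul (wh s) u‖ ^ 2) := by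
  obtain ⟨C, hC, H⟩ := har_anchor N
  refine ⟨3 * C + 12, by positivity, fun s hs u => ?_⟩
  have k1 := H 2 (by norm_num) s hs (S.T.ι u)
  have hE : N.En s (S.T.ι u) = (∫ x in Ioo (0 : ℝ) 1, wh s x ^ 2 * S.T.ι u x ^ 2) +
      lam s * (N.al 0 s (S.T.ι u) ^ 2 + N.al 1 s (S.T.ι u) ^ 2) := by
    simp only [Anc.En, mul_pow]
  rw [← hE] at k1
  have ht := har_lam_pos s
  have hE0 : 0 ≤ N.En s (S.T.ι u) :=
    add_nonneg (integral_nonneg fun x => sq_nonneg _) (by positivity)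
  have ht4 := har_lam_le hs
  have hw := har_wh_eq s
  have he := har_eps_V S s u
  have hn : ‖(S.mul (wh s) u).e 0‖ ^ 2 ≤ ‖S.mul (wh s) u‖ ^ 2 :=
    pow_le_pow_left₀ (norm_nonneg _) (PiLp.norm_apply_le (S.mul (wh s) u).e 0) 2
  have hl := ((S.ell_eq u).pow 2).const_mul (lam s)
  rw [← har_lam_sq]
  generalize lam s = t at *
  generalize (S.mul (wh s) u).e 0 = k at *
  generalize S.T.ι u = h at *
  refine le_of_tendsto hl ?_
  filter_upwards [Ioo_mem_nhdsGT ht] with x hx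
  have ht2 : t ≤ 1 / 2 := by linarith
  have mx := har_mem hx.1 ht2 ⟨le_rfl, hx.2.le⟩
  have mt := har_mem hx.1 ht2 ⟨hx.2.le, le_rfl⟩
  have e : ∫ r in t..x, (x - r) * eps h r = ∫ r in x..t, ((r - x) / (r * wh s r)) * k r := by
    rw [intervalIntegral.integral_symm, ← intervalIntegral.integral_neg]
    refine intervalIntegral.integral_congr_ae ?_
    filter_upwards [he] with r hr hr'
    rw [hr (sa_uIcc mx mt (uIoc_subset_uIcc hr'))]
    ring
  have c := sa_cs k mx mt hx.2.le (w := fun r => (r - x) / (r * wh s r)) (W := fun _ => 4)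
    (ContinuousOn.div (by fun_prop) (continuousOn_id.fun_mul (har_wh_cont s).continuousOn)
      fun r hr => mul_ne_zero (hx.1.trans_le hr.1).ne' (har_wh_pos s r).ne') continuousOn_const
    fun r hr => by
      have hr0 := hx.1.trans_le hr.1
      have hp := har_wh_pos s r
      have b1 : 1 ≤ 2 * wh s r := by
        rw [hw, ← mul_div_assoc, le_div_iff₀ (by positivity)]
        nlinarith [hr.2]
      have a1 : (r - x) / (r * wh s r) ≤ 2 := by
        rw [div_le_iff₀ (by positivity)]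
        nlinarith [hx.1]
      have a2 : 0 ≤ (r - x) / (r * wh s r) := div_nonneg (by linarith [hr.1]) (by positivity)
      nlinarith
  rw [intervalIntegral.integral_const, smul_eq_mul] at c
  rw [sig_taylor h mt mx, e]
  generalize (∫ r in x..t, ((r - x) / (r * wh s r)) * k r) = R at *
  have c2 : R ^ 2 ≤ 4 * t * ‖S.mul (wh s) u‖ ^ 2 :=
    c.trans (mul_le_mul (by linarith [hx.1]) hn (sq_nonneg _) (by positivity))
  have c3 : ((x - t) * sig1 h t) ^ 2 ≤ (t * sig1 h t) ^ 2 := by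
    rw [mul_pow, mul_pow]
    exact mul_le_mul_of_nonneg_right (by nlinarith [hx.1, hx.2]) (sq_nonneg _)
  generalize (x - t) * sig1 h t = B' at *
  generalize t * sig1 h t = B at *
  generalize sig h t = A at *
  have p1 : (A + B' + R) ^ 2 ≤ 3 * (A ^ 2 + B ^ 2) + 3 * (4 * t * ‖S.mul (wh s) u‖ ^ 2) := by
    nlinarith [sq_nonneg (A - B'), sq_nonneg (A - R), sq_nonneg (B' - R)]
  have p2 := mul_le_mul_of_nonneg_left p1 ht.le
  have p3 : 0 ≤ C * (t ^ 2 * ‖S.mul (wh s) u‖ ^ 2) := by positivity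
  nlinarith

end Crest.Agent.R213
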