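import Crest.Agent.R213.Defs
import Crest.Agent.R213.ApxE

/-! # R213 / IApx : the approximate solution built from the shrinker

`χ` smooth, `= 1` on `x ≤ 0.3`, `= 0` on `x ≥ 0.45`, values in `[0,1]`; `y = x e^{s/2}`.
`g s x = χ x * G y / (1-x) + (1 - χ x)` (smooth on `ℝ²`: near `x = 1` it is eventually `1`), `xt = x(1-x)(g-1)`,
`st = χ(2x) (110 - e^{s/2} s(y)) + (1 - χ(2x)) C0 (xt s) x` (for `0 < x < 0.3`, `C0 (xt s) x = 110 - e^{s/2} s(y)` by
`ode`: `C0 (xG(y)) = (y²G''+20yG'+90G)/x`, `C0 (x(1-x)) = 90/x - 110`), `vt = (x(1-x))² st''`,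
`b = -2 g x(1-x) st''`, `E = e^s ∂_s xt + g² vt`, `a = s 0`.  On `0 ≤ x < 0.3`: `st'' = -e^{3s/2} G'(y)/(2G²)` (`ds`),
so `E = 0`, `b = e^s yG'/G`, `vt = -(1-x)² e^{s/2} y²G'/(2G²)`.  On `0.3 ≤ x ≤ 0.45` all `x`-derivatives of order
`≤ 6` of `G(x e^{s/2})` and of order `≤ 2` of `e^s y G'(y)` are bounded uniformly in `s ≥ 0` by `decay`. -/

set_option autoImplicit false

open MeasureTheory Set Filter Topology
open scoped ContDiff InnerProductSpace

namespace Crest.Agent.R213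

theorem apx_exists (P : Shr) : Nonempty Apx := ApxP.apx_ex P

end Crest.Agent.R213
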