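import Crest.Agent.R213.ISp
import Crest.Agent.R213.IAng
import Crest.Agent.R213.BootM

/-! # R213 / IBoot : smoothness up to `x = 0, 1`

`U` is `C^∞` on `I = Ioi s1` (`time_smooth` on each `[s1,s2]`).  `h ↦ xi h x` is a bounded functional, so
`∂_s xi (U s) x = xi (U' s) x`.  From `int` (Lebesgue differentiation) `G (U' s) = Z s` for a.e. `s`, hence
`ι G U' = -e^{-s} mulH(g²) U`, `g = 1 + xi (U s)/φ0`; both sides are continuous in `s`, so for EVERY `s`: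
`xi (U' s) = -e^{-s} g² hv (U s)` a.e., i.e. `ε = eps (U s) = -e^s q_s/g²` with `q = ξ/φ0²`, `g = 1 + φ0 q ≥ c`.
Classes on `C(Icc 0 1, ℝ)` (Banach algebra; or `Ioo` and bounded continuous functions): `𝒞 0` = curves that are `C^∞` on `I`;
`F ∈ 𝒞 (k+1)` iff `F ∈ 𝒞 0` and `F s x = F s 0 + ∫_0^x F1 s` with `F1 ∈ 𝒞 k`.  Closed under products, inverses (`Ring.inverse`),
`∂_s`, primitives (gain 1), polynomials in `x`, and the averaging operators `f ↦ ∫_0^1 k(t) f(xt) dt`,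
`f ↦ ∫_0^1 k(t) f(1 - t(1-x)) dt`.  `q = Q0 P0 σ + Q1 P1 (x⁹σ)` with polynomials `Q0, Q1`: `q = P0σ/(1-x)² = P1(..)/x^{11}`
(`xi_zero`, `xi_one`) and `1 = (x + (1-x))^{12}`.  First pass: `√x q` and `g` are smooth curves of bounded continuous functions
(`xi_bd`), so `√x ε` is, so `σ' = sig1(1/2) + ∫_{1/2}^x (√r ε)/√r ∈ 𝒞 0`, `σ, q ∈ 𝒞 1`; then `q ∈ 𝒞 k ⇒ ε ∈ 𝒞 k ⇒ σ, q ∈ 𝒞 (k+2)`.
Finally `F ∈ ⋂ 𝒞 k` is jointly `ContDiffOn ∞` on `I × [0,1]` (induction: continuous partial derivatives in the same class). -/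

set_option autoImplicit false

open MeasureTheory Set Filter Topology
open scoped ContDiff InnerProductSpace

namespace Crest.Agent.R213

theorem boot (S : Sp) (P : Nl S) : ∃ q Sc : ℝ → ℝ → ℝ,
    ContDiffOn ℝ ∞ (Function.uncurry q) (Ioi P.s1 ×ˢ Icc 0 1) ∧
    ContDiffOn ℝ ∞ (Function.uncurry Sc) (Ioi P.s1 ×ˢ Icc 0 1) ∧
    (∀ s, P.s1 < s → ∀ x ∈ Ioo (0 : ℝ) 1,
      xi (P.U s) x = (x * (1 - x)) ^ 2 * q s x ∧ Sc s x = 110 - sig (P.U s) x) ∧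
    ∀ s, P.s1 < s → ∀ x ∈ Ioo (0 : ℝ) 1, HasDerivAt (fun r => xi (P.U r) x)
      (Real.exp (-s) * ((x * (1 - x) * (1 + x * (1 - x) * q s x)) ^ 2 * deriv (deriv (Sc s)) x)) s :=
  Boot.boot' P

end Crest.Agent.R213
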