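import Crest.Agent.R213.EqvE

/-! # R213 / IEqv : approximate scaling equivariance of the observation

Let `κ = lam h = e^{-h/2} ≤ 1`; `χ1 = 1` on `x ≤ 1/8`, `0` on `x ≥ 3/16`; `χ0 = 1` on `x ≤ 1/4`, `0` on `x ≥ 3/8`.
Operators (bounded on `V` and on `H`; build the dilation on `L2`, act on triples, keep `Vs` by `V_ind`; or
`LinearMap.extendOfNorm`): `(D u)(x) = χ0(x/κ) u(x/κ)`; `K h = φ0² ((C0(χ1 ξ))'' - χ1 ε)`, `ξ = xi h`, a combination of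
`σ', σ, ξ', ξ` (use `ξ'' = σ - 18ξ'/x - 72ξ/x²`) with smooth coefficients supported in `[1/8,3/16]`;
`P = κ^{3/2} D mul χ1`, `Q = κ^{-1/2} D mul n (mul χ1 + K ι)`, `n(x) = ((1-κx)/(1-x))²` cut off beyond `3/8`.
`G ∘ Q_H = P ∘ G` (density of `ι(test)`, `sig_reg`, `G_of_rep`).  If `(v,Z,U)` solves the system for `g` (supported in `s > s0`)
then `(Q v(·-h), P Z(·-h), Q_H U(·-h))` (`IsSol.map`, `.affine`, `.extend_zero`) solves it for `g(·-h)` with the extra source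
`Fo(s+h) = e^{-s} κ^{3/2} D (mul (g s ²) (K ι v s))` (`sim_g`, `sim_b`, `P f_i(s) = f_i(s+h)`, `L_i(s+h) P = L_i(s)`, since
`λR ≤ 1/16`; check identities with `ext_d0`), and has the same observation.  `wh (s+h) (κx) = wh s x`, so
`e^{s+h}‖mul wh Fo(s+h)‖² ≤ C e^{-s}‖mul (wh s) K ι v‖² ≤ C e^{-3s}‖K ι v‖²
 ≤ C δ e^{-s}‖mul wh v‖² + C_δ e^{-s} En` (on `[1/8,3/16]` `wh ≈ τ`; `‖K ι u‖² ≤ C∫_J (u'² + u² + σ'² ) + C∫_0^{1/2}σ²`;
`interp` with `x0 = 1` for `ũ = wh u`, `hardy` with `j = 2`, `xi_wbound` with `Ω = 1`).  Apply `FbSol.est` (`μ = 7/8`)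
to the difference and to `(v,U)`, and `obs_le`;  `ε s0 = inf_δ (Cδ + C_δ e^{-s0})`, or pick `δ = δ(s0) → 0`. -/

set_option autoImplicit false

open MeasureTheory Set Filter Topology
open scoped ContDiff InnerProductSpace

namespace Crest.Agent.R213

variable {S : Sp} {A : Apx} {N : Anc}

theorem equiv (B : Fb S A N) : ∃ ε : ℝ → ℝ, Tendsto ε atTop (𝓝 0) ∧ ∀ s0, B.sst ≤ s0 →
    ∀ g : ℝ → EuclideanSpace ℝ (Fin B.m), LocAdm s0 g → ∀ h, 0 ≤ h →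
    ∀ {v Z v' Z' : ℝ → VV} {U U' : ℝ → L2}, FbSol B (fun _ => 0) g v Z U →
      FbSol B (fun _ => 0) (fun r => g (r - h)) v' Z' U' → ∀ s,
      ‖B.obs (s + h) (U' (s + h)) - B.obs s (U s)‖ ^ 2 ≤
        ε s0 * ∫ r in Ioc s0 s, Real.exp (-(2 * (7 / 8) * (s - r))) * ‖g r‖ ^ 2 :=
  Eqv.equiv_aux B

end Crest.Agent.R213
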