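import Crest.Agent.R213.IEnergy
import Crest.Agent.R213.Ex3

/-!
# R213 / IExist : existence for the linear problem `Z = -A(s) v + F`, zero initial value

Suggested proof (no weak compactness, no spectral theory).  `W0` = closed subspace of
`C(Icc s0 s1, H) × L²(V) × L²(V)` of the triples `(U, v, Z)` with `IsSol` and `U s0 = 0` (complete).
`L_θ (U,v,Z) = Z + A_θ v`, `A_θ = (1-θ) + θ A`; Gårding holds uniformly in `θ ∈ [0,1]`, so `apriori`
gives `‖w‖ ≤ K ‖L_θ w‖` uniformly: method of continuity (step `θ → θ + 1/(2K‖A-1‖)` by a Neumann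
series / contraction) reduces to `θ = 0`.  `L_0` has closed range; dense range: let `A0 : V →L V`,
`a (A0 u) w = ⟪u,w⟫_V` (Lax–Milgram), `T_δ = G ι + δ A0` is invertible (Lax–Milgram, coercive).  For
`F = φ(s) e` (`φ` smooth with `φ = 0` near `s0`; such finite sums are dense in `L²(V)`) solve the linear
ODE `T_δ v' + v = F`, `v s0 = 0` in `V` (variation of constants with `NormedSpace.exp`); `y = v'` solves
the same ODE with `F'`, `y s0 = 0`, and `d/ds (‖ι y‖² + δ‖y‖²) = 2 a (F' - y) y` gives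
`‖y‖_{L²V} ≤ K ‖F'‖` uniformly in `δ`; `L_0 (ι v, v, Gι v') = F - δ A0 y → F`.
-/

set_option autoImplicit false

open MeasureTheory Set
open scoped InnerProductSpace

namespace Crest.Agent.R213

variable {V H : Type} [NormedAddCommGroup V] [InnerProductSpace ℝ V] [CompleteSpace V]
  [NormedAddCommGroup H] [InnerProductSpace ℝ H] [CompleteSpace H]

theorem exists_sol (T : Trip V H) {s0 s1 : ℝ} (h01 : s0 ≤ s1) (A : ℝ → V →L[ℝ] V)
    (hA : ContinuousOn A (Icc s0 s1)) {c C : ℝ} (hc : 0 < c)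
    (gar : ∀ s ∈ Icc s0 s1, ∀ u, c * ‖u‖ ^ 2 - C * ‖T.ι u‖ ^ 2 ≤ T.a (A s u) u)
    (F : ℝ → V) (hF : MemLp F 2 (volume.restrict (Ioc s0 s1))) :
    ∃ (v Z : ℝ → V) (U : ℝ → H), IsSol T s0 s1 v Z U ∧ U s0 = 0 ∧
      ∀ᵐ s ∂(volume.restrict (Ioc s0 s1)), Z s = -(A s (v s)) + F s := by
  exact ex_solv T h01 A hA hc gar F hF

/-- global version on `[s0, ∞)` (glue the solutions on `[s0, s0 + n]` by uniqueness);
`U` is continuous on `ℝ` and vanishes on `(-∞, s0]`. -/
theorem exists_sol_glob (T : Trip V H) (s0 : ℝ) (A : ℝ → V →L[ℝ] V)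
    (hA : ContinuousOn A (Ici s0))
    (gar : ∀ S, s0 ≤ S → ∃ c C : ℝ, 0 < c ∧ 0 ≤ C ∧
      ∀ s ∈ Icc s0 S, ∀ u, c * ‖u‖ ^ 2 - C * ‖T.ι u‖ ^ 2 ≤ T.a (A s u) u)
    (F : ℝ → V) (hF : ∀ S, MemLp F 2 (volume.restrict (Ioc s0 S))) :
    ∃ (v Z : ℝ → V) (U : ℝ → H), (∀ S, s0 ≤ S → IsSol T s0 S v Z U) ∧ Continuous U ∧
      (∀ s, s ≤ s0 → U s = 0) ∧
      ∀ᵐ s ∂(volume.restrict (Ioi s0)), Z s = -(A s (v s)) + F s := by
  have hle : ∀ n : ℕ, s0 ≤ s0 + n := fun n => le_add_of_nonneg_right (Nat.cast_nonneg n)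
  have hex : ∀ n : ℕ, ∃ (v Z : ℝ → V) (U : ℝ → H), IsSol T s0 (s0 + n) v Z U ∧ U s0 = 0 ∧
      ∀ᵐ s ∂(volume.restrict (Ioc s0 (s0 + n))), Z s = -(A s (v s)) + F s := by
    intro n
    obtain ⟨c, C, hc, -, hg⟩ := gar (s0 + n) (hle n)
    exact exists_sol T (hle n) A (hA.mono Icc_subset_Ici_self) hc hg F (hF _)
  choose v Z U hsol hU hZ using hex
  have huniq : ∀ m n : ℕ, m ≤ n → (∀ s ∈ Icc s0 (s0 + m), U m s = U n s) ∧
      ∀ᵐ s ∂(volume.restrict (Ioc s0 (s0 + m))), v m s = v n s := by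
    intro m n hmn
    have hmn' : s0 + m ≤ s0 + n := by gcongr
    obtain ⟨c, C, hc, hC, hg⟩ := gar (s0 + m) (hle m)
    have hs' := (hsol n).mono le_rfl (hle m) hmn'
    have hd := fun s (hs : s ∈ Icc s0 (s0 + m)) => ex_diff T A hc hC hg (hsol m) hs' (hU m) (hU n)
      (hF _) (hF _) (hZ m)
      (ae_restrict_of_ae_restrict_of_subset (Ioc_subset_Ioc_right hmn') (hZ n)) hs
    simp only [sub_self, norm_zero, ne_eq, OfNat.ofNat_ne_zero, not_false_eq_true, zero_pow,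
      intervalIntegral.integral_zero, mul_zero] at hd
    refine ⟨fun s hs => ?_, ?_⟩
    · have h1 := hd s hs
      have h2 : 0 ≤ ∫ q in s0..s, ‖v m q - v n q‖ ^ 2 :=
        intervalIntegral.integral_nonneg hs.1 fun q _ => by positivity
      have h3 : ‖U m s - U n s‖ ^ 2 ≤ 0 := by nlinarith [mul_nonneg hc.le h2]
      have h4 : ‖U m s - U n s‖ = 0 :=
        pow_eq_zero_iff two_ne_zero |>.1 (le_antisymm h3 (sq_nonneg _))
      exact sub_eq_zero.1 (norm_eq_zero.1 h4)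
    · have h1 := hd _ ⟨hle m, le_rfl⟩
      rw [← ex_dist_sq (hle m) ((hsol m).v2.toLp _) (hs'.v2.toLp _) (hsol m).v2.coeFn_toLp
        hs'.v2.coeFn_toLp] at h1
      have h3 : ‖(hsol m).v2.toLp _ - hs'.v2.toLp _‖ ^ 2 ≤ 0 := by
        by_contra h
        push Not at h
        nlinarith [mul_pos hc h, sq_nonneg ‖U m (s0 + m) - U n (s0 + m)‖]
      have h4 : ‖(hsol m).v2.toLp _ - hs'.v2.toLp _‖ = 0 :=
        pow_eq_zero_iff two_ne_zero |>.1 (le_antisymm h3 (sq_nonneg _))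
      exact (MemLp.toLp_eq_toLp_iff _ _).1 (sub_eq_zero.1 (norm_eq_zero.1 h4))
  set N : ℝ → ℕ := fun s => ⌈s - s0⌉₊ with hN
  have hN1 : ∀ s, s ≤ s0 + N s := fun s => by
    have := Nat.le_ceil (s - s0)
    simp only [hN]; linarith
  have hN2 : ∀ (s : ℝ) (n : ℕ), s ≤ s0 + n → N s ≤ n := fun s n h =>
    Nat.ceil_le.2 (by linarith)
  set v' : ℝ → V := fun s => v (N s) s with hv'
  set U' : ℝ → H := fun s => U (N (max s0 s)) (max s0 s) with hU'
  have hUe : ∀ (n : ℕ) (s : ℝ), s ≤ s0 + n → U' s = U n (max s0 s) := by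
    intro n s hs
    have h1 : max s0 s ≤ s0 + n := max_le (hle n) hs
    exact (huniq _ n (hN2 _ n h1)).1 _ ⟨le_max_left _ _, hN1 _⟩
  have hve : ∀ n : ℕ, ∀ᵐ s ∂(volume.restrict (Ioc s0 (s0 + n))), v' s = v n s := by
    intro n
    have h1 : ∀ᵐ s ∂(volume : Measure ℝ), ∀ m : ℕ, m ≤ n → s ∈ Ioc s0 (s0 + m) → v m s = v n s := by
      rw [ae_all_iff]
      intro m
      by_cases hm : m ≤ n
      · filter_upwards [(ae_restrict_iff' measurableSet_Ioc).1 (huniq m n hm).2] with s hs _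
        exact hs
      · exact Filter.Eventually.of_forall fun s h => absurd h hm
    rw [ae_restrict_iff' measurableSet_Ioc]
    filter_upwards [h1] with s hs hs'
    exact hs _ (hN2 s n hs'.2) ⟨hs'.1, hN1 s⟩
  refine ⟨v', fun s => -(A s (v' s)) + F s, U', fun S hS => ?_, ?_, fun s hs => ?_,
    Filter.Eventually.of_forall fun s => rfl⟩
  · have h1 := hN1 S
    have h2 : IsSol T s0 (s0 + N S) v' (fun s => -(A s (v' s)) + F s) U' := by
      refine (hsol (N S)).congr (hle _) (hve _) ?_ fun s hs => ?_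
      · filter_upwards [hve (N S), hZ (N S)] with s h3 h4
        rw [h3, h4]
      · rw [hUe (N S) s hs.2, max_eq_right hs.1]
    exact h2.mono le_rfl hS h1
  · rw [continuous_iff_continuousAt]
    intro x
    set n := N x + 1 with hn
    have hx : x < s0 + n := by
      have := hN1 x
      rw [hn]; push_cast; linarith
    have h1 : ContinuousOn (fun s => U n (max s0 s)) (Iic (s0 + n)) :=
      (hsol n).cont.comp (continuous_const.max continuous_id).continuousOn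
        fun s hs => ⟨le_max_left _ _, max_le (hle n) hs⟩
    exact (h1.congr fun s hs => hUe n s hs).continuousAt (Iic_mem_nhds hx)
  · rw [hUe 0 s (hs.trans (hle 0)), max_eq_left hs, hU]

end Crest.Agent.R213
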