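import Crest.Agent.R213.IIneq
import Crest.Agent.R213.IEnergy
import Crest.Agent.R213.FbMain

/-! # R213 / IFb : the stabilising finite-rank feedback

Notation `τ = e^{-s}`, `λ = lam s`, `w = wh²`, `ξ = G h`, `h = ι u`, `ũ = mul wh u`, `E_H = ∫ (wh h)²`.
PROFILES.  Index set = 2 anchors + `M` bumps.  `J D (y) = y^{-9}∫_0^y (y-r) r⁹ D(r) dr` (so `C0 (J D) = D`,
`J 1 = y²/110`, `J y = y³/132`).  `χ_R(y) = χ(y/R2)` cutoff (`1` on `y ≤ R2`, `0` on `y ≥ 2 R2`).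
Anchors: `Ψ_j = ψ_j`, `F_0 = χ_R y²/110`, `F_1 = χ_R y³/132`; `c_j = L_j ξ = λ^{1/2} α_j`.
Bumps (`i = 1..M`, `Mη ≥ R1`): `B ≥ 0` a smooth bump in `(0,1)`, `β_i(y) = B(y/η - i)/(1+y²)`, `Ψ_i = (y²β_i)''`,
`c_i = λ^{-1/2}∫ β_i(x/λ) h/(1-x) dx` (`sig_ibp`), `D_i'' = β_i (1+y²)²/y²` with the affine part fixed by
`∫D_iψ_0 = ∫D_iψ_1 = 0`, `F_i = χ_R J D_i`.  `f_i s = χ0(x) λ^{3/2} F_i(x/λ)` (`rep_family`, `χ0 = 1` on `x ≤ 1/4`).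
By `a_rep`: `a(f_i, w u) + Σ_j c_j L_j f_i = c_i + r_i`, `|r_i| ≤ K_i (R2^{-1/2} + λ) √E_H`
(`(C0 (χ_R J D))'' - χ_R D'' = O(1/y)` is supported in `R2 ≤ y ≤ 2R2`, `D` is affine there, `y² w = O(y^{-1}) wh`).
DISSIPATION (pointwise in `s`).  For `Z = lin0 + Fo + Σ (g_i - γ c_i) f_i`,
`dE := 2a(Z, w u) + ∫ ∂_s w h² + 2 Σ_j c_j (L_j Z + L_j' ξ)`,  `∂_s w = -2 (1 - wh) w`:
`2τ a(g²u, w u) ≥ 2c τ‖ũ‖² - C∫wh³h²` (`garding_g`); `bξ`, `Fo` by the weighted bound and `bxi_le`;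
`|L_j p| ≤ C λ⁻¹‖mul wh p‖`, `|L_j' ξ|² ≤ C∫wh³σ²` (`L_j'` has profile `ψ_j/4 + yψ_j'/2`; `hardy`);
feedback `≤ -γ|c|² + C|g|² + Cγ Σ r_i²`.  Sum: `dE + (15/8)En ≤ -(5c/4)τ‖ũ‖² - E_H/8 + C3∫wh³h² + C3|c_anc|² - γ|c|² + …`.
Choose `R1` with `C3/(1+R1²) ≤ 1/32`; on `y ≤ η`: `ũ² ≤ η²τ ũ²/x²`; on `[iηλ,(i+1)ηλ]`: `poincare` for `ũ` with
`β = B(x/(ηλ) - i)/(1-x)²`; choose `η` (so that `C3·32η² ≤ c/4`), then `γ`, then `R2`, then `sst`: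
`dE + (7/4)En + c0(τ‖ũ‖² + En) ≤ C(e^s‖mul wh Fo‖² + |g|²)`.
INTEGRATION: `energy` with `μ_s = e^{2μs} mul (wh s ²)`, `m_s = e^{2μs} mulH (wh s ²)` (`mul_family`, `mulH_family`), and the
product rule for `s ↦ e^{2μ s}(L_j s (G (U s)))²` (`L_j` is `C¹` in norm, `G U = ∫ Z`). -/

set_option autoImplicit false

open MeasureTheory Set Filter Topology
open scoped ContDiff InnerProductSpace

namespace Crest.Agent.R213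

theorem fb_exists (S : Sp) (A : Apx) (N : Anc) : Nonempty (Fb S A N) :=
  fb_main S A N

end Crest.Agent.R213
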