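import Crest.Agent.R213.GeoH
import Crest.Agent.R213.GeoK
import Crest.Agent.R213.GeoS

/-!
# R213 / IGeo : from the momentum profile `φ(t,x) = x(1-x)(1 + x(1-x) q(t,x))` to the Calabi flow

Let `φ0 = x(1-x)`, `g = 1 + φ0 q > 0`, so `1/φ - 1/φ0 = -q/g`.
`F(t,x) = ∫_{1/2}^x (-q/g) + m(t)`, `m' = -S_x(t,1/2)`, `m 0 = 0`; then `F_x = -q/g`, `F_t = -S_x` (mixed
partials: `∂_t(1/φ) = -S_xx`).  `f(t,x) = ∫_{1/2}^x F + n(t)`, `n' = 110 - S(t,1/2)`; `f_x = F`, `f_t = 110 - S`.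
Symplectic potential `u = x log x + (1-x)log(1-x) + f`, `ρ = u_x = log(x/(1-x)) + F`.
`θ(t,x) = x e^F/(1-x+x e^F)` is smooth on `[0,T)×[0,1]`, `θ_x = e^F/(g (1-x+xe^F)²) > 0`, `θ(0)=0, θ(1)=1`;
its inverse `X(t,x0)` is `ContDiffOn` on the closed set (`HasFDerivWithinAt.of_local_left_inverse` + induction).
`Hh(t,x0) = (-log(1-x+x e^F) + xF - f)(t, X(t,x0))`; `h t z = Hh(t, |z|²/(1+|z|²))`,
`ext k w = Hh(t, 1 - |w_k|²/(1+|w|²))`.  With `ρ = log|z|²`, `Ψ = fsPot + h = xρ - u`, `Ψ_ρ = x`, `Ψ_ρρ = φ`,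
`Ψ_t = -f_t = S - 110`; `∂_{x0}Hh · x0(1-x0) = X - x0`.
Positivity in every chart: for `y0 = |ℓ(w)|²/N`, `N = 1+|w|²`, (`ℓ = 1` or `w_k`), `x0 = 1 - y0`,
`cHess(fsPot + Hh(1-y0)) = g_FS - Hh' cHess y0 + Hh'' ∂y0 ∂̄y0` has the eigenvalues (relative to `g_FS`)
`X/x0 = 1 + Hh' y0 > 0` and `X_{x0} > 0` (Cauchy–Schwarz `|⟨∂y0,ζ⟩|² ≤ x0 y0 g_FS(ζ,ζ)`).
Scalar curvature for radial `ψ(r)`, `r = |z|²`: `cHess = ψ' 1 + ψ'' z̄ zᵀ`, `det = ψ'^9(ψ'+rψ'')`,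
`tr(G⁻¹ cHess λ(r)) = 9λ'/ψ' + (λ'+rλ'')/(ψ'+rψ'')`; for `r > 0` this gives `S(t,X)`, at `r = 0` by continuity.
Take `p = 0`.
-/

set_option autoImplicit false

open Set Filter Topology
open scoped ContDiff
open Crest.GeometryTopology.ProjKahler

namespace Crest.Agent.R213

theorem geo_transition {n : ℕ} (k : Fin n) (w : V n) (hw : w k ≠ 0) :
    ‖transition k w‖ ^ 2 / (1 + ‖transition k w‖ ^ 2) = 1 - ‖w k‖ ^ 2 / (1 + ‖w‖ ^ 2) := by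
  have h0 : 0 < ‖w k‖ ^ 2 := by positivity
  have h1 : ‖transition k w‖ ^ 2 = (1 + ‖w‖ ^ 2 - ‖w k‖ ^ 2) / ‖w k‖ ^ 2 := by
    rw [EuclideanSpace.norm_sq_eq, EuclideanSpace.norm_sq_eq, ← Finset.add_sum_erase _ _ (Finset.mem_univ k),
      ← Finset.add_sum_erase _ (fun i => ‖w i‖ ^ 2) (Finset.mem_univ k), eq_div_iff h0.ne', add_mul,
      Finset.sum_mul]
    have e1 : ‖transition k w k‖ ^ 2 * ‖w k‖ ^ 2 = 1 := by
      simp only [transition, if_true, norm_inv]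
      field_simp
    have e2 : ∀ i ∈ Finset.univ.erase k, ‖transition k w i‖ ^ 2 * ‖w k‖ ^ 2 = ‖w i‖ ^ 2 := by
      intro i hi
      simp only [transition, if_neg (Finset.ne_of_mem_erase hi), norm_div]
      field_simp
    rw [e1, Finset.sum_congr rfl e2]
    ring
  have h2 : 0 < 1 + ‖w‖ ^ 2 := by positivity
  have h3 : 1 + ‖transition k w‖ ^ 2 = (1 + ‖w‖ ^ 2) / ‖w k‖ ^ 2 := by
    rw [h1]; field_simp; ring
  rw [h3, h1]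
  field_simp

theorem geo_mom {n : ℕ} : ContDiff ℝ ∞ fun z : V n => ‖z‖ ^ 2 / (1 + ‖z‖ ^ 2) :=
  contDiff_normSq.div (contDiff_const.add contDiff_normSq) fun z => by positivity

theorem geo_mom' {n : ℕ} (k : Fin n) : ContDiff ℝ ∞ fun w : V n => 1 - ‖w k‖ ^ 2 / (1 + ‖w‖ ^ 2) :=
  contDiff_const.sub ((contDiff_coordSq k).div (contDiff_const.add contDiff_normSq) fun z => by positivity)

theorem geo_joint {T : ℝ} {n : ℕ} {H : ℝ × ℝ → ℝ} (hH : ContDiffOn ℝ ∞ H (gD T)) {y : V n → ℝ}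
    (hy : ContDiff ℝ ∞ y) (hm : ∀ z, y z ∈ Icc (0 : ℝ) 1) :
    ContDiffOn ℝ ∞ (fun p : ℝ × V n => H (p.1, y p.2)) (Ico 0 T ×ˢ univ) :=
  hH.comp (contDiff_fst.prodMk (hy.comp contDiff_snd)).contDiffOn fun p hp => mk_mem_gD hp.1 (hm p.2)

theorem geo_fixed {T t : ℝ} {n : ℕ} {H : ℝ × ℝ → ℝ} (hH : ContDiffOn ℝ ∞ H (gD T)) (ht : t ∈ Ico 0 T)
    {y : V n → ℝ} (hy : ContDiff ℝ ∞ y) (hm : ∀ z, y z ∈ Icc (0 : ℝ) 1) :
    ContDiff ℝ ∞ fun z : V n => H (t, y z) :=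
  contDiffOn_univ.1 (hH.comp (contDiff_const.prodMk hy).contDiffOn fun z _ => mk_mem_gD ht (hm z))

theorem geo (T a : ℝ) (hT : 0 < T) (ha : 0 < a) (q S : ℝ → ℝ → ℝ)
    (hq : ContDiffOn ℝ ∞ (Function.uncurry q) (Ico 0 T ×ˢ Icc 0 1))
    (hS : ContDiffOn ℝ ∞ (Function.uncurry S) (Ico 0 T ×ˢ Icc 0 1))
    (hpos : ∀ t ∈ Ico 0 T, ∀ x ∈ Icc (0 : ℝ) 1, 0 < 1 + x * (1 - x) * q t x)
    (hSφ : ∀ t ∈ Ico 0 T, ∀ x ∈ Ioo (0 : ℝ) 1,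
      S t x = 90 / x - C0 (fun y => y * (1 - y) * (1 + y * (1 - y) * q t y)) x)
    (hfl : ∀ t ∈ Ioo 0 T, ∀ x ∈ Ioo (0 : ℝ) 1,
      HasDerivAt (fun r => x * (1 - x) * (1 + x * (1 - x) * q r x))
        ((x * (1 - x) * (1 + x * (1 - x) * q t x)) ^ 2 * deriv (deriv (S t)) x) t)
    (hlim : Tendsto (fun t => S t 0 * Real.sqrt (T - t)) (𝓝[<] T) (𝓝 a)) :
    ∃ T : ℝ, 0 < T ∧ ∃ h : ℝ → ProjExtension 10, IsCalabiFlowFS h T ∧
      IsUnitarilyInvariant (h 0).h ∧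
      ∃ (p : V 10) (a : ℝ), 0 < a ∧
        Filter.Tendsto (fun t => scalarCurv (fun u => fsPot u + (h t).h u) p * Real.sqrt (T - t))
          (nhdsWithin T (Set.Iio T)) (nhds a) := by
  obtain ⟨Hh, X, hH, hfl', hP⟩ := exists_prof (T := T) hq hS hpos hfl
  let h : ℝ → ProjExtension 10 := fun t =>
    ⟨fun z => Hh (t, ‖z‖ ^ 2 / (1 + ‖z‖ ^ 2)), fun k w => Hh (t, 1 - ‖w k‖ ^ 2 / (1 + ‖w‖ ^ 2)),
      fun k w hw => by rw [geo_transition k w hw]⟩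
  have hsc : ∀ t ∈ Ico 0 T, ∀ z : V 10, scalarCurv (fun u => fsPot u + (h t).h u) z =
      S t (X (t, ‖z‖ ^ 2 / (1 + ‖z‖ ^ 2))) := by
    intro t ht z
    obtain ⟨H1, H2, P⟩ := hP t ht
    have hq' : ContDiffOn ℝ ∞ (fun y => q t y) (Icc 0 1) := contDiffOn_slice (T := T) ht hq
    have hS' : ContDiffOn ℝ ∞ (fun y => S t y) (Icc 0 1) := contDiffOn_slice (T := T) ht hS
    have h1 : ContDiffOn ℝ ∞ (fun y : ℝ => y * (1 - y)) (Icc 0 1) :=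
      contDiffOn_id.mul (contDiffOn_const.sub contDiffOn_id)
    exact P.scal (h1.mul (contDiffOn_const.add (h1.mul hq'))) hS'.continuousOn (hSφ t ht) z
  refine ⟨T, hT, h, ⟨fun t ht => ?_, ?_, fun k => ?_, fun t ht z => ?_⟩, fun U z => ?_, 0, a, ha, ?_⟩
  · obtain ⟨H1, H2, P⟩ := hP t ht
    exact ⟨geo_fixed hH ht geo_mom fun z => Ico_subset_Icc_self (mom_mem z),
      fun k => geo_fixed hH ht (geo_mom' k) (mom_mem' k), fun z => P.posDef_aff z, fun k w => P.posDef_ext k w⟩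
  · exact geo_joint hH geo_mom fun z => Ico_subset_Icc_self (mom_mem z)
  · exact geo_joint hH (geo_mom' k) (mom_mem' k)
  · rw [hsc t (Ioo_subset_Ico_self ht) z]
    refine (hfl' t ht _ (Ico_subset_Icc_self (mom_mem z))).deriv.trans ?_
    norm_num
  · simp only [h, LinearIsometryEquiv.norm_map]
  · refine hlim.congr' ?_
    filter_upwards [Ico_mem_nhdsLT hT] with t ht
    obtain ⟨H1, H2, P⟩ := hP t ht
    have h0 := P.X_eq 0 (left_mem_Icc.2 zero_le_one)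
    rw [hsc t ht 0]
    simp only [norm_zero, ne_eq, OfNat.ofNat_ne_zero, not_false_eq_true, zero_pow, zero_div]
    rw [h0]
    simp

end Crest.Agent.R213
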