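import Crest.Agent.R213.IAng

/-!
# R213 / RateA : the two analytic lemmas behind `rate`

* `rate_pt` : a continuous function with small `L²` norm on a window and `L²`-Lipschitz dependence on
  dilations of the window is small at the right end point of the window.
* `rate_win` : dilation estimate on a window of length `≤ e^{-s}` from `stab`.
-/

set_option autoImplicit false

open MeasureTheory Set Filter Topology
open scoped InnerProductSpace

namespace Crest.Agent.R213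

theorem rate_maps {s τ l : ℝ} (hl0 : 0 ≤ l) (hl1 : l ≤ 1) {r : ℝ} (hr : r ∈ Icc s (s + τ)) :
    l * r + (1 - l) * s ∈ Icc s (s + τ) := by
  obtain ⟨h1, h2⟩ := hr
  constructor <;> nlinarith

theorem rate_pt {f : ℝ → ℝ} {s τ A B ε : ℝ} (hτ : 0 < τ) (hε : 0 < ε)
    (hf : ContinuousOn f (Icc s (s + τ))) (hA : ∫ r in s..(s + τ), f r ^ 2 ≤ A)
    (hB : ∀ l : ℝ, 1 / 2 < l → l < 1 →
      ∫ r in s..(s + τ), (f r - f (l * r + (1 - l) * s)) ^ 2 ≤ B * (1 - l) ^ 2) :
    τ * f (s + τ) ^ 2 ≤ ε * B + 3 * A / (2 * ε) + 2 * A := by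
  set D := ε * B + 3 * A / (2 * ε) + 2 * A with hD
  have hle : s ≤ s + τ := by linarith
  have hf2 : ContinuousOn (fun r => f r ^ 2) (Icc s (s + τ)) := hf.pow 2
  have ii : ∀ {a b : ℝ}, a ∈ Icc s (s + τ) → b ∈ Icc s (s + τ) →
      IntervalIntegrable (fun r => f r ^ 2) volume a b := fun ha hb =>
    (hf2.mono (uIcc_subset_Icc ha hb)).intervalIntegrable
  have key : ∀ l : ℝ, 1 / 2 < l → l < 1 →
      ∫ r in (s + l * τ)..(s + τ), f r ^ 2 ≤ (1 - l) * D := by
    intro l h1 h2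
    have hl : 0 < l := by linarith
    have hm : s + l * τ ∈ Icc s (s + τ) := ⟨by nlinarith, by nlinarith⟩
    have hs : s ∈ Icc s (s + τ) := ⟨le_rfl, hle⟩
    have he : s + τ ∈ Icc s (s + τ) := ⟨hle, le_rfl⟩
    set g : ℝ → ℝ := fun r => f (l * r + (1 - l) * s) with hg
    have hgc : ContinuousOn g (Icc s (s + τ)) :=
      hf.comp (by fun_prop) fun r hr => rate_maps hl.le h2.le hr
    have cI : ∀ {u : ℝ → ℝ}, ContinuousOn u (Icc s (s + τ)) →
        IntervalIntegrable u volume s (s + τ) := fun hu =>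
      (hu.mono (by rw [uIcc_of_le hle])).intervalIntegrable
    set P := ∫ r in s..(s + l * τ), f r ^ 2 with hP
    set Q := ∫ r in (s + l * τ)..(s + τ), f r ^ 2 with hQ
    have hPQ : ∫ r in s..(s + τ), f r ^ 2 = P + Q :=
      (intervalIntegral.integral_add_adjacent_intervals (ii hs hm) (ii hm he)).symm
    have hP0 : 0 ≤ P := intervalIntegral.integral_nonneg hm.1 fun _ _ => sq_nonneg _
    have hQ0 : 0 ≤ Q := intervalIntegral.integral_nonneg hm.2 fun _ _ => sq_nonneg _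
    have hG : ∫ r in s..(s + τ), g r ^ 2 = l⁻¹ * P := by
      have := intervalIntegral.integral_comp_mul_add (fun r => f r ^ 2) (a := s) (b := s + τ)
        hl.ne' ((1 - l) * s)
      rw [show l * s + (1 - l) * s = s by ring,
        show l * (s + τ) + (1 - l) * s = s + l * τ by ring] at this
      simpa [hg] using this
    have h1l : 0 < 1 - l := by linarith
    have pt : ∀ r ∈ Icc s (s + τ), f r ^ 2 - g r ^ 2 ≤
        ε / (1 - l) * (f r - g r) ^ 2 + (1 - l) / (2 * ε) * (f r ^ 2 + g r ^ 2) := by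
      intro r _
      have e : ε / (1 - l) * (f r - g r) ^ 2 + (1 - l) / (2 * ε) * (f r ^ 2 + g r ^ 2) -
          (f r ^ 2 - g r ^ 2) = (2 * ε * (f r - g r) - (1 - l) * (f r + g r)) ^ 2 /
            (4 * ε * (1 - l)) + (1 - l) / (4 * ε) * (f r - g r) ^ 2 := by
        field_simp
        ring
      have : 0 ≤ (2 * ε * (f r - g r) - (1 - l) * (f r + g r)) ^ 2 / (4 * ε * (1 - l)) +
          (1 - l) / (4 * ε) * (f r - g r) ^ 2 := by positivity
      linarith
    have i1 := cI hf2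
    have i2 : IntervalIntegrable (fun r => g r ^ 2) volume s (s + τ) := cI (hgc.pow 2)
    have i3 : IntervalIntegrable (fun r => (f r - g r) ^ 2) volume s (s + τ) :=
      cI ((hf.sub hgc).pow 2)
    have hint := intervalIntegral.integral_mono_on hle (i1.sub i2)
      ((i3.const_mul (ε / (1 - l))).add ((i1.add i2).const_mul ((1 - l) / (2 * ε)))) pt
    rw [intervalIntegral.integral_sub i1 i2, intervalIntegral.integral_add (i3.const_mul _)
      ((i1.add i2).const_mul _), intervalIntegral.integral_const_mul,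
      intervalIntegral.integral_const_mul, intervalIntegral.integral_add i1 i2, hG, hPQ] at hint
    have hBl := hB l h1 h2
    have hA' : P + Q ≤ A := hPQ ▸ hA
    have hli : l⁻¹ ≤ 2 := by
      rw [inv_le_comm₀ hl (by norm_num)]; linarith
    have hli0 : 0 < l⁻¹ := inv_pos.2 hl
    have t1 : ε / (1 - l) * (∫ r in s..(s + τ), (f r - g r) ^ 2) ≤ (1 - l) * (ε * B) := by
      calc ε / (1 - l) * (∫ r in s..(s + τ), (f r - g r) ^ 2)
          ≤ ε / (1 - l) * (B * (1 - l) ^ 2) := mul_le_mul_of_nonneg_left hBl (by positivity)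
        _ = (1 - l) * (ε * B) := by field_simp
    have t2 : (1 - l) / (2 * ε) * (P + Q + l⁻¹ * P) ≤ (1 - l) * (3 * A / (2 * ε)) := by
      have : P + Q + l⁻¹ * P ≤ 3 * A := by nlinarith
      calc (1 - l) / (2 * ε) * (P + Q + l⁻¹ * P) ≤ (1 - l) / (2 * ε) * (3 * A) :=
            mul_le_mul_of_nonneg_left this (by positivity)
        _ = (1 - l) * (3 * A / (2 * ε)) := by ring
    have t3 : l⁻¹ * P - P ≤ (1 - l) * (2 * A) := by
      have e : l⁻¹ * P - P = (1 - l) * (l⁻¹ * P) := by field_simp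
      rw [e]
      exact mul_le_mul_of_nonneg_left (by nlinarith) h1l.le
    have : (1 - l) * D = (1 - l) * (ε * B) + (1 - l) * (3 * A / (2 * ε)) + (1 - l) * (2 * A) := by
      rw [hD]; ring
    linarith
  by_contra hcon
  push Not at hcon
  set m := (D + τ * f (s + τ) ^ 2) / 2 with hm
  have hm1 : D < m := by rw [hm]; linarith
  have hm2 : m < τ * f (s + τ) ^ 2 := by rw [hm]; linarith
  have hc : ContinuousWithinAt (fun r => τ * f r ^ 2) (Icc s (s + τ)) (s + τ) :=
    (continuousOn_const.mul hf2) _ ⟨hle, le_rfl⟩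
  have hev := hc.eventually (lt_mem_nhds hm2)
  obtain ⟨δ, hδ, hδ'⟩ := Metric.eventually_nhds_iff.1 (eventually_nhdsWithin_iff.1 hev)
  set η := min (1 / 4) (δ / (2 * τ)) with hη
  have hη0 : 0 < η := lt_min (by norm_num) (by positivity)
  have hη1 : η ≤ 1 / 4 := min_le_left _ _
  have hη2 : η * τ < δ := by
    have : η ≤ δ / (2 * τ) := min_le_right _ _
    rw [le_div_iff₀ (by positivity)] at this
    nlinarith
  have h1 := key (1 - η) (by linarith) (by linarith)
  have hmem : s + (1 - η) * τ ∈ Icc s (s + τ) := ⟨by nlinarith, by nlinarith⟩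
  have h2 : ∫ _ in (s + (1 - η) * τ)..(s + τ), m / τ ≤
      ∫ r in (s + (1 - η) * τ)..(s + τ), f r ^ 2 := by
    refine intervalIntegral.integral_mono_on hmem.2 intervalIntegrable_const
      (ii hmem ⟨hle, le_rfl⟩) fun r hr => ?_
    have h3 : dist r (s + τ) < δ := by
      rw [Real.dist_eq, abs_lt]
      constructor <;> nlinarith [hr.1, hr.2]
    have h4 := hδ' h3 ⟨hmem.1.trans hr.1, hr.2⟩
    rw [div_le_iff₀ hτ]
    linarith
  rw [intervalIntegral.integral_const, smul_eq_mul] at h2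
  have e : (s + τ - (s + (1 - η) * τ)) * (m / τ) = η * m := by field_simp; ring
  rw [e] at h2
  have : (1 - (1 - η)) * D = η * D := by ring
  nlinarith

variable {V H : Type} [NormedAddCommGroup V] [InnerProductSpace ℝ V] [CompleteSpace V]
  [NormedAddCommGroup H] [InnerProductSpace ℝ H] [CompleteSpace H]

omit [CompleteSpace V] in
theorem rate_sq1_le (P : V →L[ℝ] V) {N : ℝ} (hP : ‖P‖ ≤ N) (u : V) :
    ‖sq1 P u‖ ≤ (1 + N) ^ 2 * ‖u‖ := by
  have h1 : ‖(1 : V →L[ℝ] V)‖ ≤ 1 := ContinuousLinearMap.norm_id_le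
  have hp : ‖1 + P‖ ≤ 1 + N := (norm_add_le _ _).trans (by linarith)
  have h2 : ‖sq1 P‖ ≤ (1 + N) ^ 2 := by
    unfold sq1
    refine (norm_pow_le' _ (by norm_num)).trans ?_
    gcongr
  exact ((sq1 P).le_opNorm u).trans (mul_le_mul_of_nonneg_right h2 (norm_nonneg _))

theorem rate_kap {s τ l r : ℝ} (hτ1 : τ ≤ 1) (hl0 : 0 < l) (hl1 : l < 1)
    (hr : r ∈ Icc s (s + τ)) :
    |Real.exp (-r) - l * Real.exp (-(l * r + (1 - l) * s))| ≤ 2 * (1 - l) * Real.exp (-s) := by
  obtain ⟨h1, h2⟩ := hr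
  set q := l * r + (1 - l) * s with hq
  have hq1 : s ≤ q := by rw [hq]; nlinarith
  have hq2 : q ≤ r := by rw [hq]; nlinarith
  have hq3 : r - q ≤ 1 - l := by rw [hq]; nlinarith
  have e1 : Real.exp (-q) ≤ Real.exp (-s) := Real.exp_le_exp.2 (by linarith)
  have e2 : Real.exp (-r) ≤ Real.exp (-q) := Real.exp_le_exp.2 (by linarith)
  have e3 : Real.exp (-q) * (1 - (r - q)) ≤ Real.exp (-r) := by
    have : Real.exp (-r) = Real.exp (-q) * Real.exp (-(r - q)) := by
      rw [← Real.exp_add]; congr 1; ring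
    rw [this]
    exact mul_le_mul_of_nonneg_left (by linarith [Real.add_one_le_exp (-(r - q))])
      (Real.exp_pos _).le
  have p1 := Real.exp_pos (-q)
  rw [abs_le]
  constructor <;> nlinarith

theorem rate_win (T : Trip V H) (M : H →L[ℝ] V →L[ℝ] V) {s1 c C : ℝ} {v Z : ℝ → V} {U : ℝ → H}
    (hc : 0 < c) (hC : 0 < C) (hs1 : 0 ≤ s1) (sol : ∀ s2, s1 ≤ s2 → IsSol T s1 s2 v Z U)
    (eqn : ∀ᵐ s ∂(volume.restrict (Ioi s1)), Z s = -(Real.exp (-s) • sq1 (M (U s)) (v s)))
    (gar : ∀ s, s1 ≤ s → ∀ u,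
      c * ‖u‖ ^ 2 - C * Real.exp s * ‖T.ι u‖ ^ 2 ≤ T.a (sq1 (M (U s)) u) u)
    (Mbd : ∀ s, s1 ≤ s → ‖M (U s)‖ ≤ C)
    (win : ∀ s, s1 ≤ s → Real.exp (-s) * ∫ r in s..(s + Real.exp (-s)), ‖v r‖ ^ 2 ≤ C) :
    ∃ K : ℝ, 0 < K ∧ ∀ s τ l : ℝ, s1 ≤ s → 0 < τ → τ ≤ Real.exp (-s) → 1 / 2 < l → l < 1 →
      IntervalIntegrable (fun r => ‖v r - v (l * r + (1 - l) * s)‖ ^ 2) volume s (s + τ) ∧
      ∫ r in s..(s + τ), ‖v r - v (l * r + (1 - l) * s)‖ ^ 2 ≤ K * Real.exp s * (1 - l) ^ 2 := by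
  obtain ⟨K, hK, hst⟩ := stab T M c C hc
  refine ⟨Real.exp (K * (3 * C)) * (K * (4 * (1 + C) ^ 4 * (2 * C)) * Real.exp 1) * Real.exp 1 / c,
    by positivity, ?_⟩
  intro s τ l hs hτ hτe h1 h2
  have hl : 0 < l := by linarith
  have hs0 : 0 ≤ s := hs1.trans hs
  have hes : Real.exp (-s) ≤ 1 := Real.exp_le_one_iff.2 (by linarith)
  have hτ1 : τ ≤ 1 := hτe.trans hes
  have hle : s ≤ s + τ := by linarith
  set k := (1 - l) * s with hk
  have e0 : l * s + k = s := by rw [hk]; ring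
  have e1 : l * (s + τ) + k = s + l * τ := by rw [hk]; ring
  have hlτ : s + l * τ ≤ s + τ := by nlinarith
  have hlτ0 : s ≤ s + l * τ := by nlinarith
  have sol1 : IsSol T s (s + τ) v Z U := (sol (s + τ) (hs.trans hle)).mono hs hle le_rfl
  have sol2' : IsSol T (l * s + k) (l * (s + τ) + k) v Z U := by
    rw [e0, e1]; exact sol1.mono le_rfl hlτ0 hlτ
  have sol2 := IsSol.affine hl sol2'
  have eq1 : ∀ᵐ r ∂(volume.restrict (Ioc s (s + τ))),
      Z r = -(Real.exp (-r) • sq1 (M (U r)) (v r)) :=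
    ae_restrict_of_ae_restrict_of_subset (fun r hr => lt_of_le_of_lt hs hr.1) eqn
  have eq2' : ∀ᵐ r ∂(volume.restrict (Ioc (l * s + k) (l * (s + τ) + k))),
      Z r = -(Real.exp (-r) • sq1 (M (U r)) (v r)) := by
    rw [e0]
    exact ae_restrict_of_ae_restrict_of_subset (fun r hr => lt_of_le_of_lt hs hr.1) eqn
  have eq2 : ∀ᵐ r ∂(volume.restrict (Ioc s (s + τ))), Z (l * r + k) =
      -(Real.exp (-(l * r + k)) • sq1 (M (U (l * r + k))) (v (l * r + k))) :=
    (sa_mp hl).quasiMeasurePreserving.ae (Measure.ae_smul_measure eq2' _)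
  set F : ℝ → V := fun r =>
    (1 - Real.exp (-r) / (l * Real.exp (-(l * r + k)))) • (l • Z (l * r + k)) with hF
  have hFe : ∀ᵐ r ∂(volume.restrict (Ioc s (s + τ))), F r =
      (Real.exp (-r) - l * Real.exp (-(l * r + k))) • sq1 (M (U (l * r + k))) (v (l * r + k)) := by
    filter_upwards [eq2] with r hr
    simp only [hF, hr, smul_smul, ← neg_smul]
    congr 1
    have := Real.exp_pos (-(l * r + k))
    field_simp
    ring
  set D := 2 * (1 - l) * Real.exp (-s) * (1 + C) ^ 2 with hD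
  have hFb : ∀ᵐ r ∂(volume.restrict (Ioc s (s + τ))), ‖F r‖ ≤ D * ‖v (l * r + k)‖ := by
    filter_upwards [hFe, ae_restrict_mem measurableSet_Ioc] with r hr hr'
    have hr2 : r ∈ Icc s (s + τ) := Ioc_subset_Icc_self hr'
    have hq := rate_maps hl.le h2.le hr2
    rw [hr, norm_smul, Real.norm_eq_abs, hD, mul_assoc _ ((1 + C) ^ 2)]
    exact mul_le_mul (rate_kap hτ1 hl h2 hr2) (rate_sq1_le _ (Mbd _ (hs.trans hq.1)) _)
      (norm_nonneg _) (by have : 0 < 1 - l := by linarith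
                          positivity)
  have hFm : MemLp F 2 (volume.restrict (Ioc s (s + τ))) := by
    refine MemLp.of_le_mul sol2.v2 ?_ hFb
    refine AEStronglyMeasurable.smul (Continuous.aestronglyMeasurable ?_) sol2.Z2.1
    refine continuous_const.sub (Continuous.div (by fun_prop) (by fun_prop) fun r => ?_)
    positivity
  have eq3 : ∀ᵐ r ∂(volume.restrict (Ioc s (s + τ))), l • Z (l * r + k) =
      -(Real.exp (-r) • sq1 (M (U (l * r + k))) (v (l * r + k))) + F r := by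
    filter_upwards [eq2, hFe] with r hr hr'
    rw [hr, hr', sub_smul, smul_neg, smul_smul]
    abel
  have hκ : ∀ r ∈ Icc s (s + τ),
      Real.exp (-s - 1) ≤ Real.exp (-r) ∧ Real.exp (-r) ≤ 4 * Real.exp (-s - 1) := by
    intro r hr
    refine ⟨Real.exp_le_exp.2 (by linarith [hr.2]), ?_⟩
    have a1 : Real.exp (-r) ≤ Real.exp (-s) := Real.exp_le_exp.2 (by linarith [hr.1])
    have a2 : Real.exp (-s) = Real.exp 1 * Real.exp (-s - 1) := by
      rw [← Real.exp_add]; congr 1; ring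
    have a3 : Real.exp 1 ≤ 4 := (Real.exp_one_lt_d9.le).trans (by norm_num)
    have a4 := Real.exp_pos (-s - 1)
    nlinarith
  have hg : ∀ r ∈ Icc s (s + τ), ∀ u, c * ‖u‖ ^ 2 - C * Real.exp (s + 1) * ‖T.ι u‖ ^ 2 ≤
      T.a (sq1 (M (U r)) u) u := by
    intro r hr u
    refine le_trans ?_ (gar r (hs.trans hr.1) u)
    have : Real.exp r ≤ Real.exp (s + 1) := Real.exp_le_exp.2 (by linarith [hr.2])
    gcongr
  have hM : ∀ r ∈ Icc s (s + τ), ‖M (U r)‖ ≤ C ∧ ‖M (U (l * r + k))‖ ≤ C := fun r hr =>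
    ⟨Mbd r (hs.trans hr.1), Mbd _ (hs.trans (rate_maps hl.le h2.le hr).1)⟩
  have main := hst (κ := fun r => Real.exp (-r)) hle (Real.exp_pos (-s - 1))
    (by positivity : 0 ≤ C * Real.exp (s + 1)) sol1 sol2 hκ hFm eq1 eq3 hg hM
    (by simp only [e0]) (s + τ) ⟨hle, le_rfl⟩
  refine ⟨(intervalIntegrable_iff_integrableOn_Ioc_of_le hle).2 (sa_sq (sol1.sub sol2).v2), ?_⟩
  -- the dilated `L²` norm
  have hw : ∫ r in s..(s + τ), ‖v (l * r + k)‖ ^ 2 ≤ 2 * C * Real.exp s := by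
    have a1 := intervalIntegral.integral_comp_mul_add (fun r => ‖v r‖ ^ 2) (a := s) (b := s + τ)
      hl.ne' k
    rw [e0, e1, smul_eq_mul] at a1
    have hse : s ≤ s + Real.exp (-s) := by linarith [Real.exp_pos (-s)]
    have i0 : IntegrableOn (fun r => ‖v r‖ ^ 2) (Ioc s (s + Real.exp (-s))) :=
      sa_sq ((sol _ (hs.trans hse)).mono hs hse le_rfl).v2
    have a2 : ∫ r in s..(s + l * τ), ‖v r‖ ^ 2 ≤ ∫ r in s..(s + Real.exp (-s)), ‖v r‖ ^ 2 := by
      rw [intervalIntegral.integral_of_le hlτ0, intervalIntegral.integral_of_le hse]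
      exact setIntegral_mono_set i0 (Eventually.of_forall fun _ => by positivity)
        (Ioc_subset_Ioc_right (by linarith)).eventuallyLE
    have a3 : ∫ r in s..(s + Real.exp (-s)), ‖v r‖ ^ 2 ≤ C * Real.exp s := by
      have := win s hs
      rw [Real.exp_neg, inv_mul_le_iff₀ (Real.exp_pos s)] at this
      rw [Real.exp_neg]
      linarith
    have a4 : 0 ≤ ∫ r in s..(s + l * τ), ‖v r‖ ^ 2 :=
      intervalIntegral.integral_nonneg hlτ0 fun _ _ => by positivity
    have hli : l⁻¹ ≤ 2 := by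
      rw [inv_le_comm₀ hl (by norm_num)]; linarith
    rw [a1]
    nlinarith
  have hw0 : 0 ≤ ∫ r in s..(s + τ), ‖v (l * r + k)‖ ^ 2 :=
    intervalIntegral.integral_nonneg hle fun _ _ => by positivity
  have hFi : ∫ r in s..(s + τ), ‖F r‖ ^ 2 ≤ D ^ 2 * (2 * C * Real.exp s) := by
    refine le_trans ?_ (mul_le_mul_of_nonneg_left hw (sq_nonneg D))
    rw [← intervalIntegral.integral_const_mul, intervalIntegral.integral_of_le hle,
      intervalIntegral.integral_of_le hle]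
    refine integral_mono_ae (sa_sq hFm) ((sa_sq sol2.v2).const_mul _) ?_
    filter_upwards [hFb] with r hr
    rw [← mul_pow]
    exact pow_le_pow_left₀ (norm_nonneg _) hr 2
  have hF0 : 0 ≤ ∫ r in s..(s + τ), ‖F r‖ ^ 2 :=
    intervalIntegral.integral_nonneg hle fun _ _ => by positivity
  set x := Real.exp s with hx
  have hx0 : 0 < x := Real.exp_pos s
  set E := Real.exp 1 with hE
  have hE1 : 1 ≤ E := Real.one_le_exp (by norm_num)
  have x1 : Real.exp (-s) = x⁻¹ := Real.exp_neg s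
  have x2 : Real.exp (-s - 1) = x⁻¹ * E⁻¹ := by
    rw [sub_eq_add_neg, Real.exp_add, Real.exp_neg, Real.exp_neg]
  have x3 : Real.exp (s + 1) = x * E := Real.exp_add s 1
  have b1 : K * Real.exp (-s - 1) * (C * Real.exp (s + 1) * (s + τ - s) +
      ∫ r in s..(s + τ), ‖v (l * r + k)‖ ^ 2) ≤ K * (3 * C) := by
    rw [mul_assoc K]
    refine mul_le_mul_of_nonneg_left ?_ hK.le
    rw [x2, x3]
    have c1 : x⁻¹ * E⁻¹ * (C * (x * E) * (s + τ - s)) = C * τ := by
      field_simp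
      ring
    have c2 : x⁻¹ * E⁻¹ * (∫ r in s..(s + τ), ‖v (l * r + k)‖ ^ 2) ≤ 2 * C := by
      calc x⁻¹ * E⁻¹ * (∫ r in s..(s + τ), ‖v (l * r + k)‖ ^ 2)
          ≤ x⁻¹ * E⁻¹ * (2 * C * x) := mul_le_mul_of_nonneg_left hw (by positivity)
        _ = 2 * C * E⁻¹ := by field_simp
        _ ≤ 2 * C * 1 := by gcongr; exact inv_le_one_of_one_le₀ hE1
        _ = 2 * C := mul_one _
    rw [mul_add, c1]
    nlinarith
  have b2 : K / Real.exp (-s - 1) * ∫ r in s..(s + τ), ‖F r‖ ^ 2 ≤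
      K * (4 * (1 + C) ^ 4 * (2 * C)) * E * (1 - l) ^ 2 := by
    calc K / Real.exp (-s - 1) * ∫ r in s..(s + τ), ‖F r‖ ^ 2
        ≤ K / Real.exp (-s - 1) * (D ^ 2 * (2 * C * x)) :=
          mul_le_mul_of_nonneg_left hFi (by positivity)
      _ = K * (4 * (1 + C) ^ 4 * (2 * C)) * E * (1 - l) ^ 2 := by
          rw [hD, x1, x2]
          field_simp
          ring
  have b3 : c * Real.exp (-s - 1) * ∫ r in s..(s + τ), ‖v r - v (l * r + k)‖ ^ 2 ≤
      Real.exp (K * (3 * C)) * (K * (4 * (1 + C) ^ 4 * (2 * C)) * E * (1 - l) ^ 2) := by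
    refine le_trans (le_add_of_nonneg_left (sq_nonneg _)) (main.trans ?_)
    exact mul_le_mul (Real.exp_le_exp.2 b1) b2 (by positivity) (by positivity)
  rw [x2] at b3
  have b4 : ∫ r in s..(s + τ), ‖v r - v (l * r + k)‖ ^ 2 = (x * E / c) *
      (c * (x⁻¹ * E⁻¹) * ∫ r in s..(s + τ), ‖v r - v (l * r + k)‖ ^ 2) := by
    field_simp
  rw [b4]
  refine (mul_le_mul_of_nonneg_left b3 (by positivity)).trans (le_of_eq ?_)
  field_simp

end Crest.Agent.R213
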