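import Crest.Agent.R213.Defs
import Crest.Agent.R213.RateA

/-!
# R213 / RateB : proof of `rate`
-/

set_option autoImplicit false

open MeasureTheory Set Filter Topology
open scoped ContDiff InnerProductSpace

namespace Crest.Agent.R213

theorem rate_ell (S : Sp) (P : Nl S) (Sc : ℝ → ℝ → ℝ)
    (hS : ContinuousOn (Function.uncurry Sc) (Ioi P.s1 ×ˢ Icc 0 1))
    (he : ∀ s, P.s1 < s → ∀ x ∈ Ioo (0 : ℝ) 1, Sc s x = 110 - sig (P.U s) x) {s2 : ℝ}
    (h2 : P.s1 ≤ s2) :
    ∀ᵐ r ∂(volume.restrict (Ioc P.s1 s2)), S.ell (P.v r) = 110 - Sc r 0 := by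
  filter_upwards [(P.sol s2 h2).rep, ae_restrict_mem measurableSet_Ioc] with r hr hr'
  have h1 := S.ell_eq (P.v r)
  rw [hr] at h1
  have hc : ContinuousOn (fun x => Sc r x) (Icc 0 1) :=
    hS.comp (f := fun x => (r, x)) (by fun_prop) fun x hx => ⟨hr'.1, hx⟩
  have h3 : Tendsto (fun x => Sc r x) (𝓝[>] 0) (𝓝 (Sc r 0)) :=
    (hc 0 ⟨le_rfl, zero_le_one⟩).mono_left
      (nhdsWithin_le_of_mem (mem_of_superset (Ioo_mem_nhdsGT zero_lt_one) Ioo_subset_Icc_self))
  have h4 : Tendsto (sig (P.U r)) (𝓝[>] 0) (𝓝 (110 - Sc r 0)) := by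
    refine (h3.const_sub 110).congr' ?_
    filter_upwards [Ioo_mem_nhdsGT zero_lt_one] with x hx
    rw [he r hr'.1 x hx]; ring
  exact tendsto_nhds_unique h1 h4

theorem rate_exp_half {s τ l r : ℝ} (hτ1 : τ ≤ 1) (hl0 : 0 < l) (hl1 : l < 1)
    (hr : r ∈ Icc s (s + τ)) :
    (Real.exp (r / 2) - Real.exp ((l * r + (1 - l) * s) / 2)) ^ 2 ≤
      Real.exp (s + 1) * (1 - l) ^ 2 := by
  obtain ⟨h1, h2⟩ := hr
  set q := l * r + (1 - l) * s with hq
  have hq2 : q ≤ r := by rw [hq]; nlinarith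
  have hq3 : r - q ≤ 1 - l := by rw [hq]; nlinarith
  have e2 : Real.exp (q / 2) ≤ Real.exp (r / 2) := Real.exp_le_exp.2 (by linarith)
  have e3 : Real.exp (r / 2) * (1 - (r - q) / 2) ≤ Real.exp (q / 2) := by
    have : Real.exp (q / 2) = Real.exp (r / 2) * Real.exp (-((r - q) / 2)) := by
      rw [← Real.exp_add]; congr 1; ring
    rw [this]
    exact mul_le_mul_of_nonneg_left (by linarith [Real.add_one_le_exp (-((r - q) / 2))])
      (Real.exp_pos _).le
  have e4 : Real.exp (r / 2) ≤ Real.exp ((s + 1) / 2) := Real.exp_le_exp.2 (by linarith)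
  have e5 : Real.exp (s + 1) = Real.exp ((s + 1) / 2) ^ 2 := by
    rw [sq, ← Real.exp_add]; congr 1; ring
  have p1 := Real.exp_pos (r / 2)
  rw [e5, ← mul_pow]
  refine pow_le_pow_left₀ (by linarith) ?_ 2
  nlinarith

theorem rate' (S : Sp) (P : Nl S) (Sc : ℝ → ℝ → ℝ)
    (hS : ContinuousOn (Function.uncurry Sc) (Ioi P.s1 ×ˢ Icc 0 1))
    (he : ∀ s, P.s1 < s → ∀ x ∈ Ioo (0 : ℝ) 1, Sc s x = 110 - sig (P.U s) x) :
    Tendsto (fun s => Sc s 0 * Real.exp (-(s / 2))) atTop (𝓝 P.a) := by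
  obtain ⟨K, hK, hw⟩ := rate_win S.T S.M P.c_pos P.C_pos P.s1_ge P.sol P.eqn P.gar P.Mbd P.win
  set f : ℝ → ℝ := fun r => Sc r 0 - P.a * Real.exp (r / 2) with hf
  have hfc : ContinuousOn f (Ioi P.s1) := by
    refine ContinuousOn.sub ?_ (by fun_prop)
    exact hS.comp (f := fun r => (r, (0 : ℝ))) (by fun_prop) fun r hr => ⟨hr, le_rfl, zero_le_one⟩
  set I := ∫ s in Ioi P.s1, Real.exp ((2 * P.μ - 1 / 2) * s) *
    (S.ell (P.v s) - (110 - P.a * Real.exp (s / 2))) ^ 2 with hI
  have hI0 : 0 ≤ I := integral_nonneg fun _ => by positivity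
  set δ := P.μ - 3 / 4 with hδ
  have hδ0 : 0 < δ := by have := P.μ_gt; rw [hδ]; linarith
  set K1 := 2 * ‖S.ell‖ ^ 2 * K + 2 * P.a ^ 2 * Real.exp 1 with hK1
  have hK10 : 0 ≤ K1 := by positivity
  -- the bound at the right end point of a window
  have bd : ∀ s τ : ℝ, P.s1 < s → 0 < τ → τ ≤ Real.exp (-s) →
      τ * f (s + τ) ^ 2 ≤ (K1 + 3 / 2 * I + 2 * I) * Real.exp (-(δ * s)) := by
    intro s τ hs hτ hτe
    have hs0 : 0 ≤ s := P.s1_ge.trans hs.le
    have hτ1 : τ ≤ 1 := hτe.trans (Real.exp_le_one_iff.2 (by linarith))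
    have hle : s ≤ s + τ := by linarith
    have hsub : Icc s (s + τ) ⊆ Ioi P.s1 := fun r hr => lt_of_lt_of_le hs hr.1
    have hfc' : ContinuousOn f (Icc s (s + τ)) := hfc.mono hsub
    have cI : ∀ {u : ℝ → ℝ}, ContinuousOn u (Icc s (s + τ)) →
        IntegrableOn u (Ioc s (s + τ)) := fun hu =>
      (hu.integrableOn_Icc).mono_set Ioc_subset_Icc_self
    have hell : ∀ᵐ r ∂(volume.restrict (Ioc s (s + τ))), S.ell (P.v r) = 110 - Sc r 0 :=
      ae_restrict_of_ae_restrict_of_subset (Ioc_subset_Ioc_left hs.le)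
        (rate_ell S P Sc hS he (hs.le.trans hle))
    have hA : ∫ r in s..(s + τ), f r ^ 2 ≤ Real.exp (-((2 * P.μ - 1 / 2) * s)) * I := by
      have i1 : IntegrableOn (fun s => Real.exp ((2 * P.μ - 1 / 2) * s) *
          (S.ell (P.v s) - (110 - P.a * Real.exp (s / 2))) ^ 2) (Ioc s (s + τ)) :=
        P.ell.mono_set (Ioc_subset_Icc_self.trans hsub)
      refine le_trans ?_ (mul_le_mul_of_nonneg_left (setIntegral_mono_set P.ell
        (Eventually.of_forall fun _ => by positivity)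
        (Ioc_subset_Icc_self.trans hsub).eventuallyLE) (Real.exp_pos _).le)
      rw [intervalIntegral.integral_of_le hle, ← integral_const_mul]
      refine integral_mono_ae (cI (hfc'.pow 2)) (i1.const_mul _) ?_
      filter_upwards [hell, ae_restrict_mem measurableSet_Ioc] with r hr hr'
      rw [hr, ← mul_assoc, ← Real.exp_add]
      have e : (110 - Sc r 0 - (110 - P.a * Real.exp (r / 2))) ^ 2 = f r ^ 2 := by
        simp only [hf]; ring
      rw [e]
      refine le_mul_of_one_le_left (sq_nonneg _) (Real.one_le_exp ?_)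
      have := P.μ_gt
      nlinarith [hr'.1]
    have hB : ∀ l : ℝ, 1 / 2 < l → l < 1 → ∫ r in s..(s + τ),
        (f r - f (l * r + (1 - l) * s)) ^ 2 ≤ K1 * Real.exp s * (1 - l) ^ 2 := by
      intro l h1 h2
      have hl : 0 < l := by linarith
      obtain ⟨iv, hv⟩ := hw s τ l hs.le hτ hτe h1 h2
      have hell2' : ∀ᵐ r ∂(volume.restrict (Ioc (l * s + (1 - l) * s) (l * (s + τ) + (1 - l) * s))),
          S.ell (P.v r) = 110 - Sc r 0 := by
        refine ae_restrict_of_ae_restrict_of_subset (Ioc_subset_Ioc ?_ ?_) hell <;> nlinarith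
      have hell2 : ∀ᵐ r ∂(volume.restrict (Ioc s (s + τ))),
          S.ell (P.v (l * r + (1 - l) * s)) = 110 - Sc (l * r + (1 - l) * s) 0 :=
        (sa_mp hl).quasiMeasurePreserving.ae (Measure.ae_smul_measure hell2' _)
      have hgc : ContinuousOn (fun r => f (l * r + (1 - l) * s)) (Icc s (s + τ)) :=
        hfc'.comp (by fun_prop) fun r hr => rate_maps hl.le h2.le hr
      set c2 := 2 * P.a ^ 2 * (Real.exp (s + 1) * (1 - l) ^ 2) with hc2
      have hc20 : 0 ≤ c2 := by positivity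
      have step : ∫ r in s..(s + τ), (f r - f (l * r + (1 - l) * s)) ^ 2 ≤
          ∫ r in s..(s + τ),
            (2 * ‖S.ell‖ ^ 2 * ‖P.v r - P.v (l * r + (1 - l) * s)‖ ^ 2 + c2) := by
        rw [intervalIntegral.integral_of_le hle, intervalIntegral.integral_of_le hle]
        refine integral_mono_ae (cI ((hfc'.sub hgc).pow 2))
          ((intervalIntegrable_iff_integrableOn_Ioc_of_le hle).1
            ((iv.const_mul _).add intervalIntegrable_const)) ?_
        filter_upwards [hell, hell2, ae_restrict_mem measurableSet_Ioc] with r e1 e2 hr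
        have a1 := rate_exp_half hτ1 hl h2 (Ioc_subset_Icc_self hr)
        have a2 : |S.ell (P.v r - P.v (l * r + (1 - l) * s))| ≤
            ‖S.ell‖ * ‖P.v r - P.v (l * r + (1 - l) * s)‖ := S.ell.le_opNorm _
        have a3 := pow_le_pow_left₀ (abs_nonneg _) a2 2
        rw [sq_abs, mul_pow, map_sub, e1, e2] at a3
        have a4 := mul_le_mul_of_nonneg_left a1 (sq_nonneg P.a)
        simp only [hf, hc2]
        nlinarith [sq_nonneg ((Sc r 0 - Sc (l * r + (1 - l) * s) 0) +
          P.a * (Real.exp (r / 2) - Real.exp ((l * r + (1 - l) * s) / 2)))]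
      rw [intervalIntegral.integral_add (iv.const_mul _) intervalIntegrable_const,
        intervalIntegral.integral_const_mul, intervalIntegral.integral_const, smul_eq_mul] at step
      have t1 := mul_le_mul_of_nonneg_left hv (by positivity : 0 ≤ 2 * ‖S.ell‖ ^ 2)
      have t2 : (s + τ - s) * c2 ≤ c2 := by nlinarith
      have t3 : K1 * Real.exp s * (1 - l) ^ 2 =
          2 * ‖S.ell‖ ^ 2 * (K * Real.exp s * (1 - l) ^ 2) + c2 := by
        rw [hK1, hc2, Real.exp_add]; ring
      linarith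
    have main := rate_pt hτ (Real.exp_pos (-s - δ * s)) hfc' hA hB
    have y1 : Real.exp (-s - δ * s) * (K1 * Real.exp s) = K1 * Real.exp (-(δ * s)) := by
      rw [mul_left_comm, ← Real.exp_add]; congr 2; ring
    have y2 : 3 * (Real.exp (-((2 * P.μ - 1 / 2) * s)) * I) / (2 * Real.exp (-s - δ * s)) =
        3 / 2 * I * Real.exp (-(δ * s)) := by
      have : Real.exp (-((2 * P.μ - 1 / 2) * s)) =
          Real.exp (-(δ * s)) * Real.exp (-s - δ * s) := by
        rw [← Real.exp_add]; congr 1; rw [hδ]; ring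
      rw [this]
      field_simp
    have y3 : Real.exp (-((2 * P.μ - 1 / 2) * s)) ≤ Real.exp (-(δ * s)) := by
      refine Real.exp_le_exp.2 ?_
      have := P.μ_gt
      rw [hδ]; nlinarith
    have y4 := mul_le_mul_of_nonneg_right y3 hI0
    rw [y1, y2] at main
    nlinarith
  set K2 := K1 + 3 / 2 * I + 2 * I with hK2
  have hK20 : 0 ≤ K2 := by positivity
  have lim : Tendsto (fun r => K2 * Real.exp (-(δ * (r - 1)))) atTop (𝓝 0) := by
    have h1 : Tendsto (fun r : ℝ => δ * (r - 1)) atTop atTop :=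
      (tendsto_atTop_add_const_right _ (-1) tendsto_id).const_mul_atTop hδ0
    simpa using (Real.tendsto_exp_neg_atTop_nhds_zero.comp h1).const_mul K2
  have sq0 : Tendsto (fun r => (Sc r 0 * Real.exp (-(r / 2)) - P.a) ^ 2) atTop (𝓝 0) := by
    refine squeeze_zero' (Eventually.of_forall fun _ => sq_nonneg _) ?_ lim
    filter_upwards [eventually_gt_atTop (P.s1 + 1)] with r hr
    have hr0 : 0 ≤ r := by linarith [P.s1_ge]
    have hτ := Real.exp_pos (-r)
    have hτ1 : Real.exp (-r) ≤ 1 := Real.exp_le_one_iff.2 (by linarith)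
    have h1 := bd (r - Real.exp (-r)) (Real.exp (-r)) (by linarith) hτ
      (Real.exp_le_exp.2 (by linarith))
    rw [sub_add_cancel] at h1
    have e : (Sc r 0 * Real.exp (-(r / 2)) - P.a) ^ 2 = Real.exp (-r) * f r ^ 2 := by
      have e1 : Real.exp (-r) = Real.exp (-(r / 2)) ^ 2 := by
        rw [sq, ← Real.exp_add]; congr 1; ring
      have e2 : Real.exp (-(r / 2)) * Real.exp (r / 2) = 1 := by
        rw [← Real.exp_add]; simp
      rw [e1, ← mul_pow]
      congr 1
      simp only [hf]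
      linear_combination P.a * e2
    rw [e]
    refine h1.trans (mul_le_mul_of_nonneg_left (Real.exp_le_exp.2 ?_) hK20)
    nlinarith
  have h3 : Tendsto (fun r => Sc r 0 * Real.exp (-(r / 2)) - P.a) atTop (𝓝 0) := by
    rw [tendsto_zero_iff_abs_tendsto_zero]
    have := (Real.continuous_sqrt.tendsto 0).comp sq0
    simpa [Function.comp_def, Real.sqrt_sq_eq_abs] using this
  simpa using h3.add_const P.a

end Crest.Agent.R213
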