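import Crest.Agent.R213.ISp
import Crest.Agent.R213.IAng
import Crest.Agent.R213.RateB

/-! # R213 / IRate : the blow-up rate at `x = 0`

`n r = Sc r 0` is smooth and `ell (v r) = 110 - n r` for a.e. `r` (`rep`, `ell_eq`, continuity of `Sc r` at `0`).
Window `J = [s, s + e^{-s}]`, `l ∈ (1/2,1)`, `r_l = s + l(r-s)`: `IsSol.affine` and `stab` (solution 1 = original, `κ = e^{-r}`,
`κ0 = e^{-s-1}`, solution 2 = dilated, `F = (e^{-r} - l e^{-r_l}) sq1(M U_l) v_l`, `|e^{-r} - l e^{-r_l}| ≤ 2e^{-s}(1-l)`, `win`) give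
`∫_J ‖v r - v r_l‖² ≤ K (1-l)² e^s`.  Let `l → 1`: `∫_J (r-s)² n'(r)² ≤ K' e^s`, so `∫_{J''} n'² ≤ 4K' e^{3s}` on the second half `J''`.
With `ñ = n - a e^{r/2}`, `∫_J ñ² ≤ I e^{-(2μ-1/2)s}` (`ell`), and `sup_{J''} ñ² ≤ (2/|J|)∫ñ² + 2‖ñ‖‖ñ'‖`; `μ > 3/4` gives
`e^{-r} ñ(r)² → 0` (given `r`, take `s = r - (3/4)e^{-r}`). -/

set_option autoImplicit false

open MeasureTheory Set Filter Topology
open scoped ContDiff InnerProductSpace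

namespace Crest.Agent.R213

theorem rate (S : Sp) (P : Nl S) (Sc : ℝ → ℝ → ℝ)
    (hS : ContDiffOn ℝ ∞ (Function.uncurry Sc) (Ioi P.s1 ×ˢ Icc 0 1))
    (he : ∀ s, P.s1 < s → ∀ x ∈ Ioo (0 : ℝ) 1, Sc s x = 110 - sig (P.U s) x) :
    Tendsto (fun s => Sc s 0 * Real.exp (-(s / 2))) atTop (𝓝 P.a) :=
  rate' S P Sc hS.continuousOn he

end Crest.Agent.R213
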