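import Crest.Agent.R213.IBoot
import Crest.Agent.R213.IRate
import Crest.Agent.R213.IGeo

/-! # R213 / IFinal : change of time `s = -log (T - t)`, `T = e^{-(s1+1)}`, and `geo`

`q t = q (s t)`, `S t = Sc (s t)`; positivity on `[0,1]` from `pos` (trivial at the end points);
`φ = φ0 + xi (U s)` on `(0,1)`, `C0 φ0 = 90/x - 110`, `C0_xi`; `ds/dt = e^s`; `√(T-t) = e^{-s/2}`. -/

open Crest.GeometryTopology.ProjKahler

set_option autoImplicit false

open MeasureTheory Set Filter Topology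
open scoped ContDiff InnerProductSpace

namespace Crest.Agent.R213

theorem final_C0 {f g : ℝ → ℝ} (hg : ContDiffOn ℝ 3 g (Ioo 0 1))
    (h : ∀ x ∈ Ioo (0 : ℝ) 1, f x = x * (1 - x) + g x) {x : ℝ} (hx : x ∈ Ioo (0 : ℝ) 1) :
    C0 f x = 90 / x - 110 + C0 g x := by
  have hg1 : ContDiffOn ℝ 2 (deriv g) (Ioo 0 1) := hg.deriv_of_isOpen isOpen_Ioo (by norm_num)
  have h1 : ∀ y ∈ Ioo (0 : ℝ) 1, deriv f y = 1 - 2 * y + deriv g y := fun y hy => by
    have e : f =ᶠ[𝓝 y] fun x => x * (1 - x) + g x := by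
      filter_upwards [isOpen_Ioo.mem_nhds hy] with z hz using h z hz
    have d1 : HasDerivAt g (deriv g y) y :=
      ((hg.differentiableOn (by norm_num)).differentiableAt (isOpen_Ioo.mem_nhds hy)).hasDerivAt
    have d2 := ((hasDerivAt_id y).mul ((hasDerivAt_id y).const_sub 1)).add d1
    rw [e.deriv_eq]
    refine d2.deriv.trans ?_
    simp only [id]
    ring
  have h2 : deriv (deriv f) x = -2 + deriv (deriv g) x := by
    have e : deriv f =ᶠ[𝓝 x] fun y => 1 - 2 * y + deriv g y := by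
      filter_upwards [isOpen_Ioo.mem_nhds hx] with z hz using h1 z hz
    have d1 : HasDerivAt (deriv g) (deriv (deriv g) x) x :=
      ((hg1.differentiableOn (by norm_num)).differentiableAt (isOpen_Ioo.mem_nhds hx)).hasDerivAt
    have d2 := (((hasDerivAt_id x).const_mul 2).const_sub 1).add d1
    rw [e.deriv_eq]
    refine d2.deriv.trans ?_
    ring
  have h0 := hx.1.ne'
  rw [C0, C0, h2, h1 x hx, h x hx]
  field_simp
  ring

theorem final (S : Sp) (P : Nl S) :
    ∃ T : ℝ, 0 < T ∧ ∃ h : ℝ → ProjExtension 10, IsCalabiFlowFS h T ∧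
      IsUnitarilyInvariant (h 0).h ∧
      ∃ (p : V 10) (a : ℝ), 0 < a ∧
        Filter.Tendsto (fun t => scalarCurv (fun u => fsPot u + (h t).h u) p * Real.sqrt (T - t))
          (nhdsWithin T (Set.Iio T)) (nhds a) := by
  obtain ⟨q, Sc, hq, hS, he, hd⟩ := boot S P
  have hr := rate S P Sc hS fun s hs x hx => (he s hs x hx).2
  set T := Real.exp (-(P.s1 + 1)) with hT
  have hT0 : 0 < T := Real.exp_pos _
  let σ : ℝ → ℝ := fun t => -Real.log (T - t)
  have hσ : ∀ t ∈ Ico 0 T, P.s1 < σ t := fun t ht => by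
    have h1 : Real.log (T - t) ≤ Real.log T := Real.log_le_log (sub_pos.2 ht.2) (by linarith [ht.1])
    rw [hT, Real.log_exp, ← hT] at h1
    simp only [σ]
    linarith
  have hexp : ∀ t, t < T → Real.exp (-σ t) = T - t := fun t ht => by
    simp only [σ, neg_neg]
    exact Real.exp_log (sub_pos.2 ht)
  have hc : ContDiffOn ℝ ∞ (fun p : ℝ × ℝ => (σ p.1, p.2)) (Ico 0 T ×ˢ Icc 0 1) :=
    (((contDiff_const.sub contDiff_fst).contDiffOn.log fun p hp => (sub_pos.2 hp.1.2).ne').neg).prodMk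
      contDiff_snd.contDiffOn
  have hm : MapsTo (fun p : ℝ × ℝ => (σ p.1, p.2)) (Ico 0 T ×ˢ Icc 0 1) (Ioi P.s1 ×ˢ Icc 0 1) :=
    fun p hp => ⟨hσ _ hp.1, hp.2⟩
  have hφ : ∀ s, P.s1 < s → ∀ x ∈ Ioo (0 : ℝ) 1,
      x * (1 - x) * (1 + x * (1 - x) * q s x) = x * (1 - x) + xi (P.U s) x := fun s hs x hx => by
    rw [(he s hs x hx).1]
    ring
  refine geo T P.a hT0 P.a_pos (fun t => q (σ t)) (fun t => Sc (σ t)) (hq.comp hc hm) (hS.comp hc hm)
    (fun t ht x hx => ?_) (fun t ht x hx => ?_) (fun t ht x hx => ?_) ?_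
  · rcases hx.1.eq_or_lt with rfl | h0
    · simp
    rcases hx.2.eq_or_lt with rfl | h1
    · simp
    have h2 := P.pos _ (hσ t ht).le x ⟨h0, h1⟩
    have h3 : 0 < x * (1 - x) := mul_pos h0 (sub_pos.2 h1)
    rw [(he _ (hσ t ht) x ⟨h0, h1⟩).1, sq, mul_assoc, mul_div_cancel_left₀ _ h3.ne'] at h2
    exact P.c_pos.trans_le h2
  · rw [(he _ (hσ t ht) x hx).2, final_C0 (xi_contDiffOn (P.U (σ t))) (hφ _ (hσ t ht)) hx, C0_xi _ hx]
    ring
  · have ht' : t ∈ Ico 0 T := Ioo_subset_Ico_self ht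
    have h0 : 0 < T - t := sub_pos.2 ht.2
    have h1 : HasDerivAt σ (T - t)⁻¹ t := by
      have := (((hasDerivAt_id t).const_sub T).log h0.ne').neg
      rw [neg_div, neg_neg, one_div] at this
      exact this
    have h2 := ((hd _ (hσ t ht') x hx).comp t h1).const_add (x * (1 - x))
    rw [hexp t ht.2, mul_comm (T - t), mul_assoc, mul_inv_cancel₀ h0.ne', mul_one] at h2
    refine h2.congr_of_eventuallyEq ?_
    filter_upwards [Ioo_mem_nhds ht.1 ht.2] with r hr
    exact hφ _ (hσ r (Ioo_subset_Ico_self hr)) x hx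
  · have h1 : Tendsto (fun t => T - t) (𝓝[<] T) (𝓝[>] 0) := by
      refine tendsto_nhdsWithin_iff.2 ⟨?_, ?_⟩
      · have : Tendsto (fun t => T - t) (𝓝 T) (𝓝 (T - T)) := tendsto_const_nhds.sub tendsto_id
        rw [sub_self] at this
        exact this.mono_left nhdsWithin_le_nhds
      · filter_upwards [self_mem_nhdsWithin] with t ht
        exact sub_pos.2 (mem_Iio.1 ht)
    have h2 : Tendsto σ (𝓝[<] T) atTop :=
      tendsto_neg_atBot_atTop.comp (Real.tendsto_log_nhdsGT_zero.comp h1)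
    refine (hr.comp h2).congr' ?_
    filter_upwards [self_mem_nhdsWithin] with t ht
    rw [← hexp t ht, ← Real.exp_half, neg_div]
    rfl

end Crest.Agent.R213
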