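import Crest.Agent.R213.ISp

/-! # R213 / IneqC : proofs of `poincare` and `bxi_le` of `IIneq` -/

set_option autoImplicit false

open MeasureTheory Set Filter Topology
open scoped ContDiff InnerProductSpace

namespace Crest.Agent.R213

namespace IneqC

/-! ## continuity of weighted integrals on `L²` -/

theorem cont_lin {w : ℝ → ℝ} (hw : MemLp w 2 ν) :
    Continuous fun h : L2 => ∫ x, w x * h x ∂ν := by
  have : (fun h : L2 => ∫ x, w x * h x ∂ν) = fun h : L2 => ⟪hw.toLp w, h⟫_ℝ := by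
    funext h
    rw [L2.inner_def]
    apply integral_congr_ae
    filter_upwards [hw.coeFn_toLp] with x hx
    rw [hx]
    simp [mul_comm]
  rw [this]
  exact continuous_const.inner continuous_id

theorem cont_quad {w : ℝ → ℝ} (hw : AEStronglyMeasurable w ν) {M : ℝ}
    (hb : ∀ᵐ x ∂ν, ‖w x‖ ≤ M) :
    Continuous fun h : L2 => ∫ x, w x * h x ^ 2 ∂ν := by
  have hw' : MemLp w ⊤ ν := memLp_top_of_bound hw M hb
  let B : L2 →L[ℝ] L2 := (ContinuousLinearMap.mul ℝ ℝ).holderL ν ⊤ 2 2 (hw'.toLp w)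
  have : (fun h : L2 => ∫ x, w x * h x ^ 2 ∂ν) = fun h : L2 => ⟪B h, h⟫_ℝ := by
    funext h
    rw [L2.inner_def]
    apply integral_congr_ae
    have h1 : (B h : ℝ → ℝ) =ᵐ[ν] fun x => (ContinuousLinearMap.mul ℝ ℝ) ((hw'.toLp w) x) (h x) :=
      (ContinuousLinearMap.mul ℝ ℝ).coeFn_holder (r := 2) (hw'.toLp w) h
    filter_upwards [hw'.coeFn_toLp, h1] with x hx hx1
    rw [hx1, hx]
    simp
    ring
  rw [this]
  exact B.continuous.inner continuous_id

theorem cont_e (i : Fin 3) : Continuous fun u : VV => u.e i := by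
  have h1 : Continuous fun u : VV => u.e := VV.eL.continuous
  have h2 : Continuous fun v : E3 => v i := (PiLp.continuous_apply 2 (fun _ : Fin 3 => L2) i)
  exact h2.comp h1

theorem ii_eq {p q : ℝ} (hp : 0 < p) (hpq : p < q) (hq : q < 1) (F : ℝ → ℝ) :
    ∫ x in p..q, F x = ∫ x, indicator (Ioc p q) F x ∂ν := by
  rw [intervalIntegral.integral_of_le hpq.le, setIntegral_indicator measurableSet_Ioc]
  congr 2
  ext x
  simp only [mem_inter_iff, mem_Ioo, mem_Ioc]
  constructor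
  · intro h
    exact ⟨⟨by linarith [h.1], by linarith [h.2]⟩, h⟩
  · intro h
    exact h.2

theorem ind_bdd {p q : ℝ} {w : ℝ → ℝ} (hw : ContinuousOn w (Icc p q)) :
    AEStronglyMeasurable (indicator (Ioc p q) w) ν ∧ ∃ M, ∀ x, ‖indicator (Ioc p q) w x‖ ≤ M := by
  constructor
  · apply AEStronglyMeasurable.restrict
    rw [aestronglyMeasurable_indicator_iff measurableSet_Ioc]
    exact (hw.mono Ioc_subset_Icc_self).aestronglyMeasurable measurableSet_Ioc
  · obtain ⟨M, hM⟩ := isCompact_Icc.exists_bound_of_continuousOn hw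
    refine ⟨max M 0, fun x => ?_⟩
    by_cases hx : x ∈ Ioc p q
    · rw [indicator_of_mem hx]
      exact (hM x (Ioc_subset_Icc_self hx)).trans (le_max_left _ _)
    · rw [indicator_of_notMem hx]
      simp

theorem cont_ii_quad {p q : ℝ} (hp : 0 < p) (hpq : p < q) (hq : q < 1) {w : ℝ → ℝ}
    (hw : ContinuousOn w (Icc p q)) :
    Continuous fun h : L2 => ∫ x in p..q, w x * h x ^ 2 := by
  obtain ⟨h1, M, hM⟩ := ind_bdd hw
  have := cont_quad h1 (Eventually.of_forall hM)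
  convert this using 2 with h
  rw [ii_eq hp hpq hq]
  congr 1
  funext x
  by_cases hx : x ∈ Ioc p q
  · simp only [indicator_of_mem hx]
  · simp only [indicator_of_notMem hx, zero_mul]

theorem cont_ii_lin {p q : ℝ} (hp : 0 < p) (hpq : p < q) (hq : q < 1) {w : ℝ → ℝ}
    (hw : ContinuousOn w (Icc p q)) :
    Continuous fun h : L2 => ∫ x in p..q, w x * h x := by
  obtain ⟨h1, M, hM⟩ := ind_bdd hw
  have h2 : MemLp (indicator (Ioc p q) w) 2 ν :=
    MemLp.of_bound h1 M (Eventually.of_forall hM)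
  have := cont_lin h2
  convert this using 2 with h
  rw [ii_eq hp hpq hq]
  congr 1
  funext x
  by_cases hx : x ∈ Ioc p q
  · simp only [indicator_of_mem hx]
  · simp only [indicator_of_notMem hx, zero_mul]

theorem ii_congr {p q : ℝ} (hp : 0 < p) (hpq : p < q) (hq : q < 1) {F G : ℝ → ℝ}
    (h : F =ᵐ[ν] G) : ∫ x in p..q, F x = ∫ x in p..q, G x := by
  rw [ii_eq hp hpq hq, ii_eq hp hpq hq]
  apply integral_congr_ae
  filter_upwards [h] with x hx
  by_cases hx' : x ∈ Ioc p q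
  · simp only [indicator_of_mem hx', hx]
  · simp only [indicator_of_notMem hx']

/-! ## the classical Poincaré inequality -/

theorem cs_abs {p q : ℝ} (hpq : p < q) {g : ℝ → ℝ} (hg : Continuous g) :
    (∫ x in p..q, |g x|) ^ 2 ≤ (q - p) * ∫ x in p..q, g x ^ 2 := by
  set J := ∫ x in p..q, |g x| with hJ
  set c := J / (q - p) with hc
  have hl : 0 < q - p := by linarith
  have h0 : 0 ≤ ∫ x in p..q, (|g x| - c) ^ 2 :=
    intervalIntegral.integral_nonneg hpq.le (fun x _ => sq_nonneg _)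
  have h1 : ∫ x in p..q, (|g x| - c) ^ 2 =
      (∫ x in p..q, g x ^ 2) - 2 * c * J + c ^ 2 * (q - p) := by
    have e : (fun x => (|g x| - c) ^ 2) = fun x => (g x ^ 2 - 2 * c * |g x|) + c ^ 2 := by
      funext x
      have : |g x| ^ 2 = g x ^ 2 := sq_abs _
      nlinarith
    have i1 : IntervalIntegrable (fun x => g x ^ 2) volume p q :=
      (hg.pow 2).intervalIntegrable _ _
    have i2 : IntervalIntegrable (fun x => 2 * c * |g x|) volume p q :=
      (continuous_const.mul hg.abs).intervalIntegrable _ _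
    rw [e, intervalIntegral.integral_add (i1.sub i2) intervalIntegrable_const,
      intervalIntegral.integral_sub i1 i2, intervalIntegral.integral_const_mul,
      intervalIntegral.integral_const, smul_eq_mul]
    ring
  rw [h1] at h0
  have h2 : c * (q - p) = J := by rw [hc]; field_simp
  have h3 : J ^ 2 = c * J * (q - p) := by rw [← h2]; ring
  have h4 : c * J ≤ ∫ x in p..q, g x ^ 2 := by
    have : c ^ 2 * (q - p) = c * J := by rw [← h2]; ring
    linarith
  rw [h3]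
  nlinarith

theorem poincare_c1 {f : ℝ → ℝ} (hf : ContDiff ℝ 1 f) {p q : ℝ} (hpq : p < q) {β : ℝ → ℝ}
    (hβ : ContinuousOn β (Icc p q)) (hβ0 : ∀ x ∈ Icc p q, 0 ≤ β x) (hm : 0 < ∫ x in p..q, β x) :
    ∫ x in p..q, f x ^ 2 ≤ 2 * (q - p) ^ 2 * (∫ x in p..q, deriv f x ^ 2) +
      2 * (q - p) * ((∫ x in p..q, β x * f x) / ∫ x in p..q, β x) ^ 2 := by
  have hfc : Continuous f := hf.continuous
  have hd : Continuous (deriv f) := hf.continuous_deriv le_rfl
  have hdiff : Differentiable ℝ f := hf.differentiable (by norm_num)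
  set J := ∫ x in p..q, |deriv f x| with hJ
  set m := ∫ x in p..q, β x with hmdef
  set a := (∫ x in p..q, β x * f x) / m with ha
  have hl : 0 < q - p := by linarith
  have habs : IntervalIntegrable (fun x => |deriv f x|) volume p q := hd.abs.intervalIntegrable _ _
  have hosc0 : ∀ x ∈ Icc p q, ∀ z ∈ Icc p q, z ≤ x → |f x - f z| ≤ J := by
    intro x hx z hz hzx
    have e : ∫ t in z..x, deriv f t = f x - f z :=
      intervalIntegral.integral_deriv_eq_sub (fun t _ => hdiff t) (hd.intervalIntegrable _ _)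
    rw [← e]
    calc |∫ t in z..x, deriv f t| ≤ ∫ t in z..x, |deriv f t| :=
          intervalIntegral.abs_integral_le_integral_abs hzx
      _ ≤ J := intervalIntegral.integral_mono_interval hz.1 hzx hx.2
          (Eventually.of_forall fun t => abs_nonneg _) habs
  have hosc : ∀ x ∈ Icc p q, ∀ z ∈ Icc p q, |f x - f z| ≤ J := by
    intro x hx z hz
    rcases le_total z x with h | h
    · exact hosc0 x hx z hz h
    · rw [abs_sub_comm]
      exact hosc0 z hz x hx h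
  have hβi : IntervalIntegrable β volume p q :=
    (hβ.mono (by rw [uIcc_of_le hpq.le])).intervalIntegrable
  have hβf : IntervalIntegrable (fun x => β x * f x) volume p q :=
    ((hβ.mul hfc.continuousOn).mono (by rw [uIcc_of_le hpq.le])).intervalIntegrable
  have havg : ∀ x ∈ Icc p q, |f x - a| ≤ J := by
    intro x hx
    have i1 : ∀ c : ℝ, IntervalIntegrable (fun z => c * β z) volume p q := fun c => hβi.const_mul c
    have up : ∫ z in p..q, β z * f z ≤ ∫ z in p..q, (f x + J) * β z := by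
      apply intervalIntegral.integral_mono_on hpq.le hβf (i1 _)
      intro z hz
      have := abs_le.1 (hosc x hx z hz)
      have := hβ0 z hz
      nlinarith
    have lo : ∫ z in p..q, (f x - J) * β z ≤ ∫ z in p..q, β z * f z := by
      apply intervalIntegral.integral_mono_on hpq.le (i1 _) hβf
      intro z hz
      have := abs_le.1 (hosc x hx z hz)
      have := hβ0 z hz
      nlinarith
    rw [intervalIntegral.integral_const_mul] at up lo
    have up' : a ≤ f x + J := by rw [ha, div_le_iff₀ hm]; exact up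
    have lo' : f x - J ≤ a := by rw [ha, le_div_iff₀ hm]; exact lo
    rw [abs_le]
    constructor <;> linarith
  have hpt : ∫ x in p..q, f x ^ 2 ≤ ∫ _x in p..q, (2 * J ^ 2 + 2 * a ^ 2) := by
    apply intervalIntegral.integral_mono_on hpq.le ((hfc.pow 2).intervalIntegrable _ _)
      intervalIntegrable_const
    intro x hx
    have h1 := havg x hx
    have h2 : (f x - a) ^ 2 ≤ J ^ 2 := by
      rw [← sq_abs (f x - a)]
      exact pow_le_pow_left₀ (abs_nonneg _) h1 2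
    show f x ^ 2 ≤ _
    nlinarith [sq_nonneg (f x - 2 * a)]
  rw [intervalIntegral.integral_const, smul_eq_mul] at hpt
  have hcs := cs_abs hpq hd
  rw [← hJ] at hcs
  nlinarith

theorem poincare' (u : VV) {p q : ℝ} (hp : 0 < p) (hpq : p < q) (hq : q < 1) {β : ℝ → ℝ}
    (hβ : ContinuousOn β (Icc p q)) (hβ0 : ∀ x ∈ Icc p q, 0 ≤ β x) (hm : 0 < ∫ x in p..q, β x) :
    ∫ x in p..q, d0 u x ^ 2 ≤ 2 * (q - p) ^ 2 * (∫ x in p..q, d1 u x ^ 2) +
      2 * (q - p) * ((∫ x in p..q, β x * d0 u x) / ∫ x in p..q, β x) ^ 2 := by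
  have c0 : Continuous fun u : VV => ∫ x in p..q, d0 u x ^ 2 := by
    have := (cont_ii_quad hp hpq hq (w := fun x => (x * (1 - x) ^ 2) ^ 2) (by fun_prop)).comp
      (cont_e 0)
    convert this using 2 with u
    simp only [Function.comp, d0]
    congr 1
    funext x
    ring
  have c1 : Continuous fun u : VV => ∫ x in p..q, d1 u x ^ 2 := by
    have := (cont_ii_quad hp hpq hq (w := fun x => (1 - x) ^ 2) (by fun_prop)).comp
      (cont_e 1)
    convert this using 2 with u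
    simp only [Function.comp, d1]
    congr 1
    funext x
    ring
  have c2 : Continuous fun u : VV => ∫ x in p..q, β x * d0 u x := by
    have := (cont_ii_lin hp hpq hq (w := fun x => β x * (x * (1 - x) ^ 2))
      (hβ.mul (by fun_prop))).comp (cont_e 0)
    convert this using 2 with u
    simp only [Function.comp, d0]
    congr 1
    funext x
    ring
  refine V_ind (P := fun u => ∫ x in p..q, d0 u x ^ 2 ≤
      2 * (q - p) ^ 2 * (∫ x in p..q, d1 u x ^ 2) +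
      2 * (q - p) * ((∫ x in p..q, β x * d0 u x) / ∫ x in p..q, β x) ^ 2) ?_ ?_ u
  · exact isClosed_le c0 ((continuous_const.mul c1).add
      (continuous_const.mul ((c2.div_const _).pow 2)))
  · intro u f hf hu
    obtain ⟨e0, e1, -⟩ := hu.d
    have r0 : ∫ x in p..q, d0 u x ^ 2 = ∫ x in p..q, f x ^ 2 :=
      ii_congr hp hpq hq (by filter_upwards [e0] with x hx; rw [hx])
    have r1 : ∫ x in p..q, d1 u x ^ 2 = ∫ x in p..q, deriv f x ^ 2 :=
      ii_congr hp hpq hq (by filter_upwards [e1] with x hx; rw [hx])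
    have r2 : ∫ x in p..q, β x * d0 u x = ∫ x in p..q, β x * f x :=
      ii_congr hp hpq hq (by filter_upwards [e0] with x hx; rw [hx])
    rw [r0, r1, r2]
    exact poincare_c1 (hf.1.of_le (by norm_num)) hpq hβ hβ0 hm

/-! ## the term `bξ` -/

/-- the local density of the norm near `0`. -/
noncomputable def nn (u : VV) (x : ℝ) : ℝ := (d0 u x / x) ^ 2 + d1 u x ^ 2 + (x * d2 u x) ^ 2

theorem nn_nonneg (u : VV) (x : ℝ) : 0 ≤ nn u x := by
  unfold nn
  positivity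

theorem alg14 {P0 P1 P2 w A B C : ℝ} (h0 : |P0| ≤ w) (h1 : |P1| ≤ w) (h2 : |P2| ≤ w) :
    (P0 * A) ^ 2 + (P0 * B + P1 * A) ^ 2 + (P0 * C + 2 * P1 * B + P2 * A) ^ 2 ≤
      14 * w ^ 2 * (A ^ 2 + B ^ 2 + C ^ 2) := by
  have s0 : P0 ^ 2 ≤ w ^ 2 := by rw [← sq_abs P0]; exact pow_le_pow_left₀ (abs_nonneg _) h0 2
  have s1 : P1 ^ 2 ≤ w ^ 2 := by rw [← sq_abs P1]; exact pow_le_pow_left₀ (abs_nonneg _) h1 2
  have s2 : P2 ^ 2 ≤ w ^ 2 := by rw [← sq_abs P2]; exact pow_le_pow_left₀ (abs_nonneg _) h2 2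
  have a0 : P0 ^ 2 * A ^ 2 ≤ w ^ 2 * A ^ 2 := mul_le_mul_of_nonneg_right s0 (sq_nonneg _)
  have a1 : P1 ^ 2 * A ^ 2 ≤ w ^ 2 * A ^ 2 := mul_le_mul_of_nonneg_right s1 (sq_nonneg _)
  have a2 : P2 ^ 2 * A ^ 2 ≤ w ^ 2 * A ^ 2 := mul_le_mul_of_nonneg_right s2 (sq_nonneg _)
  have b0 : P0 ^ 2 * B ^ 2 ≤ w ^ 2 * B ^ 2 := mul_le_mul_of_nonneg_right s0 (sq_nonneg _)
  have b1 : P1 ^ 2 * B ^ 2 ≤ w ^ 2 * B ^ 2 := mul_le_mul_of_nonneg_right s1 (sq_nonneg _)
  have c0 : P0 ^ 2 * C ^ 2 ≤ w ^ 2 * C ^ 2 := mul_le_mul_of_nonneg_right s0 (sq_nonneg _)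
  have e2 : (P0 * B + P1 * A) ^ 2 ≤ 2 * (P0 ^ 2 * B ^ 2) + 2 * (P1 ^ 2 * A ^ 2) := by
    nlinarith [sq_nonneg (P0 * B - P1 * A)]
  have e3 : (P0 * C + 2 * P1 * B + P2 * A) ^ 2 ≤
      3 * (P0 ^ 2 * C ^ 2) + 12 * (P1 ^ 2 * B ^ 2) + 3 * (P2 ^ 2 * A ^ 2) := by
    nlinarith [sq_nonneg (P0 * C - 2 * P1 * B), sq_nonneg (P0 * C - P2 * A),
      sq_nonneg (2 * P1 * B - P2 * A)]
  have wa : 0 ≤ w ^ 2 * A ^ 2 := by positivity
  have wc : 0 ≤ w ^ 2 * C ^ 2 := by positivity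
  have e1 : (P0 * A) ^ 2 = P0 ^ 2 * A ^ 2 := by ring
  have e4 : 14 * w ^ 2 * (A ^ 2 + B ^ 2 + C ^ 2) =
      14 * (w ^ 2 * A ^ 2) + 14 * (w ^ 2 * B ^ 2) + 14 * (w ^ 2 * C ^ 2) := by ring
  linarith

theorem ae_mem : ∀ᵐ x ∂ν, x ∈ Ioo (0 : ℝ) 1 := ae_restrict_mem measurableSet_Ioo

theorem nn_mul (S : Sp) {p : ℝ → ℝ} {N : ℝ} (hp : Mult p N) {w : ℝ → ℝ}
    (hw : ∀ x ∈ Ioo (0 : ℝ) 1, |p x| ≤ w x ∧ |x * deriv p x| ≤ w x ∧
      |x ^ 2 * deriv (deriv p) x| ≤ w x) (u : VV) :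
    ∀ᵐ x ∂ν, nn (S.mul p u) x ≤ 14 * w x ^ 2 * nn u x := by
  obtain ⟨e0, e1, e2⟩ := S.mul_eq p N hp u
  filter_upwards [e0, e1, e2, ae_mem] with x h0 h1 h2 hx
  obtain ⟨w0, w1, w2⟩ := hw x hx
  have hx0 : x ≠ 0 := hx.1.ne'
  have := alg14 (A := d0 u x / x) (B := d1 u x) (C := x * d2 u x) w0 w1 w2
  unfold nn
  rw [h0, h1, h2]
  convert this using 3
  · congr 1
    field_simp
  · congr 1
    field_simp
  · field_simp

theorem norm_le_nn (u : VV) {F : ℝ → ℝ} (hF : IntegrableOn F (Ioo 0 (1 / 2)))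
    (h : ∀ᵐ x ∂ν, nn u x ≤ if x ≤ 1 / 2 then F x else 0) :
    ‖u‖ ^ 2 ≤ 16 * ∫ x in Ioo (0 : ℝ) (1 / 2), F x := by
  have hF' : IntegrableOn (fun x => 16 * F x) (Ioc 0 (1 / 2)) :=
    ((integrableOn_Ioc_iff_integrableOn_Ioo (f := F)).2 hF).const_mul 16
  have hi : Integrable (indicator (Ioc (0 : ℝ) (1 / 2)) fun x => 16 * F x) ν :=
    (hF'.integrable_indicator measurableSet_Ioc).restrict
  have hv : ∫ x, indicator (Ioc (0 : ℝ) (1 / 2)) (fun x => 16 * F x) x ∂ν =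
      16 * ∫ x in Ioo (0 : ℝ) (1 / 2), F x := by
    rw [setIntegral_indicator measurableSet_Ioc]
    have : Ioo (0 : ℝ) 1 ∩ Ioc 0 (1 / 2) = Ioc 0 (1 / 2) := by
      ext x
      simp only [mem_inter_iff, mem_Ioo, mem_Ioc]
      constructor
      · intro h
        exact h.2
      · intro h
        exact ⟨⟨h.1, by linarith [h.2]⟩, h⟩
    rw [this, integral_Ioc_eq_integral_Ioo, integral_const_mul]
  rw [norm_sq_V, ← hv]
  apply integral_mono_of_nonneg (Eventually.of_forall fun x => by positivity) hi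
  filter_upwards [h, ae_mem] with x hx hx'
  have hx0 : x ≠ 0 := hx'.1.ne'
  have ht : 0 < 1 - x := by linarith [hx'.2]
  have ht1 : 1 - x ≤ 1 := by linarith [hx'.1]
  set I := (d0 u x / (x * (1 - x) ^ 2)) ^ 2 + (d1 u x / (1 - x)) ^ 2 + (x * d2 u x) ^ 2 with hI
  have hI0 : 0 ≤ I := by positivity
  have key : I * (1 - x) ^ 4 ≤ nn u x := by
    have e : I * (1 - x) ^ 4 = (d0 u x / x) ^ 2 + d1 u x ^ 2 * (1 - x) ^ 2 +
        (x * d2 u x) ^ 2 * (1 - x) ^ 4 := by
      rw [hI]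
      field_simp
    have t2 : (1 - x) ^ 2 ≤ 1 := pow_le_one₀ ht.le ht1
    have t4 : (1 - x) ^ 4 ≤ 1 := pow_le_one₀ ht.le ht1
    rw [e]
    unfold nn
    have := mul_le_of_le_one_right (sq_nonneg (d1 u x)) t2
    have := mul_le_of_le_one_right (sq_nonneg (x * d2 u x)) t4
    linarith
  by_cases hh : x ≤ 1 / 2
  · rw [if_pos hh] at hx
    rw [indicator_of_mem (show x ∈ Ioc (0 : ℝ) (1 / 2) from ⟨hx'.1, hh⟩)]
    have t4 : (1 / 2 : ℝ) ^ 4 ≤ (1 - x) ^ 4 := pow_le_pow_left₀ (by norm_num) (by linarith) 4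
    have := mul_le_mul_of_nonneg_left t4 hI0
    linarith
  · rw [if_neg hh] at hx
    rw [indicator_of_notMem (show x ∉ Ioc (0 : ℝ) (1 / 2) from fun h => hh h.2)]
    have t4 : 0 < (1 - x) ^ 4 := by positivity
    by_contra hc
    have := mul_pos (not_le.1 hc) t4
    linarith

theorem wh_den_pos (s x : ℝ) : 0 < 1 + x ^ 2 * Real.exp s := by positivity

theorem wh_pos (s x : ℝ) : 0 < wh s x := one_div_pos.2 (wh_den_pos s x)

theorem wh_id (s x : ℝ) : x ^ 2 * Real.exp s * wh s x = 1 - wh s x := by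
  have := (wh_den_pos s x).ne'
  unfold wh
  field_simp
  ring

theorem wh_le_one (s x : ℝ) : wh s x ≤ 1 := by
  have h := wh_id s x
  have : 0 ≤ x ^ 2 * Real.exp s * wh s x := by
    have := wh_pos s x
    positivity
  linarith

theorem wh_cont (s : ℝ) : Continuous (wh s) := by
  unfold wh
  exact continuous_const.div (by fun_prop) fun x => (wh_den_pos s x).ne'

theorem wh_anti (s : ℝ) (j : ℕ) : AntitoneOn (fun x => wh s x ^ j) (Ici 0) := by
  intro x hx y _ hxy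
  apply pow_le_pow_left₀ (wh_pos s y).le
  unfold wh
  apply one_div_le_one_div_of_le (wh_den_pos s x)
  have : x ^ 2 ≤ y ^ 2 := pow_le_pow_left₀ hx hxy 2
  have := mul_le_mul_of_nonneg_right this (Real.exp_pos s).le
  linarith

theorem wh_hasDerivAt (s x : ℝ) :
    HasDerivAt (wh s) (-(2 * x * Real.exp s * wh s x ^ 2)) x := by
  have h1 : HasDerivAt (fun x : ℝ => 1 + x ^ 2 * Real.exp s) (2 * x * Real.exp s) x := by
    have := ((hasDerivAt_pow 2 x).mul_const (Real.exp s)).const_add 1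
    simpa using this
  have h2 := h1.inv (wh_den_pos s x).ne'
  have e : wh s = fun x => (1 + x ^ 2 * Real.exp s)⁻¹ := by
    funext y
    simp [wh]
  have hne := (wh_den_pos s x).ne'
  have h3 : -(2 * x * Real.exp s * wh s x ^ 2) =
      -(2 * x * Real.exp s) / (1 + x ^ 2 * Real.exp s) ^ 2 := by
    unfold wh
    field_simp
  rw [h3, e]
  exact h2

theorem deriv_wh (s : ℝ) : deriv (wh s) = fun x => -(2 * x * Real.exp s * wh s x ^ 2) := by
  funext x
  exact (wh_hasDerivAt s x).deriv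

theorem deriv2_wh (s x : ℝ) : deriv (deriv (wh s)) x =
    -(2 * Real.exp s * wh s x ^ 2) + 8 * x ^ 2 * Real.exp s ^ 2 * wh s x ^ 3 := by
  rw [deriv_wh]
  have h1 : HasDerivAt (fun x : ℝ => 2 * x * Real.exp s) (2 * Real.exp s) x := by
    have := ((hasDerivAt_id x).const_mul 2).mul_const (Real.exp s)
    simpa using this
  have h2 : HasDerivAt (fun y => wh s y ^ 2)
      (2 * wh s x * -(2 * x * Real.exp s * wh s x ^ 2)) x := by
    have := (wh_hasDerivAt s x).fun_pow 2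
    simpa using this
  have h3 := (h1.mul h2).neg
  have h4 : HasDerivAt (fun x => -(2 * x * Real.exp s * wh s x ^ 2))
      (-(2 * Real.exp s * wh s x ^ 2 +
        2 * x * Real.exp s * (2 * wh s x * -(2 * x * Real.exp s * wh s x ^ 2)))) x := h3
  rw [h4.deriv]
  ring

theorem wh_bd (s x : ℝ) : |wh s x| ≤ 8 * wh s x ∧ |x * deriv (wh s) x| ≤ 8 * wh s x ∧
    |x ^ 2 * deriv (deriv (wh s)) x| ≤ 8 * wh s x := by
  have h0 := wh_pos s x
  have h1 := wh_le_one s x
  have hid := wh_id s x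
  refine ⟨?_, ?_, ?_⟩
  · rw [abs_of_pos h0]
    linarith
  · have e : x * deriv (wh s) x = -(2 * (1 - wh s x) * wh s x) := by
      rw [deriv_wh, ← hid]
      ring
    rw [e, abs_le]
    constructor <;> nlinarith
  · have e : x ^ 2 * deriv (deriv (wh s)) x =
        (-(2 * (1 - wh s x)) + 8 * (1 - wh s x) ^ 2) * wh s x := by
      rw [deriv2_wh, ← hid]
      ring
    have b1 : -(2 * (1 - wh s x)) + 8 * (1 - wh s x) ^ 2 ≤ 8 := by nlinarith
    have b2 : -8 ≤ -(2 * (1 - wh s x)) + 8 * (1 - wh s x) ^ 2 := by nlinarith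
    rw [e, abs_le]
    constructor <;> nlinarith

theorem far0 {p : ℝ → ℝ} (h : ∀ x, 1 / 2 ≤ x → p x = 0) {x : ℝ} (hx : 1 / 2 < x) :
    p x = 0 ∧ deriv p x = 0 ∧ deriv (deriv p) x = 0 := by
  have e : p =ᶠ[𝓝 x] fun _ => (0 : ℝ) := by
    filter_upwards [Ioi_mem_nhds hx] with y hy
    exact h y (le_of_lt hy)
  refine ⟨h x hx.le, ?_, ?_⟩
  · rw [e.deriv_eq]
    simp
  · rw [e.deriv.deriv_eq]
    simp

theorem b_bd' (A : Apx) {s : ℝ} (hs : 0 ≤ s) : ∀ x ∈ Ioo (0 : ℝ) 1,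
    |A.b s x| ≤ (if x ≤ 1 / 2 then A.C * Real.exp s * wh s x else 0) ∧
    |x * deriv (A.b s) x| ≤ (if x ≤ 1 / 2 then A.C * Real.exp s * wh s x else 0) ∧
    |x ^ 2 * deriv (deriv (A.b s)) x| ≤ (if x ≤ 1 / 2 then A.C * Real.exp s * wh s x else 0) := by
  intro x hx
  by_cases hh : x ≤ 1 / 2
  · simp only [if_pos hh]
    have e : A.C * Real.exp s * wh s x = A.C / (x ^ 2 + Real.exp (-s)) := by
      have h1 := (wh_den_pos s x).ne'
      have h2 := (Real.exp_pos s).ne'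
      have h3 : x ^ 2 * Real.exp s + 1 ≠ 0 := by positivity
      unfold wh
      rw [Real.exp_neg]
      field_simp
      ring
    rw [e]
    exact A.b_bd s hs x hx
  · simp only [if_neg hh]
    obtain ⟨h0, h1, h2⟩ := far0 (p := A.b s) (fun y hy => (A.far s y hy).2.1) (not_le.1 hh)
    rw [h0, h1, h2]
    simp

theorem b_mult (A : Apx) (s : ℝ) : ∃ N, Mult (A.b s) N := by
  apply mult_of_contDiff
  have : ContDiff ℝ ∞ (A.b s) := A.smb.comp (contDiff_const.prodMk contDiff_id)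
  exact this.of_le (by norm_cast)

theorem bxi_le' (S : Sp) (A : Apx) (N : Anc)
    (hardy : ∃ C : ℝ, 0 < C ∧ ∀ j : ℕ, (j = 2 ∨ j = 3) → ∀ s, 4 ≤ s → ∀ h : L2,
      IntegrableOn (fun x => wh s x ^ j * (sig h x ^ 2 + (x * sig1 h x) ^ 2)) (Ioo 0 (1 / 2)) →
      ∫ x in Ioo (0 : ℝ) (1 / 2), wh s x ^ j * (sig h x ^ 2 + (x * sig1 h x) ^ 2) ≤
        C * ((∫ x in Ioo (0 : ℝ) 1, wh s x ^ j * h x ^ 2) +
          lam s * (N.al 0 s h ^ 2 + N.al 1 s h ^ 2)))
    (hint : ∀ (j : ℕ) (s : ℝ) (h : L2),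
      IntegrableOn (fun x => wh s x ^ j * (sig h x ^ 2 + (x * sig1 h x) ^ 2)) (Ioo 0 (1 / 2))) :
    ∃ C : ℝ, 0 < C ∧ ∀ s, 4 ≤ s → ∀ h : L2,
    Real.exp (-s) * ‖S.mul (wh s) (S.mul (A.b s) (S.T.G h))‖ ^ 2 ≤
      C * ((∫ x in Ioo (0 : ℝ) 1, wh s x ^ 3 * h x ^ 2) +
        lam s * (N.al 0 s h ^ 2 + N.al 1 s h ^ 2)) ∧
    Real.exp (-s) * ‖S.mul (A.b s) (S.T.G h)‖ ^ 2 ≤ C * Real.exp s * N.En s h := by
  obtain ⟨Ch, hCh, hH⟩ := hardy
  obtain ⟨Cx, hCx, hX⟩ := xi_wbound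
  refine ⟨200704 * (A.C ^ 2 + 1) * Cx * Ch, by positivity, fun s hs h => ?_⟩
  have hs0 : 0 ≤ s := by linarith
  obtain ⟨Nb, hNb⟩ := b_mult A s
  have hE := Real.exp_pos s
  have hEE : Real.exp (-s) * Real.exp s = 1 := by rw [← Real.exp_add]; simp
  set Xi : ℝ → ℝ := fun x => (xi h x / x) ^ 2 + deriv (xi h) x ^ 2 +
    (x * deriv (deriv (xi h)) x) ^ 2 with hXi
  have hG : ∀ᵐ x ∂ν, nn (S.T.G h) x = Xi x := by
    obtain ⟨e0, e1, e2⟩ := (S.G_rep h).d
    filter_upwards [e0, e1, e2] with x h0 h1 h2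
    simp only [nn, hXi, h0, h1, h2]
  have hb := nn_mul S hNb (b_bd' A hs0) (S.T.G h)
  have hb' : ∀ᵐ x ∂ν, nn (S.mul (A.b s) (S.T.G h)) x ≤ if x ≤ 1 / 2 then
      (14 * A.C ^ 2 * Real.exp s ^ 2) * (wh s x ^ 2 * Xi x) else 0 := by
    filter_upwards [hb, hG] with x h1 h2
    rw [h2] at h1
    by_cases hh : x ≤ 1 / 2
    · simp only [if_pos hh] at h1 ⊢
      convert h1 using 1
      ring
    · simp only [if_neg hh] at h1 ⊢
      simpa using h1
  have hw := nn_mul S (mult_wh s) (w := fun x => 8 * wh s x) (fun x _ => wh_bd s x)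
    (S.mul (A.b s) (S.T.G h))
  have hw' : ∀ᵐ x ∂ν, nn (S.mul (wh s) (S.mul (A.b s) (S.T.G h))) x ≤ if x ≤ 1 / 2 then
      (12544 * A.C ^ 2 * Real.exp s ^ 2) * (wh s x ^ 4 * Xi x) else 0 := by
    filter_upwards [hb', hw] with x h1 h2
    have h3 := mul_le_mul_of_nonneg_left h1 (show 0 ≤ 14 * (8 * wh s x) ^ 2 by positivity)
    refine h2.trans (h3.trans (le_of_eq ?_))
    by_cases hh : x ≤ 1 / 2
    · simp only [if_pos hh]
      ring
    · simp only [if_neg hh, mul_zero]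
  have hXj := fun j : ℕ => hX h (fun x => wh s x ^ j) (1 / 2) (by norm_num) le_rfl
    ((wh_cont s).pow j) (fun x => pow_nonneg (wh_pos s x).le j) (wh_anti s j)
  have hal : 0 ≤ lam s * (N.al 0 s h ^ 2 + N.al 1 s h ^ 2) := by
    have : 0 < lam s := Real.exp_pos _
    positivity
  constructor
  · obtain ⟨i1, i2, i3⟩ := hXj 4
    have n1 := norm_le_nn _ (i1.const_mul (12544 * A.C ^ 2 * Real.exp s ^ 2)) hw'
    rw [integral_const_mul] at n1
    have n2 : Real.exp s * ∫ x in Ioo (0 : ℝ) (1 / 2), wh s x ^ 4 * (x * sig h x) ^ 2 ≤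
        ∫ x in Ioo (0 : ℝ) (1 / 2), wh s x ^ 3 * (sig h x ^ 2 + (x * sig1 h x) ^ 2) := by
      rw [← integral_const_mul]
      apply setIntegral_mono_on (i2.const_mul _) (hint 3 s h) measurableSet_Ioo
      intro x _
      have w0 := wh_pos s x
      have e : Real.exp s * (wh s x ^ 4 * (x * sig h x) ^ 2) =
          (1 - wh s x) * (wh s x ^ 3 * sig h x ^ 2) := by
        rw [← wh_id]
        ring
      have p1 : 0 ≤ wh s x ^ 3 * sig h x ^ 2 := by positivity
      have p2 : 0 ≤ wh s x ^ 3 * (x * sig1 h x) ^ 2 := by positivity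
      have p3 : 0 ≤ wh s x * (wh s x ^ 3 * sig h x ^ 2) := by positivity
      rw [e]
      nlinarith
    have n3 := hH 3 (Or.inr rfl) s hs h (hint 3 s h)
    set R := (∫ x in Ioo (0 : ℝ) 1, wh s x ^ 3 * h x ^ 2) +
      lam s * (N.al 0 s h ^ 2 + N.al 1 s h ^ 2) with hR
    have hR0 : 0 ≤ R := by
      have : 0 ≤ ∫ x in Ioo (0 : ℝ) 1, wh s x ^ 3 * h x ^ 2 :=
        integral_nonneg fun x => mul_nonneg (pow_nonneg (wh_pos s x).le 3) (sq_nonneg _)
      linarith
    set I1 := ∫ x in Ioo (0 : ℝ) (1 / 2), wh s x ^ 4 * Xi x with hI1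
    set I2 := ∫ x in Ioo (0 : ℝ) (1 / 2), wh s x ^ 4 * (x * sig h x) ^ 2 with hI2
    have i3' : I1 ≤ Cx * I2 := i3
    have n4 : Real.exp s * I2 ≤ Ch * R := n2.trans n3
    calc Real.exp (-s) * ‖S.mul (wh s) (S.mul (A.b s) (S.T.G h))‖ ^ 2
        ≤ Real.exp (-s) * (16 * (12544 * A.C ^ 2 * Real.exp s ^ 2 * I1)) :=
          mul_le_mul_of_nonneg_left n1 (Real.exp_pos _).le
      _ = (Real.exp (-s) * Real.exp s) * (200704 * A.C ^ 2 * Real.exp s) * I1 := by ring
      _ = (200704 * A.C ^ 2 * Real.exp s) * I1 := by rw [hEE, one_mul]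
      _ ≤ (200704 * A.C ^ 2 * Real.exp s) * (Cx * I2) :=
          mul_le_mul_of_nonneg_left i3' (by positivity)
      _ = (200704 * A.C ^ 2 * Cx) * (Real.exp s * I2) := by ring
      _ ≤ (200704 * A.C ^ 2 * Cx) * (Ch * R) := mul_le_mul_of_nonneg_left n4 (by positivity)
      _ ≤ 200704 * (A.C ^ 2 + 1) * Cx * Ch * R := by
          have : 0 ≤ 200704 * Cx * Ch * R := by positivity
          nlinarith
  · obtain ⟨i1, i2, i3⟩ := hXj 2
    have n1 := norm_le_nn _ (i1.const_mul (14 * A.C ^ 2 * Real.exp s ^ 2)) hb'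
    rw [integral_const_mul] at n1
    have n2 : ∫ x in Ioo (0 : ℝ) (1 / 2), wh s x ^ 2 * (x * sig h x) ^ 2 ≤
        ∫ x in Ioo (0 : ℝ) (1 / 2), wh s x ^ 2 * (sig h x ^ 2 + (x * sig1 h x) ^ 2) := by
      apply setIntegral_mono_on i2 (hint 2 s h) measurableSet_Ioo
      intro x hx
      apply mul_le_mul_of_nonneg_left _ (sq_nonneg _)
      have x2 : x ^ 2 ≤ 1 := pow_le_one₀ hx.1.le (by linarith [hx.2])
      have := mul_le_of_le_one_left (sq_nonneg (sig h x)) x2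
      nlinarith [sq_nonneg (x * sig1 h x)]
    have n3 := hH 2 (Or.inl rfl) s hs h (hint 2 s h)
    have hEn : N.En s h = (∫ x in Ioo (0 : ℝ) 1, wh s x ^ 2 * h x ^ 2) +
        lam s * (N.al 0 s h ^ 2 + N.al 1 s h ^ 2) := by
      unfold Anc.En
      simp only [mul_pow]
    rw [← hEn] at n3
    have hR0 : 0 ≤ N.En s h := by
      have : 0 ≤ ∫ x in Ioo (0 : ℝ) 1, wh s x ^ 2 * h x ^ 2 :=
        integral_nonneg fun x => mul_nonneg (sq_nonneg _) (sq_nonneg _)
      linarith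
    set I1 := ∫ x in Ioo (0 : ℝ) (1 / 2), wh s x ^ 2 * Xi x with hI1
    set I2 := ∫ x in Ioo (0 : ℝ) (1 / 2), wh s x ^ 2 * (x * sig h x) ^ 2 with hI2
    have i3' : I1 ≤ Cx * I2 := i3
    have n4 : I2 ≤ Ch * N.En s h := n2.trans n3
    calc Real.exp (-s) * ‖S.mul (A.b s) (S.T.G h)‖ ^ 2
        ≤ Real.exp (-s) * (16 * (14 * A.C ^ 2 * Real.exp s ^ 2 * I1)) :=
          mul_le_mul_of_nonneg_left n1 (Real.exp_pos _).le
      _ = (Real.exp (-s) * Real.exp s) * (224 * A.C ^ 2 * Real.exp s) * I1 := by ring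
      _ = (224 * A.C ^ 2 * Real.exp s) * I1 := by rw [hEE, one_mul]
      _ ≤ (224 * A.C ^ 2 * Real.exp s) * (Cx * I2) :=
          mul_le_mul_of_nonneg_left i3' (by positivity)
      _ = (224 * A.C ^ 2 * Real.exp s * Cx) * I2 := by ring
      _ ≤ (224 * A.C ^ 2 * Real.exp s * Cx) * (Ch * N.En s h) :=
          mul_le_mul_of_nonneg_left n4 (by positivity)
      _ ≤ 200704 * (A.C ^ 2 + 1) * Cx * Ch * Real.exp s * N.En s h := by
          have h1 : 0 ≤ Cx * Ch * Real.exp s * N.En s h := by positivity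
          have h2 : 0 ≤ A.C ^ 2 * (Cx * Ch * Real.exp s * N.En s h) := by positivity
          nlinarith

end IneqC

end Crest.Agent.R213
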