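import Crest.Agent.R213.ISp
import Crest.Agent.R213.Gar3
import Crest.Agent.R213.IneqC
import Crest.Agent.R213.Har3

/-! # R213 / IIneq : weighted inequalities -/

set_option autoImplicit false

open MeasureTheory Set Filter Topology
open scoped ContDiff InnerProductSpace

namespace Crest.Agent.R213

/-- interpolation: on test functions `∫κ²u'² = -∫κ² u u'' - ∫ 2κκ' u u'`, `κ = x/(x+x0)`,
`κ² ≤ x/(x+x0)`, `κ' ≤ 1/(x+x0)`; then `V_ind`. -/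
theorem interp (δ : ℝ) (hδ : 0 < δ) : ∃ C : ℝ, 0 < C ∧ ∀ x0, 0 < x0 → ∀ u : VV,
    ∫ x in Ioo (0 : ℝ) 1, (x / (x + x0) * d1 u x) ^ 2 ≤
      δ * ‖u‖ ^ 2 + C * ∫ x in Ioo (0 : ℝ) 1, (d0 u x / (x + x0)) ^ 2 :=
  gar_interp δ hδ

/-- weighted Gårding inequality and weighted boundedness.  With `l1 = xθ'/θ`, `l2 = x²θ''/θ`:
`P(u/θ) = θ⁻¹[P u - 2 l1 u' + (2 l1² - l2 - 18 l1) u/x]`, `Q(θu) = θ[Q u + 2 l1 u' + (l2 + 4 l1) u/x]`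
(`P u = x u'' + 18u' + 72u/x`, `Q u = x u'' + 4u' + 2u/x`), pointwise a.e. from `mul_eq`; use `coer`, `interp`. -/
theorem garding (S : Sp) (L : ℝ) : ∃ c C : ℝ, 0 < c ∧ 0 < C ∧ ∀ (x0 : ℝ) (θ : ℝ → ℝ) (N N' : ℝ),
    0 < x0 → Mult θ N → Mult (fun x => 1 / θ x) N' → (∀ x ∈ Ioo (0 : ℝ) 1, 0 < θ x ∧
      |x * deriv θ x| ≤ L * (x / (x + x0)) * θ x ∧
      |x ^ 2 * deriv (deriv θ) x| ≤ L * (x / (x + x0)) * θ x) →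
    (∀ u, c * ‖u‖ ^ 2 - C * ∫ x in Ioo (0 : ℝ) 1, (d0 u x / (x + x0)) ^ 2 ≤
      S.T.a (S.mul (fun x => 1 / θ x) u) (S.mul θ u)) ∧
    ∀ p u, |S.T.a (S.mul (fun x => 1 / θ x) p) (S.mul θ u)| ≤ C * ‖p‖ * ‖u‖ :=
  gar_garding S L

/-- the two forms used: weight `1` and weight `wh²` (apply `garding` with `θ = 1/g`, `u := g u`;
`θ = wh/g`, `u := g wh u`; `θ = wh`; `τ/(x+λ)² ≤ wh`). -/
theorem garding_g (S : Sp) (A : Apx) : ∃ c C : ℝ, 0 < c ∧ 0 < C ∧ ∀ s, 0 ≤ s →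
    (∀ u, c * ‖u‖ ^ 2 - C * ∫ x in Ioo (0 : ℝ) 1, (d0 u x / (x + lam s)) ^ 2 ≤
      S.T.a (S.mul (fun x => A.g s x ^ 2) u) u) ∧
    (∀ u, c * Real.exp (-s) * ‖S.mul (wh s) u‖ ^ 2 - C * ∫ x in Ioo (0 : ℝ) 1, wh s x ^ 3 * d0 u x ^ 2 ≤
      Real.exp (-s) * S.T.a (S.mul (fun x => A.g s x ^ 2) u) (S.mul (fun x => wh s x ^ 2) u)) ∧
    (∀ p u, |S.T.a p (S.mul (fun x => wh s x ^ 2) u)| ≤ C * ‖S.mul (wh s) p‖ * ‖S.mul (wh s) u‖) ∧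
    Mult (A.g s) C ∧ Mult (fun x => 1 / A.g s x) C ∧ Mult (fun x => A.g s x ^ 2) C ∧
    Mult (fun x => 1 / A.g s x ^ 2) C :=
  gar_garding_g S A

theorem anc_exists : Nonempty Anc := by
  exact har_anc_exists

/-- anchored Hardy inequality.  In `y = x/λ`: `σ = A0 + A1 y + R`, `R y = ∫_1^y (y-r) ε̃` (`sig_taylor` at `x = λ`);
`|A_j| ≤ |α_j| + C‖ε̃‖_{L²(1,2)}`; for `y > 1`: `R² ≤ 2y^{5/2}∫_1^y r^{1/2} ε̃²` (`j = 2`), `R² ≤ y^{5/2}·C∫_1^y r^{-1/2}…`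
(`j = 3`: `R² ≤ y²∫_1^y r^{3/2} · ∫_1^y r^{-3/2}ε̃²`); for `y < 1`: `R² ≤ 2y^{-1/2}∫_y^1 r^{7/2} ε̃²`; Fubini.
`x⁴ε² = h²/(1-x)² ≤ 4h²` on `(0,1/2)`. -/
theorem hardy (N : Anc) : ∃ C : ℝ, 0 < C ∧ ∀ j : ℕ, (j = 2 ∨ j = 3) → ∀ s, 4 ≤ s → ∀ h : L2,
    IntegrableOn (fun x => wh s x ^ j * (sig h x ^ 2 + (x * sig1 h x) ^ 2)) (Ioo 0 (1 / 2)) →
    ∫ x in Ioo (0 : ℝ) (1 / 2), wh s x ^ j * (sig h x ^ 2 + (x * sig1 h x) ^ 2) ≤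
      C * ((∫ x in Ioo (0 : ℝ) 1, wh s x ^ j * h x ^ 2) +
        lam s * (N.al 0 s h ^ 2 + N.al 1 s h ^ 2)) := by
  exact har_hardy N

/-- the integrability hypothesis of `hardy` always holds (Hardy at `0`). -/
theorem hardy_int (j : ℕ) (s : ℝ) (h : L2) :
    IntegrableOn (fun x => wh s x ^ j * (sig h x ^ 2 + (x * sig1 h x) ^ 2)) (Ioo 0 (1 / 2)) := by
  exact har_hardy_int j s h

/-- the term `bξ`: `rep_mul`, `b_bd`, `far`, `xi_wbound` (`Ω = wh²/ρ²`, resp. `1/ρ²`), `hardy`. -/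
theorem bxi_le (S : Sp) (A : Apx) (N : Anc) : ∃ C : ℝ, 0 < C ∧ ∀ s, 4 ≤ s → ∀ h : L2,
    Real.exp (-s) * ‖S.mul (wh s) (S.mul (A.b s) (S.T.G h))‖ ^ 2 ≤
      C * ((∫ x in Ioo (0 : ℝ) 1, wh s x ^ 3 * h x ^ 2) +
        lam s * (N.al 0 s h ^ 2 + N.al 1 s h ^ 2)) ∧
    Real.exp (-s) * ‖S.mul (A.b s) (S.T.G h)‖ ^ 2 ≤ C * Real.exp s * N.En s h :=
  IneqC.bxi_le' S A N (hardy N) hardy_int

/-- Poincaré on an interval against a positive measure `β dx` (test functions: `|u x - u z| ≤ ∫_I |u'|`). -/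
theorem poincare (u : VV) {p q : ℝ} (hp : 0 < p) (hpq : p < q) (hq : q < 1) {β : ℝ → ℝ}
    (hβ : ContinuousOn β (Icc p q)) (hβ0 : ∀ x ∈ Icc p q, 0 ≤ β x) (hm : 0 < ∫ x in p..q, β x) :
    ∫ x in p..q, d0 u x ^ 2 ≤ 2 * (q - p) ^ 2 * (∫ x in p..q, d1 u x ^ 2) +
      2 * (q - p) * ((∫ x in p..q, β x * d0 u x) / ∫ x in p..q, β x) ^ 2 :=
  IneqC.poincare' u hp hpq hq hβ hβ0 hm

/-- `σ(0)` is controlled by the anchors and the weighted `V`-norm. -/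
theorem ell_le (S : Sp) (N : Anc) : ∃ C : ℝ, 0 < C ∧ ∀ s, 4 ≤ s → ∀ u : VV,
    lam s * S.ell u ^ 2 ≤ C * (N.En s (S.T.ι u) + Real.exp (-s) * ‖S.mul (wh s) u‖ ^ 2) := by
  exact har_ell_le S N

end Crest.Agent.R213
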