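import Crest.Agent.R213.Lin1
import Crest.Agent.R213.IEqv

/-! # R213 / Lin2 : the solution operator on the data space and the right inverse (prefix `lin_`) -/

set_option autoImplicit false

open MeasureTheory Set Filter Topology
open scoped ContDiff InnerProductSpace

namespace Crest.Agent.R213

variable {S : Sp} {A : Apx} {N : Anc}

/-- the source attached to `F`. -/
noncomputable def lin_Fo (S : Sp) (μ s1 : ℝ) (F : ℝ → VV) : ℝ → VV :=
  (Ioi s1).indicator fun s => Real.exp (-(s / 2)) • S.mul (fun x => 1 / Th μ s x) (F s)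

/-- the control attached to `G`. -/
noncomputable def lin_g {E : Type} [NormedAddCommGroup E] [NormedSpace ℝ E] (μ s0 : ℝ) (G : ℝ → E) : ℝ → E :=
  (Ioi s0).indicator fun r => Real.exp (-(μ * r)) • G r

theorem lin_exp_le {E : Type} [NormedAddCommGroup E] [NormedSpace ℝ E] {a : ℝ} (ha : 0 ≤ a) (u : E) :
    ‖Real.exp (-a) • u‖ ≤ ‖u‖ := by
  rw [norm_smul, Real.norm_of_nonneg (Real.exp_pos _).le]
  exact mul_le_of_le_one_left (norm_nonneg _) (Real.exp_le_one_iff.2 (by linarith))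

theorem lin_Fo_adm (S : Sp) (μ : ℝ) {a s1 : ℝ} (h0 : 0 ≤ a) (h1 : a ≤ s1) (F : YY s1) :
    LocAdm a (lin_Fo S μ s1 F) := by
  refine lin_adm_ind h1 ((Lp.memLp F).of_le_mul (c := 4 * 14)
    ((by fun_prop : Continuous fun s : ℝ => Real.exp (-(s / 2))).aestronglyMeasurable.smul
      (EnergyAux.aesm_apply (lin_c_inv S μ).aestronglyMeasurable (Lp.aestronglyMeasurable F)))
    ((ae_restrict_iff' measurableSet_Ioi).2 (ae_of_all _ fun s hs => ?_)))
  exact (lin_exp_le (by linarith [mem_Ioi.1 hs]) _).trans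
    ((S.mul _).le_of_opNorm_le (S.mul_le _ _ (mult_inv_Th μ s)) _)

theorem lin_Fo_le (S : Sp) (μ s1 : ℝ) (F : ℝ → VV) (r : ℝ) :
    Real.exp r * ‖lin_Fo S μ s1 F r‖ ^ 2 +
      Real.exp (2 * μ * r) * (Real.exp r * ‖S.mul (wh r) (lin_Fo S μ s1 F r)‖ ^ 2) ≤
      6736 * (Ioi s1).indicator (fun r => ‖F r‖ ^ 2) r := by
  unfold lin_Fo
  by_cases hr : r ∈ Ioi s1
  swap
  · simp [indicator_of_notMem hr]
  have e1 : ∀ u : VV, Real.exp r * ‖Real.exp (-(r / 2)) • u‖ ^ 2 = ‖u‖ ^ 2 := fun u => by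
    rw [norm_smul, Real.norm_of_nonneg (Real.exp_pos _).le, mul_pow, ← Real.exp_nat_mul, ← mul_assoc,
      ← Real.exp_add, show r + ((2 : ℕ) : ℝ) * -(r / 2) = 0 by push_cast; ring, Real.exp_zero, one_mul]
  have h1 := lin_mul_le S (mult_inv_Th μ r) (F r)
  have h2 := lin_mul_le S (mult_wh_div_Th μ r) (F r)
  rw [show (fun x => Real.exp (μ * r) * wh r x / Th μ r x) =
      fun x => Real.exp (μ * r) * (wh r x * (1 / Th μ r x)) from funext fun x => by ring,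
    S.mul_const_mul ((mult_wh r).mul (mult_inv_Th μ r)), smul_apply,
    ← S.mul_mul (mult_wh r) (mult_inv_Th μ r), norm_smul, Real.norm_of_nonneg (Real.exp_pos _).le,
    mul_pow, ← Real.exp_nat_mul, Nat.cast_ofNat, ← mul_assoc] at h2
  rw [indicator_of_mem hr, indicator_of_mem hr, map_smul, e1, e1]
  linarith

theorem lin_g_adm {E : Type} [NormedAddCommGroup E] [NormedSpace ℝ E] {μ a s0 : ℝ} (hμ : 0 ≤ μ)
    (h0 : 0 ≤ a) (h1 : a ≤ s0) (G : Lp E 2 (volume.restrict (Ioi s0))) : LocAdm a (lin_g μ s0 G) :=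
  lin_adm_ind h1 ((Lp.memLp G).of_le
    ((by fun_prop : Continuous fun s : ℝ => Real.exp (-(μ * s))).aestronglyMeasurable.smul
      (Lp.aestronglyMeasurable G))
    ((ae_restrict_iff' measurableSet_Ioi).2 (ae_of_all _ fun s hs =>
      lin_exp_le (mul_nonneg hμ (by linarith [mem_Ioi.1 hs])) _)))

theorem lin_g_eq {E : Type} [NormedAddCommGroup E] [NormedSpace ℝ E] (μ s0 : ℝ) (G : ℝ → E) (r : ℝ) :
    Real.exp (2 * μ * r) * ‖lin_g μ s0 G r‖ ^ 2 = (Ioi s0).indicator (fun r => ‖G r‖ ^ 2) r := by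
  unfold lin_g
  by_cases hr : r ∈ Ioi s0
  · rw [indicator_of_mem hr, indicator_of_mem hr, norm_smul, Real.norm_of_nonneg (Real.exp_pos _).le,
      mul_pow, ← Real.exp_nat_mul, ← mul_assoc, ← Real.exp_add,
      show 2 * μ * r + ((2 : ℕ) : ℝ) * -(μ * r) = 0 by push_cast; ring, Real.exp_zero, one_mul]
  · simp [indicator_of_notMem hr]

theorem lin_ind {E E' : Type} [NormedAddCommGroup E] [NormedSpace ℝ E] [NormedAddCommGroup E']
    [NormedSpace ℝ E'] {b : ℝ} (P : ℝ → E →L[ℝ] E') (F F' : Lp E 2 (volume.restrict (Ioi b))) (t : ℝ) :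
    ∀ᵐ s, (Ioi b).indicator (fun s => P s ((F + t • F') s)) s =
      (Ioi b).indicator (fun s => P s (F s)) s + t • (Ioi b).indicator (fun s => P s (F' s)) s := by
  filter_upwards [(ae_restrict_iff' measurableSet_Ioi).1 (Lp.coeFn_add F (t • F')),
    (ae_restrict_iff' measurableSet_Ioi).1 (Lp.coeFn_smul t F')] with s h1 h2
  by_cases hs : s ∈ Ioi b
  · simp only [indicator_of_mem hs, h1 hs, Pi.add_apply, h2 hs, Pi.smul_apply, map_add, map_smul]
  · simp [indicator_of_notMem hs]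

theorem lin_sq {E : Type} [NormedAddCommGroup E] [InnerProductSpace ℝ E] {b : ℝ}
    (F : Lp E 2 (volume.restrict (Ioi b))) : Integrable ((Ioi b).indicator fun r => ‖F r‖ ^ 2) ∧
      ∫ r, (Ioi b).indicator (fun r => ‖F r‖ ^ 2) r = ‖F‖ ^ 2 :=
  ⟨(integrable_indicator_iff measurableSet_Ioi).2 ((Lp.memLp F).integrable_norm_pow two_ne_zero), by
    rw [integral_indicator measurableSet_Ioi, ex_norm_sq]⟩

theorem lin_prod {X Y : Type} [NormedAddCommGroup X] [NormedAddCommGroup Y] {K : ℝ} (hK : 0 ≤ K)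
    (x : X × Y) : K * (6736 * ‖x.1‖ ^ 2 + ‖x.2‖ ^ 2) ≤ K * 6737 * ‖x‖ ^ 2 := by
  rw [mul_assoc]
  refine mul_le_mul_of_nonneg_left ?_ hK
  linarith [pow_le_pow_left₀ (norm_nonneg _) (norm_fst_le x) 2,
    pow_le_pow_left₀ (norm_nonneg _) (norm_snd_le x) 2]

theorem lin_bound (B : Fb S A N) : ∃ K : ℝ, 0 < K ∧ ∀ μ, 1 / 2 ≤ μ → μ ≤ 7 / 8 →
    ∀ {Fo : ℝ → VV} {g : ℝ → EuclideanSpace ℝ (Fin B.m)} {v Z : ℝ → VV} {U : ℝ → L2},
      FbSol B Fo g v Z U → LocAdm B.sst Fo → LocAdm B.sst g → ∀ ρ : ℝ → ℝ, Integrable ρ →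
      (∀ r, Real.exp r * ‖Fo r‖ ^ 2 + Real.exp (2 * μ * r) *
        (Real.exp r * ‖S.mul (wh r) (Fo r)‖ ^ 2 + ‖g r‖ ^ 2) ≤ ρ r) →
      (∀ s, ‖U s‖ ^ 2 ≤ K * ∫ r, ρ r) ∧ ∀ s1, B.sst ≤ s1 →
        IntegrableOn (fun s => lin_en S N μ s (v s) (U s)) (Ioi s1) ∧
          ∫ s in Ioi s1, lin_en S N μ s (v s) (U s) ≤ K * ∫ r, ρ r := by
  obtain ⟨C, hC, hs⟩ := strong B
  have hB := B.C_pos
  refine ⟨B.C + C, by positivity, fun μ h1 h2 Fo g v Z U h hF hg ρ hρ hd => ?_⟩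
  have p0 : 0 ≤ ∫ r, ρ r := integral_nonneg fun r => le_trans (by positivity) (hd r)
  have a1 := fun s (h3 : B.sst ≤ s) => (hs μ h1 h2 h hF hg s h3).trans
    (mul_le_mul_of_nonneg_left (lin_le (fun r => by positivity) hρ hd h3) hC.le)
  refine ⟨fun s => ?_, fun s1 h3 => lin_int h3 (fun r => ?_) fun s h4 => ?_⟩
  · rcases le_total s B.sst with h3 | h3
    · rw [h.zero s h3, norm_zero, zero_pow two_ne_zero]
      positivity
    · have := a1 s h3
      have a2 : 0 ≤ ∫ r in B.sst..s, Real.exp (-r) * ‖v r‖ ^ 2 :=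
        intervalIntegral.integral_nonneg h3 fun r _ => by positivity
      nlinarith
  · have := lin_En_nonneg N r (U r)
    unfold lin_en
    positivity
  obtain ⟨b1, -, -, b2⟩ := h.est hF hg h2 h4
  have b3 : IntervalIntegrable (fun r => Real.exp (-r) * ‖v r‖ ^ 2) volume B.sst s :=
    ((intervalIntegrable_iff_integrableOn_Ioc_of_le h4).2 (ex_sq_int (h.sol s h4).v2)).continuousOn_mul
      (by fun_prop)
  refine ⟨b1.add b3, ?_⟩
  have b4 := b2.trans (mul_le_mul_of_nonneg_left (lin_le (fun r => by positivity) hρ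
    (fun r => le_trans (le_add_of_nonneg_left (by positivity)) (hd r)) h4) hB.le)
  have b5 := mul_nonneg (Real.exp_pos (2 * μ * s)).le (lin_En_nonneg N s (U s))
  unfold lin_en
  rw [intervalIntegral.integral_add b1 b3]
  linarith [a1 s h4, sq_nonneg ‖U s‖]

theorem lin_pre (B : Fb S A N) : ∃ K : ℝ, 0 < K ∧ ∀ μ, 1 / 2 ≤ μ → μ ≤ 7 / 8 → ∀ s0 s1, B.sst ≤ s0 →
    B.sst ≤ s1 → ∃ (O : (YY s1 × Lp (EuclideanSpace ℝ (Fin B.m)) 2 (volume.restrict (Ioi s0))) →L[ℝ]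
        Lp (EuclideanSpace ℝ (Fin B.m)) 2 (volume.restrict (Ioi s1)))
      (R0 : (YY s1 × Lp (EuclideanSpace ℝ (Fin B.m)) 2 (volume.restrict (Ioi s0))) →L[ℝ]
        BoundedContinuousFunction ℝ L2)
      (R1 R2 : (YY s1 × Lp (EuclideanSpace ℝ (Fin B.m)) 2 (volume.restrict (Ioi s0))) →L[ℝ] YY s1),
      ‖O‖ ≤ K ∧ ‖R0‖ ≤ K ∧ ‖R1‖ ≤ K ∧ ‖R2‖ ≤ K ∧ ∀ x, ∃ v Z : ℝ → VV,
        FbSol B (lin_Fo S μ s1 x.1) (lin_g μ s0 x.2) v Z (R0 x) ∧
        (∀ᵐ s ∂(volume.restrict (Ioi s1)), O x s = Real.exp (μ * s) • B.obs s (R0 x s) ∧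
          R1 x s = Real.exp (-(s / 2)) • S.mul (Th μ s) (S.mul (fun x => A.g s x ^ 2) (v s)) ∧
          R2 x s = Real.exp (-(s / 2)) • S.mul (Th μ s) (S.mul (A.b s) (S.T.G (R0 x s)))) ∧
        IntegrableOn (fun s => Real.exp ((2 * μ - 1 / 2) * s) * S.ell (v s) ^ 2) (Ioi s1) := by
  obtain ⟨c, hc, hp⟩ := lin_pt B
  obtain ⟨K, hK, hb⟩ := lin_bound B
  refine ⟨√(c * (K * 6737)), by positivity, fun μ h1 h2 s0 s1 hs0 hs1 => ?_⟩
  have h4 : 0 ≤ B.sst := le_trans (by norm_num) B.sst_ge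
  have aF := lin_Fo_adm S μ h4 hs1
  have ag := fun G => lin_g_adm (E := EuclideanSpace ℝ (Fin B.m)) (μ := μ) (by linarith) h4 hs0 G
  choose v Z U hs using fun x : YY s1 × Lp (EuclideanSpace ℝ (Fin B.m)) 2 (volume.restrict (Ioi s0)) =>
    fbsol_exists B (aF x.1) (ag x.2)
  have hl := fun x y t => lin_uniq (hs x) (hs y) (hs (x + t • y)) t
    (lin_ind (fun s => Real.exp (-(s / 2)) • S.mul fun x => 1 / Th μ s x) x.1 y.1 t)
    (lin_ind (fun s => Real.exp (-(μ * s)) • ContinuousLinearMap.id ℝ (EuclideanSpace ℝ (Fin B.m)))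
      x.2 y.2 t)
  have hle : volume.restrict (Ioi s1) ≤ (volume : Measure ℝ).restrict (Ioi B.sst) :=
    Measure.restrict_mono (Ioi_subset_Ioi hs1) le_rfl
  have he : ∀ x, (∀ s, ‖U x s‖ ^ 2 ≤ K * 6737 * ‖x‖ ^ 2) ∧
      IntegrableOn (fun s => lin_en S N μ s (v x s) (U x s)) (Ioi s1) ∧
        ∫ s in Ioi s1, lin_en S N μ s (v x s) (U x s) ≤ K * 6737 * ‖x‖ ^ 2 := by
    intro x
    obtain ⟨a1, a2⟩ := hb μ h1 h2 (hs x) (aF _) (ag _) _ (((lin_sq x.1).1.const_mul 6736).add (lin_sq x.2).1)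
      fun r => by
        rw [mul_add, lin_g_eq, ← add_assoc]
        exact add_le_add_left (lin_Fo_le S μ s1 _ r) _
    simp only [Pi.add_apply] at a1 a2
    rw [integral_add ((lin_sq x.1).1.const_mul 6736) (lin_sq x.2).1, integral_const_mul, (lin_sq x.1).2,
      (lin_sq x.2).2] at a1 a2
    have a3 := lin_prod hK.le x
    exact ⟨fun s => (a1 s).trans a3, (a2 s1 hs1).1, (a2 s1 hs1).2.trans a3⟩
  have hv : ∀ x, AEStronglyMeasurable (v x) (volume.restrict (Ioi s1)) := fun x => by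
    refine AEStronglyMeasurable.mono_measure ?_ hle
    rw [← lin_union, aestronglyMeasurable_iUnion_iff]
    intro n
    exact (((hs x).sol _ (le_max_left _ (n : ℝ))).v2.1).mono_measure
      (Measure.restrict_mono (Ioc_subset_Ioc_right (le_max_right _ _)) le_rfl)
  have hm : ∀ᵐ s ∂(volume.restrict (Ioi s1)), B.sst ≤ s :=
    (ae_restrict_mem measurableSet_Ioi).mono fun s h => hs1.trans (le_of_lt h)
  have cT := S.mul_family (lin_sm_Th μ)
  have cg := S.mul_family (p := fun s x => A.g s x ^ 2) (A.smg.pow 2)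
  have cb := S.mul_family A.smb
  have ce : Continuous fun s : ℝ => Real.exp (-(s / 2)) := by fun_prop
  have c0 : (0 : ℝ) ≤ c := by linarith
  obtain ⟨R0, n0, e0⟩ := lin_mkB U (K := c * (K * 6737)) (by positivity) (fun x => (hs x).cont)
    (fun x y t => (hl x y t).1) fun x s => ((he x).1 s).trans
      (mul_le_mul_of_nonneg_right (le_mul_of_one_le_left (by positivity) hc) (sq_nonneg _))
  obtain ⟨O, nO, eO⟩ := lin_mkLp _ (fun x s => Real.exp (μ * s) • B.obs s (U x s)) _ c0 (by positivity)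
    (fun x => ((by fun_prop : Continuous fun s => Real.exp (μ * s)).smul (hs x).obs_cont).aestronglyMeasurable)
    (fun x => (he x).2) (fun x => hm.mono fun s h => (hp μ h1 s h _ _).1)
    fun x y t => ae_of_all _ fun s => by rw [(hl x y t).1, lin_obs, smul_add, smul_comm t]
  obtain ⟨R1, n1, e1⟩ := lin_mkLp _
    (fun x s => Real.exp (-(s / 2)) • S.mul (Th μ s) (S.mul (fun x => A.g s x ^ 2) (v x s))) _ c0
    (by positivity) (fun x => ce.aestronglyMeasurable.smul (EnergyAux.aesm_apply cT.aestronglyMeasurable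
      (EnergyAux.aesm_apply cg.aestronglyMeasurable (hv x))))
    (fun x => (he x).2) (fun x => hm.mono fun s h => (hp μ h1 s h _ _).2.1)
    fun x y t => ((hl x y t).2.filter_mono (ae_mono hle)).mono fun s h => by
      simp only [h, map_add, map_smul, smul_add, smul_comm t]
  obtain ⟨R2, n2, e2⟩ := lin_mkLp _
    (fun x s => Real.exp (-(s / 2)) • S.mul (Th μ s) (S.mul (A.b s) (S.T.G (U x s)))) _ c0
    (by positivity) (fun x => (ce.smul (cT.clm_apply (cb.clm_apply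
      (S.T.G.continuous.comp (hs x).cont)))).aestronglyMeasurable)
    (fun x => (he x).2) (fun x => hm.mono fun s h => (hp μ h1 s h _ _).2.2.1)
    fun x y t => ae_of_all _ fun s => by
      simp only [(hl x y t).1, map_add, map_smul, smul_add, smul_comm t]
  refine ⟨O, R0, R1, R2, nO, n0, n1, n2, fun x => ⟨v x, Z x, ?_⟩⟩
  rw [e0]
  refine ⟨hs x, (eO x).and ((e1 x).and (e2 x)), ((he x).2.1.const_mul c).mono'
    ((by fun_prop : Continuous fun s => Real.exp ((2 * μ - 1 / 2) * s)).aestronglyMeasurable.mul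
      ((S.ell.continuous.comp_aestronglyMeasurable (hv x)).pow 2)) ?_⟩
  have hr : ∀ᵐ s ∂(volume.restrict (Ioi B.sst)), S.T.ι (v x s) = U x s := by
    rw [← lin_union, ae_restrict_iUnion_iff]
    exact fun n => ae_mono (Measure.restrict_mono (Ioc_subset_Ioc_right (le_max_right _ _)) le_rfl)
      ((hs x).sol _ (le_max_left _ (n : ℝ))).rep
  filter_upwards [hm, ae_mono hle hr] with s a1 a2
  rw [Real.norm_of_nonneg (by positivity)]
  exact (hp μ h1 s a1 _ _).2.2.2 a2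

theorem lin_spec (B : Fb S A N) : ∃ sU : (ℝ → EuclideanSpace ℝ (Fin B.m)) → ℝ → L2,
    (∀ g, LocAdm B.sst g → ∃ v Z, FbSol B (fun _ => 0) g v Z (sU g)) ∧
    ∃ μ, 13 / 16 ≤ μ ∧ μ < 7 / 8 ∧ ∃ C L sb : ℝ, 0 ≤ L ∧ B.sst + L ≤ sb ∧ ∀ s1, sb ≤ s1 →
      ∃ Λ : Lp (EuclideanSpace ℝ (Fin B.m)) 2 (volume.restrict (Ioi s1)) →L[ℝ]
          Lp (EuclideanSpace ℝ (Fin B.m)) 2 (volume.restrict (Ioi (s1 - L))),
        ‖Λ‖ ≤ C ∧ ∀ D, ∀ᵐ s ∂(volume.restrict (Ioi s1)),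
          Real.exp (-(μ * s)) • Λ D s - B.obs s (sU (lin_g μ (s1 - L) (Λ D)) s) =
            Real.exp (-(μ * s)) • D s := by
  choose! sv sZ sU hs using fun (g : ℝ → EuclideanSpace ℝ (Fin B.m)) (hg : LocAdm B.sst g) =>
    fbsol_exists B (lin_adm_zero B.sst) hg
  obtain ⟨ε, hε, he⟩ := equiv B
  refine ⟨sU, fun g hg => ⟨_, _, hs g hg⟩, spec (fun g s => B.obs s (sU g s)) B.sst (7 / 8) (13 / 16)
    (B.C * B.C) (by norm_num) ε hε (fun g g' t hg hg' s => ?_) (fun g hg => (hs g hg).obs_cont)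
    (fun g hg s => ?_) fun s0 h0 g hg h hh s => he s0 h0 g hg h hh (hs g (lin_adm_mono hg h0))
      (hs _ (lin_adm_shift (lin_adm_mono hg h0) hh)) s⟩
  · rw [(lin_uniq (hs g hg) (hs g' hg') (hs _ (lin_adm_add hg hg' t)) t (ae_of_all _ fun _ => by simp)
      (ae_of_all _ fun _ => rfl)).1, lin_obs]
  have hC := B.C_pos
  rcases le_total s B.sst with h1 | h1
  · have h0 : B.obs s 0 = 0 := by
      ext i
      simp [Fb.obs]
    rw [(hs g hg).zero s h1, h0, norm_zero, zero_pow two_ne_zero]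
    exact mul_nonneg (by positivity) (integral_nonneg fun _ => by positivity)
  obtain ⟨-, -, -, b⟩ := (hs g hg).est (lin_adm_zero _) hg le_rfl h1
  have b1 : 0 ≤ ∫ r in B.sst..s, Real.exp (2 * (7 / 8) * r) *
      (Real.exp (-r) * ‖S.mul (wh r) (sv g r)‖ ^ 2 + N.En r (sU g r)) :=
    intervalIntegral.integral_nonneg h1 fun r _ => by
      have := lin_En_nonneg N r (sU g r)
      positivity
  have e : ∀ r, Real.exp (-(2 * (7 / 8) * (s - r))) * ‖g r‖ ^ 2 =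
      (Real.exp (2 * (7 / 8) * s))⁻¹ * (Real.exp (2 * (7 / 8) * r) * ‖g r‖ ^ 2) := fun r => by
    rw [← mul_assoc, ← Real.exp_neg, ← Real.exp_add]
    congr 2
    ring
  simp only [map_zero, norm_zero, zero_pow two_ne_zero, mul_zero, zero_add,
    intervalIntegral.integral_of_le h1] at b b1
  simp only [e, integral_const_mul]
  refine (lin_obs_le B h1 _).trans ?_
  rw [mul_assoc, mul_left_comm B.C _⁻¹]
  refine mul_le_mul_of_nonneg_left ((le_inv_mul_iff₀ (Real.exp_pos _)).2 ?_) hC.le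
  linarith

theorem lin_main (B : Fb S A N) :
    ∃ μ C sb : ℝ, 13 / 16 ≤ μ ∧ μ ≤ 7 / 8 ∧ 0 < C ∧ 4 ≤ sb ∧
      ∀ s1, sb ≤ s1 → Nonempty (LinInv S A μ C s1) := by
  obtain ⟨sU, hU, μ, h1, h2, C, L, sb, hL, hsb, hΛ⟩ := lin_spec B
  obtain ⟨K, hK, hp⟩ := lin_pre B
  refine ⟨μ, K * (1 + |C| * K), sb, h1, h2.le, by positivity, by linarith [B.sst_ge], fun s1 hs1 => ?_⟩
  obtain ⟨Λ, nΛ, eΛ⟩ := hΛ s1 hs1
  have a0 : B.sst ≤ s1 - L := by linarith
  have a1 : B.sst ≤ s1 := by linarith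
  obtain ⟨O, R0, R1, R2, nO, n0, n1, n2, hx⟩ := hp μ (by linarith) h2.le (s1 - L) s1 a0 a1
  let J := (ContinuousLinearMap.id ℝ (YY s1)).prod (Λ ∘L O ∘L ContinuousLinearMap.inl ℝ _ _)
  have nJ : ‖J‖ ≤ 1 + |C| * K := J.opNorm_le_bound (by positivity) fun F => by
    have b1 : ‖O (F, 0)‖ ≤ K * ‖F‖ := by simpa using O.le_of_opNorm_le nO (F, 0)
    have b2 := (Λ.le_of_opNorm_le (nΛ.trans (le_abs_self C)) (O (F, 0))).trans
      (mul_le_mul_of_nonneg_left b1 (abs_nonneg C))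
    have b3 : 0 ≤ |C| * (K * ‖F‖) := by positivity
    exact norm_prod_le_iff.2 ⟨by change ‖F‖ ≤ _; nlinarith, by
      change ‖Λ (O (F, 0))‖ ≤ _; nlinarith [norm_nonneg F]⟩
  have nn : ∀ {Y : Type} [NormedAddCommGroup Y] [NormedSpace ℝ Y] (R : _ →L[ℝ] Y), ‖R‖ ≤ K →
      ‖R ∘L J‖ ≤ K * (1 + |C| * K) := fun R h =>
    (R.opNorm_comp_le J).trans (mul_le_mul h nJ (norm_nonneg _) hK.le)
  refine ⟨⟨R0 ∘L J, R1 ∘L J, R2 ∘L J, nn _ n0, nn _ n1, nn _ n2, fun F => ?_⟩⟩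
  set G := Λ (O (F, 0)) with hG
  obtain ⟨v, Z, b1, b2, b3⟩ := hx (F, G)
  obtain ⟨v1, Z1, c1, c2, -⟩ := hx (F, 0)
  obtain ⟨v2, Z2, c3⟩ := hU _ (lin_g_adm (μ := μ) (by linarith) (by linarith [B.sst_ge]) a0 G)
  have hz := (lin_uniq c1 c3 b1 1 (ae_of_all _ fun _ => by simp) (by
    filter_upwards [(ae_restrict_iff' measurableSet_Ioi).1
      (Lp.coeFn_zero (EuclideanSpace ℝ (Fin B.m)) 2 (volume.restrict (Ioi (s1 - L))))] with s h
    by_cases hs : s ∈ Ioi (s1 - L)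
    · simp only [lin_g, indicator_of_mem hs, h hs, Pi.zero_apply, smul_zero, zero_add, one_smul]
    · simp [lin_g, indicator_of_notMem hs])).1
  refine ⟨v, Z, fun s2 h => (b1.sol s2 (a1.trans h)).mono a1 h le_rfl, ?_, b3⟩
  filter_upwards [b2, c2, eΛ (O (F, 0)), ae_restrict_mem measurableSet_Ioi,
    ae_mono (Measure.restrict_mono (Ioi_subset_Ioi a1) le_rfl) b1.eqn] with s d1 d2 d3 d4 d5
  refine ⟨?_, d1.2⟩
  have d6 : lin_g μ (s1 - L) G s = B.obs s (R0 (F, G) s) := by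
    rw [d2.1, smul_smul, ← Real.exp_add, neg_add_cancel, Real.exp_zero, one_smul] at d3
    rw [hz, lin_obs, one_smul, ← d3, sub_add_cancel, lin_g,
      indicator_of_mem (mem_Ioi.2 ((sub_le_self s1 hL).trans_lt d4))]
  rw [d5, d6, lin_Fo, indicator_of_mem d4]
  simp only [Fb.obs, sub_self, zero_smul, Finset.sum_const_zero, add_zero]
  rfl

end Crest.Agent.R213
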