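import Crest.Agent.R213.IEqv
import Crest.Agent.R213.IFb
import Crest.Agent.R213.Lin2

/-! # R213 / ILin : the bounded right inverse

`𝒦 g s = obs s (U_g s)` (`U_g` chosen by `fbsol_exists` with `Fo = 0`) satisfies the hypotheses of `spec` with
`ν = 7/8`, `μ1 = 13/16` (`add_smul`, `causal`, `est`, `obs_le`, `obs_cont`, `equiv`).  For `F ∈ YY s1`:
`Fo = 1_{s>s1} e^{-s/2} mul (1/Th) F`, `(v1,Z1,U1)` the solution for `(Fo, 0)`, `D s = e^{μ s} obs s (U1 s) ∈ L²(Ioi s1)`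
(`mult_wh_div_Th`), `g = 1_{s > s1-L} e^{-μ s} Λ D`, `(v2,Z2,U2)` the solution for `(0,g)`; the sum has
`g - obs = 0` a.e. on `s > s1`.  Bounds: `est`, `strong`, `bxi_le`, `ell_le`, `‖mul Th u‖ ≤ e^{μ s}‖mul wh u‖ + ‖u‖`,
monotone convergence `s → ∞`.  Linearity of `F ↦ D, U, R1 F, R2 F` by `add_smul` + `causal`; `LinearMap.mkContinuous`. -/

set_option autoImplicit false

open MeasureTheory Set Filter Topology
open scoped ContDiff InnerProductSpace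

namespace Crest.Agent.R213

theorem lin_of_fb {S : Sp} {A : Apx} {N : Anc} (B : Fb S A N) :
    ∃ μ C sb : ℝ, 13 / 16 ≤ μ ∧ μ ≤ 7 / 8 ∧ 0 < C ∧ 4 ≤ sb ∧
      ∀ s1, sb ≤ s1 → Nonempty (LinInv S A μ C s1) :=
  lin_main B

end Crest.Agent.R213
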