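import Crest.Agent.R213.Nl2

/-! # R213 / Nl3 : identities and bounds at a fixed time -/

set_option autoImplicit false

open MeasureTheory Set Filter Topology
open scoped ContDiff InnerProductSpace

namespace Crest.Agent.R213

/-- multiplication by `ξ/(φ0 g)`. -/
noncomputable def Pop (S : Sp) (A : Apx) (s : ℝ) : L2 →L[ℝ] VV →L[ℝ] VV :=
  (ContinuousLinearMap.compL ℝ VV VV VV (S.mul fun x => 1 / A.g s x)).comp S.M

theorem Pop_apply (S : Sp) (A : Apx) (s : ℝ) (h : L2) (u : VV) :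
    Pop S A s h u = S.mul (fun x => 1 / A.g s x) (S.M h u) := rfl

theorem Pop_cont (S : Sp) (A : Apx) : Continuous (Pop S A) := by
  have h : Continuous fun s => S.mul fun x => 1 / A.g s x :=
    S.mul_family (p := fun s x => 1 / A.g s x) (nl_ginv_smooth A)
  exact ((ContinuousLinearMap.compL ℝ VV VV VV).continuous.comp h).clm_comp continuous_const

theorem Pop_le (S : Sp) (A : Apx) {s N : ℝ} (hN : Mult (fun x => 1 / A.g s x) N) :
    ‖Pop S A s‖ ≤ 4 * N * ‖S.M‖ := by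
  have h1 := S.mul_le _ _ hN
  have h0 : 0 ≤ 4 * N := (norm_nonneg _).trans h1
  refine ContinuousLinearMap.opNorm_le_bound₂ _ (by positivity) fun h u => ?_
  rw [Pop_apply]
  refine ((S.mul _).le_opNorm _).trans ?_
  have := mul_le_mul h1 (S.M.le_opNorm₂ h u) (norm_nonneg _) h0
  linarith

theorem nl_d0_Pop (S : Sp) (A : Apx) (s : ℝ) (h : L2) (u : VV) :
    d0 (Pop S A s h u) =ᵐ[ν] fun x => 1 / A.g s x * (xi h x / (x * (1 - x)) * d0 u x) := by
  obtain ⟨N, hN⟩ := nl_mult_slice (nl_ginv_smooth A) s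
  filter_upwards [nl_d0_mul S hN (S.M h u), nl_d0_M S h u] with x a b
  rw [Pop_apply, a, b]

theorem nl_d0_sq1 (S : Sp) (k : L2) (u : VV) :
    d0 (sq1 (S.M k) u) =ᵐ[ν] fun x => (1 + xi k x / (x * (1 - x))) ^ 2 * d0 u x := by
  have e : sq1 (S.M k) u = (u + S.M k u) + S.M k (u + S.M k u) := by
    simp [sq1, pow_two]
  rw [e]
  filter_upwards [nl_d0_add (u + S.M k u) (S.M k (u + S.M k u)), nl_d0_add u (S.M k u),
    nl_d0_M S k (u + S.M k u), nl_d0_M S k u] with x a b c d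
  rw [a, c, b, d]; ring

theorem Cv.xi_hat {S : Sp} {A : Apx} (c : Cv S A) (s : ℝ) (h : L2) {x : ℝ}
    (hx : x ∈ Ioo (0 : ℝ) 1) :
    1 + xi (S.T.ι (c.w s) + h) x / (x * (1 - x)) = A.g s x + xi h x / (x * (1 - x)) := by
  have e := (sig_lin (S.T.ι (c.w s)) h 1 hx).2.2
  rw [one_smul, one_mul, c.xi_w s hx, A.xt_eq] at e
  have h0 : x ≠ 0 := hx.1.ne'
  have h1 : 1 - x ≠ 0 := (sub_pos.2 hx.2).ne'
  rw [e]
  field_simp
  ring

/-- the full equation at the fixed point. -/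
theorem Cv.eqn {S : Sp} {A : Apx} (c : Cv S A) (μ s : ℝ) (h : L2) (v Z F r1 r2 : VV)
    (hZ : Z = lin0 S A s v h + Real.exp (-(s / 2)) • S.mul (fun x => 1 / Th μ s x) F)
    (h1 : r1 = Real.exp (-(s / 2)) • S.mul (Th μ s) (S.mul (fun x => A.g s x ^ 2) v))
    (h2 : r2 = Real.exp (-(s / 2)) • S.mul (Th μ s) (S.mul (A.b s) (S.T.G h)))
    (hF : F = -(Real.exp (-(s / 2)) • S.mul (Th μ s) (c.e s)) - (2 : ℝ) • Pop S A s h r1 -
      Pop S A s h (Pop S A s h r1) + (1 / 2 : ℝ) • Pop S A s h r2) :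
    c.Z s + Z = -(Real.exp (-s) • sq1 (S.M (S.T.ι (c.w s) + h)) (c.w s + v)) := by
  obtain ⟨N1, mT⟩ := nl_mult_slice (nl_Th_smooth μ) s
  obtain ⟨N2, mg⟩ := nl_mult_slice (nl_g2_smooth A) s
  obtain ⟨N3, mb⟩ := nl_mult_slice A.smb s
  have mi := mult_inv_Th μ s
  have d1 : d0 r1 =ᵐ[ν] fun x => Real.exp (-(s / 2)) * (Th μ s x * (A.g s x ^ 2 * d0 v x)) := by
    rw [h1]
    filter_upwards [nl_d0_smul (Real.exp (-(s / 2)))
      (S.mul (Th μ s) (S.mul (fun x => A.g s x ^ 2) v)),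
      nl_d0_mul S mT (S.mul (fun x => A.g s x ^ 2) v), nl_d0_mul S mg v] with x a b d
    rw [a, b, d]
  have db : d0 (S.mul (A.b s) (S.T.G h)) =ᵐ[ν] fun x => A.b s x * xi h x := by
    filter_upwards [nl_d0_mul S mb (S.T.G h), nl_d0_G S h] with x a b
    rw [a, b]
  have d2 : d0 r2 =ᵐ[ν] fun x => Real.exp (-(s / 2)) * (Th μ s x * (A.b s x * xi h x)) := by
    rw [h2]
    filter_upwards [nl_d0_smul (Real.exp (-(s / 2)))
      (S.mul (Th μ s) (S.mul (A.b s) (S.T.G h))),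
      nl_d0_mul S mT (S.mul (A.b s) (S.T.G h)), db] with x a b d
    rw [a, b, d]
  have de : d0 (-(Real.exp (-(s / 2)) • S.mul (Th μ s) (c.e s))) =ᵐ[ν]
      fun x => -(Real.exp (-(s / 2)) * (Th μ s x * A.E s x)) := by
    filter_upwards [nl_d0_neg (Real.exp (-(s / 2)) • S.mul (Th μ s) (c.e s)),
      nl_d0_smul (Real.exp (-(s / 2))) (S.mul (Th μ s) (c.e s)),
      nl_d0_mul S mT (c.e s), (c.e_rep s).d.1] with x a b d e
    rw [a, b, d, e]
  have dF : d0 F =ᵐ[ν] fun x => -(Real.exp (-(s / 2)) * (Th μ s x * A.E s x)) -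
      2 * (1 / A.g s x * (xi h x / (x * (1 - x)) * d0 r1 x)) -
      1 / A.g s x * (xi h x / (x * (1 - x)) *
        (1 / A.g s x * (xi h x / (x * (1 - x)) * d0 r1 x))) +
      1 / 2 * (1 / A.g s x * (xi h x / (x * (1 - x)) * d0 r2 x)) := by
    rw [hF]
    filter_upwards [nl_d0_add (-(Real.exp (-(s / 2)) • S.mul (Th μ s) (c.e s)) -
        (2 : ℝ) • Pop S A s h r1 - Pop S A s h (Pop S A s h r1)) ((1 / 2 : ℝ) • Pop S A s h r2),
      nl_d0_sub (-(Real.exp (-(s / 2)) • S.mul (Th μ s) (c.e s)) -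
        (2 : ℝ) • Pop S A s h r1) (Pop S A s h (Pop S A s h r1)),
      nl_d0_sub (-(Real.exp (-(s / 2)) • S.mul (Th μ s) (c.e s))) ((2 : ℝ) • Pop S A s h r1),
      nl_d0_smul 2 (Pop S A s h r1), nl_d0_smul (1 / 2) (Pop S A s h r2), de,
      nl_d0_Pop S A s h r1, nl_d0_Pop S A s h r2, nl_d0_Pop S A s h (Pop S A s h r1)]
      with x a1 a2 a3 a4 a5 a6 a7 a8 a9
    rw [a1, a2, a3, a4, a5, a6, a9, a7, a8]
  have dZ : d0 Z =ᵐ[ν] fun x => Real.exp (-s) * (A.b s x * xi h x - A.g s x ^ 2 * d0 v x) +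
      Real.exp (-(s / 2)) * (1 / Th μ s x * d0 F x) := by
    rw [hZ, lin0]
    filter_upwards [nl_d0_add (Real.exp (-s) • (S.mul (A.b s) (S.T.G h) -
        S.mul (fun x => A.g s x ^ 2) v)) (Real.exp (-(s / 2)) • S.mul (fun x => 1 / Th μ s x) F),
      nl_d0_smul (Real.exp (-s)) (S.mul (A.b s) (S.T.G h) - S.mul (fun x => A.g s x ^ 2) v),
      nl_d0_sub (S.mul (A.b s) (S.T.G h)) (S.mul (fun x => A.g s x ^ 2) v),
      nl_d0_smul (Real.exp (-(s / 2))) (S.mul (fun x => 1 / Th μ s x) F),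
      nl_d0_mul S mi F, nl_d0_mul S mg v, db] with x a1 a2 a3 a4 a5 a6 a7
    rw [a1, a2, a3, a4, a5, a6, a7]
  refine ext_d0 ?_
  filter_upwards [nl_d0_add (c.Z s) Z, c.Z_d0 s, dZ, dF, d1, d2,
    nl_d0_neg (Real.exp (-s) • sq1 (S.M (S.T.ι (c.w s) + h)) (c.w s + v)),
    nl_d0_smul (Real.exp (-s)) (sq1 (S.M (S.T.ι (c.w s) + h)) (c.w s + v)),
    nl_d0_sq1 S (S.T.ι (c.w s) + h) (c.w s + v), nl_d0_add (c.w s) v, (c.w_rep s).d.1,
    nl_ae_mem] with x a1 a2 a3 a4 a5 a6 a7 a8 a9 a10 a11 hx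
  rw [a1, a2, a3, a4, a5, a6, a7, a8, a9, a10, a11, c.xi_hat s h hx]
  have h0 : x ≠ 0 := hx.1.ne'
  have h1' : 1 - x ≠ 0 := (sub_pos.2 hx.2).ne'
  have hg : A.g s x ≠ 0 := (A.g_pos s x).ne'
  have hT : Th μ s x ≠ 0 := (nl_Th_pos μ s x).ne'
  have ex : Real.exp (-s) = Real.exp (-(s / 2)) ^ 2 := by
    rw [← Real.exp_nat_mul]; congr 1; push_cast; ring
  have hb : A.b s x * xi h x = -(2 * A.g s x * A.vt s x) * (xi h x / (x * (1 - x))) := by
    rw [← A.b_eq s x hx]; field_simp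
  rw [hb, ex]
  generalize xi h x / (x * (1 - x)) = q
  generalize Real.exp (-(s / 2)) = l
  generalize Th μ s x = θ at hT ⊢
  generalize A.g s x = g at hg ⊢
  field_simp
  ring

/-- the leading operator splits into `g²` and a small part. -/
theorem Cv.sq1_split {S : Sp} {A : Apx} (c : Cv S A) (s : ℝ) (h : L2) (u : VV) :
    sq1 (S.M (S.T.ι (c.w s) + h)) u = S.mul (fun x => A.g s x ^ 2) u +
      S.mul (fun x => A.g s x ^ 2) ((2 : ℝ) • Pop S A s h u + Pop S A s h (Pop S A s h u)) := by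
  obtain ⟨N2, mg⟩ := nl_mult_slice (nl_g2_smooth A) s
  refine ext_d0 ?_
  filter_upwards [nl_d0_sq1 S (S.T.ι (c.w s) + h) u, nl_d0_add (S.mul (fun x => A.g s x ^ 2) u)
    (S.mul (fun x => A.g s x ^ 2) ((2 : ℝ) • Pop S A s h u + Pop S A s h (Pop S A s h u))),
    nl_d0_mul S mg u, nl_d0_mul S mg ((2 : ℝ) • Pop S A s h u + Pop S A s h (Pop S A s h u)),
    nl_d0_add ((2 : ℝ) • Pop S A s h u) (Pop S A s h (Pop S A s h u)),
    nl_d0_smul 2 (Pop S A s h u), nl_d0_Pop S A s h u, nl_d0_Pop S A s h (Pop S A s h u),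
    nl_ae_mem] with x a1 a2 a3 a4 a5 a6 a7 a8 hx
  rw [a1, a2, a3, a4, a5, a6, a8, a7, c.xi_hat s h hx]
  have hg : A.g s x ≠ 0 := (A.g_pos s x).ne'
  generalize xi h x / (x * (1 - x)) = q
  generalize A.g s x = g at hg ⊢
  field_simp
  ring

theorem Cv.M_w_le {S : Sp} {A : Apx} (c : Cv S A) {s N : ℝ} (hN : Mult (A.g s) N) :
    ‖S.M (S.T.ι (c.w s))‖ ≤ 4 * (N + 1) := by
  have m : Mult (fun x => A.g s x + (fun _ => (-1 : ℝ)) x) (N + |(-1 : ℝ)|) :=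
    hN.add (Mult.const (-1))
  rw [S.M_eq, S.mul_congr m (q := fun x => xi (S.T.ι (c.w s)) x / (x * (1 - x))) ?_]
  · simpa using S.mul_le _ _ m
  · intro x hx
    have h0 : x ≠ 0 := hx.1.ne'
    have h1 : 1 - x ≠ 0 := (sub_pos.2 hx.2).ne'
    simp only [c.xi_w s hx, A.xt_eq]
    field_simp
    ring

theorem nl_v_le (S : Sp) (A : Apx) {μ s N : ℝ} (hN : Mult (fun x => 1 / A.g s x ^ 2) N)
    (v r1 : VV)
    (h1 : r1 = Real.exp (-(s / 2)) • S.mul (Th μ s) (S.mul (fun x => A.g s x ^ 2) v)) :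
    ‖v‖ ≤ 4 * N * 56 * Real.exp (s / 2) * ‖r1‖ := by
  obtain ⟨N1, mT⟩ := nl_mult_slice (nl_Th_smooth μ) s
  obtain ⟨N2, mg⟩ := nl_mult_slice (nl_g2_smooth A) s
  have mi := mult_inv_Th μ s
  have e : v = S.mul (fun x => 1 / A.g s x ^ 2)
      (S.mul (fun x => 1 / Th μ s x) (Real.exp (s / 2) • r1)) := by
    refine ext_d0 ?_
    rw [h1]
    filter_upwards [nl_d0_mul S hN (S.mul (fun x => 1 / Th μ s x) (Real.exp (s / 2) •
        Real.exp (-(s / 2)) • S.mul (Th μ s) (S.mul (fun x => A.g s x ^ 2) v))),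
      nl_d0_mul S mi (Real.exp (s / 2) •
        Real.exp (-(s / 2)) • S.mul (Th μ s) (S.mul (fun x => A.g s x ^ 2) v)),
      nl_d0_smul (Real.exp (s / 2))
        (Real.exp (-(s / 2)) • S.mul (Th μ s) (S.mul (fun x => A.g s x ^ 2) v)),
      nl_d0_smul (Real.exp (-(s / 2))) (S.mul (Th μ s) (S.mul (fun x => A.g s x ^ 2) v)),
      nl_d0_mul S mT (S.mul (fun x => A.g s x ^ 2) v), nl_d0_mul S mg v] with x a1 a2 a3 a4 a5 a6
    rw [a1, a2, a3, a4, a5, a6, Real.exp_neg]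
    have hg : A.g s x ≠ 0 := (A.g_pos s x).ne'
    have hT : Th μ s x ≠ 0 := (nl_Th_pos μ s x).ne'
    have hE : Real.exp (s / 2) ≠ 0 := (Real.exp_pos _).ne'
    field_simp
  have b1 := S.mul_le _ _ hN
  have b2 := S.mul_le _ _ mi
  have h0 : 0 ≤ 4 * N := (norm_nonneg _).trans b1
  have b3 : ‖Real.exp (s / 2) • r1‖ = Real.exp (s / 2) * ‖r1‖ := by
    rw [norm_smul, Real.norm_of_nonneg (Real.exp_pos _).le]
  have b4 := ((S.mul _).le_opNorm (Real.exp (s / 2) • r1)).trans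
    (mul_le_mul b2 b3.le (norm_nonneg _) (by norm_num))
  have b5 := ((S.mul _).le_opNorm _).trans (mul_le_mul b1 b4 (norm_nonneg _) h0)
  rw [← e] at b5
  linarith

theorem nl_low_le (S : Sp) (s : ℝ) (u : VV) :
    ∫ x in Ioo (0 : ℝ) 1, (d0 u x / (x + lam s)) ^ 2 ≤ Real.exp s * ‖S.T.ι u‖ ^ 2 := by
  rw [norm_sq_H, ← integral_const_mul]
  have hi : Integrable (fun x => (S.T.ι u) x ^ 2) ν := (Lp.memLp (S.T.ι u)).integrable_sq
  refine integral_mono_of_nonneg (Eventually.of_forall fun x => sq_nonneg _) (hi.const_mul _) ?_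
  filter_upwards [S.ι_eq u, nl_ae_mem] with x a hx
  rw [← a, hv]
  have hl : 0 < lam s := Real.exp_pos _
  have e : Real.exp s * lam s ^ 2 = 1 := by
    rw [lam, ← Real.exp_nat_mul, ← Real.exp_add, Real.exp_eq_one_iff]; push_cast; ring
  have hx0 := hx.1
  have hx1 := hx.2
  rw [div_pow, div_le_iff₀ (by positivity), mul_pow]
  have k1 : (1 - x) ^ 2 ≤ 1 := by nlinarith
  have k2 : 1 ≤ Real.exp s * (x + lam s) ^ 2 := by
    rw [← e]
    exact mul_le_mul_of_nonneg_left (by nlinarith) (Real.exp_pos _).le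
  nlinarith [sq_nonneg ((S.T.ι u) x), mul_le_mul_of_nonneg_right (k1.trans k2)
    (sq_nonneg ((S.T.ι u) x))]

end Crest.Agent.R213
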