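import Crest.Agent.R213.Nl1
import Crest.Agent.R213.Nl3

/-! # R213 / Nl4 : assembly of `nl_exists` -/

set_option autoImplicit false

open MeasureTheory Set Filter Topology
open scoped ContDiff InnerProductSpace

namespace Crest.Agent.R213

theorem nl_ev (a : ℝ) {c : ℝ} (hc : 0 < c) : ∀ᶠ δ in 𝓝[>] (0 : ℝ), a * δ ≤ c := by
  have t : Tendsto (fun δ : ℝ => a * δ) (𝓝[>] 0) (𝓝 (a * 0)) :=
    ((continuous_const.mul continuous_id).tendsto 0).mono_left nhdsWithin_le_nhds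
  rw [mul_zero] at t
  exact t.eventually_le_const hc

theorem nl_win {s1 s : ℝ} (hs0 : 0 ≤ s) (hs : s1 ≤ s) (u : ℝ → VV) (f : YY s1) {a b : ℝ}
    (ha : 0 ≤ a) (hb : 0 ≤ b) (h : ∀ᵐ r ∂(volume.restrict (Ioi s1)),
      ‖u r‖ ≤ a * Real.exp r + b * Real.exp (r / 2) * ‖f r‖) :
    Real.exp (-s) * ∫ r in s..(s + Real.exp (-s)), ‖u r‖ ^ 2 ≤
      2 * (a * Real.exp 1) ^ 2 + 2 * b ^ 2 * Real.exp 1 * ‖f‖ ^ 2 := by
  have hτ : 0 < Real.exp (-s) := Real.exp_pos _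
  have hτ1 : Real.exp (-s) ≤ 1 := Real.exp_le_one_iff.2 (by linarith)
  have sub : Ioc s (s + Real.exp (-s)) ⊆ Ioi s1 := fun r hr => lt_of_le_of_lt hs hr.1
  have hi : IntegrableOn (fun r => ‖f r‖ ^ 2) (Ioi s1) := nl_int_sq_Lp _ f
  have hi' : IntegrableOn (fun r => ‖f r‖ ^ 2) (Ioc s (s + Real.exp (-s))) := hi.mono_set sub
  have hc : IntegrableOn (fun _ : ℝ => 2 * (a * Real.exp (s + 1)) ^ 2)
      (Ioc s (s + Real.exp (-s))) := integrableOn_const (by simp)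
  have k1 : ∫ r in Ioc s (s + Real.exp (-s)), ‖u r‖ ^ 2 ≤ ∫ r in Ioc s (s + Real.exp (-s)),
      (2 * (a * Real.exp (s + 1)) ^ 2 + 2 * b ^ 2 * Real.exp (s + 1) * ‖f r‖ ^ 2) := by
    refine integral_mono_of_nonneg (Eventually.of_forall fun x => sq_nonneg _)
      (hc.add (hi'.const_mul _)) ?_
    filter_upwards [ae_restrict_of_ae_restrict_of_subset sub h,
      ae_restrict_mem measurableSet_Ioc] with r hr hm
    have e1 : Real.exp r ≤ Real.exp (s + 1) := Real.exp_le_exp.2 (by linarith [hm.2])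
    have e2 : Real.exp (r / 2) ^ 2 = Real.exp r := by
      rw [← Real.exp_nat_mul]; congr 1; push_cast; ring
    have p1 := pow_le_pow_left₀ (norm_nonneg _) hr 2
    have p2 : (a * Real.exp r) ^ 2 ≤ (a * Real.exp (s + 1)) ^ 2 :=
      pow_le_pow_left₀ (by positivity) (mul_le_mul_of_nonneg_left e1 ha) 2
    have p3 : (b * Real.exp (r / 2) * ‖f r‖) ^ 2 ≤ b ^ 2 * Real.exp (s + 1) * ‖f r‖ ^ 2 := by
      rw [mul_pow, mul_pow, e2]
      exact mul_le_mul_of_nonneg_right (mul_le_mul_of_nonneg_left e1 (sq_nonneg _)) (sq_nonneg _)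
    nlinarith [sq_nonneg (a * Real.exp r - b * Real.exp (r / 2) * ‖f r‖)]
  have k2 : ∫ r in Ioc s (s + Real.exp (-s)), ‖f r‖ ^ 2 ≤ ‖f‖ ^ 2 := by
    rw [nl_norm_sq_Lp]
    exact setIntegral_mono_set hi (Eventually.of_forall fun x => sq_nonneg _) sub.eventuallyLE
  rw [integral_add hc (hi'.const_mul _), setIntegral_const, integral_const_mul] at k1
  rw [intervalIntegral.integral_of_le (by linarith)]
  have vol : (volume : Measure ℝ).real (Ioc s (s + Real.exp (-s))) = Real.exp (-s) := by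
    rw [Real.volume_real_Ioc_of_le (by linarith)]; ring
  rw [vol, smul_eq_mul] at k1
  have e3 : Real.exp (-s) * Real.exp (s + 1) = Real.exp 1 := by
    rw [← Real.exp_add]; congr 1; ring
  have k3 := mul_le_mul_of_nonneg_left k2 (show 0 ≤ 2 * b ^ 2 * Real.exp (s + 1) by positivity)
  calc _ ≤ Real.exp (-s) * (Real.exp (-s) * (2 * (a * Real.exp (s + 1)) ^ 2) +
        2 * b ^ 2 * Real.exp (s + 1) * ‖f‖ ^ 2) :=
        mul_le_mul_of_nonneg_left (by linarith) hτ.le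
    _ = 2 * (a * (Real.exp (-s) * Real.exp (s + 1))) ^ 2 +
        2 * b ^ 2 * (Real.exp (-s) * Real.exp (s + 1)) * ‖f‖ ^ 2 := by ring
    _ = _ := by rw [e3]

set_option maxHeartbeats 800000 in
theorem nl_exists_aux (S : Sp) (A : Apx) {μ C sb : ℝ} (h1 : 13 / 16 ≤ μ) (h2 : μ ≤ 7 / 8)
    (hC : 0 < C) (hsb : 4 ≤ sb) (h : ∀ s1, sb ≤ s1 → Nonempty (LinInv S A μ C s1)) :
    Nonempty (Nl S) := by
  obtain ⟨c⟩ := cv_exists S A
  obtain ⟨cg, Cg, hcg, hCg, hg⟩ := garding_g S A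
  obtain ⟨KE, hKE⟩ := c.Th_e_le (μ := μ) (by linarith)
  have hAC := nl_AC_nonneg A
  have hc1 := A.c1_pos
  set K : ℝ := 4 * Cg * ‖S.M‖ with hK
  have hK0 : 0 ≤ K := by positivity
  set k : ℝ := K * C with hk
  have hk0 : 0 ≤ k := by positivity
  obtain ⟨δ, hδ, hδ1, hδ2, hδ3, hδ4⟩ := ((eventually_mem_nhdsWithin (s := Ioi (0 : ℝ))).and
    ((nl_ev 1 one_pos).and ((nl_ev (5 * k * C + 3 * k ^ 2 * C) (show (0 : ℝ) < 1 / 2 by norm_num)).and
    ((nl_ev (‖S.T.a‖ * (4 * Cg) * (2 * k + k ^ 2)) (half_pos hcg)).and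
    (nl_ev (|S.CM| * C) (half_pos hc1)))))).exists
  rw [one_mul] at hδ1
  replace hδ : 0 < δ := hδ
  have t : Tendsto (fun s : ℝ => KE ^ 2 * Real.exp (-s)) atTop (𝓝 (KE ^ 2 * 0)) :=
    Real.tendsto_exp_neg_atTop_nhds_zero.const_mul _
  rw [mul_zero] at t
  obtain ⟨s1, hs1, hs1'⟩ := ((eventually_ge_atTop sb).and
    (t.eventually_le_const (show 0 < (δ / 2) ^ 2 by positivity))).exists
  have hs0 : 0 ≤ s1 := by linarith
  obtain ⟨L⟩ := h s1 hs1
  have ec : Continuous fun s => Real.exp (-(s / 2)) • S.mul (Th μ s) (c.e s) :=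
    (by fun_prop : Continuous fun s : ℝ => Real.exp (-(s / 2))).smul
      ((S.mul_family (nl_Th_smooth μ)).clm_apply c.e_cont)
  obtain ⟨E0, hE0, hE0'⟩ := nl_small _ ec (K := KE) (s1 := s1) fun s hs => by
    rw [norm_smul, Real.norm_of_nonneg (Real.exp_pos _).le, mul_comm]
    exact mul_le_mul_of_nonneg_right (hKE s (by linarith)) (Real.exp_pos _).le
  have hE1 : ‖E0‖ ≤ δ / 2 :=
    (pow_le_pow_iff_left₀ (norm_nonneg _) (by positivity) two_ne_zero).1 (hE0.trans hs1')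
  have hP : ∀ s, s1 ≤ s → ‖Pop S A s‖ ≤ K := fun s hs =>
    Pop_le S A (hg s (by linarith)).2.2.2.2.1
  obtain ⟨T, hT, hT'⟩ := nl_bilin (volume.restrict (Ioi s1)) (Pop S A) (Pop_cont S A) hK0 (by
    filter_upwards [ae_restrict_mem measurableSet_Ioi] with s hs using hP s (le_of_lt hs))
  have hR0 : ∀ F, ‖L.R0 F‖ ≤ C * ‖F‖ := fun F =>
    (L.R0.le_opNorm F).trans (mul_le_mul_of_nonneg_right L.R0_le (norm_nonneg _))
  obtain ⟨F, hF, hfix⟩ := nl_fix (T.comp L.R0) L.R1 L.R2 E0 hk0 hC.le hδ hδ1 (fun F f => by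
    refine (hT (L.R0 F) f).trans (mul_le_mul_of_nonneg_right ?_ (norm_nonneg _))
    rw [hk, mul_assoc K]
    exact mul_le_mul_of_nonneg_left (hR0 F) hK0) L.R1_le L.R2_le hδ2 hE1
  simp only [ContinuousLinearMap.comp_apply] at hfix
  obtain ⟨v, Z, hsol, hae, hell⟩ := L.spec F
  have hU : ∀ s, ‖L.R0 F s‖ ≤ C * δ := fun s =>
    ((L.R0 F).norm_coe_le_norm s).trans ((hR0 F).trans (mul_le_mul_of_nonneg_left hF hC.le))
  have hFae : ∀ᵐ s ∂(volume.restrict (Ioi s1)), F s =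
      -(Real.exp (-(s / 2)) • S.mul (Th μ s) (c.e s)) - (2 : ℝ) • Pop S A s (L.R0 F s) (L.R1 F s) -
      Pop S A s (L.R0 F s) (Pop S A s (L.R0 F s) (L.R1 F s)) +
      (1 / 2 : ℝ) • Pop S A s (L.R0 F s) (L.R2 F s) := by
    filter_upwards [Lp.coeFn_add (-E0 - (2 : ℝ) • T (L.R0 F) (L.R1 F) -
        T (L.R0 F) (T (L.R0 F) (L.R1 F))) ((1 / 2 : ℝ) • T (L.R0 F) (L.R2 F)),
      Lp.coeFn_sub (-E0 - (2 : ℝ) • T (L.R0 F) (L.R1 F)) (T (L.R0 F) (T (L.R0 F) (L.R1 F))),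
      Lp.coeFn_sub (-E0) ((2 : ℝ) • T (L.R0 F) (L.R1 F)), Lp.coeFn_neg E0, hE0',
      Lp.coeFn_smul (2 : ℝ) (T (L.R0 F) (L.R1 F)), Lp.coeFn_smul (1 / 2 : ℝ) (T (L.R0 F) (L.R2 F)),
      hT' (L.R0 F) (L.R1 F), hT' (L.R0 F) (L.R2 F), hT' (L.R0 F) (T (L.R0 F) (L.R1 F))]
      with s a1 a2 a3 a4 a5 a6 a7 a8 a9 a10
    rw [← hfix] at a1
    rw [a1, Pi.add_apply, a2, Pi.sub_apply, a3, Pi.sub_apply, a4, Pi.neg_apply, a5, a6, a7,
      Pi.smul_apply, Pi.smul_apply, a10, a8, a9]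
  set W : ℝ := 2 * (5 * A.C * Real.exp 1) ^ 2 + 2 * (4 * Cg * 56) ^ 2 * Real.exp 1 * C ^ 2 with hW
  have hW0 : 0 ≤ W := by positivity
  clear_value W
  set B : ℝ := 4 * (Cg + 1) + ‖S.M‖ * C with hB
  have hB0 : 0 ≤ B := by positivity
  clear_value B
  refine ⟨⟨s1, μ, A.a, min (cg / 2) (A.c1 / 2), Cg + B + W, fun s => c.w s + v s,
    fun s => c.Z s + Z s, fun s => S.T.ι (c.w s) + L.R0 F s, A.a_pos,
    lt_min (half_pos hcg) (half_pos hc1), by positivity, by linarith, hs0, fun s2 hs2 => ?_, ?_,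
    fun s hs u => ?_, fun s hs => ?_, fun s hs x hx => ?_, fun s hs => ?_, ?_⟩⟩
  · simpa only [one_smul] using (c.sol s1 s2).add_smul (hsol s2 hs2) 1
  · filter_upwards [hae, hFae] with s a b
    exact c.eqn μ s _ _ _ _ _ _ a.1 a.2.1 a.2.2 b
  · obtain ⟨g1, -, -, -, -, g2, -⟩ := hg s (by linarith)
    rw [c.sq1_split, map_add, add_apply]
    have b0 := g1 u
    have b1 := nl_low_le S s u
    have b2 : ∀ y, ‖Pop S A s (L.R0 F s) y‖ ≤ k * δ * ‖y‖ := fun y => by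
      refine ((Pop S A s).le_opNorm₂ _ y).trans (mul_le_mul_of_nonneg_right ?_ (norm_nonneg _))
      rw [hk, mul_assoc K]
      exact mul_le_mul (hP s hs) (hU s) (norm_nonneg _) hK0
    have b3 : ‖(2 : ℝ) • Pop S A s (L.R0 F s) u + Pop S A s (L.R0 F s) (Pop S A s (L.R0 F s) u)‖ ≤
        (2 * k + k ^ 2) * δ * ‖u‖ := by
      refine (norm_add_le _ _).trans ?_
      rw [norm_smul, Real.norm_of_nonneg (by norm_num)]
      have q1 := b2 u
      have q2 := (b2 (Pop S A s (L.R0 F s) u)).trans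
        (mul_le_mul (mul_le_mul_of_nonneg_left hδ1 hk0) q1 (norm_nonneg _) (by positivity))
      nlinarith
    have b4 := ((S.mul fun x => A.g s x ^ 2).le_opNorm _).trans
      (mul_le_mul (S.mul_le _ _ g2) b3 (norm_nonneg _) (by positivity))
    have b5 := (S.T.a.le_opNorm₂ _ u).trans (mul_le_mul_of_nonneg_right
      (mul_le_mul_of_nonneg_left b4 (norm_nonneg S.T.a)) (norm_nonneg u))
    rw [Real.norm_eq_abs] at b5
    have b6 := mul_le_mul_of_nonneg_right hδ3 (sq_nonneg ‖u‖)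
    have b7 := mul_le_mul_of_nonneg_right (min_le_left (cg / 2) (A.c1 / 2)) (sq_nonneg ‖u‖)
    have b8 := mul_le_mul_of_nonneg_left b1 hCg.le
    have b9 : 0 ≤ (B + W) * (Real.exp s * ‖S.T.ι u‖ ^ 2) := by positivity
    have b10 := neg_abs_le (S.T.a (S.mul (fun x => A.g s x ^ 2)
      ((2 : ℝ) • Pop S A s (L.R0 F s) u + Pop S A s (L.R0 F s) (Pop S A s (L.R0 F s) u))) u)
    have b11 : ‖S.T.a‖ * (4 * Cg * ((2 * k + k ^ 2) * δ * ‖u‖)) * ‖u‖ =
        ‖S.T.a‖ * (4 * Cg) * (2 * k + k ^ 2) * δ * ‖u‖ ^ 2 := by ring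
    have b12 : (Cg + B + W) * Real.exp s * ‖S.T.ι u‖ ^ 2 = Cg * (Real.exp s * ‖S.T.ι u‖ ^ 2) +
        (B + W) * (Real.exp s * ‖S.T.ι u‖ ^ 2) := by ring
    rw [b11] at b5
    rw [b12]
    linarith
  · rw [map_add]
    have b1 := c.M_w_le (hg s (by linarith)).2.2.2.1
    have b2 : ‖S.M (L.R0 F s)‖ ≤ ‖S.M‖ * C := (S.M.le_opNorm _).trans
      (mul_le_mul_of_nonneg_left ((hU s).trans (by nlinarith)) (norm_nonneg _))
    have b3 := norm_add_le (S.M (S.T.ι (c.w s))) (S.M (L.R0 F s))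
    linarith
  · rw [c.xi_hat s _ hx]
    have b1 := A.g_lo s x ⟨hx.1.le, hx.2.le⟩
    have b2 := (S.M_mult (L.R0 F s)).b0 x hx
    have b3 : S.CM * ‖L.R0 F s‖ ≤ |S.CM| * (C * δ) :=
      mul_le_mul (le_abs_self _) (hU s) (norm_nonneg _) (abs_nonneg _)
    have b4 := neg_abs_le (xi (L.R0 F s) x / (x * (1 - x)))
    have b5 := min_le_right (cg / 2) (A.c1 / 2)
    nlinarith
  · have b1 := nl_win (by linarith) hs (fun s => c.w s + v s) (L.R1 F) (a := 5 * A.C)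
      (b := 4 * Cg * 56) (by positivity) (by positivity) (by
        filter_upwards [hae, ae_restrict_mem measurableSet_Ioi] with r a hr
        have hr0 : 0 ≤ r := hs0.trans (le_of_lt hr)
        have q1 := c.w_le hr0
        have q2 := nl_v_le S A (hg r hr0).2.2.2.2.2.2 _ _ a.2.1
        have q3 := norm_add_le (c.w r) (v r)
        linarith)
    have b2 : ‖L.R1 F‖ ≤ C := (L.R1.le_opNorm F).trans
      ((mul_le_mul L.R1_le (hF.trans hδ1) (norm_nonneg _) hC.le).trans (by rw [mul_one]))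
    have b3 := mul_le_mul_of_nonneg_left (pow_le_pow_left₀ (norm_nonneg _) b2 2)
      (show 0 ≤ 2 * (4 * Cg * 56) ^ 2 * Real.exp 1 by positivity)
    linarith
  · simpa only [map_add, c.ell_w, add_sub_cancel_left] using hell

end Crest.Agent.R213
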