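import Crest.Agent.R213.IIneq
import Crest.Agent.R213.IEnergy
import Crest.Agent.R213.Nl4

/-! # R213 / INl : the fixed point

`p s = mul (1/g s) ∘ M (R0 F s)` (multiplication by `ξ/(φ0 g)`), `‖p s‖ ≤ K‖F‖`, continuous in `s`.
`Φ F = -e^{-s/2} mul Th (Ecl s) - (2p + p²) R1 F + (1/2) p R2 F` on `YY s1`, `Ecl s` = class of `E s` (`rep_family`);
`‖e^{-s/2} mul Th Ecl‖_{YY}² ≤ K e^{-s1}` (`Th·E` is supported in `[1/4,1/2]` where `e^{μs}wh ≤ 16`; `rep_mul`, `norm_le_of_rep`).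
Contraction on a small closed ball for `s1` large.  Multipliers commute, so at the fixed point
`Z = τ(-g²(1+p)²v + (1 + p/2) bξ - E)`.  Add the classical curve `ṽ s` (class of `vt s`; `G ι ṽ` = class of `xt s` by `G_of_rep`,
its derivative is the class of `τ(E - g² vt)`; `IsSol.of_hasDerivAt`): `v̂ = ṽ + v`, `Û = ι ṽ + R0 F`,
`1 + M Û = mul (g + ξ/φ0) = mul g (1 + p)`, `bξ = -2 g² p ṽ` (`b_eq`, `ext_d0`), hence `Ẑ = -τ (1 + M Û)² v̂`.
Gårding: `garding_g` + smallness of `p`; `∫(d0 u/(x+λ))² ≤ e^s‖ι u‖²`; `ell ṽ = st s 0`;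
`v = mul(1/g²) mul(1/Th) e^{s/2} R1 F`, `‖ṽ s‖ ≤ 5C e^s`. -/

set_option autoImplicit false

open MeasureTheory Set Filter Topology
open scoped ContDiff InnerProductSpace

namespace Crest.Agent.R213

theorem nl_exists (S : Sp) (A : Apx) {μ C sb : ℝ} (h1 : 13 / 16 ≤ μ) (h2 : μ ≤ 7 / 8) (hC : 0 < C)
    (hsb : 4 ≤ sb) (h : ∀ s1, sb ≤ s1 → Nonempty (LinInv S A μ C s1)) : Nonempty (Nl S) :=
  nl_exists_aux S A h1 h2 hC hsb h

end Crest.Agent.R213
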