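import Crest.Agent.R213.Base

/-! # R213 / SigB : calculus of `X σ = x^{-9} ∫_0^x (x-r) r⁹ σ(r) dr` for a general `σ` -/

set_option autoImplicit false

open MeasureTheory Set Filter Topology
open scoped ContDiff

namespace Crest.Agent.R213
namespace SigB

noncomputable def A (σ : ℝ → ℝ) (x : ℝ) : ℝ := ∫ r in (0 : ℝ)..x, r ^ 9 * σ r
noncomputable def P (σ : ℝ → ℝ) (x : ℝ) : ℝ := ∫ r in (0 : ℝ)..x, (x - r) * r ^ 9 * σ r
noncomputable def X (σ : ℝ → ℝ) (x : ℝ) : ℝ := P σ x / x ^ 9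

variable {σ : ℝ → ℝ}

theorem ii_mono {g : ℝ → ℝ} (hi : IntervalIntegrable g volume 0 1) {x y : ℝ}
    (hx : x ∈ Icc (0 : ℝ) 1) (hy : y ∈ Icc (0 : ℝ) 1) : IntervalIntegrable g volume x y := by
  refine hi.mono_set ?_
  rw [uIcc_of_le (zero_le_one' ℝ)]
  exact uIcc_subset_Icc hx hy

theorem hasDerivAt_prim {g : ℝ → ℝ} (hc : ContinuousOn g (Ioo 0 1)) {a x : ℝ}
    (hi : IntervalIntegrable g volume a x) (hx : x ∈ Ioo (0 : ℝ) 1) :
    HasDerivAt (fun y => ∫ r in a..y, g r) (g x) x :=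
  intervalIntegral.integral_hasDerivAt_right hi
    (hc.stronglyMeasurableAtFilter isOpen_Ioo x hx) (hc.continuousAt (isOpen_Ioo.mem_nhds hx))

theorem ii_pow (hi : IntervalIntegrable σ volume 0 1) (k : ℕ) :
    IntervalIntegrable (fun r => r ^ k * σ r) volume 0 1 :=
  hi.continuousOn_mul (by fun_prop)

theorem P_eq (hi : IntervalIntegrable σ volume 0 1) {x : ℝ} (hx : x ∈ Ioo (0 : ℝ) 1) :
    P σ x = x * A σ x - ∫ r in (0 : ℝ)..x, r ^ 10 * σ r := by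
  have h0 : (0 : ℝ) ∈ Icc (0 : ℝ) 1 := ⟨le_rfl, zero_le_one⟩
  have h9 := ii_mono (ii_pow hi 9) h0 (Ioo_subset_Icc_self hx)
  have h10 := ii_mono (ii_pow hi 10) h0 (Ioo_subset_Icc_self hx)
  unfold P A
  rw [← intervalIntegral.integral_const_mul, ← intervalIntegral.integral_sub (h9.const_mul x) h10]
  congr 1
  funext r
  ring

theorem hasDerivAt_A (hc : ContinuousOn σ (Ioo 0 1)) (hi : IntervalIntegrable σ volume 0 1)
    {x : ℝ} (hx : x ∈ Ioo (0 : ℝ) 1) : HasDerivAt (A σ) (x ^ 9 * σ x) x :=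
  hasDerivAt_prim (g := fun r => r ^ 9 * σ r) (ContinuousOn.mul (by fun_prop) hc)
    (ii_mono (ii_pow hi 9) ⟨le_rfl, zero_le_one⟩ (Ioo_subset_Icc_self hx)) hx

theorem hasDerivAt_P (hc : ContinuousOn σ (Ioo 0 1)) (hi : IntervalIntegrable σ volume 0 1)
    {x : ℝ} (hx : x ∈ Ioo (0 : ℝ) 1) : HasDerivAt (P σ) (A σ x) x := by
  have h1 := hasDerivAt_A hc hi hx
  have h2 := hasDerivAt_prim (g := fun r => r ^ 10 * σ r) (ContinuousOn.mul (by fun_prop) hc)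
    (ii_mono (ii_pow hi 10) ⟨le_rfl, zero_le_one⟩ (Ioo_subset_Icc_self hx)) hx
  have h3 := ((hasDerivAt_id x).mul h1).sub h2
  have h4 : P σ =ᶠ[𝓝 x] fun y => y * A σ y - ∫ r in (0 : ℝ)..y, r ^ 10 * σ r := by
    filter_upwards [isOpen_Ioo.mem_nhds hx] with y hy using P_eq hi hy
  refine HasDerivAt.congr_of_eventuallyEq (h3.congr_deriv ?_) h4
  simp only [id]
  ring

theorem hasDerivAt_X (hc : ContinuousOn σ (Ioo 0 1)) (hi : IntervalIntegrable σ volume 0 1)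
    {x : ℝ} (hx : x ∈ Ioo (0 : ℝ) 1) :
    HasDerivAt (X σ) (A σ x / x ^ 9 - 9 * X σ x / x) x := by
  have hx0 : x ≠ 0 := hx.1.ne'
  have h1 := (hasDerivAt_P hc hi hx).div (hasDerivAt_pow 9 x) (pow_ne_zero 9 hx0)
  refine h1.congr_deriv ?_
  unfold X
  field_simp
  norm_num
  ring

theorem deriv_X (hc : ContinuousOn σ (Ioo 0 1)) (hi : IntervalIntegrable σ volume 0 1)
    {x : ℝ} (hx : x ∈ Ioo (0 : ℝ) 1) : deriv (X σ) x = A σ x / x ^ 9 - 9 * X σ x / x :=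
  (hasDerivAt_X hc hi hx).deriv

theorem deriv2_X (hc : ContinuousOn σ (Ioo 0 1)) (hi : IntervalIntegrable σ volume 0 1)
    {x : ℝ} (hx : x ∈ Ioo (0 : ℝ) 1) :
    deriv (deriv (X σ)) x = σ x - 18 * deriv (X σ) x / x - 72 * X σ x / x ^ 2 := by
  have hx0 : x ≠ 0 := hx.1.ne'
  have h4 : deriv (X σ) =ᶠ[𝓝 x] fun y => A σ y / y ^ 9 - 9 * X σ y / y := by
    filter_upwards [isOpen_Ioo.mem_nhds hx] with y hy using deriv_X hc hi hy
  have h1 := (hasDerivAt_A hc hi hx).div (hasDerivAt_pow 9 x) (pow_ne_zero 9 hx0)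
  have h2 := ((hasDerivAt_X hc hi hx).const_mul 9).div (hasDerivAt_id x) hx0
  have h3 := (h1.sub h2).deriv
  rw [h4.deriv_eq, deriv_X hc hi hx]
  refine Eq.trans h3 ?_
  simp only [id]
  field_simp
  norm_num
  ring

theorem contDiffOn_prim {F g : ℝ → ℝ} {n : ℕ} (hg : ContDiffOn ℝ n g (Ioo 0 1))
    (hF : ∀ x ∈ Ioo (0 : ℝ) 1, HasDerivAt F (g x) x) : ContDiffOn ℝ (n + 1 : ℕ) F (Ioo 0 1) := by
  have e : ((n + 1 : ℕ) : WithTop ℕ∞) = (n : WithTop ℕ∞) + 1 := by push_cast; rfl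
  rw [e, contDiffOn_succ_iff_deriv_of_isOpen isOpen_Ioo]
  refine ⟨fun x hx => (hF x hx).differentiableAt.differentiableWithinAt, by simp, ?_⟩
  exact hg.congr fun x hx => (hF x hx).deriv

theorem contDiffOn_X {n : ℕ} (hs : ContDiffOn ℝ n σ (Ioo 0 1))
    (hi : IntervalIntegrable σ volume 0 1) : ContDiffOn ℝ (n + 2 : ℕ) (X σ) (Ioo 0 1) := by
  have hc := hs.continuousOn
  have h1 : ContDiffOn ℝ (n + 1 : ℕ) (A σ) (Ioo 0 1) :=
    contDiffOn_prim (g := fun x => x ^ 9 * σ x) (ContDiffOn.mul (by fun_prop) hs)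
      fun x hx => hasDerivAt_A hc hi hx
  have h2 : ContDiffOn ℝ (n + 1 + 1 : ℕ) (P σ) (Ioo 0 1) :=
    contDiffOn_prim h1 fun x hx => hasDerivAt_P hc hi hx
  exact h2.div (by fun_prop) fun x hx => pow_ne_zero 9 hx.1.ne'

theorem A_scale (σ : ℝ → ℝ) {x : ℝ} (hx : 0 < x) :
    A σ x / x ^ 9 = x * ∫ t in (0 : ℝ)..1, t ^ 9 * σ (x * t) := by
  have h := intervalIntegral.integral_comp_mul_left (a := 0) (b := 1)
    (fun r => r ^ 9 * σ r) hx.ne'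
  simp only [mul_zero, mul_one, smul_eq_mul] at h
  have h2 : ∫ t in (0 : ℝ)..1, (x * t) ^ 9 * σ (x * t) =
      x ^ 9 * ∫ t in (0 : ℝ)..1, t ^ 9 * σ (x * t) := by
    rw [← intervalIntegral.integral_const_mul]
    congr 1
    funext t
    ring
  rw [h2] at h
  unfold A
  have hx0 := hx.ne'
  field_simp
  field_simp at h
  linarith

theorem X_scale (σ : ℝ → ℝ) {x : ℝ} (hx : 0 < x) :
    X σ x = x ^ 2 * ∫ t in (0 : ℝ)..1, (1 - t) * t ^ 9 * σ (x * t) := by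
  have h := intervalIntegral.integral_comp_mul_left (a := 0) (b := 1)
    (fun r => (x - r) * r ^ 9 * σ r) hx.ne'
  simp only [mul_zero, mul_one, smul_eq_mul] at h
  have h2 : ∫ t in (0 : ℝ)..1, (x - x * t) * (x * t) ^ 9 * σ (x * t) =
      x ^ 10 * ∫ t in (0 : ℝ)..1, (1 - t) * t ^ 9 * σ (x * t) := by
    rw [← intervalIntegral.integral_const_mul]
    congr 1
    funext t
    ring
  rw [h2] at h
  unfold X P
  have hx0 := hx.ne'
  field_simp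
  field_simp at h
  linarith

theorem A_one (hi : IntervalIntegrable σ volume 0 1)
    (m9 : ∫ r in (0 : ℝ)..1, r ^ 9 * σ r = 0) {x : ℝ} (hx : x ∈ Ioo (0 : ℝ) 1) :
    A σ x = -∫ r in x..1, r ^ 9 * σ r := by
  have h0 : (0 : ℝ) ∈ Icc (0 : ℝ) 1 := ⟨le_rfl, zero_le_one⟩
  have h1 : (1 : ℝ) ∈ Icc (0 : ℝ) 1 := ⟨zero_le_one, le_rfl⟩
  have h := intervalIntegral.integral_add_adjacent_intervals
    (ii_mono (ii_pow hi 9) h0 (Ioo_subset_Icc_self hx))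
    (ii_mono (ii_pow hi 9) (Ioo_subset_Icc_self hx) h1)
  unfold A
  linarith

theorem P_one (hi : IntervalIntegrable σ volume 0 1)
    (m9 : ∫ r in (0 : ℝ)..1, r ^ 9 * σ r = 0) (m10 : ∫ r in (0 : ℝ)..1, r ^ 10 * σ r = 0)
    {x : ℝ} (hx : x ∈ Ioo (0 : ℝ) 1) :
    P σ x = ∫ r in x..1, (r - x) * (r ^ 9 * σ r) := by
  have h0 : (0 : ℝ) ∈ Icc (0 : ℝ) 1 := ⟨le_rfl, zero_le_one⟩
  have h1 : (1 : ℝ) ∈ Icc (0 : ℝ) 1 := ⟨zero_le_one, le_rfl⟩
  have h9 := ii_mono (ii_pow hi 9) (Ioo_subset_Icc_self hx) h1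
  have h10 := ii_mono (ii_pow hi 10) (Ioo_subset_Icc_self hx) h1
  have h := intervalIntegral.integral_add_adjacent_intervals
    (ii_mono (ii_pow hi 10) h0 (Ioo_subset_Icc_self hx)) h10
  have e : ∫ r in x..1, (r - x) * (r ^ 9 * σ r) =
      (∫ r in x..1, r ^ 10 * σ r) - x * ∫ r in x..1, r ^ 9 * σ r := by
    rw [← intervalIntegral.integral_const_mul, ← intervalIntegral.integral_sub h10 (h9.const_mul x)]
    congr 1
    funext r
    ring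
  rw [P_eq hi hx, A_one hi m9 hx, e]
  linarith

theorem X_one (hi : IntervalIntegrable σ volume 0 1)
    (m9 : ∫ r in (0 : ℝ)..1, r ^ 9 * σ r = 0) (m10 : ∫ r in (0 : ℝ)..1, r ^ 10 * σ r = 0)
    {x : ℝ} (hx : x ∈ Ioo (0 : ℝ) 1) :
    X σ x = (1 - x) ^ 2 / x ^ 9 *
      ∫ t in (0 : ℝ)..1, (1 - t) * ((1 - t * (1 - x)) ^ 9 * σ (1 - t * (1 - x))) := by
  have hx1 : (1 - x) ≠ 0 := by linarith [hx.2]
  have h := intervalIntegral.integral_comp_sub_mul (a := 0) (b := 1)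
    (fun r => (r - x) * (r ^ 9 * σ r)) hx1 1
  simp only [mul_zero, mul_one, smul_eq_mul, sub_zero, sub_sub_cancel] at h
  have h2 : ∫ t in (0 : ℝ)..1, (1 - (1 - x) * t - x) * ((1 - (1 - x) * t) ^ 9 * σ (1 - (1 - x) * t)) =
      (1 - x) * ∫ t in (0 : ℝ)..1, (1 - t) * ((1 - t * (1 - x)) ^ 9 * σ (1 - t * (1 - x))) := by
    rw [← intervalIntegral.integral_const_mul]
    congr 1
    funext t
    rw [mul_comm (1 - x) t]
    ring
  rw [h2] at h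
  unfold X
  rw [P_one hi m9 m10 hx]
  have hx0 := hx.1.ne'
  field_simp
  field_simp at h
  linarith

/-! ## pointwise bounds -/

theorem g_bd {K : ℝ} (hb : ∀ x ∈ Ioo (0 : ℝ) 1, |σ x| * Real.sqrt x ≤ K) {r : ℝ}
    (hr : r ∈ Ioo (0 : ℝ) 1) : |r ^ 9 * σ r| ≤ K * (r ^ 8 * Real.sqrt r) := by
  have h1 := hb r hr
  have h2 : Real.sqrt r * Real.sqrt r = r := Real.mul_self_sqrt hr.1.le
  have h3 : 0 ≤ r ^ 8 * Real.sqrt r := by have := hr.1.le; positivity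
  have e : |r ^ 9 * σ r| = (|σ r| * Real.sqrt r) * (r ^ 8 * Real.sqrt r) := by
    rw [abs_mul, abs_of_nonneg (pow_nonneg hr.1.le 9)]
    calc r ^ 9 * |σ r| = |σ r| * r ^ 8 * (Real.sqrt r * Real.sqrt r) := by rw [h2]; ring
      _ = _ := by ring
  rw [e]
  exact mul_le_mul_of_nonneg_right h1 h3

theorem K_nonneg {K : ℝ} (hb : ∀ x ∈ Ioo (0 : ℝ) 1, |σ x| * Real.sqrt x ≤ K) : 0 ≤ K :=
  le_trans (by positivity) (hb (1 / 2) ⟨by norm_num, by norm_num⟩)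

theorem g_bd_left {K : ℝ} (hb : ∀ x ∈ Ioo (0 : ℝ) 1, |σ x| * Real.sqrt x ≤ K) {x r : ℝ}
    (hx : x ∈ Ioo (0 : ℝ) 1) (hr : r ∈ Ioc (0 : ℝ) x) :
    |r ^ 9 * σ r| ≤ K * (x ^ 8 * Real.sqrt x) := by
  refine (g_bd hb ⟨hr.1, lt_of_le_of_lt hr.2 hx.2⟩).trans ?_
  have := hr.1.le
  have hK := K_nonneg hb
  have h2 := hr.2
  gcongr

theorem g_bd_one {K : ℝ} (hb : ∀ x ∈ Ioo (0 : ℝ) 1, |σ x| * Real.sqrt x ≤ K) {r : ℝ}
    (hr : r ∈ Ioo (0 : ℝ) 1) : |r ^ 9 * σ r| ≤ K := by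
  refine (g_bd hb hr).trans ?_
  have hK := K_nonneg hb
  have h1 : r ^ 8 ≤ 1 := pow_le_one₀ hr.1.le hr.2.le
  have h2 : Real.sqrt r ≤ 1 := Real.sqrt_le_one.2 hr.2.le
  have h3 : r ^ 8 * Real.sqrt r ≤ 1 := mul_le_one₀ h1 (Real.sqrt_nonneg r) h2
  exact mul_le_of_le_one_right hK h3

theorem A_bd_left {K : ℝ} (hb : ∀ x ∈ Ioo (0 : ℝ) 1, |σ x| * Real.sqrt x ≤ K) {x : ℝ}
    (hx : x ∈ Ioo (0 : ℝ) 1) : |A σ x / x ^ 9| ≤ K * Real.sqrt x := by
  have h := intervalIntegral.norm_integral_le_of_norm_le_const (a := 0) (b := x)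
    (f := fun r => r ^ 9 * σ r) (C := K * (x ^ 8 * Real.sqrt x)) (fun r hr => by
      rw [uIoc_of_le hx.1.le] at hr
      exact g_bd_left hb hx hr)
  have hx0 := hx.1
  rw [sub_zero, abs_of_pos hx0, Real.norm_eq_abs] at h
  rw [abs_div, abs_of_pos (pow_pos hx0 9), div_le_iff₀ (pow_pos hx0 9)]
  refine le_trans h (le_of_eq ?_)
  ring

theorem X_bd_left {K : ℝ} (hb : ∀ x ∈ Ioo (0 : ℝ) 1, |σ x| * Real.sqrt x ≤ K) {x : ℝ}
    (hx : x ∈ Ioo (0 : ℝ) 1) : |X σ x| ≤ K * (x * Real.sqrt x) := by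
  have hK := K_nonneg hb
  have h := intervalIntegral.norm_integral_le_of_norm_le_const (a := 0) (b := x)
    (f := fun r => (x - r) * r ^ 9 * σ r) (C := x * (K * (x ^ 8 * Real.sqrt x))) (fun r hr => by
      rw [uIoc_of_le hx.1.le] at hr
      rw [Real.norm_eq_abs, mul_assoc, abs_mul]
      refine mul_le_mul ?_ (g_bd_left hb hx hr) (abs_nonneg _) hx.1.le
      rw [abs_of_nonneg (sub_nonneg.2 hr.2)]
      linarith [hr.1])
  have hx0 := hx.1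
  rw [sub_zero, abs_of_pos hx0, Real.norm_eq_abs] at h
  unfold X P
  rw [abs_div, abs_of_pos (pow_pos hx0 9), div_le_iff₀ (pow_pos hx0 9)]
  refine le_trans h (le_of_eq ?_)
  ring

theorem ae_ne_one : ∀ᵐ r : ℝ, r ≠ 1 := by
  have : (volume : Measure ℝ) {1} = 0 := by simp
  exact compl_mem_ae_iff.2 this

theorem A_bd_right {K : ℝ} (hb : ∀ x ∈ Ioo (0 : ℝ) 1, |σ x| * Real.sqrt x ≤ K)
    (hi : IntervalIntegrable σ volume 0 1) (m9 : ∫ r in (0 : ℝ)..1, r ^ 9 * σ r = 0) {x : ℝ}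
    (hx : x ∈ Ioo (0 : ℝ) 1) : |A σ x| ≤ K * (1 - x) := by
  have h := intervalIntegral.norm_integral_le_of_norm_le_const_ae (a := x) (b := 1)
    (f := fun r => r ^ 9 * σ r) (C := K) (by
      filter_upwards [ae_ne_one] with r hr1 hr
      rw [uIoc_of_le hx.2.le] at hr
      exact g_bd_one hb ⟨hx.1.trans hr.1, lt_of_le_of_ne hr.2 hr1⟩)
  rw [abs_of_pos (sub_pos.2 hx.2), Real.norm_eq_abs] at h
  rw [A_one hi m9 hx, abs_neg]
  exact h

theorem P_bd_right {K : ℝ} (hb : ∀ x ∈ Ioo (0 : ℝ) 1, |σ x| * Real.sqrt x ≤ K)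
    (hi : IntervalIntegrable σ volume 0 1) (m9 : ∫ r in (0 : ℝ)..1, r ^ 9 * σ r = 0)
    (m10 : ∫ r in (0 : ℝ)..1, r ^ 10 * σ r = 0) {x : ℝ}
    (hx : x ∈ Ioo (0 : ℝ) 1) : |P σ x| ≤ K * (1 - x) ^ 2 := by
  have h := intervalIntegral.norm_integral_le_of_norm_le_const_ae (a := x) (b := 1)
    (f := fun r => (r - x) * (r ^ 9 * σ r)) (C := (1 - x) * K) (by
      filter_upwards [ae_ne_one] with r hr1 hr
      rw [uIoc_of_le hx.2.le] at hr
      rw [Real.norm_eq_abs, abs_mul]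
      refine mul_le_mul ?_ (g_bd_one hb ⟨hx.1.trans hr.1, lt_of_le_of_ne hr.2 hr1⟩) (abs_nonneg _)
        (sub_pos.2 hx.2).le
      rw [abs_of_pos (sub_pos.2 hr.1)]
      linarith [hr.2])
  rw [abs_of_pos (sub_pos.2 hx.2), Real.norm_eq_abs] at h
  rw [P_one hi m9 m10 hx]
  refine le_trans h (le_of_eq ?_)
  ring

theorem half_le_sqrt {x : ℝ} (hx : 1 / 2 ≤ x) : 1 / 2 ≤ Real.sqrt x := by
  apply Real.le_sqrt_of_sq_le
  linarith

theorem inv_pow9 {x : ℝ} (hx : 1 / 2 ≤ x) : 1 ≤ 512 * x ^ 9 := by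
  have : (1 / 2 : ℝ) ^ 9 ≤ x ^ 9 := pow_le_pow_left₀ (by norm_num) hx 9
  norm_num at this
  linarith

theorem X_bd {K : ℝ} (hb : ∀ x ∈ Ioo (0 : ℝ) 1, |σ x| * Real.sqrt x ≤ K)
    (hi : IntervalIntegrable σ volume 0 1) (m9 : ∫ r in (0 : ℝ)..1, r ^ 9 * σ r = 0)
    (m10 : ∫ r in (0 : ℝ)..1, r ^ 10 * σ r = 0) {x : ℝ}
    (hx : x ∈ Ioo (0 : ℝ) 1) : |X σ x| ≤ 2048 * K * (x * Real.sqrt x * (1 - x) ^ 2) := by
  have hK := K_nonneg hb
  have hx0 := hx.1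
  rcases le_total x (1 / 2) with h | h
  · have h1 := X_bd_left hb hx
    have h2 : 1 ≤ 2048 * (1 - x) ^ 2 := by nlinarith
    have h3 : 0 ≤ K * (x * Real.sqrt x) := by positivity
    calc |X σ x| ≤ K * (x * Real.sqrt x) * 1 := by linarith
      _ ≤ K * (x * Real.sqrt x) * (2048 * (1 - x) ^ 2) := by gcongr
      _ = _ := by ring
  · have h1 := P_bd_right hb hi m9 m10 hx
    have h2 := inv_pow9 h
    have h3 := half_le_sqrt h
    have h4 : 1 ≤ 4 * (x * Real.sqrt x) := by nlinarith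
    have h5 : 0 ≤ K * (1 - x) ^ 2 := by positivity
    unfold X
    rw [abs_div, abs_of_pos (pow_pos hx0 9), div_le_iff₀ (pow_pos hx0 9)]
    calc |P σ x| ≤ K * (1 - x) ^ 2 * 1 * 1 := by linarith
      _ ≤ K * (1 - x) ^ 2 * (4 * (x * Real.sqrt x)) * (512 * x ^ 9) := by gcongr
      _ = _ := by ring

theorem A_bd {K : ℝ} (hb : ∀ x ∈ Ioo (0 : ℝ) 1, |σ x| * Real.sqrt x ≤ K)
    (hi : IntervalIntegrable σ volume 0 1) (m9 : ∫ r in (0 : ℝ)..1, r ^ 9 * σ r = 0) {x : ℝ}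
    (hx : x ∈ Ioo (0 : ℝ) 1) : |A σ x / x ^ 9| ≤ 1024 * K * (Real.sqrt x * (1 - x)) := by
  have hK := K_nonneg hb
  have hx0 := hx.1
  rcases le_total x (1 / 2) with h | h
  · have h1 := A_bd_left hb hx
    have h2 : 1 ≤ 1024 * (1 - x) := by linarith
    have h3 : 0 ≤ K * Real.sqrt x := by positivity
    calc |A σ x / x ^ 9| ≤ K * Real.sqrt x * 1 := by linarith
      _ ≤ K * Real.sqrt x * (1024 * (1 - x)) := by gcongr
      _ = _ := by ring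
  · have h1 := A_bd_right hb hi m9 hx
    have h2 := inv_pow9 h
    have h3 := half_le_sqrt h
    have h4 : 1 ≤ 2 * Real.sqrt x := by linarith
    have h5 : 0 ≤ K * (1 - x) := mul_nonneg hK (sub_pos.2 hx.2).le
    rw [abs_div, abs_of_pos (pow_pos hx0 9), div_le_iff₀ (pow_pos hx0 9)]
    calc |A σ x| ≤ K * (1 - x) * 1 * 1 := by linarith
      _ ≤ K * (1 - x) * (2 * Real.sqrt x) * (512 * x ^ 9) := by gcongr
      _ = _ := by ring

theorem dX_bd {K : ℝ} (hc : ContinuousOn σ (Ioo 0 1))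
    (hb : ∀ x ∈ Ioo (0 : ℝ) 1, |σ x| * Real.sqrt x ≤ K)
    (hi : IntervalIntegrable σ volume 0 1) (m9 : ∫ r in (0 : ℝ)..1, r ^ 9 * σ r = 0)
    (m10 : ∫ r in (0 : ℝ)..1, r ^ 10 * σ r = 0) {x : ℝ}
    (hx : x ∈ Ioo (0 : ℝ) 1) : |deriv (X σ) x| ≤ 20000 * K * (Real.sqrt x * (1 - x)) := by
  have hK := K_nonneg hb
  have hx0 := hx.1
  have hx1 := sub_pos.2 hx.2
  have h1 := A_bd hb hi m9 hx
  have h2 := X_bd hb hi m9 m10 hx
  have h3 : |9 * X σ x / x| ≤ 9 * 2048 * K * (Real.sqrt x * (1 - x)) := by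
    rw [abs_div, abs_of_pos hx0, div_le_iff₀ hx0, abs_mul, abs_of_pos (by norm_num : (0 : ℝ) < 9)]
    have h4 : (1 - x) ^ 2 ≤ 1 - x := by nlinarith
    calc 9 * |X σ x| ≤ 9 * (2048 * K * (x * Real.sqrt x * (1 - x) ^ 2)) := by gcongr
      _ ≤ 9 * (2048 * K * (x * Real.sqrt x * (1 - x))) := by gcongr
      _ = _ := by ring
  have h5 : 0 ≤ K * (Real.sqrt x * (1 - x)) := by positivity
  rw [deriv_X hc hi hx]
  refine (abs_sub _ _).trans ?_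
  nlinarith

theorem d2X_bd {K : ℝ} (hc : ContinuousOn σ (Ioo 0 1))
    (hb : ∀ x ∈ Ioo (0 : ℝ) 1, |σ x| * Real.sqrt x ≤ K)
    (hi : IntervalIntegrable σ volume 0 1) (m9 : ∫ r in (0 : ℝ)..1, r ^ 9 * σ r = 0)
    (m10 : ∫ r in (0 : ℝ)..1, r ^ 10 * σ r = 0) {x : ℝ}
    (hx : x ∈ Ioo (0 : ℝ) 1) : |deriv (deriv (X σ)) x| * Real.sqrt x ≤ 400000 * K := by
  have hK := K_nonneg hb
  have hx0 := hx.1
  have hx1 := sub_pos.2 hx.2
  have hs : Real.sqrt x * Real.sqrt x = x := Real.mul_self_sqrt hx0.le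
  have hs0 := Real.sqrt_nonneg x
  have h0 := hb x hx
  have h1 := dX_bd hc hb hi m9 m10 hx
  have h2 := X_bd_left hb hx
  have h3 : |18 * deriv (X σ) x / x| * Real.sqrt x ≤ 18 * 20000 * K := by
    rw [abs_div, abs_of_pos hx0, div_mul_eq_mul_div, div_le_iff₀ hx0, abs_mul,
      abs_of_pos (by norm_num : (0 : ℝ) < 18)]
    have h4 : 1 - x ≤ 1 := by linarith
    calc 18 * |deriv (X σ) x| * Real.sqrt x
        ≤ 18 * (20000 * K * (Real.sqrt x * (1 - x))) * Real.sqrt x := by gcongr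
      _ ≤ 18 * (20000 * K * (Real.sqrt x * 1)) * Real.sqrt x := by gcongr
      _ = 18 * 20000 * K * (Real.sqrt x * Real.sqrt x) := by ring
      _ = _ := by rw [hs]
  have h4 : |72 * X σ x / x ^ 2| * Real.sqrt x ≤ 72 * K := by
    rw [abs_div, abs_of_pos (pow_pos hx0 2), div_mul_eq_mul_div, div_le_iff₀ (pow_pos hx0 2),
      abs_mul, abs_of_pos (by norm_num : (0 : ℝ) < 72)]
    calc 72 * |X σ x| * Real.sqrt x ≤ 72 * (K * (x * Real.sqrt x)) * Real.sqrt x := by gcongr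
      _ = 72 * K * x * (Real.sqrt x * Real.sqrt x) := by ring
      _ = _ := by rw [hs]; ring
  rw [deriv2_X hc hi hx]
  have h5 : |σ x - 18 * deriv (X σ) x / x - 72 * X σ x / x ^ 2| ≤
      |σ x| + |18 * deriv (X σ) x / x| + |72 * X σ x / x ^ 2| :=
    (abs_sub _ _).trans (by gcongr; exact abs_sub _ _)
  calc _ ≤ (|σ x| + |18 * deriv (X σ) x / x| + |72 * X σ x / x ^ 2|) * Real.sqrt x := by gcongr
    _ = |σ x| * Real.sqrt x + |18 * deriv (X σ) x / x| * Real.sqrt x +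
        |72 * X σ x / x ^ 2| * Real.sqrt x := by ring
    _ ≤ _ := by linarith

/-! ## the weighted Hardy inequality -/

theorem intOn_bdd {f : ℝ → ℝ} {b M : ℝ} (hc : ContinuousOn f (Ioo 0 b))
    (hM : ∀ x ∈ Ioo (0 : ℝ) b, |f x| ≤ M) : IntegrableOn f (Ioo 0 b) := by
  refine Integrable.mono' (g := fun _ => M) (integrableOn_const (by simp))
    (hc.aestronglyMeasurable measurableSet_Ioo) ?_
  filter_upwards [ae_restrict_mem measurableSet_Ioo] with x hx using hM x hx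

theorem ii_bdd {f : ℝ → ℝ} {b M : ℝ} (hb : 0 ≤ b) (hc : ContinuousOn f (Ioo 0 b))
    (hM : ∀ x ∈ Ioo (0 : ℝ) b, |f x| ≤ M) : IntervalIntegrable f volume 0 b :=
  (intervalIntegrable_iff_integrableOn_Ioo_of_le hb).2 (intOn_bdd hc hM)

/-- Cauchy–Schwarz on `[0, x]`. -/
theorem cs {g : ℝ → ℝ} {x : ℝ} (hx : 0 < x) (h1 : IntervalIntegrable g volume 0 x)
    (h2 : IntervalIntegrable (fun r => g r ^ 2) volume 0 x) :
    (∫ r in (0 : ℝ)..x, g r) ^ 2 ≤ x * ∫ r in (0 : ℝ)..x, g r ^ 2 := by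
  set I := ∫ r in (0 : ℝ)..x, g r with hI
  have h3 : 0 ≤ ∫ r in (0 : ℝ)..x, (x * g r - I) ^ 2 :=
    intervalIntegral.integral_nonneg hx.le fun r _ => sq_nonneg _
  have h4 : ∫ r in (0 : ℝ)..x, (x * g r - I) ^ 2 =
      x ^ 2 * (∫ r in (0 : ℝ)..x, g r ^ 2) - 2 * x * I * I + x * I ^ 2 := by
    have e : (fun r => (x * g r - I) ^ 2) =
        fun r => (x ^ 2 * g r ^ 2 - 2 * x * I * g r) + I ^ 2 := by
      funext r; ring
    rw [e, intervalIntegral.integral_add ((h2.const_mul _).sub (h1.const_mul _))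
      intervalIntegrable_const, intervalIntegral.integral_sub (h2.const_mul _) (h1.const_mul _),
      intervalIntegral.integral_const_mul, intervalIntegral.integral_const_mul,
      intervalIntegral.integral_const, ← hI]
    simp
  rw [h4] at h3
  have h5 : 0 ≤ x * (x * (∫ r in (0 : ℝ)..x, g r ^ 2) - I ^ 2) := by nlinarith
  have := (mul_nonneg_iff_of_pos_left hx).1 h5
  linarith

/-- `T σ x = x^{-17} ∫_0^x (r⁹σ)²`. -/
noncomputable def T (σ : ℝ → ℝ) (x : ℝ) : ℝ := (∫ r in (0 : ℝ)..x, (r ^ 9 * σ r) ^ 2) / x ^ 17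

theorem ii_gsq {K : ℝ} (hc : ContinuousOn σ (Ioo 0 1))
    (hb : ∀ x ∈ Ioo (0 : ℝ) 1, |σ x| * Real.sqrt x ≤ K) :
    IntervalIntegrable (fun r => (r ^ 9 * σ r) ^ 2) volume 0 1 := by
  refine ii_bdd (M := K ^ 2) zero_le_one ((ContinuousOn.mul (by fun_prop) hc).pow 2) fun r hr => ?_
  rw [abs_pow]
  exact pow_le_pow_left₀ (abs_nonneg _) (g_bd_one hb hr) 2

theorem A_sq_le {K : ℝ} (hc : ContinuousOn σ (Ioo 0 1))
    (hb : ∀ x ∈ Ioo (0 : ℝ) 1, |σ x| * Real.sqrt x ≤ K) (hi : IntervalIntegrable σ volume 0 1)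
    {x : ℝ} (hx : x ∈ Ioo (0 : ℝ) 1) : (A σ x / x ^ 9) ^ 2 ≤ T σ x := by
  have h0 : (0 : ℝ) ∈ Icc (0 : ℝ) 1 := ⟨le_rfl, zero_le_one⟩
  have h := cs hx.1 (ii_mono (ii_pow hi 9) h0 (Ioo_subset_Icc_self hx))
    (ii_mono (ii_gsq hc hb) h0 (Ioo_subset_Icc_self hx))
  have hx0 := hx.1
  unfold T A
  rw [div_pow, div_le_div_iff₀ (by positivity) (by positivity)]
  calc _ ≤ (x * ∫ r in (0 : ℝ)..x, (r ^ 9 * σ r) ^ 2) * x ^ 17 := by gcongr
    _ = _ := by ring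

theorem X_sq_le {K : ℝ} (hc : ContinuousOn σ (Ioo 0 1))
    (hb : ∀ x ∈ Ioo (0 : ℝ) 1, |σ x| * Real.sqrt x ≤ K) (hi : IntervalIntegrable σ volume 0 1)
    {x : ℝ} (hx : x ∈ Ioo (0 : ℝ) 1) : (X σ x / x) ^ 2 ≤ T σ x := by
  have h0 : (0 : ℝ) ∈ Icc (0 : ℝ) 1 := ⟨le_rfl, zero_le_one⟩
  have i1 := ii_mono (ii_pow hi 9) h0 (Ioo_subset_Icc_self hx)
  have i2 := ii_mono (ii_gsq hc hb) h0 (Ioo_subset_Icc_self hx)
  have i3 : IntervalIntegrable (fun r => (x - r) * r ^ 9 * σ r) volume 0 x := by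
    have := i1.continuousOn_mul (g := fun r => x - r) (by fun_prop)
    simpa only [mul_assoc] using this
  have i4 : IntervalIntegrable (fun r => ((x - r) * r ^ 9 * σ r) ^ 2) volume 0 x := by
    have := i2.continuousOn_mul (g := fun r => (x - r) ^ 2) (by fun_prop)
    simpa only [mul_assoc, mul_pow] using this
  have h := cs hx.1 i3 i4
  have hx0 := hx.1
  have h2 : ∫ r in (0 : ℝ)..x, ((x - r) * r ^ 9 * σ r) ^ 2 ≤
      x ^ 2 * ∫ r in (0 : ℝ)..x, (r ^ 9 * σ r) ^ 2 := by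
    rw [← intervalIntegral.integral_const_mul]
    refine intervalIntegral.integral_mono_on hx0.le i4 (i2.const_mul _) fun r hr => ?_
    have h3 : (x - r) ^ 2 ≤ x ^ 2 := by nlinarith [hr.1, hr.2]
    calc ((x - r) * r ^ 9 * σ r) ^ 2 = (x - r) ^ 2 * (r ^ 9 * σ r) ^ 2 := by ring
      _ ≤ _ := by gcongr
  unfold T X P
  rw [div_div, div_pow, div_le_div_iff₀ (by positivity) (by positivity)]
  calc _ ≤ (x * (x ^ 2 * ∫ r in (0 : ℝ)..x, (r ^ 9 * σ r) ^ 2)) * x ^ 17 := by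
        gcongr
        exact h.trans (by gcongr)
    _ = _ := by ring

theorem sum_sq_le {K : ℝ} (hc : ContinuousOn σ (Ioo 0 1))
    (hb : ∀ x ∈ Ioo (0 : ℝ) 1, |σ x| * Real.sqrt x ≤ K) (hi : IntervalIntegrable σ volume 0 1)
    {x : ℝ} (hx : x ∈ Ioo (0 : ℝ) 1) :
    (X σ x / x) ^ 2 + deriv (X σ) x ^ 2 + (x * deriv (deriv (X σ)) x) ^ 2 ≤
      3 * (x * σ x) ^ 2 + 176000 * T σ x := by
  have h1 := A_sq_le hc hb hi hx
  have h2 := X_sq_le hc hb hi hx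
  have hx0 := hx.1.ne'
  have e1 : deriv (X σ) x = A σ x / x ^ 9 - 9 * (X σ x / x) := by
    rw [deriv_X hc hi hx]; ring
  have e2 : x * deriv (deriv (X σ)) x = x * σ x - 18 * deriv (X σ) x - 72 * (X σ x / x) := by
    rw [deriv2_X hc hi hx]; field_simp
  rw [e2]
  generalize X σ x / x = u at *
  generalize A σ x / x ^ 9 = a at *
  generalize x * σ x = s at *
  generalize deriv (X σ) x = d at *
  generalize T σ x = t at *
  have h3 : d ^ 2 ≤ 164 * t := by rw [e1]; nlinarith [sq_nonneg (a + 9 * u)]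
  have h4 : (s - 18 * d - 72 * u) ^ 2 ≤ 3 * s ^ 2 + 3 * (18 * d) ^ 2 + 3 * (72 * u) ^ 2 := by
    nlinarith [sq_nonneg (s + 18 * d), sq_nonneg (s + 72 * u), sq_nonneg (18 * d - 72 * u)]
  have ht : 0 ≤ t := (sq_nonneg _).trans h1
  nlinarith

theorem xs_bd {K : ℝ} (hb : ∀ x ∈ Ioo (0 : ℝ) 1, |σ x| * Real.sqrt x ≤ K) {x : ℝ}
    (hx : x ∈ Ioo (0 : ℝ) 1) : (x * σ x) ^ 2 ≤ K ^ 2 := by
  have h1 := hb x hx
  have h2 : Real.sqrt x * Real.sqrt x = x := Real.mul_self_sqrt hx.1.le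
  have h3 : Real.sqrt x ≤ 1 := Real.sqrt_le_one.2 hx.2.le
  have h4 : |x * σ x| ≤ K := by
    rw [abs_mul, abs_of_pos hx.1]
    calc x * |σ x| = (|σ x| * Real.sqrt x) * Real.sqrt x := by rw [mul_assoc, h2]; ring
      _ ≤ K * 1 := mul_le_mul h1 h3 (Real.sqrt_nonneg _) (K_nonneg hb)
      _ = K := mul_one K
  rw [← sq_abs]
  exact pow_le_pow_left₀ (abs_nonneg _) h4 2

/-- Hardy's inequality `∫_0^b x^{-17} ∫_0^x r^16 w ≤ (1/16) ∫_0^b w`. -/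
theorem hardy {w : ℝ → ℝ} {b M : ℝ} (hb0 : 0 < b) (hb1 : b < 1) (hc : ContinuousOn w (Ioo 0 1))
    (h0 : ∀ x ∈ Ioo (0 : ℝ) 1, 0 ≤ w x) (hM : ∀ x ∈ Ioo (0 : ℝ) 1, w x ≤ M) :
    IntegrableOn (fun x => (∫ r in (0 : ℝ)..x, r ^ 16 * w r) / x ^ 17) (Ioo 0 b) ∧
    ∫ x in Ioo (0 : ℝ) b, (∫ r in (0 : ℝ)..x, r ^ 16 * w r) / x ^ 17 ≤
      1 / 16 * ∫ x in Ioo (0 : ℝ) b, w x := by
  have hz : (0 : ℝ) ∈ Icc (0 : ℝ) 1 := ⟨le_rfl, zero_le_one⟩
  have hsub : Ioo (0 : ℝ) b ⊆ Ioo 0 1 := Ioo_subset_Ioo_right hb1.le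
  have hw : IntervalIntegrable w volume 0 1 := ii_bdd (M := M) zero_le_one hc fun x hx => by
    rw [abs_of_nonneg (h0 x hx)]; exact hM x hx
  set F : ℝ → ℝ := fun x => ∫ r in (0 : ℝ)..x, r ^ 16 * w r with hF
  have hd : ∀ x ∈ Ioo (0 : ℝ) 1, HasDerivAt F (x ^ 16 * w x) x := fun x hx =>
    hasDerivAt_prim (g := fun r => r ^ 16 * w r) (ContinuousOn.mul (by fun_prop) hc)
      (ii_mono (ii_pow hw 16) hz (Ioo_subset_Icc_self hx)) hx
  have hFb : ∀ x ∈ Ioo (0 : ℝ) 1, |F x / x ^ 17| ≤ M := by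
    intro x hx
    have h := intervalIntegral.norm_integral_le_of_norm_le_const (a := 0) (b := x)
      (f := fun r => r ^ 16 * w r) (C := x ^ 16 * M) (fun r hr => by
        rw [uIoc_of_le hx.1.le] at hr
        have hr' : r ∈ Ioo (0 : ℝ) 1 := ⟨hr.1, lt_of_le_of_lt hr.2 hx.2⟩
        rw [Real.norm_eq_abs, abs_of_nonneg (mul_nonneg (pow_nonneg hr.1.le 16) (h0 r hr'))]
        exact mul_le_mul (pow_le_pow_left₀ hr.1.le hr.2 16) (hM r hr') (h0 r hr')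
          (pow_nonneg hx.1.le 16))
    have hx0 := hx.1
    rw [sub_zero, abs_of_pos hx0, Real.norm_eq_abs] at h
    rw [abs_div, abs_of_pos (pow_pos hx0 17), div_le_iff₀ (pow_pos hx0 17)]
    refine le_trans h (le_of_eq ?_)
    ring
  have hFc : ContinuousOn (fun x => F x / x ^ 17) (Ioo 0 b) := fun x hx =>
    (((hd x (hsub hx)).continuousAt.div (continuous_pow 17).continuousAt
      (pow_ne_zero 17 hx.1.ne')).continuousWithinAt)
  have i1 : IntegrableOn (fun x => F x / x ^ 17) (Ioo 0 b) :=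
    intOn_bdd hFc fun x hx => hFb x (hsub hx)
  refine ⟨i1, ?_⟩
  have i1' := (intervalIntegrable_iff_integrableOn_Ioo_of_le hb0.le).2 i1
  have i2 : IntervalIntegrable w volume 0 b := ii_mono hw hz ⟨hb0.le, hb1.le⟩
  have hd2 : ∀ x ∈ Ioo (0 : ℝ) 1,
      HasDerivAt (fun y => F y / y ^ 16) (w x - 16 * (F x / x ^ 17)) x := by
    intro x hx
    have hx0 := hx.1.ne'
    refine ((hd x hx).div (hasDerivAt_pow 16 x) (pow_ne_zero 16 hx0)).congr_deriv ?_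
    field_simp
    norm_num
    ring
  have t0 : Tendsto (fun y => F y / y ^ 16) (𝓝[>] 0) (𝓝 0) := by
    have t1 : Tendsto (fun y : ℝ => M * y) (𝓝[>] 0) (𝓝 0) := by
      have : Tendsto (fun y : ℝ => M * y) (𝓝 0) (𝓝 (M * 0)) :=
        (continuous_const.mul continuous_id).tendsto 0
      rw [mul_zero] at this
      exact this.mono_left nhdsWithin_le_nhds
    refine squeeze_zero_norm' ?_ t1
    filter_upwards [Ioo_mem_nhdsGT zero_lt_one] with y hy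
    have hy0 := hy.1
    have e : F y / y ^ 16 = F y / y ^ 17 * y := by field_simp
    rw [Real.norm_eq_abs, e, abs_mul, abs_of_pos hy0]
    exact mul_le_mul_of_nonneg_right (hFb y hy) hy0.le
  have tb : Tendsto (fun y => F y / y ^ 16) (𝓝[<] b) (𝓝 (F b / b ^ 16)) :=
    (hd2 b ⟨hb0, hb1⟩).continuousAt.tendsto.mono_left nhdsWithin_le_nhds
  have ftc := intervalIntegral.integral_eq_sub_of_hasDerivAt_of_tendsto hb0
    (fun x hx => hd2 x (hsub hx)) (i2.sub (i1'.const_mul 16)) t0 tb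
  rw [intervalIntegral.integral_sub i2 (i1'.const_mul 16), intervalIntegral.integral_const_mul,
    intervalIntegral.integral_of_le hb0.le, intervalIntegral.integral_of_le hb0.le,
    integral_Ioc_eq_integral_Ioo, integral_Ioc_eq_integral_Ioo] at ftc
  have hFb0 : 0 ≤ F b / b ^ 16 := by
    refine div_nonneg ?_ (pow_nonneg hb0.le 16)
    refine intervalIntegral.integral_nonneg_of_ae_restrict hb0.le ?_
    rw [← restrict_Ioc_eq_restrict_Icc]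
    filter_upwards [ae_restrict_mem measurableSet_Ioc] with r hr
    exact mul_nonneg (pow_nonneg hr.1.le 16) (h0 r ⟨hr.1, lt_of_le_of_lt hr.2 hb1⟩)
  linarith

theorem wbound {K : ℝ} (hs : ContDiffOn ℝ (1 : ℕ) σ (Ioo 0 1))
    (hb : ∀ x ∈ Ioo (0 : ℝ) 1, |σ x| * Real.sqrt x ≤ K) (hi : IntervalIntegrable σ volume 0 1)
    (Ω : ℝ → ℝ) (b : ℝ) (hb0 : 0 < b) (hb1 : b ≤ 1 / 2) (hΩc : Continuous Ω) (hΩ0 : ∀ x, 0 ≤ Ω x)
    (hΩa : AntitoneOn Ω (Ici 0)) :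
    IntegrableOn (fun x => Ω x * ((X σ x / x) ^ 2 + deriv (X σ) x ^ 2 +
      (x * deriv (deriv (X σ)) x) ^ 2)) (Ioo 0 b) ∧
    IntegrableOn (fun x => Ω x * (x * σ x) ^ 2) (Ioo 0 b) ∧
    ∫ x in Ioo (0 : ℝ) b, Ω x * ((X σ x / x) ^ 2 + deriv (X σ) x ^ 2 +
      (x * deriv (deriv (X σ)) x) ^ 2) ≤ 11003 * ∫ x in Ioo (0 : ℝ) b, Ω x * (x * σ x) ^ 2 := by
  have hc := hs.continuousOn
  have hb1' : b < 1 := by linarith
  have hz : (0 : ℝ) ∈ Icc (0 : ℝ) 1 := ⟨le_rfl, zero_le_one⟩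
  have hsub : Ioo (0 : ℝ) b ⊆ Ioo 0 1 := Ioo_subset_Ioo_right hb1'.le
  set w : ℝ → ℝ := fun x => Ω x * (x * σ x) ^ 2 with hw
  have wc : ContinuousOn w (Ioo 0 1) :=
    hΩc.continuousOn.mul ((continuousOn_id.mul hc).pow 2)
  have w0 : ∀ x ∈ Ioo (0 : ℝ) 1, 0 ≤ w x := fun x _ => mul_nonneg (hΩ0 x) (sq_nonneg _)
  have wM : ∀ x ∈ Ioo (0 : ℝ) 1, w x ≤ Ω 0 * K ^ 2 := fun x hx =>
    mul_le_mul (hΩa self_mem_Ici (mem_Ici.2 hx.1.le) hx.1.le) (xs_bd hb hx) (sq_nonneg _) (hΩ0 0)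
  have wi1 : IntervalIntegrable w volume 0 1 := ii_bdd (M := Ω 0 * K ^ 2) zero_le_one wc
    fun x hx => by rw [abs_of_nonneg (w0 x hx)]; exact wM x hx
  have wi : IntegrableOn w (Ioo 0 b) := intOn_bdd (M := Ω 0 * K ^ 2) (wc.mono hsub)
    fun x hx => by rw [abs_of_nonneg (w0 x (hsub hx))]; exact wM x (hsub hx)
  obtain ⟨hi1, hle⟩ := hardy hb0 hb1' wc w0 wM
  have hT : ∀ x ∈ Ioo (0 : ℝ) 1,
      Ω x * T σ x ≤ (∫ r in (0 : ℝ)..x, r ^ 16 * w r) / x ^ 17 := by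
    intro x hx
    have hx0 := hx.1
    unfold T
    rw [← mul_div_assoc, ← intervalIntegral.integral_const_mul]
    refine div_le_div_of_nonneg_right ?_ (pow_nonneg hx0.le 17)
    refine intervalIntegral.integral_mono_on hx0.le
      ((ii_mono (ii_gsq hc hb) hz (Ioo_subset_Icc_self hx)).const_mul _)
      (ii_mono (ii_pow wi1 16) hz (Ioo_subset_Icc_self hx)) fun r hr => ?_
    have h1 : Ω x ≤ Ω r := hΩa (mem_Ici.2 hr.1) (mem_Ici.2 hx0.le) hr.2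
    calc Ω x * (r ^ 9 * σ r) ^ 2 ≤ Ω r * (r ^ 9 * σ r) ^ 2 := by gcongr
      _ = r ^ 16 * w r := by simp only [hw]; ring
  have hpt : ∀ x ∈ Ioo (0 : ℝ) 1, Ω x * ((X σ x / x) ^ 2 + deriv (X σ) x ^ 2 +
      (x * deriv (deriv (X σ)) x) ^ 2) ≤
      3 * w x + 176000 * ((∫ r in (0 : ℝ)..x, r ^ 16 * w r) / x ^ 17) := by
    intro x hx
    have h1 := mul_le_mul_of_nonneg_left (sum_sq_le hc hb hi hx) (hΩ0 x)
    have h2 := hT x hx
    simp only [hw] at h2 ⊢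
    linarith
  have hX3 : ContDiffOn ℝ (1 + 2 : ℕ) (X σ) (Ioo 0 1) := contDiffOn_X hs hi
  have hX1 : ContDiffOn ℝ 2 (deriv (X σ)) (Ioo 0 1) :=
    hX3.deriv_of_isOpen isOpen_Ioo (by norm_num)
  have hX2 : ContDiffOn ℝ 1 (deriv (deriv (X σ))) (Ioo 0 1) :=
    hX1.deriv_of_isOpen isOpen_Ioo (by norm_num)
  have hcont : ContinuousOn (fun x => Ω x * ((X σ x / x) ^ 2 + deriv (X σ) x ^ 2 +
      (x * deriv (deriv (X σ)) x) ^ 2)) (Ioo 0 1) :=
    hΩc.continuousOn.mul ((((hX3.continuousOn.div continuousOn_id fun x hx => hx.1.ne').pow 2).add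
      (hX1.continuousOn.pow 2)).add ((continuousOn_id.mul hX2.continuousOn).pow 2))
  have iR : IntegrableOn (fun x => 3 * w x +
      176000 * ((∫ r in (0 : ℝ)..x, r ^ 16 * w r) / x ^ 17)) (Ioo 0 b) :=
    (wi.const_mul 3).add (hi1.const_mul 176000)
  have iL : IntegrableOn (fun x => Ω x * ((X σ x / x) ^ 2 + deriv (X σ) x ^ 2 +
      (x * deriv (deriv (X σ)) x) ^ 2)) (Ioo 0 b) := by
    refine Integrable.mono' iR ((hcont.mono hsub).aestronglyMeasurable measurableSet_Ioo) ?_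
    filter_upwards [ae_restrict_mem measurableSet_Ioo] with x hx
    rw [Real.norm_eq_abs, abs_of_nonneg (mul_nonneg (hΩ0 x) (by positivity))]
    exact hpt x (hsub hx)
  refine ⟨iL, wi, ?_⟩
  have h1 := setIntegral_mono_on iL iR measurableSet_Ioo fun x hx => hpt x (hsub hx)
  rw [integral_add (wi.const_mul 3) (hi1.const_mul 176000), integral_const_mul,
    integral_const_mul] at h1
  linarith

end SigB
end Crest.Agent.R213
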