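import Crest.Agent.R213.SigA
import Crest.Agent.R213.SigB

/-! # R213 / ISig : the explicit solution formulas `sig`, `sig1`, `xi` (no `Sp` needed)

`|∫_{1/2}^x eps h| ≤ C‖h‖ x^{-3/2}(1-x)^{-1/2}`, `|sg0 h x| ≤ C‖h‖ x^{-1/2}` by Cauchy–Schwarz. -/

set_option autoImplicit false

open MeasureTheory Set Filter Topology
open scoped ContDiff InnerProductSpace

namespace Crest.Agent.R213

theorem eps_intervalIntegrable (h : L2) {x y : ℝ} (hx : x ∈ Ioo (0 : ℝ) 1) (hy : y ∈ Ioo (0 : ℝ) 1) :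
    IntervalIntegrable (eps h) volume x y :=
  sa_eps_int h hx hy

theorem sig1_sub (h : L2) {x y : ℝ} (hx : x ∈ Ioo (0 : ℝ) 1) (hy : y ∈ Ioo (0 : ℝ) 1) :
    sig1 h y - sig1 h x = ∫ r in x..y, eps h r :=
  sa_sig1_sub h hx hy

theorem sig1_continuousOn (h : L2) : ContinuousOn (sig1 h) (Ioo 0 1) :=
  sa_sig1_cont h

theorem hasDerivAt_sig (h : L2) {x : ℝ} (hx : x ∈ Ioo (0 : ℝ) 1) :
    HasDerivAt (sig h) (sig1 h x) x :=
  sa_hasDerivAt h hx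

/-- Taylor formula with integral remainder. -/
theorem sig_taylor (h : L2) {x y : ℝ} (hx : x ∈ Ioo (0 : ℝ) 1) (hy : y ∈ Ioo (0 : ℝ) 1) :
    sig h y = sig h x + (y - x) * sig1 h x + ∫ r in x..y, (y - r) * eps h r :=
  sa_taylor h hx hy

theorem sig_lin (h k : L2) (t : ℝ) {x : ℝ} (hx : x ∈ Ioo (0 : ℝ) 1) :
    sig (h + t • k) x = sig h x + t * sig k x ∧ sig1 (h + t • k) x = sig1 h x + t * sig1 k x ∧
    xi (h + t • k) x = xi h x + t * xi k x :=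
  sa_lin h k t hx

theorem sig_bd : ∃ C : ℝ, 0 < C ∧ ∀ h : L2, ∀ x ∈ Ioo (0 : ℝ) 1,
    |sig h x| * Real.sqrt x ≤ C * ‖h‖ ∧
    |sig1 h x| * (x * Real.sqrt x * Real.sqrt (1 - x)) ≤ C * ‖h‖ :=
  sa_bd

theorem sig_moments (h : L2) : IntervalIntegrable (sig h) volume 0 1 ∧
    ∫ r in (0 : ℝ)..1, r ^ 9 * sig h r = 0 ∧ ∫ r in (0 : ℝ)..1, r ^ 10 * sig h r = 0 :=
  sa_moments h

theorem ISig_xi_eq (h : L2) : xi h = SigB.X (sig h) := rfl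

theorem ISig_cont (h : L2) : ContinuousOn (sig h) (Ioo 0 1) := fun _ hx =>
  (hasDerivAt_sig h hx).continuousAt.continuousWithinAt

theorem ISig_C1 (h : L2) : ContDiffOn ℝ (1 : ℕ) (sig h) (Ioo 0 1) :=
  SigB.contDiffOn_prim (n := 0) (contDiffOn_zero.2 (sig1_continuousOn h))
    fun _ hx => hasDerivAt_sig h hx

theorem xi_zero (h : L2) {x : ℝ} (hx : x ∈ Ioo (0 : ℝ) 1) :
    xi h x = x ^ 2 * ∫ t in (0 : ℝ)..1, (1 - t) * t ^ 9 * sig h (x * t) :=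
  SigB.X_scale (sig h) hx.1

theorem xi_one (h : L2) {x : ℝ} (hx : x ∈ Ioo (0 : ℝ) 1) :
    xi h x = (1 - x) ^ 2 / x ^ 9 *
      ∫ t in (0 : ℝ)..1, (1 - t) * ((1 - t * (1 - x)) ^ 9 * sig h (1 - t * (1 - x))) :=
  SigB.X_one (sig_moments h).1 (sig_moments h).2.1 (sig_moments h).2.2 hx

theorem deriv_xi (h : L2) {x : ℝ} (hx : x ∈ Ioo (0 : ℝ) 1) :
    deriv (xi h) x = -9 * xi h x / x + x * ∫ t in (0 : ℝ)..1, t ^ 9 * sig h (x * t) := by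
  rw [ISig_xi_eq, SigB.deriv_X (ISig_cont h) (sig_moments h).1 hx, SigB.A_scale _ hx.1]
  ring

theorem xi_contDiffOn (h : L2) : ContDiffOn ℝ 3 (xi h) (Ioo 0 1) :=
  SigB.contDiffOn_X (ISig_C1 h) (sig_moments h).1

theorem C0_xi (h : L2) {x : ℝ} (hx : x ∈ Ioo (0 : ℝ) 1) : C0 (xi h) x = sig h x := by
  unfold C0
  rw [ISig_xi_eq, SigB.deriv2_X (ISig_cont h) (sig_moments h).1 hx]
  ring

theorem xi_bd : ∃ C : ℝ, 0 < C ∧ ∀ h : L2, ∀ x ∈ Ioo (0 : ℝ) 1,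
    |xi h x| ≤ C * ‖h‖ * (x * Real.sqrt x * (1 - x) ^ 2) ∧
    |deriv (xi h) x| ≤ C * ‖h‖ * (Real.sqrt x * (1 - x)) ∧
    |deriv (deriv (xi h)) x| * Real.sqrt x ≤ C * ‖h‖ := by
  obtain ⟨C, hC, hb⟩ := sig_bd
  refine ⟨400000 * C, by positivity, fun h x hx => ?_⟩
  have hb' : ∀ y ∈ Ioo (0 : ℝ) 1, |sig h y| * Real.sqrt y ≤ C * ‖h‖ := fun y hy => (hb h y hy).1
  obtain ⟨hi, m9, m10⟩ := sig_moments h
  have h1 := SigB.X_bd hb' hi m9 m10 hx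
  have h2 := SigB.dX_bd (ISig_cont h) hb' hi m9 m10 hx
  have h3 := SigB.d2X_bd (ISig_cont h) hb' hi m9 m10 hx
  have hx0 := hx.1
  have hx1 := sub_pos.2 hx.2
  have p1 : 0 ≤ C * ‖h‖ * (x * Real.sqrt x * (1 - x) ^ 2) := by positivity
  have p2 : 0 ≤ C * ‖h‖ * (Real.sqrt x * (1 - x)) := by positivity
  rw [ISig_xi_eq]
  refine ⟨?_, ?_, ?_⟩ <;> linarith

/-- regularity gain when `hv h` has a `C^n` representative. -/
theorem sig_reg (h : L2) {f : ℝ → ℝ} {n : ℕ} (hf : ContDiffOn ℝ n f (Ioo 0 1)) (he : hv h =ᵐ[ν] f) :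
    ContDiffOn ℝ (n + 2 : ℕ) (sig h) (Ioo 0 1) ∧ ContDiffOn ℝ (n + 4 : ℕ) (xi h) (Ioo 0 1) ∧
    ∀ x ∈ Ioo (0 : ℝ) 1, deriv (deriv (sig h)) x = f x / (x * (1 - x)) ^ 2 := by
  have hg : ContDiffOn ℝ n (fun x => f x / (x * (1 - x)) ^ 2) (Ioo 0 1) :=
    hf.div (by fun_prop) fun x hx => pow_ne_zero 2 (mul_ne_zero hx.1.ne' (sub_pos.2 hx.2).ne')
  have hae : ∀ᵐ r : ℝ, r ∈ Ioo (0 : ℝ) 1 → eps h r = f r / (r * (1 - r)) ^ 2 := by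
    have h1 := (ae_restrict_iff' measurableSet_Ioo).1 he
    filter_upwards [h1] with r hr hr1
    have h2 := hr hr1
    have h3 := hr1.1.ne'
    have h4 := (sub_pos.2 hr1.2).ne'
    unfold eps
    rw [← h2]
    unfold hv
    field_simp
  have hd : ∀ x ∈ Ioo (0 : ℝ) 1, HasDerivAt (sig1 h) (f x / (x * (1 - x)) ^ 2) x := by
    intro x hx
    have h1 := (SigB.hasDerivAt_prim hg.continuousOn (a := x) IntervalIntegrable.refl hx).const_add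
      (sig1 h x)
    refine h1.congr_of_eventuallyEq ?_
    filter_upwards [isOpen_Ioo.mem_nhds hx] with y hy
    have h2 := sig1_sub h hx hy
    have h3 : ∫ r in x..y, eps h r = ∫ r in x..y, f r / (r * (1 - r)) ^ 2 := by
      refine intervalIntegral.integral_congr_ae ?_
      filter_upwards [hae] with r hr hr1
      exact hr (ordConnected_Ioo.uIoc_subset hx hy hr1)
    linarith
  have h1 := SigB.contDiffOn_prim hg hd
  have h2 : ContDiffOn ℝ (n + 2 : ℕ) (sig h) (Ioo 0 1) :=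
    SigB.contDiffOn_prim h1 fun _ hx => hasDerivAt_sig h hx
  refine ⟨h2, SigB.contDiffOn_X h2 (sig_moments h).1, fun x hx => ?_⟩
  have h4 : deriv (sig h) =ᶠ[𝓝 x] sig1 h := by
    filter_upwards [isOpen_Ioo.mem_nhds hx] with y hy using (hasDerivAt_sig h hy).deriv
  rw [h4.deriv_eq, (hd x hx).deriv]

/-- weak form of `σ'' = ε` (by parts once, then Fubini). -/
theorem sig_ibp (h : L2) {Φ : ℝ → ℝ} (hΦ : Test Φ) :
    ∫ x in Ioo (0 : ℝ) 1, sig h x * deriv (deriv Φ) x = ∫ x in Ioo (0 : ℝ) 1, eps h x * Φ x :=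
  sa_ibp h hΦ

/-- weighted bound of `ξ` by `σ` for a decreasing weight: Cauchy–Schwarz in `xi_zero`, `deriv_xi`
(`(∫ t⁹σ(xt))² ≤ ∫ t⁹σ(xt)²`), Fubini, `r = xt`, `Ω(r/t) ≤ Ω(r)`; `ξ'' = σ - 18ξ'/x - 72ξ/x²`. -/
theorem xi_wbound : ∃ C : ℝ, 0 < C ∧ ∀ (h : L2) (Ω : ℝ → ℝ) (b : ℝ), 0 < b → b ≤ 1 / 2 →
    Continuous Ω → (∀ x, 0 ≤ Ω x) → AntitoneOn Ω (Ici 0) →
    IntegrableOn (fun x => Ω x * ((xi h x / x) ^ 2 + deriv (xi h) x ^ 2 +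
      (x * deriv (deriv (xi h)) x) ^ 2)) (Ioo 0 b) ∧
    IntegrableOn (fun x => Ω x * (x * sig h x) ^ 2) (Ioo 0 b) ∧
    ∫ x in Ioo (0 : ℝ) b, Ω x * ((xi h x / x) ^ 2 + deriv (xi h) x ^ 2 +
      (x * deriv (deriv (xi h)) x) ^ 2) ≤ C * ∫ x in Ioo (0 : ℝ) b, Ω x * (x * sig h x) ^ 2 := by
  obtain ⟨C, _, hb⟩ := sig_bd
  exact ⟨11003, by norm_num, fun h Ω b hb0 hb1 hc h0 ha =>
    SigB.wbound (ISig_C1 h) (fun y hy => (hb h y hy).1) (sig_moments h).1 Ω b hb0 hb1 hc h0 ha⟩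

end Crest.Agent.R213
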