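import Mathlib

/-!
# R213 / SpecP : Plancherel for `f ∈ L¹ ∩ L²`
-/

set_option autoImplicit false

open MeasureTheory Set Filter Topology
open scoped FourierTransform

namespace Crest.Agent.R213

theorem spp_sq {g : ℝ → ℂ} (G : Lp ℂ 2 (volume : Measure ℝ)) (h : G =ᵐ[volume] g) :
    ∫ s, ‖g s‖ ^ 2 = ‖G‖ ^ 2 := by
  have h1 := L2.inner_def (𝕜 := ℂ) G G
  simp only [inner_self_eq_norm_sq_to_K] at h1
  have h2 : ((‖G‖ ^ 2 : ℝ) : ℂ) = ((∫ s, ‖G s‖ ^ 2 : ℝ) : ℂ) := by
    rw [← integral_complex_ofReal]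
    push_cast
    exact h1
  rw [Complex.ofReal_injective h2]
  exact integral_congr_ae (h.mono fun s hs => by simp only [hs])

theorem spp_ae (f : ℝ → ℂ) (hf1 : Integrable f) (hf2 : MemLp f 2 volume) :
    (𝓕 (hf2.toLp f) : Lp ℂ 2 (volume : Measure ℝ)) =ᵐ[volume] 𝓕 f := by
  have hc : Continuous (𝓕 f) := VectorFourier.fourierIntegral_continuous Real.continuous_fourierChar
    (innerSL ℝ).continuous₂ hf1
  refine ae_eq_of_integral_contDiff_smul_eq ((Lp.memLp _).locallyIntegrable one_le_two)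
    hc.locallyIntegrable fun g hg hs => ?_
  let φ : SchwartzMap ℝ ℂ := (hs.comp_left (g := fun x : ℝ => (x : ℂ)) rfl).toSchwartzMap
    (Complex.ofRealCLM.contDiff.comp hg)
  have h1 := congrArg (fun T => T φ) (Lp.fourier_toTemperedDistribution_eq (hf2.toLp f))
  simp only [TemperedDistribution.fourier_apply, Lp.toTemperedDistribution_apply] at h1
  have h2 := VectorFourier.integral_fourierIntegral_smul_eq_flip (μ := volume) (ν := volume)
    (e := Real.fourierChar) (L := innerₗ ℝ) (f := φ) (g := f) Real.continuous_fourierChar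
    continuous_inner φ.integrable hf1
  rw [flip_innerₗ] at h2
  calc _ = ∫ x, φ x • (𝓕 (hf2.toLp f) : Lp ℂ 2 (volume : Measure ℝ)) x := rfl
    _ = ∫ x, 𝓕 φ x • f x := h1.symm.trans
        (integral_congr_ae (hf2.coeFn_toLp.mono fun x hx => by simp only [hx]))
    _ = _ := h2

/-- Let `F = hf2.toLp f`.  `𝓕 F` (the `L²` transform of `Mathlib/Analysis/Fourier/LpSpace`) equals the
integral `𝓕 f` a.e.: test against smooth compactly supported `g` (`ae_eq_of_integral_contDiff_smul_eq`;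
`g` is a Schwartz function, `HasCompactSupport.toSchwartzMap`), use
`Lp.fourier_toTemperedDistribution_eq`, `Lp.toTemperedDistribution_apply` and the multiplication
formula `∫ g 𝓕f = ∫ (𝓕 g) f` (`Real.integral_fourier_smul_eq_flip`/`VectorFourier.integral_fourierIntegral_smul_eq_flip`).
Then `Lp.norm_fourier_eq`. -/
theorem sp_planch (f : ℝ → ℂ) (hf1 : Integrable f) (hf2 : MemLp f 2 volume) :
    MemLp (𝓕 f) 2 volume ∧ ∫ w, ‖𝓕 f w‖ ^ 2 = ∫ s, ‖f s‖ ^ 2 := by
  have h := spp_ae f hf1 hf2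
  refine ⟨(Lp.memLp _).ae_eq h, ?_⟩
  rw [spp_sq _ h, spp_sq _ hf2.coeFn_toLp, Lp.norm_fourier_eq]

end Crest.Agent.R213
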