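import Crest.Agent.R213.SpecA
import Crest.Agent.R213.SpecP

/-!
# R213 / SpecL : lower bound for `1 - 𝒦†` on the line

Coordinatewise: `ψ j r = φ r j - ∑ i, ∫ u, φ (r+u) i * k i u j`, `k i u = e^{-au} κ i u` (the Bochner integral
exists for every `r`: both factors are `L²`; take coordinates with `EuclideanSpace.proj`,
`ContinuousLinearMap.integral_comp_comm`).  `r ↦ ∫ φ (r+u) i * k i u j` is the convolution of
`u ↦ k i (-u) j` with `φ · i` (both `L¹`, `sp_damp`), so it is `L¹`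
(`Integrable.integrable_convolution`), `L²` by `sp_corr` with `L = 0`, and its Fourier transform at `ω` is
`𝓕 (φ · i) ω * 𝓕 (k i · j) (-ω)` (`Real.fourier_mul_convolution_eq`).  Apply `sp_planch` to the complexified
`ψ j` and `φ · j`, `hc` at `-ω` with `v i = 𝓕 (φ · i) ω`, and integrate.
-/

set_option autoImplicit false

open MeasureTheory Set Filter Topology
open scoped FourierTransform

namespace Crest.Agent.R213

theorem spl_corr (f k : ℝ → ℝ) (hf : Integrable f) (hk : Integrable k) :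
    Integrable (fun r : ℝ => ((∫ u, f (r + u) * k u : ℝ) : ℂ)) ∧
      ∀ ω : ℝ, 𝓕 (fun r : ℝ => ((∫ u, f (r + u) * k u : ℝ) : ℂ)) ω =
        𝓕 (fun s : ℝ => (f s : ℂ)) ω * 𝓕 (fun u : ℝ => (k u : ℂ)) (-ω) := by
  have hf' : Integrable (fun s : ℝ => (f s : ℂ)) := hf.ofReal
  have hk' : Integrable (fun u : ℝ => (k (-u) : ℂ)) := (hk.comp_neg).ofReal
  have e : (fun r : ℝ => ((∫ u, f (r + u) * k u : ℝ) : ℂ)) =
      MeasureTheory.convolution (fun u : ℝ => (k (-u) : ℂ)) (fun s : ℝ => (f s : ℂ))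
        (ContinuousLinearMap.mul ℂ ℂ) volume := by
    funext r
    rw [convolution_def, ← integral_neg_eq_self _ (volume : Measure ℝ), ← integral_complex_ofReal]
    refine integral_congr_ae (Eventually.of_forall fun t => ?_)
    simp [mul_comm, sub_eq_add_neg]
  rw [e]
  refine ⟨hk'.integrable_convolution _ hf', fun ω => ?_⟩
  rw [Real.fourier_mul_convolution_eq hk' hf', mul_comm]
  congr 1
  rw [← Real.fourierInv_eq_fourier_neg, Real.fourierInv_eq_fourier_comp_neg]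

theorem spl_lin {m : ℕ} (P : ℝ → ℂ) (C : Fin m → ℝ → ℂ) (hP : Integrable P)
    (hC : ∀ i, Integrable (C i)) (ω : ℝ) :
    𝓕 (fun r => P r - ∑ i, C i r) ω = 𝓕 P ω - ∑ i, 𝓕 (C i) ω := by
  simp only [Real.fourier_eq, smul_sub, Finset.smul_sum]
  rw [integral_sub ((Real.fourierIntegral_convergent_iff ω).2 hP)
    (integrable_finsetSum _ fun i _ => (Real.fourierIntegral_convergent_iff ω).2 (hC i)),
    integral_finsetSum _ fun i _ => (Real.fourierIntegral_convergent_iff ω).2 (hC i)]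

theorem spl_norm {m : ℕ} (x : EuclideanSpace ℝ (Fin m)) :
    ‖x‖ ^ 2 = ∑ j, ‖((x j : ℝ) : ℂ)‖ ^ 2 := by
  rw [EuclideanSpace.norm_sq_eq]
  simp

theorem sp_lower {m : ℕ} (κ : Fin m → ℝ → EuclideanSpace ℝ (Fin m))
    (hκ : ∀ i, MemLp (κ i) 2 volume) (hκ0 : ∀ i u, u ≤ 0 → κ i u = 0) (a c : ℝ) (ha : 0 < a)
    (hc : ∀ (ω : ℝ) (v : Fin m → ℂ), c * ∑ j, ‖v j‖ ^ 2 ≤
      ∑ j, ‖v j - ∑ i, v i * 𝓕 (fun u : ℝ => ((Real.exp (-(a * u)) * κ i u j : ℝ) : ℂ)) ω‖ ^ 2)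
    (φ : ℝ → EuclideanSpace ℝ (Fin m)) (h1 : Integrable φ) (h2 : MemLp φ 2 volume) :
    c * ∫ r, ‖φ r‖ ^ 2 ≤
      ∫ r, ‖φ r - ∑ i, ∫ u, φ (r + u) i • (Real.exp (-(a * u)) • κ i u)‖ ^ 2 := by
  have hφ1 : ∀ j, Integrable (fun r => φ r j) := fun j =>
    (EuclideanSpace.proj (𝕜 := ℝ) j).integrable_comp h1
  have hφ2 : ∀ j, MemLp (fun r => φ r j) 2 volume := fun j =>
    (EuclideanSpace.proj (𝕜 := ℝ) j).comp_memLp' h2
  have hκ2 : ∀ i j, MemLp (fun u => κ i u j) 2 volume := fun i j =>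
    (EuclideanSpace.proj (𝕜 := ℝ) j).comp_memLp' (hκ i)
  have hκz : ∀ i j u, u ≤ 0 → κ i u j = 0 := fun i j u hu => by rw [hκ0 i u hu]; rfl
  have hk1 : ∀ i j, Integrable (fun u => Real.exp (-(a * u)) * κ i u j) := fun i j =>
    (sp_damp (fun u => κ i u j) (hκ2 i j) a ha (hκz i j)).1
  set P : Fin m → ℝ → ℂ := fun j r => ((φ r j : ℝ) : ℂ) with hP
  set C : Fin m → Fin m → ℝ → ℂ := fun i j r =>
    ((∫ u, φ (r + u) i * (Real.exp (-(a * u)) * κ i u j) : ℝ) : ℂ) with hC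
  have hP1 : ∀ j, Integrable (P j) := fun j => (hφ1 j).ofReal
  have hP2 : ∀ j, MemLp (P j) 2 volume := fun j => (hφ2 j).ofReal
  have hC1 : ∀ i j, Integrable (C i j) := fun i j =>
    (spl_corr (fun r => φ r i) _ (hφ1 i) (hk1 i j)).1
  have hC2 : ∀ i j, MemLp (C i j) 2 volume := fun i j =>
    (sp_corr (fun u => κ i u j) (hκ2 i j) a 0 ha (hκz i j) (fun r => φ r i) (hφ2 i)).1.ofReal
  have hCF : ∀ i j ω, 𝓕 (C i j) ω = 𝓕 (P i) ω *
      𝓕 (fun u : ℝ => ((Real.exp (-(a * u)) * κ i u j : ℝ) : ℂ)) (-ω) := fun i j =>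
    (spl_corr (fun r => φ r i) _ (hφ1 i) (hk1 i j)).2
  set Ψ : Fin m → ℝ → ℂ := fun j r => P j r - ∑ i, C i j r with hΨ
  have hΨ1 : ∀ j, Integrable (Ψ j) := fun j =>
    (hP1 j).sub (integrable_finsetSum _ fun i _ => hC1 i j)
  have hΨ2 : ∀ j, MemLp (Ψ j) 2 volume := fun j =>
    (hP2 j).sub (memLp_finsetSum _ fun i _ => hC2 i j)
  have e1 : ∀ r, ‖φ r‖ ^ 2 = ∑ j, ‖P j r‖ ^ 2 := fun r => spl_norm _
  have e2 : ∀ r, ‖φ r - ∑ i, ∫ u, φ (r + u) i • (Real.exp (-(a * u)) • κ i u)‖ ^ 2 =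
      ∑ j, ‖Ψ j r‖ ^ 2 := by
    intro r
    rw [spl_norm]
    refine Finset.sum_congr rfl fun j _ => ?_
    have hi : ∀ i, (∫ u, φ (r + u) i • (Real.exp (-(a * u)) • κ i u)) j =
        ∫ u, φ (r + u) i * (Real.exp (-(a * u)) * κ i u j) := by
      intro i
      have hs : MemLp (fun u => φ (r + u) i) 2 volume :=
        (hφ2 i).comp_measurePreserving (measurePreserving_add_left volume r)
      have hint : Integrable (fun u => φ (r + u) i • (Real.exp (-(a * u)) • κ i u)) :=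
        memLp_one_iff_integrable.1 ((sp_damp (κ i) (hκ i) a ha (hκ0 i)).2.smul hs)
      exact ((EuclideanSpace.proj (𝕜 := ℝ) j).integral_comp_comm hint).symm
    congr 2
    simp only [hΨ, hP, hC, PiLp.sub_apply, WithLp.ofLp_sum, Finset.sum_apply, hi,
      Complex.ofReal_sub, Complex.ofReal_sum]
  simp only [e1, e2]
  have q1 : ∀ j, Integrable (fun w => ‖𝓕 (P j) w‖ ^ 2) := fun j =>
    (sp_planch _ (hP1 j) (hP2 j)).1.integrable_norm_pow two_ne_zero
  have q2 : ∀ j, Integrable (fun w => ‖𝓕 (Ψ j) w‖ ^ 2) := fun j =>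
    (sp_planch _ (hΨ1 j) (hΨ2 j)).1.integrable_norm_pow two_ne_zero
  rw [integral_finsetSum _ fun j _ => (hP2 j).integrable_norm_pow two_ne_zero,
    integral_finsetSum _ fun j _ => (hΨ2 j).integrable_norm_pow two_ne_zero,
    ← Finset.sum_congr rfl fun j _ => (sp_planch _ (hP1 j) (hP2 j)).2,
    ← Finset.sum_congr rfl fun j _ => (sp_planch _ (hΨ1 j) (hΨ2 j)).2,
    ← integral_finsetSum _ fun j _ => q1 j, ← integral_finsetSum _ fun j _ => q2 j,
    ← integral_const_mul]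
  refine integral_mono ((integrable_finsetSum _ fun j _ => q1 j).const_mul c)
    (integrable_finsetSum _ fun j _ => q2 j) fun ω => ?_
  have := hc (-ω) (fun i => 𝓕 (P i) ω)
  refine this.trans (le_of_eq (Finset.sum_congr rfl fun j _ => ?_))
  rw [hΨ]
  simp only
  rw [spl_lin (P j) (fun i => C i j) (hP1 j) (fun i => hC1 i j)]
  simp only [hCF]

end Crest.Agent.R213
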