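import Crest.Agent.R213.SpecA

/-!
# R213 / SpecM : right inverse on the half line from the lower bound on the line
-/

set_option autoImplicit false

open MeasureTheory Set Filter Topology
open scoped InnerProductSpace

namespace Crest.Agent.R213

/-- square integrable on the line and vanishing on `(-∞, s0]`. -/
def SpAdm {E : Type} [NormedAddCommGroup E] (s0 : ℝ) (G : ℝ → E) : Prop :=
  (∀ s, s ≤ s0 → G s = 0) ∧ MemLp G 2 volume

/-- the weight `1_{u ≥ 0} e^{-2au}`. -/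
noncomputable def spw (a u : ℝ) : ℝ := (Ici (0 : ℝ)).indicator (fun u => Real.exp (-(2 * a * u))) u

theorem spm_w (a : ℝ) (ha : 0 < a) : Integrable (spw a) ∧ ∫ u, spw a u = 1 / (2 * a) := by
  have h1 : IntegrableOn (fun u : ℝ => Real.exp (-(2 * a) * u)) (Ioi 0) :=
    integrableOn_exp_mul_Ioi (by linarith) 0
  have h2 := integral_exp_mul_Ioi (a := -(2 * a)) (by linarith) 0
  have e : (fun u : ℝ => Real.exp (-(2 * a * u))) = fun u => Real.exp (-(2 * a) * u) := by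
    funext u; congr 1; ring
  have e2 : spw a = (Ici (0 : ℝ)).indicator (fun u => Real.exp (-(2 * a) * u)) := by
    funext u; unfold spw; rw [e]
  rw [e2]
  refine ⟨(integrable_indicator_iff measurableSet_Ici).2 
    (by rw [integrableOn_Ici_iff_integrableOn_Ioi]; exact h1), ?_⟩
  rw [integral_indicator measurableSet_Ici, integral_Ici_eq_integral_Ioi, h2]
  simp only [mul_zero, Real.exp_zero]
  field_simp

section
variable {E : Type} [NormedAddCommGroup E] [InnerProductSpace ℝ E]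

theorem spm_normsq {μ : Measure ℝ} (f : Lp E 2 μ) : ‖f‖ ^ 2 = ∫ x, ‖f x‖ ^ 2 ∂μ := by
  rw [← real_inner_self_eq_norm_sq, L2.inner_def]
  simp_rw [real_inner_self_eq_norm_sq]

theorem spm_inner_int {μ : Measure ℝ} {f g : ℝ → E} (hf : MemLp f 2 μ) (hg : MemLp g 2 μ) :
    Integrable (fun x => ⟪f x, g x⟫_ℝ) μ := by
  refine (L2.integrable_inner (𝕜 := ℝ) (hf.toLp f) (hg.toLp g)).congr ?_
  filter_upwards [hf.coeFn_toLp, hg.coeFn_toLp] with x h1 h2
  rw [h1, h2]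

theorem spm_cs {μ : Measure ℝ} {f g : ℝ → E} (hf : MemLp f 2 μ) (hg : MemLp g 2 μ) {x y : ℝ}
    (hx : 0 ≤ x) (hy : 0 ≤ y) (h1 : ∫ s, ‖f s‖ ^ 2 ∂μ ≤ x ^ 2) (h2 : ∫ s, ‖g s‖ ^ 2 ∂μ ≤ y ^ 2) :
    ∫ s, ⟪f s, g s⟫_ℝ ∂μ ≤ x * y := by
  have e : ∫ s, ⟪f s, g s⟫_ℝ ∂μ = ⟪hf.toLp f, hg.toLp g⟫_ℝ := by
    rw [L2.inner_def]
    refine integral_congr_ae ?_
    filter_upwards [hf.coeFn_toLp, hg.coeFn_toLp] with x h1 h2
    rw [h1, h2]
  have n1 : ‖hf.toLp f‖ ≤ x := by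
    refine (pow_le_pow_iff_left₀ (norm_nonneg _) hx two_ne_zero).1 ?_
    rw [spm_normsq]
    refine le_trans (le_of_eq (integral_congr_ae ?_)) h1
    filter_upwards [hf.coeFn_toLp] with x h1
    rw [h1]
  have n2 : ‖hg.toLp g‖ ≤ y := by
    refine (pow_le_pow_iff_left₀ (norm_nonneg _) hy two_ne_zero).1 ?_
    rw [spm_normsq]
    refine le_trans (le_of_eq (integral_congr_ae ?_)) h2
    filter_upwards [hg.coeFn_toLp] with x h1
    rw [h1]
  rw [e]
  exact (real_inner_le_norm _ _).trans (mul_le_mul n1 n2 (norm_nonneg _) hx)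

theorem spm_ind (s0 : ℝ) (G : Lp E 2 (volume.restrict (Ioi s0))) :
    SpAdm s0 ((Ioi s0).indicator G) ∧ ∫ r, ‖(Ioi s0).indicator G r‖ ^ 2 = ‖G‖ ^ 2 := by
  refine ⟨⟨fun s hs => indicator_of_notMem (by simpa using hs) _,
    (memLp_indicator_iff_restrict measurableSet_Ioi).2 (Lp.memLp G)⟩, ?_⟩
  rw [spm_normsq, ← integral_indicator measurableSet_Ioi]
  congr 1
  funext r
  by_cases h : r ∈ Ioi s0
  · simp [indicator_of_mem h]
  · simp [indicator_of_notMem h]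

theorem spm_clm (s0 s1 B : ℝ) (Φ : (ℝ → E) → ℝ → E)
    (hlin : ∀ G G' (t : ℝ), SpAdm s0 G → SpAdm s0 G' → ∀ s,
      Φ (fun r => G r + t • G' r) s = Φ G s + t • Φ G' s)
    (hb : ∀ G, SpAdm s0 G → MemLp (Φ G) 2 volume ∧ ∫ s, ‖Φ G s‖ ^ 2 ≤ B * ∫ r, ‖G r‖ ^ 2) :
    ∃ T : Lp E 2 (volume.restrict (Ioi s0)) →L[ℝ] Lp E 2 (volume.restrict (Ioi s1)),
      ∀ G, T G =ᵐ[volume.restrict (Ioi s1)] Φ ((Ioi s0).indicator G) := by
  have hcongr : ∀ G G', SpAdm s0 G → SpAdm s0 G' → G =ᵐ[volume] G' → Φ G =ᵐ[volume] Φ G' := by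
    intro G G' hG hG' h
    have hD : SpAdm s0 (fun r => G r - G' r) :=
      ⟨fun s hs => by simp [hG.1 s hs, hG'.1 s hs], hG.2.sub hG'.2⟩
    obtain ⟨m1, m2⟩ := hb _ hD
    have z : ∫ r, ‖G r - G' r‖ ^ 2 = 0 := by
      refine integral_eq_zero_of_ae ?_
      filter_upwards [h] with r hr
      simp [hr]
    rw [z, mul_zero] at m2
    have i1 := (memLp_two_iff_integrable_sq_norm m1.1).1 m1
    have z2 := (integral_eq_zero_iff_of_nonneg (fun s => by positivity) i1).1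
      (le_antisymm m2 (integral_nonneg fun s => by positivity))
    filter_upwards [z2] with s hs
    have := hlin G' (fun r => G r - G' r) 1 hG' hD s
    simp only [one_smul, add_sub_cancel] at this
    have h0 : Φ (fun r => G r - G' r) s = 0 := by simpa using hs
    rw [h0, add_zero] at this
    exact this
  have hm : ∀ G : Lp E 2 (volume.restrict (Ioi s0)),
      MemLp (Φ ((Ioi s0).indicator G)) 2 (volume.restrict (Ioi s1)) :=
    fun G => (hb _ (spm_ind s0 G).1).1.restrict _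
  have hcomb : ∀ (G G' : Lp E 2 (volume.restrict (Ioi s0))) (t : ℝ),
      (hm (G + t • G')).toLp _ = (hm G).toLp _ + t • (hm G').toLp _ := by
    intro G G' t
    have hA : SpAdm s0 (fun r => (Ioi s0).indicator G r + t • (Ioi s0).indicator G' r) :=
      ⟨fun s hs => by simp [(spm_ind s0 G).1.1 s hs, (spm_ind s0 G').1.1 s hs],
        (spm_ind s0 G).1.2.add ((spm_ind s0 G').1.2.const_smul t)⟩
    have h1 : (Ioi s0).indicator (G + t • G' : Lp E 2 _) =ᵐ[volume]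
        fun r => (Ioi s0).indicator G r + t • (Ioi s0).indicator G' r := by
      have h2 : ∀ᵐ r ∂(volume.restrict (Ioi s0)), (G + t • G' : Lp E 2 _) r = G r + t • G' r := by
        filter_upwards [Lp.coeFn_add G (t • G'), Lp.coeFn_smul t G'] with r h3 h4
        rw [h3, Pi.add_apply, h4, Pi.smul_apply]
      rw [ae_restrict_iff' measurableSet_Ioi] at h2
      filter_upwards [h2] with r hr
      by_cases h : r ∈ Ioi s0
      · simp only [indicator_of_mem h, hr h]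
      · simp [indicator_of_notMem h]
    have h3 := ae_restrict_of_ae (s := Ioi s1) (hcongr _ _ (spm_ind s0 (G + t • G')).1 hA h1)
    apply Lp.ext
    filter_upwards [(hm (G + t • G')).coeFn_toLp, (hm G).coeFn_toLp, (hm G').coeFn_toLp, h3,
      Lp.coeFn_add ((hm G).toLp _) (t • (hm G').toLp _), Lp.coeFn_smul t ((hm G').toLp _)]
      with s a1 a2 a3 a4 a5 a6
    rw [a1, a5, Pi.add_apply, a6, Pi.smul_apply, a2, a3, a4,
      hlin _ _ t (spm_ind s0 G).1 (spm_ind s0 G').1]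
  have hzero : (hm 0).toLp _ = 0 := by
    have := hcomb 0 0 1
    simp only [one_smul, add_zero] at this
    simpa using this
  let T0 : Lp E 2 (volume.restrict (Ioi s0)) →ₗ[ℝ] Lp E 2 (volume.restrict (Ioi s1)) :=
    { toFun := fun G => (hm G).toLp _
      map_add' := fun G G' => by simpa using hcomb G G' 1
      map_smul' := fun t G => by
        have := hcomb 0 G t
        rw [hzero] at this
        simpa using this }
  refine ⟨T0.mkContinuousOfExistsBound ⟨Real.sqrt |B|, fun G => ?_⟩, fun G => (hm G).coeFn_toLp⟩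
  refine (pow_le_pow_iff_left₀ (norm_nonneg _) (by positivity) two_ne_zero).1 ?_
  obtain ⟨m1, m2⟩ := hb _ (spm_ind s0 G).1
  rw [(spm_ind s0 G).2] at m2
  rw [spm_normsq, mul_pow, Real.sq_sqrt (abs_nonneg _)]
  calc _ = ∫ s in Ioi s1, ‖Φ ((Ioi s0).indicator G) s‖ ^ 2 := by
        refine integral_congr_ae ?_
        filter_upwards [(hm G).coeFn_toLp] with s hs
        exact congrArg (fun x => ‖x‖ ^ 2) hs
    _ ≤ ∫ s, ‖Φ ((Ioi s0).indicator G) s‖ ^ 2 :=
        setIntegral_le_integral ((memLp_two_iff_integrable_sq_norm m1.1).1 m1)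
          (ae_of_all _ fun s => by positivity)
    _ ≤ _ := m2.trans (mul_le_mul_of_nonneg_right (le_abs_self _) (by positivity))

omit [InnerProductSpace ℝ E] in
theorem spm_dense (μ : Measure ℝ) : Dense {φ : Lp E 2 μ | Integrable φ μ} := by
  refine (Lp.simpleFunc.dense (E := E) (p := 2) (μ := μ) ENNReal.ofNat_ne_top).mono ?_
  intro f hf
  have h1 := Lp.simpleFunc.memLp (⟨f, hf⟩ : Lp.simpleFunc E 2 μ)
  rw [SimpleFunc.memLp_iff_integrable two_ne_zero ENNReal.ofNat_ne_top] at h1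
  exact h1.congr (Lp.simpleFunc.toSimpleFunc_eq_toFun _)

end


theorem spm_coord {m : ℕ} {f : ℝ → EuclideanSpace ℝ (Fin m)} (hf : MemLp f 2 volume) (i : Fin m) :
    MemLp (fun r => f r i) 2 volume ∧ ∫ r, f r i ^ 2 ≤ ∫ r, ‖f r‖ ^ 2 := by
  have h1 : MemLp (fun r => f r i) 2 volume :=
    (EuclideanSpace.proj (𝕜 := ℝ) i : EuclideanSpace ℝ (Fin m) →L[ℝ] ℝ).comp_memLp' hf
  refine ⟨h1, integral_mono h1.integrable_sq ((memLp_two_iff_integrable_sq_norm hf.1).1 hf)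
    fun r => ?_⟩
  have := PiLp.norm_apply_le (f r) i
  rw [Real.norm_eq_abs] at this
  simp only
  rw [← sq_abs]
  exact pow_le_pow_left₀ (abs_nonneg _) this 2

theorem spm_core {m : ℕ} (κ : Fin m → ℝ → EuclideanSpace ℝ (Fin m))
    (hκ : ∀ i, MemLp (κ i) 2 volume) (hκ0 : ∀ i u, u ≤ 0 → κ i u = 0) (a δ x y : ℝ) (ha : 0 < a)
    (hx : 0 ≤ x) (hy : 0 ≤ y) (G φ Pv : ℝ → EuclideanSpace ℝ (Fin m)) (hG : MemLp G 2 volume)
    (hφ : MemLp φ 2 volume) (hP : AEStronglyMeasurable Pv volume)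
    (hQ : ∀ s, ∑ i, (Pv s i - ∫ u, ⟪Real.exp (-(a * u)) • κ i u, G (s - u)⟫_ℝ) ^ 2 ≤
      δ * ∫ u, spw a u * ‖G (s - u)‖ ^ 2)
    (h1 : δ * (1 / (2 * a)) * ∫ r, ‖G r‖ ^ 2 ≤ x ^ 2) (h2 : ∫ r, ‖φ r‖ ^ 2 ≤ y ^ 2) :
    (∫ r, ⟪φ r - ∑ i, ∫ u, φ (r + u) i • (Real.exp (-(a * u)) • κ i u), G r⟫_ℝ) - x * y ≤
      ∫ s, ⟪G s - Pv s, φ s⟫_ℝ := by
  have hA := fun i => sp_adj (fun u => Real.exp (-(a * u)) • κ i u)
    (sp_damp (κ i) (hκ i) a ha (hκ0 i)).1 (sp_damp (κ i) (hκ i) a ha (hκ0 i)).2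
    (fun r => φ r i) (spm_coord hφ i).1 G hG
  have hH := fun i => (sp_corr (κ i) (hκ i) a 0 ha (hκ0 i) (fun r => φ r i) (spm_coord hφ i).1).1
  set Q : Fin m → ℝ → ℝ := fun i s => ∫ u, ⟪Real.exp (-(a * u)) • κ i u, G (s - u)⟫_ℝ with hQd
  set H : Fin m → ℝ → EuclideanSpace ℝ (Fin m) :=
    fun i r => ∫ u, φ (r + u) i • (Real.exp (-(a * u)) • κ i u) with hHd
  set R : ℝ → EuclideanSpace ℝ (Fin m) :=
    fun s => Pv s - ∑ i, Q i s • EuclideanSpace.single i (1 : ℝ) with hRd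
  have hRi : ∀ s i, R s i = Pv s i - Q i s := by
    intro s i
    simp [hRd, Pi.single_apply]
  have hRm : AEStronglyMeasurable R volume := by
    refine hP.sub ?_
    exact Finset.aestronglyMeasurable_fun_sum _ fun i _ => (hA i).1.smul_const _
  obtain ⟨hR2, hRb⟩ := sp_young (spw a) (spm_w a ha).1 G hG R hRm δ (fun s => by
    rw [EuclideanSpace.real_norm_sq_eq]
    simp only [hRi]
    exact hQ s)
  rw [(spm_w a ha).2] at hRb
  have hcs := spm_cs hR2 hφ hx hy (hRb.trans h1) h2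
  have e1 : ∀ s, ⟪G s - Pv s, φ s⟫_ℝ = (⟪φ s, G s⟫_ℝ - ∑ i, φ s i * Q i s) - ⟪R s, φ s⟫_ℝ := by
    intro s
    simp only [hRd, inner_sub_left, sum_inner, real_inner_smul_left,
      EuclideanSpace.inner_single_left, real_inner_comm (G s) (φ s)]
    simp only [conj_trivial, one_mul, mul_comm]
    ring
  have e2 : ∀ r, ⟪φ r - ∑ i, H i r, G r⟫_ℝ = ⟪φ r, G r⟫_ℝ - ∑ i, ⟪H i r, G r⟫_ℝ := by
    intro r
    rw [inner_sub_left, sum_inner]
  have i1 := spm_inner_int hφ hG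
  have i2 : Integrable fun s => ∑ i, φ s i * Q i s := integrable_finsetSum _ fun i _ => (hA i).2.1
  have i3 : ∀ i, Integrable fun r => ⟪H i r, G r⟫_ℝ := fun i => spm_inner_int (hH i) hG
  change (∫ r, ⟪φ r - ∑ i, H i r, G r⟫_ℝ) - x * y ≤ _
  simp only [e1, e2]
  have i4 : Integrable fun s => ⟪φ s, G s⟫_ℝ - ∑ i, φ s i * Q i s := i1.sub i2
  rw [integral_sub i4 (spm_inner_int hR2 hφ), integral_sub i1 i2,
    integral_sub i1 (integrable_finsetSum _ fun i _ => i3 i),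
    integral_finsetSum _ fun i _ => i3 i, integral_finsetSum _ fun i _ => (hA i).2.1]
  have e3 : ∑ i, ∫ s, φ s i * Q i s = ∑ i, ∫ r, ⟪H i r, G r⟫_ℝ :=
    Finset.sum_congr rfl fun i _ => (hA i).2.2
  rw [e3]
  linarith

theorem spm_tail {m : ℕ} (κ : Fin m → ℝ → EuclideanSpace ℝ (Fin m))
    (hκ : ∀ i, MemLp (κ i) 2 volume) (a L s1 : ℝ) (ha : 0 < a) (hL : 0 ≤ L)
    (φ : ℝ → EuclideanSpace ℝ (Fin m)) (hφ : SpAdm s1 φ) :
    ∫ r in Iic (s1 - L), ‖φ r - ∑ i, ∫ u, φ (r + u) i • (Real.exp (-(a * u)) • κ i u)‖ ^ 2 ≤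
      (m * (∑ i, ∫ u, ‖κ i u‖ ^ 2) / (2 * a) * Real.exp (-(2 * a * L))) * ∫ r, ‖φ r‖ ^ 2 := by
  have hC := fun i => sp_corr ((Ioi L).indicator (κ i)) ((hκ i).indicator measurableSet_Ioi) a L ha
    (fun u hu => indicator_of_notMem (by simpa using hu) _) (fun r => φ r i) (spm_coord hφ.2 i).1
  set H : Fin m → ℝ → EuclideanSpace ℝ (Fin m) :=
    fun i r => ∫ u, φ (r + u) i • (Real.exp (-(a * u)) • (Ioi L).indicator (κ i) u) with hHd
  have iH : ∀ i, Integrable fun r => ‖H i r‖ ^ 2 := fun i =>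
    (memLp_two_iff_integrable_sq_norm (hC i).1.1).1 (hC i).1
  have hS : MemLp (fun r => ∑ i, H i r) 2 volume := memLp_finsetSum _ fun i _ => (hC i).1
  have iS := (memLp_two_iff_integrable_sq_norm hS.1).1 hS
  have hN : 0 ≤ ∫ r, ‖φ r‖ ^ 2 := integral_nonneg fun r => by positivity
  calc _ = ∫ r in Iic (s1 - L), ‖∑ i, H i r‖ ^ 2 := by
        refine setIntegral_congr_fun measurableSet_Iic fun r hr => ?_
        have hr' : r ≤ s1 - L := hr
        simp only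
        rw [hφ.1 r (by linarith), zero_sub, norm_neg]
        congr 2
        refine Finset.sum_congr rfl fun i _ => ?_
        simp only [hHd]
        congr 1
        funext u
        by_cases hu : u ∈ Ioi L
        · rw [indicator_of_mem hu]
        · have hu' : u ≤ L := by simpa using hu
          simp [hφ.1 (r + u) (by linarith)]
    _ ≤ ∫ r, ‖∑ i, H i r‖ ^ 2 := setIntegral_le_integral iS (ae_of_all _ fun s => by positivity)
    _ ≤ ∫ r, (m : ℝ) * ∑ i, ‖H i r‖ ^ 2 := by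
        refine integral_mono iS ((integrable_finsetSum _ fun i _ => iH i).const_mul _) fun r => ?_
        have h1 := pow_le_pow_left₀ (norm_nonneg _) (norm_sum_le Finset.univ fun i => H i r) 2
        have h2 := sq_sum_le_card_mul_sum_sq (s := Finset.univ) (f := fun i => ‖H i r‖)
        simp only [Finset.card_univ, Fintype.card_fin] at h2
        exact h1.trans h2
    _ = m * ∑ i, ∫ r, ‖H i r‖ ^ 2 := by
        rw [integral_const_mul, integral_finsetSum _ fun i _ => iH i]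
    _ ≤ m * ∑ i, (∫ u, ‖κ i u‖ ^ 2) * (Real.exp (-(2 * a * L)) / (2 * a)) * ∫ r, ‖φ r‖ ^ 2 := by
        refine mul_le_mul_of_nonneg_left (Finset.sum_le_sum fun i _ => (hC i).2.trans ?_)
          (Nat.cast_nonneg _)
        have k1 : ∫ u, ‖(Ioi L).indicator (κ i) u‖ ^ 2 ≤ ∫ u, ‖κ i u‖ ^ 2 := by
          have := (hκ i).indicator (measurableSet_Ioi (a := L))
          refine integral_mono ((memLp_two_iff_integrable_sq_norm this.1).1 this)
            ((memLp_two_iff_integrable_sq_norm (hκ i).1).1 (hκ i)) fun u => ?_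
          exact pow_le_pow_left₀ (norm_nonneg _) (norm_indicator_le_norm_self _ _) 2
        have k0 : 0 ≤ ∫ u, ‖κ i u‖ ^ 2 := integral_nonneg fun r => by positivity
        exact mul_le_mul (mul_le_mul_of_nonneg_right k1 (by positivity)) (spm_coord hφ.2 i).2
          (integral_nonneg fun r => by positivity) (by positivity)
    _ = _ := by
        rw [← Finset.sum_mul, ← Finset.sum_mul]
        ring

/-- `T G = G - P G`.  For integrable `φ ∈ L²(s1, ∞)` test with `G = ψ` on `(s1 - L, ∞)`,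
`ψ = φ - 𝒦† φ`: `⟪T G, φ⟫ ≥ ‖G‖² - c' ‖G‖ ‖φ‖` (`spm_core`), `‖G‖² ≥ c ‖φ‖² - tail` (`spm_tail`). -/
theorem sp_main {m : ℕ} (κ : Fin m → ℝ → EuclideanSpace ℝ (Fin m))
    (hκ : ∀ i, MemLp (κ i) 2 volume) (hκ0 : ∀ i u, u ≤ 0 → κ i u = 0) (a c : ℝ) (ha : 0 < a)
    (hc0 : 0 < c)
    (hc : ∀ φ : ℝ → EuclideanSpace ℝ (Fin m), Integrable φ → MemLp φ 2 volume →
      c * ∫ r, ‖φ r‖ ^ 2 ≤
        ∫ r, ‖φ r - ∑ i, ∫ u, φ (r + u) i • (Real.exp (-(a * u)) • κ i u)‖ ^ 2) :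
    ∃ C L δ : ℝ, 0 ≤ L ∧ 0 < δ ∧ ∀ (s1 B : ℝ)
      (P : (ℝ → EuclideanSpace ℝ (Fin m)) → ℝ → EuclideanSpace ℝ (Fin m)),
      (∀ G G' (t : ℝ), SpAdm (s1 - L) G → SpAdm (s1 - L) G' → ∀ s,
        P (fun r => G r + t • G' r) s = P G s + t • P G' s) →
      (∀ G, SpAdm (s1 - L) G → Continuous (P G)) →
      (∀ G, SpAdm (s1 - L) G → ∀ s, ‖P G s‖ ^ 2 ≤ B * ∫ u, spw a u * ‖G (s - u)‖ ^ 2) →
      (∀ G, SpAdm (s1 - L) G → ∀ s,
        ∑ i, (P G s i - ∫ u, ⟪Real.exp (-(a * u)) • κ i u, G (s - u)⟫_ℝ) ^ 2 ≤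
          δ * ∫ u, spw a u * ‖G (s - u)‖ ^ 2) →
      ∃ Λ : Lp (EuclideanSpace ℝ (Fin m)) 2 (volume.restrict (Ioi s1)) →L[ℝ]
          Lp (EuclideanSpace ℝ (Fin m)) 2 (volume.restrict (Ioi (s1 - L))),
        ‖Λ‖ ≤ C ∧ ∀ D, ∀ᵐ s ∂(volume.restrict (Ioi s1)),
          Λ D s - P ((Ioi (s1 - L)).indicator (Λ D)) s = D s := by
  set M : ℝ := m * (∑ i, ∫ u, ‖κ i u‖ ^ 2) / (2 * a) with hM
  have hlim : Tendsto (fun L : ℝ => M * Real.exp (-(2 * a * L))) atTop (𝓝 (M * 0)) :=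
    (Real.tendsto_exp_neg_atTop_nhds_zero.comp
      (tendsto_id.const_mul_atTop (by positivity : 0 < 2 * a))).const_mul M
  rw [mul_zero] at hlim
  obtain ⟨L, hL1, hL0⟩ := ((hlim.eventually (ge_mem_nhds (half_pos hc0))).and
    (eventually_ge_atTop 0)).exists
  set c' : ℝ := Real.sqrt (c / 8) with hc'
  have hc'0 : 0 < c' := Real.sqrt_pos.2 (by positivity)
  have hc'2 : c' ^ 2 = c / 8 := Real.sq_sqrt (by positivity)
  refine ⟨1 / c', L, a * c / 4, hL0, by positivity, fun s1 B P hlin hcont hB hQ => ?_⟩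
  have hPm : ∀ G, SpAdm (s1 - L) G → MemLp (P G) 2 volume ∧
      ∫ s, ‖P G s‖ ^ 2 ≤ B * (∫ u, spw a u) * ∫ r, ‖G r‖ ^ 2 := fun G hG =>
    sp_young (spw a) (spm_w a ha).1 G hG.2 (P G) (hcont G hG).aestronglyMeasurable B (hB G hG)
  obtain ⟨T, hT⟩ := spm_clm (s1 - L) s1 (2 + 2 * (B * ∫ u, spw a u)) (fun G s => G s - P G s)
    (fun G G' t hG hG' s => by
      simp only [hlin G G' t hG hG' s, smul_sub]
      abel)
    (fun G hG => by
      obtain ⟨m1, m2⟩ := hPm G hG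
      have m3 : MemLp (fun s => G s - P G s) 2 volume := hG.2.sub m1
      have i1 := (memLp_two_iff_integrable_sq_norm hG.2.1).1 hG.2
      have i2 := (memLp_two_iff_integrable_sq_norm m1.1).1 m1
      refine ⟨m3, ?_⟩
      calc _ ≤ ∫ s, (2 * ‖G s‖ ^ 2 + 2 * ‖P G s‖ ^ 2) := by
            refine integral_mono ((memLp_two_iff_integrable_sq_norm m3.1).1 m3)
              ((i1.const_mul 2).add (i2.const_mul 2)) fun s => ?_
            have h1 := pow_le_pow_left₀ (norm_nonneg _) (norm_sub_le (G s) (P G s)) 2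
            simp only
            nlinarith [sq_nonneg (‖G s‖ - ‖P G s‖)]
        _ = 2 * (∫ s, ‖G s‖ ^ 2) + 2 * ∫ s, ‖P G s‖ ^ 2 := by
            rw [integral_add (i1.const_mul 2) (i2.const_mul 2), integral_const_mul,
              integral_const_mul]
        _ ≤ _ := by linarith)
  have hsub : Ioi s1 ⊆ Ioi (s1 - L) := Ioi_subset_Ioi (by linarith)
  obtain ⟨Λ, hΛ, hTΛ⟩ := sp_rightInv T c' hc'0 _ (spm_dense _) (fun φ hφ => by
    obtain ⟨hφA, hφN⟩ := spm_ind s1 φ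
    set φ' := (Ioi s1).indicator φ with hφ'
    have hφ1 : Integrable φ' := (integrable_indicator_iff measurableSet_Ioi).2 hφ
    set ψ : ℝ → EuclideanSpace ℝ (Fin m) :=
      fun r => φ' r - ∑ i, ∫ u, φ' (r + u) i • (Real.exp (-(a * u)) • κ i u) with hψ
    have hψ2 : MemLp ψ 2 volume := hφA.2.sub (memLp_finsetSum _ fun i _ =>
      (sp_corr (κ i) (hκ i) a 0 ha (hκ0 i) (fun r => φ' r i) (spm_coord hφA.2 i).1).1)
    have iψ := (memLp_two_iff_integrable_sq_norm hψ2.1).1 hψ2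
    have hψr : MemLp ψ 2 (volume.restrict (Ioi (s1 - L))) := hψ2.restrict _
    set G := hψr.toLp ψ with hG
    have hGψ : G =ᵐ[volume.restrict (Ioi (s1 - L))] ψ := hψr.coeFn_toLp
    obtain ⟨hGA, hGN⟩ := spm_ind (s1 - L) G
    set G' := (Ioi (s1 - L)).indicator G with hG'
    have hn : ‖G‖ ^ 2 = ∫ r in Ioi (s1 - L), ‖ψ r‖ ^ 2 := by
      rw [spm_normsq]
      refine integral_congr_ae ?_
      filter_upwards [hGψ] with r hr
      rw [hr]
    refine ⟨G, ?_, ?_⟩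
    · refine (pow_le_pow_iff_left₀ (by positivity) (norm_nonneg _) two_ne_zero).1 ?_
      have h1 := hc φ' hφ1 hφA.2
      have h2 := spm_tail κ hκ a L s1 ha hL0 φ' hφA
      have h3 := intervalIntegral.integral_Iic_add_Ioi (b := s1 - L) iψ.integrableOn iψ.integrableOn
      rw [hφN] at h1 h2
      have h4 := mul_le_mul_of_nonneg_right hL1 (sq_nonneg ‖φ‖)
      change c * ‖φ‖ ^ 2 ≤ ∫ r, ‖ψ r‖ ^ 2 at h1
      change ∫ r in Iic (s1 - L), ‖ψ r‖ ^ 2 ≤ M * Real.exp (-(2 * a * L)) * ‖φ‖ ^ 2 at h2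
      rw [hn, mul_pow, mul_pow, hc'2]
      linarith
    · have h1 := spm_core κ hκ hκ0 a (a * c / 4) (c' * ‖G‖) ‖φ‖ ha (by positivity) (norm_nonneg _)
        G' φ' (P G') hGA.2 hφA.2 (hcont G' hGA).aestronglyMeasurable (hQ G' hGA)
        (by rw [hGN, mul_pow, hc'2]; apply le_of_eq; field_simp; ring) hφN.le
      have h2 : ∫ r, ⟪ψ r, G' r⟫_ℝ = ‖G‖ ^ 2 := by
        rw [hn, ← integral_indicator measurableSet_Ioi]
        refine integral_congr_ae ?_
        filter_upwards [(ae_restrict_iff' measurableSet_Ioi).1 hGψ] with r hr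
        by_cases h : r ∈ Ioi (s1 - L)
        · rw [hG', indicator_of_mem h, indicator_of_mem h, hr h, real_inner_self_eq_norm_sq]
        · rw [hG', indicator_of_notMem h, indicator_of_notMem h, inner_zero_right]
      have h3 : ⟪T G, φ⟫_ℝ = ∫ s, ⟪G' s - P G' s, φ' s⟫_ℝ := by
        rw [L2.inner_def, ← integral_indicator measurableSet_Ioi]
        refine integral_congr_ae ?_
        filter_upwards [(ae_restrict_iff' measurableSet_Ioi).1 (hT G)] with r hr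
        by_cases h : r ∈ Ioi s1
        · rw [hφ', indicator_of_mem h, indicator_of_mem h, hr h]
        · rw [hφ', indicator_of_notMem h, indicator_of_notMem h, inner_zero_right]
      rw [h3, ← h2]
      exact h1)
  refine ⟨Λ, hΛ, fun D => ?_⟩
  have h1 := hT (Λ D)
  rw [hTΛ D] at h1
  filter_upwards [h1, ae_restrict_mem measurableSet_Ioi] with s hs hs'
  rw [hs, indicator_of_mem (hsub hs')]

end Crest.Agent.R213
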