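import Mathlib

/-!
# R213 / SpecS : the symbol `1 - κ̂` is boundedly invertible on a suitable line

`M z i j = ∫ e^{-z u} κ i j u du` is holomorphic on `Re z > 0` (dominated derivative,
`hasDerivAt_integral_of_dominated_loc_of_deriv_le`; `u e^{-bu} 1_{u>0} ∈ L²`), `M x → 0` as the real
`x → ∞` (Cauchy–Schwarz or dominated convergence), so `d z = det (1 - M z)` is analytic on the convex
half plane and not identically `0`; its zero set is countable
(`AnalyticOnNhd.eqOn_zero_or_eventually_ne_zero_of_preconnected`, `isDiscrete_of_codiscreteWithin`,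
`IsLindelof.countable_of_isDiscrete`).  Take `a ∈ (0, a1]` outside `re '' zeros`
(`Set.Countable.dense_compl` or cardinality of `Ioc 0 a1`).  `N ω = 1 - M (a + 2π i ω)` is continuous in `ω`,
invertible, and tends to `1` along `cocompact ℝ` (Riemann–Lebesgue, `Real.zero_at_infty_fourier`), so the
entries of `(N ω)⁻¹` are bounded (`continuousAt_matrix_inv`, `Tendsto.isCompact_insert_range_of_cocompact`),
and `v = (v ᵥ* N) ᵥ* N⁻¹`.
-/

set_option autoImplicit false

open MeasureTheory Set Filter Topology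
open scoped FourierTransform

namespace Crest.Agent.R213

theorem sps_int (κ : ℝ → ℝ) (hκ : MemLp κ 2 volume) (hκ0 : ∀ u, u ≤ 0 → κ u = 0) {b : ℝ}
    (hb : 0 < b) : Integrable (fun u : ℝ => Real.exp (-(b * u)) * κ u) := by
  have h1 : MemLp ((Ioi (0 : ℝ)).indicator fun u : ℝ => Real.exp (-(b * u))) 2 volume := by
    rw [memLp_indicator_iff_restrict measurableSet_Ioi,
      memLp_two_iff_integrable_sq (by fun_prop)]
    have := exp_neg_integrableOn_Ioi 0 (b := 2 * b) (by positivity)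
    refine this.congr (ae_of_all _ fun u => ?_)
    simp only
    rw [← Real.exp_nat_mul]; congr 1; push_cast; ring
  have h2 := h1.integrable_mul hκ
  refine h2.congr (ae_of_all _ fun u => ?_)
  simp only [Pi.mul_apply]
  by_cases hu : 0 < u
  · rw [indicator_of_mem (show u ∈ Ioi (0 : ℝ) from hu)]
  · rw [hκ0 u (not_lt.1 hu)]; simp

theorem sps_norm (z : ℂ) (u k : ℝ) :
    ‖Complex.exp (-(z * u)) * (k : ℂ)‖ = Real.exp (-(z.re * u)) * |k| := by
  rw [norm_mul, Complex.norm_exp, Complex.norm_real, Real.norm_eq_abs]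
  simp

theorem sps_le (κ : ℝ → ℝ) (hκ0 : ∀ u, u ≤ 0 → κ u = 0) {b : ℝ} {z : ℂ} (hz : b ≤ z.re) (u : ℝ) :
    ‖Complex.exp (-(z * u)) * (κ u : ℂ)‖ ≤ ‖Real.exp (-(b * u)) * κ u‖ := by
  rw [sps_norm, norm_mul, Real.norm_eq_abs, Real.norm_eq_abs, abs_of_pos (Real.exp_pos _)]
  rcases le_or_gt u 0 with hu | hu
  · rw [hκ0 u hu]; simp
  · gcongr

theorem sps_meas (κ : ℝ → ℝ) (hκ : MemLp κ 2 volume) (z : ℂ) :
    AEStronglyMeasurable (fun u : ℝ => Complex.exp (-(z * u)) * (κ u : ℂ)) volume :=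
  (Continuous.aestronglyMeasurable (by fun_prop)).mul
    (Complex.continuous_ofReal.comp_aestronglyMeasurable hκ.1)

/-- Laplace transform of an `L²` function vanishing on `u ≤ 0`. -/
theorem sp_laplace (κ : ℝ → ℝ) (hκ : MemLp κ 2 volume) (hκ0 : ∀ u, u ≤ 0 → κ u = 0) :
    DifferentiableOn ℂ (fun z : ℂ => ∫ u : ℝ, Complex.exp (-(z * u)) * (κ u : ℂ)) {z | 0 < z.re} ∧
      Tendsto (fun x : ℝ => ∫ u : ℝ, Complex.exp (-((x : ℂ) * u)) * (κ u : ℂ)) atTop (𝓝 0) := by
  constructor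
  · intro z0 hz0
    have hz0' : 0 < z0.re := hz0
    set r : ℝ := z0.re / 2 with hr
    have hr0 : 0 < r := by positivity
    have hre : ∀ z ∈ Metric.ball z0 r, r ≤ z.re := by
      intro z hz
      have h1 : |(z - z0).re| ≤ ‖z - z0‖ := Complex.abs_re_le_norm _
      rw [Metric.mem_ball, dist_eq_norm] at hz
      rw [Complex.sub_re, abs_le] at h1
      linarith [h1.1]
    have key := hasDerivAt_integral_of_dominated_loc_of_deriv_le (μ := (volume : Measure ℝ))
      (F := fun (z : ℂ) (u : ℝ) => Complex.exp (-(z * u)) * (κ u : ℂ))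
      (F' := fun (z : ℂ) (u : ℝ) => -(u : ℂ) * (Complex.exp (-(z * u)) * (κ u : ℂ)))
      (x₀ := z0) (s := Metric.ball z0 r)
      (bound := fun u : ℝ => 2 / r * ‖Real.exp (-(r / 2 * u)) * κ u‖)
      (Metric.ball_mem_nhds z0 hr0) (Eventually.of_forall fun z => sps_meas κ hκ z)
      (Integrable.mono' (sps_int κ hκ hκ0 hz0').norm (sps_meas κ hκ z0)
        (ae_of_all _ fun u => sps_le κ hκ0 le_rfl u))
      ((Continuous.aestronglyMeasurable (by fun_prop)).mul (sps_meas κ hκ z0))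
      (ae_of_all _ fun u z hz => ?_)
      ((sps_int κ hκ hκ0 (b := r / 2) (by positivity)).norm.const_mul _)
      (ae_of_all _ fun u z hz => ?_)
    · exact key.2.differentiableAt.differentiableWithinAt
    · rcases le_or_gt u 0 with hu | hu
      · rw [hκ0 u hu]; simp
      · rw [norm_mul, norm_neg, Complex.norm_real, Real.norm_eq_abs, abs_of_pos hu]
        refine (mul_le_mul_of_nonneg_left (sps_le κ hκ0 (hre z hz) u) hu.le).trans ?_
        rw [norm_mul, norm_mul, Real.norm_eq_abs, Real.norm_eq_abs, Real.norm_eq_abs,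
          abs_of_pos (Real.exp_pos _), abs_of_pos (Real.exp_pos _), ← mul_assoc, ← mul_assoc]
        refine mul_le_mul_of_nonneg_right ?_ (abs_nonneg _)
        have h1 : r / 2 * u ≤ Real.exp (r / 2 * u) := by
          linarith [Real.add_one_le_exp (r / 2 * u)]
        have h2 : Real.exp (-(r / 2 * u)) = Real.exp (r / 2 * u) * Real.exp (-(r * u)) := by
          rw [← Real.exp_add]; congr 1; ring
        rw [h2, ← mul_assoc]
        refine mul_le_mul_of_nonneg_right ?_ (Real.exp_pos _).le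
        rw [div_mul_eq_mul_div, le_div_iff₀ hr0]
        linarith
    · have h1 : HasDerivAt (fun z : ℂ => -(z * (u : ℂ))) (-(u : ℂ)) z := by
        have h0 := (hasDerivAt_mul_const (x := z) (u : ℂ)).neg
        exact h0
      have h2 := (h1.cexp).mul_const (κ u : ℂ)
      exact h2.congr_deriv (by ring)
  · have := tendsto_integral_filter_of_dominated_convergence (μ := (volume : Measure ℝ))
      (l := (atTop : Filter ℝ))
      (F := fun (x : ℝ) (u : ℝ) => Complex.exp (-((x : ℂ) * u)) * (κ u : ℂ)) (f := fun _ => 0)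
      (fun u : ℝ => ‖Real.exp (-(1 * u)) * κ u‖)
      (Eventually.of_forall fun x => sps_meas κ hκ x)
      ((eventually_ge_atTop (1 : ℝ)).mono fun x hx =>
        ae_of_all _ fun u => sps_le κ hκ0 (by simpa using hx) u)
      (sps_int κ hκ hκ0 one_pos).norm (ae_of_all _ fun u => ?_)
    · simpa using this
    · rcases le_or_gt u 0 with hu | hu
      · rw [hκ0 u hu]; simp
      · rw [tendsto_zero_iff_norm_tendsto_zero]
        simp only [sps_norm, Complex.ofReal_re]
        have h1 : Tendsto (fun x : ℝ => Real.exp (-(x * u))) atTop (𝓝 0) :=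
          Real.tendsto_exp_neg_atTop_nhds_zero.comp (tendsto_id.atTop_mul_const hu)
        simpa using h1.mul_const |κ u|

/-- A continuous family of invertible matrices tending to `1` at infinity is uniformly bounded below. -/
theorem sp_matrix {m : ℕ} (N : ℝ → Matrix (Fin m) (Fin m) ℂ) (hN : Continuous N)
    (hdet : ∀ ω, (N ω).det ≠ 0) (h1 : Tendsto N (cocompact ℝ) (𝓝 1)) :
    ∃ c, 0 < c ∧ ∀ (ω : ℝ) (v : Fin m → ℂ),
      c * ∑ j, ‖v j‖ ^ 2 ≤ ∑ j, ‖∑ i, v i * N ω i j‖ ^ 2 := by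
  have hinv : ∀ A : Matrix (Fin m) (Fin m) ℂ, A.det ≠ 0 → ContinuousAt Inv.inv A := by
    intro A hA
    refine continuousAt_matrix_inv A ?_
    rw [Ring.inverse_eq_inv']
    exact continuousAt_inv₀ hA
  set G : Matrix (Fin m) (Fin m) ℂ → ℝ := fun A => ∑ j, ∑ i, ‖A i j‖ ^ 2 with hG
  have hGc : Continuous G := by
    simp only [hG]
    fun_prop
  have hc : Continuous fun ω => G (N ω)⁻¹ :=
    hGc.comp (continuous_iff_continuousAt.2 fun ω =>
      (hinv (N ω) (hdet ω)).comp hN.continuousAt)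
  have ht : Tendsto (fun ω => G (N ω)⁻¹) (cocompact ℝ) (𝓝 (G (1 : Matrix (Fin m) (Fin m) ℂ)⁻¹)) :=
    (hGc.tendsto _).comp ((hinv 1 (by simp)).tendsto.comp h1)
  obtain ⟨B, hB⟩ := (ht.isCompact_insert_range_of_cocompact hc).bddAbove
  have hB' : ∀ ω, G (N ω)⁻¹ ≤ B := fun ω => hB (Or.inr ⟨ω, rfl⟩)
  have hB0 : 0 ≤ B := le_trans (by simp only [hG]; positivity) (hB' 0)
  refine ⟨1 / (B + 1), by positivity, fun ω v => ?_⟩
  set w : Fin m → ℂ := fun j => ∑ i, v i * N ω i j with hw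
  have hv : ∀ j, v j = ∑ i, w i * (N ω)⁻¹ i j := by
    intro j
    have h2 : Matrix.vecMul (Matrix.vecMul v (N ω)) (N ω)⁻¹ = v := by
      rw [Matrix.vecMul_vecMul, Matrix.mul_nonsing_inv _ (isUnit_iff_ne_zero.2 (hdet ω)),
        Matrix.vecMul_one]
    rw [← h2]
    rfl
  have h3 : ∀ j, ‖v j‖ ^ 2 ≤ (∑ i, ‖w i‖ ^ 2) * ∑ i, ‖(N ω)⁻¹ i j‖ ^ 2 := by
    intro j
    refine le_trans ?_ (Finset.sum_mul_sq_le_sq_mul_sq _ _ _)
    rw [hv j]
    refine pow_le_pow_left₀ (norm_nonneg _) ((norm_sum_le _ _).trans ?_) 2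
    exact Finset.sum_le_sum fun i _ => (norm_mul _ _).le
  have h4 : ∑ j, ‖v j‖ ^ 2 ≤ (∑ i, ‖w i‖ ^ 2) * (B + 1) := by
    calc ∑ j, ‖v j‖ ^ 2 ≤ ∑ j, (∑ i, ‖w i‖ ^ 2) * ∑ i, ‖(N ω)⁻¹ i j‖ ^ 2 :=
          Finset.sum_le_sum fun j _ => h3 j
      _ = (∑ i, ‖w i‖ ^ 2) * G (N ω)⁻¹ := by rw [← Finset.mul_sum]
      _ ≤ (∑ i, ‖w i‖ ^ 2) * (B + 1) :=
          mul_le_mul_of_nonneg_left (by linarith [hB' ω]) (by positivity)
  rw [one_div, inv_mul_le_iff₀ (by positivity), mul_comm]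
  exact h4

theorem sp_symbol {m : ℕ} (κ : Fin m → Fin m → ℝ → ℝ) (hκ : ∀ i j, MemLp (κ i j) 2 volume)
    (hκ0 : ∀ i j u, u ≤ 0 → κ i j u = 0) (a1 : ℝ) (ha1 : 0 < a1) :
    ∃ a, 0 < a ∧ a ≤ a1 ∧ ∃ c, 0 < c ∧ ∀ (ω : ℝ) (v : Fin m → ℂ),
      c * ∑ j, ‖v j‖ ^ 2 ≤
        ∑ j, ‖v j - ∑ i, v i * 𝓕 (fun u : ℝ => ((Real.exp (-(a * u)) * κ i j u : ℝ) : ℂ)) ω‖ ^ 2 := by
  set M : ℂ → Matrix (Fin m) (Fin m) ℂ :=
    fun z => Matrix.of fun i j => ∫ u : ℝ, Complex.exp (-(z * u)) * (κ i j u : ℂ) with hM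
  set U : Set ℂ := {z | 0 < z.re} with hU
  have hUo : IsOpen U := isOpen_lt continuous_const Complex.continuous_re
  have hUc : Convex ℝ U := convex_halfSpace_re_gt 0
  have hd : DifferentiableOn ℂ (fun z => (1 - M z).det) U := by
    simp only [Matrix.det_apply]
    refine DifferentiableOn.fun_sum fun σ _ => DifferentiableOn.const_smul ?_ _
    refine DifferentiableOn.fun_finsetProd fun i _ => ?_
    simp only [Matrix.sub_apply, hM, Matrix.of_apply]
    exact (differentiableOn_const _).sub (sp_laplace _ (hκ _ _) (hκ0 _ _)).1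
  have han := hd.analyticOnNhd hUo
  have hlim : Tendsto (fun x : ℝ => (1 - M x).det) atTop (𝓝 1) := by
    have h1 : Tendsto (fun x : ℝ => M x) atTop (𝓝 0) := by
      refine tendsto_pi_nhds.2 fun i => tendsto_pi_nhds.2 fun j => ?_
      exact (sp_laplace _ (hκ i j) (hκ0 i j)).2
    have h2 : Tendsto (fun x : ℝ => 1 - M x) atTop (𝓝 (1 - 0)) := tendsto_const_nhds.sub h1
    have h3 := ((continuous_id.matrix_det).tendsto _).comp h2
    simpa [Function.comp_def] using h3
  have hcount : ({z | (1 - M z).det = 0} ∩ U).Countable := by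
    rcases han.eqOn_zero_or_eventually_ne_zero_of_preconnected hUc.isPreconnected with h | h
    · exfalso
      obtain ⟨x, hx1, hx2⟩ := ((hlim.eventually_ne one_ne_zero).and (eventually_gt_atTop 0)).exists
      exact hx1 (h (show (x : ℂ) ∈ U from by simpa [hU] using hx2))
    · exact (HereditarilyLindelofSpace.isLindelof _).countable_of_isDiscrete
        (isDiscrete_of_codiscreteWithin h)
  obtain ⟨a, ha, haI⟩ := ((hcount.image Complex.re).dense_compl ℝ).exists_mem_open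
    (isOpen_Ioo (a := 0) (b := a1)) (nonempty_Ioo.2 ha1)
  refine ⟨a, haI.1, haI.2.le, ?_⟩
  set N : ℝ → Matrix (Fin m) (Fin m) ℂ := fun ω => 1 - Matrix.of fun i j =>
    𝓕 (fun u : ℝ => ((Real.exp (-(a * u)) * κ i j u : ℝ) : ℂ)) ω with hN
  have hNM : ∀ ω : ℝ, N ω = 1 - M (a + (2 * Real.pi * ω : ℝ) * Complex.I) := by
    intro ω
    simp only [hN, hM]
    congr 1
    ext i j
    simp only [Matrix.of_apply]
    rw [Real.fourier_real_eq_integral_exp_smul]
    refine integral_congr_ae (ae_of_all _ fun u => ?_)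
    simp only [smul_eq_mul]
    push_cast
    rw [← mul_assoc, ← Complex.exp_add]
    congr 2
    ring
  have hNc : Continuous N := by
    refine continuous_const.sub (continuous_pi fun i => continuous_pi fun j => ?_)
    exact VectorFourier.fourierIntegral_continuous Real.continuous_fourierChar continuous_inner
      (sps_int _ (hκ i j) (hκ0 i j) haI.1).ofReal
  have hNd : ∀ ω, (N ω).det ≠ 0 := by
    intro ω h0
    rw [hNM] at h0
    refine ha ⟨_, ⟨h0, ?_⟩, ?_⟩
    · simpa [hU] using haI.1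
    · simp
  have hN1 : Tendsto N (cocompact ℝ) (𝓝 1) := by
    have h1 : Tendsto (fun ω : ℝ => (Matrix.of fun i j =>
        𝓕 (fun u : ℝ => ((Real.exp (-(a * u)) * κ i j u : ℝ) : ℂ)) ω : Matrix (Fin m) (Fin m) ℂ))
        (cocompact ℝ) (𝓝 0) := by
      refine tendsto_pi_nhds.2 fun i => tendsto_pi_nhds.2 fun j => ?_
      exact Real.zero_at_infty_fourier _
    have h2 := (tendsto_const_nhds (x := (1 : Matrix (Fin m) (Fin m) ℂ))).sub h1
    rw [sub_zero] at h2
    exact h2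
  obtain ⟨c, hc, hcN⟩ := sp_matrix N hNc hNd hN1
  refine ⟨c, hc, fun ω v => (hcN ω v).trans (le_of_eq ?_)⟩
  refine Finset.sum_congr rfl fun j _ => ?_
  congr 2
  simp only [hN, Matrix.sub_apply, Matrix.of_apply, mul_sub, Finset.sum_sub_distrib,
    Matrix.one_apply, mul_ite, mul_one, mul_zero, Finset.sum_ite_eq', Finset.mem_univ, if_true]

end Crest.Agent.R213
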