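import Crest.Agent.R213.SpecK
import Crest.Agent.R213.SpecS
import Crest.Agent.R213.SpecL
import Crest.Agent.R213.SpecM

/-!
# R213 / ISpec : right inverse of `1 - 𝒦` for a causal, asymptotically translation invariant operator

`LocAdm` is defined in `SpecA`.  Proof: limit kernel `κ` (`sp_kernel`), a line `Re z = ν - μ` on which the
symbol is invertible (`sp_symbol`), lower bound for `1 - 𝒦†` on the line by Plancherel (`sp_lower`), and on the
half line up to small errors, which gives the right inverse (`sp_main`).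
-/

set_option autoImplicit false

open MeasureTheory Set Filter Topology
open scoped InnerProductSpace

namespace Crest.Agent.R213

theorem spi_loc {E : Type} [NormedAddCommGroup E] [NormedSpace ℝ E] {s0 s' : ℝ} (h : s' ≤ s0)
    (μ : ℝ) {G : ℝ → E} (hG : SpAdm s0 G) : LocAdm s' fun r => Real.exp (-(μ * r)) • G r := by
  refine ⟨fun s hs => by simp only [hG.1 s (hs.trans h), smul_zero], fun S => ?_⟩
  have hc : Continuous fun r : ℝ => Real.exp (-(μ * r)) := by fun_prop
  obtain ⟨b, hb⟩ := (isCompact_Icc (a := s') (b := S)).exists_bound_of_continuousOn hc.continuousOn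
  have h2 : MemLp G 2 (volume.restrict (Ioc s' S)) := hG.2.restrict _
  refine h2.of_le_mul (c := b) (hc.aestronglyMeasurable.smul h2.1) ?_
  filter_upwards [ae_restrict_mem measurableSet_Ioc] with r hr
  rw [norm_smul]
  exact mul_le_mul_of_nonneg_right (hb r (Ioc_subset_Icc_self hr)) (norm_nonneg _)

theorem spi_weight {E : Type} [NormedAddCommGroup E] [NormedSpace ℝ E] {s0 s' : ℝ} (h : s' ≤ s0)
    (ν a s : ℝ) {G : ℝ → E} (hG : SpAdm s0 G) :
    Real.exp ((ν - a) * s) ^ 2 * ∫ r in Ioc s' s, Real.exp (-(2 * ν * (s - r))) *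
      ‖Real.exp (-((ν - a) * r)) • G r‖ ^ 2 = ∫ u, spw a u * ‖G (s - u)‖ ^ 2 := by
  rw [← integral_sub_left_eq_self (fun u => spw a u * ‖G (s - u)‖ ^ 2) volume s,
    ← integral_const_mul, ← integral_indicator measurableSet_Ioc]
  congr 1
  funext r
  rw [sub_sub_cancel]
  by_cases hr : r ∈ Ioc s' s
  · rw [indicator_of_mem hr, spw, indicator_of_mem (show s - r ∈ Ici 0 from sub_nonneg.2 hr.2),
      norm_smul, Real.norm_eq_abs, mul_pow, sq_abs, ← mul_assoc, ← mul_assoc, ← Real.exp_nat_mul,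
      ← Real.exp_nat_mul, ← Real.exp_add, ← Real.exp_add]
    congr 2
    push_cast
    ring
  · rw [indicator_of_notMem hr]
    by_cases h1 : r ≤ s'
    · simp [hG.1 r (h1.trans h)]
    · have h2 : s < r := by
        by_contra h3
        exact hr ⟨not_le.1 h1, not_lt.1 h3⟩
      rw [spw, indicator_of_notMem (by simpa using h2), zero_mul]

theorem spec {m : ℕ} (K : (ℝ → EuclideanSpace ℝ (Fin m)) → ℝ → EuclideanSpace ℝ (Fin m))
    (sst ν μ1 C0 : ℝ) (hμ : μ1 < ν) (ε : ℝ → ℝ) (hε : Tendsto ε atTop (𝓝 0))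
    (hlin : ∀ g g' (t : ℝ), LocAdm sst g → LocAdm sst g' → ∀ s,
      K (fun r => g r + t • g' r) s = K g s + t • K g' s)
    (hcont : ∀ g, LocAdm sst g → Continuous (K g))
    (hB : ∀ g, LocAdm sst g → ∀ s,
      ‖K g s‖ ^ 2 ≤ C0 * ∫ r in Ioc sst s, Real.exp (-(2 * ν * (s - r))) * ‖g r‖ ^ 2)
    (hE : ∀ s0, sst ≤ s0 → ∀ g, LocAdm s0 g → ∀ h, 0 ≤ h → ∀ s,
      ‖K (fun r => g (r - h)) (s + h) - K g s‖ ^ 2 ≤
        ε s0 * ∫ r in Ioc s0 s, Real.exp (-(2 * ν * (s - r))) * ‖g r‖ ^ 2) :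
    ∃ μ, μ1 ≤ μ ∧ μ < ν ∧ ∃ C L sb : ℝ, 0 ≤ L ∧ sst + L ≤ sb ∧ ∀ s1, sb ≤ s1 →
      ∃ Λ : Lp (EuclideanSpace ℝ (Fin m)) 2 (volume.restrict (Ioi s1)) →L[ℝ]
          Lp (EuclideanSpace ℝ (Fin m)) 2 (volume.restrict (Ioi (s1 - L))),
        ‖Λ‖ ≤ C ∧ ∀ D,
          ∀ᵐ s ∂(volume.restrict (Ioi s1)),
            Real.exp (-(μ * s)) • Λ D s -
              K ((Ioi (s1 - L)).indicator fun r => Real.exp (-(μ * r)) • Λ D r) s =
            Real.exp (-(μ * s)) • D s := by
  obtain ⟨κ, hκ, hκ0, hκE⟩ := sp_kernel K sst ν C0 ε hlin hB hE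
  obtain ⟨a, ha, ha1, c, hc0, hc⟩ := sp_symbol (fun i j u => κ i u j)
    (fun i j => (spm_coord (hκ i) j).1) (fun i j u hu => by simp [hκ0 i u hu]) (ν - μ1) (by linarith)
  obtain ⟨C, L, δ, hL, hδ, hmain⟩ := sp_main κ hκ hκ0 a c ha hc0 (sp_lower κ hκ hκ0 a c ha hc)
  obtain ⟨x0, hx0⟩ := eventually_atTop.1 (hε.eventually (ge_mem_nhds hδ))
  refine ⟨ν - a, by linarith, by linarith, C, L, max sst x0 + L, hL,
    by linarith [le_max_left sst x0], fun s1 hs1 => ?_⟩
  have h0 : sst ≤ s1 - L := by linarith [le_max_left sst x0]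
  have h1 : ε (s1 - L) ≤ δ := hx0 _ (by linarith [le_max_right sst x0])
  obtain ⟨Λ, hΛ, hD⟩ := hmain s1 C0
    (fun G s => Real.exp ((ν - a) * s) • K (fun r => Real.exp (-((ν - a) * r)) • G r) s)
    (fun G G' t hG hG' s => by
      have := hlin _ _ t (spi_loc h0 (ν - a) hG) (spi_loc h0 (ν - a) hG') s
      simp only [smul_add, smul_comm (Real.exp _) t]
      rw [this, smul_add, smul_comm])
    (fun G hG => (by fun_prop : Continuous fun s : ℝ => Real.exp ((ν - a) * s)).smul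
      (hcont _ (spi_loc h0 (ν - a) hG)))
    (fun G hG s => by
      rw [← spi_weight h0 ν a s hG, norm_smul, Real.norm_eq_abs, mul_pow, sq_abs, mul_left_comm]
      exact mul_le_mul_of_nonneg_left (hB _ (spi_loc h0 (ν - a) hG) s) (sq_nonneg _))
    (fun G hG s => by
      have h2 := hκE _ h0 _ (spi_loc le_rfl (ν - a) hG) s
      have h3 : 0 ≤ ∫ r in Ioc (s1 - L) s, Real.exp (-(2 * ν * (s - r))) *
          ‖Real.exp (-((ν - a) * r)) • G r‖ ^ 2 := integral_nonneg fun r => by positivity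
      rw [← spi_weight le_rfl ν a s hG, mul_left_comm]
      refine le_trans (le_of_eq ?_) (mul_le_mul_of_nonneg_left
        (h2.trans (mul_le_mul_of_nonneg_right h1 h3)) (sq_nonneg _))
      rw [Finset.mul_sum]
      refine Finset.sum_congr rfl fun i _ => ?_
      rw [← mul_pow, mul_sub, ← integral_const_mul, PiLp.smul_apply, smul_eq_mul]
      congr 3
      funext u
      rw [real_inner_smul_left, real_inner_smul_right, ← mul_assoc, ← mul_assoc, ← Real.exp_add,
        ← Real.exp_add]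
      congr 2
      ring)
  refine ⟨Λ, hΛ, fun D => ?_⟩
  filter_upwards [hD D] with s hs
  have e : ((Ioi (s1 - L)).indicator fun r => Real.exp (-((ν - a) * r)) • Λ D r) =
      fun r => Real.exp (-((ν - a) * r)) • (Ioi (s1 - L)).indicator (Λ D) r := by
    funext r
    by_cases h : r ∈ Ioi (s1 - L)
    · rw [indicator_of_mem h, indicator_of_mem h]
    · rw [indicator_of_notMem h, indicator_of_notMem h, smul_zero]
  rw [e, ← hs, smul_sub, smul_smul, ← Real.exp_add, neg_add_cancel, Real.exp_zero, one_smul]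

end Crest.Agent.R213
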