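import Crest.Agent.R213.Sol1

/-! # R213 / Sol2 : pointwise dissipation inequality for the unweighted energy -/

set_option autoImplicit false

open MeasureTheory Set Filter Topology
open scoped ContDiff InnerProductSpace

namespace Crest.Agent.R213

variable {S : Sp} {A : Apx} {N : Anc}

theorem fb_sum_le (B : Fb S A N) {s : ℝ} (hs : B.sst ≤ s) (g : EuclideanSpace ℝ (Fin B.m))
    (h : L2) : Real.exp s * ‖∑ i, (g i - B.γ * B.L i s (S.T.G h)) • B.f i s‖ ^ 2 ≤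
      B.m * B.C * (2 * ‖g‖ ^ 2 + 2 * B.C * N.En s h) := by
  set c : Fin B.m → ℝ := fun i => g i - B.γ * B.L i s (S.T.G h) with hc
  have h1 : ‖∑ i, c i • B.f i s‖ ≤ ∑ i, |c i| * ‖B.f i s‖ :=
    (norm_sum_le _ _).trans (le_of_eq (Finset.sum_congr rfl fun i _ => by
      rw [norm_smul, Real.norm_eq_abs]))
  have h2 := Finset.sum_mul_sq_le_sq_mul_sq Finset.univ (fun i => |c i|) (fun i => ‖B.f i s‖)
  have h3 : ∑ i, ‖B.f i s‖ ^ 2 ≤ B.m * (B.C * Real.exp (-s)) := by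
    have := Finset.sum_le_card_nsmul Finset.univ (fun i => ‖B.f i s‖ ^ 2) _
      fun i _ => B.f_le i s hs
    simpa using this
  have h4 : ∑ i, |c i| ^ 2 ≤ 2 * ‖g‖ ^ 2 + 2 * B.C * N.En s h := by
    have h5 : ∑ i, |c i| ^ 2 ≤ ∑ i, (2 * g i ^ 2 + 2 * (B.γ * B.L i s (S.T.G h)) ^ 2) :=
      Finset.sum_le_sum fun i _ => by
        rw [sq_abs, hc]
        nlinarith [sq_nonneg (g i + B.γ * B.L i s (S.T.G h))]
    rw [Finset.sum_add_distrib, ← Finset.mul_sum, ← Finset.mul_sum] at h5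
    have h6 : ‖g‖ ^ 2 = ∑ i, g i ^ 2 := by
      rw [EuclideanSpace.norm_sq_eq]; simp
    have h7 := B.obs_le s hs h
    rw [h6]
    linarith
  have h5 : ‖∑ i, c i • B.f i s‖ ^ 2 ≤
      (2 * ‖g‖ ^ 2 + 2 * B.C * N.En s h) * (B.m * (B.C * Real.exp (-s))) := by
    refine (pow_le_pow_left₀ (norm_nonneg _) h1 2).trans (h2.trans ?_)
    exact mul_le_mul h4 h3 (Finset.sum_nonneg fun i _ => sq_nonneg _)
      ((Finset.sum_nonneg fun i _ => sq_nonneg _).trans h4)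
  have he : Real.exp s * Real.exp (-s) = 1 := by rw [← Real.exp_add]; simp
  calc _ ≤ Real.exp s * ((2 * ‖g‖ ^ 2 + 2 * B.C * N.En s h) * (B.m * (B.C * Real.exp (-s)))) :=
        mul_le_mul_of_nonneg_left h5 (Real.exp_pos s).le
    _ = (Real.exp s * Real.exp (-s)) * (B.m * B.C * (2 * ‖g‖ ^ 2 + 2 * B.C * N.En s h)) := by ring
    _ = _ := by rw [he, one_mul]

theorem strong_arith {C1 m C E e R P Y W Q : ℝ} (hC1 : 0 ≤ C1) (hm : 0 ≤ m) (hC : 0 ≤ C)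
    (hE : 0 ≤ E) (he : 1 ≤ e) (hY : 0 ≤ Y) (hW : 0 ≤ W) (h6 : R ≤ 3 * (P + Y + Q))
    (h7 : e * P ≤ C1 * e * E) (h8 : e * Q ≤ m * C * (2 * W + 2 * C * E)) :
    e * R ≤ 3 * ((C1 + 1 + 2 * m * C + 2 * m * C ^ 2) * (e * E + e * Y + W)) := by
  have he0 : 0 ≤ e := by linarith
  have h10 := mul_le_mul_of_nonneg_left h6 he0
  have h11 : E ≤ e * E := le_mul_of_one_le_left hE he
  have hX0 : 0 ≤ e * E := by positivity
  have hY0 : 0 ≤ e * Y := by positivity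
  have a1 : 0 ≤ 2 * m * C := by positivity
  have a2 : 0 ≤ 2 * m * C ^ 2 := by positivity
  have h12 := mul_le_mul_of_nonneg_left h11 a2
  linarith [mul_nonneg hC1 hY0, mul_nonneg hC1 hW, mul_nonneg a1 hX0,
    mul_nonneg a1 hY0, mul_nonneg a2 hY0, mul_nonneg a2 hW]

theorem strong_pt (B : Fb S A N) : ∃ c K : ℝ, 0 < c ∧ 0 < K ∧ ∀ s, B.sst ≤ s →
    ∀ (u Fo : VV) (g : EuclideanSpace ℝ (Fin B.m)),
      2 * S.T.a (lin0 S A s u (S.T.ι u) + Fo +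
        ∑ i, (g i - B.γ * B.L i s (S.T.G (S.T.ι u))) • B.f i s) u +
        c * (Real.exp (-s) * ‖u‖ ^ 2) ≤
      K * (Real.exp s * N.En s (S.T.ι u) + Real.exp s * ‖Fo‖ ^ 2 + ‖g‖ ^ 2) := by
  obtain ⟨c, C, hc, hC, hg⟩ := garding_g S A
  obtain ⟨C1, hC1, hb⟩ := bxi_le S A N
  have hBC := B.C_pos
  set M := ‖S.T.a‖ with hM
  set K0 := 3 * M ^ 2 / c with hK0
  have hK00 : 0 ≤ K0 := by positivity
  refine ⟨c, 4 * C + K0 * (C1 + 1 + 2 * B.m * B.C + 2 * B.m * B.C ^ 2), hc, by positivity,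
    fun s hs u Fo g => ?_⟩
  have hs4 : 4 ≤ s := B.sst_ge.trans hs
  have hs0 : 0 ≤ s := by linarith
  set h := S.T.ι u with hh
  set P := Real.exp (-s) • S.mul (A.b s) (S.T.G h) with hP
  set Q := ∑ i, (g i - B.γ * B.L i s (S.T.G h)) • B.f i s with hQ
  set E := N.En s h with hE
  have hE0 : 0 ≤ E := En_nonneg' N s h
  have he : Real.exp s * Real.exp (-s) = 1 := by rw [← Real.exp_add]; simp
  have he1 : 1 ≤ Real.exp s := Real.one_le_exp hs0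
  have hτ := Real.exp_pos (-s)
  have h1 : S.T.a (lin0 S A s u h + Fo + Q) u =
      S.T.a (P + Fo + Q) u - Real.exp (-s) * S.T.a (S.mul (fun x => A.g s x ^ 2) u) u := by
    simp only [lin0, hP, smul_sub, map_add, map_sub, map_smul, add_apply, sub_apply, smul_apply,
      smul_eq_mul]
    ring
  have h2 := mul_le_mul_of_nonneg_left ((hg s hs0).1 u) hτ.le
  have h3 := mul_le_mul_of_nonneg_left ((d0_le_EH S hs0 u).trans
    (mul_le_mul_of_nonneg_left (EH_le_En N s h) (by positivity))) hC.le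
  have h4 := ex_a_le S.T (P + Fo + Q) u
  have h5 : 2 * (M * ‖P + Fo + Q‖ * ‖u‖) ≤
      c * (Real.exp (-s) * ‖u‖ ^ 2) + M ^ 2 / c * (Real.exp s * ‖P + Fo + Q‖ ^ 2) := by
    have h6 : c * (Real.exp (-s) * ‖u‖ ^ 2) + M ^ 2 / c * (Real.exp s * ‖P + Fo + Q‖ ^ 2) -
        2 * (M * ‖P + Fo + Q‖ * ‖u‖) =
        Real.exp s * (c * Real.exp (-s) * ‖u‖ - M * ‖P + Fo + Q‖) ^ 2 / c := by
      rw [Real.exp_neg]; field_simp; ring
    have h7 : 0 ≤ Real.exp s * (c * Real.exp (-s) * ‖u‖ - M * ‖P + Fo + Q‖) ^ 2 / c := by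
      positivity
    linarith
  have h6 : ‖P + Fo + Q‖ ^ 2 ≤ 3 * (‖P‖ ^ 2 + ‖Fo‖ ^ 2 + ‖Q‖ ^ 2) := by
    have h7 : ‖P + Fo + Q‖ ≤ ‖P‖ + ‖Fo‖ + ‖Q‖ := norm_add₃_le
    have h8 := pow_le_pow_left₀ (norm_nonneg _) h7 2
    nlinarith [sq_nonneg (‖P‖ - ‖Fo‖), sq_nonneg (‖P‖ - ‖Q‖), sq_nonneg (‖Fo‖ - ‖Q‖)]
  have h7 : Real.exp s * ‖P‖ ^ 2 ≤ C1 * Real.exp s * E := by
    refine le_trans (le_of_eq ?_) (hb s hs4 h).2
    rw [hP, norm_smul, Real.norm_of_nonneg hτ.le, mul_pow, ← mul_assoc, sq (Real.exp (-s)),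
      ← mul_assoc, he, one_mul]
  have h8 := fb_sum_le B hs g h
  have h9 := strong_arith (hC1.le) (Nat.cast_nonneg B.m) hBC.le hE0 he1 (sq_nonneg ‖Fo‖)
    (sq_nonneg ‖g‖) h6 h7 h8
  have h10 : M ^ 2 / c * (Real.exp s * ‖P + Fo + Q‖ ^ 2) ≤
      K0 * ((C1 + 1 + 2 * B.m * B.C + 2 * B.m * B.C ^ 2) *
        (Real.exp s * E + Real.exp s * ‖Fo‖ ^ 2 + ‖g‖ ^ 2)) := by
    refine (mul_le_mul_of_nonneg_left h9 (by positivity)).trans (le_of_eq ?_)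
    rw [hK0]; ring
  have h11 : 0 ≤ C * (Real.exp s * ‖Fo‖ ^ 2 + ‖g‖ ^ 2) := by positivity
  rw [h1]
  rw [← hM] at h4
  rw [← hE] at h3
  linarith

end Crest.Agent.R213
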