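import Crest.Agent.R213.IIneq
import Crest.Agent.R213.IExist
import Crest.Agent.R213.ISpec
import Crest.Agent.R213.Sol2

/-! # R213 / ISol : the feedback system: existence, linearity, causality, strong estimate -/

set_option autoImplicit false

open MeasureTheory Set Filter Topology
open scoped ContDiff InnerProductSpace

namespace Crest.Agent.R213

variable {S : Sp} {A : Apx} {N : Anc}

/-- `exists_sol_glob` with `A s = e^{-s} mul(g²) - (e^{-s} mul b - γ Σ f_i ⊗ L_i) ∘ G ∘ ι`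
(Gårding from `garding_g`, `∫(d0 u/(x+λ))² ≤ e^s‖ι u‖²`, Young). -/
theorem fbsol_exists (B : Fb S A N) {Fo : ℝ → VV} {g : ℝ → EuclideanSpace ℝ (Fin B.m)}
    (hF : LocAdm B.sst Fo) (hg : LocAdm B.sst g) : ∃ v Z U, FbSol B Fo g v Z U := by
  obtain ⟨v, Z, U, h1, h2, h3, h4⟩ := exists_sol_glob S.T B.sst (fbA B) (fbA_cont B).continuousOn
    (fun s1 _ => fb_gar B s1) (fbF B Fo g) fun s1 => fbF_memLp B (hF.2 s1) (hg.2 s1)
  refine ⟨v, Z, U, h1, h2, h3, ?_⟩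
  have h5 : ∀ᵐ s ∂(volume.restrict (Ioi B.sst)), S.T.ι (v s) = U s := by
    have h6 : Ioi B.sst = ⋃ n : ℕ, Ioc B.sst (B.sst + n) := by
      ext s
      simp only [mem_Ioi, mem_iUnion, mem_Ioc]
      refine ⟨fun h => ?_, fun ⟨_, h, _⟩ => h⟩
      obtain ⟨n, hn⟩ := exists_nat_ge (s - B.sst)
      exact ⟨n, h, by linarith⟩
    rw [h6, ae_restrict_iUnion_iff]
    exact fun n => (h1 _ (le_add_of_nonneg_right (Nat.cast_nonneg n))).rep
  filter_upwards [h4, h5] with s h6 h7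
  rw [h6, ← h7, fb_rhs]

theorem FbSol.add_smul {B : Fb S A N} {Fo Fo' : ℝ → VV} {g g' : ℝ → EuclideanSpace ℝ (Fin B.m)}
    {v Z v' Z' : ℝ → VV} {U U' : ℝ → L2} (h : FbSol B Fo g v Z U) (h' : FbSol B Fo' g' v' Z' U')
    (t : ℝ) : FbSol B (fun s => Fo s + t • Fo' s) (fun s => g s + t • g' s)
      (fun s => v s + t • v' s) (fun s => Z s + t • Z' s) (fun s => U s + t • U' s) := by
  refine ⟨fun s1 hs => (h.sol s1 hs).add_smul (h'.sol s1 hs) t,
    h.cont.add (h'.cont.const_smul t), fun s hs => by simp [h.zero s hs, h'.zero s hs], ?_⟩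
  filter_upwards [h.eqn, h'.eqn] with s h1 h2
  rw [h1, h2]
  have h3 : ∀ i, ((g s + t • g' s) i - B.γ * B.L i s (S.T.G (U s + t • U' s))) • B.f i s =
      (g s i - B.γ * B.L i s (S.T.G (U s))) • B.f i s +
        t • ((g' s i - B.γ * B.L i s (S.T.G (U' s))) • B.f i s) := by
    intro i
    rw [smul_smul, ← _root_.add_smul]
    congr 1
    simp only [PiLp.add_apply, PiLp.smul_apply, map_add, map_smul, smul_eq_mul]
    ring
  rw [Finset.sum_congr rfl fun i _ => h3 i, Finset.sum_add_distrib, ← Finset.smul_sum]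
  simp only [lin0, map_add, map_smul]
  module

/-- `B.est` for global solutions. -/
theorem FbSol.est {B : Fb S A N} {Fo : ℝ → VV} {g : ℝ → EuclideanSpace ℝ (Fin B.m)}
    {v Z : ℝ → VV} {U : ℝ → L2} (h : FbSol B Fo g v Z U) (hF : LocAdm B.sst Fo)
    (hg : LocAdm B.sst g) {μ : ℝ} (hμ : μ ≤ 7 / 8) {s : ℝ} (hs : B.sst ≤ s) :
    IntervalIntegrable (fun r => Real.exp (2 * μ * r) *
      (Real.exp (-r) * ‖S.mul (wh r) (v r)‖ ^ 2 + N.En r (U r))) volume B.sst s ∧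
    IntervalIntegrable (fun r => Real.exp (2 * μ * r) *
      (Real.exp r * ‖S.mul (wh r) (Fo r)‖ ^ 2 + ‖g r‖ ^ 2)) volume B.sst s ∧
    ContinuousOn (fun r => N.En r (U r)) (Ici B.sst) ∧
    Real.exp (2 * μ * s) * N.En s (U s) + ∫ r in B.sst..s, Real.exp (2 * μ * r) *
      (Real.exp (-r) * ‖S.mul (wh r) (v r)‖ ^ 2 + N.En r (U r)) ≤
    B.C * ∫ r in B.sst..s, Real.exp (2 * μ * r) *
      (Real.exp r * ‖S.mul (wh r) (Fo r)‖ ^ 2 + ‖g r‖ ^ 2) := by
  have hE := en_cont S N h.cont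
  have hw : ContinuousOn (fun r => Real.exp (2 * μ * r)) (uIcc B.sst s) := by fun_prop
  refine ⟨(((wh_sq_ii S hs (h.sol s hs).v2).continuousOn_mul (by fun_prop)).add
      (hE.intervalIntegrable _ _)).continuousOn_mul hw,
    (((wh_sq_ii S hs (hF.2 s)).continuousOn_mul (by fun_prop)).add
      ((intervalIntegrable_iff_integrableOn_Ioc_of_le hs).2
        (ex_sq_int (hg.2 s)))).continuousOn_mul hw, hE.continuousOn, ?_⟩
  exact B.est μ hμ B.sst s le_rfl hs v Z Fo U g (h.sol s hs) (h.zero _ le_rfl) (hF.2 s) (hg.2 s)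
    (ae_restrict_of_ae_restrict_of_subset Ioc_subset_Ioi_self h.eqn)

/-- uniqueness and causality: data vanishing a.e. on `(sst, s0]` give a vanishing solution there. -/
theorem FbSol.causal {B : Fb S A N} {Fo : ℝ → VV} {g : ℝ → EuclideanSpace ℝ (Fin B.m)}
    {v Z : ℝ → VV} {U : ℝ → L2} (h : FbSol B Fo g v Z U) {s0 : ℝ}
    (hF : ∀ᵐ s ∂(volume.restrict (Ioc B.sst s0)), Fo s = 0)
    (hg : ∀ᵐ s ∂(volume.restrict (Ioc B.sst s0)), g s = 0) :
    (∀ s, s ≤ s0 → U s = 0) ∧ ∀ᵐ s ∂(volume.restrict (Ioc B.sst s0)), v s = 0 ∧ Z s = 0 := by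
  rcases lt_or_ge s0 B.sst with hs | hs
  · refine ⟨fun s hs' => h.zero s (hs'.trans hs.le), ?_⟩
    rw [Ioc_eq_empty_of_le hs.le, Measure.restrict_empty]
    simp
  obtain ⟨c, C, hc, hC, hgar⟩ := fb_gar B s0
  have hZ : ∀ᵐ s ∂(volume.restrict (Ioc B.sst s0)),
      Z s = -(fbA B s (v s)) + (fun _ => (0 : VV)) s := by
    filter_upwards [h.eqn' hs, hF, hg] with s h1 h2 h3
    rw [h1, fbF, h2, h3]
    simp
  have hap := fun s (hs' : s ∈ Icc B.sst s0) =>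
    apriori S.T (h.sol s0 hs) (fbA B) hc hC hgar MemLp.zero' hZ hs'
  simp only [h.zero _ le_rfl, norm_zero, ne_eq, OfNat.ofNat_ne_zero, not_false_eq_true, zero_pow,
    intervalIntegral.integral_zero, mul_zero, add_zero] at hap
  have hint : ∀ s ∈ Icc B.sst s0, 0 ≤ ∫ q in B.sst..s, ‖v q‖ ^ 2 := fun s hs' =>
    intervalIntegral.integral_nonneg hs'.1 fun q _ => by positivity
  refine ⟨fun s hs' => ?_, ?_⟩
  · rcases le_total s B.sst with h1 | h1
    · exact h.zero s h1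
    · have h2 := hap s ⟨h1, hs'⟩
      have h3 : ‖U s‖ ^ 2 ≤ 0 := by linarith [mul_nonneg hc.le (hint s ⟨h1, hs'⟩)]
      exact norm_eq_zero.1 (pow_eq_zero_iff two_ne_zero |>.1 (le_antisymm h3 (sq_nonneg _)))
  · have h2 := hap s0 ⟨hs, le_rfl⟩
    have h3 : ∫ q in B.sst..s0, ‖v q‖ ^ 2 = 0 := by
      refine le_antisymm ?_ (hint s0 ⟨hs, le_rfl⟩)
      by_contra h4
      push Not at h4
      linarith [mul_pos hc h4, sq_nonneg ‖U s0‖]
    rw [intervalIntegral.integral_of_le hs, integral_eq_zero_iff_of_nonneg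
      (fun q => by positivity) (ex_sq_int (h.sol s0 hs).v2)] at h3
    filter_upwards [h3, hZ] with s h4 h5
    have h6 : v s = 0 := norm_eq_zero.1 (pow_eq_zero_iff two_ne_zero |>.1 h4)
    refine ⟨h6, ?_⟩
    rw [h5, h6]
    simp

theorem FbSol.obs_cont {B : Fb S A N} {Fo : ℝ → VV} {g : ℝ → EuclideanSpace ℝ (Fin B.m)}
    {v Z : ℝ → VV} {U : ℝ → L2} (h : FbSol B Fo g v Z U) : Continuous fun s => B.obs s (U s) := by
  unfold Fb.obs
  refine (PiLp.continuous_toLp 2 _).comp (continuous_pi fun i => ?_)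
  exact continuous_const.mul ((B.L_cont i).clm_apply (S.T.G.continuous.comp h.cont))

/-- unweighted energy estimate: `energy_one`, `garding_g` (first part), `τ/(x+λ)² ≤ 2e^s wh²`,
`bxi_le`, `f_le`, `obs_le`, and `FbSol.est` with `e^r ≤ e^{2μ r}`. -/
theorem strong (B : Fb S A N) : ∃ C : ℝ, 0 < C ∧ ∀ μ, 1 / 2 ≤ μ → μ ≤ 7 / 8 →
    ∀ {Fo : ℝ → VV} {g : ℝ → EuclideanSpace ℝ (Fin B.m)} {v Z : ℝ → VV} {U : ℝ → L2},
      FbSol B Fo g v Z U → LocAdm B.sst Fo → LocAdm B.sst g → ∀ s, B.sst ≤ s →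
      ‖U s‖ ^ 2 + ∫ r in B.sst..s, Real.exp (-r) * ‖v r‖ ^ 2 ≤
        C * ∫ r in B.sst..s, (Real.exp r * ‖Fo r‖ ^ 2 + Real.exp (2 * μ * r) *
          (Real.exp r * ‖S.mul (wh r) (Fo r)‖ ^ 2 + ‖g r‖ ^ 2)) := by
  obtain ⟨c, K, hc, hK, hpt⟩ := strong_pt B
  have hBC := B.C_pos
  refine ⟨(1 + 1 / c) * (K * (B.C + 1)), by positivity, ?_⟩
  intro μ hμ1 hμ2 Fo g v Z U h hF hg s hs
  obtain ⟨i1, i2, -, hest⟩ := h.est hF hg hμ2 hs
  obtain ⟨i3, hen⟩ := energy_one S.T (h.sol s hs) le_rfl hs le_rfl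
  have i4 : IntervalIntegrable (fun r => Real.exp (-r) * ‖v r‖ ^ 2) volume B.sst s :=
    ((intervalIntegrable_iff_integrableOn_Ioc_of_le hs).2
      (ex_sq_int (h.sol s hs).v2)).continuousOn_mul (by fun_prop)
  have i5 : IntervalIntegrable (fun r => Real.exp r * ‖Fo r‖ ^ 2) volume B.sst s :=
    ((intervalIntegrable_iff_integrableOn_Ioc_of_le hs).2
      (ex_sq_int (hF.2 s))).continuousOn_mul (by fun_prop)
  have hmono : ∫ r in B.sst..s, (2 * S.T.a (Z r) (v r) + c * (Real.exp (-r) * ‖v r‖ ^ 2)) ≤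
      ∫ r in B.sst..s, K * (Real.exp (2 * μ * r) *
        (Real.exp (-r) * ‖S.mul (wh r) (v r)‖ ^ 2 + N.En r (U r)) +
        (Real.exp r * ‖Fo r‖ ^ 2 + Real.exp (2 * μ * r) *
          (Real.exp r * ‖S.mul (wh r) (Fo r)‖ ^ 2 + ‖g r‖ ^ 2))) := by
    rw [intervalIntegral.integral_of_le hs, intervalIntegral.integral_of_le hs]
    refine integral_mono_ae (i3.add (i4.const_mul c)).1 ((i1.add (i5.add i2)).const_mul K).1 ?_
    filter_upwards [ae_restrict_of_ae_restrict_of_subset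
      (Ioc_subset_Ioi_self : Ioc B.sst s ⊆ _) h.eqn, (h.sol s hs).rep,
      ae_restrict_mem measurableSet_Ioc] with r h1 h2 hr
    have h3 := hpt r hr.1.le (v r) (Fo r) (g r)
    rw [h2, ← h1] at h3
    refine h3.trans (mul_le_mul_of_nonneg_left ?_ hK.le)
    have hr0 : 0 ≤ r := by linarith [B.sst_ge, hr.1]
    have h4 : Real.exp r ≤ Real.exp (2 * μ * r) := Real.exp_le_exp.2 (by nlinarith)
    have h5 : 1 ≤ Real.exp (2 * μ * r) := (Real.one_le_exp hr0).trans h4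
    have h6 := mul_le_mul_of_nonneg_right h4 (En_nonneg' N r (U r))
    have h7 := mul_le_mul_of_nonneg_right h5 (sq_nonneg ‖g r‖)
    have h8 : 0 ≤ Real.exp (2 * μ * r) * (Real.exp (-r) * ‖S.mul (wh r) (v r)‖ ^ 2) := by
      positivity
    have h9 : 0 ≤ Real.exp (2 * μ * r) * (Real.exp r * ‖S.mul (wh r) (Fo r)‖ ^ 2) := by
      positivity
    linarith
  rw [intervalIntegral.integral_add i3 (i4.const_mul c), intervalIntegral.integral_const_mul c,
    intervalIntegral.integral_const_mul K, intervalIntegral.integral_add i1 (i5.add i2)] at hmono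
  rw [h.zero _ le_rfl, norm_zero] at hen
  have hsplit := intervalIntegral.integral_add i5 i2
  set I1 := ∫ r in B.sst..s, Real.exp (2 * μ * r) *
    (Real.exp (-r) * ‖S.mul (wh r) (v r)‖ ^ 2 + N.En r (U r)) with hI1
  set I2 := ∫ r in B.sst..s, Real.exp (2 * μ * r) *
    (Real.exp r * ‖S.mul (wh r) (Fo r)‖ ^ 2 + ‖g r‖ ^ 2) with hI2
  set I3 := ∫ r in B.sst..s, (Real.exp r * ‖Fo r‖ ^ 2 + Real.exp (2 * μ * r) *
    (Real.exp r * ‖S.mul (wh r) (Fo r)‖ ^ 2 + ‖g r‖ ^ 2)) with hI3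
  set I4 := ∫ r in B.sst..s, Real.exp (-r) * ‖v r‖ ^ 2 with hI4
  have p4 : 0 ≤ I4 := intervalIntegral.integral_nonneg hs fun q _ => by positivity
  have p5 : 0 ≤ ∫ r in B.sst..s, Real.exp r * ‖Fo r‖ ^ 2 :=
    intervalIntegral.integral_nonneg hs fun q _ => by positivity
  have p6 : 0 ≤ Real.exp (2 * μ * s) * N.En s (U s) :=
    mul_nonneg (Real.exp_pos _).le (En_nonneg' N s _)
  have q1 : I1 ≤ B.C * I3 := by
    have : B.C * I2 ≤ B.C * I3 := mul_le_mul_of_nonneg_left (by linarith) hBC.le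
    linarith
  have q2 : ‖U s‖ ^ 2 + c * I4 ≤ K * (B.C + 1) * I3 := by
    have := mul_le_mul_of_nonneg_left q1 hK.le
    linarith
  have q3 : ‖U s‖ ^ 2 + I4 ≤ (1 + 1 / c) * (‖U s‖ ^ 2 + c * I4) := by
    have h1 : (1 + 1 / c) * (‖U s‖ ^ 2 + c * I4) =
        ‖U s‖ ^ 2 + I4 + (c * I4 + 1 / c * ‖U s‖ ^ 2) := by field_simp; ring
    have h2 : 0 ≤ c * I4 + 1 / c * ‖U s‖ ^ 2 := by positivity
    linarith
  refine q3.trans ?_
  rw [mul_assoc (1 + 1 / c)]
  exact mul_le_mul_of_nonneg_left q2 (by positivity)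

end Crest.Agent.R213
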