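import Crest.Agent.R213.IV
import Crest.Agent.R213.ISig

/-! # R213 / SpAlg : algebra of the operators of `Sp` (proofs of the lemmas of `ISp`) -/

set_option autoImplicit false

open MeasureTheory Set Filter Topology
open scoped ContDiff InnerProductSpace

namespace Crest.Agent.R213

theorem salg_mem : ∀ᵐ x ∂ν, x ∈ Ioo (0 : ℝ) 1 := ae_restrict_mem measurableSet_Ioo

theorem salg_bound {p : ℝ → ℝ} (hp : Continuous p) : ∃ N, ∀ x ∈ Ioo (0 : ℝ) 1, |p x| ≤ N := by
  obtain ⟨N, hN⟩ := (isCompact_Icc (a := (0 : ℝ)) (b := 1)).exists_bound_of_continuousOn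
    hp.continuousOn
  exact ⟨N, fun x hx => hN x (Ioo_subset_Icc_self hx)⟩

theorem salg_dx {p : ℝ → ℝ → ℝ} (hp : ContDiff ℝ ∞ (Function.uncurry p)) :
    ContDiff ℝ ∞ (Function.uncurry fun s x => deriv (p s) x) := by
  have h1 : ContDiff ℝ ∞ (Function.uncurry fun (z : ℝ × ℝ) (y : ℝ) => p z.1 y) :=
    hp.comp (contDiff_fst.fst.prodMk contDiff_snd)
  exact ContDiff.fderiv_apply (n := ∞) (g := Prod.snd) (k := fun _ => (1 : ℝ)) h1 contDiff_snd
    contDiff_const (by simp)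

theorem salg_ds {p : ℝ → ℝ → ℝ} (hp : ContDiff ℝ ∞ (Function.uncurry p)) :
    ContDiff ℝ ∞ (Function.uncurry fun s x => deriv (fun r => p r x) s) := by
  have h1 : ContDiff ℝ ∞ (Function.uncurry fun (z : ℝ × ℝ) (r : ℝ) => p r z.2) :=
    hp.comp (contDiff_snd.prodMk contDiff_fst.snd)
  exact ContDiff.fderiv_apply (n := ∞) (g := Prod.fst) (k := fun _ => (1 : ℝ)) h1 contDiff_fst
    contDiff_const (by simp)

theorem salg_slice {p : ℝ → ℝ → ℝ} (hp : ContDiff ℝ ∞ (Function.uncurry p)) (s : ℝ) :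
    ContDiff ℝ ∞ (p s) :=
  hp.comp (contDiff_const.prodMk contDiff_id)

theorem salg_slice' {p : ℝ → ℝ → ℝ} (hp : ContDiff ℝ ∞ (Function.uncurry p)) (x : ℝ) :
    ContDiff ℝ ∞ (fun r => p r x) :=
  hp.comp (contDiff_id.prodMk contDiff_const)

theorem salg_unif {p : ℝ → ℝ → ℝ} (hp : Continuous (Function.uncurry p)) (s : ℝ) {ε : ℝ}
    (hε : 0 < ε) : ∀ᶠ r in 𝓝 s, ∀ x ∈ Icc (0 : ℝ) 1, |p r x - p s x| ≤ ε := by
  refine isCompact_Icc.eventually_forall_of_forall_eventually fun y _ => ?_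
  have h1 : Continuous fun z : ℝ × ℝ => |p z.1 z.2 - p s z.2| :=
    (hp.sub (hp.comp (continuous_const.prodMk continuous_snd))).abs
  have h2 := h1.tendsto (s, y)
  simp only [sub_self, abs_zero] at h2
  exact h2.eventually (ge_mem_nhds hε)

theorem salg_C0 {ξ : ℝ → ℝ} (hξ : ContDiffOn ℝ 4 ξ (Ioo 0 1)) :
    ContDiffOn ℝ 2 (C0 ξ) (Ioo 0 1) := by
  have h1 : ContDiffOn ℝ 3 (deriv ξ) (Ioo 0 1) := hξ.deriv_of_isOpen isOpen_Ioo (by norm_num)
  have h2 : ContDiffOn ℝ 2 (deriv (deriv ξ)) (Ioo 0 1) := h1.deriv_of_isOpen isOpen_Ioo (by norm_num)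
  unfold C0
  refine (h2.add ((contDiffOn_const.mul (h1.of_le (by norm_num))).div contDiffOn_id
    fun x hx => hx.1.ne')).add ((contDiffOn_const.mul (hξ.of_le (by norm_num))).div
      (contDiffOn_id.pow 2) fun x hx => pow_ne_zero 2 hx.1.ne')

/-- integration by parts, twice, against `x² f` -/
theorem salg_ibp {σ f : ℝ → ℝ} (hσ : ContDiffOn ℝ 2 σ (Ioo 0 1)) (hf : Test f) :
    ∫ x in Ioo (0 : ℝ) 1, σ x * (x ^ 2 * deriv (deriv f) x + 4 * x * deriv f x + 2 * f x) =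
      ∫ x in Ioo (0 : ℝ) 1, deriv (deriv σ) x * x ^ 2 * f x := by
  obtain ⟨hf2, δ0, hδ0, hs0⟩ := hf
  obtain ⟨δ, hδ, hδ1, hs⟩ : ∃ δ : ℝ, 0 < δ ∧ δ ≤ 1 / 4 ∧ ∀ x, x ∉ Ioo δ (1 - δ) → f x = 0 :=
    ⟨min δ0 (1 / 4), lt_min hδ0 (by norm_num), min_le_right _ _, fun x hx => hs0 x fun h =>
      hx ⟨(min_le_left _ _).trans_lt h.1, h.2.trans_le (by linarith [min_le_left δ0 (1 / 4)])⟩⟩
  have hz : ∀ x, x ∉ Icc δ (1 - δ) → f x = 0 ∧ deriv f x = 0 ∧ deriv (deriv f) x = 0 := by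
    intro x hx
    have e : f =ᶠ[𝓝 x] fun _ => 0 := by
      filter_upwards [isClosed_Icc.isOpen_compl.mem_nhds hx] with y hy
      exact hs y fun h => hy (Ioo_subset_Icc_self h)
    have e1 := e.deriv
    have e2 := e1.deriv
    refine ⟨e.eq_of_nhds, ?_, ?_⟩
    · rw [e1.eq_of_nhds]; simp
    · rw [e2.eq_of_nhds]; simp
  have hab : δ / 2 ≤ 1 - δ / 2 := by linarith
  have hsub : Icc (δ / 2) (1 - δ / 2) ⊆ Ioo (0 : ℝ) 1 := fun x hx =>
    ⟨by linarith [hx.1], by linarith [hx.2]⟩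
  have red : ∀ g : ℝ → ℝ, (∀ x, x ∉ Icc δ (1 - δ) → g x = 0) →
      ∫ x in Ioo (0 : ℝ) 1, g x = ∫ x in (δ / 2)..(1 - δ / 2), g x := by
    intro g hg
    rw [intervalIntegral.integral_of_le hab]
    refine setIntegral_eq_of_subset_of_forall_sdiff_eq_zero measurableSet_Ioo
      (Ioc_subset_Icc_self.trans hsub) fun x hx => hg x fun h => hx.2 ⟨?_, ?_⟩
    · linarith [h.1]
    · linarith [h.2]
  rw [red _ fun x hx => by simp [hz x hx], red _ fun x hx => by simp [hz x hx]]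
  have hσ1 : ContDiffOn ℝ 1 (deriv σ) (Ioo 0 1) := hσ.deriv_of_isOpen isOpen_Ioo (by norm_num)
  have hσ2 : ContDiffOn ℝ 0 (deriv (deriv σ)) (Ioo 0 1) :=
    hσ1.deriv_of_isOpen isOpen_Ioo (by norm_num)
  have hf1 : ContDiff ℝ 1 (deriv f) := hf2.deriv'
  have hf0 : ContDiff ℝ 0 (deriv (deriv f)) := hf1.deriv'
  have c0 := hf2.continuous
  have c1 := hf1.continuous
  have c2 := hf0.continuous
  have i1 : IntervalIntegrable (fun x => σ x *
      (x ^ 2 * deriv (deriv f) x + 4 * x * deriv f x + 2 * f x)) volume (δ / 2) (1 - δ / 2) := by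
    refine ContinuousOn.intervalIntegrable ?_
    rw [uIcc_of_le hab]
    exact (hσ.continuousOn.mono hsub).mul (Continuous.continuousOn (by fun_prop))
  have i2 : IntervalIntegrable (fun x => deriv (deriv σ) x * x ^ 2 * f x) volume (δ / 2)
      (1 - δ / 2) := by
    refine ContinuousOn.intervalIntegrable ?_
    rw [uIcc_of_le hab]
    exact ((hσ2.continuousOn.mono hsub).mul (Continuous.continuousOn (by fun_prop))).mul
      c0.continuousOn
  rw [← sub_eq_zero, ← intervalIntegral.integral_sub i1 i2,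
    intervalIntegral.integral_eq_sub_of_hasDerivAt
      (f := fun x => σ x * (2 * x * f x + x ^ 2 * deriv f x) - deriv σ x * (x ^ 2 * f x))
      ?_ (i1.sub i2)]
  · have ha := hz (δ / 2) fun h => by linarith [h.1]
    have hb := hz (1 - δ / 2) fun h => by linarith [h.2]
    simp [ha, hb]
  · intro x hx
    rw [uIcc_of_le hab] at hx
    have hn := isOpen_Ioo.mem_nhds (hsub hx)
    have d1 : HasDerivAt σ (deriv σ x) x :=
      ((hσ.differentiableOn (by norm_num)).differentiableAt hn).hasDerivAt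
    have d2 : HasDerivAt (deriv σ) (deriv (deriv σ) x) x :=
      ((hσ1.differentiableOn (by norm_num)).differentiableAt hn).hasDerivAt
    have d3 : HasDerivAt f (deriv f x) x := (hf2.differentiable (by norm_num) x).hasDerivAt
    have d4 : HasDerivAt (deriv f) (deriv (deriv f) x) x :=
      (hf1.differentiable (by norm_num) x).hasDerivAt
    have d5 : HasDerivAt (fun y : ℝ => 2 * y) 2 x := by
      simpa using (hasDerivAt_id x).const_mul 2
    have d6 : HasDerivAt (fun y : ℝ => y ^ 2) (2 * x) x := by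
      simpa using hasDerivAt_pow 2 x
    refine ((d1.fun_mul ((d5.fun_mul d3).fun_add (d6.fun_mul d4))).fun_sub
      (d2.fun_mul (d6.fun_mul d3))).congr_deriv ?_
    ring

namespace Sp
variable (S : Sp)

theorem mul_d0 {p : ℝ → ℝ} {N : ℝ} (hp : Mult p N) (u : VV) :
    d0 (S.mul p u) =ᵐ[ν] fun x => p x * d0 u x := (S.mul_eq p N hp u).1

theorem mul_congr' {p q : ℝ → ℝ} {N : ℝ} (hp : Mult p N) (h : EqOn q p (Ioo 0 1)) :
    S.mul q = S.mul p := by
  ext u
  refine ext_d0 ?_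
  filter_upwards [S.mul_d0 hp u, S.mul_d0 (hp.congr h) u, salg_mem] with x h1 h2 hx
  rw [h1, h2, h hx]

theorem mul_mul' {p q : ℝ → ℝ} {N N' : ℝ} (hp : Mult p N) (hq : Mult q N') (u : VV) :
    S.mul p (S.mul q u) = S.mul (fun x => p x * q x) u := by
  refine ext_d0 ?_
  filter_upwards [S.mul_d0 hp (S.mul q u), S.mul_d0 hq u, S.mul_d0 (hp.mul hq) u] with x h1 h2 h3
  rw [h1, h2, h3, mul_assoc]

theorem mul_add' {p q : ℝ → ℝ} {N N' : ℝ} (hp : Mult p N) (hq : Mult q N') :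
    S.mul (fun x => p x + q x) = S.mul p + S.mul q := by
  ext u
  refine ext_d0 ?_
  have e : (S.mul p + S.mul q) u = S.mul p u + (1 : ℝ) • S.mul q u := by simp
  rw [e]
  filter_upwards [S.mul_d0 hp u, S.mul_d0 hq u, S.mul_d0 (hp.add hq) u,
    (d_add_smul (S.mul p u) (S.mul q u) 1).1] with x h1 h2 h3 h4
  rw [h4, h3, h1, h2]
  ring

theorem mul_const_mul' {p : ℝ → ℝ} {N : ℝ} (hp : Mult p N) (t : ℝ) :
    S.mul (fun x => t * p x) = t • S.mul p := by
  ext u
  refine ext_d0 ?_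
  rw [smul_apply]
  filter_upwards [S.mul_d0 hp u, S.mul_d0 (hp.const_mul t) u, (d_smul (S.mul p u) t).1]
    with x h1 h2 h3
  rw [h3, h2, h1, mul_assoc]

theorem mul_sub' {p q : ℝ → ℝ} {N N' : ℝ} (hp : Mult p N) (hq : Mult q N') :
    S.mul (fun x => p x - q x) = S.mul p - S.mul q := by
  have e : (fun x => p x - q x) = fun x => p x + (-1) * q x := by
    funext x
    ring
  rw [e, S.mul_add' hp (hq.const_mul (-1)), S.mul_const_mul' hq, neg_one_smul, sub_eq_add_neg]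

theorem mul_one' : S.mul (fun _ => 1) = 1 := by
  ext u
  refine ext_d0 ?_
  filter_upwards [S.mul_d0 (Mult.const 1) u] with x h1
  rw [h1, one_mul, one_apply_eq_self]

theorem ι_mul' {p : ℝ → ℝ} {N : ℝ} (hp : Mult p N) (u : VV) :
    S.T.ι (S.mul p u) = S.mulH p (S.T.ι u) := by
  refine Lp.ext ?_
  filter_upwards [S.ι_eq (S.mul p u), S.ι_eq u, S.mul_d0 hp u,
    (S.mulH_eq p N hp.sm.continuousOn hp.b0).1 (S.T.ι u), salg_mem] with x h1 h2 h3 h4 hx
  have h5 : (1 : ℝ) - x ≠ 0 := (sub_pos.2 hx.2).ne'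
  refine mul_left_cancel₀ h5 ?_
  unfold hv at h1 h2
  rw [h1, h3, h4, ← h2]
  ring

theorem rep_mul' {p f : ℝ → ℝ} {N : ℝ} (hp : Mult p N) {u : VV}
    (hf : ContDiffOn ℝ 2 f (Ioo 0 1)) (hu : Rep u f) : Rep (S.mul p u) (fun x => p x * f x) := by
  refine rep_of_d0 (hp.sm.mul hf) ?_
  filter_upwards [S.mul_d0 hp u, hu.d.1] with x h1 h2
  rw [h1, h2]

theorem mulH_symm' {p : ℝ → ℝ} {N : ℝ} (hp : ContinuousOn p (Ioo 0 1))
    (hb : ∀ x ∈ Ioo (0 : ℝ) 1, |p x| ≤ N) (h k : L2) :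
    ⟪S.mulH p h, k⟫_ℝ = ⟪h, S.mulH p k⟫_ℝ := by
  rw [L2.inner_def, L2.inner_def]
  refine integral_congr_ae ?_
  filter_upwards [(S.mulH_eq p N hp hb).1 h, (S.mulH_eq p N hp hb).1 k] with x h1 h2
  rw [h1, h2]
  simp only [RCLike.inner_apply, conj_trivial]
  ring

theorem mul_family' {p : ℝ → ℝ → ℝ} (hp : ContDiff ℝ ∞ (Function.uncurry p)) :
    Continuous (fun s => S.mul (p s)) := by
  have hp1 := salg_dx hp
  have hp2 := salg_dx hp1
  have h2 : ∀ s, ContDiff ℝ 2 (p s) := fun s => (salg_slice hp s).of_le (by norm_cast)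
  have hd0 : ∀ s, Differentiable ℝ (p s) := fun s => (salg_slice hp s).differentiable (by simp)
  have hd1 : ∀ s, Differentiable ℝ (deriv (p s)) := fun s =>
    (salg_slice hp1 s).differentiable (by simp)
  refine continuous_iff_continuousAt.2 fun s => Metric.tendsto_nhds.2 fun ε hε => ?_
  have hε' : 0 < ε / 5 := by positivity
  filter_upwards [salg_unif hp.continuous s hε', salg_unif hp1.continuous s hε',
    salg_unif hp2.continuous s hε'] with r a0 a1 a2
  obtain ⟨N, hN⟩ := mult_of_contDiff (h2 r)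
  obtain ⟨N', hN'⟩ := mult_of_contDiff (h2 s)
  have e1 : deriv (fun x => p r x - p s x) = fun x => deriv (p r) x - deriv (p s) x := by
    funext x
    exact deriv_fun_sub (hd0 r x) (hd0 s x)
  have e2 : deriv (fun x => deriv (p r) x - deriv (p s) x) =
      fun x => deriv (deriv (p r)) x - deriv (deriv (p s)) x := by
    funext x
    exact deriv_fun_sub (hd1 r x) (hd1 s x)
  have hw : ∀ x ∈ Ioo (0 : ℝ) 1, |x * (1 - x)| ≤ 1 := fun x hx => by
    rw [abs_le]
    constructor <;> nlinarith [hx.1, hx.2]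
  have hm : Mult (fun x => p r x - p s x) (ε / 5) := by
    refine ⟨((h2 r).sub (h2 s)).contDiffOn, fun x hx => a0 x (Ioo_subset_Icc_self hx),
      fun x hx => ?_, fun x hx => ?_⟩
    · rw [e1, abs_mul]
      exact (mul_le_mul (hw x hx) (a1 x (Ioo_subset_Icc_self hx)) (abs_nonneg _)
        zero_le_one).trans (one_mul _).le
    · rw [e1, e2, abs_mul, abs_pow]
      exact (mul_le_mul (pow_le_one₀ (abs_nonneg _) (hw x hx)) (a2 x (Ioo_subset_Icc_self hx))
        (abs_nonneg _) zero_le_one).trans (one_mul _).le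
  rw [dist_eq_norm, ← S.mul_sub' hN hN']
  have := S.mul_le _ _ hm
  linarith

theorem mulH_comb {p q k : ℝ → ℝ} (hp : Continuous p) (hq : Continuous q) (hk : Continuous k)
    (t : ℝ) {N : ℝ} (hb : ∀ x ∈ Ioo (0 : ℝ) 1, |p x - q x - t * k x| ≤ N) :
    ‖S.mulH p - S.mulH q - t • S.mulH k‖ ≤ N := by
  obtain ⟨N1, h1⟩ := salg_bound hp
  obtain ⟨N2, h2⟩ := salg_bound hq
  obtain ⟨N3, h3⟩ := salg_bound hk
  have hc : Continuous fun x => p x - q x - t * k x := by fun_prop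
  obtain ⟨h4, h5⟩ := S.mulH_eq _ N hc.continuousOn hb
  refine le_trans (le_of_eq ?_) h5
  congr 1
  ext1 h
  refine Lp.ext ?_
  rw [sub_apply, sub_apply,
    smul_apply]
  filter_upwards [h4 h, (S.mulH_eq p N1 hp.continuousOn h1).1 h,
    (S.mulH_eq q N2 hq.continuousOn h2).1 h, (S.mulH_eq k N3 hk.continuousOn h3).1 h,
    Lp.coeFn_sub (S.mulH p h - S.mulH q h) (t • S.mulH k h), Lp.coeFn_sub (S.mulH p h) (S.mulH q h),
    Lp.coeFn_smul t (S.mulH k h)] with x e1 e2 e3 e4 e5 e6 e7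
  rw [e5, Pi.sub_apply, e6, Pi.sub_apply, e7, Pi.smul_apply, e1, e2, e3, e4, smul_eq_mul]
  ring

theorem mulH_cont {p : ℝ → ℝ → ℝ} (hp : Continuous (Function.uncurry p)) :
    Continuous (fun s => S.mulH (p s)) := by
  have hc : ∀ s, Continuous (p s) := fun s => hp.comp (continuous_const.prodMk continuous_id)
  refine continuous_iff_continuousAt.2 fun s => Metric.tendsto_nhds.2 fun ε hε => ?_
  filter_upwards [salg_unif hp s (half_pos hε)] with r a0
  have := S.mulH_comb (hc r) (hc s) (hc s) 0 (N := ε / 2) fun x hx => by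
    simpa using a0 x (Ioo_subset_Icc_self hx)
  rw [zero_smul, sub_zero] at this
  rw [dist_eq_norm]
  linarith

theorem mulH_family' {p : ℝ → ℝ → ℝ} (hp : ContDiff ℝ ∞ (Function.uncurry p)) :
    Continuous (fun s => S.mulH (p s)) ∧
    Continuous (fun s => S.mulH (fun x => deriv (fun r => p r x) s)) ∧
    ∀ s, HasDerivAt (fun r => S.mulH (p r)) (S.mulH (fun x => deriv (fun r => p r x) s)) s := by
  have hp1 := salg_ds hp
  refine ⟨S.mulH_cont hp.continuous, S.mulH_cont hp1.continuous, fun s => ?_⟩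
  rw [hasDerivAt_iff_isLittleO, Asymptotics.isLittleO_iff]
  intro ε hε
  obtain ⟨η, hη, hball⟩ := Metric.eventually_nhds_iff_ball.1 (salg_unif hp1.continuous s hε)
  filter_upwards [Metric.ball_mem_nhds s hη] with r hr
  refine S.mulH_comb (salg_slice hp r).continuous (salg_slice hp s).continuous
    (salg_slice hp1 s).continuous (r - s) fun x hx => ?_
  have hd : ∀ t ∈ Metric.ball s η, HasDerivWithinAt
      (fun t => p t x - t * deriv (fun r => p r x) s)
      (deriv (fun r => p r x) t - deriv (fun r => p r x) s) (Metric.ball s η) t := by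
    intro t _
    have d1 := ((salg_slice' hp x).differentiable (by simp) t).hasDerivAt
    have d2 := (hasDerivAt_id' t).mul_const (deriv (fun r => p r x) s)
    rw [one_mul] at d2
    exact (d1.fun_sub d2).hasDerivWithinAt
  have := (convex_ball s η).norm_image_sub_le_of_norm_hasDerivWithin_le hd
    (fun t ht => hball t ht x (Ioo_subset_Icc_self hx)) (Metric.mem_ball_self hη) hr
  refine le_trans (le_of_eq ?_) this
  rw [Real.norm_eq_abs]
  congr 1
  ring

theorem a_test {u w : VV} {ξ f : ℝ → ℝ} (hξ : ContDiffOn ℝ 4 ξ (Ioo 0 1)) (hu : Rep u ξ)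
    (hf : Test f) (hw : Rep w f) :
    S.T.a u w = ∫ x in Ioo (0 : ℝ) 1, deriv (deriv (C0 ξ)) x * x ^ 2 * f x := by
  rw [S.a_eq, ← salg_ibp (salg_C0 hξ) hf]
  refine integral_congr_ae ?_
  filter_upwards [hu.d.1, hu.d.2.1, hu.d.2.2, hw.d.1, hw.d.2.1, hw.d.2.2, salg_mem]
    with x h1 h2 h3 h4 h5 h6 hx
  have h0 : x ≠ 0 := hx.1.ne'
  rw [h1, h2, h3, h4, h5, h6]
  unfold C0
  field_simp

theorem G_of_rep' {w : VV} {ξ : ℝ → ℝ} {h : L2} (hξ : ContDiffOn ℝ 4 ξ (Ioo 0 1)) (hw : Rep w ξ)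
    (hh : hv h =ᵐ[ν] fun x => (x * (1 - x)) ^ 2 * deriv (deriv (C0 ξ)) x) : S.T.G h = w := by
  have key : ∀ v, S.T.a w v = ⟪h, S.T.ι v⟫_ℝ := by
    refine V_ind (isClosed_eq (S.T.a w).continuous (continuous_const.inner S.T.ι.continuous))
      fun v f hf hv' => ?_
    rw [S.a_test hξ hw hf hv', L2.inner_def]
    refine integral_congr_ae ?_
    filter_upwards [hh, S.ι_eq v, hv'.d.1, salg_mem] with x h1 h2 h3 hx
    have h5 : (1 : ℝ) - x ≠ 0 := (sub_pos.2 hx.2).ne'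
    unfold hv at h1 h2
    simp only [RCLike.inner_apply, conj_trivial]
    refine mul_left_cancel₀ (pow_ne_zero 2 h5) ?_
    have e : (1 - x) ^ 2 * (S.T.ι v x * h x) = ((1 - x) * S.T.ι v x) * ((1 - x) * h x) := by ring
    rw [e, h1, h2, h3]
    ring
  obtain ⟨c, hc, hco⟩ := S.T.coer
  have h1 := hco (S.T.G h - w)
  rw [map_sub S.T.a, sub_apply, S.T.hG, key, sub_self] at h1
  have h2 : ‖S.T.G h - w‖ ^ 2 ≤ 0 := by
    by_contra hn
    exact absurd h1 (not_le.2 (mul_pos hc (not_le.1 hn)))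
  have h3 : ‖S.T.G h - w‖ = 0 := pow_eq_zero_iff two_ne_zero |>.1 (le_antisymm h2 (sq_nonneg _))
  exact sub_eq_zero.1 (norm_eq_zero.1 h3)

theorem xi_eq_of_G' {w : VV} {ξ : ℝ → ℝ} {h : L2} (hξ : ContinuousOn ξ (Ioo 0 1)) (hw : Rep w ξ)
    (hG : S.T.G h = w) : EqOn (xi h) ξ (Ioo 0 1) := by
  have h1 := (S.G_rep h).d.1
  rw [hG] at h1
  exact Measure.eqOn_Ioo_of_ae_eq volume (h1.symm.trans hw.d.1) (xi_contDiffOn h).continuousOn hξ

theorem a_rep' {u : VV} {f : ℝ → ℝ} (hf : ContDiffOn ℝ 4 f (Ioo 0 1)) (hu : Rep u f) {δ : ℝ}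
    (hδ : 0 < δ) (hs : ∀ x ∈ Ioo (0 : ℝ) 1, x ∉ Ioo δ (1 - δ) → deriv (deriv (C0 f)) x = 0)
    (w : VV) :
    S.T.a u w = ∫ x in Ioo (0 : ℝ) 1, deriv (deriv (C0 f)) x * x ^ 2 * d0 w x := by
  have c1 : ContDiffOn ℝ 1 (deriv (C0 f)) (Ioo 0 1) :=
    (salg_C0 hf).deriv_of_isOpen isOpen_Ioo (by norm_num)
  have c2 : ContDiffOn ℝ 0 (deriv (deriv (C0 f))) (Ioo 0 1) :=
    c1.deriv_of_isOpen isOpen_Ioo (by norm_num)
  have c3 : ContinuousOn (fun x => deriv (deriv (C0 f)) x * x ^ 2 * (x * (1 - x) ^ 2))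
      (Ioo 0 1) :=
    (c2.continuousOn.mul (Continuous.continuousOn (by fun_prop))).mul
      (Continuous.continuousOn (by fun_prop))
  have hsub : Icc δ (1 - δ) ⊆ Ioo (0 : ℝ) 1 := fun x hx =>
    ⟨by linarith [hx.1], by linarith [hx.2]⟩
  obtain ⟨B, hB⟩ := isCompact_Icc.exists_bound_of_continuousOn (c3.mono hsub)
  have hm : MemLp (fun x => deriv (deriv (C0 f)) x * x ^ 2 * (x * (1 - x) ^ 2)) 2 ν := by
    refine MemLp.of_bound (c3.aestronglyMeasurable measurableSet_Ioo) (max B 0) ?_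
    filter_upwards [salg_mem] with x hx
    by_cases h : x ∈ Ioo δ (1 - δ)
    · exact (hB x (Ioo_subset_Icc_self h)).trans (le_max_left _ _)
    · rw [hs x hx h]
      simp
  have e : ∀ w : VV, ∫ x in Ioo (0 : ℝ) 1, deriv (deriv (C0 f)) x * x ^ 2 * d0 w x =
      ⟪hm.toLp _, w.e 0⟫_ℝ := by
    intro w
    rw [L2.inner_def]
    refine integral_congr_ae ?_
    filter_upwards [hm.coeFn_toLp] with x h1
    rw [h1]
    simp only [RCLike.inner_apply, conj_trivial, d0]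
    ring
  have hc : Continuous fun w : VV => w.e 0 :=
    (PiLp.proj (𝕜 := ℝ) 2 (fun _ : Fin 3 => L2) 0).continuous.comp VV.eL.continuous
  revert w
  refine V_ind ?_ fun w g hg hw => ?_
  · simp only [e]
    exact isClosed_eq (S.T.a u).continuous (continuous_const.inner hc)
  · rw [S.a_test hf hu hg hw]
    refine integral_congr_ae ?_
    filter_upwards [hw.d.1] with x h1
    rw [h1]

end Sp

end Crest.Agent.R213
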