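import Crest.Agent.R213.SpL2

/-! # R213 / SpEll : the boundary functional `ell u = σ(ι u)(0+)` -/

set_option autoImplicit false

open MeasureTheory Set Filter Topology
open scoped ContDiff InnerProductSpace ENNReal

noncomputable section

namespace Crest.Agent.R213.SpE

theorem el_clm {f : L2 → ℝ} {C : ℝ} (h1 : ∀ (h k : L2) (t : ℝ), f (h + t • k) = f h + t * f k)
    (h2 : ∀ h, |f h| ≤ C * ‖h‖) : ∃ A : L2 →L[ℝ] ℝ, ∀ h, A h = f h := by
  have h0 : f 0 = 0 := by simpa using h2 0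
  refine ⟨LinearMap.mkContinuous
    { toFun := f
      map_add' := fun h k => by simpa using h1 h k 1
      map_smul' := fun t k => by simpa [h0] using h1 0 k t } C h2, fun _ => rfl⟩

theorem el_lim (g : L2) {h : L2} (hh : ∀ᵐ r ∂ν, eps h r = g r / r) :
    Tendsto (sg0 h) (𝓝[>] 0) (𝓝 (∫ r in Ioo (0 : ℝ) (1 / 2), g r)) := by
  have hsub : Ioo (0 : ℝ) (1 / 2) ⊆ Ioo 0 1 := Ioo_subset_Ioo le_rfl (by norm_num)
  have hg : IntegrableOn g (Ioo (0 : ℝ) (1 / 2)) :=
    IntegrableOn.mono_set ((Lp.memLp g).integrable (by norm_num)) hsub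
  have key : Tendsto (fun x : ℝ => ∫ r in Ioo (0 : ℝ) (1 / 2), max (1 - x / r) 0 * g r) (𝓝[>] 0)
      (𝓝 (∫ r in Ioo (0 : ℝ) (1 / 2), g r)) := by
    refine tendsto_integral_filter_of_dominated_convergence (fun r => ‖g r‖)
      (Eventually.of_forall fun x => ?_) ?_ hg.norm ?_
    · exact (Measurable.aestronglyMeasurable (by fun_prop)).mul hg.aestronglyMeasurable
    · filter_upwards [self_mem_nhdsWithin] with x hx
      refine (ae_restrict_iff' measurableSet_Ioo).2 (Eventually.of_forall fun r hr => ?_)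
      rw [norm_mul, Real.norm_eq_abs, abs_of_nonneg (le_max_right _ _)]
      refine mul_le_of_le_one_left (norm_nonneg _) (max_le ?_ zero_le_one)
      have : 0 ≤ x / r := div_nonneg (le_of_lt hx) hr.1.le
      linarith
    · refine Eventually.of_forall fun r => ?_
      have : Continuous fun x : ℝ => max (1 - x / r) 0 * g r := by fun_prop
      have h2 := (this.tendsto 0).mono_left (nhdsWithin_le_nhds (s := Ioi 0))
      simpa using h2
  refine key.congr' ?_
  filter_upwards [Ioo_mem_nhdsGT (show (0 : ℝ) < 1 / 2 by norm_num)] with x hx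
  rw [sg0, intervalIntegral.integral_symm, intervalIntegral.integral_of_le hx.2.le,
    integral_Ioc_eq_integral_Ioo, ← integral_neg,
    setIntegral_eq_of_subset_of_forall_sdiff_eq_zero measurableSet_Ioo (Ioo_subset_Ioo hx.1.le le_rfl)]
  · refine setIntegral_congr_ae measurableSet_Ioo ?_
    filter_upwards [(ae_restrict_iff' measurableSet_Ioo).1 hh] with r hr hr'
    have h0 : 0 < r := hx.1.trans hr'.1
    have h1 : 0 ≤ 1 - x / r := by rw [sub_nonneg, div_le_one h0]; exact hr'.1.le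
    rw [hr ⟨h0, by linarith [hr'.2]⟩, max_eq_left h1]
    field_simp
    ring
  · intro r hr
    have h0 : 0 < r := hr.1.1
    have h1 : r ≤ x := by
      by_contra hc
      exact hr.2 ⟨not_le.1 hc, hr.1.2⟩
    rw [max_eq_right (by rw [sub_nonpos, one_le_div h0]; exact h1), zero_mul]

theorem exists_ell (ι : VV →L[ℝ] L2) (hι : ∀ u, hv (ι u) =ᵐ[ν] d0 u) :
    ∃ ell : VV →L[ℝ] ℝ, ∀ u, Tendsto (sig (ι u)) (𝓝[>] 0) (𝓝 (ell u)) := by
  obtain ⟨A, hA⟩ := el_clm (f := mA) (fun h k t => sa_lin_mom h k t 9) fun h => sa_mom_bd h 8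
  obtain ⟨B, hB⟩ := el_clm (f := mB) (fun h k t => sa_lin_mom h k t 10) fun h => sa_mom_bd h 9
  have hs : MeasurableSet (Ioo (0 : ℝ) (1 / 2)) := measurableSet_Ioo
  refine ⟨(innerSL ℝ (indicatorConstLp 2 hs (measure_ne_top ν _) (1 : ℝ))).comp (cmp 0) +
    ((1320 : ℝ) • B - (1210 : ℝ) • A).comp ι, fun u => ?_⟩
  have e1 : ∀ᵐ r ∂ν, eps (ι u) r = u.e 0 r / r := by
    filter_upwards [hι u, ae_mem_Ioo] with r h1 h2
    have h3 : r ≠ 0 := h2.1.ne'
    have h4 : 1 - r ≠ 0 := (sub_pos.2 h2.2).ne'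
    simp only [hv, d0] at h1
    have h5 : ι u r = r * (1 - r) * u.e 0 r := mul_left_cancel₀ h4 (by rw [h1]; ring)
    rw [eps, h5]
    field_simp
  have e2 : ⟪indicatorConstLp 2 hs (measure_ne_top ν _) (1 : ℝ), u.e 0⟫_ℝ =
      ∫ r in Ioo (0 : ℝ) (1 / 2), u.e 0 r := by
    rw [L2.inner_indicatorConstLp_one, Measure.restrict_restrict hs,
      inter_eq_left.2 (Ioo_subset_Ioo le_rfl (by norm_num))]
  have h1 := el_lim (u.e 0) e1
  have h2 : Tendsto (fun x : ℝ => (1320 * mA (ι u) - 1452 * mB (ι u)) * x) (𝓝[>] 0) (𝓝 0) := by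
    have : Continuous fun x : ℝ => (1320 * mA (ι u) - 1452 * mB (ι u)) * x := by fun_prop
    simpa using (this.tendsto 0).mono_left (nhdsWithin_le_nhds (s := Ioi 0))
  have h3 := (h1.add_const (1320 * mB (ι u) - 1210 * mA (ι u))).add h2
  rw [add_zero, ← e2] at h3
  simpa [hA, hB, cmp_apply] using! h3

end Crest.Agent.R213.SpE

end
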