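import Crest.Agent.R213.SpL2

/-! # R213 / SpG : the solution operator `G` -/

set_option autoImplicit false

open MeasureTheory Set Filter Topology
open scoped ContDiff InnerProductSpace ENNReal

noncomputable section

namespace Crest.Agent.R213.SpE

theorem xi_c2 (h : L2) : ContDiffOn ℝ 2 (xi h) (Ioo 0 1) :=
  (xi_contDiffOn h).of_le (by norm_num)

theorem xi_bd' : ∃ C : ℝ, 0 < C ∧ ∀ h : L2, ∀ x ∈ Ioo (0 : ℝ) 1,
    |xi h x / (x * (1 - x) ^ 2)| ≤ C * ‖h‖ ∧ |deriv (xi h) x / (1 - x)| ≤ C * ‖h‖ ∧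
      |x * deriv (deriv (xi h)) x| ≤ C * ‖h‖ := by
  obtain ⟨C, hC, hb⟩ := xi_bd
  refine ⟨C, hC, fun h x hx => ?_⟩
  obtain ⟨b0, b1, b2⟩ := hb h x hx
  have x0 := hx.1
  have x1 : 0 < 1 - x := by linarith [hx.2]
  have hs : Real.sqrt x ≤ 1 := Real.sqrt_le_one.2 hx.2.le
  have hs0 : 0 ≤ Real.sqrt x := Real.sqrt_nonneg x
  have hK : 0 ≤ C * ‖h‖ := by positivity
  refine ⟨?_, ?_, ?_⟩
  · rw [abs_div, abs_of_pos (by positivity : 0 < x * (1 - x) ^ 2), div_le_iff₀ (by positivity)]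
    refine b0.trans (mul_le_mul_of_nonneg_left ?_ hK)
    have : 0 ≤ x * (1 - x) ^ 2 := by positivity
    nlinarith
  · rw [abs_div, abs_of_pos x1, div_le_iff₀ x1]
    refine b1.trans (mul_le_mul_of_nonneg_left ?_ hK)
    nlinarith
  · rw [abs_mul, abs_of_pos x0]
    refine le_trans ?_ b2
    have : x ≤ Real.sqrt x := by nlinarith [Real.mul_self_sqrt x0.le]
    nlinarith [abs_nonneg (deriv (deriv (xi h)) x)]

theorem xi_contOn (h : L2) :
    ContinuousOn (fun x => xi h x / (x * (1 - x) ^ 2)) (Ioo 0 1) ∧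
    ContinuousOn (fun x => deriv (xi h) x / (1 - x)) (Ioo 0 1) ∧
    ContinuousOn (fun x => x * deriv (deriv (xi h)) x) (Ioo 0 1) := by
  obtain ⟨c0, c1, c2⟩ := contOn_of_c2 (xi_c2 h)
  refine ⟨c0.div (by fun_prop) fun x hx => ?_, c1.div (by fun_prop) fun x hx => ?_,
    continuousOn_id.mul c2⟩
  · have x0 := hx.1
    have x1 : 0 < 1 - x := by linarith [hx.2]
    positivity
  · linarith [hx.2]

theorem norm_L2_le {k : L2} {f : ℝ → ℝ} {N : ℝ} (he : k =ᵐ[ν] f)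
    (hb : ∀ x ∈ Ioo (0 : ℝ) 1, |f x| ≤ N) : ‖k‖ ≤ N := by
  have hN : 0 ≤ N := (abs_nonneg _).trans (hb (1 / 2) ⟨by norm_num, by norm_num⟩)
  have := Lp.norm_le_of_ae_bound (f := k) hN (by
    filter_upwards [he, ae_mem_Ioo] with x h1 hx
    rw [h1]; exact hb x hx)
  simpa [measureUnivNNReal] using this

theorem exists_G : ∃ G : L2 →L[ℝ] VV, ∀ h, Rep (G h) (xi h) := by
  obtain ⟨C, hC, hb⟩ := xi_bd'
  have key : ∀ h : L2, ∃ u : VV, Rep u (xi h) := fun h => by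
    obtain ⟨c0, c1, c2⟩ := xi_contOn h
    exact exists_rep (xi_c2 h) (memLp_of_contOn_bd 2 c0 fun x hx => (hb h x hx).1)
      (memLp_of_contOn_bd 2 c1 fun x hx => (hb h x hx).2.1)
      (memLp_of_contOn_bd 2 c2 fun x hx => (hb h x hx).2.2)
  choose G hG using key
  have hlin : ∀ (h k : L2) (t : ℝ), G (h + t • k) = G h + t • G k := fun h k t => by
    refine ext_d0 ?_
    filter_upwards [(hG (h + t • k)).d.1, (hG h).d.1, (hG k).d.1, (d_add_smul (G h) (G k) t).1,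
      ae_mem_Ioo] with x h1 h2 h3 h4 hx
    rw [h1, h4, h2, h3, (sig_lin h k t hx).2.2]
  have h0 : G 0 = 0 := by
    have := hlin 0 0 1
    simpa using this
  let Gl : L2 →ₗ[ℝ] VV :=
    { toFun := G
      map_add' := fun h k => by simpa using hlin h k 1
      map_smul' := fun t k => by simpa [h0] using hlin 0 k t }
  refine ⟨Gl.mkContinuous (2 * C) fun h => ?_, hG⟩
  change ‖G h‖ ≤ 2 * C * ‖h‖
  obtain ⟨r0, r1, r2⟩ := hG h
  have n0 := norm_L2_le r0 fun x hx => (hb h x hx).1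
  have n1 := norm_L2_le r1 fun x hx => (hb h x hx).2.1
  have n2 := norm_L2_le r2 fun x hx => (hb h x hx).2.2
  refine (abs_le_of_sq_le_sq' ?_ (by positivity)).2
  rw [← VV.norm_e, PiLp.norm_sq_eq_of_L2, Fin.sum_univ_three]
  have f0 := pow_le_pow_left₀ (norm_nonneg _) n0 2
  have f1 := pow_le_pow_left₀ (norm_nonneg _) n1 2
  have f2 := pow_le_pow_left₀ (norm_nonneg _) n2 2
  nlinarith [sq_nonneg (C * ‖h‖)]

theorem hG_of (ι : VV →L[ℝ] L2) (a : VV →L[ℝ] VV →L[ℝ] ℝ) (G : L2 →L[ℝ] VV)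
    (hι : ∀ u, hv (ι u) =ᵐ[ν] d0 u)
    (ha : ∀ u w, a u w = ∫ x in Ioo (0 : ℝ) 1,
      (x * d2 u x + 18 * d1 u x + 72 * d0 u x / x) * (x * d2 w x + 4 * d1 w x + 2 * d0 w x / x))
    (hG : ∀ h, Rep (G h) (xi h)) (h : L2) (w : VV) : a (G h) w = ⟪h, ι w⟫_ℝ := by
  refine V_ind (P := fun w => a (G h) w = ⟪h, ι w⟫_ℝ)
    (isClosed_eq (a (G h)).continuous (by fun_prop)) (fun w f hf hw => ?_) w
  have hp : ContDiffOn ℝ 2 (fun x : ℝ => x ^ 2) (Ioo 0 1) := by fun_prop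
  have hi := sig_ibp h (test_mul_on hp hf)
  have e1 : deriv (fun x : ℝ => x ^ 2) = fun x => 2 * x := by ext x; simp
  have e2 : deriv (fun x : ℝ => 2 * x) = fun _ => 2 := by ext x; simp
  rw [ha, inner_L2]
  refine Eq.trans (integral_congr_ae ?_) (hi.trans (integral_congr_ae ?_))
  · obtain ⟨g0, g1, g2⟩ := (hG h).d
    obtain ⟨w0, w1, w2⟩ := hw.d
    filter_upwards [g0, g1, g2, w0, w1, w2, ae_mem_Ioo] with x h1 h2 h3 h4 h5 h6 hx
    rw [h1, h2, h3, h4, h5, h6, (deriv_mul_c2 hp hf.1.contDiffOn hx).2, ← C0_xi h hx, e1, e2, C0]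
    have := hx.1.ne'
    field_simp
    ring
  · filter_upwards [hι w, hw.d.1, ae_mem_Ioo] with x h1 h2 hx
    have h3 : f x = (1 - x) * ι w x := (h1.trans h2).symm
    have a1 := hx.1.ne'
    have a2 : 1 - x ≠ 0 := by linarith [hx.2]
    rw [h3, eps]
    field_simp

end Crest.Agent.R213.SpE

end
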