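import Crest.Agent.R213.SpL2

/-! # R213 / SpIota : the embedding `ι` and the form `a` -/

set_option autoImplicit false

open MeasureTheory Set Filter Topology
open scoped ContDiff InnerProductSpace ENNReal

noncomputable section

namespace Crest.Agent.R213.SpE

theorem bd01 {x : ℝ} (hx : x ∈ Ioo (0 : ℝ) 1) :
    |x * (1 - x)| ≤ 1 ∧ |1 - x| ≤ 1 ∧ |(1 - x) ^ 2| ≤ 1 := by
  obtain ⟨h0, h1⟩ := hx
  refine ⟨abs_le.2 ⟨by nlinarith, by nlinarith⟩, abs_le.2 ⟨by linarith, by linarith⟩,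
    abs_le.2 ⟨by nlinarith, by nlinarith⟩⟩

theorem test_of_tsupport {g : ℝ → ℝ} (hg : ContDiff ℝ ∞ g) (hc : HasCompactSupport g)
    (hs : tsupport g ⊆ Ioo (0 : ℝ) 1) : Test g := by
  refine ⟨contDiff_infty.1 hg 2, ?_⟩
  rcases (tsupport g).eq_empty_or_nonempty with he | hne
  · exact ⟨1, one_pos, fun x _ => image_eq_zero_of_notMem_tsupport (by simp [he])⟩
  · obtain ⟨a, ha, hmin⟩ := hc.isCompact.exists_isMinOn hne
      (f := fun x : ℝ => min x (1 - x)) (by fun_prop)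
    have hpos : 0 < min a (1 - a) := lt_min (hs ha).1 (by linarith [(hs ha).2])
    refine ⟨min a (1 - a) / 2, by positivity, fun x hx =>
      image_eq_zero_of_notMem_tsupport fun hx' => hx ?_⟩
    have h1 : min a (1 - a) ≤ min x (1 - x) := hmin hx'
    exact ⟨by linarith [min_le_left x (1 - x)], by linarith [min_le_right x (1 - x)]⟩

theorem exists_iota : ∃ ι : VV →L[ℝ] L2, (∀ u, hv (ι u) =ᵐ[ν] d0 u) ∧
    Function.Injective ι ∧ DenseRange ι := by
  set ι : VV →L[ℝ] L2 := (mulL fun x => x * (1 - x)).comp (cmp 0) with hιdef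
  have hι : ∀ u, hv (ι u) =ᵐ[ν] d0 u := fun u => by
    filter_upwards [mulL_ae (p := fun x => x * (1 - x)) (by fun_prop)
      (fun x hx => (bd01 hx).1) (u.e 0)] with x hx
    have : ι u x = x * (1 - x) * u.e 0 x := hx
    simp only [hv, d0, this]
    ring
  refine ⟨ι, hι, fun u w h => ext_d0 ((hι u).symm.trans (h ▸ hι w)), ?_⟩
  have hr : (LinearMap.range (ι : VV →ₗ[ℝ] L2)).topologicalClosure = ⊤ := by
    rw [Submodule.topologicalClosure_eq_top_iff, Submodule.eq_bot_iff]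
    intro h hh
    have hint : IntegrableOn h (Ioo (0 : ℝ) 1) := (Lp.memLp h).integrable (by norm_num)
    have h0 := isOpen_Ioo.ae_eq_zero_of_integral_contDiff_smul_eq_zero (μ := volume)
      (hint.locallyIntegrableOn) (fun g hg hc hs => by
        have ht : Test g := test_of_tsupport hg hc hs
        obtain ⟨u, hu⟩ := exists_rep_test (test_mul_on (p := fun x => 1 - x) (by fun_prop) ht)
        have h1 : ⟪ι u, h⟫_ℝ = 0 := (Submodule.mem_orthogonal _ _).1 hh _ ⟨u, rfl⟩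
        rw [inner_L2] at h1
        rw [← h1, ← setIntegral_eq_integral_of_forall_compl_eq_zero (s := Ioo (0 : ℝ) 1)]
        · refine integral_congr_ae ?_
          filter_upwards [hι u, hu.d.1, ae_mem_Ioo] with x h2 h3 hx
          have h4 : (1 - x) * ι u x = (1 - x) * g x := h2.trans h3
          have h5 : ι u x = g x := mul_left_cancel₀ (by linarith [hx.2]) h4
          rw [h5, smul_eq_mul]
        · intro x hx
          rw [image_eq_zero_of_notMem_tsupport fun hx' => hx (hs hx'), zero_smul])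
    ext1
    filter_upwards [(ae_restrict_iff' measurableSet_Ioo).2 h0, Lp.coeFn_zero ℝ 2 ν] with x h1 h2
    rw [h1, h2]; rfl
  exact Submodule.dense_iff_topologicalClosure_eq_top.2 hr

theorem exists_P (α β : ℝ) : ∃ P : VV →L[ℝ] L2,
    ∀ u, P u =ᵐ[ν] fun x => x * d2 u x + α * d1 u x + β * d0 u x / x := by
  refine ⟨cmp 2 + α • (mulL fun x => 1 - x).comp (cmp 1) +
    β • (mulL fun x => (1 - x) ^ 2).comp (cmp 0), fun u => ?_⟩
  have e : (cmp 2 + α • (mulL fun x => 1 - x).comp (cmp 1) +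
      β • (mulL fun x => (1 - x) ^ 2).comp (cmp 0)) u =
      u.e 2 + α • mulL (fun x => 1 - x) (u.e 1) + β • mulL (fun x => (1 - x) ^ 2) (u.e 0) := rfl
  rw [e]
  filter_upwards [Lp.coeFn_add (u.e 2 + α • mulL (fun x => 1 - x) (u.e 1))
      (β • mulL (fun x => (1 - x) ^ 2) (u.e 0)),
    Lp.coeFn_add (u.e 2) (α • mulL (fun x => 1 - x) (u.e 1)),
    Lp.coeFn_smul α (mulL (fun x => 1 - x) (u.e 1)),
    Lp.coeFn_smul β (mulL (fun x => (1 - x) ^ 2) (u.e 0)),
    mulL_ae (p := fun x => 1 - x) (by fun_prop) (fun x hx => (bd01 hx).2.1) (u.e 1),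
    mulL_ae (p := fun x => (1 - x) ^ 2) (by fun_prop) (fun x hx => (bd01 hx).2.2) (u.e 0),
    ae_mem_Ioo] with x h1 h2 h3 h4 h5 h6 hx
  rw [h1, Pi.add_apply, h2, Pi.add_apply, h3, h4, Pi.smul_apply, Pi.smul_apply, h5, h6]
  have := hx.1.ne'
  simp only [d0, d1, d2, smul_eq_mul]
  field_simp

theorem exists_a : ∃ a : VV →L[ℝ] VV →L[ℝ] ℝ, ∀ u w, a u w = ∫ x in Ioo (0 : ℝ) 1,
    (x * d2 u x + 18 * d1 u x + 72 * d0 u x / x) * (x * d2 w x + 4 * d1 w x + 2 * d0 w x / x) := by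
  obtain ⟨P, hP⟩ := exists_P 18 72
  obtain ⟨Q, hQ⟩ := exists_P 4 2
  refine ⟨(innerSL ℝ (E := L2)).bilinearComp P Q, fun u w => ?_⟩
  have e : (innerSL ℝ (E := L2)).bilinearComp P Q u w = ⟪P u, Q w⟫_ℝ := rfl
  rw [e, inner_L2]
  refine integral_congr_ae ?_
  filter_upwards [hP u, hQ w] with x h1 h2
  rw [h1, h2]

end Crest.Agent.R213.SpE

end
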