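import Crest.Agent.R213.SpL2

/-! # R213 / SpM : the multiplier map `M` -/

set_option autoImplicit false

open MeasureTheory Set Filter Topology
open scoped ContDiff InnerProductSpace ENNReal

noncomputable section

namespace Crest.Agent.R213.SpE

theorem xi_mult : ∃ CM : ℝ, ∀ h : L2, Mult (fun x => xi h x / (x * (1 - x))) (CM * ‖h‖) := by
  obtain ⟨C, hC, hb⟩ := xi_bd
  refine ⟨7 * C, fun h => ?_⟩
  have hφ : ContDiffOn ℝ 2 (fun x : ℝ => x * (1 - x)) (Ioo 0 1) := by fun_prop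
  have hne : ∀ x ∈ Ioo (0 : ℝ) 1, x * (1 - x) ≠ 0 := fun x hx =>
    (mul_pos hx.1 (sub_pos.2 hx.2)).ne'
  have hp : ContDiffOn ℝ 2 (fun x => xi h x / (x * (1 - x))) (Ioo 0 1) :=
    ((xi_contDiffOn h).of_le (by norm_num)).div hφ hne
  set p : ℝ → ℝ := fun x => xi h x / (x * (1 - x)) with hpd
  have d1 : deriv (fun x : ℝ => x * (1 - x)) = fun x => 1 - 2 * x := by
    funext x
    exact ((hasDerivAt_id' x).mul ((hasDerivAt_id' x).const_sub 1)).deriv.trans (by ring)
  have d2 : deriv (fun x : ℝ => 1 - 2 * x) = fun _ => -2 := by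
    funext x
    exact (((hasDerivAt_id' x).const_mul 2).const_sub 1).deriv.trans (by ring)
  set K := C * ‖h‖ with hK
  have hK0 : 0 ≤ K := by positivity
  have key : ∀ x ∈ Ioo (0 : ℝ) 1, |p x| ≤ K ∧ |x * (1 - x) * deriv p x| ≤ 2 * K ∧
      |(x * (1 - x)) ^ 2 * deriv (deriv p) x| ≤ 7 * K := by
    intro x hx
    obtain ⟨b0, b1, b2⟩ := hb h x hx
    obtain ⟨e1, e2⟩ := deriv_mul_c2 hp hφ hx
    have hev : (fun y => p y * (y * (1 - y))) =ᶠ[𝓝 x] xi h :=
      (isOpen_Ioo.eventually_mem hx).mono fun y hy =>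
        div_mul_cancel₀ _ (hne y hy)
    rw [hev.deriv_eq, d1] at e1
    rw [hev.deriv.deriv_eq, d1, d2] at e2
    simp only at e1 e2
    have hx0 := hx.1
    have hx1 : 0 < 1 - x := sub_pos.2 hx.2
    have hφ0 : 0 < x * (1 - x) := mul_pos hx0 hx1
    have hφ1 : x * (1 - x) ≤ 1 := by nlinarith
    have hs0 := Real.sqrt_nonneg x
    have hs1 : Real.sqrt x ≤ 1 := Real.sqrt_le_one.2 hx.2.le
    have hs2 : Real.sqrt x * (1 - x) ≤ 1 := by nlinarith
    have hd : |1 - 2 * x| ≤ 1 := abs_le.2 ⟨by linarith [hx.2], by linarith⟩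
    have k0 : |p x| ≤ K := by
      simp only [hpd]
      rw [abs_div, abs_of_pos hφ0, div_le_iff₀ hφ0]
      refine b0.trans ?_
      have : x * Real.sqrt x * (1 - x) ^ 2 = (x * (1 - x)) * (Real.sqrt x * (1 - x)) := by ring
      rw [this]
      exact mul_le_mul_of_nonneg_left (mul_le_of_le_one_right hφ0.le hs2) hK0
    have k1 : |x * (1 - x) * deriv p x| ≤ 2 * K := by
      have : x * (1 - x) * deriv p x = deriv (xi h) x - p x * (1 - 2 * x) := by rw [e1]; ring
      rw [this]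
      refine (abs_sub _ _).trans ?_
      have h1 : |deriv (xi h) x| ≤ K := b1.trans (mul_le_of_le_one_right hK0 hs2)
      have h2 : |p x * (1 - 2 * x)| ≤ K := by
        rw [abs_mul]; exact (mul_le_of_le_one_right (abs_nonneg _) hd).trans k0
      linarith
    refine ⟨k0, k1, ?_⟩
    have : (x * (1 - x)) ^ 2 * deriv (deriv p) x = x * (1 - x) * deriv (deriv (xi h)) x +
        2 * (x * (1 - x) * p x) - 2 * ((x * (1 - x) * deriv p x) * (1 - 2 * x)) := by
      rw [e2]; ring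
    rw [this]
    have h1 : |x * (1 - x) * deriv (deriv (xi h)) x| ≤ K := by
      rw [abs_mul, abs_of_pos hφ0]
      refine le_trans ?_ b2
      rw [mul_comm]
      refine mul_le_mul_of_nonneg_left ?_ (abs_nonneg _)
      have := Real.mul_self_sqrt hx0.le
      nlinarith
    have h2 : |x * (1 - x) * p x| ≤ K := by
      rw [abs_mul, abs_of_pos hφ0]; exact (mul_le_of_le_one_left (abs_nonneg _) hφ1).trans k0
    have h3 : |(x * (1 - x) * deriv p x) * (1 - 2 * x)| ≤ 2 * K := by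
      rw [abs_mul]; exact (mul_le_of_le_one_right (abs_nonneg _) hd).trans k1
    obtain ⟨h1a, h1b⟩ := abs_le.1 h1
    obtain ⟨h2a, h2b⟩ := abs_le.1 h2
    obtain ⟨h3a, h3b⟩ := abs_le.1 h3
    exact abs_le.2 ⟨by linarith, by linarith⟩
  have hK7 : 7 * C * ‖h‖ = 7 * K := by rw [hK]; ring
  rw [hK7]
  exact ⟨hp, fun x hx => by linarith [(key x hx).1], fun x hx => by linarith [(key x hx).2.1],
    fun x hx => (key x hx).2.2⟩
theorem exists_M (mul : (ℝ → ℝ) → VV →L[ℝ] VV)
    (h0 : ∀ p N, Mult p N → ∀ u, d0 (mul p u) =ᵐ[ν] fun x => p x * d0 u x)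
    (hle : ∀ p N, Mult p N → ‖mul p‖ ≤ 4 * N) :
    ∃ M : L2 →L[ℝ] VV →L[ℝ] VV, ∀ h, M h = mul (fun x => xi h x / (x * (1 - x))) := by
  obtain ⟨CM, hM⟩ := xi_mult
  have lin : ∀ (h k : L2) (t : ℝ), mul (fun x => xi (h + t • k) x / (x * (1 - x))) =
      mul (fun x => xi h x / (x * (1 - x))) + t • mul (fun x => xi k x / (x * (1 - x))) := by
    intro h k t
    ext1 u
    refine ext_d0 ?_
    rw [add_apply, smul_apply]
    filter_upwards [h0 _ _ (hM (h + t • k)) u, h0 _ _ (hM h) u, h0 _ _ (hM k) u,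
      (d_add_smul (mul (fun x => xi h x / (x * (1 - x))) u)
        (mul (fun x => xi k x / (x * (1 - x))) u) t).1, ae_mem_Ioo] with x e1 e2 e3 e4 hx
    rw [e1, e4, e2, e3, (sig_lin h k t hx).2.2]
    ring
  have zero : mul (fun x => xi 0 x / (x * (1 - x))) = 0 := by
    have := hle _ _ (hM 0)
    rw [norm_zero, mul_zero, mul_zero] at this
    exact norm_le_zero_iff.1 this
  let M0 : L2 →ₗ[ℝ] VV →L[ℝ] VV :=
    { toFun := fun h => mul (fun x => xi h x / (x * (1 - x)))
      map_add' := fun h k => by simpa using lin h k 1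
      map_smul' := fun t k => by
        have := lin 0 k t
        rw [zero, zero_add, zero_add] at this
        exact this }
  exact ⟨M0.mkContinuous (4 * CM) fun h => (hle _ _ (hM h)).trans (le_of_eq (by ring)),
    fun _ => rfl⟩
end Crest.Agent.R213.SpE

end
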