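import Crest.Agent.R213.SpL2

/-! # R213 / SpMul : multipliers act on `V` -/

set_option autoImplicit false

open MeasureTheory Set Filter Topology
open scoped ContDiff InnerProductSpace ENNReal

noncomputable section

namespace Crest.Agent.R213.SpE

/-- the matrix of multiplication by `p` on triples. -/
def mulE (p : ℝ → ℝ) : E3 →L[ℝ] E3 :=
  (PiLp.continuousLinearEquiv 2 ℝ (fun _ : Fin 3 => L2)).symm.toContinuousLinearMap.comp
    (ContinuousLinearMap.pi ![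
      (mulL p).comp (PiLp.proj 2 (fun _ : Fin 3 => L2) 0),
      (mulL fun x => x * (1 - x) * deriv p x).comp (PiLp.proj 2 (fun _ : Fin 3 => L2) 0) +
        (mulL p).comp (PiLp.proj 2 (fun _ : Fin 3 => L2) 1),
      (mulL fun x => (x * (1 - x)) ^ 2 * deriv (deriv p) x).comp
          (PiLp.proj 2 (fun _ : Fin 3 => L2) 0) +
        (2 : ℝ) • (mulL fun x => x * (1 - x) * deriv p x).comp
          (PiLp.proj 2 (fun _ : Fin 3 => L2) 1) +
        (mulL p).comp (PiLp.proj 2 (fun _ : Fin 3 => L2) 2)])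

theorem mulE_0 (p : ℝ → ℝ) (u : E3) : mulE p u 0 = mulL p (u 0) := rfl

theorem mulE_1 (p : ℝ → ℝ) (u : E3) :
    mulE p u 1 = mulL (fun x => x * (1 - x) * deriv p x) (u 0) + mulL p (u 1) := rfl

theorem mulE_2 (p : ℝ → ℝ) (u : E3) :
    mulE p u 2 = mulL (fun x => (x * (1 - x)) ^ 2 * deriv (deriv p) x) (u 0) +
      (2 : ℝ) • mulL (fun x => x * (1 - x) * deriv p x) (u 1) + mulL p (u 2) := rfl

theorem mult_cont {p : ℝ → ℝ} {N : ℝ} (hp : Mult p N) : ContinuousOn p (Ioo 0 1) ∧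
    ContinuousOn (fun x => x * (1 - x) * deriv p x) (Ioo 0 1) ∧
    ContinuousOn (fun x => (x * (1 - x)) ^ 2 * deriv (deriv p) x) (Ioo 0 1) := by
  obtain ⟨c0, c1, c2⟩ := contOn_of_c2 hp.sm
  exact ⟨c0, ContinuousOn.mul (by fun_prop) c1, ContinuousOn.mul (by fun_prop) c2⟩

theorem mulE_ae {p : ℝ → ℝ} {N : ℝ} (hp : Mult p N) (u : E3) :
    (mulE p u 0 =ᵐ[ν] fun x => p x * u 0 x) ∧
    (mulE p u 1 =ᵐ[ν] fun x => x * (1 - x) * deriv p x * u 0 x + p x * u 1 x) ∧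
    (mulE p u 2 =ᵐ[ν] fun x => (x * (1 - x)) ^ 2 * deriv (deriv p) x * u 0 x +
      2 * (x * (1 - x) * deriv p x * u 1 x) + p x * u 2 x) := by
  obtain ⟨c0, c1, c2⟩ := mult_cont hp
  refine ⟨mulL_ae c0 hp.b0 _, ?_, ?_⟩
  · rw [mulE_1]
    filter_upwards [Lp.coeFn_add (mulL (fun x => x * (1 - x) * deriv p x) (u 0)) (mulL p (u 1)),
      mulL_ae c1 hp.b1 (u 0), mulL_ae c0 hp.b0 (u 1)] with x h1 h2 h3
    rw [h1, Pi.add_apply, h2, h3]
  · rw [mulE_2]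
    filter_upwards [Lp.coeFn_add (mulL (fun x => (x * (1 - x)) ^ 2 * deriv (deriv p) x) (u 0) +
        (2 : ℝ) • mulL (fun x => x * (1 - x) * deriv p x) (u 1)) (mulL p (u 2)),
      Lp.coeFn_add (mulL (fun x => (x * (1 - x)) ^ 2 * deriv (deriv p) x) (u 0))
        ((2 : ℝ) • mulL (fun x => x * (1 - x) * deriv p x) (u 1)),
      Lp.coeFn_smul (2 : ℝ) (mulL (fun x => x * (1 - x) * deriv p x) (u 1)),
      mulL_ae c2 hp.b2 (u 0), mulL_ae c1 hp.b1 (u 1), mulL_ae c0 hp.b0 (u 2)]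
      with x h1 h2 h3 h4 h5 h6
    rw [h1, Pi.add_apply, h2, Pi.add_apply, h3, Pi.smul_apply, h4, h5, h6, smul_eq_mul]

theorem normE_sq (u : E3) : ‖u‖ ^ 2 = ‖u 0‖ ^ 2 + ‖u 1‖ ^ 2 + ‖u 2‖ ^ 2 := by
  rw [PiLp.norm_sq_eq_of_L2, Fin.sum_univ_three]

theorem mulE_le {p : ℝ → ℝ} {N : ℝ} (hp : Mult p N) (u : E3) : ‖mulE p u‖ ≤ 4 * N * ‖u‖ := by
  obtain ⟨c0, c1, c2⟩ := mult_cont hp
  have hN : 0 ≤ N := (abs_nonneg _).trans (hp.b0 (1 / 2) ⟨by norm_num, by norm_num⟩)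
  have e0 : ‖mulE p u 0‖ ≤ N * ‖u 0‖ := mulL_apply_le c0 hp.b0 _
  have e1 : ‖mulE p u 1‖ ≤ N * (‖u 0‖ + ‖u 1‖) := by
    rw [mulE_1, mul_add]
    exact norm_add_le_of_le (mulL_apply_le c1 hp.b1 _) (mulL_apply_le c0 hp.b0 _)
  have e2 : ‖mulE p u 2‖ ≤ N * (‖u 0‖ + 2 * ‖u 1‖ + ‖u 2‖) := by
    rw [mulE_2, mul_add, mul_add]
    refine norm_add_le_of_le (norm_add_le_of_le (mulL_apply_le c2 hp.b2 _) ?_)
      (mulL_apply_le c0 hp.b0 _)
    rw [norm_smul, Real.norm_two]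
    linarith [mulL_apply_le c1 hp.b1 (u 1)]
  refine abs_le_of_sq_le_sq' ?_ (by positivity) |>.2
  have f0 := pow_le_pow_left₀ (norm_nonneg _) e0 2
  have f1 := pow_le_pow_left₀ (norm_nonneg _) e1 2
  have f2 := pow_le_pow_left₀ (norm_nonneg _) e2 2
  rw [normE_sq, mul_pow, normE_sq u]
  have key : ‖u 0‖ ^ 2 + (‖u 0‖ + ‖u 1‖) ^ 2 + (‖u 0‖ + 2 * ‖u 1‖ + ‖u 2‖) ^ 2 ≤
      16 * (‖u 0‖ ^ 2 + ‖u 1‖ ^ 2 + ‖u 2‖ ^ 2) := by
    nlinarith [sq_nonneg (‖u 0‖ - ‖u 1‖), sq_nonneg (‖u 0‖ - ‖u 2‖), sq_nonneg (‖u 1‖ - ‖u 2‖),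
      sq_nonneg ‖u 0‖, sq_nonneg ‖u 1‖, sq_nonneg ‖u 2‖]
  have := mul_le_mul_of_nonneg_left key (sq_nonneg N)
  rw [mul_pow] at f0 f1 f2
  nlinarith

theorem mulE_mem {p : ℝ → ℝ} {N : ℝ} (hp : Mult p N) (u : VV) : mulE p u.e ∈ Vs := by
  refine V_ind (P := fun u => mulE p u.e ∈ Vs)
    (isClosed_Vs.preimage ((mulE p).continuous.comp VV.eL.continuous)) (fun u f hf hu => ?_) u
  obtain ⟨w, hw⟩ := exists_rep_test (test_mul_on hp.sm hf)
  obtain ⟨m0, m1, m2⟩ := mulE_ae hp u.e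
  obtain ⟨u0, u1, u2⟩ := hu
  obtain ⟨w0, w1, w2⟩ := hw
  have hd := fun x hx => deriv_mul_c2 hp.sm hf.1.contDiffOn (x := x) hx
  have e : mulE p u.e = w.e := by
    ext i : 1
    fin_cases i
    · refine Lp.ext ?_
      filter_upwards [m0, u0, w0] with x h1 h2 h3
      refine h1.trans (Eq.trans ?_ h3.symm)
      rw [h2]; ring
    · refine Lp.ext ?_
      filter_upwards [m1, u0, u1, w1, ae_mem_Ioo] with x h1 h2 h3 h4 hx
      refine h1.trans (Eq.trans ?_ h4.symm)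
      have a1 := hx.1.ne'
      have a2 : 1 - x ≠ 0 := by linarith [hx.2]
      rw [h2, h3, (hd x hx).1]
      field_simp
      ring
    · refine Lp.ext ?_
      filter_upwards [m2, u0, u1, u2, w2, ae_mem_Ioo] with x h1 h2 h3 h4 h5 hx
      refine h1.trans (Eq.trans ?_ h5.symm)
      have a1 := hx.1.ne'
      have a2 : 1 - x ≠ 0 := by linarith [hx.2]
      rw [h2, h3, h4, (hd x hx).2]
      field_simp
      ring
  rw [e]
  exact w.e_mem

theorem exists_mul : ∃ mul : (ℝ → ℝ) → VV →L[ℝ] VV, ∀ p N, Mult p N →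
    (∀ u, (d0 (mul p u) =ᵐ[ν] fun x => p x * d0 u x) ∧
      (d1 (mul p u) =ᵐ[ν] fun x => p x * d1 u x + deriv p x * d0 u x) ∧
      (d2 (mul p u) =ᵐ[ν] fun x =>
        p x * d2 u x + 2 * deriv p x * d1 u x + deriv (deriv p) x * d0 u x)) ∧
    ‖mul p‖ ≤ 4 * N := by
  have key : ∀ p : ℝ → ℝ, ∃ F : VV →L[ℝ] VV, ∀ N, Mult p N → ∀ u, (F u).e = mulE p u.e := by
    intro p
    by_cases h : ∃ N, Mult p N
    · obtain ⟨N, hp⟩ := h
      obtain ⟨F, hF⟩ := exists_lift ((mulE p).comp VV.eL.toContinuousLinearMap) (mulE_mem hp)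
      exact ⟨F, fun _ _ => hF⟩
    · exact ⟨0, fun N hp => (h ⟨N, hp⟩).elim⟩
  choose mul hmul using key
  refine ⟨mul, fun p N hp => ⟨fun u => ?_, ?_⟩⟩
  · obtain ⟨m0, m1, m2⟩ := mulE_ae hp u.e
    rw [← hmul p N hp u] at m0 m1 m2
    refine ⟨?_, ?_, ?_⟩
    · filter_upwards [m0] with x h
      simp only [d0, h]; ring
    · filter_upwards [m1] with x h
      simp only [d0, d1, h]; ring
    · filter_upwards [m2, ae_mem_Ioo] with x h hx
      have a1 := hx.1.ne'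
      simp only [d0, d1, d2, h]
      field_simp
      ring
  · have hN : 0 ≤ N := (abs_nonneg _).trans (hp.b0 (1 / 2) ⟨by norm_num, by norm_num⟩)
    refine ContinuousLinearMap.opNorm_le_bound _ (by positivity) fun u => ?_
    rw [← VV.norm_e, hmul p N hp u, ← VV.norm_e u]
    exact mulE_le hp _

end Crest.Agent.R213.SpE

end
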