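import Crest.Agent.R213.SpCoer
import Crest.Agent.R213.SpIota
import Crest.Agent.R213.SpMul
import Crest.Agent.R213.SpG
import Crest.Agent.R213.SpM
import Crest.Agent.R213.SpEll

/-! # R213 / SpMain : assembly of `Sp` -/

set_option autoImplicit false

open MeasureTheory Set Filter Topology
open scoped ContDiff InnerProductSpace ENNReal

noncomputable section

namespace Crest.Agent.R213.SpE

theorem sp_nonempty : Nonempty Sp := by
  obtain ⟨ι, hι, hinj, hd⟩ := exists_iota
  obtain ⟨a, ha⟩ := exists_a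
  obtain ⟨mul, hmul⟩ := exists_mul
  obtain ⟨G, hG⟩ := exists_G
  obtain ⟨CM, hCM⟩ := xi_mult
  obtain ⟨M, hM⟩ := exists_M mul (fun p N h u => ((hmul p N h).1 u).1) fun p N h => (hmul p N h).2
  obtain ⟨ell, hell⟩ := exists_ell ι hι
  exact ⟨{
    T := ⟨ι, a, G, hG_of ι a G hι ha hG, coer_of_eq a ha, hinj, hd⟩
    mul := mul
    mulH := mulL
    M := M
    ell := ell
    CM := CM
    ι_eq := hι
    a_eq := ha
    mul_eq := fun p N h => (hmul p N h).1
    mul_le := fun p N h => (hmul p N h).2
    mulH_eq := fun _ _ hp hb => ⟨mulL_ae hp hb, mulL_le hp hb⟩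
    G_rep := hG
    M_eq := hM
    M_mult := hCM
    ell_eq := hell }⟩

end Crest.Agent.R213.SpE

end
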