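import Crest.Agent.R213.IV
import Crest.Agent.R213.ISig
import Crest.Agent.R213.SpAlg
import Crest.Agent.R213.SpMain

/-! # R213 / ISp : existence of the operators and their algebra

`ι u = x(1-x) u₀`; `a u w = ⟪P u, Q w⟫`, `P u = u₂ + 18(1-x)u₁ + 72(1-x)²u₀`, `Q w = w₂ + 4(1-x)w₁ + 2(1-x)²w₀`.
Coercivity on test functions: `a(v,v) = ∫ x²v''² - 13 v'² + 306 v²/x²` (by parts), `∫v'² ≤ ‖xv''‖‖v/x‖`,
Hardy at `1`: `∫ f²/(1-x)² ≤ 4∫f'²` (for `f = x v'`), `∫ v²/(1-x)⁴ ≤ (4/9)∫ v'²/(1-x)²`.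
`mul p` acts on triples by the matrix `[[p,0,0],[φ0p',p,0],[φ0²p'',2φ0p',p]]` (junk `0` if no `Mult`).
`G h` = class of `xi h` (`exists_rep`, `xi_bd`), `hG` on test functions is `sig_ibp` with `Φ = x² w`.
`ell`: for `u ∈ V`, `r ↦ r·eps (ι u) r` is integrable at `0` and `x ∫_x^{1/2} |eps| → 0`. -/

set_option autoImplicit false

open MeasureTheory Set Filter Topology
open scoped ContDiff InnerProductSpace

namespace Crest.Agent.R213

theorem sp_exists : Nonempty Sp := SpE.sp_nonempty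

namespace Sp
variable (S : Sp)

theorem mul_congr {p q : ℝ → ℝ} {N : ℝ} (hp : Mult p N) (h : EqOn q p (Ioo 0 1)) :
    S.mul q = S.mul p := by
  exact S.mul_congr' hp h

theorem mul_mul {p q : ℝ → ℝ} {N N' : ℝ} (hp : Mult p N) (hq : Mult q N') (u : VV) :
    S.mul p (S.mul q u) = S.mul (fun x => p x * q x) u := by
  exact S.mul_mul' hp hq u

theorem mul_add {p q : ℝ → ℝ} {N N' : ℝ} (hp : Mult p N) (hq : Mult q N') :
    S.mul (fun x => p x + q x) = S.mul p + S.mul q := by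
  exact S.mul_add' hp hq

theorem mul_const_mul {p : ℝ → ℝ} {N : ℝ} (hp : Mult p N) (t : ℝ) :
    S.mul (fun x => t * p x) = t • S.mul p := by
  exact S.mul_const_mul' hp t

theorem mul_one : S.mul (fun _ => 1) = 1 := by
  exact S.mul_one'

theorem ι_mul {p : ℝ → ℝ} {N : ℝ} (hp : Mult p N) (u : VV) :
    S.T.ι (S.mul p u) = S.mulH p (S.T.ι u) := by
  exact S.ι_mul' hp u

theorem rep_mul {p f : ℝ → ℝ} {N : ℝ} (hp : Mult p N) {u : VV} (hf : ContDiffOn ℝ 2 f (Ioo 0 1))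
    (hu : Rep u f) : Rep (S.mul p u) (fun x => p x * f x) := by
  exact S.rep_mul' hp hf hu

theorem mulH_symm {p : ℝ → ℝ} {N : ℝ} (hp : ContinuousOn p (Ioo 0 1))
    (hb : ∀ x ∈ Ioo (0 : ℝ) 1, |p x| ≤ N) (h k : L2) :
    ⟪S.mulH p h, k⟫_ℝ = ⟪h, S.mulH p k⟫_ℝ := by
  exact S.mulH_symm' hp hb h k

theorem mul_family {p : ℝ → ℝ → ℝ} (hp : ContDiff ℝ ∞ (Function.uncurry p)) :
    Continuous (fun s => S.mul (p s)) := by
  exact S.mul_family' hp

theorem mulH_family {p : ℝ → ℝ → ℝ} (hp : ContDiff ℝ ∞ (Function.uncurry p)) :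
    Continuous (fun s => S.mulH (p s)) ∧
    Continuous (fun s => S.mulH (fun x => deriv (fun r => p r x) s)) ∧
    ∀ s, HasDerivAt (fun r => S.mulH (p r)) (S.mulH (fun x => deriv (fun r => p r x) s)) s := by
  exact S.mulH_family' hp

/-- identification of `G h` (test against test functions, by parts twice, coercivity). -/
theorem G_of_rep {w : VV} {ξ : ℝ → ℝ} {h : L2} (hξ : ContDiffOn ℝ 4 ξ (Ioo 0 1)) (hw : Rep w ξ)
    (hh : hv h =ᵐ[ν] fun x => (x * (1 - x)) ^ 2 * deriv (deriv (C0 ξ)) x) : S.T.G h = w := by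
  exact S.G_of_rep' hξ hw hh

theorem xi_eq_of_G {w : VV} {ξ : ℝ → ℝ} {h : L2} (hξ : ContinuousOn ξ (Ioo 0 1)) (hw : Rep w ξ)
    (hG : S.T.G h = w) : EqOn (xi h) ξ (Ioo 0 1) := by
  exact S.xi_eq_of_G' hξ hw hG

/-- `a` of a classical first argument against any `w`, after integrating by parts, when
`(C0 f)''` is supported in a compact subset of `(0,1)` and `f = 0` near `1`. -/
theorem a_rep {u : VV} {f : ℝ → ℝ} (hf : ContDiffOn ℝ 4 f (Ioo 0 1)) (hu : Rep u f) {δ : ℝ}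
    (hδ : 0 < δ) (hs : ∀ x ∈ Ioo (0 : ℝ) 1, x ∉ Ioo δ (1 - δ) → deriv (deriv (C0 f)) x = 0) (w : VV) :
    S.T.a u w = ∫ x in Ioo (0 : ℝ) 1, deriv (deriv (C0 f)) x * x ^ 2 * d0 w x := by
  exact S.a_rep' hf hu hδ hs w

end Sp

end Crest.Agent.R213
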