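import Crest.Agent.R213.Defs

/-! # R213 / VA : proofs of the basic facts on the space `V` (first part of `IV`) -/

set_option autoImplicit false

open MeasureTheory Set Filter Topology
open scoped ContDiff InnerProductSpace

noncomputable section

namespace Crest.Agent.R213.VA

theorem ae_mem : ∀ᵐ x ∂ν, x ∈ Ioo (0 : ℝ) 1 := ae_restrict_mem measurableSet_Ioo

theorem e_add_smul (u w : VV) (t : ℝ) (i : Fin 3) :
    ((u + t • w).e i : ℝ → ℝ) =ᵐ[ν] fun x => u.e i x + t * w.e i x := by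
  have : (u + t • w).e i = u.e i + t • w.e i := rfl
  rw [this]
  filter_upwards [Lp.coeFn_add (u.e i) (t • w.e i), Lp.coeFn_smul t (w.e i)] with x h1 h2
  rw [h1, Pi.add_apply, h2]; simp

theorem e_sub (u w : VV) (i : Fin 3) :
    ((u - w).e i : ℝ → ℝ) =ᵐ[ν] fun x => u.e i x - w.e i x := by
  have : (u - w).e i = u.e i - w.e i := rfl
  rw [this]
  filter_upwards [Lp.coeFn_sub (u.e i) (w.e i)] with x h1
  rw [h1, Pi.sub_apply]

theorem e_smul (u : VV) (t : ℝ) (i : Fin 3) :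
    ((t • u).e i : ℝ → ℝ) =ᵐ[ν] fun x => t * u.e i x := by
  have : (t • u).e i = t • u.e i := rfl
  rw [this]
  filter_upwards [Lp.coeFn_smul t (u.e i)] with x h1
  rw [h1]; simp

theorem d_add_smul (u w : VV) (t : ℝ) :
    (d0 (u + t • w) =ᵐ[ν] fun x => d0 u x + t * d0 w x) ∧
    (d1 (u + t • w) =ᵐ[ν] fun x => d1 u x + t * d1 w x) ∧
    (d2 (u + t • w) =ᵐ[ν] fun x => d2 u x + t * d2 w x) := by
  refine ⟨?_, ?_, ?_⟩
  · filter_upwards [e_add_smul u w t 0] with x h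
    simp only [d0, h]; ring
  · filter_upwards [e_add_smul u w t 1] with x h
    simp only [d1, h]; ring
  · filter_upwards [e_add_smul u w t 2] with x h
    simp only [d2, h]; ring

theorem d_sub (u w : VV) :
    (d0 (u - w) =ᵐ[ν] fun x => d0 u x - d0 w x) ∧ (d1 (u - w) =ᵐ[ν] fun x => d1 u x - d1 w x) ∧
    (d2 (u - w) =ᵐ[ν] fun x => d2 u x - d2 w x) := by
  refine ⟨?_, ?_, ?_⟩
  · filter_upwards [e_sub u w 0] with x h
    simp only [d0, h]; ring
  · filter_upwards [e_sub u w 1] with x h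
    simp only [d1, h]; ring
  · filter_upwards [e_sub u w 2] with x h
    simp only [d2, h]; ring

theorem d_smul (u : VV) (t : ℝ) :
    (d0 (t • u) =ᵐ[ν] fun x => t * d0 u x) ∧ (d1 (t • u) =ᵐ[ν] fun x => t * d1 u x) ∧
    (d2 (t • u) =ᵐ[ν] fun x => t * d2 u x) := by
  refine ⟨?_, ?_, ?_⟩
  · filter_upwards [e_smul u t 0] with x h
    simp only [d0, h]; ring
  · filter_upwards [e_smul u t 1] with x h
    simp only [d1, h]; ring
  · filter_upwards [e_smul u t 2] with x h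
    simp only [d2, h]; ring

theorem e0_eq (u : VV) : (fun x => d0 u x / (x * (1 - x) ^ 2)) =ᵐ[ν] u.e 0 := by
  filter_upwards [ae_mem] with x hx
  have h1 : x ≠ 0 := hx.1.ne'
  have h2 : 1 - x ≠ 0 := (sub_pos.2 hx.2).ne'
  simp only [d0]; field_simp

theorem e1_eq (u : VV) : (fun x => d1 u x / (1 - x)) =ᵐ[ν] u.e 1 := by
  filter_upwards [ae_mem] with x hx
  have h2 : 1 - x ≠ 0 := (sub_pos.2 hx.2).ne'
  simp only [d1]; field_simp

theorem e2_eq (u : VV) : (fun x => x * d2 u x) =ᵐ[ν] u.e 2 := by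
  filter_upwards [ae_mem] with x hx
  have h1 : x ≠ 0 := hx.1.ne'
  simp only [d2]; field_simp

theorem d_memLp (u : VV) :
    MemLp (fun x => d0 u x / (x * (1 - x) ^ 2)) 2 ν ∧ MemLp (fun x => d1 u x / (1 - x)) 2 ν ∧
    MemLp (fun x => x * d2 u x) 2 ν :=
  ⟨(Lp.memLp (u.e 0)).ae_eq (e0_eq u).symm, (Lp.memLp (u.e 1)).ae_eq (e1_eq u).symm,
    (Lp.memLp (u.e 2)).ae_eq (e2_eq u).symm⟩

theorem d_meas (u : VV) : AEStronglyMeasurable (d0 u) ν ∧ AEStronglyMeasurable (d1 u) ν ∧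
    AEStronglyMeasurable (d2 u) ν := by
  refine ⟨?_, ?_, ?_⟩
  · exact (by fun_prop : Continuous fun x : ℝ => x * (1 - x) ^ 2).aestronglyMeasurable.mul
      (Lp.aestronglyMeasurable (u.e 0))
  · exact (by fun_prop : Continuous fun x : ℝ => 1 - x).aestronglyMeasurable.mul
      (Lp.aestronglyMeasurable (u.e 1))
  · exact ((Lp.aestronglyMeasurable (u.e 2)).aemeasurable.div aemeasurable_id).aestronglyMeasurable

theorem norm_sq_H (h : L2) : ‖h‖ ^ 2 = ∫ x in Ioo (0 : ℝ) 1, h x ^ 2 := by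
  rw [← real_inner_self_eq_norm_sq, L2.inner_def]
  refine integral_congr_ae (Eventually.of_forall fun x => ?_)
  simp [sq]

theorem norm_sq_V (u : VV) : ‖u‖ ^ 2 = ∫ x in Ioo (0 : ℝ) 1,
    ((d0 u x / (x * (1 - x) ^ 2)) ^ 2 + (d1 u x / (1 - x)) ^ 2 + (x * d2 u x) ^ 2) := by
  have hi : ∀ i, Integrable (fun x => u.e i x ^ 2) ν := fun i => (Lp.memLp (u.e i)).integrable_sq
  have hi' : Integrable (fun x => u.e 0 x ^ 2 + u.e 1 x ^ 2) ν := (hi 0).add (hi 1)
  rw [← VV.norm_e, PiLp.norm_sq_eq_of_L2, Fin.sum_univ_three, norm_sq_H, norm_sq_H, norm_sq_H,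
    ← integral_add (hi 0) (hi 1), ← integral_add hi' (hi 2)]
  refine integral_congr_ae ?_
  filter_upwards [e0_eq u, e1_eq u, e2_eq u] with x h0 h1 h2
  simp only [h0, h1, h2]

theorem rep_d {u : VV} {f : ℝ → ℝ} (h : Rep u f) :
    (d0 u =ᵐ[ν] f) ∧ (d1 u =ᵐ[ν] deriv f) ∧ (d2 u =ᵐ[ν] deriv (deriv f)) := by
  obtain ⟨h0, h1, h2⟩ := h
  refine ⟨?_, ?_, ?_⟩
  · filter_upwards [ae_mem, h0] with x hx h
    have h1 : x ≠ 0 := hx.1.ne'
    have h2 : 1 - x ≠ 0 := (sub_pos.2 hx.2).ne'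
    simp only [d0, h]; field_simp
  · filter_upwards [ae_mem, h1] with x hx h
    have h2 : 1 - x ≠ 0 := (sub_pos.2 hx.2).ne'
    simp only [d1, h]; field_simp
  · filter_upwards [ae_mem, h2] with x hx h
    have h1 : x ≠ 0 := hx.1.ne'
    simp only [d2, h]; field_simp

theorem rep_of_d {u : VV} {f : ℝ → ℝ} (h0 : d0 u =ᵐ[ν] f) (h1 : d1 u =ᵐ[ν] deriv f)
    (h2 : d2 u =ᵐ[ν] deriv (deriv f)) : Rep u f := by
  refine ⟨?_, ?_, ?_⟩
  · filter_upwards [e0_eq u, h0] with x h h'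
    rw [← h, h']
  · filter_upwards [e1_eq u, h1] with x h h'
    rw [← h, h']
  · filter_upwards [e2_eq u, h2] with x h h'
    rw [← h, h']

/-! ### test functions form a vector space -/

theorem test_zero : Test (fun _ => 0) := ⟨contDiff_const, 1, one_pos, fun _ _ => rfl⟩

theorem test_add {f g : ℝ → ℝ} (hf : Test f) (hg : Test g) : Test (fun x => f x + g x) := by
  obtain ⟨hf1, δ, hδ, hf2⟩ := hf
  obtain ⟨hg1, δ', hδ', hg2⟩ := hg
  refine ⟨hf1.add hg1, min δ δ', lt_min hδ hδ', fun x hx => ?_⟩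
  have h1 : x ∉ Ioo δ (1 - δ) := fun h =>
    hx ⟨(min_le_left _ _).trans_lt h.1, h.2.trans_le (by linarith [min_le_left δ δ'])⟩
  have h2 : x ∉ Ioo δ' (1 - δ') := fun h =>
    hx ⟨(min_le_right _ _).trans_lt h.1, h.2.trans_le (by linarith [min_le_right δ δ'])⟩
  simp [hf2 x h1, hg2 x h2]

theorem test_smul {f : ℝ → ℝ} (hf : Test f) (t : ℝ) : Test (fun x => t * f x) := by
  obtain ⟨hf1, δ, hδ, hf2⟩ := hf
  exact ⟨contDiff_const.mul hf1, δ, hδ, fun x hx => by simp [hf2 x hx]⟩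

theorem diff1 {f : ℝ → ℝ} (hf : ContDiff ℝ 2 f) : Differentiable ℝ f :=
  hf.differentiable (by norm_num)

theorem cd1 {f : ℝ → ℝ} (hf : ContDiff ℝ 2 f) : ContDiff ℝ 1 (deriv f) := by
  have : ContDiff ℝ (1 + 1) f := by simpa [one_add_one_eq_two] using hf
  exact this.deriv'

theorem diff2 {f : ℝ → ℝ} (hf : ContDiff ℝ 2 f) : Differentiable ℝ (deriv f) :=
  (cd1 hf).differentiable (by norm_num)

theorem cont2 {f : ℝ → ℝ} (hf : ContDiff ℝ 2 f) : Continuous (deriv (deriv f)) :=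
  (cd1 hf).continuous_deriv le_rfl

theorem deriv_add2 {f g : ℝ → ℝ} (hf : ContDiff ℝ 2 f) (hg : ContDiff ℝ 2 g) :
    (deriv (fun x => f x + g x) = fun x => deriv f x + deriv g x) ∧
    (deriv (deriv (fun x => f x + g x)) = fun x => deriv (deriv f) x + deriv (deriv g) x) := by
  have h1 : deriv (fun x => f x + g x) = fun x => deriv f x + deriv g x :=
    funext fun x => ((diff1 hf x).hasDerivAt.add (diff1 hg x).hasDerivAt).deriv
  refine ⟨h1, ?_⟩
  rw [h1]
  exact funext fun x => ((diff2 hf x).hasDerivAt.add (diff2 hg x).hasDerivAt).deriv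

theorem deriv_smul2 (f : ℝ → ℝ) (t : ℝ) :
    (deriv (fun x => t * f x) = fun x => t * deriv f x) ∧
    (deriv (deriv (fun x => t * f x)) = fun x => t * deriv (deriv f) x) := by
  have h1 : deriv (fun x => t * f x) = fun x => t * deriv f x :=
    funext fun x => deriv_const_mul_field t
  refine ⟨h1, ?_⟩
  rw [h1]
  exact funext fun x => deriv_const_mul_field t

theorem mem_span {u : E3} (hu : u ∈ Submodule.span ℝ {u : E3 | ∃ f, Test f ∧ RepE u f}) :
    ∃ f, Test f ∧ RepE u f := by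
  induction hu using Submodule.span_induction with
  | mem x hx => exact hx
  | zero =>
    refine ⟨fun _ => 0, test_zero, ?_, ?_, ?_⟩
    · filter_upwards [Lp.coeFn_zero ℝ 2 ν] with x h
      have : (0 : E3) 0 = 0 := rfl
      rw [this, h]; simp
    · filter_upwards [Lp.coeFn_zero ℝ 2 ν] with x h
      have : (0 : E3) 1 = 0 := rfl
      rw [this, h]; simp
    · filter_upwards [Lp.coeFn_zero ℝ 2 ν] with x h
      have : (0 : E3) 2 = 0 := rfl
      rw [this, h]; simp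
  | add x y _ _ hx hy =>
    obtain ⟨f, hf, f0, f1, f2⟩ := hx
    obtain ⟨g, hg, g0, g1, g2⟩ := hy
    obtain ⟨e1, e2⟩ := deriv_add2 hf.1 hg.1
    refine ⟨fun x => f x + g x, test_add hf hg, ?_, ?_, ?_⟩
    · filter_upwards [Lp.coeFn_add (x 0) (y 0), f0, g0] with z h h1 h2
      have : (x + y) 0 = x 0 + y 0 := rfl
      rw [this, h, Pi.add_apply, h1, h2]; ring
    · filter_upwards [Lp.coeFn_add (x 1) (y 1), f1, g1] with z h h1 h2
      have : (x + y) 1 = x 1 + y 1 := rfl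
      rw [this, h, Pi.add_apply, h1, h2, e1]; ring
    · filter_upwards [Lp.coeFn_add (x 2) (y 2), f2, g2] with z h h1 h2
      have : (x + y) 2 = x 2 + y 2 := rfl
      rw [this, h, Pi.add_apply, h1, h2, e2]; ring
  | smul t x _ hx =>
    obtain ⟨f, hf, f0, f1, f2⟩ := hx
    obtain ⟨e1, e2⟩ := deriv_smul2 f t
    refine ⟨fun x => t * f x, test_smul hf t, ?_, ?_, ?_⟩
    · filter_upwards [Lp.coeFn_smul t (x 0), f0] with z h h1
      have : (t • x) 0 = t • x 0 := rfl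
      rw [this, h, Pi.smul_apply, h1, smul_eq_mul]; ring
    · filter_upwards [Lp.coeFn_smul t (x 1), f1] with z h h1
      have : (t • x) 1 = t • x 1 := rfl
      rw [this, h, Pi.smul_apply, h1, smul_eq_mul, e1]; ring
    · filter_upwards [Lp.coeFn_smul t (x 2), f2] with z h h1
      have : (t • x) 2 = t • x 2 := rfl
      rw [this, h, Pi.smul_apply, h1, smul_eq_mul, e2]; ring

theorem mem_Vs_of_test {u : E3} {f : ℝ → ℝ} (hf : Test f) (h : RepE u f) : u ∈ Vs :=
  Submodule.le_topologicalClosure _ (Submodule.subset_span ⟨f, hf, h⟩)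

theorem V_ind {P : VV → Prop} (hc : IsClosed {u | P u})
    (ht : ∀ u f, Test f → Rep u f → P u) (u : VV) : P u := by
  have hu : u.e ∈ closure ((Submodule.span ℝ {u : E3 | ∃ f, Test f ∧ RepE u f} :
      Submodule ℝ E3) : Set E3) := u.e_mem
  obtain ⟨x, hx, hl⟩ := mem_closure_iff_seq_limit.1 hu
  choose f hf hr using fun n => mem_span (hx n)
  have hm : ∀ n, x n ∈ Vs := fun n => mem_Vs_of_test (hf n) (hr n)
  have hl' : Tendsto (fun n => VV.mk (x n) (hm n)) atTop (𝓝 u) := by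
    rw [tendsto_iff_norm_sub_tendsto_zero] at hl ⊢
    exact hl
  exact hc.mem_of_tendsto hl' (Eventually.of_forall fun n => ht _ (f n) (hf n) (hr n))

/-! ### existence of classes -/

/-- the triple of a function. -/
def mkE {f : ℝ → ℝ} (h0 : MemLp (fun x => f x / (x * (1 - x) ^ 2)) 2 ν)
    (h1 : MemLp (fun x => deriv f x / (1 - x)) 2 ν)
    (h2 : MemLp (fun x => x * deriv (deriv f) x) 2 ν) : E3 :=
  WithLp.toLp 2 ![h0.toLp _, h1.toLp _, h2.toLp _]

theorem repE_mkE {f : ℝ → ℝ} (h0 : MemLp (fun x => f x / (x * (1 - x) ^ 2)) 2 ν)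
    (h1 : MemLp (fun x => deriv f x / (1 - x)) 2 ν)
    (h2 : MemLp (fun x => x * deriv (deriv f) x) 2 ν) : RepE (mkE h0 h1 h2) f :=
  ⟨h0.coeFn_toLp, h1.coeFn_toLp, h2.coeFn_toLp⟩

instance : IsFiniteMeasure ν := by
  constructor
  simp [ν]

theorem memLp_bdd {g : ℝ → ℝ} (hm : AEStronglyMeasurable g ν) {C : ℝ}
    (hb : ∀ x ∈ Ioo (0 : ℝ) 1, |g x| ≤ C) : MemLp g 2 ν :=
  MemLp.of_bound hm C (by filter_upwards [ae_mem] with x hx using hb x hx)

theorem bdd_of_cont {g : ℝ → ℝ} (hg : Continuous g) (a b : ℝ) :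
    ∃ C, 0 ≤ C ∧ ∀ x ∈ Icc a b, |g x| ≤ C := by
  obtain ⟨C, hC⟩ := isCompact_Icc.exists_bound_of_continuousOn (hg.continuousOn (s := Icc a b))
  exact ⟨max C 0, le_max_right _ _, fun x hx => (hC x hx).trans (le_max_left _ _)⟩

theorem exists_rep_test {f : ℝ → ℝ} (hf : Test f) : ∃ u : VV, Rep u f := by
  obtain ⟨hf1, δ, hδ, hf2⟩ := id hf
  obtain ⟨C0, hC0, b0⟩ := bdd_of_cont hf1.continuous 0 1
  obtain ⟨C1, hC1, b1⟩ := bdd_of_cont (cd1 hf1).continuous 0 1
  obtain ⟨C2, hC2, b2⟩ := bdd_of_cont (cont2 hf1) 0 1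
  have h0 : MemLp (fun x => f x / (x * (1 - x) ^ 2)) 2 ν := by
    refine memLp_bdd (C := C0 / (δ * δ ^ 2)) ?_ fun x hx => ?_
    · exact (hf1.continuous.measurable.div (by fun_prop)).aestronglyMeasurable
    · by_cases hx' : x ∈ Ioo δ (1 - δ)
      · have h1 : δ * δ ^ 2 ≤ x * (1 - x) ^ 2 := by
          have : δ ≤ 1 - x := by linarith [hx'.2]
          gcongr
          · exact hx.1.le
          · exact hx'.1.le
        have h2 : 0 < δ * δ ^ 2 := by positivity
        rw [abs_div, abs_of_pos (h2.trans_le h1)]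
        exact div_le_div₀ hC0 (b0 x (Ioo_subset_Icc_self hx)) h2 h1
      · rw [hf2 x hx']; simp only [zero_div, abs_zero]; positivity
  have h1 : MemLp (fun x => deriv f x / (1 - x)) 2 ν := by
    refine memLp_bdd (C := C1 / δ) ?_ fun x hx => ?_
    · exact ((cd1 hf1).continuous.measurable.div (by fun_prop)).aestronglyMeasurable
    · by_cases hx' : x ≤ 1 - δ
      · have h1 : δ ≤ 1 - x := by linarith
        rw [abs_div, abs_of_pos (hδ.trans_le h1)]
        exact div_le_div₀ hC1 (b1 x (Ioo_subset_Icc_self hx)) hδ h1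
      · have : f =ᶠ[𝓝 x] fun _ => 0 := by
          filter_upwards [Ioi_mem_nhds (not_le.1 hx')] with y hy
          exact hf2 y fun h => lt_asymm h.2 hy
        rw [this.deriv_eq]; simp only [deriv_const', zero_div, abs_zero]; positivity
  have h2 : MemLp (fun x => x * deriv (deriv f) x) 2 ν := by
    refine memLp_bdd (C := C2) ?_ fun x hx => ?_
    · exact (continuous_id.mul (cont2 hf1)).aestronglyMeasurable
    · rw [abs_mul, abs_of_pos hx.1]
      calc x * |deriv (deriv f) x| ≤ 1 * C2 := by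
            gcongr
            · exact hx.2.le
            · exact b2 x (Ioo_subset_Icc_self hx)
        _ = C2 := one_mul _
  exact ⟨VV.mk (mkE h0 h1 h2) (mem_Vs_of_test hf (repE_mkE h0 h1 h2)), repE_mkE h0 h1 h2⟩

/-- dominated convergence in `L²`. -/
theorem tendsto_L2 (g : ℕ → L2) (g0 : L2) {G : ℝ → ℝ} (hG : MemLp G 2 ν)
    (hb : ∀ n, ∀ᵐ x ∂ν, |g n x - g0 x| ≤ G x) (hl : ∀ᵐ x ∂ν, ∀ᶠ n in atTop, g n x = g0 x) :
    Tendsto g atTop (𝓝 g0) := by
  rw [tendsto_iff_norm_sub_tendsto_zero]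
  have h1 : ∀ n, ‖g n - g0‖ ^ 2 = ∫ x, (g n x - g0 x) ^ 2 ∂ν := fun n => by
    rw [norm_sq_H]
    refine integral_congr_ae ?_
    filter_upwards [Lp.coeFn_sub (g n) g0] with x h
    rw [h, Pi.sub_apply]
  have h2 : Tendsto (fun n => ∫ x, (g n x - g0 x) ^ 2 ∂ν) atTop (𝓝 (∫ _x, (0 : ℝ) ∂ν)) := by
    refine tendsto_integral_of_dominated_convergence (fun x => G x ^ 2) (fun n => ?_)
      hG.integrable_sq (fun n => ?_) ?_
    · exact ((Lp.aestronglyMeasurable (g n)).sub (Lp.aestronglyMeasurable g0)).pow 2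
    · filter_upwards [hb n] with x h
      rw [Real.norm_eq_abs, abs_pow]
      exact pow_le_pow_left₀ (abs_nonneg _) h 2
    · filter_upwards [hl] with x h
      refine tendsto_const_nhds.congr' ?_
      filter_upwards [h] with n hn
      rw [hn]; simp
  rw [integral_zero] at h2
  have h3 := h2.sqrt
  rw [Real.sqrt_zero] at h3
  refine h3.congr fun n => ?_
  rw [← h1, Real.sqrt_sq (norm_nonneg _)]

/-- the cut-off profile. -/
def cut (t : ℝ) : ℝ := Real.smoothTransition (t - 1)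

theorem cut_sm : ContDiff ℝ 2 cut :=
  Real.smoothTransition.contDiff.comp (contDiff_id.sub contDiff_const)

theorem cut_zero {t : ℝ} (h : t ≤ 1) : cut t = 0 :=
  Real.smoothTransition.zero_of_nonpos (by linarith)

theorem cut_one {t : ℝ} (h : 2 ≤ t) : cut t = 1 :=
  Real.smoothTransition.one_of_one_le (by linarith)

theorem cut_abs (t : ℝ) : |cut t - 1| ≤ 1 := by
  have h1 := Real.smoothTransition.nonneg (t - 1)
  have h2 := Real.smoothTransition.le_one (t - 1)
  unfold cut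
  rw [abs_le]; constructor <;> linarith

theorem cut_abs' (t : ℝ) : |cut t| ≤ 1 := by
  have h1 := Real.smoothTransition.nonneg (t - 1)
  have h2 := Real.smoothTransition.le_one (t - 1)
  unfold cut
  rw [abs_le]; constructor <;> linarith

theorem cut_d {t : ℝ} (h : t ∉ Icc (1 : ℝ) 2) : deriv cut t = 0 ∧ deriv (deriv cut) t = 0 := by
  have key : ∀ s : ℝ, s ∉ Icc (1 : ℝ) 2 → deriv cut s = 0 := by
    intro s hs
    rcases not_and_or.1 hs with hs | hs
    · have : cut =ᶠ[𝓝 s] fun _ => 0 := by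
        filter_upwards [Iio_mem_nhds (not_le.1 hs)] with y hy using cut_zero (le_of_lt hy)
      rw [this.deriv_eq]; simp
    · have : cut =ᶠ[𝓝 s] fun _ => 1 := by
        filter_upwards [Ioi_mem_nhds (not_le.1 hs)] with y hy using cut_one (le_of_lt hy)
      rw [this.deriv_eq]; simp
  refine ⟨key t h, ?_⟩
  have : deriv cut =ᶠ[𝓝 t] fun _ => 0 := by
    filter_upwards [isClosed_Icc.isOpen_compl.mem_nhds h] with y hy using key y hy
  rw [this.deriv_eq]; simp

theorem cut_bd : ∃ K, 0 ≤ K ∧ ∀ t, |t * deriv cut t| ≤ K ∧ |t ^ 2 * deriv (deriv cut) t| ≤ K := by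
  obtain ⟨C1, hC1, b1⟩ := bdd_of_cont (g := fun t => t * deriv cut t)
    (continuous_id.mul (cd1 cut_sm).continuous) 1 2
  obtain ⟨C2, hC2, b2⟩ := bdd_of_cont (g := fun t => t ^ 2 * deriv (deriv cut) t)
    ((continuous_pow 2).mul (cont2 cut_sm)) 1 2
  refine ⟨C1 + C2, by positivity, fun t => ?_⟩
  by_cases ht : t ∈ Icc (1 : ℝ) 2
  · exact ⟨(b1 t ht).trans (by linarith), (b2 t ht).trans (by linarith)⟩
  · rw [(cut_d ht).1, (cut_d ht).2]; simp only [mul_zero, abs_zero, and_self]; positivity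

/-- the cut-off function. -/
def fc (f : ℝ → ℝ) (m : ℝ) (x : ℝ) : ℝ := cut (m * (x * (1 - x))) * f x

theorem fc_test {f : ℝ → ℝ} (hf : ContDiffOn ℝ 2 f (Ioo 0 1)) {m : ℝ} (hm : 0 < m) :
    Test (fc f m) := by
  have hz : ∀ x, x ∉ Ioo (1 / m) (1 - 1 / m) → fc f m x = 0 := by
    intro x hx
    have : m * (x * (1 - x)) ≤ 1 := by
      have hm' : m * (1 / m) = 1 := by field_simp
      rcases not_and_or.1 hx with h | h
      · have h' : x ≤ 1 / m := not_lt.1 h
        nlinarith [mul_le_mul_of_nonneg_left h' hm.le, mul_nonneg hm.le (sq_nonneg x)]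
      · have h' : 1 - x ≤ 1 / m := by linarith [not_lt.1 h]
        nlinarith [mul_le_mul_of_nonneg_left h' hm.le, mul_nonneg hm.le (sq_nonneg (1 - x))]
    simp [fc, cut_zero this]
  have hp : 0 < 1 / m := by positivity
  refine ⟨contDiff_iff_contDiffAt.2 fun x => ?_, 1 / m, hp, hz⟩
  by_cases hx : x ∈ Ioo (0 : ℝ) 1
  · have h1 : ContDiff ℝ 2 fun x : ℝ => cut (m * (x * (1 - x))) := cut_sm.comp (by fun_prop)
    exact h1.contDiffAt.mul (hf.contDiffAt (Ioo_mem_nhds hx.1 hx.2))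
  · have : fc f m =ᶠ[𝓝 x] fun _ => 0 := by
      have hx' : x ∉ Icc (1 / m) (1 - 1 / m) := fun h =>
        hx ⟨hp.trans_le h.1, h.2.trans_lt (by linarith)⟩
      filter_upwards [isClosed_Icc.isOpen_compl.mem_nhds hx'] with y hy
      exact hz y fun h => hy (Ioo_subset_Icc_self h)
    exact contDiffAt_const.congr_of_eventuallyEq this

theorem fc_deriv {f : ℝ → ℝ} (hf : ContDiffOn ℝ 2 f (Ioo 0 1)) (m : ℝ) {x : ℝ}
    (hx : x ∈ Ioo (0 : ℝ) 1) :
    deriv (fc f m) x = deriv cut (m * (x * (1 - x))) * (m * (1 - 2 * x)) * f x +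
      cut (m * (x * (1 - x))) * deriv f x ∧
    deriv (deriv (fc f m)) x =
      (deriv (deriv cut) (m * (x * (1 - x))) * (m * (1 - 2 * x)) ^ 2 -
        2 * m * deriv cut (m * (x * (1 - x)))) * f x +
      2 * (deriv cut (m * (x * (1 - x))) * (m * (1 - 2 * x))) * deriv f x +
      cut (m * (x * (1 - x))) * deriv (deriv f) x := by
  have hφ : ∀ y : ℝ, HasDerivAt (fun y : ℝ => m * (y * (1 - y))) (m * (1 - 2 * y)) y := by
    intro y
    have := ((hasDerivAt_id' y).mul ((hasDerivAt_id' y).const_sub 1)).const_mul m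
    exact this.congr_deriv (by ring)
  have hψ : ∀ y : ℝ, HasDerivAt (fun y : ℝ => m * (1 - 2 * y)) (-(2 * m)) y := by
    intro y
    have := (((hasDerivAt_id' y).const_mul 2).const_sub 1).const_mul m
    exact this.congr_deriv (by ring)
  have hc : ∀ y : ℝ, HasDerivAt (fun y : ℝ => cut (m * (y * (1 - y))))
      (deriv cut (m * (y * (1 - y))) * (m * (1 - 2 * y))) y := fun y =>
    (diff1 cut_sm _).hasDerivAt.comp y (hφ y)
  have hc' : ∀ y : ℝ, HasDerivAt (fun y : ℝ => deriv cut (m * (y * (1 - y))))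
      (deriv (deriv cut) (m * (y * (1 - y))) * (m * (1 - 2 * y))) y := fun y =>
    (diff2 cut_sm _).hasDerivAt.comp y (hφ y)
  have hf1 : ∀ y ∈ Ioo (0 : ℝ) 1, HasDerivAt f (deriv f y) y := fun y hy =>
    ((hf.contDiffAt (Ioo_mem_nhds hy.1 hy.2)).differentiableAt (by norm_num)).hasDerivAt
  have hf2 : HasDerivAt (deriv f) (deriv (deriv f) x) x := by
    have : ContDiffOn ℝ 1 (deriv f) (Ioo 0 1) := hf.deriv_of_isOpen isOpen_Ioo (by norm_num)
    exact ((this.contDiffAt (Ioo_mem_nhds hx.1 hx.2)).differentiableAt (by norm_num)).hasDerivAt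
  have h1 : ∀ y ∈ Ioo (0 : ℝ) 1, deriv (fc f m) y =
      deriv cut (m * (y * (1 - y))) * (m * (1 - 2 * y)) * f y +
        cut (m * (y * (1 - y))) * deriv f y := fun y hy => ((hc y).mul (hf1 y hy)).deriv
  refine ⟨h1 x hx, ?_⟩
  have h2 : deriv (fc f m) =ᶠ[𝓝 x] fun y =>
      deriv cut (m * (y * (1 - y))) * (m * (1 - 2 * y)) * f y +
        cut (m * (y * (1 - y))) * deriv f y := by
    filter_upwards [Ioo_mem_nhds hx.1 hx.2] with y hy using h1 y hy
  rw [h2.deriv_eq]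
  have h3 := ((((hc' x).mul (hψ x)).mul (hf1 x hx)).add ((hc x).mul hf2)).deriv
  refine Eq.trans h3 ?_
  simp only [Pi.mul_apply]
  ring

theorem exists_rep {f : ℝ → ℝ} (hf : ContDiffOn ℝ 2 f (Ioo 0 1))
    (h0 : MemLp (fun x => f x / (x * (1 - x) ^ 2)) 2 ν)
    (h1 : MemLp (fun x => deriv f x / (1 - x)) 2 ν)
    (h2 : MemLp (fun x => x * deriv (deriv f) x) 2 ν) : ∃ u : VV, Rep u f := by
  obtain ⟨K, hK, hKb⟩ := cut_bd
  have hm : ∀ n : ℕ, (0 : ℝ) < n + 1 := fun n => by positivity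
  choose u hu using fun n : ℕ => exists_rep_test (fc_test hf (hm n))
  set w : E3 := mkE h0 h1 h2 with hw
  have hr : RepE w f := repE_mkE h0 h1 h2
  set F0 : ℝ → ℝ := fun x => f x / (x * (1 - x) ^ 2) with hF0
  set F1 : ℝ → ℝ := fun x => deriv f x / (1 - x) with hF1
  set F2 : ℝ → ℝ := fun x => x * deriv (deriv f) x with hF2
  have hG : MemLp (fun x => (3 * K + 1) * (|F0 x| + |F1 x| + |F2 x|)) 2 ν :=
    ((h0.abs.add h1.abs).add h2.abs).const_mul _
  -- pointwise formulas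
  have p0 : ∀ m : ℝ, ∀ x ∈ Ioo (0 : ℝ) 1, fc f m x / (x * (1 - x) ^ 2) - F0 x =
      (cut (m * (x * (1 - x))) - 1) * F0 x := by
    intro m x hx
    simp only [hF0, fc]; ring
  have p1 : ∀ m : ℝ, ∀ x ∈ Ioo (0 : ℝ) 1, deriv (fc f m) x / (1 - x) - F1 x =
      (m * (x * (1 - x)) * deriv cut (m * (x * (1 - x)))) * (1 - 2 * x) * F0 x +
        (cut (m * (x * (1 - x))) - 1) * F1 x := by
    intro m x hx
    have a1 : x ≠ 0 := hx.1.ne'
    have a2 : 1 - x ≠ 0 := (sub_pos.2 hx.2).ne'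
    rw [(fc_deriv hf m hx).1]
    simp only [hF0, hF1]; field_simp; ring
  have p2 : ∀ m : ℝ, ∀ x ∈ Ioo (0 : ℝ) 1, x * deriv (deriv (fc f m)) x - F2 x =
      (((m * (x * (1 - x))) ^ 2 * deriv (deriv cut) (m * (x * (1 - x)))) * (1 - 2 * x) ^ 2 -
        2 * (x * (1 - x)) * (m * (x * (1 - x)) * deriv cut (m * (x * (1 - x))))) * F0 x +
      2 * (m * (x * (1 - x)) * deriv cut (m * (x * (1 - x)))) * (1 - 2 * x) * F1 x +
        (cut (m * (x * (1 - x))) - 1) * F2 x := by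
    intro m x hx
    have a1 : x ≠ 0 := hx.1.ne'
    have a2 : 1 - x ≠ 0 := (sub_pos.2 hx.2).ne'
    rw [(fc_deriv hf m hx).2]
    simp only [hF0, hF1, hF2]; field_simp; ring
  have ev : ∀ x ∈ Ioo (0 : ℝ) 1, ∀ᶠ n : ℕ in atTop, 2 < ((n : ℝ) + 1) * (x * (1 - x)) := by
    intro x hx
    have hp : 0 < x * (1 - x) := mul_pos hx.1 (sub_pos.2 hx.2)
    have : Tendsto (fun n : ℕ => ((n : ℝ) + 1) * (x * (1 - x))) atTop atTop :=
      (tendsto_atTop_add_const_right _ 1 tendsto_natCast_atTop_atTop).atTop_mul_const hp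
    exact this.eventually_gt_atTop 2
  have ab : ∀ {a b A : ℝ}, |a| ≤ A → |a * b| ≤ A * |b| := fun h => by
    rw [abs_mul]; exact mul_le_mul_of_nonneg_right h (abs_nonneg _)
  have b12 : ∀ x ∈ Ioo (0 : ℝ) 1, |1 - 2 * x| ≤ 1 := fun x hx => by
    rw [abs_le]; constructor <;> linarith [hx.1, hx.2]
  have a0 : ∀ n, ∀ᵐ x ∂ν, x ∈ Ioo (0 : ℝ) 1 ∧ (u n).e 0 x - w 0 x =
      fc f (n + 1) x / (x * (1 - x) ^ 2) - F0 x := fun n => by
    filter_upwards [ae_mem, (hu n).1, hr.1] with x hx e1 e2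
    exact ⟨hx, by rw [e1, e2]⟩
  have a1 : ∀ n, ∀ᵐ x ∂ν, x ∈ Ioo (0 : ℝ) 1 ∧ (u n).e 1 x - w 1 x =
      deriv (fc f (n + 1)) x / (1 - x) - F1 x := fun n => by
    filter_upwards [ae_mem, (hu n).2.1, hr.2.1] with x hx e1 e2
    exact ⟨hx, by rw [e1, e2]⟩
  have a2 : ∀ n, ∀ᵐ x ∂ν, x ∈ Ioo (0 : ℝ) 1 ∧ (u n).e 2 x - w 2 x =
      x * deriv (deriv (fc f (n + 1))) x - F2 x := fun n => by
    filter_upwards [ae_mem, (hu n).2.2, hr.2.2] with x hx e1 e2
    exact ⟨hx, by rw [e1, e2]⟩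
  have nI : ∀ {t : ℝ}, 2 < t → t ∉ Icc (1 : ℝ) 2 := fun h h' => absurd h'.2 (not_le.2 h)
  have t0 : Tendsto (fun n => (u n).e 0) atTop (𝓝 (w 0)) := by
    refine tendsto_L2 _ _ hG (fun n => ?_) ?_
    · filter_upwards [a0 n] with x ⟨hx, e⟩
      rw [e, p0 _ x hx]
      have := ab (b := F0 x) (cut_abs (((n : ℝ) + 1) * (x * (1 - x))))
      nlinarith [abs_nonneg (F0 x), abs_nonneg (F1 x), abs_nonneg (F2 x),
        mul_nonneg hK (abs_nonneg (F0 x)), mul_nonneg hK (abs_nonneg (F1 x)),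
        mul_nonneg hK (abs_nonneg (F2 x))]
    · filter_upwards [ae_all_iff.2 a0] with x hx
      filter_upwards [ev x (hx 0).1] with n hn
      rw [← sub_eq_zero, (hx n).2, p0 _ x (hx 0).1, cut_one hn.le]; ring
  have t1 : Tendsto (fun n => (u n).e 1) atTop (𝓝 (w 1)) := by
    refine tendsto_L2 _ _ hG (fun n => ?_) ?_
    · filter_upwards [a1 n] with x ⟨hx, e⟩
      rw [e, p1 _ x hx]
      set t := ((n : ℝ) + 1) * (x * (1 - x))
      have c1 := ab (b := F1 x) (cut_abs t)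
      have c2 : |t * deriv cut t * (1 - 2 * x)| ≤ K := by
        refine (ab (hKb t).1).trans ?_
        simpa using mul_le_mul_of_nonneg_left (b12 x hx) hK
      have c3 := ab (b := F0 x) c2
      refine (abs_add_le _ _).trans ?_
      nlinarith [abs_nonneg (F0 x), abs_nonneg (F1 x), abs_nonneg (F2 x),
        mul_nonneg hK (abs_nonneg (F0 x)), mul_nonneg hK (abs_nonneg (F1 x)),
        mul_nonneg hK (abs_nonneg (F2 x))]
    · filter_upwards [ae_all_iff.2 a1] with x hx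
      filter_upwards [ev x (hx 0).1] with n hn
      rw [← sub_eq_zero, (hx n).2, p1 _ x (hx 0).1, cut_one hn.le, (cut_d (nI hn)).1]; ring
  have t2 : Tendsto (fun n => (u n).e 2) atTop (𝓝 (w 2)) := by
    refine tendsto_L2 _ _ hG (fun n => ?_) ?_
    · filter_upwards [a2 n] with x ⟨hx, e⟩
      rw [e, p2 _ x hx]
      set t := ((n : ℝ) + 1) * (x * (1 - x))
      have c1 := ab (b := F2 x) (cut_abs t)
      have c2 : |2 * (t * deriv cut t) * (1 - 2 * x)| ≤ 2 * K := by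
        have : |2 * (t * deriv cut t)| ≤ 2 * K := by
          rw [abs_mul, abs_two]; linarith [(hKb t).1]
        refine (ab this).trans ?_
        simpa using mul_le_mul_of_nonneg_left (b12 x hx) (by positivity : 0 ≤ 2 * K)
      have c3 := ab (b := F1 x) c2
      have c4 : |t ^ 2 * deriv (deriv cut) t * (1 - 2 * x) ^ 2| ≤ K := by
        refine (ab (hKb t).2).trans ?_
        have : |(1 - 2 * x) ^ 2| ≤ 1 := by
          rw [abs_pow]; exact pow_le_one₀ (abs_nonneg _) (b12 x hx)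
        simpa using mul_le_mul_of_nonneg_left this hK
      have c5 : |2 * (x * (1 - x)) * (t * deriv cut t)| ≤ 2 * K := by
        have : |2 * (x * (1 - x))| ≤ 2 := by
          rw [abs_le]; constructor <;> nlinarith [hx.1, hx.2]
        exact (ab this).trans (by linarith [(hKb t).1])
      have c6 : |t ^ 2 * deriv (deriv cut) t * (1 - 2 * x) ^ 2 -
          2 * (x * (1 - x)) * (t * deriv cut t)| ≤ 3 * K :=
        (abs_sub _ _).trans (by linarith)
      have c7 := ab (b := F0 x) c6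
      refine (abs_add_three _ _ _).trans ?_
      nlinarith [abs_nonneg (F0 x), abs_nonneg (F1 x), abs_nonneg (F2 x),
        mul_nonneg hK (abs_nonneg (F0 x)), mul_nonneg hK (abs_nonneg (F1 x)),
        mul_nonneg hK (abs_nonneg (F2 x))]
    · filter_upwards [ae_all_iff.2 a2] with x hx
      filter_upwards [ev x (hx 0).1] with n hn
      rw [← sub_eq_zero, (hx n).2, p2 _ x (hx 0).1, cut_one hn.le, (cut_d (nI hn)).1,
        (cut_d (nI hn)).2]; ring
  have tt : Tendsto (fun n => (u n).e) atTop (𝓝 w) := by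
    rw [(PiLp.homeomorph 2 (fun _ : Fin 3 => L2)).isInducing.tendsto_nhds_iff, tendsto_pi_nhds]
    intro i
    fin_cases i
    · exact t0
    · exact t1
    · exact t2
  have hmem : w ∈ Vs :=
    (Submodule.isClosed_topologicalClosure _).mem_of_tendsto tt
      (Eventually.of_forall fun n => (u n).e_mem)
  exact ⟨VV.mk w hmem, hr⟩

end Crest.Agent.R213.VA

end
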