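import Crest.Agent.R213.VB1

/-! # R213 / VB2 : smooth families give `C¹` curves in `V` (`rep_family`) -/

set_option autoImplicit false

open MeasureTheory Set Filter Topology
open scoped ContDiff InnerProductSpace

namespace Crest.Agent.R213.VB

theorem two_le_infty : (2 : WithTop ℕ∞) ≤ ∞ := by
  have : ((2 : ℕ∞) : WithTop ℕ∞) ≤ ((⊤ : ℕ∞) : WithTop ℕ∞) := WithTop.coe_le_coe.2 le_top
  exact this

/-- partial derivative in direction `v`. -/
noncomputable def Dv (v : ℝ × ℝ) (F : ℝ × ℝ → ℝ) (p : ℝ × ℝ) : ℝ := fderiv ℝ F p v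

theorem Dv_smooth (v : ℝ × ℝ) {F : ℝ × ℝ → ℝ} (hF : ContDiff ℝ ∞ F) : ContDiff ℝ ∞ (Dv v F) := by
  have : ContDiff ℝ ∞ (fderiv ℝ F) := hF.fderiv_right (m := ∞) (by simp)
  exact this.clm_apply contDiff_const

theorem hasDeriv_x {F : ℝ × ℝ → ℝ} (hF : ContDiff ℝ ∞ F) (s x : ℝ) :
    HasDerivAt (fun y => F (s, y)) (Dv (0, 1) F (s, x)) x := by
  have h1 : HasFDerivAt F (fderiv ℝ F (s, x)) (s, x) :=
    (hF.differentiable (by simp) (s, x)).hasFDerivAt
  have h2 : HasDerivAt (fun y : ℝ => (s, y)) ((0 : ℝ), (1 : ℝ)) x :=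
    (hasDerivAt_const x s).prodMk (hasDerivAt_id x)
  exact h1.comp_hasDerivAt x h2

theorem hasDeriv_s {F : ℝ × ℝ → ℝ} (hF : ContDiff ℝ ∞ F) (s x : ℝ) :
    HasDerivAt (fun r => F (r, x)) (Dv (1, 0) F (s, x)) s := by
  have h1 : HasFDerivAt F (fderiv ℝ F (s, x)) (s, x) :=
    (hF.differentiable (by simp) (s, x)).hasFDerivAt
  have h2 : HasDerivAt (fun r : ℝ => (r, x)) ((1 : ℝ), (0 : ℝ)) s :=
    (hasDerivAt_id s).prodMk (hasDerivAt_const s x)
  exact h1.comp_hasDerivAt s h2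

theorem Dv_comm (v w : ℝ × ℝ) {F : ℝ × ℝ → ℝ} (hF : ContDiff ℝ ∞ F) :
    Dv v (Dv w F) = Dv w (Dv v F) := by
  funext p
  have hd : DifferentiableAt ℝ (fderiv ℝ F) p :=
    (hF.fderiv_right (m := ∞) (by simp)).differentiable (by simp) p
  have e : ∀ a b : ℝ × ℝ, Dv a (Dv b F) p = fderiv ℝ (fderiv ℝ F) p a b := by
    intro a b
    have : HasFDerivAt (fun q => fderiv ℝ F q b)
        ((ContinuousLinearMap.apply ℝ ℝ b).comp (fderiv ℝ (fderiv ℝ F) p)) p :=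
      (ContinuousLinearMap.apply ℝ ℝ b).hasFDerivAt.comp p hd.hasFDerivAt
    show fderiv ℝ (fun q => fderiv ℝ F q b) p a = _
    rw [this.fderiv]; rfl
  rw [e, e]
  have hs : IsSymmSndFDerivAt ℝ F p :=
    hF.contDiffAt.isSymmSndFDerivAt (by simpa using two_le_infty)
  exact hs v w

/-- first-order Taylor expansion in `s`, uniformly in `x ∈ [0,1]`. -/
theorem unif_taylor {G : ℝ × ℝ → ℝ} (hG : ContDiff ℝ ∞ G) (s : ℝ) {ε : ℝ} (hε : 0 < ε) :
    ∀ᶠ h in 𝓝 (0 : ℝ), ∀ x ∈ Icc (0 : ℝ) 1,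
      |G (s + h, x) - G (s, x) - h * Dv (1, 0) G (s, x)| ≤ ε * |h| := by
  have hc : Continuous (Dv (1, 0) G) := (Dv_smooth _ hG).continuous
  have hK : IsCompact (Icc (s - 1) (s + 1) ×ˢ Icc (0 : ℝ) 1) := isCompact_Icc.prod isCompact_Icc
  obtain ⟨δ, hδ, hu⟩ := Metric.uniformContinuousOn_iff.1
    (hK.uniformContinuousOn_of_continuous hc.continuousOn) ε hε
  have hm : 0 < min δ 1 := lt_min hδ one_pos
  filter_upwards [Metric.ball_mem_nhds (0 : ℝ) hm] with h hh x hx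
  rw [mem_ball_zero_iff, Real.norm_eq_abs] at hh
  have key := Convex.norm_image_sub_le_of_norm_hasDerivWithin_le
    (f := fun r => G (s + r, x) - r * Dv (1, 0) G (s, x))
    (f' := fun r => Dv (1, 0) G (s + r, x) - Dv (1, 0) G (s, x)) (C := ε)
    (s := Metric.ball (0 : ℝ) (min δ 1)) (x := 0) (y := h)
    (fun r _ => by
      have a1 := (hasDeriv_s hG (s + r) x).comp_const_add s r
      have a2 := (hasDerivAt_id r).mul_const (Dv (1, 0) G (s, x))
      rw [one_mul] at a2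
      exact (a1.sub a2).hasDerivWithinAt)
    (fun r hr => by
      rw [mem_ball_zero_iff, Real.norm_eq_abs] at hr
      have r1 := abs_lt.1 (hr.trans_le (min_le_right _ _))
      have := hu (s + r, x) ⟨⟨by linarith, by linarith⟩, hx⟩ (s, x) ⟨⟨by linarith, by linarith⟩, hx⟩
        (by
          rw [Prod.dist_eq]; simp only [dist_self, Real.dist_eq, add_sub_cancel_left]
          exact max_lt (hr.trans_le (min_le_left _ _)) hδ)
      rw [Real.dist_eq] at this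
      exact this.le)
    (convex_ball _ _) (Metric.mem_ball_self hm) (by rwa [mem_ball_zero_iff, Real.norm_eq_abs])
  simp only [add_zero, zero_mul, sub_zero, Real.norm_eq_abs] at key
  convert key using 2; ring

theorem bounds_smooth {g : ℝ → ℝ} (hg : Differentiable ℝ g) (h0 : g 0 = 0) {N : ℝ}
    (b1 : ∀ x ∈ Icc (0 : ℝ) 1, |deriv g x| ≤ N) (b2 : ∀ x ∈ Icc (0 : ℝ) 1, |deriv (deriv g) x| ≤ N) :
    ∀ x ∈ Ioo (0 : ℝ) 1, |g x| ≤ N * x ∧ |deriv g x| ≤ N ∧ |x * deriv (deriv g) x| ≤ N := by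
  intro x hx
  have hx' := Ioo_subset_Icc_self hx
  refine ⟨?_, b1 x hx', ?_⟩
  · have := (convex_Icc (0 : ℝ) 1).norm_image_sub_le_of_norm_deriv_le (f := g) (C := N)
      (fun y _ => hg y) b1 (left_mem_Icc.2 zero_le_one) hx'
    simpa [h0, abs_of_pos hx.1] using this
  · rw [abs_mul, abs_of_pos hx.1]
    have := b2 x hx'
    nlinarith [abs_nonneg (deriv (deriv g) x), hx.1, hx.2]

/-- the statement of `exists_rep`. -/
def ExRep : Prop := ∀ {f : ℝ → ℝ}, ContDiffOn ℝ 2 f (Ioo 0 1) →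
    MemLp (fun x => f x / (x * (1 - x) ^ 2)) 2 ν → MemLp (fun x => deriv f x / (1 - x)) 2 ν →
    MemLp (fun x => x * deriv (deriv f) x) 2 ν → ∃ u : VV, Rep u f

theorem exists_rep_smooth (hE : ExRep) {g : ℝ → ℝ} (hg : ContDiff ℝ 2 g) (h0 : g 0 = 0)
    (h1 : ∀ x, 1 / 2 ≤ x → g x = 0) : ∃ u : VV, Rep u g := by
  have g1 : ContDiff ℝ 1 (deriv g) := hg.deriv' 
  have c0 := hg.continuous
  have c1 := g1.continuous
  have c2 := g1.continuous_deriv le_rfl
  obtain ⟨C1, hC1⟩ := (isCompact_Icc (a := (0 : ℝ)) (b := 1)).exists_bound_of_continuousOn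
    c1.continuousOn
  obtain ⟨C2, hC2⟩ := (isCompact_Icc (a := (0 : ℝ)) (b := 1)).exists_bound_of_continuousOn
    c2.continuousOn
  have hb := bounds_smooth (hg.differentiable two_ne_zero) h0 (N := max C1 C2)
    (fun x hx => (hC1 x hx).trans (le_max_left _ _)) (fun x hx => (hC2 x hx).trans (le_max_right _ _))
  obtain ⟨b0, b1⟩ := bounds_of h1 hb
  refine hE hg.contDiffOn (memLp_of_bd ?_ b0) (memLp_of_bd ?_ b1) (memLp_of_cont (by fun_prop))
  · exact (c0.measurable.div (by fun_prop)).aestronglyMeasurable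
  · exact (c1.measurable.div (by fun_prop)).aestronglyMeasurable

theorem d0_comb (u w z : VV) (t : ℝ) :
    d0 (u - w - t • z) =ᵐ[ν] fun x => d0 u x - d0 w x - t * d0 z x := by
  have e : (u - w - t • z).e 0 = u.e 0 - w.e 0 - t • z.e 0 := rfl
  filter_upwards [Lp.coeFn_sub (u.e 0 - w.e 0) (t • z.e 0), Lp.coeFn_sub (u.e 0) (w.e 0),
    Lp.coeFn_smul t (z.e 0)] with x h1 h2 h3
  simp only [d0, e, h1, h2, h3, Pi.sub_apply, Pi.smul_apply, smul_eq_mul]; ring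

theorem slice_smooth {F : ℝ × ℝ → ℝ} (hF : ContDiff ℝ ∞ F) (s : ℝ) :
    ContDiff ℝ 2 fun x => F (s, x) :=
  (hF.of_le two_le_infty).comp (contDiff_const.prodMk contDiff_id)

theorem hasDerivAt_family (hI : Ibp) {F : ℝ × ℝ → ℝ} (hF : ContDiff ℝ ∞ F)
    (h0 : ∀ s, F (s, 0) = 0) (h1 : ∀ s x, 1 / 2 ≤ x → F (s, x) = 0)
    (h0' : ∀ s, Dv (1, 0) F (s, 0) = 0) (h1' : ∀ s x, 1 / 2 ≤ x → Dv (1, 0) F (s, x) = 0)
    {u u' : ℝ → VV} (hu : ∀ s, Rep (u s) fun x => F (s, x))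
    (hu' : ∀ s, Rep (u' s) fun x => Dv (1, 0) F (s, x)) (s : ℝ) : HasDerivAt u (u' s) s := by
  rw [hasDerivAt_iff_isLittleO_nhds_zero, Asymptotics.isLittleO_iff]
  intro c hc
  have hF1 := Dv_smooth (0, 1) hF
  have hF2 := Dv_smooth (0, 1) hF1
  have hS := Dv_smooth (1, 0) hF
  have hS1 := Dv_smooth (0, 1) hS
  filter_upwards [unif_taylor hF1 s (ε := c / 5) (by positivity),
    unif_taylor hF2 s (ε := c / 5) (by positivity)] with h t1 t2
  set g : ℝ → ℝ := fun x => F (s + h, x) - F (s, x) - h * Dv (1, 0) F (s, x) with hg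
  have gs : ContDiff ℝ 2 g :=
    ((slice_smooth hF _).sub (slice_smooth hF _)).sub (contDiff_const.mul (slice_smooth hS _))
  have hr : Rep (u (s + h) - u s - h • u' s) g := by
    refine rep_of_d0 hI gs.contDiffOn ?_
    filter_upwards [d0_comb (u (s + h)) (u s) (u' s) h, (rep_d (hu (s + h))).1, (rep_d (hu s)).1,
      (rep_d (hu' s)).1] with x a b c d
    rw [a, b, c, d]
  have dg : deriv g = fun x => Dv (0, 1) F (s + h, x) - Dv (0, 1) F (s, x) -
      h * Dv (0, 1) (Dv (1, 0) F) (s, x) := by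
    funext x
    exact (((hasDeriv_x hF _ x).sub (hasDeriv_x hF _ x)).sub
      ((hasDeriv_x hS _ x).const_mul h)).deriv
  have ddg : deriv (deriv g) = fun x => Dv (0, 1) (Dv (0, 1) F) (s + h, x) -
      Dv (0, 1) (Dv (0, 1) F) (s, x) - h * Dv (0, 1) (Dv (0, 1) (Dv (1, 0) F)) (s, x) := by
    rw [dg]; funext x
    exact (((hasDeriv_x hF1 _ x).sub (hasDeriv_x hF1 _ x)).sub
      ((hasDeriv_x hS1 _ x).const_mul h)).deriv
  have k1 : Dv (0, 1) (Dv (1, 0) F) = Dv (1, 0) (Dv (0, 1) F) := Dv_comm _ _ hF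
  have k2 : Dv (0, 1) (Dv (0, 1) (Dv (1, 0) F)) = Dv (1, 0) (Dv (0, 1) (Dv (0, 1) F)) := by
    rw [k1, Dv_comm _ _ hF1]
  have hb := bounds_smooth (gs.differentiable two_ne_zero)
    (by simp only [hg, h0, h0']; ring) (N := c / 5 * |h|)
    (fun x hx => by rw [dg]; simp only [k1]; exact t1 x hx)
    (fun x hx => by rw [ddg]; simp only [k2]; exact t2 x hx)
  have := norm_le_of_rep hr (fun x hx => by simp only [hg, h1 _ x hx, h1' _ x hx]; ring) hb
  rw [Real.norm_eq_abs]; linarith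

theorem Ds_zero {F : ℝ × ℝ → ℝ} (hF : ContDiff ℝ ∞ F) {x : ℝ} (h : ∀ s, F (s, x) = 0) (s : ℝ) :
    Dv (1, 0) F (s, x) = 0 := by
  have := hasDeriv_s hF s x
  simp only [h] at this
  exact this.unique (hasDerivAt_const s 0)

theorem rep_family (hI : Ibp) (hE : ExRep) {f : ℝ → ℝ → ℝ} (hf : ContDiff ℝ ∞ (Function.uncurry f))
    (h0 : ∀ s, f s 0 = 0) (h1 : ∀ s x, 1 / 2 ≤ x → f s x = 0) :
    ∃ u u' : ℝ → VV, (∀ s, Rep (u s) (f s)) ∧
      (∀ s, Rep (u' s) (fun x => deriv (fun r => f r x) s)) ∧ Continuous u ∧ Continuous u' ∧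
      ∀ s, HasDerivAt u (u' s) s := by
  set F := Function.uncurry f with hF
  have hS := Dv_smooth (1, 0) hf
  have hSS := Dv_smooth (1, 0) hS
  have a0 : ∀ s, F (s, 0) = 0 := h0
  have a1 : ∀ s x, 1 / 2 ≤ x → F (s, x) = 0 := h1
  have b0 : ∀ s, Dv (1, 0) F (s, 0) = 0 := Ds_zero hf a0
  have b1 : ∀ s x, 1 / 2 ≤ x → Dv (1, 0) F (s, x) = 0 := fun s x hx =>
    Ds_zero hf (fun r => a1 r x hx) s
  have c0 : ∀ s, Dv (1, 0) (Dv (1, 0) F) (s, 0) = 0 := Ds_zero hS b0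
  have c1 : ∀ s x, 1 / 2 ≤ x → Dv (1, 0) (Dv (1, 0) F) (s, x) = 0 := fun s x hx =>
    Ds_zero hS (fun r => b1 r x hx) s
  choose u hu using fun s => exists_rep_smooth hE (slice_smooth hf s) (a0 s) (a1 s)
  choose u' hu' using fun s => exists_rep_smooth hE (slice_smooth hS s) (b0 s) (b1 s)
  choose u'' hu'' using fun s => exists_rep_smooth hE (slice_smooth hSS s) (c0 s) (c1 s)
  have d1 := hasDerivAt_family hI hf a0 a1 b0 b1 hu hu'
  have d2 := hasDerivAt_family hI hS b0 b1 c0 c1 hu' hu''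
  refine ⟨u, u', hu, fun s => ?_, continuous_iff_continuousAt.2 fun s => (d1 s).continuousAt,
    continuous_iff_continuousAt.2 fun s => (d2 s).continuousAt, d1⟩
  have e : (fun x => deriv (fun r => f r x) s) = fun x => Dv (1, 0) F (s, x) := by
    funext x; exact (hasDeriv_s hf s x).deriv
  rw [e]; exact hu' s

end Crest.Agent.R213.VB
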