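import Crest.Agent.R213.Defs

/-! # R213 / VC : calculus of multipliers -/

set_option autoImplicit false

open MeasureTheory Set Filter Topology
open scoped ContDiff

namespace Crest.Agent.R213

theorem VC_mk {p p1 p2 : ℝ → ℝ} {N : ℝ} (sm : ContDiffOn ℝ 2 p (Ioo 0 1))
    (h1 : ∀ x ∈ Ioo (0 : ℝ) 1, HasDerivAt p (p1 x) x) (h2 : ∀ x ∈ Ioo (0 : ℝ) 1, HasDerivAt p1 (p2 x) x)
    (b : ∀ x ∈ Ioo (0 : ℝ) 1, |p x| ≤ N ∧ |x * (1 - x) * p1 x| ≤ N ∧ |(x * (1 - x)) ^ 2 * p2 x| ≤ N) :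
    Mult p N := by
  refine ⟨sm, fun x hx => (b x hx).1, fun x hx => (h1 x hx).deriv ▸ (b x hx).2.1, fun x hx => ?_⟩
  have : deriv p =ᶠ[𝓝 x] p1 := by
    filter_upwards [isOpen_Ioo.mem_nhds hx] with y hy using (h1 y hy).deriv
  rw [this.deriv_eq, (h2 x hx).deriv]
  exact (b x hx).2.2

theorem VC_d1 {p : ℝ → ℝ} {N : ℝ} (hp : Mult p N) {x : ℝ} (hx : x ∈ Ioo (0 : ℝ) 1) :
    HasDerivAt p (deriv p x) x :=
  ((hp.sm.contDiffAt (isOpen_Ioo.mem_nhds hx)).differentiableAt (by norm_num)).hasDerivAt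

theorem VC_d2 {p : ℝ → ℝ} {N : ℝ} (hp : Mult p N) {x : ℝ} (hx : x ∈ Ioo (0 : ℝ) 1) :
    HasDerivAt (deriv p) (deriv (deriv p) x) x :=
  (((hp.sm.deriv_of_isOpen (m := 1) isOpen_Ioo (by norm_num)).contDiffAt
    (isOpen_Ioo.mem_nhds hx)).differentiableAt (by norm_num)).hasDerivAt

theorem VC_nonneg {p : ℝ → ℝ} {N : ℝ} (hp : Mult p N) : 0 ≤ N :=
  (abs_nonneg _).trans (hp.b0 (1 / 2) ⟨by norm_num, by norm_num⟩)

theorem VC_abs_mul {a b A B : ℝ} (ha : |a| ≤ A) (hb : |b| ≤ B) : -(A * B) ≤ a * b ∧ a * b ≤ A * B :=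
  abs_le.1 ((abs_mul a b).le.trans (mul_le_mul ha hb (abs_nonneg _) ((abs_nonneg _).trans ha)))

theorem VC_mul {p q : ℝ → ℝ} {N N' : ℝ} (hp : Mult p N) (hq : Mult q N') :
    Mult (fun x => p x * q x) (4 * N * N') := by
  refine VC_mk (p1 := fun x => deriv p x * q x + p x * deriv q x) (hp.sm.mul hq.sm)
    (fun x hx => (VC_d1 hp hx).mul (VC_d1 hq hx))
    (fun x hx => ((VC_d2 hp hx).mul (VC_d1 hq hx)).add ((VC_d1 hp hx).mul (VC_d2 hq hx))) fun x hx => ?_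
  have h := mul_nonneg (VC_nonneg hp) (VC_nonneg hq)
  obtain ⟨a1, a2⟩ := VC_abs_mul (hp.b0 x hx) (hq.b0 x hx)
  obtain ⟨b1, b2⟩ := VC_abs_mul (hp.b1 x hx) (hq.b0 x hx)
  obtain ⟨c1, c2⟩ := VC_abs_mul (hp.b0 x hx) (hq.b1 x hx)
  obtain ⟨d1, d2⟩ := VC_abs_mul (hp.b2 x hx) (hq.b0 x hx)
  obtain ⟨e1, e2⟩ := VC_abs_mul (hp.b1 x hx) (hq.b1 x hx)
  obtain ⟨f1, f2⟩ := VC_abs_mul (hp.b0 x hx) (hq.b2 x hx)
  exact ⟨abs_le.2 ⟨by linarith, by linarith⟩, abs_le.2 ⟨by linarith, by linarith⟩,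
    abs_le.2 ⟨by linarith, by linarith⟩⟩

theorem VC_add {p q : ℝ → ℝ} {N N' : ℝ} (hp : Mult p N) (hq : Mult q N') :
    Mult (fun x => p x + q x) (N + N') := by
  refine VC_mk (p1 := fun x => deriv p x + deriv q x) (hp.sm.add hq.sm)
    (fun x hx => (VC_d1 hp hx).add (VC_d1 hq hx)) (fun x hx => (VC_d2 hp hx).add (VC_d2 hq hx)) fun x hx => ?_
  simp only [mul_add]
  exact ⟨(abs_add_le _ _).trans (add_le_add (hp.b0 x hx) (hq.b0 x hx)),
    (abs_add_le _ _).trans (add_le_add (hp.b1 x hx) (hq.b1 x hx)),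
    (abs_add_le _ _).trans (add_le_add (hp.b2 x hx) (hq.b2 x hx))⟩

theorem VC_const_mul {p : ℝ → ℝ} {N : ℝ} (hp : Mult p N) (t : ℝ) :
    Mult (fun x => t * p x) (|t| * N) := by
  refine VC_mk (p1 := fun x => t * deriv p x) (contDiffOn_const.mul hp.sm)
    (fun x hx => (VC_d1 hp hx).const_mul t) (fun x hx => (VC_d2 hp hx).const_mul t) fun x hx => ?_
  simp only [mul_left_comm _ t, abs_mul t]
  exact ⟨mul_le_mul_of_nonneg_left (hp.b0 x hx) (abs_nonneg t),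
    mul_le_mul_of_nonneg_left (hp.b1 x hx) (abs_nonneg t), mul_le_mul_of_nonneg_left (hp.b2 x hx) (abs_nonneg t)⟩

theorem VC_const (t : ℝ) : Mult (fun _ => t) |t| :=
  ⟨contDiffOn_const, fun _ _ => le_rfl, fun _ _ => by simp, fun _ _ => by simp⟩

theorem VC_mono {p : ℝ → ℝ} {N N' : ℝ} (hp : Mult p N) (h : N ≤ N') : Mult p N' :=
  ⟨hp.sm, fun x hx => (hp.b0 x hx).trans h, fun x hx => (hp.b1 x hx).trans h, fun x hx => (hp.b2 x hx).trans h⟩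

theorem VC_congr {p q : ℝ → ℝ} {N : ℝ} (hp : Mult p N) (h : EqOn q p (Ioo 0 1)) : Mult q N :=
  VC_mk (p1 := deriv p) (hp.sm.congr h)
    (fun _ hx => (VC_d1 hp hx).congr_of_eventuallyEq (h.eventuallyEq_of_mem (isOpen_Ioo.mem_nhds hx)))
    (fun _ hx => VC_d2 hp hx) fun x hx => ⟨h hx ▸ hp.b0 x hx, hp.b1 x hx, hp.b2 x hx⟩

theorem VC_inv {p : ℝ → ℝ} {N c : ℝ} (hp : Mult p N) (hc : 0 < c) (h : ∀ x ∈ Ioo (0 : ℝ) 1, c ≤ p x) :
    Mult (fun x => 1 / p x) (1 / c + N / c ^ 2 + 2 * N ^ 2 / c ^ 3) := by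
  have h0 : ∀ x ∈ Ioo (0 : ℝ) 1, p x ≠ 0 := fun x hx => (hc.trans_le (h x hx)).ne'
  have i1 : ∀ x ∈ Ioo (0 : ℝ) 1, HasDerivAt (fun x => 1 / p x) (-(deriv p x * (1 / p x) ^ 2)) x := fun x hx => by
    refine ((hasDerivAt_const x (1 : ℝ)).fun_div (VC_d1 hp hx) (h0 x hx)).congr_deriv ?_
    ring
  refine VC_mk (p2 := fun x => -(deriv (deriv p) x * (1 / p x) ^ 2) + 2 * (deriv p x ^ 2 * (1 / p x) ^ 3))
    (contDiffOn_const.div hp.sm h0) i1 (fun x hx => ?_) fun x hx => ?_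
  · refine ((VC_d2 hp hx).fun_mul ((i1 x hx).fun_pow 2)).fun_neg.congr_deriv ?_
    push_cast
    ring
  have hN := VC_nonneg hp
  have a0 : |1 / p x| ≤ 1 / c := by
    rw [abs_of_pos (one_div_pos.2 (hc.trans_le (h x hx)))]
    exact one_div_le_one_div_of_le hc (h x hx)
  have ak : ∀ k : ℕ, |(1 / p x) ^ k| ≤ (1 / c) ^ k := fun k => by
    rw [abs_pow]
    exact pow_le_pow_left₀ (abs_nonneg _) a0 k
  have a3 : |(x * (1 - x) * deriv p x) ^ 2| ≤ N ^ 2 := by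
    rw [abs_pow]
    exact pow_le_pow_left₀ (abs_nonneg _) (hp.b1 x hx) 2
  obtain ⟨b1, b2⟩ := VC_abs_mul (hp.b1 x hx) (ak 2)
  obtain ⟨c1, c2⟩ := VC_abs_mul (hp.b2 x hx) (ak 2)
  obtain ⟨d1, d2⟩ := VC_abs_mul a3 (ak 3)
  have e1 : 0 ≤ 1 / c := by positivity
  have e2 : 0 ≤ N * (1 / c) ^ 2 := by positivity
  have e3 : 0 ≤ N ^ 2 * (1 / c) ^ 3 := by positivity
  rw [show N / c ^ 2 = N * (1 / c) ^ 2 by ring, show 2 * N ^ 2 / c ^ 3 = 2 * (N ^ 2 * (1 / c) ^ 3) by ring]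
  exact ⟨by linarith, abs_le.2 ⟨by linarith, by linarith⟩, abs_le.2 ⟨by linarith, by linarith⟩⟩

theorem VC_of_contDiff {p : ℝ → ℝ} (hp : ContDiff ℝ 2 p) : ∃ N, Mult p N := by
  have h1 : ContDiff ℝ 1 (deriv p) := hp.deriv'
  have c0 := hp.continuous
  have c1 := h1.continuous
  have c2 := h1.continuous_deriv le_rfl
  obtain ⟨N, hN⟩ := isCompact_Icc.exists_bound_of_continuousOn (s := Icc (0 : ℝ) 1)
    (f := fun x => (p x, x * (1 - x) * deriv p x, (x * (1 - x)) ^ 2 * deriv (deriv p) x)) (by fun_prop)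
  exact ⟨N, hp.contDiffOn, fun x hx => (norm_fst_le _).trans (hN x (Ioo_subset_Icc_self hx)),
    fun x hx => ((norm_fst_le _).trans (norm_snd_le _)).trans (hN x (Ioo_subset_Icc_self hx)),
    fun x hx => ((norm_snd_le _).trans (norm_snd_le _)).trans (hN x (Ioo_subset_Icc_self hx))⟩

theorem VC_wh (s : ℝ) : Mult (wh s) 6 := by
  have hE := Real.exp_pos s
  have h0 : ∀ x : ℝ, 1 + x ^ 2 * Real.exp s ≠ 0 := fun x => by positivity
  have i1 : ∀ x, HasDerivAt (wh s) (-(2 * x * Real.exp s * wh s x ^ 2)) x := fun x => by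
    refine ((hasDerivAt_const x (1 : ℝ)).fun_div
      ((((hasDerivAt_id' x).fun_pow 2).mul_const (Real.exp s)).const_add 1) (h0 x)).congr_deriv ?_
    rw [wh, div_pow, ← mul_div_assoc, ← neg_div]
    congr 1
    push_cast
    ring
  refine VC_mk (p2 := fun x => -(2 * Real.exp s * wh s x ^ 2) + 8 * (x * Real.exp s) ^ 2 * wh s x ^ 3)
    (ContDiff.contDiffOn (contDiff_const.div (by fun_prop) h0)) (fun x _ => i1 x) (fun x _ => ?_) fun x hx => ?_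
  · refine ((((hasDerivAt_id' x).const_mul 2).mul_const (Real.exp s)).fun_mul
      ((i1 x).fun_pow 2)).fun_neg.congr_deriv ?_
    push_cast
    ring
  have w0 : 0 < wh s x := by
    rw [wh]
    positivity
  have w1 : wh s x * (x ^ 2 * Real.exp s) = 1 - wh s x := by
    rw [wh]
    field_simp
    ring
  have w2 : wh s x ≤ 1 := by nlinarith [mul_nonneg w0.le (mul_nonneg (sq_nonneg x) hE.le)]
  have e1 : x * (1 - x) * -(2 * x * Real.exp s * wh s x ^ 2) = -(2 * (1 - x) * (wh s x * (1 - wh s x))) := by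
    rw [← w1]
    ring
  have e2 : (x * (1 - x)) ^ 2 * (-(2 * Real.exp s * wh s x ^ 2) + 8 * (x * Real.exp s) ^ 2 * wh s x ^ 3) =
      (1 - x) ^ 2 * (wh s x * (1 - wh s x) * (8 * (1 - wh s x) - 2)) := by
    rw [← w1]
    ring
  rw [e1, e2]
  obtain ⟨x0, x1⟩ := hx
  generalize wh s x = w at w0 w2
  have k0 : |w * (1 - w)| ≤ 1 := abs_le.2 ⟨by nlinarith, by nlinarith⟩
  have k1 : |1 - x| ≤ 1 := abs_le.2 ⟨by linarith, by linarith⟩
  have k2 : |(1 - x) ^ 2| ≤ 1 := abs_le.2 ⟨by nlinarith, by nlinarith⟩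
  have k3 : |8 * (1 - w) - 2| ≤ 6 := abs_le.2 ⟨by linarith, by linarith⟩
  obtain ⟨a1, a2⟩ := VC_abs_mul k1 k0
  obtain ⟨b1, b2⟩ := VC_abs_mul k2 (abs_le.2 (VC_abs_mul k0 k3))
  exact ⟨abs_le.2 ⟨by linarith, by linarith⟩, abs_le.2 ⟨by linarith, by linarith⟩,
    abs_le.2 ⟨by linarith, by linarith⟩⟩

theorem VC_wh_div (μ s : ℝ) : Mult (fun x => Real.exp (μ * s) * wh s x / Th μ s x) 6 := by
  have hK := Real.exp_pos (μ * s)
  have hE := Real.exp_pos s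
  refine VC_congr (VC_mono (VC_const_mul (VC_wh (s - Real.log (1 + Real.exp (μ * s))))
    (Real.exp (μ * s) / (1 + Real.exp (μ * s)))) ?_) fun x _ => ?_
  · rw [abs_of_pos (by positivity)]
    have : Real.exp (μ * s) / (1 + Real.exp (μ * s)) ≤ 1 := by
      rw [div_le_one (by positivity)]
      linarith
    linarith
  · simp only [Th, wh]
    rw [Real.exp_sub, Real.exp_log (by positivity)]
    field_simp
    ring

theorem VC_inv_Th (μ s : ℝ) : Mult (fun x => 1 / Th μ s x) 14 := by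
  refine VC_congr (VC_mono (VC_add (VC_const 1) (VC_const_mul (VC_wh_div μ s) (-1))) (by norm_num)) fun x _ => ?_
  have : 0 < Th μ s x := by
    simp only [Th, wh]
    positivity
  field_simp
  rw [Th]
  ring

theorem VC_wh_div_Th (μ s : ℝ) : Mult (fun x => Real.exp (μ * s) * wh s x / Th μ s x) 15 :=
  VC_mono (VC_wh_div μ s) (by norm_num)

end Crest.Agent.R213
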