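import Crest.Agent.R213.Defs
import Crest.Agent.R213.VA
import Crest.Agent.R213.VC
import Crest.Agent.R213.VB2

/-! # R213 / IV : basic facts on the space `V` (no `Sp` needed) -/

set_option autoImplicit false

open MeasureTheory Set Filter Topology
open scoped ContDiff InnerProductSpace

namespace Crest.Agent.R213

theorem d_add_smul (u w : VV) (t : ℝ) :
    (d0 (u + t • w) =ᵐ[ν] fun x => d0 u x + t * d0 w x) ∧
    (d1 (u + t • w) =ᵐ[ν] fun x => d1 u x + t * d1 w x) ∧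
    (d2 (u + t • w) =ᵐ[ν] fun x => d2 u x + t * d2 w x) := by
  exact VA.d_add_smul u w t

theorem d_sub (u w : VV) :
    (d0 (u - w) =ᵐ[ν] fun x => d0 u x - d0 w x) ∧ (d1 (u - w) =ᵐ[ν] fun x => d1 u x - d1 w x) ∧
    (d2 (u - w) =ᵐ[ν] fun x => d2 u x - d2 w x) := by
  exact VA.d_sub u w

theorem d_smul (u : VV) (t : ℝ) :
    (d0 (t • u) =ᵐ[ν] fun x => t * d0 u x) ∧ (d1 (t • u) =ᵐ[ν] fun x => t * d1 u x) ∧
    (d2 (t • u) =ᵐ[ν] fun x => t * d2 u x) := by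
  exact VA.d_smul u t

theorem d_memLp (u : VV) :
    MemLp (fun x => d0 u x / (x * (1 - x) ^ 2)) 2 ν ∧ MemLp (fun x => d1 u x / (1 - x)) 2 ν ∧
    MemLp (fun x => x * d2 u x) 2 ν := by
  exact VA.d_memLp u

theorem d_meas (u : VV) : AEStronglyMeasurable (d0 u) ν ∧ AEStronglyMeasurable (d1 u) ν ∧
    AEStronglyMeasurable (d2 u) ν := by
  exact VA.d_meas u

theorem norm_sq_V (u : VV) : ‖u‖ ^ 2 = ∫ x in Ioo (0 : ℝ) 1,
    ((d0 u x / (x * (1 - x) ^ 2)) ^ 2 + (d1 u x / (1 - x)) ^ 2 + (x * d2 u x) ^ 2) := by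
  exact VA.norm_sq_V u

theorem norm_sq_H (h : L2) : ‖h‖ ^ 2 = ∫ x in Ioo (0 : ℝ) 1, h x ^ 2 := by
  exact VA.norm_sq_H h

theorem Rep.d {u : VV} {f : ℝ → ℝ} (h : Rep u f) :
    (d0 u =ᵐ[ν] f) ∧ (d1 u =ᵐ[ν] deriv f) ∧ (d2 u =ᵐ[ν] deriv (deriv f)) := by
  exact VA.rep_d h

theorem rep_of_d {u : VV} {f : ℝ → ℝ} (h0 : d0 u =ᵐ[ν] f) (h1 : d1 u =ᵐ[ν] deriv f)
    (h2 : d2 u =ᵐ[ν] deriv (deriv f)) : Rep u f := by
  exact VA.rep_of_d h0 h1 h2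

/-- density principle (test functions form a vector space, so the span is the set itself). -/
theorem V_ind {P : VV → Prop} (hc : IsClosed {u | P u})
    (ht : ∀ u f, Test f → Rep u f → P u) (u : VV) : P u := by
  exact VA.V_ind hc ht u

theorem exists_rep_test {f : ℝ → ℝ} (hf : Test f) : ∃ u : VV, Rep u f := by
  exact VA.exists_rep_test hf

/-- a `C²` function on `(0,1)` with finite norm belongs to `V`: cut off with
`χ_n x = χ(n x) χ(n(1-x))` (`|φ0 χ_n'|, |φ0² χ_n''| ≤ C`), dominated convergence. -/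
theorem exists_rep {f : ℝ → ℝ} (hf : ContDiffOn ℝ 2 f (Ioo 0 1))
    (h0 : MemLp (fun x => f x / (x * (1 - x) ^ 2)) 2 ν)
    (h1 : MemLp (fun x => deriv f x / (1 - x)) 2 ν)
    (h2 : MemLp (fun x => x * deriv (deriv f) x) 2 ν) : ∃ u : VV, Rep u f := by
  exact VA.exists_rep hf h0 h1 h2

/-- weak derivatives (closed conditions; true for test functions by parts). -/
theorem ibp_V (u : VV) {ψ : ℝ → ℝ} (hψ : ContDiff ℝ 1 ψ) {δ : ℝ} (hδ : 0 < δ)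
    (hs : ∀ x, x ∉ Ioo δ (1 - δ) → ψ x = 0) :
    (∫ x in Ioo (0 : ℝ) 1, d1 u x * ψ x = -∫ x in Ioo (0 : ℝ) 1, d0 u x * deriv ψ x) ∧
    (∫ x in Ioo (0 : ℝ) 1, d2 u x * ψ x = -∫ x in Ioo (0 : ℝ) 1, d1 u x * deriv ψ x) :=
  VB.ibp_V (fun hc ht u => V_ind hc ht u) u hψ hδ hs

/-- an element of `V` is determined by `d0` (from `ibp_V` and
`IsOpen.ae_eq_zero_of_integral_contDiff_smul_eq_zero`). -/
theorem ext_d0 {u w : VV} (h : d0 u =ᵐ[ν] d0 w) : u = w :=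
  VB.ext_d0 (fun u _ hψ _ hδ hs => ibp_V u hψ hδ hs) h

/-- if `d0 u` has a `C²` representative then `u` is its class. -/
theorem rep_of_d0 {u : VV} {f : ℝ → ℝ} (hf : ContDiffOn ℝ 2 f (Ioo 0 1)) (h : d0 u =ᵐ[ν] f) :
    Rep u f :=
  VB.rep_of_d0 (fun u _ hψ _ hδ hs => ibp_V u hψ hδ hs) hf h

/-- smooth families vanishing at `x = 0` and on `x ≥ 1/2` give `C¹` curves in `V`. -/
theorem rep_family {f : ℝ → ℝ → ℝ} (hf : ContDiff ℝ ∞ (Function.uncurry f))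
    (h0 : ∀ s, f s 0 = 0) (h1 : ∀ s x, 1 / 2 ≤ x → f s x = 0) :
    ∃ u u' : ℝ → VV, (∀ s, Rep (u s) (f s)) ∧
      (∀ s, Rep (u' s) (fun x => deriv (fun r => f r x) s)) ∧ Continuous u ∧ Continuous u' ∧
      ∀ s, HasDerivAt u (u' s) s :=
  VB.rep_family (fun u _ hψ _ hδ hs => ibp_V u hψ hδ hs)
    (fun hf h0 h1 h2 => exists_rep hf h0 h1 h2) hf h0 h1

/-- norm of such an element from pointwise bounds. -/
theorem norm_le_of_rep {u : VV} {f : ℝ → ℝ} {N : ℝ} (h : Rep u f)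
    (h1 : ∀ x, 1 / 2 ≤ x → f x = 0)
    (hb : ∀ x ∈ Ioo (0 : ℝ) 1, |f x| ≤ N * x ∧ |deriv f x| ≤ N ∧ |x * deriv (deriv f) x| ≤ N) :
    ‖u‖ ≤ 5 * N :=
  VB.norm_le_of_rep h h1 hb

theorem Mult.mul {p q : ℝ → ℝ} {N N' : ℝ} (hp : Mult p N) (hq : Mult q N') :
    Mult (fun x => p x * q x) (4 * N * N') :=
  VC_mul hp hq

theorem Mult.add {p q : ℝ → ℝ} {N N' : ℝ} (hp : Mult p N) (hq : Mult q N') :
    Mult (fun x => p x + q x) (N + N') :=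
  VC_add hp hq

theorem Mult.const_mul {p : ℝ → ℝ} {N : ℝ} (hp : Mult p N) (t : ℝ) :
    Mult (fun x => t * p x) (|t| * N) :=
  VC_const_mul hp t

theorem Mult.const (t : ℝ) : Mult (fun _ => t) |t| :=
  VC_const t

theorem Mult.mono {p : ℝ → ℝ} {N N' : ℝ} (hp : Mult p N) (h : N ≤ N') : Mult p N' :=
  VC_mono hp h

theorem Mult.congr {p q : ℝ → ℝ} {N : ℝ} (hp : Mult p N) (h : EqOn q p (Ioo 0 1)) : Mult q N :=
  VC_congr hp h

theorem Mult.inv {p : ℝ → ℝ} {N c : ℝ} (hp : Mult p N) (hc : 0 < c)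
    (h : ∀ x ∈ Ioo (0 : ℝ) 1, c ≤ p x) :
    Mult (fun x => 1 / p x) (1 / c + N / c ^ 2 + 2 * N ^ 2 / c ^ 3) :=
  VC_inv hp hc h

theorem mult_of_contDiff {p : ℝ → ℝ} (hp : ContDiff ℝ 2 p) : ∃ N, Mult p N :=
  VC_of_contDiff hp

theorem mult_wh (s : ℝ) : Mult (wh s) 6 :=
  VC_wh s

theorem mult_inv_Th (μ s : ℝ) : Mult (fun x => 1 / Th μ s x) 14 :=
  VC_inv_Th μ s

theorem mult_wh_div_Th (μ s : ℝ) : Mult (fun x => Real.exp (μ * s) * wh s x / Th μ s x) 15 :=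
  VC_wh_div_Th μ s

end Crest.Agent.R213
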