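import Crest.Agent.R213.ISol

/-! # R213 / Lin1 : generic tools and pointwise bounds for `ILin` (prefix `lin_`) -/

set_option autoImplicit false

open MeasureTheory Set Filter Topology
open scoped ContDiff InnerProductSpace

namespace Crest.Agent.R213

section generic

variable {X Y E : Type} [NormedAddCommGroup X] [NormedSpace ℝ X] [NormedAddCommGroup Y] [NormedSpace ℝ Y]
  [NormedAddCommGroup E]

theorem lin_mkL (Φ : X → Y) {K : ℝ} (hK : 0 ≤ K) (hl : ∀ x y (t : ℝ), Φ (x + t • y) = Φ x + t • Φ y)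
    (hb : ∀ x, ‖Φ x‖ ^ 2 ≤ K * ‖x‖ ^ 2) : ∃ R : X →L[ℝ] Y, ‖R‖ ≤ √K ∧ ∀ x, R x = Φ x := by
  have h0 : Φ 0 = 0 := by simpa using hl 0 0 (-1)
  have h1 : ∀ x, ‖Φ x‖ ≤ √K * ‖x‖ := fun x =>
    (Real.le_sqrt_of_sq_le (hb x)).trans_eq (by rw [Real.sqrt_mul hK, Real.sqrt_sq (norm_nonneg _)])
  let L : X →ₗ[ℝ] Y :=
    { toFun := Φ
      map_add' := fun x y => by simpa using hl x y 1
      map_smul' := fun t x => by simpa [h0] using hl 0 x t }
  exact ⟨L.mkContinuous _ h1, L.mkContinuous_norm_le (Real.sqrt_nonneg _) h1, fun _ => rfl⟩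

theorem lin_mkB (Φ : X → ℝ → Y) {K : ℝ} (hK : 0 ≤ K) (hc : ∀ x, Continuous (Φ x))
    (hl : ∀ x y (t : ℝ) s, Φ (x + t • y) s = Φ x s + t • Φ y s)
    (hb : ∀ x s, ‖Φ x s‖ ^ 2 ≤ K * ‖x‖ ^ 2) :
    ∃ R : X →L[ℝ] BoundedContinuousFunction ℝ Y, ‖R‖ ≤ √K ∧ ∀ x, ⇑(R x) = Φ x := by
  have h1 : ∀ x s, ‖Φ x s‖ ≤ √(K * ‖x‖ ^ 2) := fun x s => Real.le_sqrt_of_sq_le (hb x s)
  obtain ⟨R, h2, h3⟩ := lin_mkL (fun x => BoundedContinuousFunction.ofNormedAddCommGroup _ (hc x) _ (h1 x)) hK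
    (fun x y t => by ext1 s; simpa using hl x y t s) fun x => by
      exact (pow_le_pow_left₀ (norm_nonneg _)
        ((BoundedContinuousFunction.norm_le (Real.sqrt_nonneg _)).2 (h1 x)) 2).trans_eq
        (Real.sq_sqrt (by positivity))
  exact ⟨R, h2, fun x => by rw [h3]; rfl⟩

theorem lin_mkLp [InnerProductSpace ℝ E] (m : Measure ℝ) (Φ : X → ℝ → E) (e : X → ℝ → ℝ) {c K : ℝ}
    (hc : 0 ≤ c) (hK : 0 ≤ K) (hm : ∀ x, AEStronglyMeasurable (Φ x) m)
    (he : ∀ x, Integrable (e x) m ∧ ∫ s, e x s ∂m ≤ K * ‖x‖ ^ 2)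
    (hb : ∀ x, ∀ᵐ s ∂m, ‖Φ x s‖ ^ 2 ≤ c * e x s)
    (hl : ∀ x y (t : ℝ), ∀ᵐ s ∂m, Φ (x + t • y) s = Φ x s + t • Φ y s) :
    ∃ R : X →L[ℝ] Lp E 2 m, ‖R‖ ≤ √(c * K) ∧ ∀ x, R x =ᵐ[m] Φ x := by
  have h1 : ∀ x, MemLp (Φ x) 2 m := fun x => (memLp_two_iff_integrable_sq_norm (hm x)).2
    (((he x).1.const_mul c).mono' ((hm x).norm.pow 2) ((hb x).mono fun s hs => by
      rwa [Real.norm_of_nonneg (sq_nonneg _)]))
  obtain ⟨R, h2, h3⟩ := lin_mkL (fun x => (h1 x).toLp) (mul_nonneg hc hK) (fun x y t => Lp.ext (by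
      filter_upwards [(h1 (x + t • y)).coeFn_toLp, (h1 x).coeFn_toLp, (h1 y).coeFn_toLp, hl x y t,
        Lp.coeFn_add (h1 x).toLp (t • (h1 y).toLp), Lp.coeFn_smul t (h1 y).toLp] with s a1 a2 a3 a4 a5 a6
      rw [a1, a5, Pi.add_apply, a6, Pi.smul_apply, a2, a3, a4])) fun x => by
    rw [ex_norm_sq, mul_assoc]
    refine le_trans (integral_mono_of_nonneg (ae_of_all _ fun _ => sq_nonneg _) ((he x).1.const_mul c) ?_) ?_
    · filter_upwards [(h1 x).coeFn_toLp, hb x] with s a1 a2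
      rwa [a1]
    · rw [integral_const_mul]
      exact mul_le_mul_of_nonneg_left (he x).2 hc
  exact ⟨R, h2, fun x => by rw [h3]; exact (h1 x).coeFn_toLp⟩

theorem lin_union (a : ℝ) : ⋃ n : ℕ, Ioc a n = Ioi a :=
  iUnion_Ioc_eq_Ioi_self_iff.2 fun x _ => exists_nat_ge x

theorem lin_int {f : ℝ → ℝ} {a b M : ℝ} (hab : a ≤ b) (h0 : ∀ r, 0 ≤ f r)
    (h : ∀ s, a ≤ s → IntervalIntegrable f volume a s ∧ ∫ r in a..s, f r ≤ M) :
    IntegrableOn f (Ioi b) ∧ ∫ r in Ioi b, f r ≤ M := by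
  have h1 : IntegrableOn f (Ioi a) := integrableOn_Ioi_of_intervalIntegral_norm_bounded M a
    (b := fun s => max a s) (fun s => (h _ (le_max_left _ _)).1.1)
    (tendsto_atTop_mono (le_max_right a) tendsto_id) (Eventually.of_forall fun s => by
      simpa only [Real.norm_of_nonneg (h0 _)] using (h _ (le_max_left a s)).2)
  refine ⟨h1.mono_set (Ioi_subset_Ioi hab), (setIntegral_mono_set h1 (ae_of_all _ h0)
    (Ioi_subset_Ioi hab).eventuallyLE).trans ?_⟩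
  exact le_of_tendsto (intervalIntegral_tendsto_integral_Ioi a h1 tendsto_id)
    ((eventually_ge_atTop a).mono fun s hs => (h s hs).2)

theorem lin_le {f ρ : ℝ → ℝ} (h0 : ∀ r, 0 ≤ f r) (hρ : Integrable ρ) (h : ∀ r, f r ≤ ρ r) {a s : ℝ}
    (hs : a ≤ s) : ∫ r in a..s, f r ≤ ∫ r, ρ r := by
  rw [intervalIntegral.integral_of_le hs]
  exact (integral_mono_of_nonneg (ae_of_all _ h0) hρ.integrableOn (ae_of_all _ h)).trans
    (setIntegral_le_integral hρ (ae_of_all _ fun r => (h0 r).trans (h r)))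

theorem lin_adm_ind {f : ℝ → E} {a b : ℝ} (hab : a ≤ b) (hf : MemLp f 2 (volume.restrict (Ioi b))) :
    LocAdm a ((Ioi b).indicator f) :=
  ⟨fun _ hs => indicator_of_notMem (fun h => (hs.trans hab).not_gt h) _,
    fun _ => ((memLp_indicator_iff_restrict measurableSet_Ioi).2 hf).restrict _⟩

theorem lin_adm_zero (a : ℝ) : LocAdm a (fun _ => (0 : E)) := ⟨fun _ _ => rfl, fun _ => MemLp.zero'⟩

theorem lin_adm_add [NormedSpace ℝ E] {a : ℝ} {g g' : ℝ → E} (h : LocAdm a g) (h' : LocAdm a g') (t : ℝ) :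
    LocAdm a fun r => g r + t • g' r :=
  ⟨fun s hs => by simp [h.1 s hs, h'.1 s hs], fun S => (h.2 S).add ((h'.2 S).const_smul t)⟩

theorem lin_adm_mono {a b : ℝ} {g : ℝ → E} (h : LocAdm b g) (hab : a ≤ b) : LocAdm a g := by
  refine ⟨fun s hs => h.1 s (hs.trans hab), fun S => ?_⟩
  have h1 := ((memLp_indicator_iff_restrict measurableSet_Ioc).2 (h.2 S)).restrict (Ioc a S)
  refine h1.ae_eq ((ae_restrict_iff' measurableSet_Ioc).2 (ae_of_all _ fun r hr => ?_))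
  rcases le_or_gt r b with h2 | h2
  · rw [h.1 r h2, indicator_of_notMem fun h3 => h2.not_gt h3.1]
  · exact indicator_of_mem (show r ∈ Ioc b S from ⟨h2, hr.2⟩) _

theorem lin_adm_shift {a : ℝ} {g : ℝ → E} (h : LocAdm a g) {k : ℝ} (hk : 0 ≤ k) :
    LocAdm a fun r => g (r - k) := by
  refine lin_adm_mono (b := a + k) ⟨fun s hs => h.1 _ (by linarith), fun S => ?_⟩ (by linarith)
  have h1 := (measurePreserving_sub_right (volume : Measure ℝ) k).restrict_preimage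
    (measurableSet_Ioc (a := a) (b := S - k))
  rw [preimage_sub_const_Ioc, sub_add_cancel] at h1
  exact (h.2 _).comp_measurePreserving h1

end generic

variable {S : Sp} {A : Apx} {N : Anc}

/-- linear dependence on the data (contains uniqueness). -/
theorem lin_uniq {B : Fb S A N} {F1 F2 F3 : ℝ → VV} {g1 g2 g3 : ℝ → EuclideanSpace ℝ (Fin B.m)}
    {v1 Z1 v2 Z2 v3 Z3 : ℝ → VV} {U1 U2 U3 : ℝ → L2} (h1 : FbSol B F1 g1 v1 Z1 U1)
    (h2 : FbSol B F2 g2 v2 Z2 U2) (h3 : FbSol B F3 g3 v3 Z3 U3) (t : ℝ)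
    (hF : ∀ᵐ s, F3 s = F1 s + t • F2 s) (hg : ∀ᵐ s, g3 s = g1 s + t • g2 s) :
    (∀ s, U3 s = U1 s + t • U2 s) ∧ ∀ᵐ s ∂(volume.restrict (Ioi B.sst)), v3 s = v1 s + t • v2 s := by
  have h := fun s0 => (h3.add_smul (h1.add_smul h2 t) (-1)).causal (s0 := s0)
    (ae_restrict_of_ae (hF.mono fun s hs => by simp only [hs, neg_one_smul, add_neg_cancel]))
    (ae_restrict_of_ae (hg.mono fun s hs => by simp only [hs, neg_one_smul, add_neg_cancel]))
  refine ⟨fun s => ?_, ?_⟩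
  · have := (h s).1 s le_rfl
    rwa [neg_one_smul, add_neg_eq_zero] at this
  · rw [← lin_union, ae_restrict_iUnion_iff]
    exact fun n => (h n).2.mono fun s hs => by
      have := hs.1
      rwa [neg_one_smul, add_neg_eq_zero] at this

theorem lin_obs (B : Fb S A N) (s : ℝ) (h k : L2) (t : ℝ) :
    B.obs s (h + t • k) = B.obs s h + t • B.obs s k := by
  ext i
  simp only [Fb.obs, map_add, map_smul, smul_eq_mul, PiLp.add_apply, PiLp.smul_apply]
  ring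

theorem lin_En_nonneg (N : Anc) (s : ℝ) (h : L2) : 0 ≤ N.En s h :=
  add_nonneg (integral_nonneg fun _ => sq_nonneg _) (mul_nonneg (Real.exp_pos _).le (by positivity))

theorem lin_obs_le (B : Fb S A N) {s : ℝ} (hs : B.sst ≤ s) (h : L2) : ‖B.obs s h‖ ^ 2 ≤ B.C * N.En s h := by
  rw [EuclideanSpace.norm_sq_eq]
  simpa only [Fb.obs, Real.norm_eq_abs, sq_abs] using B.obs_le s hs h

theorem lin_wh_pos (s x : ℝ) : 0 < wh s x := by unfold wh; positivity

theorem lin_wh_le (s x : ℝ) : wh s x ≤ 1 :=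
  (div_le_one (by positivity)).2 (le_add_of_nonneg_right (by positivity))

theorem lin_sm_wh : ContDiff ℝ ∞ (Function.uncurry wh) := by
  change ContDiff ℝ ∞ fun z : ℝ × ℝ => 1 / (1 + z.2 ^ 2 * Real.exp z.1)
  exact contDiff_const.div (by fun_prop) fun z => by positivity

theorem lin_sm_Th (μ : ℝ) : ContDiff ℝ ∞ (Function.uncurry (Th μ)) :=
  (((contDiff_const.mul contDiff_fst).exp).mul lin_sm_wh).add contDiff_const

theorem lin_c_inv (S : Sp) (μ : ℝ) : Continuous fun s => S.mul fun x => 1 / Th μ s x :=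
  S.mul_family (p := fun s x => 1 / Th μ s x) (contDiff_const.div (lin_sm_Th μ) fun z => by
    have := lin_wh_pos z.1 z.2
    change Real.exp _ * wh z.1 z.2 + 1 ≠ 0
    positivity)

theorem lin_mul_le (S : Sp) {p : ℝ → ℝ} {M : ℝ} (hp : Mult p M) (u : VV) :
    ‖S.mul p u‖ ^ 2 ≤ (4 * M) ^ 2 * ‖u‖ ^ 2 := by
  rw [← mul_pow]
  exact pow_le_pow_left₀ (norm_nonneg _) ((S.mul p).le_of_opNorm_le (S.mul_le p M hp) u) 2

theorem lin_Th_le (S : Sp) (μ s : ℝ) (u : VV) : ‖Real.exp (-(s / 2)) • S.mul (Th μ s) u‖ ^ 2 ≤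
    2 * (Real.exp (2 * μ * s) * (Real.exp (-s) * ‖S.mul (wh s) u‖ ^ 2) + Real.exp (-s) * ‖u‖ ^ 2) := by
  have e : S.mul (Th μ s) u = Real.exp (μ * s) • S.mul (wh s) u + u := by
    have := S.mul_add ((mult_wh s).const_mul (Real.exp (μ * s))) (Mult.const 1)
    rw [S.mul_const_mul (mult_wh s), S.mul_one] at this
    exact DFunLike.congr_fun this u
  have h1 := norm_add_le (Real.exp (μ * s) • S.mul (wh s) u) u
  rw [norm_smul, Real.norm_of_nonneg (Real.exp_pos _).le, ← e] at h1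
  have h2 := pow_le_pow_left₀ (norm_nonneg _) h1 2
  rw [norm_smul, Real.norm_of_nonneg (Real.exp_pos _).le, mul_pow, ← Real.exp_nat_mul, mul_assoc 2 μ,
    show ((2 : ℕ) : ℝ) * -(s / 2) = -s by push_cast; ring, two_mul (μ * s), Real.exp_add]
  nlinarith [Real.exp_pos (-s), mul_le_mul_of_nonneg_left h2 (Real.exp_pos (-s)).le, mul_nonneg
    (Real.exp_pos (-s)).le (sq_nonneg (Real.exp (μ * s) * ‖S.mul (wh s) u‖ - ‖u‖))]

/-- the energy density. -/
noncomputable def lin_en (S : Sp) (N : Anc) (μ s : ℝ) (u : VV) (h : L2) : ℝ :=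
  Real.exp (2 * μ * s) * (Real.exp (-s) * ‖S.mul (wh s) u‖ ^ 2 + N.En s h) + Real.exp (-s) * ‖u‖ ^ 2

theorem lin_pt (B : Fb S A N) : ∃ c : ℝ, 1 ≤ c ∧ ∀ μ, 1 / 2 ≤ μ → ∀ s, B.sst ≤ s → ∀ (u : VV) (h : L2),
    ‖Real.exp (μ * s) • B.obs s h‖ ^ 2 ≤ c * lin_en S N μ s u h ∧
    ‖Real.exp (-(s / 2)) • S.mul (Th μ s) (S.mul (fun x => A.g s x ^ 2) u)‖ ^ 2 ≤ c * lin_en S N μ s u h ∧
    ‖Real.exp (-(s / 2)) • S.mul (Th μ s) (S.mul (A.b s) (S.T.G h))‖ ^ 2 ≤ c * lin_en S N μ s u h ∧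
    (S.T.ι u = h → Real.exp ((2 * μ - 1 / 2) * s) * S.ell u ^ 2 ≤ c * lin_en S N μ s u h) := by
  obtain ⟨_, Cg, _, hCg, hg⟩ := garding_g S A
  obtain ⟨Cb, hCb, hb⟩ := bxi_le S A N
  obtain ⟨Cl, hCl, hl⟩ := ell_le S N
  have hC := B.C_pos
  refine ⟨1 + B.C + 2 * (4 * Cg) ^ 2 + 4 * Cb + Cl, by nlinarith [sq_nonneg (4 * Cg)],
    fun μ hμ s hs u h => ?_⟩
  have h4 := B.sst_ge.trans hs
  have p1 := lin_En_nonneg N s h
  have p2 : 0 ≤ Real.exp (-s) * ‖S.mul (wh s) u‖ ^ 2 := by positivity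
  have p3 : 0 ≤ Real.exp (-s) * ‖u‖ ^ 2 := by positivity
  have p4 := Real.exp_pos (2 * μ * s)
  have q1 := mul_nonneg p4.le p1
  have q2 := mul_nonneg p4.le p2
  have key : ∀ {y k : ℝ}, 0 ≤ k → k ≤ 1 + B.C + 2 * (4 * Cg) ^ 2 + 4 * Cb + Cl →
      y ≤ k * lin_en S N μ s u h → y ≤ (1 + B.C + 2 * (4 * Cg) ^ 2 + 4 * Cb + Cl) * lin_en S N μ s u h :=
    fun _ h1 h2 => h2.trans (mul_le_mul_of_nonneg_right h1 (by unfold lin_en; positivity))
  have p5 := sq_nonneg (4 * Cg)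
  refine ⟨key hC.le (by linarith) ?_, key (k := 2 * (4 * Cg) ^ 2) (by positivity) (by linarith) ?_,
    key (k := 4 * Cb) (by positivity) (by linarith) ?_, fun hu => key hCl.le (by linarith) ?_⟩
  · rw [norm_smul, Real.norm_of_nonneg (Real.exp_pos _).le, mul_pow, ← Real.exp_nat_mul, Nat.cast_ofNat,
      ← mul_assoc, lin_en]
    nlinarith [mul_le_mul_of_nonneg_left (lin_obs_le B hs h) p4.le]
  · have hm := (hg s (by linarith)).2.2.2.2.2.1
    have e : S.mul (wh s) (S.mul (fun x => A.g s x ^ 2) u) = S.mul (fun x => A.g s x ^ 2) (S.mul (wh s) u) := by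
      rw [S.mul_mul (mult_wh s) hm, S.mul_mul hm (mult_wh s)]
      simp only [mul_comm]
    refine (lin_Th_le S μ s _).trans ?_
    rw [e, lin_en]
    have a1 := mul_le_mul_of_nonneg_left (mul_le_mul_of_nonneg_left (lin_mul_le S hm (S.mul (wh s) u))
      (Real.exp_pos (-s)).le) p4.le
    have a2 := mul_le_mul_of_nonneg_left (lin_mul_le S hm u) (Real.exp_pos (-s)).le
    nlinarith [mul_nonneg p5 q1]
  · obtain ⟨b1, b2⟩ := hb s h4 h
    have b3 : ∫ x in Ioo (0 : ℝ) 1, wh s x ^ 3 * h x ^ 2 ≤ ∫ x in Ioo (0 : ℝ) 1, (wh s x * h x) ^ 2 := by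
      refine integral_mono_of_nonneg (ae_of_all _ fun x => by have := lin_wh_pos s x; positivity) ?_
        (ae_of_all _ fun x => ?_)
      · refine (Lp.memLp h).integrable_sq.mono' (((lin_sm_wh.continuous.uncurry_left s).aestronglyMeasurable.mul
          (Lp.aestronglyMeasurable h)).pow 2) (ae_of_all _ fun x => ?_)
        rw [Real.norm_of_nonneg (sq_nonneg _), mul_pow]
        exact mul_le_of_le_one_left (sq_nonneg _) (pow_le_one₀ (lin_wh_pos s x).le (lin_wh_le s x))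
      · have := lin_wh_pos s x
        beta_reduce
        rw [mul_pow]
        exact mul_le_mul_of_nonneg_right (pow_le_pow_of_le_one this.le (lin_wh_le s x) (by norm_num))
          (sq_nonneg _)
    have b4 := b1.trans (mul_le_mul_of_nonneg_left (add_le_add_left b3 _) hCb.le)
    have b5 : Real.exp s ≤ Real.exp (2 * μ * s) := Real.exp_le_exp.2 (by nlinarith)
    refine (lin_Th_le S μ s _).trans ?_
    change _ ≤ Cb * N.En s h at b4
    rw [lin_en]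
    nlinarith [mul_le_mul_of_nonneg_left b4 p4.le, mul_le_mul_of_nonneg_right b5 (mul_nonneg hCb.le p1),
      mul_nonneg hCb.le q2, mul_nonneg hCb.le p3]
  · have l1 := mul_le_mul_of_nonneg_left (hl s h4 u) p4.le
    rw [hu, lam, ← mul_assoc, ← Real.exp_add] at l1
    rw [show (2 * μ - 1 / 2) * s = 2 * μ * s + -(s / 2) by ring, lin_en]
    nlinarith [mul_nonneg hCl.le p3]

end Crest.Agent.R213
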