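import Mathlib

/-! # R213 / Nl1 : abstract fixed point lemmas for `nl_exists` -/

set_option autoImplicit false

open MeasureTheory Set Filter Topology

namespace Crest.Agent.R213

theorem nl_fix {Y : Type*} [NormedAddCommGroup Y] [NormedSpace ℝ Y] [CompleteSpace Y]
    (Q : Y →L[ℝ] Y →L[ℝ] Y) (R1 R2 : Y →L[ℝ] Y) (E0 : Y) {k C δ : ℝ} (hk : 0 ≤ k) (hC : 0 ≤ C)
    (hδ : 0 < δ) (hδ1 : δ ≤ 1) (hQ : ∀ F f, ‖Q F f‖ ≤ k * ‖F‖ * ‖f‖) (h1 : ‖R1‖ ≤ C)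
    (h2 : ‖R2‖ ≤ C) (hs : (5 * k * C + 3 * k ^ 2 * C) * δ ≤ 1 / 2) (hE : ‖E0‖ ≤ δ / 2) :
    ∃ F, ‖F‖ ≤ δ ∧
      F = -E0 - (2 : ℝ) • Q F (R1 F) - Q F (Q F (R1 F)) + (1 / 2 : ℝ) • Q F (R2 F) := by
  have hR : ∀ R : Y →L[ℝ] Y, ‖R‖ ≤ C → ∀ F, ‖R F‖ ≤ C * ‖F‖ := fun R hR F =>
    (R.le_opNorm F).trans (mul_le_mul_of_nonneg_right hR (norm_nonneg _))
  have quad : ∀ R : Y →L[ℝ] Y, ‖R‖ ≤ C → ∀ F G, ‖F‖ ≤ δ → ‖G‖ ≤ δ →
      ‖Q F (R F) - Q G (R G)‖ ≤ 2 * k * C * δ * ‖F - G‖ := by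
    intro R hR' F G hF hG
    have e : Q F (R F) - Q G (R G) = Q (F - G) (R F) + Q G (R (F - G)) := by
      simp only [map_sub, sub_apply]; abel
    rw [e]
    have a1 := hQ (F - G) (R F)
    have a2 := hQ G (R (F - G))
    have b1 : ‖R F‖ ≤ C * δ := (hR R hR' F).trans (mul_le_mul_of_nonneg_left hF hC)
    have b2 := hR R hR' (F - G)
    have c1 : k * ‖F - G‖ * ‖R F‖ ≤ k * ‖F - G‖ * (C * δ) :=
      mul_le_mul_of_nonneg_left b1 (by positivity)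
    have c2 : k * ‖G‖ * ‖R (F - G)‖ ≤ k * δ * (C * ‖F - G‖) :=
      mul_le_mul (mul_le_mul_of_nonneg_left hG hk) b2 (norm_nonneg _) (by positivity)
    calc _ ≤ ‖Q (F - G) (R F)‖ + ‖Q G (R (F - G))‖ := norm_add_le _ _
      _ ≤ k * ‖F - G‖ * (C * δ) + k * δ * (C * ‖F - G‖) := by linarith
      _ = _ := by ring
  have cub : ∀ F G, ‖F‖ ≤ δ → ‖G‖ ≤ δ →
      ‖Q F (Q F (R1 F)) - Q G (Q G (R1 G))‖ ≤ 3 * k ^ 2 * C * δ * ‖F - G‖ := by
    intro F G hF hG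
    have e : Q F (Q F (R1 F)) - Q G (Q G (R1 G)) =
        Q (F - G) (Q F (R1 F)) + Q G (Q F (R1 F) - Q G (R1 G)) := by
      simp only [map_sub, sub_apply]; abel
    rw [e]
    have a1 := hQ (F - G) (Q F (R1 F))
    have a2 := hQ G (Q F (R1 F) - Q G (R1 G))
    have b1 : ‖R1 F‖ ≤ C * δ := (hR R1 h1 F).trans (mul_le_mul_of_nonneg_left hF hC)
    have b2 : ‖Q F (R1 F)‖ ≤ k * 1 * (C * δ) := (hQ F (R1 F)).trans
      (mul_le_mul (mul_le_mul_of_nonneg_left (hF.trans hδ1) hk) b1 (norm_nonneg _) (by positivity))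
    have b3 := quad R1 h1 F G hF hG
    have c1 : k * ‖F - G‖ * ‖Q F (R1 F)‖ ≤ k * ‖F - G‖ * (k * 1 * (C * δ)) :=
      mul_le_mul_of_nonneg_left b2 (by positivity)
    have c2 : k * ‖G‖ * ‖Q F (R1 F) - Q G (R1 G)‖ ≤ k * 1 * (2 * k * C * δ * ‖F - G‖) :=
      mul_le_mul (mul_le_mul_of_nonneg_left (hG.trans hδ1) hk) b3 (norm_nonneg _) (by positivity)
    calc _ ≤ ‖Q (F - G) (Q F (R1 F))‖ + ‖Q G (Q F (R1 F) - Q G (R1 G))‖ := norm_add_le _ _
      _ ≤ k * ‖F - G‖ * (k * 1 * (C * δ)) + k * 1 * (2 * k * C * δ * ‖F - G‖) := by linarith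
      _ = _ := by ring
  set Φ : Y → Y := fun F =>
    -E0 - (2 : ℝ) • Q F (R1 F) - Q F (Q F (R1 F)) + (1 / 2 : ℝ) • Q F (R2 F) with hΦ
  have lip : ∀ F G, ‖F‖ ≤ δ → ‖G‖ ≤ δ → ‖Φ F - Φ G‖ ≤ 1 / 2 * ‖F - G‖ := by
    intro F G hF hG
    have e : Φ F - Φ G = -((2 : ℝ) • (Q F (R1 F) - Q G (R1 G))) -
        (Q F (Q F (R1 F)) - Q G (Q G (R1 G))) + (1 / 2 : ℝ) • (Q F (R2 F) - Q G (R2 G)) := by
      simp only [hΦ, smul_sub]; abel
    rw [e]
    have a1 := quad R1 h1 F G hF hG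
    have a2 := quad R2 h2 F G hF hG
    have a3 := cub F G hF hG
    have n1 : ‖-((2 : ℝ) • (Q F (R1 F) - Q G (R1 G)))‖ = 2 * ‖Q F (R1 F) - Q G (R1 G)‖ := by
      rw [norm_neg, norm_smul]; simp
    have n2 : ‖(1 / 2 : ℝ) • (Q F (R2 F) - Q G (R2 G))‖ = 1 / 2 * ‖Q F (R2 F) - Q G (R2 G)‖ := by
      rw [norm_smul]; simp
    have t1 := norm_add_le (-((2 : ℝ) • (Q F (R1 F) - Q G (R1 G))) -
        (Q F (Q F (R1 F)) - Q G (Q G (R1 G)))) ((1 / 2 : ℝ) • (Q F (R2 F) - Q G (R2 G)))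
    have t2 := norm_sub_le (-((2 : ℝ) • (Q F (R1 F) - Q G (R1 G))))
        (Q F (Q F (R1 F)) - Q G (Q G (R1 G)))
    have t3 : (5 * k * C + 3 * k ^ 2 * C) * δ * ‖F - G‖ ≤ 1 / 2 * ‖F - G‖ :=
      mul_le_mul_of_nonneg_right hs (norm_nonneg _)
    nlinarith
  have Φ0 : Φ 0 = -E0 := by simp [hΦ]
  have maps : MapsTo Φ (Metric.closedBall (0 : Y) δ) (Metric.closedBall (0 : Y) δ) := by
    intro F hF
    rw [mem_closedBall_zero_iff] at hF ⊢
    have a := lip F 0 hF (by simpa using hδ.le)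
    rw [Φ0, sub_zero] at a
    have b : ‖Φ F‖ ≤ ‖Φ F - -E0‖ + ‖-E0‖ := by
      simpa using norm_add_le (Φ F - -E0) (-E0)
    rw [norm_neg] at b
    linarith
  have con : ContractingWith (1 / 2 : NNReal)
      (maps.restrict Φ (Metric.closedBall (0 : Y) δ) (Metric.closedBall (0 : Y) δ)) := by
    refine ⟨by norm_num, LipschitzWith.of_dist_le_mul fun F G => ?_⟩
    have a := lip F G (mem_closedBall_zero_iff.1 F.2) (mem_closedBall_zero_iff.1 G.2)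
    rw [Subtype.dist_eq, Subtype.dist_eq, dist_eq_norm, dist_eq_norm]
    simpa using a
  obtain ⟨F, hF, hfix, -⟩ := con.exists_fixedPoint' Metric.isClosed_closedBall.isComplete maps
    (Metric.mem_closedBall_self hδ.le) (edist_ne_top _ _)
  exact ⟨F, mem_closedBall_zero_iff.1 hF, hfix.symm⟩

variable {V H : Type} [NormedAddCommGroup V] [InnerProductSpace ℝ V]
  [NormedAddCommGroup H] [NormedSpace ℝ H]

theorem nl_norm_sq_Lp (m : Measure ℝ) (f : Lp V 2 m) : ‖f‖ ^ 2 = ∫ s, ‖f s‖ ^ 2 ∂m := by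
  rw [← real_inner_self_eq_norm_sq, L2.inner_def]
  simp only [real_inner_self_eq_norm_sq]

theorem nl_int_sq_Lp (m : Measure ℝ) (f : Lp V 2 m) : Integrable (fun s => ‖f s‖ ^ 2) m :=
  (memLp_two_iff_integrable_sq_norm (Lp.aestronglyMeasurable f)).1 (Lp.memLp f)

theorem nl_bilin (m : Measure ℝ) (P : ℝ → H →L[ℝ] V →L[ℝ] V) (hP : Continuous P) {K : ℝ}
    (hK0 : 0 ≤ K) (hK : ∀ᵐ s ∂m, ‖P s‖ ≤ K) :
    ∃ T : BoundedContinuousFunction ℝ H →L[ℝ] Lp V 2 m →L[ℝ] Lp V 2 m,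
      (∀ U f, ‖T U f‖ ≤ K * ‖U‖ * ‖f‖) ∧ ∀ U f, T U f =ᵐ[m] fun s => P s (U s) (f s) := by
  have hb : ∀ (U : BoundedContinuousFunction ℝ H) (f : Lp V 2 m),
      ∀ᵐ s ∂m, ‖P s (U s) (f s)‖ ≤ K * ‖U‖ * ‖f s‖ := by
    intro U f
    filter_upwards [hK] with s hs
    refine ((P s).le_opNorm₂ (U s) (f s)).trans ?_
    exact mul_le_mul_of_nonneg_right
      (mul_le_mul hs (U.norm_coe_le_norm s) (norm_nonneg _) hK0) (norm_nonneg _)
  have hm : ∀ (U : BoundedContinuousFunction ℝ H) (f : Lp V 2 m),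
      MemLp (fun s => P s (U s) (f s)) 2 m := by
    intro U f
    have c : Continuous fun s => P s (U s) := hP.clm_apply U.continuous
    have me : AEStronglyMeasurable (fun s => P s (U s) (f s)) m :=
      (ContinuousLinearMap.id ℝ (V →L[ℝ] V)).aestronglyMeasurable_comp₂
        c.aestronglyMeasurable (Lp.aestronglyMeasurable f)
    exact (Lp.memLp f).of_le_mul me (hb U f)
  have hn : ∀ (U : BoundedContinuousFunction ℝ H) (f : Lp V 2 m),
      ‖(hm U f).toLp _‖ ≤ K * ‖U‖ * ‖f‖ := by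
    intro U f
    refine Lp.norm_le_mul_norm_of_ae_le_mul ?_
    filter_upwards [hb U f, (hm U f).coeFn_toLp] with s hs hs'
    rw [hs']; exact hs
  let L : BoundedContinuousFunction ℝ H →ₗ[ℝ] Lp V 2 m →ₗ[ℝ] Lp V 2 m :=
    LinearMap.mk₂ ℝ (fun U f => (hm U f).toLp _)
      (fun U U' f => by
        refine Lp.ext ?_
        filter_upwards [(hm (U + U') f).coeFn_toLp, (hm U f).coeFn_toLp, (hm U' f).coeFn_toLp,
          Lp.coeFn_add ((hm U f).toLp _) ((hm U' f).toLp _)] with s a b c d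
        rw [d, Pi.add_apply, a, b, c]; simp)
      (fun t U f => by
        refine Lp.ext ?_
        filter_upwards [(hm (t • U) f).coeFn_toLp, (hm U f).coeFn_toLp,
          Lp.coeFn_smul t ((hm U f).toLp _)] with s a b d
        rw [d, Pi.smul_apply, a, b]; simp)
      (fun U f f' => by
        refine Lp.ext ?_
        filter_upwards [(hm U (f + f')).coeFn_toLp, (hm U f).coeFn_toLp, (hm U f').coeFn_toLp,
          Lp.coeFn_add ((hm U f).toLp _) ((hm U f').toLp _), Lp.coeFn_add f f'] with s a b c d e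
        rw [d, Pi.add_apply, a, b, c, e]; simp)
      (fun t U f => by
        refine Lp.ext ?_
        filter_upwards [(hm U (t • f)).coeFn_toLp, (hm U f).coeFn_toLp,
          Lp.coeFn_smul t ((hm U f).toLp _), Lp.coeFn_smul t f] with s a b d e
        rw [d, Pi.smul_apply, a, b, e]; simp)
  exact ⟨L.mkContinuous₂ K hn, hn, fun U f => (hm U f).coeFn_toLp⟩

/-- a continuous function bounded by `K e^{-s/2}` is an element of `L²(s1,∞)` of small norm. -/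
theorem nl_small (f : ℝ → V) (hf : Continuous f) {K s1 : ℝ}
    (hb : ∀ s, s1 < s → ‖f s‖ ≤ K * Real.exp (-(s / 2))) :
    ∃ E0 : Lp V 2 (volume.restrict (Ioi s1)), ‖E0‖ ^ 2 ≤ K ^ 2 * Real.exp (-s1) ∧
      E0 =ᵐ[volume.restrict (Ioi s1)] f := by
  have hi : IntegrableOn (fun s => K ^ 2 * Real.exp (-s)) (Ioi s1) :=
    (integrableOn_exp_neg_Ioi s1).const_mul _
  have hb' : ∀ᵐ s ∂(volume.restrict (Ioi s1)), ‖f s‖ ^ 2 ≤ K ^ 2 * Real.exp (-s) := by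
    filter_upwards [ae_restrict_mem measurableSet_Ioi] with s hs
    have e : K ^ 2 * Real.exp (-s) = (K * Real.exp (-(s / 2))) ^ 2 := by
      rw [mul_pow, ← Real.exp_nat_mul]; congr 2; push_cast; ring
    rw [e]
    exact pow_le_pow_left₀ (norm_nonneg _) (hb s hs) 2
  have hm : MemLp f 2 (volume.restrict (Ioi s1)) := by
    rw [memLp_two_iff_integrable_sq_norm hf.aestronglyMeasurable]
    refine hi.mono' (hf.norm.pow 2).aestronglyMeasurable ?_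
    filter_upwards [hb'] with s hs
    rwa [Real.norm_of_nonneg (by positivity)]
  refine ⟨hm.toLp _, ?_, hm.coeFn_toLp⟩
  rw [nl_norm_sq_Lp]
  calc _ ≤ ∫ s in Ioi s1, K ^ 2 * Real.exp (-s) := by
        refine integral_mono_ae (nl_int_sq_Lp _ _) hi ?_
        filter_upwards [hb', hm.coeFn_toLp] with s hs hs'
        rw [hs']; exact hs
    _ = _ := by rw [integral_const_mul, integral_exp_neg_Ioi]

end Crest.Agent.R213
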