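import Crest.Agent.R213.IIneq
import Crest.Agent.R213.IEnergy

/-! # R213 / Nl2 : the classical curve and the size of the error term -/

set_option autoImplicit false

open MeasureTheory Set Filter Topology
open scoped ContDiff InnerProductSpace

namespace Crest.Agent.R213

theorem nl_ae_mem : ∀ᵐ x ∂ν, x ∈ Ioo (0 : ℝ) 1 := ae_restrict_mem measurableSet_Ioo

theorem nl_d0_add (u w : VV) : d0 (u + w) =ᵐ[ν] fun x => d0 u x + d0 w x := by
  have h := (d_add_smul u w 1).1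
  rw [one_smul] at h
  filter_upwards [h] with x hx
  rw [hx, one_mul]

theorem nl_d0_sub (u w : VV) : d0 (u - w) =ᵐ[ν] fun x => d0 u x - d0 w x := (d_sub u w).1

theorem nl_d0_smul (t : ℝ) (u : VV) : d0 (t • u) =ᵐ[ν] fun x => t * d0 u x := (d_smul u t).1

theorem nl_d0_neg (u : VV) : d0 (-u) =ᵐ[ν] fun x => -d0 u x := by
  have h := nl_d0_smul (-1) u
  rw [neg_one_smul] at h
  filter_upwards [h] with x hx
  rw [hx, neg_one_mul]

theorem nl_d0_mul (S : Sp) {p : ℝ → ℝ} {N : ℝ} (hp : Mult p N) (u : VV) :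
    d0 (S.mul p u) =ᵐ[ν] fun x => p x * d0 u x := (S.mul_eq p N hp u).1

theorem nl_d0_M (S : Sp) (h : L2) (u : VV) :
    d0 (S.M h u) =ᵐ[ν] fun x => xi h x / (x * (1 - x)) * d0 u x := by
  rw [S.M_eq]; exact nl_d0_mul S (S.M_mult h) u

theorem nl_d0_G (S : Sp) (h : L2) : d0 (S.T.G h) =ᵐ[ν] xi h := (S.G_rep h).d.1

theorem nl_slice {f : ℝ → ℝ → ℝ} (hf : ContDiff ℝ ∞ (Function.uncurry f)) (s : ℝ) :
    ContDiff ℝ ∞ (f s) :=
  hf.comp (contDiff_const.prodMk contDiff_id)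

theorem nl_mult_slice {f : ℝ → ℝ → ℝ} (hf : ContDiff ℝ ∞ (Function.uncurry f)) (s : ℝ) :
    ∃ N, Mult (f s) N :=
  mult_of_contDiff ((nl_slice hf s).of_le (by norm_cast))

theorem nl_Th_smooth (μ : ℝ) : ContDiff ℝ ∞ (Function.uncurry (Th μ)) := by
  have h : ∀ z : ℝ × ℝ, 1 + z.2 ^ 2 * Real.exp z.1 ≠ 0 := fun z => by positivity
  have : Function.uncurry (Th μ) =
      fun z : ℝ × ℝ => Real.exp (μ * z.1) * (1 / (1 + z.2 ^ 2 * Real.exp z.1)) + 1 := by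
    funext z; rfl
  rw [this]
  exact ((Real.contDiff_exp.comp (contDiff_const.mul contDiff_fst)).mul
    (contDiff_const.div (contDiff_const.add ((contDiff_snd.pow 2).mul
      (Real.contDiff_exp.comp contDiff_fst))) h)).add contDiff_const

theorem nl_Th_pos (μ s x : ℝ) : 0 < Th μ s x := by
  unfold Th wh; positivity

theorem nl_ginv_smooth (A : Apx) :
    ContDiff ℝ ∞ (Function.uncurry fun s x => 1 / A.g s x) :=
  contDiff_const.div A.smg fun z => (A.g_pos z.1 z.2).ne'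

theorem nl_g2_smooth (A : Apx) : ContDiff ℝ ∞ (Function.uncurry fun s x => A.g s x ^ 2) :=
  A.smg.pow 2

theorem nl_AC_nonneg (A : Apx) : 0 ≤ A.C :=
  (abs_nonneg _).trans (A.E_bd 0 le_rfl (1 / 2) (by norm_num)).1

/-- the classical curve. -/
structure Cv (S : Sp) (A : Apx) where
  w : ℝ → VV
  e : ℝ → VV
  Z : ℝ → VV
  e_cont : Continuous e
  w_rep : ∀ s, Rep (w s) (A.vt s)
  e_rep : ∀ s, Rep (e s) (A.E s)
  xi_w : ∀ s, EqOn (xi (S.T.ι (w s))) (A.xt s) (Ioo 0 1)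
  sol : ∀ s0 s1, IsSol S.T s0 s1 w Z (fun s => S.T.ι (w s))
  Z_d0 : ∀ s, d0 (Z s) =ᵐ[ν] fun x => Real.exp (-s) * (A.E s x - A.g s x ^ 2 * A.vt s x)

theorem nl_deriv2_congr {f g : ℝ → ℝ} (h : EqOn f g (Ioo 0 1)) {x : ℝ} (hx : x ∈ Ioo (0 : ℝ) 1) :
    deriv f x = deriv g x ∧ deriv (deriv f) x = deriv (deriv g) x := by
  have e : f =ᶠ[𝓝 x] g := eventuallyEq_of_mem (isOpen_Ioo.mem_nhds hx) h
  exact ⟨e.deriv_eq, e.deriv.deriv_eq⟩

theorem cv_exists (S : Sp) (A : Apx) : Nonempty (Cv S A) := by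
  obtain ⟨w, -, hw, -, wc, -, -⟩ := rep_family A.smvt (fun s => by rw [A.vt_eq]; simp)
    (fun s x hx => (A.far s x hx).2.2.2.2)
  obtain ⟨e, -, he, -, ec, -, -⟩ := rep_family A.smE (fun s => A.E_near s 0 (by norm_num))
    (fun s x hx => (A.far s x hx).2.2.1)
  obtain ⟨y, y', hy, hy', -, yc', yd⟩ := rep_family A.smxt (fun s => by rw [A.xt_eq]; simp)
    (fun s x hx => (A.far s x hx).2.2.2.1)
  have hG : ∀ s, S.T.G (S.T.ι (w s)) = y s := by
    intro s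
    refine S.G_of_rep ((nl_slice A.smxt s).of_le (by norm_cast)).contDiffOn (hy s) ?_
    filter_upwards [S.ι_eq (w s), (hw s).d.1, nl_ae_mem] with x a b hx
    rw [a, b, A.vt_eq, (nl_deriv2_congr (fun z hz => A.st_eq s z hz) hx).2]
  refine ⟨⟨w, e, y', ec, hw, he, fun s => S.xi_eq_of_G
    (nl_slice A.smxt s).continuous.continuousOn (hy s) (hG s), fun s0 s1 => ?_, fun s => ?_⟩⟩
  · refine IsSol.of_hasDerivAt S.T wc yc' fun s => ?_
    simp only [hG]; exact yd s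
  · filter_upwards [(hy' s).d.1, nl_ae_mem] with x a hx
    rw [a, (A.flow s x hx).deriv]

theorem Cv.w_le {S : Sp} {A : Apx} (c : Cv S A) {s : ℝ} (hs : 0 ≤ s) :
    ‖c.w s‖ ≤ 5 * (A.C * Real.exp s) :=
  norm_le_of_rep (c.w_rep s) (fun x hx => (A.far s x hx).2.2.2.2) (A.vt_bd s hs)

theorem Cv.e_le {S : Sp} {A : Apx} (c : Cv S A) {s : ℝ} (hs : 0 ≤ s) :
    ‖c.e s‖ ≤ 5 * (4 * A.C) := by
  have h0 := nl_AC_nonneg A
  refine norm_le_of_rep (c.e_rep s) (fun x hx => (A.far s x hx).2.2.1) fun x hx => ?_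
  obtain ⟨a, b, d⟩ := A.E_bd s hs x hx
  refine ⟨?_, by linarith, ?_⟩
  · by_cases h : x ≤ 1 / 4
    · rw [A.E_near s x ⟨hx.1.le, h⟩, abs_zero]
      have := hx.1
      positivity
    · nlinarith [not_le.1 h]
  · rw [abs_mul, abs_of_pos hx.1]
    nlinarith [hx.1, hx.2, abs_nonneg (deriv (deriv (A.E s)) x)]

theorem Cv.ell_w {S : Sp} {A : Apx} (c : Cv S A) (s : ℝ) :
    S.ell (c.w s) = 110 - A.a * Real.exp (s / 2) := by
  rw [← A.st_zero]
  refine tendsto_nhds_unique (S.ell_eq (c.w s)) ?_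
  have t : Tendsto (A.st s) (𝓝[>] 0) (𝓝 (A.st s 0)) :=
    ((nl_slice A.smst s).continuous.tendsto 0).mono_left nhdsWithin_le_nhds
  refine t.congr' ?_
  filter_upwards [Ioo_mem_nhdsGT (show (0 : ℝ) < 1 by norm_num)] with x hx
  rw [A.st_eq s x hx, ← C0_xi _ hx]
  obtain ⟨a, b⟩ := nl_deriv2_congr (c.xi_w s) hx
  unfold C0
  rw [a, b, c.xi_w s hx]

/-- the weighted error term is bounded. -/
theorem Cv.Th_e_le {S : Sp} {A : Apx} (c : Cv S A) {μ : ℝ} (hμ : μ ≤ 1) :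
    ∃ K, ∀ s, 0 ≤ s → ‖S.mul (Th μ s) (c.e s)‖ ≤ K := by
  set ρ : ℝ → ℝ := fun x => 1 / (x ^ 2 + expNegInvGlue (1 / 4 - x)) with hρ
  have hρs : ContDiff ℝ 2 ρ := by
    refine contDiff_const.div ((contDiff_id.pow 2).add
      (expNegInvGlue.contDiff.comp (contDiff_const.sub contDiff_id))) fun x => ?_
    by_cases h : x < 1 / 4
    · have := expNegInvGlue.pos_of_pos (sub_pos.2 h)
      positivity
    · have h1 : 0 < x := by linarith [not_lt.1 h]
      have := expNegInvGlue.nonneg (1 / 4 - x)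
      positivity
  obtain ⟨N, hN⟩ := mult_of_contDiff hρs
  have hN0 : 0 ≤ N := (abs_nonneg _).trans (hN.b0 (1 / 2) (by norm_num))
  have h0 := nl_AC_nonneg A
  refine ⟨(4 * (|(1 : ℝ)| + |(-1 : ℝ)| * 6) * (4 * N) + 1) * (5 * (4 * A.C)), fun s hs => ?_⟩
  have m1 : Mult (fun x => (fun _ => (1 : ℝ)) x + (fun x => (-1 : ℝ) * wh s x) x)
      (|(1 : ℝ)| + |(-1 : ℝ)| * 6) := (Mult.const 1).add ((mult_wh s).const_mul (-1))
  obtain ⟨N', hN'⟩ := nl_mult_slice (nl_Th_smooth μ) s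
  have e : S.mul (Th μ s) (c.e s) = Real.exp ((μ - 1) * s) •
      S.mul (fun x => (fun _ => (1 : ℝ)) x + (fun x => (-1 : ℝ) * wh s x) x) (S.mul ρ (c.e s)) +
        c.e s := by
    refine ext_d0 ?_
    filter_upwards [nl_d0_mul S hN' (c.e s), nl_d0_add (Real.exp ((μ - 1) * s) •
      S.mul (fun x => (fun _ => (1 : ℝ)) x + (fun x => (-1 : ℝ) * wh s x) x) (S.mul ρ (c.e s)))
      (c.e s), nl_d0_smul (Real.exp ((μ - 1) * s))
      (S.mul (fun x => (fun _ => (1 : ℝ)) x + (fun x => (-1 : ℝ) * wh s x) x) (S.mul ρ (c.e s))),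
      nl_d0_mul S m1 (S.mul ρ (c.e s)), nl_d0_mul S hN (c.e s), (c.e_rep s).d.1, nl_ae_mem]
      with x a1 a2 a3 a4 a5 a6 hx
    rw [a1, a2, a3, a4, a5, a6]
    by_cases h : x ≤ 1 / 4
    · rw [A.E_near s x ⟨hx.1.le, h⟩]; simp
    · have g0 : expNegInvGlue (1 / 4 - x) = 0 :=
        expNegInvGlue.zero_of_nonpos (by linarith [not_le.1 h])
      have ex : Real.exp (μ * s) = Real.exp ((μ - 1) * s) * Real.exp s := by
        rw [← Real.exp_add]; congr 1; ring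
      have hx0 : x ≠ 0 := hx.1.ne'
      have hd : 1 + x ^ 2 * Real.exp s ≠ 0 := by positivity
      simp only [hρ, g0, Th, wh, ex]
      field_simp
      ring
  rw [e]
  have b0 := c.e_le hs
  have b1 : ‖S.mul ρ (c.e s)‖ ≤ 4 * N * (5 * (4 * A.C)) :=
    ((S.mul ρ).le_opNorm _).trans (mul_le_mul (S.mul_le _ _ hN) b0 (norm_nonneg _) (by positivity))
  have b2 := ((S.mul _).le_opNorm (S.mul ρ (c.e s))).trans
    (mul_le_mul (S.mul_le _ _ m1) b1 (norm_nonneg _) (by positivity))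
  have b3 : Real.exp ((μ - 1) * s) ≤ 1 := Real.exp_le_one_iff.2 (by nlinarith)
  refine (norm_add_le _ _).trans ?_
  rw [norm_smul, Real.norm_of_nonneg (Real.exp_pos _).le]
  have b4 := mul_le_mul b3 b2 (norm_nonneg _) zero_le_one
  nlinarith

end Crest.Agent.R213
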