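import Crest.Agent.R213.ShSys

/-!
# R213 / ShAsy : decay of all derivatives
-/

set_option autoImplicit false

open Set Filter Topology
open scoped ContDiff

noncomputable section

namespace Crest.Agent.R213.Sh

/-- `θ^i g = O(y^{-2})` for `i ≤ j` -/
def SS (j : ℕ) (g : ℝ → ℝ) : Prop :=
  ContDiffOn ℝ ∞ g (Ioi 0) ∧ ∀ i ≤ j, ∃ C, ∀ y, 125 ≤ y → |th^[i] g y| * y ^ 2 ≤ C
/-- `θ^i g = O(1)` for `i ≤ j` -/
def TT (j : ℕ) (g : ℝ → ℝ) : Prop :=
  ContDiffOn ℝ ∞ g (Ioi 0) ∧ ∀ i ≤ j, ∃ C, ∀ y, 125 ≤ y → |th^[i] g y| ≤ C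

abbrev Sm (g : ℝ → ℝ) : Prop := ContDiffOn ℝ ∞ g (Ioi 0)

theorem Sm.hasDerivAt {g : ℝ → ℝ} (h : Sm g) {y : ℝ} (hy : 0 < y) : HasDerivAt g (deriv g y) y :=
  ((h.contDiffAt (Ioi_mem_nhds hy)).differentiableAt (by simp)).hasDerivAt

theorem Sm.hasDerivAt_th {g : ℝ → ℝ} (h : Sm g) {y : ℝ} (hy : 0 < y) : HasDerivAt g (th g y / y) y := by
  have := h.hasDerivAt hy
  have e : th g y / y = deriv g y := by simp only [th]; field_simp
  rw [e]; exact this

theorem Sm.th {g : ℝ → ℝ} (h : Sm g) : Sm (th g) :=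
  contDiffOn_id.mul (h.deriv_of_isOpen isOpen_Ioi (by simp))

theorem Sm.iter {g : ℝ → ℝ} (h : Sm g) (i : ℕ) : Sm (Sh.th^[i] g) := by
  induction i with
  | zero => exact h
  | succ i ih => rw [Function.iterate_succ_apply']; exact ih.th

theorem th_of_hasDerivAt {f g : ℝ → ℝ} {d y : ℝ} (h : EqOn f g (Ioi 0)) (hy : 0 < y) (hd : HasDerivAt g d y) :
    th f y = y * d := by
  have e : f =ᶠ[𝓝 y] g := by
    filter_upwards [Ioi_mem_nhds hy] with t ht using h ht
  simp only [th]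
  rw [e.deriv_eq, hd.deriv]

theorem th_congr {f g : ℝ → ℝ} (h : EqOn f g (Ioi 0)) : EqOn (th f) (th g) (Ioi 0) := by
  intro y hy
  have e : f =ᶠ[𝓝 y] g := by
    filter_upwards [Ioi_mem_nhds hy] with t ht using h ht
  simp only [th]
  rw [e.deriv_eq]

/-- `g = O(y^{-k})` -/
def Bd (k : ℕ) (g : ℝ → ℝ) : Prop := ∃ C, ∀ y, 125 ≤ y → |g y| * y ^ k ≤ C

theorem Bd.congr {k : ℕ} {f g : ℝ → ℝ} (h : EqOn f g (Ioi 0)) (hf : Bd k f) : Bd k g := by
  obtain ⟨C, hC⟩ := hf
  refine ⟨C, fun y hy => ?_⟩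
  rw [← h (show (0 : ℝ) < y by linarith)]; exact hC y hy

theorem Bd.add {k : ℕ} {f g : ℝ → ℝ} (hf : Bd k f) (hg : Bd k g) : Bd k (fun y => f y + g y) := by
  obtain ⟨C, hC⟩ := hf
  obtain ⟨D, hD⟩ := hg
  refine ⟨C + D, fun y hy => ?_⟩
  have h1 := mul_le_mul_of_nonneg_right (abs_add_le (f y) (g y)) (show 0 ≤ y ^ k by positivity)
  have h2 := hC y hy
  have h3 := hD y hy
  linarith

theorem Bd.mul {k l : ℕ} {f g : ℝ → ℝ} (hf : Bd k f) (hg : Bd l g) : Bd (k + l) (fun y => f y * g y) := by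
  obtain ⟨C, hC⟩ := hf
  obtain ⟨D, hD⟩ := hg
  refine ⟨C * D, fun y hy => ?_⟩
  have h2 := hC y hy
  have h3 := hD y hy
  have h0 : 0 ≤ y := by linarith
  calc |f y * g y| * y ^ (k + l) = (|f y| * y ^ k) * (|g y| * y ^ l) := by rw [abs_mul]; ring
    _ ≤ C * D := mul_le_mul h2 h3 (by positivity) (le_trans (by positivity) h2)

theorem Bd.const (c : ℝ) : Bd 0 (fun _ => c) := ⟨|c|, fun y _ => by simp⟩

theorem Bd.weak {k : ℕ} {f : ℝ → ℝ} (hf : Bd k f) : Bd 0 f := by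
  obtain ⟨C, hC⟩ := hf
  refine ⟨C, fun y hy => le_trans ?_ (hC y hy)⟩
  exact mul_le_mul_of_nonneg_left (pow_le_pow_right₀ (by linarith) (Nat.zero_le _)) (abs_nonneg _)

theorem Bd.smul {k : ℕ} {f : ℝ → ℝ} (hf : Bd k f) (c : ℝ) : Bd k (fun y => c * f y) := by
  have := (Bd.const c).mul hf
  rwa [zero_add] at this

/-- `θ^i g = O(y^{-k})` for `i < j` -/
def BB (k : ℕ) : ℕ → (ℝ → ℝ) → Prop
  | 0, g => Sm g
  | j + 1, g => Sm g ∧ Bd k g ∧ BB k j (th g)

theorem BB.sm {k j : ℕ} {g : ℝ → ℝ} (h : BB k j g) : Sm g := by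
  cases j with
  | zero => exact h
  | succ j => exact h.1

theorem BB.congr {k j : ℕ} {f g : ℝ → ℝ} (h : EqOn f g (Ioi 0)) (hf : BB k j f) : BB k j g := by
  induction j generalizing f g with
  | zero => exact ContDiffOn.congr hf (fun y hy => (h hy).symm)
  | succ j ih =>
    exact ⟨ContDiffOn.congr hf.1 (fun y hy => (h hy).symm), hf.2.1.congr h, ih (th_congr h) hf.2.2⟩

theorem BB.mono {k j : ℕ} {g : ℝ → ℝ} (h : BB k (j + 1) g) : BB k j g := by
  induction j generalizing g with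
  | zero => exact h.1
  | succ j ih => exact ⟨h.1, h.2.1, ih h.2.2⟩

theorem BB.mono' {k j j' : ℕ} {g : ℝ → ℝ} (h : BB k j g) (hj : j' ≤ j) : BB k j' g := by
  induction hj with
  | refl => exact h
  | step _ ih => exact ih h.mono

theorem BB.weak {k j : ℕ} {g : ℝ → ℝ} (h : BB k j g) : BB 0 j g := by
  induction j generalizing g with
  | zero => exact h
  | succ j ih => exact ⟨h.1, h.2.1.weak, ih h.2.2⟩

theorem BB.add {k j : ℕ} {f g : ℝ → ℝ} (hf : BB k j f) (hg : BB k j g) :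
    BB k j (fun y => f y + g y) := by
  induction j generalizing f g with
  | zero => exact ContDiffOn.add hf hg
  | succ j ih =>
    refine ⟨hf.1.add hg.1, hf.2.1.add hg.2.1, (ih hf.2.2 hg.2.2).congr fun y hy => ?_⟩
    rw [th_of_hasDerivAt (fun _ _ => rfl) hy ((hf.1.hasDerivAt hy).fun_add (hg.1.hasDerivAt hy))]
    simp only [th]; ring

theorem BB.mul {k l j : ℕ} {f g : ℝ → ℝ} (hf : BB k j f) (hg : BB l j g) :
    BB (k + l) j (fun y => f y * g y) := by
  induction j generalizing f g with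
  | zero => exact ContDiffOn.mul hf hg
  | succ j ih =>
    refine ⟨hf.1.mul hg.1, hf.2.1.mul hg.2.1,
      ((ih hf.2.2 hg.mono).add (ih hf.mono hg.2.2)).congr fun y hy => ?_⟩
    rw [th_of_hasDerivAt (fun _ _ => rfl) hy ((hf.1.hasDerivAt hy).fun_mul (hg.1.hasDerivAt hy))]
    simp only [th]; ring

theorem BB.const (j : ℕ) (c : ℝ) : BB 0 j (fun _ => c) := by
  induction j generalizing c with
  | zero => exact contDiffOn_const
  | succ j ih =>
    refine ⟨contDiffOn_const, Bd.const c, (ih 0).congr fun y _ => ?_⟩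
    simp [th]

theorem BB.smul {k j : ℕ} {f : ℝ → ℝ} (hf : BB k j f) (c : ℝ) : BB k j (fun y => c * f y) := by
  have := (BB.const j c).mul hf
  rwa [zero_add] at this

theorem BB.inv {j : ℕ} {G : ℝ → ℝ} (h : BB 0 j G) (hpos : ∀ y, 0 < y → 0 < G y)
    (hbd : ∀ y, 125 ≤ y → 709 / 1000 ≤ G y) : BB 0 j (fun y => (G y)⁻¹) := by
  have hs : Sm (fun y => (G y)⁻¹) := h.sm.inv fun y hy => (hpos y hy).ne'
  induction j with
  | zero => exact hs
  | succ j ih =>
    have h1 := ih h.mono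
    refine ⟨hs, ⟨2, fun y hy => ?_⟩, ((((h1.mul h1).mul h.2.2)).smul (-1)).congr fun y hy => ?_⟩
    · have h2 := hbd y hy
      have h3 : 0 < G y := by linarith
      rw [pow_zero, mul_one, abs_of_pos (inv_pos.2 h3), inv_le_comm₀ h3 two_pos]
      linarith
    · rw [th_of_hasDerivAt (fun _ _ => rfl) hy ((h.1.hasDerivAt hy).fun_inv (hpos y hy).ne')]
      simp only [th]
      have := (hpos y hy).ne'
      field_simp

theorem BB.iter {k n j : ℕ} {g : ℝ → ℝ} (h : BB k (n + j) g) : BB k n (th^[j] g) := by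
  induction j generalizing g with
  | zero => exact h
  | succ j ih => rw [Function.iterate_succ_apply]; exact ih h.2.2

theorem BB.bd {k j i : ℕ} {g : ℝ → ℝ} (h : BB k j g) (hi : i < j) : Bd k (th^[i] g) :=
  (BB.iter (n := 1) (h.mono' (by omega))).2.1

theorem BB.snoc {k j : ℕ} {g : ℝ → ℝ} (h : BB k j g) (hb : Bd k (th^[j] g)) : BB k (j + 1) g := by
  induction j generalizing g with
  | zero => exact ⟨h, hb, Sm.th h⟩
  | succ j ih => exact ⟨h.1, h.2.1, ih h.2.2 (by rwa [Function.iterate_succ_apply] at hb)⟩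

/-- `g = O(y²)` -/
def Bq (g : ℝ → ℝ) : Prop := ∃ C, ∀ y, 125 ≤ y → |g y| ≤ C * y ^ 2

theorem Bq.congr {f g : ℝ → ℝ} (h : EqOn f g (Ioi 0)) (hf : Bq f) : Bq g := by
  obtain ⟨C, hC⟩ := hf
  refine ⟨C, fun y hy => ?_⟩
  rw [← h (show (0 : ℝ) < y by linarith)]; exact hC y hy

theorem Bq.add {f g : ℝ → ℝ} (hf : Bq f) (hg : Bq g) : Bq (fun y => f y + g y) := by
  obtain ⟨C, hC⟩ := hf
  obtain ⟨D, hD⟩ := hg
  refine ⟨C + D, fun y hy => ?_⟩
  have h1 := abs_add_le (f y) (g y)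
  have h2 := hC y hy
  have h3 := hD y hy
  linarith

theorem Bq.smul {f : ℝ → ℝ} (hf : Bq f) (c : ℝ) : Bq (fun y => c * f y) := by
  obtain ⟨C, hC⟩ := hf
  refine ⟨|c| * C, fun y hy => ?_⟩
  rw [abs_mul, mul_assoc]
  exact mul_le_mul_of_nonneg_left (hC y hy) (abs_nonneg _)

theorem Bd.sq_mul {f : ℝ → ℝ} (hf : Bd 0 f) : Bq (fun y => y ^ 2 * f y) := by
  obtain ⟨C, hC⟩ := hf
  refine ⟨C, fun y hy => ?_⟩
  have := hC y hy
  rw [pow_zero, mul_one] at this
  rw [abs_mul, abs_of_nonneg (sq_nonneg y), mul_comm]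
  exact mul_le_mul_of_nonneg_right this (sq_nonneg y)

theorem Bd.bq {f : ℝ → ℝ} (hf : Bd 0 f) : Bq f := by
  obtain ⟨C, hC⟩ := hf
  refine ⟨C, fun y hy => ?_⟩
  have := hC y hy
  rw [pow_zero, mul_one] at this
  have h1 : 1 ≤ y ^ 2 := by nlinarith
  have h2 : 0 ≤ C := (abs_nonneg _).trans this
  nlinarith

/-- the operator `D` -/
def DD (u : ℝ → ℝ) (y : ℝ) : ℝ := th (th (th u)) y + 18 * th (th u) y + 71 * th u y - 90 * u y

theorem wl' {u κ e : ℝ → ℝ} (hu : Sm u) (hode : ∀ y, 0 < y → DD u y = y ^ 2 * (-κ y * u y + e y))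
    (hκ : ∀ y, 125 ≤ y → 97 / 100 ≤ κ y ∧ κ y ≤ 1) (he : Bd 2 e) (h0 : Bq u) (h1 : Bq (th u))
    (h2 : Bq (th (th u))) : Bd 2 u ∧ Bd 0 (th u) ∧ Bd 0 (th (th u)) := by
  obtain ⟨Ce, hCe⟩ := he
  obtain ⟨C0, hC0⟩ := h0
  obtain ⟨C1, hC1⟩ := h1.add (Bq.smul ⟨C0, hC0⟩ 10)
  obtain ⟨C2, hC2⟩ := (h2.add (h1.smul 19)).add (Bq.smul ⟨C0, hC0⟩ 90)
  obtain ⟨C', hC'⟩ := wl (v0 := u) (v1 := fun y => th u y + 10 * u y)
    (v2 := fun y => th (th u) y + 19 * th u y + 90 * u y) (κ := κ) (e := e)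
    (C := max (max Ce C0) (max C1 C2))
    (fun y hy => by
      have hy0 : 0 < y := by linarith
      have := hu.hasDerivAt_th hy0
      rwa [add_sub_cancel_right])
    (fun y hy => by
      have hy0 : 0 < y := by linarith
      have := (hu.th.hasDerivAt_th hy0).fun_add ((hu.hasDerivAt_th hy0).const_mul 10)
      refine this.congr_deriv ?_
      ring)
    (fun y hy => by
      have hy0 : 0 < y := by linarith
      have := ((hu.th.th.hasDerivAt_th hy0).fun_add ((hu.th.hasDerivAt_th hy0).const_mul 19)).fun_add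
        ((hu.hasDerivAt_th hy0).const_mul 90)
      refine this.congr_deriv ?_
      rw [← hode y hy0]
      simp only [DD]
      ring)
    hκ (fun y hy => (hCe y hy).trans ((le_max_left _ _).trans (le_max_left _ _)))
    (fun y hy => ⟨(hC0 y hy).trans (mul_le_mul_of_nonneg_right
        ((le_max_right _ _).trans (le_max_left _ _)) (sq_nonneg y)),
      (hC1 y hy).trans (mul_le_mul_of_nonneg_right
        ((le_max_left _ _).trans (le_max_right _ _)) (sq_nonneg y)),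
      (hC2 y hy).trans (mul_le_mul_of_nonneg_right
        ((le_max_right _ _).trans (le_max_right _ _)) (sq_nonneg y))⟩)
  have a0 : Bd 2 u := ⟨C', fun y hy => (hC' y hy).1⟩
  have a1 : Bd 0 (fun y => th u y + 10 * u y) := ⟨C', fun y hy => by simpa using (hC' y hy).2.1⟩
  have a2 : Bd 0 (fun y => th (th u) y + 19 * th u y + 90 * u y) :=
    ⟨C', fun y hy => by simpa using (hC' y hy).2.2⟩
  have b1 : Bd 0 (th u) := (a1.add (a0.weak.smul (-10))).congr fun y _ => by simp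
  exact ⟨a0, b1, ((a2.add (b1.smul (-19))).add (a0.weak.smul (-90))).congr fun y _ => by
    ring⟩

theorem DD_th {u r : ℝ → ℝ} (hu : Sm u) (hr : Sm r) {K : ℝ} (h : ∀ y, 0 < y → DD u y = y ^ 2 * r y + K)
    {y : ℝ} (hy : 0 < y) : DD (th u) y = y ^ 2 * (2 * r y + th r y) := by
  have h1 := th_of_hasDerivAt (f := DD u) (fun _ _ => rfl) hy
    ((((hu.th.th.th.hasDerivAt hy).fun_add ((hu.th.th.hasDerivAt hy).const_mul 18)).fun_add
      ((hu.th.hasDerivAt hy).const_mul 71)).fun_sub ((hu.hasDerivAt hy).const_mul 90))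
  have h2 := th_of_hasDerivAt (f := DD u) (fun t ht => h t ht) hy
    (((hasDerivAt_pow 2 y).fun_mul (hr.hasDerivAt hy)).add_const K)
  have e : DD (th u) y = y * (deriv (th (th (th u))) y + 18 * deriv (th (th u)) y + 71 * deriv (th u) y -
      90 * deriv u y) := by
    show y * deriv (th (th (th u))) y + 18 * (y * deriv (th (th u)) y) + 71 * (y * deriv (th u) y) -
      90 * (y * deriv u y) = _
    ring
  rw [e, ← h1, h2]
  simp only [th]
  norm_num
  ring

/-- Let `v = G - 1/(2c)`, `κ = 1/(2G²)`, `F = 1/(2G) - c = -c v/G`, `D = θ³ + 18θ² + 71θ - 90 = (θ-1)(θ+9)(θ+10)`.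
On `Ioi 0`: `D v = y² F + 90 (1/(2c) - 1)`, `θ F = -κ θ v`, `θ (y² g) = y² (θ+2) g`, so `D θ^j v = y² (θ+2)^j F` for `j ≥ 1`.
Induction on `j` for the statement `A j`: `θ^j v = O(y^-2)`, `θ^{j+1} v, θ^{j+2} v = O(1)`.
`A 0`: `wl` with `v0 = v`, `v1 = (θ+10)v`, `v2 = (θ+9)v1`, `κ = c/G`, `e = 90(1/(2c) - 1)/y²`.
`A (j+1)` from `A 0 … A j`: `v ∈ SS j`, so `G, 1/G, κ ∈ TT j` (`θ(1/G) = -(1/G)² θG`, `TT` is closed under products),
`F ∈ SS j`, `θ^{j+1} F = -θ^j(κ θv) = -κ θ^{j+1} v + O(y^-2)` (Leibniz: `κ ∈ TT j`, `θ v ∈ SS (j-1)`), and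
`θ^{j+3} v = D θ^j v - 18θ^{j+2} v - 71 θ^{j+1} v + 90 θ^j v = O(1)` [`θ^j F = O(y^-2)`]; apply `wl` to `v0 = θ^{j+1} v`.
Finally `d_k = y^k v^{(k)}` satisfies `d_{k+1} = θ d_k - k d_k`, so `d_k ∈ SS j` for all `j`. -/
theorem asy {G : ℝ → ℝ} (hG : ContDiff ℝ ∞ G) {c C : ℝ} (hc : 7 / 10 ≤ c ∧ c ≤ 701 / 1000)
    (hpos : ∀ y, 0 < y → 0 < G y)
    (hbd : ∀ y, 125 ≤ y → 709 / 1000 ≤ G y ∧ G y ≤ 717 / 1000)
    (hode : ∀ y, 0 < y → th (th (th G)) y + 18 * th (th G) y + 71 * th G y - 90 * (G y - 1) =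
      y ^ 2 * (1 / (2 * G y) - c))
    (hb : ∀ y, 125 ≤ y → |th G y| ≤ C * y ^ 2 ∧ |th (th G) y| ≤ C * y ^ 2) (j : ℕ) (hj : 1 ≤ j) :
    ∃ C', ∀ y, 125 ≤ y → |iteratedDeriv j G y| * y ^ (j + 2) ≤ C' := by
  have hc0 : 0 < c := by linarith [hc.1]
  obtain ⟨v, hv⟩ : ∃ v : ℝ → ℝ, v = fun y => G y - 1 / (2 * c) := ⟨_, rfl⟩
  have hGs : Sm G := hG.contDiffOn
  have hvs : Sm v := by rw [hv]; exact hGs.sub contDiffOn_const
  have htv : th v = th G := by
    funext y; simp only [th, hv]; rw [deriv_sub_const]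
  have hGi : Sm (fun y => (G y)⁻¹) := hGs.inv fun y hy => (hpos y hy).ne'
  have hGv : ∀ n, BB 2 n v → BB 0 n (fun y => (G y)⁻¹) := fun n hn =>
    BB.inv ((hn.weak.add (BB.const n (1 / (2 * c)))).congr fun y _ => by simp [hv]) hpos
      fun y hy => (hbd y hy).1
  obtain ⟨κ, hκ⟩ : ∃ κ : ℝ → ℝ, κ = fun y => 1 / 2 * ((G y)⁻¹ * (G y)⁻¹) := ⟨_, rfl⟩
  have hκs : Sm κ := by rw [hκ]; exact contDiffOn_const.mul (hGi.mul hGi)
  have hκv : ∀ n, BB 2 n v → BB 0 n κ := fun n hn => by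
    rw [hκ]; exact ((hGv n hn).mul (hGv n hn)).smul _
  have hκb : ∀ y, 125 ≤ y → 97 / 100 ≤ κ y ∧ κ y ≤ 1 := by
    intro y hy
    obtain ⟨h1, h2⟩ := hbd y hy
    have h3 : 0 < G y := by linarith
    have e : κ y = 1 / (2 * (G y * G y)) := by rw [hκ]; field_simp
    rw [e, le_div_iff₀ (by positivity), div_le_iff₀ (by positivity)]
    constructor <;> nlinarith
  obtain ⟨F, hF⟩ : ∃ F : ℝ → ℝ, F = fun y => -c * (v y * (G y)⁻¹) := ⟨_, rfl⟩
  have hFs : Sm F := by rw [hF]; exact contDiffOn_const.mul (hvs.mul hGi)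
  have hFe : ∀ y, 0 < y → F y = 1 / 2 * (G y)⁻¹ - c := by
    intro y hy
    have := (hpos y hy).ne'
    simp only [hF, hv]; field_simp; ring
  have hD0 : ∀ y, 0 < y → DD v y = y ^ 2 * F y + 90 * (1 / (2 * c) - 1) := by
    intro y hy
    have h1 := hode y hy
    have h2 : 1 / (2 * G y) = 1 / 2 * (G y)⁻¹ := by field_simp
    rw [h2, ← hFe y hy] at h1
    simp only [DD, htv]
    rw [← h1, hv]; ring
  have hE : ∀ j, ∃ e, Sm e ∧ (∀ y, 0 < y → DD (th^[j + 1] v) y = y ^ 2 * (-κ y * th^[j + 1] v y + e y)) ∧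
      ∀ n, BB 2 (n + j) v → BB 2 n e := by
    intro j
    induction j with
    | zero =>
      refine ⟨fun y => 2 * F y, contDiffOn_const.mul hFs, fun y hy => ?_, fun n hn => ?_⟩
      · have h1 := DD_th hvs hFs hD0 hy
        have h2 := th_of_hasDerivAt (f := F) (fun t ht => hFe t ht) hy
          ((((hGs.hasDerivAt hy).fun_inv (hpos y hy).ne').const_mul (1 / 2)).sub_const c)
        show DD (th v) y = y ^ 2 * (-κ y * th v y + 2 * F y)
        rw [h1, h2, htv, hκ]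
        simp only [th]
        have := (hpos y hy).ne'
        field_simp
        ring
      · rw [hF]; exact ((BB.mul hn (hGv n hn)).smul _).smul _
    | succ j ih =>
      obtain ⟨e, hes, hde, hbe⟩ := ih
      have hus := hvs.iter (j + 1)
      generalize hu : th^[j + 1] v = u at hde hus
      have hu' : th^[j + 1 + 1] v = th u := by rw [Function.iterate_succ_apply', hu]
      have hrs : Sm (fun y => -κ y * u y + e y) := (hκs.neg.mul hus).add hes
      refine ⟨fun y => 2 * ((-1) * (u y * κ y) + e y) + (-1) * (u y * th κ y) + th e y,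
        ((contDiffOn_const.mul ((contDiffOn_const.mul (hus.mul hκs)).add hes)).add
          (contDiffOn_const.mul (hus.mul hκs.th))).add hes.th, fun y hy => ?_, fun n hn => ?_⟩
      · have h1 := DD_th hus hrs (K := 0) (fun y hy => by rw [add_zero]; exact hde y hy) hy
        have h2 := th_of_hasDerivAt (f := fun y => -κ y * u y + e y) (fun _ _ => rfl) hy
          (((hκs.hasDerivAt hy).fun_neg.fun_mul (hus.hasDerivAt hy)).fun_add (hes.hasDerivAt hy))
        rw [hu', h1, h2]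
        simp only [th]
        ring
      · have a1 : BB 2 n u := by rw [← hu]; exact hn.iter
        have a2 : BB 2 (n + 1) e := hbe (n + 1) (by rwa [show n + 1 + j = n + (j + 1) by ring])
        have a3 : BB 0 (n + 1) κ := hκv _ (hn.mono' (by omega))
        exact ((((((BB.mul a1 a3.mono).smul _).add a2.mono).smul _)).add
          ((BB.mul a1 a3.2.2).smul _)).add a2.2.2
  have hv0 : Bd 0 v := by
    refine ⟨1 + |1 / (2 * c)|, fun y hy => ?_⟩
    obtain ⟨h1, h2⟩ := hbd y hy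
    rw [pow_zero, mul_one, hv]
    refine (abs_sub _ _).trans ?_
    rw [abs_of_pos (show 0 < G y by linarith)]; linarith
  have hDq : ∀ j, BB 2 (j + 1) v → Bq (DD (th^[j] v)) := by
    intro j hj
    cases j with
    | zero =>
      have h1 : BB 2 1 F := by rw [hF]; exact (BB.mul hj (hGv 1 hj)).smul _
      exact (h1.2.1.weak.sq_mul.add (Bd.const (90 * (1 / (2 * c) - 1))).bq).congr
        fun y hy => (hD0 y hy).symm
    | succ j =>
      obtain ⟨e, hes, hde, hbe⟩ := hE j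
      have a1 : Bd 0 e := (hbe 1 (hj.mono' (by omega))).2.1.weak
      have a2 : Bd 0 (th^[j + 1] v) := (hj.bd (by omega)).weak
      have a3 : Bd 0 κ := (hκv 1 (hj.mono' (by omega))).2.1
      refine (((a3.mul a2).smul (-1)).add a1).sq_mul.congr fun y hy => ?_
      rw [hde y hy]; ring
  have hP : ∀ j, BB 2 (j + 1) v ∧ BB 0 (j + 3) v := by
    intro j
    induction j with
    | zero =>
      obtain ⟨b0, b1, b2⟩ := wl' (u := v) (κ := fun y => c * (G y)⁻¹)
        (e := fun y => 90 * (1 / (2 * c) - 1) / y ^ 2) hvs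
        (fun y hy => by
          rw [hD0 y hy, hF]
          have := hy.ne'
          field_simp)
        (fun y hy => by
          obtain ⟨h1, h2⟩ := hbd y hy
          have h3 : 0 < G y := by linarith
          rw [← div_eq_mul_inv, le_div_iff₀ h3, div_le_iff₀ h3]
          constructor <;> linarith [hc.1, hc.2])
        ⟨|90 * (1 / (2 * c) - 1)|, fun y hy => by
          have h3 : 0 < y ^ 2 := by have : 0 < y := by linarith
                                    positivity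
          rw [abs_div, abs_of_pos h3, div_mul_cancel₀ _ h3.ne']⟩
        hv0.bq (by rw [htv]; exact ⟨C, fun y hy => (hb y hy).1⟩)
        (by rw [htv]; exact ⟨C, fun y hy => (hb y hy).2⟩)
      exact ⟨⟨hvs, b0, hvs.th⟩, ⟨hvs, hv0, hvs.th, b1, hvs.th.th, b2, hvs.th.th.th⟩⟩
    | succ j ih =>
      obtain ⟨e, hes, hde, hbe⟩ := hE j
      have a0 : Bd 0 (th^[j] v) := ih.2.bd (by omega)
      have a1 : Bd 0 (th^[j + 1] v) := ih.2.bd (by omega)
      have a2 : Bd 0 (th^[j + 2] v) := ih.2.bd (by omega)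
      have e1 : th^[j + 1] v = th (th^[j] v) := Function.iterate_succ_apply' _ _ _
      have e2 : th^[j + 2] v = th (th^[j + 1] v) := Function.iterate_succ_apply' _ _ _
      have e3 : th^[j + 3] v = th (th^[j + 2] v) := Function.iterate_succ_apply' _ _ _
      obtain ⟨b0, b1, b2⟩ := wl' (hvs.iter (j + 1)) hde hκb
        (hbe 1 (ih.1.mono' (by omega))).2.1 a1.bq (by rw [← e2]; exact a2.bq)
        (((((hDq j ih.1).add (a2.bq.smul (-18))).add (a1.bq.smul (-71))).add (a0.bq.smul 90)).congr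
          fun y _ => by simp only [DD, e2, e1]; ring)
      exact ⟨ih.1.snoc b0, ih.2.snoc (by rw [e3, e2]; exact b2)⟩
  have hd : ∀ k n, BB 2 n (fun y => y ^ (k + 1) * iteratedDeriv (k + 1) G y) := by
    intro k
    induction k with
    | zero =>
      intro n
      have h1 : BB 2 n (th v) := (hP n).1.2.2
      rw [htv] at h1
      exact h1.congr fun y _ => by simp [th]
    | succ k ih =>
      intro n
      refine ((ih (n + 1)).2.2.add ((ih n).smul (-((k : ℝ) + 1)))).congr fun y hy => ?_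
      have h1 : HasDerivAt (iteratedDeriv (k + 1) G) (iteratedDeriv (k + 1 + 1) G y) y := by
        rw [iteratedDeriv_succ (n := k + 1)]
        exact ((hG.differentiable_iteratedDeriv (k + 1) (by exact_mod_cast ENat.natCast_lt_top _)) y).hasDerivAt
      have h2 := th_of_hasDerivAt (f := fun y => y ^ (k + 1) * iteratedDeriv (k + 1) G y) (fun _ _ => rfl) hy
        ((hasDerivAt_pow (k + 1) y).fun_mul h1)
      rw [h2]
      simp only [Nat.add_sub_cancel]
      push_cast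
      ring
  obtain ⟨k, rfl⟩ : ∃ k, j = k + 1 := ⟨j - 1, by omega⟩
  obtain ⟨C', hC'⟩ := (hd k 1).2.1
  refine ⟨C', fun y hy => le_trans (le_of_eq ?_) (hC' y hy)⟩
  have hy0 : 0 ≤ y ^ (k + 1) := by have : 0 < y := by linarith
                                   positivity
  simp only []
  rw [abs_mul, abs_of_nonneg hy0]; ring

end Crest.Agent.R213.Sh
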