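import Crest.Agent.R213.ShInv
import Crest.Agent.R213.ShC1
import Crest.Agent.R213.ShC2
import Crest.Agent.R213.ShC3
import Crest.Agent.R213.ShC4
import Crest.Agent.R213.ShC5

/-! # R213 / ShCert : the certificate -/

set_option autoImplicit false

open Set

noncomputable section

namespace Crest.Agent.R213.Sh

theorem inv_0 : Inv1 cC cB1 cB2 s0 s0 := inv1_base _ _ _ rfl
theorem inv_1 : Inv1 cC cB1 cB2 s0 s1 := inv_0.step ok0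
theorem inv_2 : Inv1 cC cB1 cB2 s0 s2 := inv_1.step ok1
theorem inv_3 : Inv1 cC cB1 cB2 s0 s3 := inv_2.step ok2
theorem inv_4 : Inv1 cC cB1 cB2 s0 s4 := inv_3.step ok3
theorem inv_5 : Inv1 cC cB1 cB2 s0 s5 := inv_4.step ok4
theorem inv_6 : Inv1 cC cB1 cB2 s0 s6 := inv_5.step ok5
theorem inv_7 : Inv1 cC cB1 cB2 s0 s7 := inv_6.step ok6
theorem inv_8 : Inv1 cC cB1 cB2 s0 s8 := inv_7.step ok7
theorem inv_9 : Inv1 cC cB1 cB2 s0 s9 := inv_8.step ok8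
theorem inv_10 : Inv1 cC cB1 cB2 s0 s10 := inv_9.step ok9
theorem inv_11 : Inv1 cC cB1 cB2 s0 s11 := inv_10.step ok10
theorem inv_12 : Inv1 cC cB1 cB2 s0 s12 := inv_11.step ok11
theorem inv_13 : Inv1 cC cB1 cB2 s0 s13 := inv_12.step ok12
theorem inv_14 : Inv1 cC cB1 cB2 s0 s14 := inv_13.step ok13
theorem inv_15 : Inv1 cC cB1 cB2 s0 s15 := inv_14.step ok14
theorem inv_16 : Inv1 cC cB1 cB2 s0 s16 := inv_15.step ok15
theorem inv_17 : Inv1 cC cB1 cB2 s0 s17 := inv_16.step ok16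
theorem inv_18 : Inv1 cC cB1 cB2 s0 s18 := inv_17.step ok17
theorem inv_19 : Inv1 cC cB1 cB2 s0 s19 := inv_18.step ok18
theorem inv_20 : Inv1 cC cB1 cB2 s0 s20 := inv_19.step ok19
theorem inv_21 : Inv1 cC cB1 cB2 s0 s21 := inv_20.step ok20
theorem inv_22 : Inv1 cC cB1 cB2 s0 s22 := inv_21.step ok21
theorem inv_23 : Inv1 cC cB1 cB2 s0 s23 := inv_22.step ok22
theorem inv_24 : Inv1 cC cB1 cB2 s0 s24 := inv_23.step ok23
theorem inv_25 : Inv1 cC cB1 cB2 s0 s25 := inv_24.step ok24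
theorem inv_26 : Inv1 cC cB1 cB2 s0 s26 := inv_25.step ok25
theorem inv_27 : Inv1 cC cB1 cB2 s0 s27 := inv_26.step ok26
theorem inv_28 : Inv1 cC cB1 cB2 s0 s28 := inv_27.step ok27
theorem inv_29 : Inv1 cC cB1 cB2 s0 s29 := inv_28.step ok28
theorem inv_30 : Inv1 cC cB1 cB2 s0 s30 := inv_29.step ok29
theorem inv_31 : Inv1 cC cB1 cB2 s0 s31 := inv_30.step ok30
theorem inv_32 : Inv1 cC cB1 cB2 s0 s32 := inv_31.step ok31
theorem inv_33 : Inv1 cC cB1 cB2 s0 s33 := inv_32.step ok32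
theorem inv_34 : Inv1 cC cB1 cB2 s0 s34 := inv_33.step ok33
theorem inv_35 : Inv1 cC cB1 cB2 s0 s35 := inv_34.step ok34
theorem inv_36 : Inv1 cC cB1 cB2 s0 s36 := inv_35.step ok35
theorem inv_37 : Inv1 cC cB1 cB2 s0 s37 := inv_36.step ok36
theorem inv_38 : Inv1 cC cB1 cB2 s0 s38 := inv_37.step ok37
theorem inv_39 : Inv1 cC cB1 cB2 s0 s39 := inv_38.step ok38
theorem inv_40 : Inv1 cC cB1 cB2 s0 s40 := inv_39.step ok39
theorem inv_41 : Inv1 cC cB1 cB2 s0 s41 := inv_40.step ok40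
theorem inv_42 : Inv1 cC cB1 cB2 s0 s42 := inv_41.step ok41
theorem inv_43 : Inv1 cC cB1 cB2 s0 s43 := inv_42.step ok42
theorem inv_44 : Inv1 cC cB1 cB2 s0 s44 := inv_43.step ok43
theorem inv_45 : Inv1 cC cB1 cB2 s0 s45 := inv_44.step ok44
theorem inv_46 : Inv1 cC cB1 cB2 s0 s46 := inv_45.step ok45
theorem inv_47 : Inv1 cC cB1 cB2 s0 s47 := inv_46.step ok46
theorem inv_48 : Inv1 cC cB1 cB2 s0 s48 := inv_47.step ok47
theorem inv_49 : Inv1 cC cB1 cB2 s0 s49 := inv_48.step ok48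

theorem inv2_3 : Inv2 cC t0 t3 := (((inv2_base cC rfl).step okd0).step okd1).step okd2

theorem TR_eq : TR = 2 ^ 160 := by unfold TR TT0; norm_num

theorem cert_exists : Nonempty Cert := by
  obtain ⟨-, W, P1, P2, M, ⟨i1, i2, i3, i4⟩, ⟨a1, a2, a3, a4⟩, ⟨e1, e2, e3, e4⟩, hp⟩ := inv_49
  obtain ⟨W', Q, j1, j2, b1, b2, hq⟩ := inv2_3.tail okt
  have e : ((s49.y : ℤ) : ℝ) / 2 = 125 := by norm_num [s49]
  rw [e] at i1 i2 i3 i4 e1 e2 e3 e4 hp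
  have b1' : At W' 125 s49.W := b1
  have h5 : (5 : ℝ) ^ 3 = 125 := by norm_num
  have h0 : (0 : ℝ) ≤ 125 := by norm_num
  refine ⟨⟨W.glue 125 W', P1, P2, M, Q, cA / TR, cC / TR, cA1 / TR, cA2 / TR, cB1 / TR, cB2 / TR,
    fun S => i1.glue' (j1 S) h0 e1 b1', i2, i3, i4, j2, ?_, ?_, ?_, ?_, ?_, ?_, ?_, ?_,
    fun y hy => (hp y hy).congr (glue_lt _ _ hy.2) ⟨rfl, rfl⟩ ⟨rfl, rfl⟩ ⟨rfl, rfl⟩,
    fun y hy => (hq y hy).congr (glue_ge _ _ hy) ⟨rfl, rfl⟩, ?_, ?_, ?_, ?_, ?_, ?_⟩⟩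
  · rw [(a1.glue_left h0 e1 b1').2.2, TR_eq]; norm_num [s0, cA]
  · rw [a2.2.2, TR_eq]; norm_num [s0, cA1]
  · rw [a3.2.2, TR_eq]; norm_num [s0, cA2]
  · rw [a4.2.2, TR_eq]; norm_num [s0]
  · rw [TR_eq]; norm_num [cA]
  · rw [TR_eq]; norm_num [cC]
  · rw [TR_eq]; norm_num [cA1, cA2, abs_le]
  · rw [TR_eq]; norm_num [cB1, cB2, abs_le]
  · simp only [Ch.x0, Ch.x1, Ch.x2, h5, e4.1, e4.2.1, e4.2.2, TR_eq]; norm_num [s49]
  · simp only [Ch.x0, Ch.x1, Ch.x2, Ch.lin, h5, e2.1, e2.2.1, e2.2.2, b2.1, b2.2.1, b2.2.2, TR_eq]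
    norm_num [s49, t0, cB1, abs_le]
  · simp only [Ch.x0, Ch.x1, Ch.x2, Ch.lin, h5, e2.1, e2.2.1, e2.2.2, b2.1, b2.2.1, b2.2.2, TR_eq]
    norm_num [s49, t0, cB1, abs_le]
  · simp only [Ch.x0, Ch.x1, Ch.x2, Ch.lin, h5, e3.1, e3.2.1, e3.2.2, b2.1, b2.2.1, b2.2.2, TR_eq]
    norm_num [s49, t0, cB2, abs_le]
  · simp only [Ch.x0, Ch.x1, Ch.x2, Ch.lin, h5, e3.1, e3.2.1, e3.2.2, b2.1, b2.2.1, b2.2.2, TR_eq]
    norm_num [s49, t0, cB2, abs_le]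
  · have : ∀ x y : ℝ, |x| ≤ 1 / 2 → |y| ≤ 1 / 2 → |x| + |y| ≤ 1 := fun x y h h' => by linarith
    refine this _ _ ?_ ?_
    · simp only [Ch.x0, Ch.x1, Ch.x2, Ch.lin, h5, e2.1, e2.2.1, e2.2.2, b2.1, b2.2.1, b2.2.2, TR_eq]
      norm_num [s49, t0, cB1, abs_le]
    · simp only [Ch.x0, Ch.x1, Ch.x2, Ch.lin, h5, e3.1, e3.2.1, e3.2.2, b2.1, b2.2.1, b2.2.2, TR_eq]
      norm_num [s49, t0, cB2, abs_le]

end Crest.Agent.R213.Sh
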