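import Crest.Agent.R213.ShDefs

/-!
# R213 / ShCh : calculus of chains, comparison principle
-/

set_option autoImplicit false

open Set Filter Topology
open scoped ContDiff

noncomputable section

namespace Crest.Agent.R213.Sh

theorem IsCh.lin {c d : Ch} {lo hi : ℝ} (hc : IsCh c lo hi) (t : ℝ) (hd : IsCh d lo hi) :
    IsCh (c.lin t d) lo hi := by
  refine ⟨hc.cu.add (continuousOn_const.mul hd.cu), hc.ca.add (continuousOn_const.mul hd.ca),
    hc.cH.add (continuousOn_const.mul hd.cH), fun y hy => ?_, fun y hy => ?_,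
    fun y hy => (hc.dH y hy).add ((hd.dH y hy).const_mul t)⟩
  · refine (((hc.du y hy).add ((hd.du y hy).const_mul t)).congr_deriv ?_).congr (fun s _ => ?_) ?_ <;>
      simp only [Ch.lin, Pi.add_apply] <;> ring
  · refine (((hc.da y hy).add ((hd.da y hy).const_mul t)).congr_deriv ?_).congr (fun s _ => ?_) ?_ <;>
      simp only [Ch.lin, Pi.add_apply] <;> ring

theorem IsCh.mono {c : Ch} {lo hi lo' hi' : ℝ} (h : IsCh c lo hi) (h1 : lo ≤ lo') (h2 : hi' ≤ hi) :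
    IsCh c lo' hi' := by
  have a1 := Icc_subset_Icc h1 h2
  have a2 := Ico_subset_Ico h1 h2
  exact ⟨h.cu.mono a1, h.ca.mono a1, h.cH.mono a1, fun y hy => h.du y (a2 hy), fun y hy => h.da y (a2 hy),
    fun y hy => h.dH y (a2 hy)⟩

theorem ch_cont {f g : ℝ → ℝ} {lo b hi : ℝ} (hf : ContinuousOn f (Icc lo b)) (hg : ContinuousOn g (Icc b hi))
    (h : f b = g b) : ContinuousOn (fun y => if y < b then f y else g y) (Icc lo hi) := by
  have h1 : ContinuousOn (fun y => if y < b then f y else g y) (Icc lo b) := hf.congr fun y hy => by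
    rcases hy.2.eq_or_lt with e | e
    · simp [e, h]
    · simp [e]
  have h2 : ContinuousOn (fun y => if y < b then f y else g y) (Icc b hi) := hg.congr fun y hy => by
    simp [hy.1.not_gt]
  refine (h1.union_of_isClosed h2 isClosed_Icc isClosed_Icc).mono fun y hy => ?_
  rcases le_total y b with e | e
  exacts [Or.inl ⟨hy.1, e⟩, Or.inr ⟨e, hy.2⟩]

theorem ch_der {f g f' g' : ℝ → ℝ} {lo b hi : ℝ}
    (hf : ∀ y ∈ Ico lo b, HasDerivWithinAt f (f' y) (Ici y) y)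
    (hg : ∀ y ∈ Ico b hi, HasDerivWithinAt g (g' y) (Ici y) y) {y : ℝ} (hy : y ∈ Ico lo hi) :
    HasDerivWithinAt (fun y => if y < b then f y else g y) (if y < b then f' y else g' y) (Ici y) y := by
  by_cases e : y < b
  · rw [if_pos e]
    refine (hf y ⟨hy.1, e⟩).congr_of_eventuallyEq ?_ (if_pos e)
    filter_upwards [mem_nhdsWithin_of_mem_nhds (Iio_mem_nhds e)] with s hs using if_pos hs
  · rw [if_neg e]
    exact (hg y ⟨not_lt.1 e, hy.2⟩).congr (fun s hs => if_neg ((not_lt.1 e).trans hs).not_gt) (if_neg e)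

/-- (no relation between `b` and `hi` is needed.)  Continuity: the glued function equals `c.u` on `Icc lo b`
(matching at `b`) and `d.u` on `Ici b`; `ContinuousOn.union_of_isClosed` / `ContinuousOn.congr`.  Right derivatives:
`HasDerivWithinAt.congr_of_eventuallyEq` (for `y < b` the glued function is `c.u` near `y`). -/
theorem IsCh.glue {c d : Ch} {lo b hi : ℝ} (hc : IsCh c lo b) (hd : IsCh d b hi) (hlo : lo ≤ b)
    (hu : c.u b = d.u b) (ha : c.a b = d.a b) (hH : c.H b = d.H b) : IsCh (c.glue b d) lo hi := by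
  refine ⟨ch_cont hc.cu hd.cu hu, ch_cont hc.ca hd.ca ha, ch_cont hc.cH hd.cH hH, fun y hy => ?_, fun y hy => ?_,
    fun y hy => ch_der hc.dH hd.dH hy⟩
  · simpa only [Ch.glue, mul_ite] using ch_der hc.du hd.du hy
  · simpa only [Ch.glue, mul_ite] using ch_der hc.da hd.da hy

/-- the constant chain -/
theorem isCh_const (t lo hi : ℝ) :
    IsCh ⟨fun _ => t, fun _ => 11 * t, fun _ => 110 * t, fun _ => 0⟩ lo hi := by
  refine ⟨continuousOn_const, continuousOn_const, continuousOn_const, fun y _ => ?_, fun y _ => ?_,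
    fun y _ => hasDerivWithinAt_const _ _ _⟩
  · refine (((hasDerivAt_pow 11 y).mul_const t).congr_deriv ?_).hasDerivWithinAt
    norm_num
    ring
  · refine (((hasDerivAt_pow 10 y).mul_const (11 * t)).congr_deriv ?_).hasDerivWithinAt
    norm_num
    ring

theorem ch_inc {g φ : ℝ → ℝ} {hi : ℝ} (hg : ContinuousOn g (Icc 0 hi))
    (hd : ∀ y ∈ Ico 0 hi, HasDerivWithinAt g (φ y) (Ici y) y) (h0 : 0 ≤ g 0) (hφ : ∀ y ∈ Ico 0 hi, 0 ≤ φ y) :
    ∀ y ∈ Icc 0 hi, 0 ≤ g y :=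
  fun _ hy => image_le_of_deriv_right_le_deriv_boundary (f := fun _ => 0) (f' := fun _ => 0) continuousOn_const
    (fun _ _ => hasDerivWithinAt_const _ _ _) h0 hg hd hφ hy

theorem ch_pos {g φ : ℝ → ℝ} {hi : ℝ} {n : ℕ} (hhi : 0 < hi) (hg : ContinuousOn g (Icc 0 hi))
    (hd : ∀ y ∈ Ico 0 hi, HasDerivWithinAt (fun t => t ^ (n + 1) * g t) (φ y) (Ici y) y)
    (hφ : ∀ y ∈ Ico 0 hi, 0 ≤ φ y) : ∀ y ∈ Icc 0 hi, 0 ≤ g y := by
  have h1 := ch_inc ((continuousOn_pow _).mul hg) hd (by simp) hφ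
  have h2 : ∀ y ∈ Ioc 0 hi, 0 ≤ g y := fun y hy =>
    nonneg_of_mul_nonneg_right (h1 y (Ioc_subset_Icc_self hy)) (pow_pos hy.1 _)
  intro y hy
  refine ContinuousWithinAt.closure_le (s := Ioc 0 hi) (f := fun _ => 0) ?_ continuousWithinAt_const
    ((hg y hy).mono Ioc_subset_Icc_self) h2
  rwa [closure_Ioc hhi.ne]

/-- `image_le_of_deriv_right_le_deriv_boundary` twice: `y^10 a ≥ 0`, `y^11 u ≥ 0`; at `y = 0` by continuity. -/
theorem cmpH {c : Ch} {hi : ℝ} (h : IsCh c 0 hi) (hhi : 0 < hi) (hH : ∀ y ∈ Icc 0 hi, 0 ≤ c.H y) :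
    ∀ y ∈ Icc 0 hi, 0 ≤ c.u y ∧ 0 ≤ c.a y := by
  have h1 := ch_pos hhi h.ca h.da fun y hy => mul_nonneg (pow_nonneg hy.1 _) (hH y (Ico_subset_Icc_self hy))
  have h2 := ch_pos hhi h.cu h.du fun y hy => mul_nonneg (pow_nonneg hy.1 _) (h1 y (Ico_subset_Icc_self hy))
  exact fun y hy => ⟨h2 y hy, h1 y hy⟩

theorem cmp {c : Ch} {hi : ℝ} (h : IsCh c 0 hi) (hhi : 0 < hi) (h0 : 0 ≤ c.H 0)
    (hF : ∀ y ∈ Ico 0 hi, 0 ≤ c.F y) : ∀ y ∈ Icc 0 hi, 0 ≤ c.u y ∧ 0 ≤ c.a y ∧ 0 ≤ c.H y := by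
  have h1 := ch_inc h.cH h.dH h0 hF
  exact fun y hy => ⟨(cmpH h hhi h1 y hy).1, (cmpH h hhi h1 y hy).2, h1 y hy⟩

theorem ch_zero {c : Ch} {hi : ℝ} (h : IsCh c 0 hi) (hhi : 0 < hi) : c.H 0 ≤ 110 * c.u 0 := by
  refine le_of_forall_pos_le_add fun δ hδ => ?_
  have h1 : ∀ᶠ y in 𝓝[Icc 0 hi] 0, c.H 0 - δ < c.H y :=
    (h.cH 0 ⟨le_rfl, hhi.le⟩).eventually (lt_mem_nhds (by linarith))
  obtain ⟨r, hr, h2⟩ := mem_nhdsGE_iff_exists_Icc_subset.1
    (inter_mem (Icc_mem_nhdsGE hhi) (nhdsWithin_le_of_mem (Icc_mem_nhdsGE hhi) h1))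
  have hr' : r ≤ hi := (h2 ⟨hr.le, le_rfl⟩).1.2
  have h3 := (cmpH ((h.mono le_rfl hr').lin ((δ - c.H 0) / 110) (isCh_const 1 0 r)) hr (fun y hy => by
    have : c.H 0 - δ < c.H y := (h2 hy).2
    simp only [Ch.lin]
    linarith) 0 ⟨le_rfl, hr.le⟩).1
  simp only [Ch.lin] at h3
  linarith

/-- for `δ > 0` apply `cmpH` on a short interval `[0,r]` to `± (c - const (H 0/110)) + const δ`. -/
theorem u_zero {c : Ch} {hi : ℝ} (h : IsCh c 0 hi) (hhi : 0 < hi) : 110 * c.u 0 = c.H 0 := by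
  have h1 := ch_zero h hhi
  have h2 := ch_zero (h.lin (-2) h) hhi
  simp only [Ch.lin] at h2
  linarith

/-- Continuity argument: if `|D.u| ≤ ε M.u` on `[0,r]`, `0 < r ≤ hi`, then `|D.F| ≤ (4/5) ε M.F` on `[0,r)`, so `cmp` for
`(4/5) ε M ± D` gives `|D.u| ≤ (4/5) ε M.u` on `[0,r]` (and the same for `a`, `H`); as `M.u r > 0` for `r < hi`
the bound extends to the right (`IsClosed.Icc_subset_of_forall_mem_nhdsWithin` or `sSup`); start: `u_zero`. -/
theorem boot {D M : Ch} {hi ε : ℝ} (k : ℝ → ℝ) (hD : IsCh D 0 hi) (hM : IsCh M 0 hi) (hhi : 0 < hi)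
    (hε : 0 < ε) (hD0 : D.H 0 = 0) (hM0 : 0 ≤ M.H 0)
    (h : ∀ y ∈ Ico 0 hi, 0 ≤ k y ∧ 0 < M.u y ∧ 5 / 4 * (k y * (y * M.u y) + 1) ≤ M.F y ∧
      |D.F y| ≤ k y * |y * D.u y| + ε) :
    ∀ y ∈ Icc 0 hi, |D.u y| ≤ ε * M.u y ∧ |D.a y| ≤ ε * M.a y ∧ |D.H y| ≤ ε * M.H y := by
  have step : ∀ r, 0 < r → r ≤ hi → (∀ y ∈ Icc 0 r, |D.u y| ≤ ε * M.u y) → ∀ y ∈ Icc 0 r,
      |D.u y| ≤ 4 / 5 * (ε * M.u y) ∧ |D.a y| ≤ 4 / 5 * (ε * M.a y) ∧ |D.H y| ≤ 4 / 5 * (ε * M.H y) := by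
    intro r hr hr' hs y hy
    have hF : ∀ y ∈ Ico 0 r, |D.F y| ≤ 4 / 5 * ε * M.F y := fun y hy => by
      obtain ⟨a1, -, a3, a4⟩ := h y ⟨hy.1, hy.2.trans_le hr'⟩
      have a5 : k y * |y * D.u y| ≤ k y * (y * (ε * M.u y)) := by
        rw [abs_mul, abs_of_nonneg hy.1]
        exact mul_le_mul_of_nonneg_left (mul_le_mul_of_nonneg_left (hs y (Ico_subset_Icc_self hy)) hy.1) a1
      nlinarith [mul_le_mul_of_nonneg_left a3 hε.le]
    have hD' := hD.mono le_rfl hr'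
    have hM' := hM.mono le_rfl hr'
    have h0 : 0 ≤ 4 / 5 * ε * M.H 0 := by positivity
    have b1 := cmp (hD'.lin (4 / 5 * ε) hM') hr (by simp only [Ch.lin]; linarith)
      (fun y hy => by simp only [Ch.lin]; linarith [(abs_le.1 (hF y hy)).1]) y hy
    have b2 := cmp ((hD'.lin (-2) hD').lin (4 / 5 * ε) hM') hr (by simp only [Ch.lin]; linarith)
      (fun y hy => by simp only [Ch.lin]; linarith [(abs_le.1 (hF y hy)).2]) y hy
    simp only [Ch.lin] at b1 b2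
    exact ⟨abs_le.2 ⟨by linarith [b1.1], by linarith [b2.1]⟩, abs_le.2 ⟨by linarith [b1.2.1], by linarith [b2.2.1]⟩,
      abs_le.2 ⟨by linarith [b1.2.2], by linarith [b2.2.2]⟩⟩
  have hu0 : D.u 0 = 0 := by linarith [u_zero hD hhi]
  have hc : ContinuousOn (fun y => ε * M.u y - |D.u y|) (Icc 0 hi) := (continuousOn_const.mul hM.cu).sub hD.cu.abs
  have key : Icc 0 hi ⊆ {y | 0 ≤ ε * M.u y - |D.u y|} := by
    refine IsClosed.Icc_subset_of_forall_mem_nhdsGT_of_Icc_subset ?_ ?_ fun t ht hs => ?_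
    · rw [inter_comm]
      exact hc.preimage_isClosed_of_isClosed isClosed_Icc isClosed_Ici
    · have := mul_pos hε (h 0 ⟨le_rfl, hhi⟩).2.1
      simp only [mem_ofPred_eq, hu0, abs_zero]
      linarith
    · have a1 := mul_pos hε (h t ht).2.1
      have a2 : 0 < ε * M.u t - |D.u t| := by
        rcases ht.1.eq_or_lt with e | e
        · rw [← e] at a1 ⊢
          rw [hu0, abs_zero]
          linarith
        · linarith [(step t e ht.2.le (fun y hy => sub_nonneg.1 (hs hy)) t ⟨ht.1, le_rfl⟩).1]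
      filter_upwards [nhdsWithin_le_of_mem (Icc_mem_nhdsGT_of_mem ht)
        ((hc t (Ico_subset_Icc_self ht)).eventually (lt_mem_nhds a2))] with y hy using le_of_lt hy
  intro y hy
  obtain ⟨a1, a2, a3⟩ := step hi hhi le_rfl (fun y hy => sub_nonneg.1 (key hy)) y hy
  exact ⟨by linarith [abs_nonneg (D.u y)], by linarith [abs_nonneg (D.a y)], by linarith [abs_nonneg (D.H y)]⟩

end Crest.Agent.R213.Sh
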