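import Mathlib.Data.Int.Notation
import Mathlib.Data.Nat.Notation

/-! # R213 / ShChk : the checker (integer polynomial arithmetic, evaluated by the kernel) -/

set_option autoImplicit false

namespace Crest.Agent.R213.Sh

/-- force evaluation of an integer -/
def frc {α : Type} (x : ℤ) (k : ℤ → α) : α :=
  match x with
  | Int.ofNat n => (match n with | 0 => k 0 | m + 1 => k (Int.ofNat (m + 1)))
  | Int.negSucc n => (match n with | 0 => k (Int.negSucc 0) | m + 1 => k (Int.negSucc (m + 1)))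

def padd : List ℤ → List ℤ → List ℤ
  | [], m => m
  | c :: l, [] => c :: l
  | c :: l, d :: m => (c + d) :: padd l m

def psm (k : ℤ) : List ℤ → List ℤ
  | [] => []
  | c :: l => (k * c) :: psm k l

def pmul : List ℤ → List ℤ → List ℤ
  | [], _ => []
  | c :: l, m => padd (psm c m) (0 :: pmul l m)

def dAux : ℤ → List ℤ → List ℤ
  | _, [] => []
  | k, c :: l => (k * c) :: dAux (k + 1) l

def pder : List ℤ → List ℤ
  | [] => []
  | _ :: l => dAux 1 l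

def psum : List ℤ → ℤ
  | [] => 0
  | c :: l => c + psum l

def pabs : List ℤ → ℕ
  | [] => 0
  | c :: l => c.natAbs + pabs l

def pneg : List ℤ → ℤ
  | [] => 0
  | c :: l => min c 0 + pneg l

def ppos : List ℤ → ℤ
  | [] => 0
  | c :: l => max c 0 + ppos l

def plo : List ℤ → ℤ
  | [] => 0
  | c :: l => c + pneg l

def phi : List ℤ → ℤ
  | [] => 0
  | c :: l => c + ppos l

def phd : List ℤ → ℤ
  | [] => 0
  | c :: _ => c

def TT0 : ℤ := 2 ^ 160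

/-- `(q + x) p` -/
def plin (q : ℤ) (p : List ℤ) : List ℤ := padd (psm q p) (0 :: p)
/-- `k p + (q + x) p'` -/
def opT (k q : ℤ) (p : List ℤ) : List ℤ := padd (psm k p) (plin q (pder p))
/-- `k p - x p'` -/
def opI (k : ℤ) (p : List ℤ) : List ℤ := padd (psm k p) (0 :: psm (-1) (pder p))

def chkW (Dn : ℤ) (Gl FF : List ℤ) (C ln ld un ud : ℤ) (e : ℕ) : Bool :=
  decide (ln * Dn ≤ ld * plo Gl) && decide (ud * phi Gl ≤ un * Dn) &&
    decide (4 * 2 ^ e * (pabs (padd (psm 2 (pmul Gl (padd [C] FF))) [-(Dn * Dn)]) : ℤ) ≤ Dn * Dn)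

def chkL (Dn : ℤ) (G2 YP FP : List ℤ) (bD : ℤ) (e : ℕ) (B : ℤ) : Bool :=
  decide (32 * 2 ^ e * (pabs (padd (psm (Dn * Dn) YP) (psm 2 (pmul (padd [bD] FP) G2))) : ℤ) ≤
    Dn * Dn * Dn) && decide ((pabs YP : ℤ) ≤ B * Dn)

def chkM (Dn : ℤ) (G2 p YM FM : List ℤ) : Bool :=
  decide (1 ≤ plo p) && decide (phi YM ≤ 2 ^ 42 * Dn) &&
    decide (0 ≤ plo (padd (psm 800 (pmul FM G2)) (padd (psm (-(505 * Dn * Dn)) YM) (psm (-(1000 * Dn)) G2))))

/-- state `(u, a, H)·2^160` -/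
structure S3 where
  u : ℤ
  a : ℤ
  H : ℤ

/-- matching of the states at both ends of an affine piece -/
def chkE (q : ℤ) (p : List ℤ) (s s' : S3) : Bool :=
  decide (phd p = s.u) && decide (phd (opT 11 q p) = s.a) && decide (phd (opT 10 q (opT 11 q p)) = s.H) &&
  decide (psum p = s'.u) && decide (psum (opT 11 q p) = s'.a) &&
    decide (psum (opT 10 q (opT 11 q p)) = s'.H)

def aYU (q hn : ℤ) (p : List ℤ) : List ℤ := psm (hn * hn) (plin q p)
def aFF (q : ℤ) (p : List ℤ) : List ℤ := psm 4 (pder (opT 10 q (opT 11 q p)))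

structure St1 where
  y : ℤ
  W : S3
  P1 : S3
  P2 : S3
  M : S3

structure Pc1 where
  q : ℤ
  hn : ℤ
  W : List ℤ
  P1 : List ℤ
  P2 : List ℤ
  M : List ℤ

def chk1 (cn b1 b2 : ℤ) (s : St1) (c : Pc1) (s' : St1) : Bool :=
  let Dn := 2 * c.hn * TT0
  let Gl := padd [Dn] (aYU c.q c.hn c.W)
  let G2 := pmul Gl Gl
  decide (0 ≤ c.q) && decide (0 < c.hn) && decide (s.y = c.q * c.hn) && decide (s'.y = (c.q + 1) * c.hn) &&
  chkE c.q c.W s.W s'.W && chkE c.q c.P1 s.P1 s'.P1 && chkE c.q c.P2 s.P2 s'.P2 &&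
  chkE c.q c.M s.M s'.M &&
  chkW Dn Gl (aFF c.q c.W) (cn * (2 * c.hn)) 1 8 2 1 123 &&
  chkL Dn G2 (aYU c.q c.hn c.P1) (aFF c.q c.P1) (b1 * (2 * c.hn)) 54 8 &&
  chkL Dn G2 (aYU c.q c.hn c.P2) (aFF c.q c.P2) (b2 * (2 * c.hn)) 54 8 &&
  chkM Dn G2 c.M (aYU c.q c.hn c.M) (aFF c.q c.M)

structure St2 where
  y : ℤ
  W : S3
  Q : S3

structure Pc2 where
  q : ℤ
  hn : ℤ
  W : List ℤ
  Q : List ℤ

def chk2 (cn : ℤ) (s : St2) (c : Pc2) (s' : St2) : Bool :=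
  let Dn := 2 * c.hn * TT0
  let Gl := padd [Dn] (aYU c.q c.hn c.W)
  let G2 := pmul Gl Gl
  decide (0 ≤ c.q) && decide (0 < c.hn) && decide (s.y = c.q * c.hn) && decide (s'.y = (c.q + 1) * c.hn) &&
  chkE c.q c.W s.W s'.W && chkE c.q c.Q s.Q s'.Q &&
  chkW Dn Gl (aFF c.q c.W) (cn * (2 * c.hn)) 71 100 716 1000 80 &&
  chkL Dn G2 (aYU c.q c.hn c.Q) (aFF c.q c.Q) (TT0 * (2 * c.hn)) 14 2

def chkEt (pt : List ℤ) (s : S3) : Bool :=
  decide (psum (0 :: pt) = s.u) && decide (psum (opI 11 (0 :: pt)) = s.a) &&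
    decide (psum (opI 10 (opI 11 (0 :: pt))) = s.H)

def tYU (Y : ℤ) (pt : List ℤ) : List ℤ := psm (Y * Y) pt
def tFF (pt : List ℤ) : List ℤ := 0 :: 0 :: psm (-1) (pder (opI 10 (opI 11 (0 :: pt))))

/-- the tail `[Y, ∞)`, local variable `x = Y / y` -/
def chk3 (cn : ℤ) (s : St2) (Y : ℤ) (W Q : List ℤ) : Bool :=
  let Dn := Y * TT0
  let Gl := padd [Dn] (tYU Y W)
  let G2 := pmul Gl Gl
  decide (0 < Y) && decide (s.y = 2 * Y) && chkEt W s.W && chkEt Q s.Q &&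
  chkW Dn Gl (tFF W) (cn * Y) 71 100 716 1000 80 &&
  chkL Dn G2 (tYU Y Q) (tFF Q) (TT0 * Y) 14 2

end Crest.Agent.R213.Sh
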