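import Crest.Agent.R213.ShDefs

/-!
# R213 / ShCone : cone estimates for `Sys`
-/

set_option autoImplicit false

open Set Filter Topology
open scoped ContDiff

noncomputable section

namespace Crest.Agent.R213.Sh

/-- The form is affine in `η ∈ [0,1/25]` and in `κ ∈ [0.97,1]`; its minimum on the unit sphere is `≈ 0.106`.
(At `η = 0, κ = 1` it equals `|x|²/2 + s²/6`.)  Check the four vertices with `nlinarith`, then interpolate. -/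
theorem qf_alg {x0 x1 x2 η κ : ℝ} (h0 : 0 ≤ η) (h1 : η ≤ 1 / 25) (hκ : 97 / 100 ≤ κ) (hκ1 : κ ≤ 1) :
    1 / 20 * (x0 ^ 2 + x1 ^ 2 + x2 ^ 2) ≤
      x0 * (x1 - 10 * η * x0) + x1 * (x2 - 29 / 3 * η * x1) + x2 * (-κ * x0 - η / 3 * x2) -
        2 / 3 * (x0 - x1 + x2) *
          ((x1 - 10 * η * x0) - (x2 - 29 / 3 * η * x1) + (-κ * x0 - η / 3 * x2)) := by
  let Φ : ℝ → ℝ → ℝ := fun η κ =>
    x0 * (x1 - 10 * η * x0) + x1 * (x2 - 29 / 3 * η * x1) + x2 * (-κ * x0 - η / 3 * x2) -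
        2 / 3 * (x0 - x1 + x2) *
          ((x1 - 10 * η * x0) - (x2 - 29 / 3 * η * x1) + (-κ * x0 - η / 3 * x2)) -
      1 / 20 * (x0 ^ 2 + x1 ^ 2 + x2 ^ 2)
  have v1 : 0 ≤ Φ 0 1 := by
    simp only [Φ]
    nlinarith [sq_nonneg (x0 - 10 / 37 * x1 + 10 / 37 * x2), sq_nonneg (x1 - 10 / 47 * x2), sq_nonneg x2]
  have v2 : 0 ≤ Φ 0 (97 / 100) := by
    simp only [Φ]
    nlinarith [sq_nonneg (x0 - 47 / 179 * x1 + 103 / 358 * x2), sq_nonneg (x1 - 1451 / 6868 * x2), sq_nonneg x2]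
  have v3 : 0 ≤ Φ (1 / 25) 1 := by
    simp only [Φ]
    nlinarith [sq_nonneg (x0 - 386 / 435 * x1 + 274 / 435 * x2), sq_nonneg (x1 - 11686 / 41969 * x2),
      sq_nonneg x2]
  have v4 : 0 ≤ Φ (1 / 25) (97 / 100) := by
    simp only [Φ]
    nlinarith [sq_nonneg (x0 - 377 / 417 * x1 + 557 / 834 * x2), sq_nonneg (x1 - 15191 / 81868 * x2),
      sq_nonneg x2]
  have a0 : 0 ≤ 25 * η := by linarith
  have a1 : 0 ≤ 1 - 25 * η := by linarith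
  have b0 : 0 ≤ 100 / 3 * (1 - κ) := by linarith
  have b1 : 0 ≤ 1 - 100 / 3 * (1 - κ) := by linarith
  have e : Φ η κ = (1 - 25 * η) * (1 - 100 / 3 * (1 - κ)) * Φ 0 1 +
      (1 - 25 * η) * (100 / 3 * (1 - κ)) * Φ 0 (97 / 100) +
      25 * η * (1 - 100 / 3 * (1 - κ)) * Φ (1 / 25) 1 + 25 * η * (100 / 3 * (1 - κ)) * Φ (1 / 25) (97 / 100) := by
    simp only [Φ]
    ring
  have : 0 ≤ Φ η κ := by rw [e]; positivity
  exact sub_nonneg.1 this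

theorem shcone_eta {z : ℝ} (hz : 5 ≤ z) : 0 ≤ 1 / z ^ 2 ∧ 1 / z ^ 2 ≤ 1 / 25 :=
  ⟨by positivity, one_div_le_one_div_of_le (by norm_num) (by nlinarith)⟩

theorem shcone_grow {x0 x1 x2 e E z m Φ : ℝ} (he : |e| ≤ E) (hz : 5 ≤ z) (hm : 0 ≤ m)
    (hΦ : 1 / 20 * (x0 ^ 2 + x1 ^ 2 + x2 ^ 2) ≤ Φ) (hQ : 800 * E ^ 2 < Qf x0 x1 x2) :
    Qf x0 x1 x2 / 10 < 6 * z * (Φ + e * (x2 - 2 / 3 * (x0 - x1 + x2))) + 2 * m * Qf x0 x1 x2 := by
  have e1 : Qf x0 x1 x2 ≤ x0 ^ 2 + x1 ^ 2 + x2 ^ 2 := by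
    unfold Qf
    nlinarith [sq_nonneg (x0 - x1 + x2)]
  have e0 : 0 < Qf x0 x1 x2 := lt_of_le_of_lt (by positivity) hQ
  have e2 : (x2 - 2 / 3 * (x0 - x1 + x2)) ^ 2 ≤ x0 ^ 2 + x1 ^ 2 + x2 ^ 2 := by
    nlinarith [sq_nonneg (x0 + x1), sq_nonneg (x0 + 2 * x2), sq_nonneg (x1 - 2 * x2)]
  have e3 : e ^ 2 ≤ E ^ 2 := sq_le_sq' (abs_le.1 he).1 (abs_le.1 he).2
  have e4 : Qf x0 x1 x2 / 80 ≤ Φ + e * (x2 - 2 / 3 * (x0 - x1 + x2)) := by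
    nlinarith [sq_nonneg (x2 - 2 / 3 * (x0 - x1 + x2) + 20 * e)]
  have e5 : 30 * (Qf x0 x1 x2 / 80) ≤ 6 * z * (Φ + e * (x2 - 2 / 3 * (x0 - x1 + x2))) :=
    mul_le_mul (by linarith) e4 (by positivity) (by linarith)
  have e6 : 0 ≤ 2 * m * Qf x0 x1 x2 := by positivity
  linarith

/-- With `η = 1/z²`: `Q' = 6z (form + e (x2 - (2/3)s)) + (2n/z) Q`, `(x2 - (2/3)s)² ≤ |x|²`,
`2 e t ≥ -|x|²/20 - 20E²`, `Q ≤ |x|²`; so `Q ≥ 800E²`, `Q > 0` give `Q' ≥ 3z Q/40 > Q/10`.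
`image_le_of_deriv_right_lt_deriv_boundary'` with `f z = Q(za) e^{(z-za)/10}`, `B = Q`. -/
theorem cone_grow {n E z0 z1 : ℝ} {x0 x1 x2 : ℝ → ℝ} (h : Sys n E z0 z1 x0 x1 x2) (hz : 5 ≤ z0)
    (hn : 0 ≤ n) {za : ℝ} (ha : za ∈ Icc z0 z1) (hQ : 800 * E ^ 2 < Qf (x0 za) (x1 za) (x2 za)) :
    ∀ z ∈ Icc za z1,
      Qf (x0 za) (x1 za) (x2 za) * Real.exp ((z - za) / 10) ≤ Qf (x0 z) (x1 z) (x2 z) := by
  set Q : ℝ → ℝ := fun z => Qf (x0 z) (x1 z) (x2 z) with hQd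
  have hsub : Icc za z1 ⊆ Icc z0 z1 := Icc_subset_Icc_left ha.1
  have hc : ContinuousOn Q (Icc za z1) := by
    have c0 := h.c0.mono hsub
    have c1 := h.c1.mono hsub
    have c2 := h.c2.mono hsub
    simp only [hQd, Qf]
    fun_prop
  have key : ∀ z ∈ Ico za z1, ∃ D, HasDerivWithinAt Q D (Ici z) z ∧ (800 * E ^ 2 < Q z → Q z / 10 < D) := by
    intro z hzm
    obtain ⟨κ, e, k0, k1, he, d0, d1, d2⟩ := h.der z ⟨ha.1.trans hzm.1, hzm.2⟩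
    have hz5 : 5 ≤ z := hz.trans (ha.1.trans hzm.1)
    have hz0 : 0 < z := by linarith
    refine ⟨_, (((d0.pow 2).add (d1.pow 2)).add (d2.pow 2)).sub
      ((((d0.sub d1).add d2).pow 2).const_mul (2 / 3)), fun hq => ?_⟩
    obtain ⟨η0, η1⟩ := shcone_eta hz5
    have a1 := qf_alg (x0 := x0 z) (x1 := x1 z) (x2 := x2 z) η0 η1 k0 k1
    have a2 := shcone_grow (x0 := x0 z) (x1 := x1 z) (x2 := x2 z) he hz5 (div_nonneg hn hz0.le) a1 hq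
    refine a2.trans_eq ?_
    simp only [Qf, Pi.add_apply, Pi.sub_apply]
    field_simp
    ring
  choose! D hD using key
  have hQ0 : 0 < Q za := lt_of_le_of_lt (by positivity) hQ
  refine image_le_of_deriv_right_lt_deriv_boundary' (f := fun z => Q za * Real.exp ((z - za) / 10))
    (f' := fun z => Q za * Real.exp ((z - za) / 10) / 10) (by fun_prop) (fun z _ => ?_) (by simp [hQd]) hc
    (fun z hzm => (hD z hzm).1) fun z hzm e => ?_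
  · have := ((((hasDerivAt_id z).sub_const za).div_const 10).exp.const_mul (Q za)).hasDerivWithinAt (s := Ici z)
    refine this.congr_deriv ?_
    simp only [id]
    ring
  · have e1 : Q za * 1 ≤ Q za * Real.exp ((z - za) / 10) :=
      mul_le_mul_of_nonneg_left (Real.one_le_exp (by linarith [hzm.1])) hQ0.le
    have e2 : Q za * Real.exp ((z - za) / 10) = Q z := e
    have e3 : 800 * E ^ 2 < Q za := hQ
    rw [e2]
    exact (hD z hzm).2 (by linarith)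

/-- `s = x0 - x1 + x2`, `x = (s/3)(1,-1,1) + p`, `|p|² = Q + s²/3 ≤ (2/3)s²`.
`s·(…) = -(1 + 20η/3 - nη/3)s² + η s ⟨(-10, 29/3, -1/3), p⟩ + (1-κ) s x0 + e s`, the component of `(-10,29/3,-1/3)`
orthogonal to `(1,-1,1)` has norm² `≤ 60.3`, so the second term is `≤ 6.4 η s²`. -/
theorem s_alg {x0 x1 x2 η κ e E n : ℝ} (h0 : 0 ≤ η) (h1 : η ≤ 1 / 25) (hκ : 97 / 100 ≤ κ) (hκ1 : κ ≤ 1)
    (hn : n ≤ 6) (hE : 0 < E) (he : |e| ≤ E) (hQ : Qf x0 x1 x2 ≤ 800 * E ^ 2)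
    (hs : 2400 * E ^ 2 ≤ (x0 - x1 + x2) ^ 2) :
    (x0 - x1 + x2) * ((x1 - 10 * η * x0) - (x2 - 29 / 3 * η * x1) + (-κ * x0 + e - η / 3 * x2) +
      n / 3 * η * (x0 - x1 + x2)) < 0 := by
  obtain ⟨s, hsd⟩ : ∃ s, s = x0 - x1 + x2 := ⟨_, rfl⟩
  rw [Qf] at hQ
  rw [← hsd] at hQ hs ⊢
  have hE2 : 0 < E ^ 2 := by positivity
  have hx : x0 ^ 2 + x1 ^ 2 + x2 ^ 2 ≤ s ^ 2 := by linarith
  have e1 : s * (-10 * x0 + 29 / 3 * x1 - x2 / 3) ≤ 14 * s ^ 2 := by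
    nlinarith [sq_nonneg (x0 + 10 / 14 * s), sq_nonneg (x1 - 29 / 42 * s), sq_nonneg (x2 + s / 42), sq_nonneg s]
  have e2 : s * x0 ≤ s ^ 2 := by nlinarith [sq_nonneg (s - x0), sq_nonneg x1, sq_nonneg x2]
  have e3 : e ^ 2 ≤ E ^ 2 := sq_le_sq' (abs_le.1 he).1 (abs_le.1 he).2
  have e4 : s * e ≤ s ^ 2 / 10 := by nlinarith [sq_nonneg (s - 10 * e)]
  have e5 : η * (s * (-10 * x0 + 29 / 3 * x1 - x2 / 3)) ≤ 1 / 25 * (14 * s ^ 2) :=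
    (mul_le_mul_of_nonneg_left e1 h0).trans (mul_le_mul_of_nonneg_right h1 (by positivity))
  have e6 : (1 - κ) * (s * x0) ≤ 3 / 100 * s ^ 2 :=
    (mul_le_mul_of_nonneg_left e2 (by linarith)).trans (mul_le_mul_of_nonneg_right (by linarith) (by positivity))
  have e7 : n * (η * s ^ 2) ≤ 6 * (1 / 25 * s ^ 2) :=
    (mul_le_mul_of_nonneg_right hn (by positivity)).trans (by gcongr)
  have e : s * ((x1 - 10 * η * x0) - (x2 - 29 / 3 * η * x1) + (-κ * x0 + e - η / 3 * x2) + n / 3 * η * s) =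
      -s ^ 2 + (1 - κ) * (s * x0) + s * e + η * (s * (-10 * x0 + 29 / 3 * x1 - x2 / 3)) +
        n * (η * s ^ 2) / 3 := by
    rw [hsd]; ring
  rw [e]
  linarith

/-- `image_le_of_deriv_right_lt_deriv_boundary'` with `f = s²` and constant `B`. -/
theorem cone_bound {n E z0 z1 : ℝ} {x0 x1 x2 : ℝ → ℝ} (h : Sys n E z0 z1 x0 x1 x2) (hz : 5 ≤ z0)
    (hn : n ≤ 6) (hE : 0 < E) (hQ : ∀ z ∈ Icc z0 z1, Qf (x0 z) (x1 z) (x2 z) ≤ 800 * E ^ 2) :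
    ∀ z ∈ Icc z0 z1, (x0 z - x1 z + x2 z) ^ 2 ≤ max ((x0 z0 - x1 z0 + x2 z0) ^ 2) (2400 * E ^ 2) := by
  set f : ℝ → ℝ := fun z => (x0 z - x1 z + x2 z) ^ 2 with hf
  have hc : ContinuousOn f (Icc z0 z1) := by
    have c0 := h.c0
    have c1 := h.c1
    have c2 := h.c2
    simp only [hf]
    fun_prop
  have key : ∀ z ∈ Ico z0 z1, ∃ D, HasDerivWithinAt f D (Ici z) z ∧ (2400 * E ^ 2 ≤ f z → D < 0) := by
    intro z hzm
    obtain ⟨κ, e, k0, k1, he, d0, d1, d2⟩ := h.der z hzm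
    have hz5 : 5 ≤ z := hz.trans hzm.1
    have hz0 : 0 < z := by linarith
    refine ⟨_, ((d0.sub d1).add d2).pow 2, fun hq => ?_⟩
    obtain ⟨η0, η1⟩ := shcone_eta hz5
    have a1 := s_alg η0 η1 k0 k1 hn hE he (hQ z (Ico_subset_Icc_self hzm)) hq
    refine lt_of_eq_of_lt ?_ (mul_neg_of_pos_of_neg (show 0 < 6 * z by linarith) a1)
    simp only [Pi.add_apply, Pi.sub_apply]
    field_simp
    ring
  choose! D hD using key
  exact image_le_of_deriv_right_lt_deriv_boundary' (B := fun _ => max (f z0) (2400 * E ^ 2)) (B' := fun _ => 0)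
    hc (fun z hzm => (hD z hzm).1) (le_max_left _ _) continuousOn_const
    (fun z _ => hasDerivWithinAt_const _ _ _) fun z hzm e => (hD z hzm).2 (e ▸ le_max_right _ _)

end Crest.Agent.R213.Sh
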