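import Crest.Agent.R213.ShJ

/-!
# R213 / ShSmo : smoothness of solutions of the Volterra equation; smooth cut-off of `1/(2g)`
-/

set_option autoImplicit false

open Set Filter Topology
open scoped ContDiff

noncomputable section

namespace Crest.Agent.R213.Sh

/-- differentiation under the integral sign
(`intervalIntegral.hasDerivAt_integral_of_dominated_loc_of_deriv_le`). -/
theorem hasDerivAt_J' (m : ℕ) {F : ℝ → ℝ} (hF : ContDiff ℝ 1 F) (y : ℝ) :
    HasDerivAt (J m F) (J (m + 1) (deriv F) y) y := by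
  have hc := hF.continuous
  have hc' : Continuous (deriv F) := hF.continuous_deriv le_rfl
  have hd : Differentiable ℝ F := hF.differentiable one_ne_zero
  obtain ⟨C, hC⟩ := (isCompact_closedBall (0 : ℝ) (|y| + 1)).exists_bound_of_continuousOn hc'.continuousOn
  refine (intervalIntegral.hasDerivAt_integral_of_dominated_loc_of_deriv_le (μ := MeasureTheory.volume)
    (a := 0) (b := 1) (F := fun x t => t ^ m * F (x * t)) (F' := fun x t => t ^ (m + 1) * deriv F (x * t))
    (s := Metric.ball y 1) (bound := fun _ => C) (Metric.ball_mem_nhds y one_pos)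
    (Eventually.of_forall fun x => Continuous.aestronglyMeasurable (by fun_prop))
    (Continuous.intervalIntegrable (by fun_prop) _ _) (Continuous.aestronglyMeasurable (by fun_prop))
    (Eventually.of_forall fun t ht x hx => ?_) intervalIntegrable_const
    (Eventually.of_forall fun t _ x _ => ?_)).2
  · rw [uIoc_of_le zero_le_one] at ht
    have h1 : |t| ≤ 1 := abs_le.2 ⟨by linarith [ht.1], ht.2⟩
    have h2 : |x| ≤ |y| + 1 := by
      have a1 : |x - y| < 1 := hx
      linarith [abs_sub_abs_le_abs_sub x y]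
    have h3 := hC (x * t) (by
      rw [mem_closedBall_zero_iff, Real.norm_eq_abs, abs_mul]
      exact (mul_le_of_le_one_right (abs_nonneg _) h1).trans h2)
    rw [norm_mul, Real.norm_eq_abs, abs_pow]
    exact (mul_le_of_le_one_left (norm_nonneg _) (pow_le_one₀ (abs_nonneg _) h1)).trans h3
  · have h1 := ((hd (x * t)).hasDerivAt.comp x (hasDerivAt_mul_const t)).const_mul (t ^ m)
    exact h1.congr_deriv (by ring)

/-- induction on `n` (for all `m`, `F`), `contDiff_succ_iff_deriv`. -/
theorem J_contDiff (n : ℕ) (m : ℕ) {F : ℝ → ℝ} (hF : ContDiff ℝ n F) : ContDiff ℝ n (J m F) := by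
  induction n generalizing m F with
  | zero => exact contDiff_zero.2 (J_cont m hF.continuous)
  | succ n ih =>
    rw [Nat.cast_succ] at hF ⊢
    have h1 : ContDiff ℝ 1 F := hF.of_le le_add_self
    refine contDiff_succ_iff_deriv.2 ⟨fun y => (hasDerivAt_J' m h1 y).differentiableAt, by simp, ?_⟩
    rw [show deriv (J m F) = J (m + 1) (deriv F) from funext fun y => (hasDerivAt_J' m h1 y).deriv]
    exact ih _ (contDiff_succ_iff_deriv.1 hF).2.2

/-- `w' = a - 10 u` (`vch_dw`) is `C^n` when `w` is. -/
theorem smooth_sol {φ : ℝ → ℝ} (hφ : ContDiff ℝ ∞ φ) {a c : ℝ} {w : ℝ → ℝ} (hw : Continuous w)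
    (h : ∀ y, w y = y * (vch a (fun s => φ (1 + w s) - c)).u y) : ContDiff ℝ ∞ w := by
  refine contDiff_infty.2 fun n => ?_
  induction n with
  | zero => exact contDiff_zero.2 hw
  | succ n ih =>
    have hF : ContDiff ℝ n fun s => φ (1 + w s) - c :=
      ((contDiff_infty.1 hφ n).comp (contDiff_const.add ih)).sub contDiff_const
    have hd : ∀ y, HasDerivAt w ((vch a (fun s => φ (1 + w s) - c)).a y -
        10 * (vch a (fun s => φ (1 + w s) - c)).u y) y := fun y =>
      (vch_dw a hF.continuous y).congr_of_eventuallyEq (Eventually.of_forall h)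
    rw [Nat.cast_succ]
    refine contDiff_succ_iff_deriv.2 ⟨fun y => (hd y).differentiableAt, by simp, ?_⟩
    rw [show deriv w = _ from funext fun y => (hd y).deriv]
    have j0 := J_contDiff n 0 hF
    have j10 := J_contDiff n 10 hF
    have j11 := J_contDiff n 11 hF
    simp only [vch]
    fun_prop

/-- e.g. `φ g = 1/(2 χ g)`, `χ g = 1/20 + (g - 1/20) * Real.smoothTransition (20 g - 1)`; `χ ≥ 1/20`, `χ` is Lipschitz
(derivative continuous on `[0,1]`, equal to `0` resp. `1` outside), `|1/(2x) - 1/(2x')| ≤ 200 |x - x'|`. -/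
theorem exists_phi : ∃ (φ : ℝ → ℝ) (L : ℝ), ContDiff ℝ ∞ φ ∧ 0 ≤ L ∧
    (∀ g g', |φ g - φ g'| ≤ L * |g - g'|) ∧ ∀ g, 1 / 10 ≤ g → φ g = 1 / (2 * g) := by
  set χ : ℝ → ℝ := fun g => 1 / 20 + (g - 1 / 20) * Real.smoothTransition (20 * g - 1) with hχ
  have h0 : ∀ g, g ≤ 1 / 20 → χ g = 1 / 20 := fun g hg => by
    simp only [hχ]
    rw [Real.smoothTransition.zero_of_nonpos (by linarith), mul_zero, add_zero]
  have h1 : ∀ g, 1 / 10 ≤ g → χ g = g := fun g hg => by
    simp only [hχ]
    rw [Real.smoothTransition.one_of_one_le (by linarith)]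
    ring
  have hp : ∀ g, 0 < χ g := fun g => by
    rcases le_total g (1 / 20) with hg | hg
    · rw [h0 g hg]
      norm_num
    · have := mul_nonneg (sub_nonneg.2 hg) (Real.smoothTransition.nonneg (20 * g - 1))
      simp only [hχ]
      linarith
  have hs : ContDiff ℝ ∞ χ :=
    contDiff_const.add ((contDiff_id.sub contDiff_const).mul
      (Real.smoothTransition.contDiff.comp ((contDiff_const.mul contDiff_id).sub contDiff_const)))
  set φ : ℝ → ℝ := fun g => 1 / (2 * χ g) with hφ
  have hφs : ContDiff ℝ ∞ φ :=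
    contDiff_const.div (contDiff_const.mul hs) fun g => (mul_pos two_pos (hp g)).ne'
  obtain ⟨C, hC⟩ := (isCompact_Icc (a := (0 : ℝ)) (b := 1)).exists_bound_of_continuousOn
    (hφs.continuous_deriv (by simp)).continuousOn
  have hb : ∀ g, ‖deriv φ g‖ ≤ |C| + 1 := by
    intro g
    have hC0 := abs_nonneg C
    rcases lt_or_ge g 0 with hg | hg
    · have e : φ =ᶠ[𝓝 g] fun _ => 1 / (2 * (1 / 20)) :=
        (eventually_lt_nhds hg).mono fun x hx => by
          simp only [hφ]
          rw [h0 x (by linarith)]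
      rw [e.deriv_eq, deriv_const, norm_zero]
      linarith
    rcases le_or_gt g 1 with hg1 | hg1
    · linarith [hC g ⟨hg, hg1⟩, le_abs_self C]
    · have e : φ =ᶠ[𝓝 g] fun x => 1 / 2 * x⁻¹ :=
        (eventually_gt_nhds hg1).mono fun x hx => by
          simp only [hφ]
          rw [h1 x (by linarith)]
          ring
      rw [e.deriv_eq, ((hasDerivAt_inv (by linarith : g ≠ 0)).const_mul (1 / 2)).deriv, norm_mul, norm_neg,
        norm_inv, norm_pow, Real.norm_of_nonneg hg, Real.norm_of_nonneg (by norm_num)]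
      have : (g ^ 2)⁻¹ ≤ 1 := inv_le_one_of_one_le₀ (one_le_pow₀ hg1.le)
      linarith
  refine ⟨φ, |C| + 1, hφs, by positivity, fun g g' => ?_, fun g hg => ?_⟩
  · exact (convex_univ (𝕜 := ℝ)).norm_image_sub_le_of_norm_deriv_le
      (fun x _ => hφs.differentiable (by simp) x) (fun x _ => hb x) (mem_univ g') (mem_univ g)
  · simp only [hφ]
    rw [h1 g hg]

end Crest.Agent.R213.Sh
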