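import Crest.Agent.R213.ShVol
import Crest.Agent.R213.ShSmo
import Crest.Agent.R213.ShAsy
import Crest.Agent.R213.Defs

/-!
# R213 / ShFin : from the continuous solution to the structure `Shr`
-/

set_option autoImplicit false

open Set Filter Topology
open scoped ContDiff

noncomputable section

namespace Crest.Agent.R213.Sh

/-- `exists_phi`, `vol_exists` with `ψ s g = φ g`, `vol_unique` (use `vch_congr` to rewrite `R.eq` with `φ`), `smooth_sol`. -/
theorem raw_smooth (R : Raw) : ∃ (φ w : ℝ → ℝ), ContDiff ℝ ∞ φ ∧ ContDiff ℝ ∞ w ∧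
    (∀ g, 1 / 10 ≤ g → φ g = 1 / (2 * g)) ∧ (∀ y, 0 ≤ y → w y = R.w y) ∧
    ∀ y, w y = y * (vch R.a (fun s => φ (1 + w s) - R.c)).u y := by
  obtain ⟨φ, L, hφ, hL0, hL, hφe⟩ := exists_phi
  obtain ⟨W, hW, hWe⟩ := vol_exists (fun _ g => φ g) (hφ.continuous.comp continuous_snd) (C := |φ 1|) hL0
    (fun _ => hL) fun _ => le_rfl
  have hw : Continuous (W (R.a, R.c)) := hW.uncurry_left _
  refine ⟨φ, W (R.a, R.c), hφ, smooth_sol hφ hw (hWe _), hφe,
    vol_unique hL0 hL hw R.cont (fun y _ => hWe _ y) fun y hy => ?_, hWe _⟩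
  rw [R.eq y hy, (vch_congr R.a hy fun s hs => ?_).1]
  simp only [hφe _ (R.bd s hs.1).1]

/-- Let `k = vch a F`, `F s = φ (1 + w s) - c`.  `deriv w = k.a - 10 k.u` (`vch_dw`); for `y ≠ 0`:
`th w = y k.a - 10 w`, `th (th w) = y k.H - 19 y k.a + 100 w` (`vch_du'`, `vch_da'`), and `vch_dH`. -/
theorem theta_eqs {φ w : ℝ → ℝ} (hφ : Continuous φ) (hw : Continuous w) {a c : ℝ}
    (h : ∀ y, w y = y * (vch a (fun s => φ (1 + w s) - c)).u y) :
    (∀ y, y ≠ 0 → th w y = y * (vch a (fun s => φ (1 + w s) - c)).a y - 10 * w y) ∧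
    (∀ y, y ≠ 0 → th (th w) y = y * (vch a (fun s => φ (1 + w s) - c)).H y -
      19 * (y * (vch a (fun s => φ (1 + w s) - c)).a y) + 100 * w y) ∧
    (∀ y, y ≠ 0 → th (th (th w)) y + 18 * th (th w) y + 71 * th w y - 90 * w y =
      y ^ 2 * (φ (1 + w y) - c)) ∧
    (∀ y, y ^ 2 * deriv (deriv w) y + 20 * y * deriv w y + 90 * w y =
      y * (vch a (fun s => φ (1 + w s) - c)).H y) := by
  have hF : Continuous fun s => φ (1 + w s) - c := by fun_prop
  obtain ⟨F, hFe⟩ : ∃ F, F = fun s => φ (1 + w s) - c := ⟨_, rfl⟩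
  have hF' : ∀ y, φ (1 + w y) - c = F y := fun y => by rw [hFe]
  simp only [hF']
  rw [← hFe] at h hF
  have dw : ∀ y, HasDerivAt w ((vch a F).a y - 10 * (vch a F).u y) y := fun y => by
    rw [funext h]
    exact vch_dw a hF y
  have du := fun y (hy : y ≠ 0) => vch_du' a hF hy
  have da := fun y (hy : y ≠ 0) => vch_da' a hF hy
  have dH := vch_dH a hF
  change (∀ y, y ≠ 0 → th w y = y * (vch a F).a y - 10 * w y) ∧
    (∀ y, y ≠ 0 → th (th w) y = y * (vch a F).H y - 19 * (y * (vch a F).a y) + 100 * w y) ∧ _ ∧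
    (∀ y, _ = y * (vch a F).H y)
  generalize vch a F = k at *
  have e1 : th w = fun y => y * k.a y - 10 * w y := funext fun y => by
    rw [th, (dw y).deriv, h y]
    ring
  have d1 : ∀ y, y ≠ 0 → HasDerivAt (fun y => y * k.a y) (k.H y - 9 * k.a y) y := fun y hy =>
    ((hasDerivAt_id' y).fun_mul (da y hy)).congr_deriv (by field_simp; ring)
  have e2 : th (th w) = fun y => y * k.H y - 19 * (y * k.a y) + 100 * w y := funext fun y => by
    by_cases hy : y = 0
    · simp [th, hy, h 0]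
    · rw [e1, th, ((d1 y hy).fun_sub ((dw y).const_mul 10)).deriv, h y]
      ring
  refine ⟨fun y _ => congrFun e1 y, fun y _ => congrFun e2 y, fun y hy => ?_, fun y => ?_⟩
  · rw [e2, th, ((((hasDerivAt_id' y).fun_mul (dH y)).fun_sub ((d1 y hy).const_mul 19)).fun_add
      ((dw y).const_mul 100)).deriv, e1]
    simp only [h y]
    ring
  · by_cases hy : y = 0
    · simp [hy, h 0]
    · rw [funext fun y => (dw y).deriv, ((da y hy).fun_sub ((du y hy).const_mul 10)).deriv, h y]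
      field_simp
      ring

theorem sf_bd {a y : ℝ} {F : ℝ → ℝ} (hy : 1 ≤ y) (hF : ∀ s ∈ Icc 0 y, |F s| ≤ 6) :
    |y * (vch a F).a y| ≤ (11 * |a| + 2) * y ^ 2 ∧ |y * (vch a F).H y| ≤ (110 * |a| + 6) * y ^ 2 := by
  have hy0 : 0 ≤ y := by linarith
  have j0 := abs_le.1 (J_bound 0 hy0 hF)
  have j1 := abs_le.1 (J_bound 10 hy0 hF)
  have a1 : |a| ≤ |a| * y := le_mul_of_one_le_right (abs_nonneg a) hy
  have a2 := le_abs_self a
  have a3 := neg_abs_le a
  have b1 : |(vch a F).a y| ≤ (11 * |a| + 2) * y := by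
    simp only [vch]
    rw [abs_le]
    constructor <;> nlinarith
  have b2 : |(vch a F).H y| ≤ (110 * |a| + 6) * y := by
    simp only [vch]
    rw [abs_le]
    constructor <;> nlinarith
  rw [abs_mul, abs_mul, abs_of_nonneg hy0]
  constructor <;> nlinarith

theorem sf_decay {G : ℝ → ℝ} (hG : ContDiff ℝ ∞ G)
    (h : ∀ j : ℕ, 1 ≤ j → ∃ C, ∀ y, 125 ≤ y → |iteratedDeriv j G y| * y ^ (j + 2) ≤ C) :
    ∃ C, 3 ≤ C ∧ ∀ j : ℕ, 1 ≤ j → j ≤ 6 → ∀ y, 0 ≤ y → |iteratedDeriv j G y| * (1 + y) ^ (j + 2) ≤ C := by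
  have key : ∀ j : ℕ, ∃ C, 0 ≤ C ∧ (1 ≤ j → ∀ y, 0 ≤ y → |iteratedDeriv j G y| * (1 + y) ^ (j + 2) ≤ C) := by
    intro j
    rcases Nat.eq_zero_or_pos j with rfl | hj
    · exact ⟨0, le_rfl, fun h => absurd h (by norm_num)⟩
    obtain ⟨C, hC⟩ := h j hj
    have hc : Continuous fun y => |iteratedDeriv j G y| * (1 + y) ^ (j + 2) :=
      (hG.continuous_iteratedDeriv j (by exact_mod_cast le_top)).abs.mul (by fun_prop)
    obtain ⟨B, hB⟩ := (isCompact_Icc (a := (0 : ℝ)) (b := 125)).bddAbove_image hc.continuousOn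
    refine ⟨max 0 (max B (2 ^ (j + 2) * C)), le_max_left _ _, fun _ y hy => le_max_of_le_right ?_⟩
    rcases le_total y 125 with h1 | h1
    · exact le_max_of_le_left (hB ⟨y, ⟨hy, h1⟩, rfl⟩)
    · refine le_max_of_le_right ?_
      calc _ ≤ |iteratedDeriv j G y| * (2 * y) ^ (j + 2) := by gcongr; linarith
        _ = 2 ^ (j + 2) * (|iteratedDeriv j G y| * y ^ (j + 2)) := by ring
        _ ≤ _ := by gcongr; exact hC y h1
  choose C hC0 hC using key
  refine ⟨3 + ∑ j ∈ Finset.range 7, C j, le_add_of_nonneg_right (Finset.sum_nonneg fun j _ => hC0 j),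
    fun j h1 h2 y hy => (hC j h1 y hy).trans (le_add_of_nonneg_of_le (by norm_num) ?_)⟩
  exact Finset.single_le_sum (fun j _ => hC0 j) (Finset.mem_range.2 (by omega))

/-- `G y = 1 + w y * Real.smoothTransition (y/δ + 2)` with `|w| ≤ 1/2` on `[-2δ, 0]` (so `G = 1 + w` on `Ici (-δ)`,
`Filter.EventuallyEq.iteratedDeriv`/`deriv`), `s y = -110 a + ∫_0^y (c - 1/(2G))`, which is `-k.H y` for `y ≥ 0`
(`vch_dH`, FTC or `J`/`pow_mul_J`).  Decay: `asy` for `1 + w` on `[125,∞)` (`|F| ≤ 6` on `[0,∞)`, `J_bound` give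
`|k.a|, |k.H| ≤ C(1+y)`), compactness on `[0,125]`, maximum over `j ≤ 6`. -/
theorem shr_of_raw (R : Raw) : Nonempty Shr := by
  obtain ⟨φ, w, hφ, hw, hφe, hwe, h⟩ := raw_smooth R
  obtain ⟨t1, t2, t3, t4⟩ := theta_eqs hφ.continuous hw.continuous h
  have hF : Continuous fun s => φ (1 + w s) - R.c :=
    (hφ.continuous.comp (continuous_const.add hw.continuous)).sub continuous_const
  have hbd : ∀ y, 0 ≤ y → 1 / 10 ≤ 1 + w y ∧ 1 + w y ≤ 3 := fun y hy => hwe y hy ▸ R.bd y hy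
  have hFe : ∀ y, 0 ≤ y → φ (1 + w y) = 1 / (2 * (1 + w y)) := fun y hy => hφe _ (hbd y hy).1
  have hw0 : w 0 = 0 := by rw [h 0, zero_mul]
  have hth : th (fun y => 1 + w y) = th w := funext fun y => by rw [th, th, deriv_const_add]
  have hG0 : ContDiff ℝ ∞ fun y => 1 + w y := contDiff_const.add hw
  obtain ⟨C, hC3, hC⟩ := sf_decay hG0 (asy hG0 (C := 400 * |R.a| + 300) R.hc
    (fun y hy => lt_of_lt_of_le (by norm_num) (hbd y hy.le).1)
    (fun y hy => hwe y (by linarith) ▸ R.bd2 y hy)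
    (fun y hy => by rw [hth, ← hFe y hy.le, ← t3 y hy.ne', add_sub_cancel_left]) fun y hy => by
      obtain ⟨b1, b2⟩ := sf_bd (a := R.a) (F := fun s => φ (1 + w s) - R.c) (y := y) (by linarith)
        fun s hs => by
          obtain ⟨c1, c2⟩ := hbd s hs.1
          have c3 : 1 / (2 * (1 + w s)) ≤ 5 := by
            rw [div_le_iff₀ (by linarith)]
            linarith
          have c4 : 0 ≤ 1 / (2 * (1 + w s)) := by
            have : 0 < 1 + w s := by linarith
            positivity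
          rw [hFe s hs.1, abs_le]
          constructor <;> linarith [R.hc.1, R.hc.2]
      obtain ⟨c1, c2⟩ := hbd y (by linarith)
      have c3 : 1 ≤ y ^ 2 := one_le_pow₀ (by linarith)
      have c4 : 0 ≤ |R.a| * y ^ 2 := by positivity
      rw [abs_le] at b1 b2
      rw [hth, t1 y (by linarith), t2 y (by linarith), abs_le, abs_le]
      refine ⟨⟨?_, ?_⟩, ?_, ?_⟩ <;> linarith [b1.1, b1.2, b2.1, b2.2])
  obtain ⟨ε, hε, hεw⟩ := Metric.continuousAt_iff.1 (hw.continuous.continuousAt (x := 0)) (1 / 2) (by norm_num)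
  obtain ⟨δ, hδ, hδw⟩ : ∃ δ > (0 : ℝ), ∀ y, -(2 * δ) ≤ y → y ≤ 0 → |w y| ≤ 1 / 2 :=
    ⟨ε / 4, by positivity, fun y h1 h2 => by
      have := hεw (x := y) (by rw [Real.dist_eq, sub_zero, abs_lt]; constructor <;> linarith)
      rw [hw0, Real.dist_eq, sub_zero] at this
      exact this.le⟩
  obtain ⟨G, hGd⟩ : ∃ G : ℝ → ℝ, G = fun y => 1 + w y * Real.smoothTransition (y / δ + 2) := ⟨_, rfl⟩
  have hG : ContDiff ℝ ∞ G := hGd ▸ contDiff_const.add (hw.mul (Real.smoothTransition.contDiff.comp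
    ((contDiff_id.div_const δ).add contDiff_const)))
  have hG1 : ∀ y, -δ ≤ y → G y = 1 + w y := fun y hy => by
    have : -1 ≤ y / δ := by rwa [le_div_iff₀ hδ, neg_one_mul]
    simp only [hGd]
    rw [Real.smoothTransition.one_of_one_le (by linarith), mul_one]
  have hG2 : ∀ y, 0 ≤ y → G =ᶠ[𝓝 y] fun y => 1 + w y := fun y hy =>
    Filter.mem_of_superset (Ici_mem_nhds (show -δ < y by linarith)) fun x hx => hG1 x hx
  have hG3 : ∀ y, 1 / 10 ≤ G y ∧ G y ≤ 3 := fun y => by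
    rcases le_total 0 y with h1 | h1
    · exact hG1 y (by linarith) ▸ hbd y h1
    simp only [hGd]
    rcases le_total y (-(2 * δ)) with h2 | h2
    · have : y / δ ≤ -2 := by rwa [div_le_iff₀ hδ, neg_mul]
      rw [Real.smoothTransition.zero_of_nonpos (by linarith), mul_zero]
      norm_num
    · have a1 : |w y * Real.smoothTransition (y / δ + 2)| ≤ 1 / 2 := by
        rw [abs_mul, abs_of_nonneg (Real.smoothTransition.nonneg _)]
        exact (mul_le_of_le_one_right (abs_nonneg _) (Real.smoothTransition.le_one _)).trans (hδw y h2 h1)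
      rw [abs_le] at a1
      constructor <;> linarith [a1.1, a1.2]
  have hf : ContDiff ℝ ∞ fun y => R.c - 1 / (2 * G y) :=
    contDiff_const.sub (contDiff_const.div (contDiff_const.mul hG) fun y => by linarith [(hG3 y).1])
  have hs : ∀ y, HasDerivAt (fun y => -(110 * R.a) + ∫ t in (0 : ℝ)..y, (R.c - 1 / (2 * G t)))
      (R.c - 1 / (2 * G y)) y := fun y =>
    (hf.continuous.integral_hasStrictDerivAt 0 y).hasDerivAt.const_add _
  refine ⟨⟨G, fun y => -(110 * R.a) + ∫ t in (0 : ℝ)..y, (R.c - 1 / (2 * G t)), R.c, 1 / 10, C, hG,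
    contDiff_infty_iff_deriv.2 ⟨fun y => (hs y).differentiableAt, ?_⟩, by norm_num, fun y => (hG3 y).1,
    fun y => (hG3 y).2.trans hC3, ?_, fun y => (hs y).deriv, fun y hy => ?_, fun j h1 h2 y hy => ?_⟩⟩
  · rw [funext fun y => (hs y).deriv]
    exact hf
  · rw [intervalIntegral.integral_same]
    linarith [R.ha]
  · have a1 := intervalIntegral.integral_eq_sub_of_hasDerivAt (a := 0) (b := y)
      (fun x _ => (vch_dH R.a hF x).fun_neg) (hF.neg.intervalIntegrable _ _)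
    have a2 : ∫ t in (0 : ℝ)..y, (R.c - 1 / (2 * G t)) = ∫ t in (0 : ℝ)..y, -(φ (1 + w t) - R.c) :=
      intervalIntegral.integral_congr fun t ht => by
        rw [uIcc_of_le hy] at ht
        simp only [hFe t ht.1, hG1 t (by linarith [ht.1]), neg_sub]
    have a3 : (vch R.a fun s => φ (1 + w s) - R.c).H 0 = 110 * R.a := by simp [vch]
    have a4 : deriv (fun y => 1 + w y) = deriv w := funext fun y => deriv_const_add _
    rw [a2, a1, a3, (hG2 y hy).deriv.deriv_eq, (hG2 y hy).deriv_eq, a4, hG1 y (by linarith)]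
    linear_combination t4 y
  · rw [(hG2 y hy).iteratedDeriv_eq]
    exact hC j h1 h2 y hy

end Crest.Agent.R213.Sh
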