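import Crest.Agent.R213.ShPc

/-! # R213 / ShInv : gluing the pieces -/

set_option autoImplicit false

open Set

noncomputable section

namespace Crest.Agent.R213.Sh

theorem At.glue_right {c d : Ch} {b b' : ℝ} {s : S3} (h : At d b' s) (hb : b ≤ b') : At (c.glue b d) b' s := by
  simpa only [At, Ch.glue, not_lt.2 hb, if_false] using h

theorem At.glue_left {c d : Ch} {lo b : ℝ} {s s' : S3} (h : At c lo s) (hb : lo ≤ b) (h1 : At c b s')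
    (h2 : At d b s') : At (c.glue b d) lo s := by
  rcases hb.eq_or_lt with rfl | hb
  · simp only [At, Ch.glue, lt_irrefl, if_false]
    exact ⟨h2.1.trans (h1.1.symm.trans h.1), h2.2.1.trans (h1.2.1.symm.trans h.2.1),
      h2.2.2.trans (h1.2.2.symm.trans h.2.2)⟩
  · simpa only [At, Ch.glue, hb, if_true] using h

theorem IsCh.glue' {c d : Ch} {lo b hi : ℝ} {s : S3} (hc : IsCh c lo b) (hd : IsCh d b hi) (hlo : lo ≤ b)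
    (h1 : At c b s) (h2 : At d b s) : IsCh (c.glue b d) lo hi :=
  hc.glue hd hlo (h1.1.trans h2.1.symm) (h1.2.1.trans h2.2.1.symm) (h1.2.2.trans h2.2.2.symm)

theorem Pt1.congr {W P1 P2 M W' P1' P2' M' : Ch} {c β1 β2 y : ℝ} (h : Pt1 W P1 P2 M c β1 β2 y)
    (e1 : W'.u y = W.u y ∧ W'.F y = W.F y) (e2 : P1'.u y = P1.u y ∧ P1'.F y = P1.F y)
    (e3 : P2'.u y = P2.u y ∧ P2'.F y = P2.F y) (e4 : M'.u y = M.u y ∧ M'.F y = M.F y) :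
    Pt1 W' P1' P2' M' c β1 β2 y := by
  simpa only [Pt1, ResW, ResL, SupM, Ch.G, e1.1, e1.2, e2.1, e2.2, e3.1, e3.2, e4.1, e4.2] using h

theorem Pt2.congr {W Q W' Q' : Ch} {c y : ℝ} (h : Pt2 W Q c y)
    (e1 : W'.u y = W.u y ∧ W'.F y = W.F y) (e2 : Q'.u y = Q.u y ∧ Q'.F y = Q.F y) : Pt2 W' Q' c y := by
  simpa only [Pt2, ResW, ResL, Ch.G, e1.1, e1.2, e2.1, e2.2] using h

theorem glue_lt (c d : Ch) {b y : ℝ} (h : y < b) :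
    (c.glue b d).u y = c.u y ∧ (c.glue b d).F y = c.F y := by simp [Ch.glue, h]

theorem glue_ge (c d : Ch) {b y : ℝ} (h : b ≤ y) :
    (c.glue b d).u y = d.u y ∧ (c.glue b d).F y = d.F y := by simp [Ch.glue, not_lt.2 h]

def cCh (s : S3) : Ch := ⟨fun _ => s.u / TR, fun _ => s.a / TR, fun _ => s.H / TR, fun _ => 0⟩

theorem cCh_isCh (s : S3) (b : ℝ) : IsCh (cCh s) b b :=
  ⟨continuousOn_const, continuousOn_const, continuousOn_const, fun y hy => by simp at hy,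
    fun y hy => by simp at hy, fun y hy => by simp at hy⟩

theorem cCh_at (s : S3) (b : ℝ) : At (cCh s) b s := ⟨rfl, rfl, rfl⟩

def Inv1 (cn b1 b2 : ℤ) (s0 s : St1) : Prop :=
  0 ≤ (s.y : ℝ) / 2 ∧ ∃ W P1 P2 M : Ch,
    (IsCh W 0 (s.y / 2) ∧ IsCh P1 0 (s.y / 2) ∧ IsCh P2 0 (s.y / 2) ∧ IsCh M 0 (s.y / 2)) ∧
    (At W 0 s0.W ∧ At P1 0 s0.P1 ∧ At P2 0 s0.P2 ∧ At M 0 s0.M) ∧
    (At W (s.y / 2) s.W ∧ At P1 (s.y / 2) s.P1 ∧ At P2 (s.y / 2) s.P2 ∧ At M (s.y / 2) s.M) ∧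
    ∀ y ∈ Ico (0 : ℝ) (s.y / 2), Pt1 W P1 P2 M (cn / TR) (b1 / TR) (b2 / TR) y

theorem inv1_base (cn b1 b2 : ℤ) {s0 : St1} (h : s0.y = 0) : Inv1 cn b1 b2 s0 s0 := by
  unfold Inv1
  rw [h]
  simp only [Int.cast_zero, zero_div]
  exact ⟨le_rfl, cCh _, cCh _, cCh _, cCh _, ⟨cCh_isCh _ _, cCh_isCh _ _, cCh_isCh _ _, cCh_isCh _ _⟩,
    ⟨cCh_at _ _, cCh_at _ _, cCh_at _ _, cCh_at _ _⟩, ⟨cCh_at _ _, cCh_at _ _, cCh_at _ _, cCh_at _ _⟩,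
    fun y hy => by simp at hy⟩

theorem Inv1.step {cn b1 b2 : ℤ} {s0 s s' : St1} {c : Pc1} (h : Inv1 cn b1 b2 s0 s)
    (k : chk1 cn b1 b2 s c s' = true) : Inv1 cn b1 b2 s0 s' := by
  obtain ⟨h0, W, P1, P2, M, ⟨i1, i2, i3, i4⟩, ⟨a1, a2, a3, a4⟩, ⟨e1, e2, e3, e4⟩, hp⟩ := h
  have k' := k
  simp only [chk1, Bool.and_eq_true, decide_eq_true_eq] at k'
  obtain ⟨⟨⟨⟨⟨⟨⟨⟨⟨⟨⟨-, hn⟩, y1⟩, y2⟩, k1⟩, k2⟩, k3⟩, k4⟩, -⟩, -⟩, -⟩, -⟩ := k'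
  obtain ⟨f1, g1⟩ := chkE_sound hn k1
  obtain ⟨f2, g2⟩ := chkE_sound hn k2
  obtain ⟨f3, g3⟩ := chkE_sound hn k3
  obtain ⟨f4, g4⟩ := chkE_sound hn k4
  rw [← y1] at f1 f2 f3 f4
  rw [← y2] at g1 g2 g3 g4
  have hle : (s.y : ℝ) / 2 ≤ s'.y / 2 := by
    have : s.y ≤ s'.y := by rw [y1, y2]; nlinarith
    have : (s.y : ℝ) ≤ s'.y := by exact_mod_cast this
    linarith
  refine ⟨h0.trans hle, W.glue (s.y / 2) _, P1.glue (s.y / 2) _, P2.glue (s.y / 2) _, M.glue (s.y / 2) _,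
    ⟨i1.glue' (aCh_isCh _ hn _ _ _) h0 e1 f1, i2.glue' (aCh_isCh _ hn _ _ _) h0 e2 f2,
      i3.glue' (aCh_isCh _ hn _ _ _) h0 e3 f3, i4.glue' (aCh_isCh _ hn _ _ _) h0 e4 f4⟩,
    ⟨a1.glue_left h0 e1 f1, a2.glue_left h0 e2 f2, a3.glue_left h0 e3 f3, a4.glue_left h0 e4 f4⟩,
    ⟨g1.glue_right hle, g2.glue_right hle, g3.glue_right hle, g4.glue_right hle⟩, fun y hy => ?_⟩
  rcases lt_or_ge y ((s.y : ℝ) / 2) with hl | hl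
  · exact (hp y ⟨hy.1, hl⟩).congr (glue_lt _ _ hl) (glue_lt _ _ hl) (glue_lt _ _ hl) (glue_lt _ _ hl)
  · exact (pt1_sound k hl hy.2.le).congr (glue_ge _ _ hl) (glue_ge _ _ hl) (glue_ge _ _ hl) (glue_ge _ _ hl)

def Inv2 (cn : ℤ) (s0 s : St2) : Prop :=
  125 ≤ (s.y : ℝ) / 2 ∧ ∃ W Q : Ch,
    (IsCh W 125 (s.y / 2) ∧ IsCh Q 125 (s.y / 2)) ∧ (At W 125 s0.W ∧ At Q 125 s0.Q) ∧
    (At W (s.y / 2) s.W ∧ At Q (s.y / 2) s.Q) ∧ ∀ y ∈ Ico (125 : ℝ) (s.y / 2), Pt2 W Q (cn / TR) y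

theorem inv2_base (cn : ℤ) {s0 : St2} (h : s0.y = 250) : Inv2 cn s0 s0 := by
  unfold Inv2
  rw [h]
  have : ((250 : ℤ) : ℝ) / 2 = 125 := by norm_num
  rw [this]
  exact ⟨le_rfl, cCh _, cCh _, ⟨cCh_isCh _ _, cCh_isCh _ _⟩, ⟨cCh_at _ _, cCh_at _ _⟩,
    ⟨cCh_at _ _, cCh_at _ _⟩, fun y hy => by simp at hy⟩

theorem Inv2.step {cn : ℤ} {s0 s s' : St2} {c : Pc2} (h : Inv2 cn s0 s)
    (k : chk2 cn s c s' = true) : Inv2 cn s0 s' := by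
  obtain ⟨h0, W, Q, ⟨i1, i2⟩, ⟨a1, a2⟩, ⟨e1, e2⟩, hp⟩ := h
  have k' := k
  simp only [chk2, Bool.and_eq_true, decide_eq_true_eq] at k'
  obtain ⟨⟨⟨⟨⟨⟨⟨-, hn⟩, y1⟩, y2⟩, k1⟩, k2⟩, -⟩, -⟩ := k'
  obtain ⟨f1, g1⟩ := chkE_sound hn k1
  obtain ⟨f2, g2⟩ := chkE_sound hn k2
  rw [← y1] at f1 f2
  rw [← y2] at g1 g2
  have hle : (s.y : ℝ) / 2 ≤ s'.y / 2 := by
    have : s.y ≤ s'.y := by rw [y1, y2]; nlinarith
    have : (s.y : ℝ) ≤ s'.y := by exact_mod_cast this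
    linarith
  refine ⟨h0.trans hle, W.glue (s.y / 2) _, Q.glue (s.y / 2) _,
    ⟨i1.glue' (aCh_isCh _ hn _ _ _) h0 e1 f1, i2.glue' (aCh_isCh _ hn _ _ _) h0 e2 f2⟩,
    ⟨a1.glue_left h0 e1 f1, a2.glue_left h0 e2 f2⟩,
    ⟨g1.glue_right hle, g2.glue_right hle⟩, fun y hy => ?_⟩
  rcases lt_or_ge y ((s.y : ℝ) / 2) with hl | hl
  · exact (hp y ⟨hy.1, hl⟩).congr (glue_lt _ _ hl) (glue_lt _ _ hl)
  · exact (pt2_sound k hl hy.2.le).congr (glue_ge _ _ hl) (glue_ge _ _ hl)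

theorem Inv2.tail {cn Y : ℤ} {s0 s : St2} {lW lQ : List ℤ} (h : Inv2 cn s0 s)
    (k : chk3 cn s Y lW lQ = true) : ∃ W Q : Ch, (∀ S, IsCh W 125 S) ∧ (∀ S, IsCh Q 125 S) ∧
      At W 125 s0.W ∧ At Q 125 s0.Q ∧ ∀ y, 125 ≤ y → Pt2 W Q (cn / TR) y := by
  obtain ⟨h0, W, Q, ⟨i1, i2⟩, ⟨a1, a2⟩, ⟨e1, e2⟩, hp⟩ := h
  have k' := k
  simp only [chk3, Bool.and_eq_true, decide_eq_true_eq] at k'
  obtain ⟨⟨⟨⟨⟨hY, y1⟩, k1⟩, k2⟩, -⟩, -⟩ := k'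
  have f1 := chkEt_sound hY k1
  have f2 := chkEt_sound hY k2
  have hY' : (0 : ℝ) < Y := by exact_mod_cast hY
  have e : (s.y : ℝ) / 2 = Y := by rw [y1]; push_cast; ring
  rw [e] at h0 i1 i2 e1 e2 hp
  refine ⟨W.glue Y _, Q.glue Y _, fun S => i1.glue' (tCh_isCh _ _ hY' S) h0 e1 f1,
    fun S => i2.glue' (tCh_isCh _ _ hY' S) h0 e2 f2, a1.glue_left h0 e1 f1, a2.glue_left h0 e2 f2,
    fun y hy => ?_⟩
  rcases lt_or_ge y (Y : ℝ) with hl | hl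
  · exact (hp y ⟨hy, hl⟩).congr (glue_lt _ _ hl) (glue_lt _ _ hl)
  · exact (pt3_sound k hl).congr (glue_ge _ _ hl) (glue_ge _ _ hl)

end Crest.Agent.R213.Sh
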