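import Crest.Agent.R213.ShDefs

/-!
# R213 / ShJ : calculus of the moments `J m F` and of the chain `vch a F`
-/

set_option autoImplicit false

open Set Filter Topology
open scoped ContDiff

noncomputable section

namespace Crest.Agent.R213.Sh

/-- `intervalIntegral.continuous_parametric_intervalIntegral_of_continuous'` -/
theorem J_cont_param {P : Type} [TopologicalSpace P] [FirstCountableTopology P] (m : ℕ) {F : P → ℝ → ℝ}
    (hF : Continuous (Function.uncurry F)) : Continuous fun q : P × ℝ => J m (F q.1) q.2 := by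
  exact intervalIntegral.continuous_parametric_intervalIntegral_of_continuous'
    (f := fun (q : P × ℝ) (t : ℝ) => t ^ m * F q.1 (q.2 * t))
    ((continuous_snd.pow m).mul (hF.comp (continuous_fst.fst.prodMk (continuous_fst.snd.mul continuous_snd)))) 0 1

theorem J_cont (m : ℕ) {F : ℝ → ℝ} (hF : Continuous F) : Continuous (J m F) := by
  exact (J_cont_param (P := Unit) m (F := fun _ => F) (hF.comp continuous_snd)).comp
    (Continuous.prodMk_right ())

theorem J_congr (m : ℕ) {F F' : ℝ → ℝ} {y : ℝ} (hy : 0 ≤ y) (h : EqOn F F' (Icc 0 y)) :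
    J m F y = J m F' y := by
  refine intervalIntegral.integral_congr fun t ht => ?_
  rw [uIcc_of_le zero_le_one] at ht
  simp only [h ⟨mul_nonneg hy ht.1, mul_le_of_le_one_right hy ht.2⟩]

theorem J_bound (m : ℕ) {F : ℝ → ℝ} {y C : ℝ} (hy : 0 ≤ y) (h : ∀ s ∈ Icc 0 y, |F s| ≤ C) :
    |J m F y| ≤ C := by
  have := intervalIntegral.norm_integral_le_of_norm_le_const (a := 0) (b := 1) (C := C)
    (f := fun t => t ^ m * F (y * t)) fun t ht => by
      rw [uIoc_of_le zero_le_one] at ht
      rw [Real.norm_eq_abs, abs_mul, abs_of_nonneg (pow_nonneg ht.1.le m)]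
      exact (mul_le_of_le_one_left (abs_nonneg _) (pow_le_one₀ ht.1.le ht.2)).trans
        (h _ ⟨mul_nonneg hy ht.1.le, mul_le_of_le_one_right hy ht.2⟩)
  simpa [J] using this

theorem J_zero (m : ℕ) (F : ℝ → ℝ) : J m F 0 = F 0 / (m + 1) := by
  simp only [J, zero_mul, intervalIntegral.integral_mul_const, integral_pow]
  simp [div_eq_inv_mul]

/-- substitution `s = y t` (`intervalIntegral.smul_integral_comp_mul_left` or the like) -/
theorem pow_mul_J (m : ℕ) (F : ℝ → ℝ) (y : ℝ) :
    y ^ (m + 1) * J m F y = ∫ s in (0 : ℝ)..y, s ^ m * F s := by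
  have := intervalIntegral.smul_integral_comp_mul_left (a := 0) (b := 1) (fun s => s ^ m * F s) y
  rw [mul_zero, mul_one] at this
  rw [← this, J, smul_eq_mul, pow_succ', mul_assoc, ← intervalIntegral.integral_const_mul]
  simp only [mul_pow, mul_assoc]

theorem hasDerivAt_pow_mul_J (m : ℕ) {F : ℝ → ℝ} (hF : Continuous F) (y : ℝ) :
    HasDerivAt (fun t => t ^ (m + 1) * J m F t) (y ^ m * F y) y := by
  simp only [pow_mul_J]
  exact (((continuous_pow m).mul hF).integral_hasStrictDerivAt 0 y).hasDerivAt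

theorem ShJ_div (k : ℕ) {g : ℝ → ℝ} {y D : ℝ} (hy : y ≠ 0)
    (h : HasDerivAt (fun t => t ^ (k + 1) * g t) (y ^ k * D) y) : HasDerivAt g ((D - (k + 1) * g y) / y) y := by
  have h1 := h.div (hasDerivAt_pow (k + 1) y) (pow_ne_zero _ hy)
  refine (h1.congr_of_eventuallyEq ((eventually_ne_nhds hy).mono fun t ht => ?_)).congr_deriv ?_
  · simp only [Pi.div_apply]
    rw [mul_div_cancel_left₀ _ (pow_ne_zero _ ht)]
  · simp only [Nat.add_sub_cancel]
    push_cast
    field_simp
    ring

theorem hasDerivAt_J (m : ℕ) {F : ℝ → ℝ} (hF : Continuous F) {y : ℝ} (hy : y ≠ 0) :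
    HasDerivAt (J m F) ((F y - (m + 1) * J m F y) / y) y := by
  exact ShJ_div m hy (hasDerivAt_pow_mul_J m hF y)

theorem vch_cont (a : ℝ) {F : ℝ → ℝ} (hF : Continuous F) :
    Continuous (vch a F).u ∧ Continuous (vch a F).a ∧ Continuous (vch a F).H := by
  have h0 := J_cont 0 hF
  have h10 := J_cont 10 hF
  have h11 := J_cont 11 hF
  refine ⟨?_, ?_, ?_⟩ <;> simp only [vch] <;> fun_prop

theorem vch_cont_param {P : Type} [TopologicalSpace P] [FirstCountableTopology P] {a : P → ℝ}
    {F : P → ℝ → ℝ} (ha : Continuous a) (hF : Continuous (Function.uncurry F)) :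
    Continuous (fun q : P × ℝ => (vch (a q.1) (F q.1)).u q.2) ∧
    Continuous (fun q : P × ℝ => (vch (a q.1) (F q.1)).a q.2) ∧
    Continuous (fun q : P × ℝ => (vch (a q.1) (F q.1)).H q.2) := by
  have h0 := J_cont_param 0 hF
  have h10 := J_cont_param 10 hF
  have h11 := J_cont_param 11 hF
  have ha' : Continuous fun q : P × ℝ => a q.1 := ha.comp continuous_fst
  exact ⟨ha'.add (continuous_snd.mul (((h0.div_const _).sub (h10.div_const _)).add (h11.div_const _))),
    (ha'.const_mul _).add ((continuous_snd.mul (h0.sub h10)).div_const _),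
    (ha'.const_mul _).add (continuous_snd.mul h0)⟩

theorem vch_congr (a : ℝ) {F F' : ℝ → ℝ} {y : ℝ} (hy : 0 ≤ y) (h : EqOn F F' (Icc 0 y)) :
    (vch a F).u y = (vch a F').u y ∧ (vch a F).a y = (vch a F').a y ∧ (vch a F).H y = (vch a F').H y := by
  simp only [vch, J_congr _ hy h, and_self]

/-- `t^11 u = a t^11 + t^11 (t J0)/110 - t (t^11 J10)/10 + t^12 J11/11`; use `hasDerivAt_pow_mul_J`. -/
theorem vch_du (a : ℝ) {F : ℝ → ℝ} (hF : Continuous F) (y : ℝ) :
    HasDerivAt (fun t => t ^ 11 * (vch a F).u t) (y ^ 10 * (vch a F).a y) y := by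
  have h0 := hasDerivAt_pow_mul_J 0 hF y
  have h10 := hasDerivAt_pow_mul_J 10 hF y
  have h11 := hasDerivAt_pow_mul_J 11 hF y
  have hp := hasDerivAt_pow 11 y
  have := (((hp.const_mul a).add ((hp.mul h0).div_const 110)).sub (((hasDerivAt_id' y).mul h10).div_const 10)).add
    (h11.div_const 11)
  refine (this.congr_of_eventuallyEq (Eventually.of_forall fun t => ?_)).congr_deriv ?_
  · simp only [vch, Pi.add_apply, Pi.sub_apply, Pi.mul_apply]
    ring
  · simp only [vch]
    push_cast
    ring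

theorem vch_da (a : ℝ) {F : ℝ → ℝ} (hF : Continuous F) (y : ℝ) :
    HasDerivAt (fun t => t ^ 10 * (vch a F).a t) (y ^ 9 * (vch a F).H y) y := by
  have h0 := hasDerivAt_pow_mul_J 0 hF y
  have h10 := hasDerivAt_pow_mul_J 10 hF y
  have hp := hasDerivAt_pow 10 y
  have := (hp.const_mul (11 * a)).add (((hp.mul h0).sub h10).div_const 10)
  refine (this.congr_of_eventuallyEq (Eventually.of_forall fun t => ?_)).congr_deriv ?_
  · simp only [vch, Pi.add_apply, Pi.sub_apply, Pi.mul_apply]
    ring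
  · simp only [vch]
    push_cast
    ring

theorem vch_dH (a : ℝ) {F : ℝ → ℝ} (hF : Continuous F) (y : ℝ) :
    HasDerivAt (vch a F).H (F y) y := by
  have := (hasDerivAt_pow_mul_J 0 hF y).const_add (110 * a)
  simpa [vch] using this

theorem vch_isCh (a : ℝ) {F : ℝ → ℝ} (hF : Continuous F) (lo hi : ℝ) : IsCh (vch a F) lo hi := by
  obtain ⟨h1, h2, h3⟩ := vch_cont a hF
  exact ⟨h1.continuousOn, h2.continuousOn, h3.continuousOn, fun y _ => (vch_du a hF y).hasDerivWithinAt,
    fun y _ => (vch_da a hF y).hasDerivWithinAt, fun y _ => (vch_dH a hF y).hasDerivWithinAt⟩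

theorem vch_du' (a : ℝ) {F : ℝ → ℝ} (hF : Continuous F) {y : ℝ} (hy : y ≠ 0) :
    HasDerivAt (vch a F).u (((vch a F).a y - 11 * (vch a F).u y) / y) y := by
  have := ShJ_div 10 hy (vch_du a hF y)
  norm_num at this ⊢
  exact this

theorem vch_da' (a : ℝ) {F : ℝ → ℝ} (hF : Continuous F) {y : ℝ} (hy : y ≠ 0) :
    HasDerivAt (vch a F).a (((vch a F).H y - 10 * (vch a F).a y) / y) y := by
  have := ShJ_div 9 hy (vch_da a hF y)
  norm_num at this ⊢
  exact this

/-- also at `y = 0` (`hasDerivAt_iff_tendsto_slope`: the slope of `t * u t` at `0` is `u t → a`). -/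
theorem vch_dw (a : ℝ) {F : ℝ → ℝ} (hF : Continuous F) (y : ℝ) :
    HasDerivAt (fun t => t * (vch a F).u t) ((vch a F).a y - 10 * (vch a F).u y) y := by
  rcases eq_or_ne y 0 with rfl | hy
  · rw [hasDerivAt_iff_tendsto_slope]
    have h1 : Tendsto (vch a F).u (𝓝[≠] 0) (𝓝 ((vch a F).u 0)) :=
      (vch_cont a hF).1.continuousAt.tendsto.mono_left nhdsWithin_le_nhds
    have e : (vch a F).a 0 - 10 * (vch a F).u 0 = (vch a F).u 0 := by
      simp only [vch]
      ring
    rw [e]
    refine h1.congr' (eventually_nhdsWithin_of_forall fun t (ht : t ≠ 0) => ?_)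
    rw [slope_def_field]
    field_simp
    ring
  · refine ((hasDerivAt_id' y).mul (vch_du' a hF hy)).congr_deriv ?_
    field_simp
    ring

end Crest.Agent.R213.Sh
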