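import Crest.Agent.R213.ShPoly
import Crest.Agent.R213.ShCh

/-! # R213 / ShPc : the chains of a polynomial piece, soundness of `chk1`, `chk2`, `chk3` -/

set_option autoImplicit false

open Set

noncomputable section

namespace Crest.Agent.R213.Sh

def TR : ℝ := (TT0 : ℝ)

theorem TT0_pos : 0 < TT0 := by unfold TT0; positivity
theorem TR_pos : 0 < TR := by unfold TR; exact_mod_cast TT0_pos

def xa (q hn : ℤ) (y : ℝ) : ℝ := 2 * y / hn - q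

def aCh (q hn : ℤ) (p : List ℤ) : Ch :=
  ⟨fun y => ev p (xa q hn y) / TR, fun y => ev (opT 11 q p) (xa q hn y) / TR,
    fun y => ev (opT 10 q (opT 11 q p)) (xa q hn y) / TR,
    fun y => ev (pder (opT 10 q (opT 11 q p))) (xa q hn y) * (2 / hn) / TR⟩

def tCh (Y : ℤ) (pt : List ℤ) : Ch :=
  ⟨fun y => ev (0 :: pt) (Y / y) / TR, fun y => ev (opI 11 (0 :: pt)) (Y / y) / TR,
    fun y => ev (opI 10 (opI 11 (0 :: pt))) (Y / y) / TR,
    fun y => ev (pder (opI 10 (opI 11 (0 :: pt)))) (Y / y) * (-(Y / y ^ 2)) / TR⟩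

theorem hasDerivAt_eva (q hn : ℤ) (p : List ℤ) (y : ℝ) :
    HasDerivAt (fun t => ev p (xa q hn t) / TR) (ev (pder p) (xa q hn y) * (2 / hn) / TR) y := by
  have h1 : HasDerivAt (xa q hn) (2 / hn) y := by
    have := (((hasDerivAt_id y).const_mul (2 : ℝ)).div_const (hn : ℝ)).sub_const (q : ℝ)
    exact this.congr_deriv (by simp)
  exact ((hasDerivAt_ev p _).comp y h1).div_const TR

theorem hasDerivAt_evt (Y : ℤ) (p : List ℤ) {y : ℝ} (hy : y ≠ 0) :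
    HasDerivAt (fun t => ev p (Y / t) / TR) (ev (pder p) (Y / y) * (-(Y / y ^ 2)) / TR) y := by
  have h1 : HasDerivAt (fun t : ℝ => (Y : ℝ) / t) (-(Y / y ^ 2)) y := by
    have := (hasDerivAt_inv hy).const_mul (Y : ℝ)
    simp only [← div_eq_mul_inv] at this
    exact this.congr_deriv (by field_simp)
  exact ((hasDerivAt_ev p _).comp y h1).div_const TR

theorem aCh_isCh (q : ℤ) {hn : ℤ} (h : 0 < hn) (p : List ℤ) (lo hi : ℝ) : IsCh (aCh q hn p) lo hi := by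
  have h' : (hn : ℝ) ≠ 0 := by exact_mod_cast h.ne'
  have hT := TR_pos.ne'
  have key : ∀ (k : ℕ) (kz : ℤ) (l : List ℤ) (y : ℝ), (kz : ℝ) = k + 1 →
      HasDerivAt (fun t => t ^ (k + 1) * (ev l (xa q hn t) / TR))
        (y ^ k * (ev (opT kz q l) (xa q hn y) / TR)) y := by
    intro k kz l y hk
    have := (hasDerivAt_pow (k + 1) y).mul (hasDerivAt_eva q hn l y)
    refine HasDerivAt.congr_deriv this ?_
    rw [ev_opT, hk]
    simp only [xa, Nat.add_sub_cancel]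
    push_cast
    field_simp
    ring
  refine ⟨?_, ?_, ?_, fun y _ => ?_, fun y _ => ?_, fun y _ => ?_⟩
  · exact fun y _ => (hasDerivAt_eva q hn _ y).continuousAt.continuousWithinAt
  · exact fun y _ => (hasDerivAt_eva q hn _ y).continuousAt.continuousWithinAt
  · exact fun y _ => (hasDerivAt_eva q hn _ y).continuousAt.continuousWithinAt
  · exact (key 10 11 p y (by norm_num)).hasDerivWithinAt
  · exact (key 9 10 _ y (by norm_num)).hasDerivWithinAt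
  · exact (hasDerivAt_eva q hn _ y).hasDerivWithinAt

theorem tCh_isCh (Y : ℤ) (pt : List ℤ) {lo : ℝ} (hlo : 0 < lo) (hi : ℝ) : IsCh (tCh Y pt) lo hi := by
  have hT := TR_pos.ne'
  have key : ∀ (k : ℕ) (kz : ℤ) (l : List ℤ) (y : ℝ), y ≠ 0 → (kz : ℝ) = k + 1 →
      HasDerivAt (fun t => t ^ (k + 1) * (ev l (Y / t) / TR))
        (y ^ k * (ev (opI kz l) (Y / y) / TR)) y := by
    intro k kz l y hy hk
    have := (hasDerivAt_pow (k + 1) y).mul (hasDerivAt_evt Y l hy)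
    refine HasDerivAt.congr_deriv this ?_
    rw [ev_opI, hk]
    simp only [Nat.add_sub_cancel]
    push_cast
    field_simp
    ring
  refine ⟨?_, ?_, ?_, fun y hy => ?_, fun y hy => ?_, fun y hy => ?_⟩
  · exact fun y hy => (hasDerivAt_evt Y _ (hlo.trans_le hy.1).ne').continuousAt.continuousWithinAt
  · exact fun y hy => (hasDerivAt_evt Y _ (hlo.trans_le hy.1).ne').continuousAt.continuousWithinAt
  · exact fun y hy => (hasDerivAt_evt Y _ (hlo.trans_le hy.1).ne').continuousAt.continuousWithinAt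
  · exact (key 10 11 _ y (hlo.trans_le hy.1).ne' (by norm_num)).hasDerivWithinAt
  · exact (key 9 10 _ y (hlo.trans_le hy.1).ne' (by norm_num)).hasDerivWithinAt
  · exact (hasDerivAt_evt Y _ (hlo.trans_le hy.1).ne').hasDerivWithinAt

/-- the chain `c` has the state `s` at `b` -/
def At (c : Ch) (b : ℝ) (s : S3) : Prop := c.u b = s.u / TR ∧ c.a b = s.a / TR ∧ c.H b = s.H / TR

theorem chkE_sound {q hn : ℤ} (h : 0 < hn) {p : List ℤ} {s s' : S3} (hc : chkE q p s s' = true) :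
    At (aCh q hn p) ((q * hn : ℤ) / 2) s ∧ At (aCh q hn p) (((q + 1) * hn : ℤ) / 2) s' := by
  have h' : (hn : ℝ) ≠ 0 := by exact_mod_cast h.ne'
  simp only [chkE, Bool.and_eq_true, decide_eq_true_eq] at hc
  obtain ⟨⟨⟨⟨⟨a1, a2⟩, a3⟩, a4⟩, a5⟩, a6⟩ := hc
  have e0 : xa q hn ((q * hn : ℤ) / 2) = 0 := by unfold xa; push_cast; field_simp; ring
  have e1 : xa q hn (((q + 1) * hn : ℤ) / 2) = 1 := by unfold xa; push_cast; field_simp; ring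
  simp only [At, aCh, e0, e1, ev_zero, ev_one, a1, a2, a3, a4, a5, a6, and_self]

theorem chkEt_sound {Y : ℤ} (h : 0 < Y) {pt : List ℤ} {s : S3} (hc : chkEt pt s = true) :
    At (tCh Y pt) Y s := by
  have h' : (Y : ℝ) ≠ 0 := by exact_mod_cast h.ne'
  simp only [chkEt, Bool.and_eq_true, decide_eq_true_eq] at hc
  obtain ⟨⟨a1, a2⟩, a3⟩ := hc
  simp only [At, tCh, div_self h', ev_one, a1, a2, a3, and_self]

theorem xa_mem {q hn : ℤ} (h : 0 < hn) {y : ℝ} (h1 : ((q * hn : ℤ) : ℝ) / 2 ≤ y)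
    (h2 : y ≤ (((q + 1) * hn : ℤ) : ℝ) / 2) : 0 ≤ xa q hn y ∧ xa q hn y ≤ 1 := by
  have h' : (0 : ℝ) < hn := by exact_mod_cast h
  push_cast at h1 h2
  unfold xa
  constructor
  · rw [sub_nonneg, le_div_iff₀ h']; linarith
  · rw [sub_le_iff_le_add, div_le_iff₀ h']; linarith

theorem aCh_yu {q hn : ℤ} (h : 0 < hn) (p : List ℤ) (y : ℝ) :
    y * (aCh q hn p).u y = ev (aYU q hn p) (xa q hn y) / ((2 * hn * TT0 : ℤ) : ℝ) := by
  have h' : (hn : ℝ) ≠ 0 := by exact_mod_cast h.ne'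
  have hT := TR_pos.ne'
  simp only [aCh, aYU, ev_psm, ev_plin]
  have : (q : ℝ) + xa q hn y = 2 * y / hn := by unfold xa; ring
  rw [this]; push_cast; rw [show (TT0 : ℝ) = TR from rfl]; field_simp

theorem aCh_F {q hn : ℤ} (h : 0 < hn) (p : List ℤ) (y : ℝ) :
    (aCh q hn p).F y = ev (aFF q p) (xa q hn y) / ((2 * hn * TT0 : ℤ) : ℝ) := by
  have h' : (hn : ℝ) ≠ 0 := by exact_mod_cast h.ne'
  have hT := TR_pos.ne'
  simp only [aCh, aFF, ev_psm]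
  push_cast; rw [show (TT0 : ℝ) = TR from rfl]; field_simp; ring

theorem tCh_yu {Y : ℤ} (h : 0 < Y) (pt : List ℤ) {y : ℝ} (hy : y ≠ 0) :
    y * (tCh Y pt).u y = ev (tYU Y pt) (Y / y) / ((Y * TT0 : ℤ) : ℝ) := by
  have h' : (Y : ℝ) ≠ 0 := by exact_mod_cast h.ne'
  have hT := TR_pos.ne'
  simp only [tCh, tYU, ev_psm, ev_cons]
  push_cast; rw [show (TT0 : ℝ) = TR from rfl]; field_simp; ring

theorem tCh_F {Y : ℤ} (h : 0 < Y) (pt : List ℤ) {y : ℝ} (hy : y ≠ 0) :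
    (tCh Y pt).F y = ev (tFF pt) (Y / y) / ((Y * TT0 : ℤ) : ℝ) := by
  have h' : (Y : ℝ) ≠ 0 := by exact_mod_cast h.ne'
  have hT := TR_pos.ne'
  simp only [tCh, tFF, ev_psm, ev_cons]
  push_cast; rw [show (TT0 : ℝ) = TR from rfl]; field_simp; ring

theorem G_eq {Dn : ℤ} (hD : 0 < Dn) {W : Ch} {YU : List ℤ} {x y : ℝ} (h : y * W.u y = ev YU x / Dn) :
    W.G y = ev (padd [Dn] YU) x / Dn ∧
      ev (pmul (padd [Dn] YU) (padd [Dn] YU)) x = (W.G y * Dn) ^ 2 := by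
  have hD' : (Dn : ℝ) ≠ 0 := by exact_mod_cast hD.ne'
  simp only [Ch.G, h, ev_pmul, ev_padd, ev_cons, ev_nil]
  constructor <;> field_simp <;> ring

theorem cst_eq (c : ℤ) {D : ℤ} (hD : 0 < D) : (c : ℝ) / TR = ((c * D : ℤ) : ℝ) / ((D * TT0 : ℤ) : ℝ) := by
  have hD' : (D : ℝ) ≠ 0 := by exact_mod_cast hD.ne'
  have hT := TR_pos.ne'
  push_cast; rw [show (TT0 : ℝ) = TR from rfl]; field_simp

theorem one_eq {D : ℤ} (hD : 0 < D) : (1 : ℝ) = ((TT0 * D : ℤ) : ℝ) / ((D * TT0 : ℤ) : ℝ) := by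
  rw [← cst_eq TT0 hD]; exact (div_self TR_pos.ne').symm

theorem pt1_sound {cn b1 b2 : ℤ} {s s' : St1} {c : Pc1} (h : chk1 cn b1 b2 s c s' = true) {y : ℝ}
    (h1 : (s.y : ℝ) / 2 ≤ y) (h2 : y ≤ (s'.y : ℝ) / 2) :
    Pt1 (aCh c.q c.hn c.W) (aCh c.q c.hn c.P1) (aCh c.q c.hn c.P2) (aCh c.q c.hn c.M)
      (cn / TR) (b1 / TR) (b2 / TR) y := by
  simp only [chk1, Bool.and_eq_true, decide_eq_true_eq] at h
  obtain ⟨⟨⟨⟨⟨⟨⟨⟨⟨⟨⟨-, hn⟩, y1⟩, y2⟩, -⟩, -⟩, -⟩, -⟩, kW⟩, k1⟩, k2⟩, kM⟩ := h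
  rw [y1] at h1; rw [y2] at h2
  obtain ⟨x0, x1⟩ := xa_mem hn h1 h2
  have h2n : 0 < 2 * c.hn := by omega
  have hD : 0 < 2 * c.hn * TT0 := mul_pos h2n TT0_pos
  obtain ⟨g1, g2⟩ := G_eq hD (aCh_yu hn c.W y)
  obtain ⟨w1, w2, w3⟩ := chkW_sound kW hD (by norm_num) (by norm_num) (by norm_num) x0 x1 g1
    (aCh_F hn c.W y) (cst_eq cn h2n)
  have g8 : 1 / 8 ≤ (aCh c.q c.hn c.W).G y := by simpa using w1
  obtain ⟨l1, l1'⟩ := chkL_sound k1 hD x0 x1 g8 g2 (aCh_yu hn c.P1 y) (aCh_F hn c.P1 y) (cst_eq b1 h2n)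
  obtain ⟨l2, l2'⟩ := chkL_sound k2 hD x0 x1 g8 g2 (aCh_yu hn c.P2 y) (aCh_F hn c.P2 y) (cst_eq b2 h2n)
  obtain ⟨m1, m2, m3⟩ := chkM_sound kM hD x0 x1 g8 g2 (aCh_yu hn c.M y) (aCh_F hn c.M y)
  refine ⟨g8, by simpa using w2, w3, ⟨l1, by simpa using l1'⟩, ⟨l2, by simpa using l2'⟩, ?_, m2, m3⟩
  exact div_pos m1 TR_pos

theorem pt2_of {Dn C bD : ℤ} {W Q : Ch} {YW FW YQ FQ : List ℤ} {x y c : ℝ} (hD : 0 < Dn)
    (x0 : 0 ≤ x) (x1 : x ≤ 1)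
    (kW : chkW Dn (padd [Dn] YW) FW C 71 100 716 1000 80 = true)
    (kQ : chkL Dn (pmul (padd [Dn] YW) (padd [Dn] YW)) YQ FQ bD 14 2 = true)
    (e1 : y * W.u y = ev YW x / Dn) (e2 : W.F y = ev FW x / Dn) (e3 : y * Q.u y = ev YQ x / Dn)
    (e4 : Q.F y = ev FQ x / Dn) (e5 : c = C / Dn) (e6 : (1 : ℝ) = bD / Dn) : Pt2 W Q c y := by
  obtain ⟨g1, g2⟩ := G_eq hD e1
  obtain ⟨w1, w2, w3⟩ := chkW_sound kW hD (by norm_num) (by norm_num) (by norm_num) x0 x1 g1 e2 e5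
  have w1' : 71 / 100 ≤ W.G y := by simpa using w1
  obtain ⟨l1, l1'⟩ := chkL_sound kQ hD x0 x1 (by linarith) g2 e3 e4 e6
  exact ⟨w1', by simpa using w2, w3, l1, by simpa using l1'⟩

theorem pt2_sound {cn : ℤ} {s s' : St2} {c : Pc2} (h : chk2 cn s c s' = true) {y : ℝ}
    (h1 : (s.y : ℝ) / 2 ≤ y) (h2 : y ≤ (s'.y : ℝ) / 2) :
    Pt2 (aCh c.q c.hn c.W) (aCh c.q c.hn c.Q) (cn / TR) y := by
  simp only [chk2, Bool.and_eq_true, decide_eq_true_eq] at h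
  obtain ⟨⟨⟨⟨⟨⟨⟨-, hn⟩, y1⟩, y2⟩, -⟩, -⟩, kW⟩, kQ⟩ := h
  rw [y1] at h1; rw [y2] at h2
  obtain ⟨x0, x1⟩ := xa_mem hn h1 h2
  have h2n : 0 < 2 * c.hn := by omega
  exact pt2_of (mul_pos h2n TT0_pos) x0 x1 kW kQ (aCh_yu hn _ y) (aCh_F hn _ y) (aCh_yu hn _ y)
    (aCh_F hn _ y) (cst_eq cn h2n) (one_eq h2n)

theorem pt3_sound {cn Y : ℤ} {s : St2} {W Q : List ℤ} (h : chk3 cn s Y W Q = true) {y : ℝ}
    (h1 : (Y : ℝ) ≤ y) : Pt2 (tCh Y W) (tCh Y Q) (cn / TR) y := by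
  simp only [chk3, Bool.and_eq_true, decide_eq_true_eq] at h
  obtain ⟨⟨⟨⟨⟨hY, -⟩, -⟩, -⟩, kW⟩, kQ⟩ := h
  have hY' : (0 : ℝ) < Y := by exact_mod_cast hY
  have hy : 0 < y := hY'.trans_le h1
  exact pt2_of (mul_pos hY TT0_pos) (by positivity) ((div_le_one hy).2 h1) kW kQ (tCh_yu hY _ hy.ne')
    (tCh_F hY _ hy.ne') (tCh_yu hY _ hy.ne') (tCh_F hY _ hy.ne') (cst_eq cn hY) (one_eq hY)

end Crest.Agent.R213.Sh
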