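import Crest.Agent.R213.ShChk
import Crest.Agent.R213.ShDefs

/-! # R213 / ShPoly : soundness of the integer polynomial arithmetic and of the pointwise checks -/

set_option autoImplicit false

open Set

noncomputable section

namespace Crest.Agent.R213.Sh

def ev : List ℤ → ℝ → ℝ
  | [], _ => 0
  | c :: l, x => c + x * ev l x

@[simp] theorem ev_nil (x : ℝ) : ev [] x = 0 := rfl
@[simp] theorem ev_cons (c : ℤ) (l : List ℤ) (x : ℝ) : ev (c :: l) x = c + x * ev l x := rfl

@[simp] theorem ev_padd (l m : List ℤ) (x : ℝ) : ev (padd l m) x = ev l x + ev m x := by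
  induction l generalizing m with
  | nil => simp [padd]
  | cons c l ih =>
    cases m with
    | nil => simp [padd]
    | cons d m => simp only [padd, ev_cons, ih]; push_cast; ring

@[simp] theorem ev_psm (k : ℤ) (l : List ℤ) (x : ℝ) : ev (psm k l) x = k * ev l x := by
  induction l with
  | nil => simp [psm]
  | cons c l ih => simp only [psm, ev_cons, ih]; push_cast; ring

@[simp] theorem ev_pmul (l m : List ℤ) (x : ℝ) : ev (pmul l m) x = ev l x * ev m x := by
  induction l with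
  | nil => simp [pmul]
  | cons c l ih => simp only [pmul, ev_padd, ev_psm, ev_cons, ih]; push_cast; ring

theorem ev_dAux_succ (l : List ℤ) (k : ℤ) (x : ℝ) :
    ev (dAux (k + 1) l) x = ev (dAux k l) x + ev l x := by
  induction l generalizing k with
  | nil => simp [dAux]
  | cons c l ih => simp only [dAux, ev_cons, ih]; push_cast; ring

theorem ev_dAux_one (l : List ℤ) (x : ℝ) : ev (dAux 1 l) x = ev l x + x * ev (pder l) x := by
  cases l with
  | nil => simp [dAux, pder]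
  | cons c l =>
    simp only [dAux, pder, ev_cons]
    rw [ev_dAux_succ]; push_cast; ring

theorem hasDerivAt_ev (l : List ℤ) (x : ℝ) : HasDerivAt (ev l) (ev (pder l) x) x := by
  induction l with
  | nil => exact hasDerivAt_const x (0 : ℝ)
  | cons c l ih =>
    have h := ((hasDerivAt_id x).mul ih).const_add (c : ℝ)
    have e : ev (pder (c :: l)) x = 1 * ev l x + id x * ev (pder l) x := by
      rw [show pder (c :: l) = dAux 1 l from rfl, ev_dAux_one]; simp
    rw [e]; exact h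

theorem continuous_ev (l : List ℤ) : Continuous (ev l) :=
  continuous_iff_continuousAt.2 fun x => (hasDerivAt_ev l x).continuousAt

theorem ev_one (l : List ℤ) : ev l 1 = psum l := by
  induction l with
  | nil => simp [psum]
  | cons c l ih => simp [psum, ih]

theorem ev_zero (l : List ℤ) : ev l 0 = phd l := by
  cases l <;> simp [phd]

theorem abs_ev_le (l : List ℤ) {x : ℝ} (h0 : 0 ≤ x) (h1 : x ≤ 1) : |ev l x| ≤ ((pabs l : ℤ) : ℝ) := by
  induction l with
  | nil => simp [pabs]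
  | cons c l ih =>
    simp only [ev_cons, pabs]
    push_cast at ih ⊢
    have : |x * ev l x| ≤ |ev l x| := by
      rw [abs_mul, abs_of_nonneg h0]; exact mul_le_of_le_one_left (abs_nonneg _) h1
    linarith [abs_add_le (c : ℝ) (x * ev l x)]

theorem pneg_nonpos (l : List ℤ) : pneg l ≤ 0 := by
  induction l with
  | nil => simp [pneg]
  | cons c l ih => simp only [pneg]; have := min_le_right c 0; omega

theorem ppos_nonneg (l : List ℤ) : 0 ≤ ppos l := by
  induction l with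
  | nil => simp [ppos]
  | cons c l ih => simp only [ppos]; have := le_max_right c 0; omega

theorem pneg_le (l : List ℤ) {x : ℝ} (h0 : 0 ≤ x) (h1 : x ≤ 1) : (pneg l : ℝ) ≤ ev l x := by
  induction l with
  | nil => simp [pneg]
  | cons c l ih =>
    simp only [pneg, ev_cons]; push_cast
    have h2 : (pneg l : ℝ) ≤ 0 := by exact_mod_cast pneg_nonpos l
    have := min_le_left (c : ℝ) 0
    nlinarith [mul_le_mul_of_nonneg_left ih h0]

theorem le_ppos (l : List ℤ) {x : ℝ} (h0 : 0 ≤ x) (h1 : x ≤ 1) : ev l x ≤ (ppos l : ℝ) := by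
  induction l with
  | nil => simp [ppos]
  | cons c l ih =>
    simp only [ppos, ev_cons]; push_cast
    have h2 : (0 : ℝ) ≤ ppos l := by exact_mod_cast ppos_nonneg l
    have := le_max_left (c : ℝ) 0
    nlinarith [mul_le_mul_of_nonneg_left ih h0]

theorem plo_le (l : List ℤ) {x : ℝ} (h0 : 0 ≤ x) (h1 : x ≤ 1) : (plo l : ℝ) ≤ ev l x := by
  cases l with
  | nil => simp [plo]
  | cons c l =>
    simp only [plo, ev_cons]; push_cast
    have h2 : (pneg l : ℝ) ≤ 0 := by exact_mod_cast pneg_nonpos l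
    nlinarith [mul_le_mul_of_nonneg_left (pneg_le l h0 h1) h0]

theorem le_phi (l : List ℤ) {x : ℝ} (h0 : 0 ≤ x) (h1 : x ≤ 1) : ev l x ≤ (phi l : ℝ) := by
  cases l with
  | nil => simp [phi]
  | cons c l =>
    simp only [phi, ev_cons]; push_cast
    have h2 : (0 : ℝ) ≤ ppos l := by exact_mod_cast ppos_nonneg l
    nlinarith [mul_le_mul_of_nonneg_left (le_ppos l h0 h1) h0]

@[simp] theorem ev_plin (q : ℤ) (p : List ℤ) (x : ℝ) : ev (plin q p) x = (q + x) * ev p x := by
  simp [plin]; ring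

theorem ev_opT (k q : ℤ) (p : List ℤ) (x : ℝ) :
    ev (opT k q p) x = k * ev p x + (q + x) * ev (pder p) x := by
  simp [opT]

theorem ev_opI (k : ℤ) (p : List ℤ) (x : ℝ) :
    ev (opI k p) x = k * ev p x - x * ev (pder p) x := by
  simp [opI]; ring

theorem chkW_sound {Dn C ln ld un ud : ℤ} {Gl FF : List ℤ} {e : ℕ}
    (h : chkW Dn Gl FF C ln ld un ud e = true) (hD : 0 < Dn) (hld : 0 < ld) (hud : 0 < ud)
    (h8 : ld ≤ 8 * ln) {x G F c : ℝ} (h0 : 0 ≤ x) (h1 : x ≤ 1) (hG : G = ev Gl x / Dn)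
    (hF : F = ev FF x / Dn) (hc : c = C / Dn) :
    (ln : ℝ) / ld ≤ G ∧ G ≤ (un : ℝ) / ud ∧ |1 / (2 * G) - c - F| ≤ 1 / 2 ^ e := by
  simp only [chkW, Bool.and_eq_true, decide_eq_true_eq] at h
  obtain ⟨⟨a1, a2⟩, a3⟩ := h
  have hD' : (0 : ℝ) < Dn := by exact_mod_cast hD
  have hld' : (0 : ℝ) < ld := by exact_mod_cast hld
  have hud' : (0 : ℝ) < ud := by exact_mod_cast hud
  have h8' : (ld : ℝ) ≤ 8 * ln := by exact_mod_cast h8
  have b1 : (ln : ℝ) * Dn ≤ ld * plo Gl := by exact_mod_cast a1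
  have b2 : (ud : ℝ) * phi Gl ≤ un * Dn := by exact_mod_cast a2
  set R := padd (psm 2 (pmul Gl (padd [C] FF))) [-(Dn * Dn)] with hR
  have b3 : (4 : ℝ) * 2 ^ e * ((pabs R : ℤ) : ℝ) ≤ Dn * Dn := by exact_mod_cast a3
  have c1 : (ln : ℝ) / ld ≤ G := by
    rw [hG, div_le_div_iff₀ hld' hD']
    nlinarith [mul_le_mul_of_nonneg_left (plo_le Gl h0 h1) hld'.le]
  have c2 : G ≤ (un : ℝ) / ud := by
    rw [hG, div_le_div_iff₀ hD' hud']
    nlinarith [mul_le_mul_of_nonneg_left (le_phi Gl h0 h1) hud'.le]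
  have g8 : 1 / 8 ≤ G := by
    refine le_trans ?_ c1
    rw [div_le_div_iff₀ (by norm_num) hld']; linarith
  refine ⟨c1, c2, ?_⟩
  have hG0 : 0 < G := by linarith
  have hGl : ev Gl x = G * Dn := by rw [hG]; field_simp
  have hFl : ev FF x = F * Dn := by rw [hF]; field_simp
  have hC : (C : ℝ) = c * Dn := by rw [hc]; field_simp
  have eR : ev R x = (2 * G * (c + F) - 1) * (Dn * Dn) := by
    simp only [hR, ev_padd, ev_psm, ev_pmul, ev_cons, ev_nil, hGl, hFl, hC]; push_cast; ring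
  have e1 : 1 / (2 * G) - c - F = -(ev R x) / (2 * G * (Dn * Dn)) := by
    rw [eR]; field_simp; ring
  have hp : (0 : ℝ) < 2 ^ e := by positivity
  have hA := abs_ev_le R h0 h1
  rw [e1, abs_div, abs_neg, abs_of_pos (by positivity : 0 < 2 * G * ((Dn : ℝ) * Dn)),
    div_le_div_iff₀ (by positivity) hp]
  have hDD : (0 : ℝ) < Dn * Dn := by positivity
  nlinarith [mul_le_mul_of_nonneg_left hA hp.le, mul_le_mul_of_nonneg_right g8 hDD.le]

theorem chkL_sound {Dn bD B : ℤ} {G2 YP FP : List ℤ} {e : ℕ}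
    (h : chkL Dn G2 YP FP bD e B = true) (hD : 0 < Dn) {x G yP F β : ℝ} (h0 : 0 ≤ x) (h1 : x ≤ 1)
    (g8 : 1 / 8 ≤ G) (hG : ev G2 x = (G * Dn) ^ 2) (hP : yP = ev YP x / Dn)
    (hF : F = ev FP x / Dn) (hβ : β = bD / Dn) :
    |-yP / (2 * G ^ 2) - β - F| ≤ 1 / 2 ^ e ∧ |yP| ≤ B := by
  simp only [chkL, Bool.and_eq_true, decide_eq_true_eq] at h
  obtain ⟨a1, a2⟩ := h
  have hD' : (0 : ℝ) < Dn := by exact_mod_cast hD
  set R := padd (psm (Dn * Dn) YP) (psm 2 (pmul (padd [bD] FP) G2)) with hR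
  have b1 : (32 : ℝ) * 2 ^ e * ((pabs R : ℤ) : ℝ) ≤ Dn * Dn * Dn := by exact_mod_cast a1
  have b2 : ((pabs YP : ℤ) : ℝ) ≤ B * Dn := by exact_mod_cast a2
  have hG0 : 0 < G := by linarith
  have hPl : ev YP x = yP * Dn := by rw [hP]; field_simp
  have hFl : ev FP x = F * Dn := by rw [hF]; field_simp
  have hb : (bD : ℝ) = β * Dn := by rw [hβ]; field_simp
  constructor
  · have eR : ev R x = (yP + 2 * G ^ 2 * (β + F)) * (Dn * Dn * Dn) := by
      simp only [hR, ev_padd, ev_psm, ev_pmul, ev_cons, ev_nil, hG, hPl, hFl, hb]; push_cast; ring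
    have e1 : -yP / (2 * G ^ 2) - β - F = -(ev R x) / (2 * G ^ 2 * (Dn * Dn * Dn)) := by
      rw [eR]; field_simp; ring
    have hp : (0 : ℝ) < 2 ^ e := by positivity
    have hA := abs_ev_le R h0 h1
    rw [e1, abs_div, abs_neg, abs_of_pos (by positivity : 0 < 2 * G ^ 2 * ((Dn : ℝ) * Dn * Dn)),
      div_le_div_iff₀ (by positivity) hp]
    have hDD : (0 : ℝ) < Dn * Dn * Dn := by positivity
    have g2 : 1 / 64 ≤ G ^ 2 := by nlinarith
    nlinarith [mul_le_mul_of_nonneg_left hA hp.le, mul_le_mul_of_nonneg_right g2 hDD.le]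
  · have hA := abs_ev_le YP h0 h1
    rw [hP, abs_div, abs_of_pos hD', div_le_iff₀ hD']
    linarith

theorem chkM_sound {Dn : ℤ} {G2 p YM FM : List ℤ}
    (h : chkM Dn G2 p YM FM = true) (hD : 0 < Dn) {x G yM F : ℝ} (h0 : 0 ≤ x) (h1 : x ≤ 1)
    (g8 : 1 / 8 ≤ G) (hG : ev G2 x = (G * Dn) ^ 2) (hP : yM = ev YM x / Dn)
    (hF : F = ev FM x / Dn) :
    0 < ev p x ∧ yM ≤ 2 ^ 42 ∧ 5 / 4 * (101 / 100 * yM / (2 * G ^ 2) + 1) ≤ F := by
  simp only [chkM, Bool.and_eq_true, decide_eq_true_eq] at h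
  obtain ⟨⟨a1, a2⟩, a3⟩ := h
  have hD' : (0 : ℝ) < Dn := by exact_mod_cast hD
  have b1 : (1 : ℝ) ≤ plo p := by exact_mod_cast a1
  have b2 : (phi YM : ℝ) ≤ 2 ^ 42 * Dn := by exact_mod_cast a2
  set R := padd (psm 800 (pmul FM G2))
    (padd (psm (-(505 * Dn * Dn)) YM) (psm (-(1000 * Dn)) G2)) with hR
  have b3 : (0 : ℝ) ≤ plo R := by exact_mod_cast a3
  have hG0 : 0 < G := by linarith
  have hPl : ev YM x = yM * Dn := by rw [hP]; field_simp
  have hFl : ev FM x = F * Dn := by rw [hF]; field_simp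
  refine ⟨by linarith [plo_le p h0 h1], ?_, ?_⟩
  · rw [hP, div_le_iff₀ hD']; linarith [le_phi YM h0 h1]
  · have eR : ev R x = (800 * G ^ 2 * F - 505 * yM - 1000 * G ^ 2) * (Dn * Dn * Dn) := by
      simp only [hR, ev_padd, ev_psm, ev_pmul, hG, hPl, hFl]; push_cast; ring
    have hDD : (0 : ℝ) < Dn * Dn * Dn := by positivity
    have h3 : 0 ≤ 800 * G ^ 2 * F - 505 * yM - 1000 * G ^ 2 := by
      have := le_trans b3 (plo_le R h0 h1)
      rw [eR] at this
      exact nonneg_of_mul_nonneg_left this hDD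
    have e2 : 5 / 4 * (101 / 100 * yM / (2 * G ^ 2) + 1) = (505 * yM + 1000 * G ^ 2) / (800 * G ^ 2) := by
      field_simp; ring
    rw [e2, div_le_iff₀ (by positivity)]
    linarith

end Crest.Agent.R213.Sh
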