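import Crest.Agent.R213.ShCh

/-!
# R213 / ShPsi : the tube nonlinearity
-/

set_option autoImplicit false

open Set Filter Topology
open scoped ContDiff

noncomputable section

namespace Crest.Agent.R213.Sh

theorem psi_cl_bd (m g : ℝ) : m - eta ≤ cl m g ∧ cl m g ≤ m + eta :=
  ⟨le_max_left _ _, max_le (by unfold eta; linarith) (min_le_right _ _)⟩

theorem psi_cl_pos {m : ℝ} (hm : 1 / 8 ≤ m) (g : ℝ) : 0 < cl m g := by
  have := (psi_cl_bd m g).1
  unfold eta at this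
  linarith

theorem psi_cl_mono (m : ℝ) {g g' : ℝ} (h : g' ≤ g) : 0 ≤ cl m g - cl m g' ∧ cl m g - cl m g' ≤ g - g' := by
  unfold cl
  simp only [max_def, min_def]
  split_ifs <;> constructor <;> linarith

theorem psi_cl_slope (m g g' : ℝ) : ∃ t, 0 ≤ t ∧ t ≤ 1 ∧ cl m g - cl m g' = t * (g - g') := by
  rcases lt_trichotomy g' g with h | h | h
  · obtain ⟨h1, h2⟩ := psi_cl_mono m h.le
    have h3 : 0 < g - g' := sub_pos.2 h
    exact ⟨(cl m g - cl m g') / (g - g'), div_nonneg h1 h3.le, (div_le_one h3).2 h2, by field_simp⟩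
  · subst h
    exact ⟨0, le_rfl, zero_le_one, by simp⟩
  · obtain ⟨h1, h2⟩ := psi_cl_mono m h.le
    have h3 : 0 < g' - g := sub_pos.2 h
    refine ⟨(cl m g' - cl m g) / (g' - g), div_nonneg h1 h3.le, (div_le_one h3).2 h2, ?_⟩
    field_simp
    ring
theorem psi_cont {G : ℝ → ℝ} (hG : Continuous G) (h : ∀ s, 1 / 8 ≤ G s) :
    Continuous (Function.uncurry fun s g => psi (G s) g) := by
  have h1 : Continuous fun q : ℝ × ℝ => G q.1 := hG.comp continuous_fst
  have h2 : Continuous fun q : ℝ × ℝ => cl (G q.1) q.2 := by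
    unfold cl
    fun_prop
  have h3 : ∀ q : ℝ × ℝ, 2 * cl (G q.1) q.2 ≠ 0 := fun q => by
    have := psi_cl_pos (h q.1) q.2
    positivity
  have h4 : ∀ q : ℝ × ℝ, 2 * G q.1 ^ 2 ≠ 0 := fun q => by
    have : 0 < G q.1 := lt_of_lt_of_le (by norm_num) (h q.1)
    positivity
  exact (continuous_const.div (continuous_const.mul h2) h3).sub
    ((continuous_snd.sub h2).div (continuous_const.mul (h1.pow 2)) h4)

theorem psi_eq {m g : ℝ} (h : |g - m| ≤ eta) : psi m g = 1 / (2 * g) := by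
  obtain ⟨h1, h2⟩ := abs_le.1 h
  have e : cl m g = g := by
    unfold cl
    rw [min_eq_left (by linarith), max_eq_right (by linarith)]
  rw [psi, e, sub_self, zero_div, sub_zero]

/-- with `x = cl m g`, `x' = cl m g'`: `x - x'` and `(g - x) - (g' - x')` have the sign of `g - g'` and sum `g - g'`;
`1/(2x) - 1/(2x') = -(x - x')/(2 x x')`. -/
theorem psi_slope {m : ℝ} (hm : 1 / 8 ≤ m) (g g' : ℝ) :
    ∃ κ, 1 / (2 * (m + eta) ^ 2) ≤ κ ∧ κ ≤ 1 / (2 * (m - eta) ^ 2) ∧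
      psi m g - psi m g' = -κ * (g - g') := by
  obtain ⟨t, t0, t1, ht⟩ := psi_cl_slope m g g'
  obtain ⟨a1, a2⟩ := psi_cl_bd m g
  obtain ⟨b1, b2⟩ := psi_cl_bd m g'
  have x0 := psi_cl_pos hm g
  have y0 := psi_cl_pos hm g'
  have he : (0 : ℝ) < eta := by unfold eta; norm_num
  have hlo : 0 < m - eta := by unfold eta; linarith
  have m0 : 0 < m := by linarith
  have u1 : 1 / (2 * (m + eta) ^ 2) ≤ 1 / (2 * (cl m g * cl m g')) :=
    one_div_le_one_div_of_le (by positivity) (by nlinarith [mul_le_mul a2 b2 y0.le (by linarith)])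
  have u2 : 1 / (2 * (cl m g * cl m g')) ≤ 1 / (2 * (m - eta) ^ 2) :=
    one_div_le_one_div_of_le (by positivity) (by nlinarith [mul_le_mul a1 b1 hlo.le x0.le])
  have v1 : 1 / (2 * (m + eta) ^ 2) ≤ 1 / (2 * m ^ 2) :=
    one_div_le_one_div_of_le (by positivity) (by nlinarith)
  have v2 : 1 / (2 * m ^ 2) ≤ 1 / (2 * (m - eta) ^ 2) :=
    one_div_le_one_div_of_le (by positivity) (by nlinarith)
  refine ⟨t * (1 / (2 * (cl m g * cl m g'))) + (1 - t) * (1 / (2 * m ^ 2)), by nlinarith, by nlinarith, ?_⟩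
  have e1 : 1 / (2 * cl m g) - 1 / (2 * cl m g') = -(cl m g - cl m g') * (1 / (2 * (cl m g * cl m g'))) := by
    field_simp
    ring
  have e2 : psi m g - psi m g' = (1 / (2 * cl m g) - 1 / (2 * cl m g')) -
      ((g - g') - (cl m g - cl m g')) * (1 / (2 * m ^ 2)) := by
    unfold psi
    ring
  rw [e2, e1, ht]
  ring

theorem psi_lip {m : ℝ} (hm : 1 / 8 ≤ m) (g g' : ℝ) :
    |psi m g - psi m g'| ≤ 101 / 100 / (2 * m ^ 2) * |g - g'| := by
  obtain ⟨κ, h1, h2, h3⟩ := psi_slope hm g g'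
  have hlo : 0 < m - eta := by unfold eta; linarith
  have m0 : 0 < m := by linarith
  have he : (0 : ℝ) < eta := by unfold eta; norm_num
  have k0 : 0 ≤ κ := le_trans (by positivity) h1
  rw [h3, abs_mul, abs_neg, abs_of_nonneg k0]
  refine mul_le_mul_of_nonneg_right (h2.trans ?_) (abs_nonneg _)
  rw [div_le_div_iff₀ (by positivity) (by positivity)]
  have h4 : 249 / 250 * m ≤ m - eta := by unfold eta; linarith
  have h5 : (249 / 250 * m) ^ 2 ≤ (m - eta) ^ 2 := pow_le_pow_left₀ (by positivity) h4 2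
  nlinarith

theorem psi_lip' {m : ℝ} (hm : 1 / 8 ≤ m) (g g' : ℝ) : |psi m g - psi m g'| ≤ 33 * |g - g'| := by
  refine (psi_lip hm g g').trans (mul_le_mul_of_nonneg_right ?_ (abs_nonneg _))
  have m0 : 0 < m := by linarith
  rw [div_le_iff₀ (by positivity)]
  nlinarith

theorem psi_bd {m : ℝ} (hm : 1 / 8 ≤ m) (hm2 : m ≤ 2) : |psi m 1| ≤ 100 := by
  have h1 := psi_lip' hm 1 m
  have h2 : psi m m = 1 / (2 * m) := psi_eq (by rw [sub_self, abs_zero]; unfold eta; norm_num)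
  have m0 : 0 < m := by linarith
  have h3 : 1 / (2 * m) ≤ 4 := by
    rw [div_le_iff₀ (by positivity)]
    linarith
  have h4 : 0 ≤ 1 / (2 * m) := by positivity
  have h5 : |1 - m| ≤ 1 := abs_le.2 ⟨by linarith, by linarith⟩
  obtain ⟨h6, h7⟩ := abs_le.1 h1
  exact abs_le.2 ⟨by linarith, by linarith⟩

theorem psi_slope2 {m : ℝ} (hm : 71 / 100 ≤ m) (hm2 : m ≤ 716 / 1000) (g g' : ℝ) :
    ∃ κ, 97 / 100 ≤ κ ∧ κ ≤ 1 ∧ psi m g - psi m g' = -κ * (g - g') := by
  obtain ⟨κ, h1, h2, h3⟩ := psi_slope (m := m) (by linarith) g g'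
  refine ⟨κ, le_trans ?_ h1, h2.trans ?_, h3⟩
  · have : 0 < m + eta := by unfold eta; linarith
    rw [le_div_iff₀ (by positivity)]
    unfold eta
    nlinarith
  · have : 0 < m - eta := by unfold eta; linarith
    rw [div_le_iff₀ (by positivity)]
    unfold eta
    nlinarith

/-- `1/(2(m+d)) - 1/(2m) + d/(2m²) = d²/(2 m² (m+d))`. -/
theorem psi_taylor {m d : ℝ} (hm : 1 / 8 ≤ m) (hd : |d| ≤ eta) :
    |psi m (m + d) - 1 / (2 * m) + d / (2 * m ^ 2)| ≤ 300 * d ^ 2 := by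
  rw [psi_eq (by rwa [add_sub_cancel_left])]
  obtain ⟨h1, h2⟩ := abs_le.1 hd
  unfold eta at h1 h2
  have m0 : 0 < m := by linarith
  have md : 0 < m + d := by linarith
  have e : 1 / (2 * (m + d)) - 1 / (2 * m) + d / (2 * m ^ 2) = d ^ 2 / (2 * m ^ 2 * (m + d)) := by
    field_simp
    ring
  rw [e, abs_of_nonneg (by positivity), div_le_iff₀ (by positivity)]
  have h3 : 1 / 64 ≤ m ^ 2 := by nlinarith
  have h4 : 1 / 64 * (249 / 2000) ≤ m ^ 2 * (m + d) := mul_le_mul h3 (by linarith) (by norm_num) (by positivity)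
  nlinarith [sq_nonneg d]

/-- `W.u` is continuous on every `Icc 0 S`, hence on `Ici 0`. -/
theorem Cert.Gc_cont (K : Cert) : Continuous K.Gc := by
  have h : ContinuousOn K.W.u (Ici 0) := fun y hy => by
    have h1 := (K.chW (y + 1)).cu y ⟨hy, by linarith⟩
    refine h1.mono_of_mem_nhdsWithin ?_
    rw [← Ici_inter_Iic]
    exact inter_mem_nhdsWithin _ (Iic_mem_nhds (by linarith))
  have h2 : Continuous fun s : ℝ => max s 0 := by fun_prop
  have h3 : Continuous fun s : ℝ => K.W.u (max s 0) := h.comp_continuous h2 fun s => mem_Ici.2 (le_max_right _ _)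
  exact continuous_const.add (h2.mul h3)

theorem Cert.Gc_bd (K : Cert) (s : ℝ) : 1 / 8 ≤ K.Gc s ∧ K.Gc s ≤ 2 := by
  unfold Cert.Gc
  by_cases h : max s 0 < 125
  · have := K.s1 _ ⟨le_max_right _ _, h⟩
    exact ⟨this.1, this.2.1⟩
  · have := K.s2 _ (not_lt.1 h)
    exact ⟨by linarith [this.1], by linarith [this.2.1]⟩

theorem Cert.Gc_eq (K : Cert) {s : ℝ} (hs : 0 ≤ s) : K.Gc s = K.W.G s := by
  rw [Cert.Gc, max_eq_left hs]

end Crest.Agent.R213.Sh
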