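import Crest.Agent.R213.ShPsi
import Crest.Agent.R213.ShJ

/-!
# R213 / ShSt1 : the estimate on `[0,125]`
-/

set_option autoImplicit false

open Set Filter Topology
open scoped ContDiff

noncomputable section

namespace Crest.Agent.R213.Sh

theorem Cert.Sol.isCh {K : Cert} {p : ℝ × ℝ} {w : ℝ → ℝ} (hw : K.Sol p w) (lo hi : ℝ) :
    IsCh (K.ch p w) lo hi := by
  have h1 := psi_cont K.Gc_cont (fun s => (K.Gc_bd s).1)
  have h2 : Continuous fun s : ℝ => (s, 1 + w s) := continuous_id.prodMk (continuous_const.add hw.1)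
  exact vch_isCh _ ((h1.comp h2).sub continuous_const) lo hi

theorem st1_rho_pos : 0 < rho := by unfold rho; positivity

theorem st1_xi {ξ : Fin 2 → ℝ} (hξ : ‖ξ‖ ≤ 1) (i : Fin 2) : |ξ i| ≤ 1 :=
  (norm_le_pi_norm ξ i).trans hξ

theorem st1_mul {x a B : ℝ} (hx : |x| ≤ 1) (ha : |a| ≤ B) : |rho * x * a| ≤ rho * B := by
  rw [abs_mul, abs_mul, abs_of_pos st1_rho_pos, mul_assoc]
  refine mul_le_mul_of_nonneg_left ?_ st1_rho_pos.le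
  calc |x| * |a| ≤ 1 * B := mul_le_mul hx ha (abs_nonneg _) zero_le_one
    _ = B := one_mul _

theorem st1_d {x0 x1 a b : ℝ} (h0 : |x0| ≤ 1) (h1 : |x1| ≤ 1) (ha : |a| ≤ 8) (hb : |b| ≤ 8) :
    |rho * x0 * a + rho * x1 * b| ≤ 16 * rho := by
  have e1 := st1_mul h0 ha
  have e2 := st1_mul h1 hb
  have e3 := abs_add_le (rho * x0 * a) (rho * x1 * b)
  linarith

/-- `D1 = ch - W - ρξ₀ P1 - ρξ₁ P2`, `D1.H 0 = 0`.  With `m = W.G y`, `d = ρ(ξ₀ y P1.u + ξ₁ y P2.u)`, `|d| ≤ 16ρ ≤ eta`,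
`1 + w y = m + d + y D1.u`:
`D1.F = [psi m (1+w) - psi m (m+d)] + [psi m (m+d) - 1/(2m) + d/(2m²)] + resW + ρξ₀ res₁ + ρξ₁ res₂`, so
`|D1.F| ≤ k |y D1.u| + ε`, `k = 1.01/(2m²)`, `ε = 300·256ρ² + 2^-123 + 2ρ 2^-54 ≤ 3ρ/2^53`; `boot`. -/
theorem st1_boot (K : Cert) {ξ : Fin 2 → ℝ} (hξ : ‖ξ‖ ≤ 1) {w : ℝ → ℝ} (hw : K.Sol (K.par ξ) w) :
    ∀ y ∈ Icc (0 : ℝ) 125,
      |((((K.ch (K.par ξ) w).lin (-1) K.W).lin (-(rho * ξ 0)) K.P1).lin (-(rho * ξ 1)) K.P2).u y| ≤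
        3 * rho / 2 ^ 53 * K.M.u y ∧
      |((((K.ch (K.par ξ) w).lin (-1) K.W).lin (-(rho * ξ 0)) K.P1).lin (-(rho * ξ 1)) K.P2).a y| ≤
        3 * rho / 2 ^ 53 * K.M.a y ∧
      |((((K.ch (K.par ξ) w).lin (-1) K.W).lin (-(rho * ξ 0)) K.P1).lin (-(rho * ξ 1)) K.P2).H y| ≤
        3 * rho / 2 ^ 53 * K.M.H y := by
  have hρ := st1_rho_pos
  have hx0 := st1_xi hξ 0
  have hx1 := st1_xi hξ 1
  refine boot (fun y => 101 / 100 / (2 * K.W.G y ^ 2))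
    ((((hw.isCh 0 125).lin _ (K.chW 125)).lin _ K.chP1).lin _ K.chP2) K.chM (by norm_num)
    (by positivity) ?_ K.M0 ?_
  · simp only [Ch.lin, Cert.ch, vch, Cert.par, K.W0, K.P10, K.P20]
    ring
  · intro y hy
    obtain ⟨hG, -, hW, ⟨hP1, hB1⟩, ⟨hP2, hB2⟩, hM1, -, hM3⟩ := K.s1 y hy
    have hG0 : 0 < K.W.G y := by linarith
    refine ⟨by positivity, hM1, ?_, ?_⟩
    · refine le_trans (le_of_eq ?_) hM3
      ring
    · set d : ℝ := rho * ξ 0 * (y * K.P1.u y) + rho * ξ 1 * (y * K.P2.u y) with hd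
      have hd16 : |d| ≤ 16 * rho := st1_d hx0 hx1 hB1 hB2
      have hde : |d| ≤ eta := hd16.trans (by unfold rho eta; norm_num)
      have t1 := psi_lip hG (1 + w y) (K.W.G y + d)
      have t2 := psi_taylor hG hde
      have t3 : |1 / (2 * K.W.G y) - K.c0 - K.W.F y| ≤ 1 / 2 ^ 123 := hW
      have t4 := st1_mul hx0 hP1
      have t5 := st1_mul hx1 hP2
      have hu : 1 + w y - (K.W.G y + d) =
          y * ((((K.ch (K.par ξ) w).lin (-1) K.W).lin (-(rho * ξ 0)) K.P1).lin (-(rho * ξ 1)) K.P2).u y := by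
        have e : w y = y * (K.ch (K.par ξ) w).u y := hw.2 y
        rw [e, hd]
        simp only [Ch.lin, Ch.G]
        ring
      rw [hu] at t1
      have hF : ((((K.ch (K.par ξ) w).lin (-1) K.W).lin (-(rho * ξ 0)) K.P1).lin (-(rho * ξ 1)) K.P2).F y =
          (psi (K.W.G y) (1 + w y) - psi (K.W.G y) (K.W.G y + d)) +
          (psi (K.W.G y) (K.W.G y + d) - 1 / (2 * K.W.G y) + d / (2 * K.W.G y ^ 2)) +
          (1 / (2 * K.W.G y) - K.c0 - K.W.F y) +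
          rho * ξ 0 * (-(y * K.P1.u y) / (2 * K.W.G y ^ 2) - K.β1 - K.P1.F y) +
          rho * ξ 1 * (-(y * K.P2.u y) / (2 * K.W.G y ^ 2) - K.β2 - K.P2.F y) := by
        simp only [Ch.lin, Cert.ch, vch, Cert.par, K.Gc_eq hy.1, hd]
        ring
      have hd2 : d ^ 2 ≤ (16 * rho) ^ 2 := by
        rw [← sq_abs d]
        exact pow_le_pow_left₀ (abs_nonneg _) hd16 2
      have hnum : 300 * (16 * rho) ^ 2 + 1 / 2 ^ 123 + rho * (1 / 2 ^ 54) + rho * (1 / 2 ^ 54) ≤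
          3 * rho / 2 ^ 53 := by
        unfold rho
        norm_num
      rw [hF]
      obtain ⟨a1, b1⟩ := abs_le.1 t1
      obtain ⟨a2, b2⟩ := abs_le.1 t2
      obtain ⟨a3, b3⟩ := abs_le.1 t3
      obtain ⟨a4, b4⟩ := abs_le.1 t4
      obtain ⟨a5, b5⟩ := abs_le.1 t5
      rw [abs_le]
      constructor <;> linarith

theorem st1_tube (K : Cert) {ξ : Fin 2 → ℝ} (hξ : ‖ξ‖ ≤ 1) {w : ℝ → ℝ} (hw : K.Sol (K.par ξ) w) :
    ∀ y ∈ Ico (0 : ℝ) 125, |w y - y * K.W.u y| ≤ eta := by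
  intro y hy
  have hρ := st1_rho_pos
  obtain ⟨-, -, -, ⟨-, hB1⟩, ⟨-, hB2⟩, hM1, hM2, -⟩ := K.s1 y hy
  have h1 := (st1_boot K hξ hw y ⟨hy.1, hy.2.le⟩).1
  have hd16 := st1_d (st1_xi hξ 0) (st1_xi hξ 1) hB1 hB2
  have e : w y - y * K.W.u y = (rho * ξ 0 * (y * K.P1.u y) + rho * ξ 1 * (y * K.P2.u y)) +
      y * ((((K.ch (K.par ξ) w).lin (-1) K.W).lin (-(rho * ξ 0)) K.P1).lin (-(rho * ξ 1)) K.P2).u y := by
    have e : w y = y * (K.ch (K.par ξ) w).u y := hw.2 y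
    rw [e]
    simp only [Ch.lin]
    ring
  have h2 : |y * ((((K.ch (K.par ξ) w).lin (-1) K.W).lin (-(rho * ξ 0)) K.P1).lin
      (-(rho * ξ 1)) K.P2).u y| ≤ 3 * rho / 2 ^ 53 * 2 ^ 42 := by
    rw [abs_mul, abs_of_nonneg hy.1]
    calc _ ≤ y * (3 * rho / 2 ^ 53 * K.M.u y) := mul_le_mul_of_nonneg_left h1 hy.1
      _ = 3 * rho / 2 ^ 53 * (y * K.M.u y) := by ring
      _ ≤ _ := mul_le_mul_of_nonneg_left hM2 (by positivity)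
  have hnum : 16 * rho + 3 * rho / 2 ^ 53 * 2 ^ 42 ≤ eta := by
    unfold rho eta
    norm_num
  rw [e]
  exact (abs_add_le _ _).trans (by linarith)

/-- `D2 = D1 + ρξ₀ (P1 - β1 Q) + ρξ₁ (P2 - β2 Q)`; the state of `D1` at `z = 5` is at most `3ρ 2^42/2^53 ≤ ρ/500`
in each component (`st1_boot` at `y = 125 = 5^3`, `K.eM`). -/
theorem st1_end (K : Cert) {ξ : Fin 2 → ℝ} (hξ : ‖ξ‖ ≤ 1) {w : ℝ → ℝ} (hw : K.Sol (K.par ξ) w) :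
    |(K.D2 ξ w).x0 5 + (K.D2 ξ w).x1 5 - rho * ξ 0| ≤ rho / 100 ∧
    |(K.D2 ξ w).x1 5 + (K.D2 ξ w).x2 5 - rho * ξ 1| ≤ rho / 100 ∧
    |(K.D2 ξ w).x0 5 - (K.D2 ξ w).x1 5 + (K.D2 ξ w).x2 5| ≤ 101 / 100 * rho := by
  have hρ := st1_rho_pos
  have hx0 := st1_xi hξ 0
  have hx1 := st1_xi hξ 1
  obtain ⟨h0, h1, h2⟩ := st1_boot K hξ hw 125 ⟨by norm_num, le_rfl⟩
  set D1 := (((K.ch (K.par ξ) w).lin (-1) K.W).lin (-(rho * ξ 0)) K.P1).lin (-(rho * ξ 1)) K.P2 with hD1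
  obtain ⟨m0, m1, m2⟩ := K.eM
  have h125 : (5 : ℝ) ^ 3 = 125 := by norm_num
  have hε : 0 ≤ 3 * rho / 2 ^ 53 := by positivity
  have hnum : 3 * rho / 2 ^ 53 * 2 ^ 42 ≤ rho / 600 := by
    unfold rho
    norm_num
  have b0 : |D1.x0 5| ≤ rho / 600 := by
    refine le_trans ?_ ((mul_le_mul_of_nonneg_left m0 hε).trans hnum)
    simp only [Ch.x0, h125]
    rw [abs_mul, abs_of_pos (by norm_num : (0 : ℝ) < 125)]
    linarith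
  have b1 : |D1.x1 5| ≤ rho / 600 := by
    refine le_trans ?_ ((mul_le_mul_of_nonneg_left m1 hε).trans hnum)
    simp only [Ch.x1, h125]
    rw [abs_mul, abs_of_pos (by norm_num : (0 : ℝ) < 5)]
    linarith
  have b2 : |D1.x2 5| ≤ rho / 600 := by
    refine le_trans ?_ ((mul_le_mul_of_nonneg_left m2 hε).trans hnum)
    simp only [Ch.x2, h125]
    rw [abs_div, abs_of_pos (by norm_num : (0 : ℝ) < 5)]
    linarith
  have e0 : (K.D2 ξ w).x0 5 = D1.x0 5 + rho * ξ 0 * (K.P1.lin (-K.β1) K.Q).x0 5 +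
      rho * ξ 1 * (K.P2.lin (-K.β2) K.Q).x0 5 := by
    simp only [hD1, Cert.D2, Ch.x0, Ch.lin]
    ring
  have e1 : (K.D2 ξ w).x1 5 = D1.x1 5 + rho * ξ 0 * (K.P1.lin (-K.β1) K.Q).x1 5 +
      rho * ξ 1 * (K.P2.lin (-K.β2) K.Q).x1 5 := by
    simp only [hD1, Cert.D2, Ch.x1, Ch.lin]
    ring
  have e2 : (K.D2 ξ w).x2 5 = D1.x2 5 + rho * ξ 0 * (K.P1.lin (-K.β1) K.Q).x2 5 +
      rho * ξ 1 * (K.P2.lin (-K.β2) K.Q).x2 5 := by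
    simp only [hD1, Cert.D2, Ch.x2, Ch.lin]
    ring
  obtain ⟨c0, d0⟩ := abs_le.1 b0
  obtain ⟨c1, d1⟩ := abs_le.1 b1
  obtain ⟨c2, d2⟩ := abs_le.1 b2
  obtain ⟨p1, q1⟩ := abs_le.1 (st1_mul hx0 K.e11)
  obtain ⟨p2, q2⟩ := abs_le.1 (st1_mul hx0 K.e12)
  obtain ⟨p3, q3⟩ := abs_le.1 (st1_mul hx1 K.e21)
  obtain ⟨p4, q4⟩ := abs_le.1 (st1_mul hx1 K.e22)
  obtain ⟨p5, q5⟩ := abs_le.1 (st1_mul hx0 (le_refl |(K.P1.lin (-K.β1) K.Q).x0 5 -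
    (K.P1.lin (-K.β1) K.Q).x1 5 + (K.P1.lin (-K.β1) K.Q).x2 5|))
  obtain ⟨p6, q6⟩ := abs_le.1 (st1_mul hx1 (le_refl |(K.P2.lin (-K.β2) K.Q).x0 5 -
    (K.P2.lin (-K.β2) K.Q).x1 5 + (K.P2.lin (-K.β2) K.Q).x2 5|))
  have hs := mul_le_mul_of_nonneg_left K.es hρ.le
  rw [e0, e1, e2]
  refine ⟨abs_le.2 ⟨?_, ?_⟩, abs_le.2 ⟨?_, ?_⟩, abs_le.2 ⟨?_, ?_⟩⟩ <;> linarith

end Crest.Agent.R213.Sh
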