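import Crest.Agent.R213.ShCone

/-!
# R213 / ShSys : from chains to `Sys`; the weighted decay lemma
-/

set_option autoImplicit false

open Set Filter Topology
open scoped ContDiff

noncomputable section

namespace Crest.Agent.R213.Sh

/-- `x0 z = (t^11 u)(z³)/z^30`, `x1 z = (t^10 a)(z³)/z^29`, `x2 z = H(z³)/z`; chain rule for right derivatives
(`HasDerivWithinAt.comp` with `MapsTo (·^3) (Ici z) (Ici (z^3))`, then `congr` on `Ici z`). -/
theorem sys_of_chain {c : Ch} {E z0 z1 : ℝ} (h : IsCh c (z0 ^ 3) (z1 ^ 3)) (hz : 0 < z0)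
    (hF : ∀ y ∈ Ico (z0 ^ 3) (z1 ^ 3), ∃ κ e : ℝ, 97 / 100 ≤ κ ∧ κ ≤ 1 ∧ |e| ≤ E ∧
      c.F y = -κ * (y * c.u y) + e) :
    Sys 0 E z0 z1 c.x0 c.x1 c.x2 := by
  have hmaps : MapsTo (fun z : ℝ => z ^ 3) (Icc z0 z1) (Icc (z0 ^ 3) (z1 ^ 3)) := by
    intro z hz'
    exact ⟨pow_le_pow_left₀ hz.le hz'.1 3, pow_le_pow_left₀ (hz.le.trans hz'.1) hz'.2 3⟩
  have hc3 : ContinuousOn (fun z : ℝ => z ^ 3) (Icc z0 z1) := (continuous_pow 3).continuousOn
  refine ⟨?_, ?_, ?_, ?_⟩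
  · exact hc3.mul (h.cu.comp hc3 hmaps)
  · exact continuousOn_id.mul (h.ca.comp hc3 hmaps)
  · exact (h.cH.comp hc3 hmaps).div continuousOn_id fun z hz' => (hz.trans_le hz'.1).ne'
  · intro z hz'
    have hz0 : 0 < z := hz.trans_le hz'.1
    have hne : z ≠ 0 := hz0.ne'
    have hy : z ^ 3 ∈ Ico (z0 ^ 3) (z1 ^ 3) :=
      ⟨pow_le_pow_left₀ hz.le hz'.1 3, pow_lt_pow_left₀ hz'.2 hz0.le (by norm_num)⟩
    obtain ⟨κ, e, k1, k2, k3, hFy⟩ := hF _ hy
    have hm : MapsTo (fun t : ℝ => t ^ 3) (Ici z) (Ici (z ^ 3)) := fun t ht =>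
      pow_le_pow_left₀ hz0.le ht 3
    have hp : ∀ n : ℕ, HasDerivWithinAt (fun t : ℝ => t ^ n) (n * z ^ (n - 1)) (Ici z) z :=
      fun n => (hasDerivAt_pow n z).hasDerivWithinAt
    have comp : ∀ {f : ℝ → ℝ} {f' : ℝ}, HasDerivWithinAt f f' (Ici (z ^ 3)) (z ^ 3) →
        HasDerivWithinAt (fun t => f (t ^ 3)) (f' * (3 * z ^ 2)) (Ici z) z := by
      intro f f' hf
      have h3 : HasDerivWithinAt (fun t : ℝ => t ^ 3) (3 * z ^ 2) (Ici z) z := by
        simpa using hp 3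
      exact HasDerivWithinAt.comp z (h₂ := f) (h := fun t : ℝ => t ^ 3) hf h3 hm
    refine ⟨κ, e, k1, k2, k3, ?_, ?_, ?_⟩
    · have h1 := (comp (h.du _ hy)).fun_div (hp 30) (pow_ne_zero 30 hne)
      have h2 : HasDerivWithinAt c.x0 _ (Ici z) z := h1.congr
        (fun t ht => by
          have ht0 : t ≠ 0 := (hz0.trans_le ht).ne'
          simp only [Ch.x0]
          field_simp)
        (by
          simp only [Ch.x0]
          field_simp)
      convert h2 using 1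
      simp only [Ch.x0, Ch.x1]
      push_cast
      field_simp
      ring
    · have h1 := (comp (h.da _ hy)).fun_div (hp 29) (pow_ne_zero 29 hne)
      have h2 : HasDerivWithinAt c.x1 _ (Ici z) z := h1.congr
        (fun t ht => by
          have ht0 : t ≠ 0 := (hz0.trans_le ht).ne'
          simp only [Ch.x1]
          field_simp)
        (by
          simp only [Ch.x1]
          field_simp)
      convert h2 using 1
      simp only [Ch.x1, Ch.x2]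
      push_cast
      field_simp
      ring
    · have h1 := (comp (h.dH _ hy)).fun_div (hasDerivWithinAt_id z (Ici z)) hne
      have h2 : HasDerivWithinAt c.x2 _ (Ici z) z := h1.congr
        (fun t _ => by simp only [Ch.x2, id])
        (by simp only [Ch.x2, id])
      convert h2 using 1
      simp only [Ch.x0, Ch.x2, id, hFy]
      field_simp
      ring

/-- `X0 = z^6 v0(z³)`, `X1 = z^4 v1(z³)`, `X2 = z^2 v2(z³)` satisfy `Sys 6 E 5 S` for all `S` with `E = C + 1`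
(forcing `z^6 e(z³)`).  If `Qf > 800E²` at some `za ≥ 5`, `cone_grow` gives exponential growth, against
`Qf ≤ |X|² ≤ 3C² z^24`.  So `Qf ≤ 800E²`, `cone_bound` bounds `s²`, and `|X|² = Qf + (2/3)s²` is bounded;
for `y ≥ 125` take `z = y^(1/3) ≥ 5` (or the intermediate value theorem). -/
theorem wl {v0 v1 v2 κ e : ℝ → ℝ} {C : ℝ}
    (h0 : ∀ y, 125 ≤ y → HasDerivAt v0 ((v1 y - 10 * v0 y) / y) y)
    (h1 : ∀ y, 125 ≤ y → HasDerivAt v1 ((v2 y - 9 * v1 y) / y) y)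
    (h2 : ∀ y, 125 ≤ y → HasDerivAt v2 ((v2 y + y ^ 2 * (-κ y * v0 y + e y)) / y) y)
    (hκ : ∀ y, 125 ≤ y → 97 / 100 ≤ κ y ∧ κ y ≤ 1) (he : ∀ y, 125 ≤ y → |e y| * y ^ 2 ≤ C)
    (hb : ∀ y, 125 ≤ y → |v0 y| ≤ C * y ^ 2 ∧ |v1 y| ≤ C * y ^ 2 ∧ |v2 y| ≤ C * y ^ 2) :
    ∃ C', ∀ y, 125 ≤ y → |v0 y| * y ^ 2 ≤ C' ∧ |v1 y| ≤ C' ∧ |v2 y| ≤ C' := by
  have hC : 0 ≤ C := le_trans (by positivity) (he 125 le_rfl)
  set E := C + 1 with hEdef
  have hE : 0 < E := by linarith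
  set X0 : ℝ → ℝ := fun z => z ^ 6 * v0 (z ^ 3) with hX0
  set X1 : ℝ → ℝ := fun z => z ^ 4 * v1 (z ^ 3) with hX1
  set X2 : ℝ → ℝ := fun z => z ^ 2 * v2 (z ^ 3) with hX2
  have hy : ∀ z : ℝ, 5 ≤ z → 125 ≤ z ^ 3 := fun z hz => by
    have := pow_le_pow_left₀ (by norm_num : (0 : ℝ) ≤ 5) hz 3
    linarith
  have comp : ∀ {f : ℝ → ℝ} {f' z : ℝ}, HasDerivAt f f' (z ^ 3) →
      HasDerivAt (fun t => f (t ^ 3)) (f' * (3 * z ^ 2)) z := by
    intro f f' z hf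
    have h3 : HasDerivAt (fun t : ℝ => t ^ 3) (3 * z ^ 2) z := by
      simpa using hasDerivAt_pow 3 z
    exact HasDerivAt.comp z (h₂ := f) (h := fun t : ℝ => t ^ 3) hf h3
  have d0 : ∀ z, 5 ≤ z → HasDerivAt X0 (3 * z * X1 z + (6 - 30) / z * X0 z) z := by
    intro z hz
    have hne : z ≠ 0 := (show (0 : ℝ) < z by linarith).ne'
    have h : HasDerivAt X0 _ z := (hasDerivAt_pow 6 z).fun_mul (comp (h0 _ (hy z hz)))
    refine h.congr_deriv ?_
    simp only [hX0, hX1]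
    push_cast
    field_simp
    ring
  have d1 : ∀ z, 5 ≤ z → HasDerivAt X1 (3 * z * X2 z + (6 - 29) / z * X1 z) z := by
    intro z hz
    have hne : z ≠ 0 := (show (0 : ℝ) < z by linarith).ne'
    have h : HasDerivAt X1 _ z := (hasDerivAt_pow 4 z).fun_mul (comp (h1 _ (hy z hz)))
    refine h.congr_deriv ?_
    simp only [hX1, hX2]
    push_cast
    field_simp
    ring
  have d2 : ∀ z, 5 ≤ z → HasDerivAt X2
      (3 * z * (-κ (z ^ 3) * X0 z + z ^ 6 * e (z ^ 3)) + (6 - 1) / z * X2 z) z := by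
    intro z hz
    have hne : z ≠ 0 := (show (0 : ℝ) < z by linarith).ne'
    have h : HasDerivAt X2 _ z := (hasDerivAt_pow 2 z).fun_mul (comp (h2 _ (hy z hz)))
    refine h.congr_deriv ?_
    simp only [hX0, hX2]
    push_cast
    field_simp
    ring
  have hS : ∀ S, Sys 6 E 5 S X0 X1 X2 := by
    intro S
    refine ⟨fun z hz => (d0 z hz.1).continuousAt.continuousWithinAt,
      fun z hz => (d1 z hz.1).continuousAt.continuousWithinAt,
      fun z hz => (d2 z hz.1).continuousAt.continuousWithinAt, fun z hz => ?_⟩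
    refine ⟨κ (z ^ 3), z ^ 6 * e (z ^ 3), (hκ _ (hy z hz.1)).1, (hκ _ (hy z hz.1)).2, ?_,
      (d0 z hz.1).hasDerivWithinAt, (d1 z hz.1).hasDerivWithinAt, (d2 z hz.1).hasDerivWithinAt⟩
    have h := he _ (hy z hz.1)
    have : |z ^ 6 * e (z ^ 3)| = |e (z ^ 3)| * (z ^ 3) ^ 2 := by
      rw [abs_mul, abs_of_nonneg (by positivity : (0 : ℝ) ≤ z ^ 6)]
      ring
    linarith
  have hup : ∀ z, 5 ≤ z → Qf (X0 z) (X1 z) (X2 z) ≤ 3 * C ^ 2 * z ^ 24 := by
    intro z hz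
    have hz1 : 1 ≤ z := by linarith
    have hz0 : 0 ≤ z := by linarith
    obtain ⟨b0, b1, b2⟩ := hb _ (hy z hz)
    have key : ∀ (m : ℕ) (v : ℝ), m ≤ 6 → |v| ≤ C * (z ^ 3) ^ 2 →
        (z ^ m * v) ^ 2 ≤ C ^ 2 * z ^ 24 := by
      intro m v hm hv
      have a1 : z ^ m ≤ z ^ 6 := pow_le_pow_right₀ hz1 hm
      have a2 : |z ^ m * v| ≤ z ^ 6 * (C * (z ^ 3) ^ 2) := by
        rw [abs_mul, abs_of_nonneg (pow_nonneg hz0 m)]
        exact mul_le_mul a1 hv (abs_nonneg _) (pow_nonneg hz0 6)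
      have a3 := pow_le_pow_left₀ (abs_nonneg _) a2 2
      rw [sq_abs] at a3
      calc (z ^ m * v) ^ 2 ≤ (z ^ 6 * (C * (z ^ 3) ^ 2)) ^ 2 := a3
        _ = C ^ 2 * z ^ 24 := by ring
    have k0 : X0 z ^ 2 ≤ C ^ 2 * z ^ 24 := key 6 _ le_rfl b0
    have k1 : X1 z ^ 2 ≤ C ^ 2 * z ^ 24 := key 4 _ (by norm_num) b1
    have k2 : X2 z ^ 2 ≤ C ^ 2 * z ^ 24 := key 2 _ (by norm_num) b2
    unfold Qf
    nlinarith [sq_nonneg (X0 z - X1 z + X2 z)]
  have hQ : ∀ z, 5 ≤ z → Qf (X0 z) (X1 z) (X2 z) ≤ 800 * E ^ 2 := by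
    intro za hza
    by_contra hc
    have hc' := not_le.1 hc
    set Q := Qf (X0 za) (X1 za) (X2 za) with hQdef
    have hQ0 : 0 < Q := lt_trans (by positivity) hc'
    have hg : ∀ z, za ≤ z → Q * Real.exp ((z - za) / 10) ≤ 3 * C ^ 2 * z ^ 24 := by
      intro z hz
      have := cone_grow (hS z) le_rfl (by norm_num) (za := za) ⟨hza, hz⟩ hc' z ⟨hz, le_rfl⟩
      exact this.trans (hup z (hza.trans hz))
    have hlo := isLittleO_pow_exp_pos_mul_atTop 24 (b := 1 / 10) (by norm_num)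
    set c := Q * Real.exp (-(za / 10)) / (2 * (3 * C ^ 2 + 1)) with hcdef
    have hc0 : 0 < c := by positivity
    obtain ⟨z, hz1, hz2⟩ := ((hlo.def hc0).and (eventually_ge_atTop za)).exists
    have hz0 : 0 ≤ z := by linarith
    rw [Real.norm_of_nonneg (pow_nonneg hz0 24), Real.norm_of_nonneg (Real.exp_pos _).le] at hz1
    have h3 := hg z hz2
    have e1 : Real.exp ((z - za) / 10) = Real.exp (-(za / 10)) * Real.exp (1 / 10 * z) := by
      rw [← Real.exp_add]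
      congr 1
      ring
    have e2 : Q * Real.exp (-(za / 10)) = c * (2 * (3 * C ^ 2 + 1)) := by
      rw [hcdef]
      field_simp
    rw [e1, ← mul_assoc, e2] at h3
    have h4 := mul_le_mul_of_nonneg_left hz1 (by positivity : 0 ≤ 3 * C ^ 2)
    have h5 : 0 < c * Real.exp (1 / 10 * z) := by positivity
    have h6 : 0 ≤ C ^ 2 * (c * Real.exp (1 / 10 * z)) := by positivity
    nlinarith
  set M := max ((X0 5 - X1 5 + X2 5) ^ 2) (2400 * E ^ 2) with hM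
  have hs : ∀ z, 5 ≤ z → (X0 z - X1 z + X2 z) ^ 2 ≤ M := fun z hz =>
    cone_bound (hS z) le_rfl le_rfl hE (fun t ht => hQ t ht.1) z ⟨hz, le_rfl⟩
  refine ⟨800 * E ^ 2 + M + 1, fun y hy' => ?_⟩
  obtain ⟨z, hz, rfl⟩ : ∃ z : ℝ, 5 ≤ z ∧ y = z ^ 3 := by
    have hy0 : 0 ≤ y := by linarith
    have e := Real.rpow_inv_natCast_pow hy0 (n := 3) (by norm_num)
    refine ⟨y ^ (((3 : ℕ) : ℝ)⁻¹), ?_, e.symm⟩
    by_contra hlt
    have := pow_lt_pow_left₀ (not_le.1 hlt) (Real.rpow_nonneg hy0 _) (n := 3) (by norm_num)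
    rw [e] at this
    linarith
  have hz1 : 1 ≤ z := by linarith
  have hz0 : 0 ≤ z := by linarith
  have hsum : X0 z ^ 2 + X1 z ^ 2 + X2 z ^ 2 ≤ 800 * E ^ 2 + M := by
    have a := hQ z hz
    have b := hs z hz
    unfold Qf at a
    nlinarith [sq_nonneg (X0 z - X1 z + X2 z)]
  have habs : ∀ t : ℝ, |t| ≤ t ^ 2 + 1 := fun t => by
    rw [← sq_abs t]
    nlinarith [sq_nonneg (|t| - 1), abs_nonneg t]
  have key : ∀ (m : ℕ) (v : ℝ), |v| ≤ |z ^ m * v| := by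
    intro m v
    rw [abs_mul, abs_of_nonneg (pow_nonneg hz0 m)]
    exact le_mul_of_one_le_left (abs_nonneg _) (one_le_pow₀ hz1)
  refine ⟨?_, ?_, ?_⟩
  · have : |v0 (z ^ 3)| * (z ^ 3) ^ 2 = |X0 z| := by
      simp only [hX0]
      rw [abs_mul, abs_of_nonneg (pow_nonneg hz0 6)]
      ring
    rw [this]
    nlinarith [habs (X0 z), sq_nonneg (X1 z), sq_nonneg (X2 z)]
  · have : |v1 (z ^ 3)| ≤ |X1 z| := key 4 _
    nlinarith [habs (X1 z), sq_nonneg (X0 z), sq_nonneg (X2 z)]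
  · have : |v2 (z ^ 3)| ≤ |X2 z| := key 2 _
    nlinarith [habs (X2 z), sq_nonneg (X0 z), sq_nonneg (X1 z)]

end Crest.Agent.R213.Sh
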