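import Crest.Agent.R213.ShSt1
import Crest.Agent.R213.ShSys

/-!
# R213 / ShSt2 : the estimate on `[125,∞)`
-/

set_option autoImplicit false

open Set Filter Topology
open scoped ContDiff

noncomputable section

namespace Crest.Agent.R213.Sh

/-- `sys_of_chain`.  With `m = W.G y`, `β = ρ(ξ₀β1+ξ₁β2)`, `|β| ≤ 8ρ`, `d = β y Q.u`, `1 + w y = m + d + y D2.u`:
`D2.F = [psi m (1+w) - psi m (m+d)] + [psi m (m+d) - 1/(2m) + d/(2m²)] + resW + β resQ`; `psi_slope2`, `psi_taylor`;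
`|e| ≤ 300 (16ρ)² + 2^-80 + 8ρ 2^-14 ≤ ρ/200`. -/
theorem st2_sys (K : Cert) {ξ : Fin 2 → ℝ} (hξ : ‖ξ‖ ≤ 1) {w : ℝ → ℝ} (hw : K.Sol (K.par ξ) w)
    (S : ℝ) : Sys 0 (rho / 200) 5 S (K.D2 ξ w).x0 (K.D2 ξ w).x1 (K.D2 ξ w).x2 := by
  have hρ : 0 < rho := by unfold rho; positivity
  have h0 : |ξ 0| ≤ 1 := (norm_le_pi_norm ξ 0).trans hξ
  have h1 : |ξ 1| ≤ 1 := (norm_le_pi_norm ξ 1).trans hξ
  have h53 : (5 : ℝ) ^ 3 = 125 := by norm_num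
  set β : ℝ := rho * (ξ 0 * K.β1 + ξ 1 * K.β2) with hβ
  have hβb : |β| ≤ 8 * rho := by
    have e1 : |ξ 0 * K.β1| ≤ 1 * 4 := by
      rw [abs_mul]; exact mul_le_mul h0 K.hβ.1 (abs_nonneg _) zero_le_one
    have e2 : |ξ 1 * K.β2| ≤ 1 * 4 := by
      rw [abs_mul]; exact mul_le_mul h1 K.hβ.2 (abs_nonneg _) zero_le_one
    have e3 := abs_add_le (ξ 0 * K.β1) (ξ 1 * K.β2)
    rw [hβ, abs_mul, abs_of_pos hρ]
    nlinarith
  apply sys_of_chain _ (by norm_num)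
  · intro y hy
    rw [h53] at hy
    have hy0 : 0 ≤ y := le_trans (by norm_num) hy.1
    obtain ⟨hm1, hm2, hW, hQ, hQb⟩ := K.s2 y hy.1
    set m := K.W.G y with hm
    set d := β * (y * K.Q.u y) with hd
    have hdb : |d| ≤ 16 * rho := by
      rw [hd, abs_mul]
      have := mul_le_mul hβb hQb (abs_nonneg _) (by positivity)
      linarith
    have hde : |d| ≤ eta := hdb.trans (by unfold rho eta; norm_num)
    obtain ⟨κ, hκ1, hκ2, hκ⟩ := psi_slope2 hm1 hm2 (1 + w y) (m + d)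
    have ht := psi_taylor (m := m) (le_trans (by norm_num) hm1) hde
    refine ⟨κ, (psi m (m + d) - 1 / (2 * m) + d / (2 * m ^ 2)) + (1 / (2 * m) - K.c0 - K.W.F y) +
      β * (-(y * K.Q.u y) / (2 * m ^ 2) - 1 - K.Q.F y), hκ1, hκ2, ?_, ?_⟩
    · have e1 : |β * (-(y * K.Q.u y) / (2 * m ^ 2) - 1 - K.Q.F y)| ≤ 8 * rho * (1 / 2 ^ 14) := by
        rw [abs_mul]
        exact mul_le_mul hβb hQ (abs_nonneg _) (by positivity)
      have e2 : d ^ 2 ≤ (16 * rho) ^ 2 := by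
        rw [← sq_abs]; exact pow_le_pow_left₀ (abs_nonneg _) hdb 2
      have e3 : |1 / (2 * m) - K.c0 - K.W.F y| ≤ 1 / 2 ^ 80 := hW
      have e4 := abs_add_three (psi m (m + d) - 1 / (2 * m) + d / (2 * m ^ 2))
        (1 / (2 * m) - K.c0 - K.W.F y) (β * (-(y * K.Q.u y) / (2 * m ^ 2) - 1 - K.Q.F y))
      have e5 : 300 * (16 * rho) ^ 2 + 1 / 2 ^ 80 + 8 * rho * (1 / 2 ^ 14) ≤ rho / 200 := by
        unfold rho; norm_num
      linarith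
    · have eF : (K.D2 ξ w).F y = psi m (1 + w y) - (K.c0 + β) + -1 * K.W.F y + -β * K.Q.F y := by
        rw [hm, ← K.Gc_eq hy0]; rfl
      have eu : y * (K.D2 ξ w).u y = 1 + w y - (m + d) := by
        have e0 : (K.D2 ξ w).u y = (K.ch (K.par ξ) w).u y + -1 * K.W.u y + -β * K.Q.u y := rfl
        have e1 : w y = y * (K.ch (K.par ξ) w).u y := hw.2 y
        have e2 : m = 1 + y * K.W.u y := rfl
        rw [e0, e1, e2, hd]; ring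
      rw [eF, eu, ← hκ, hd]
      ring
  · rw [h53]
    exact ((hw.isCh _ _).lin (-1) ((K.chW (S ^ 3)).mono (by norm_num) le_rfl)).lin _
      (K.chQ (S ^ 3))
theorem st2_qf_eq (x0 x1 x2 : ℝ) : Qf x0 x1 x2 =
    (2 * ((x0 + x1) ^ 2 - (x0 + x1) * (x1 + x2) + (x1 + x2) ^ 2) - (x0 - x1 + x2) ^ 2) / 3 := by
  unfold Qf; ring

theorem st2_qf_nonpos {x0 x1 x2 : ℝ} (h1 : x0 + x1 = 0) (h2 : x1 + x2 = 0) : Qf x0 x1 x2 ≤ 0 := by
  rw [st2_qf_eq, h1, h2]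
  nlinarith [sq_nonneg (x0 - x1 + x2)]


/-- `3 Qf = 2(π₁² - π₁π₂ + π₂²) - s²` with `π₁ = x0+x1`, `π₂ = x1+x2`; at `z = 5`, `‖ξ‖ = 1`:
`3Qf ≥ (3/2)(0.99ρ)² - (1.01ρ)² > 3·800(ρ/200)²`; `cone_grow` keeps `Qf > 0`, so `π ≠ 0`. -/
theorem st2_ne (K : Cert) {ξ : Fin 2 → ℝ} (hξ : ‖ξ‖ = 1) {w : ℝ → ℝ} (hw : K.Sol (K.par ξ) w)
    {z : ℝ} (hz : 5 ≤ z) :
    ¬ ((K.D2 ξ w).x0 z + (K.D2 ξ w).x1 z = 0 ∧ (K.D2 ξ w).x1 z + (K.D2 ξ w).x2 z = 0) := by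
  have hρ : 0 < rho := by unfold rho; positivity
  rintro ⟨h1, h2⟩
  obtain ⟨e1, e2, e3⟩ := st1_end K hξ.le hw
  have hQ : 800 * (rho / 200) ^ 2 <
      Qf ((K.D2 ξ w).x0 5) ((K.D2 ξ w).x1 5) ((K.D2 ξ w).x2 5) := by
    rw [st2_qf_eq]
    set p := (K.D2 ξ w).x0 5 + (K.D2 ξ w).x1 5
    set q := (K.D2 ξ w).x1 5 + (K.D2 ξ w).x2 5
    set s := (K.D2 ξ w).x0 5 - (K.D2 ξ w).x1 5 + (K.D2 ξ w).x2 5
    have hs : s ^ 2 ≤ (101 / 100 * rho) ^ 2 := by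
      rw [← sq_abs]; exact pow_le_pow_left₀ (abs_nonneg _) e3 2
    have hρ2 : 0 < rho ^ 2 := by positivity
    have key : ∀ t x : ℝ, |x| = 1 → |t - rho * x| ≤ rho / 100 → (99 / 100 * rho) ^ 2 ≤ t ^ 2 := by
      intro t x hx ht
      have a1 : |rho * x| = rho := by rw [abs_mul, hx, abs_of_pos hρ, mul_one]
      have a2 := abs_sub_abs_le_abs_sub (rho * x) t
      rw [abs_sub_comm (rho * x) t, a1] at a2
      rw [← sq_abs t]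
      exact pow_le_pow_left₀ (by positivity) (by linarith) 2
    have hor : |ξ 0| = 1 ∨ |ξ 1| = 1 := by
      by_contra hn
      push Not at hn
      have b0 : ‖ξ 0‖ < 1 := lt_of_le_of_ne ((norm_le_pi_norm ξ 0).trans hξ.le) hn.1
      have b1 : ‖ξ 1‖ < 1 := lt_of_le_of_ne ((norm_le_pi_norm ξ 1).trans hξ.le) hn.2
      have : ‖ξ‖ < 1 := (pi_norm_lt_iff one_pos).2 (Fin.forall_fin_two.2 ⟨b0, b1⟩)
      exact this.ne hξ
    rcases hor with h | h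
    · have := key p _ h e1
      nlinarith [sq_nonneg (p - 2 * q)]
    · have := key q _ h e2
      nlinarith [sq_nonneg (q - 2 * p)]
  have hg := cone_grow (st2_sys K hξ.le hw z) le_rfl le_rfl ⟨le_rfl, hz⟩ hQ z ⟨hz, le_rfl⟩
  have hpos : 0 < Qf ((K.D2 ξ w).x0 5) ((K.D2 ξ w).x1 5) ((K.D2 ξ w).x2 5) :=
    lt_of_le_of_lt (by positivity) hQ
  have := (mul_pos hpos (Real.exp_pos ((z - 5) / 10))).trans_le hg
  exact absurd (st2_qf_nonpos h1 h2) (not_le.2 this)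
/-- `π(S) = 0` gives `Qf(S) ≤ 0`, so `Qf ≤ 800E²` on `[5,S]` (`cone_grow`), `s² ≤ (1.01ρ)²` (`cone_bound`),
`x0² ≤ |x|² = Qf + (2/3)s² ≤ ρ²`. -/
theorem st2_bd (K : Cert) {ξ : Fin 2 → ℝ} (hξ : ‖ξ‖ ≤ 1) {w : ℝ → ℝ} (hw : K.Sol (K.par ξ) w)
    {S : ℝ} (hS : 5 ≤ S) (h1 : (K.D2 ξ w).x0 S + (K.D2 ξ w).x1 S = 0)
    (h2 : (K.D2 ξ w).x1 S + (K.D2 ξ w).x2 S = 0) : ∀ z ∈ Icc 5 S, |(K.D2 ξ w).x0 z| ≤ rho := by
  have hρ : 0 < rho := by unfold rho; positivity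
  have hsys := st2_sys K hξ hw S
  have hQ : ∀ z ∈ Icc 5 S, Qf ((K.D2 ξ w).x0 z) ((K.D2 ξ w).x1 z) ((K.D2 ξ w).x2 z) ≤
      800 * (rho / 200) ^ 2 := by
    intro z hz
    by_contra hn
    push Not at hn
    have hg := cone_grow hsys le_rfl le_rfl hz hn S ⟨hz.2, le_rfl⟩
    have hpos : 0 < Qf ((K.D2 ξ w).x0 z) ((K.D2 ξ w).x1 z) ((K.D2 ξ w).x2 z) :=
      lt_of_le_of_lt (by positivity) hn
    have := (mul_pos hpos (Real.exp_pos ((S - z) / 10))).trans_le hg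
    exact absurd (st2_qf_nonpos h1 h2) (not_le.2 this)
  intro z hz
  have hb := cone_bound hsys le_rfl (by norm_num) (by positivity) hQ z hz
  obtain ⟨-, -, e3⟩ := st1_end K hξ hw
  have hρ2 : 0 < rho ^ 2 := by positivity
  have hs : ((K.D2 ξ w).x0 5 - (K.D2 ξ w).x1 5 + (K.D2 ξ w).x2 5) ^ 2 ≤ (101 / 100 * rho) ^ 2 := by
    rw [← sq_abs]; exact pow_le_pow_left₀ (abs_nonneg _) e3 2
  have hb' := hb.trans (max_le hs (by nlinarith : 2400 * (rho / 200) ^ 2 ≤ (101 / 100 * rho) ^ 2))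
  have hq := hQ z hz
  unfold Qf at hq
  apply abs_le_of_sq_le_sq' _ hρ.le |> fun h => abs_le.2 h
  nlinarith [sq_nonneg ((K.D2 ξ w).x1 z), sq_nonneg ((K.D2 ξ w).x2 z)]
end Crest.Agent.R213.Sh
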