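import Crest.Agent.R213.ShJ

/-!
# R213 / ShVol : existence, continuity in the parameters and uniqueness for the Volterra equation
-/

set_option autoImplicit false

open Set Filter Topology
open scoped ContDiff

noncomputable section

namespace Crest.Agent.R213.Sh

theorem J_est (m : ℕ) {F F' : ℝ → ℝ} (hF : Continuous F) (hF' : Continuous F') {γ B y : ℝ} (hγ : 0 < γ)
    (h : ∀ t ∈ Icc (0 : ℝ) 1, |F (y * t) - F' (y * t)| ≤ B * Real.exp (γ * (y * t) ^ 2)) :
    |y ^ 2 * (J m F y - J m F' y)| ≤ B / γ * Real.exp (γ * y ^ 2) := by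
  have hB : 0 ≤ B := by
    have := (abs_nonneg _).trans (h 0 ⟨le_rfl, zero_le_one⟩)
    simpa using this
  have i1 : IntervalIntegrable (fun t : ℝ => t ^ m * F (y * t)) MeasureTheory.volume 0 1 :=
    (by fun_prop : Continuous fun t : ℝ => t ^ m * F (y * t)).intervalIntegrable _ _
  have i2 : IntervalIntegrable (fun t : ℝ => t ^ m * F' (y * t)) MeasureTheory.volume 0 1 :=
    (by fun_prop : Continuous fun t : ℝ => t ^ m * F' (y * t)).intervalIntegrable _ _
  have e : y ^ 2 * (J m F y - J m F' y) =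
      ∫ t in (0 : ℝ)..1, y ^ 2 * (t ^ m * F (y * t) - t ^ m * F' (y * t)) := by
    rw [intervalIntegral.integral_const_mul, intervalIntegral.integral_sub i1 i2]; rfl
  have hd : ∀ t ∈ uIcc (0 : ℝ) 1, HasDerivAt (fun t : ℝ => B / γ * Real.exp (γ * y ^ 2 * t))
      (B * y ^ 2 * Real.exp (γ * y ^ 2 * t)) t := by
    intro t _
    have h1 : HasDerivAt (fun t : ℝ => γ * y ^ 2 * t) (γ * y ^ 2) t := by
      simpa using (hasDerivAt_id t).const_mul (γ * y ^ 2)
    have h2 := h1.exp.const_mul (B / γ)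
    have h3 : B / γ * (Real.exp (γ * y ^ 2 * t) * (γ * y ^ 2)) = B * y ^ 2 * Real.exp (γ * y ^ 2 * t) := by
      field_simp
    rw [h3] at h2
    exact h2
  have ci : IntervalIntegrable (fun t : ℝ => B * y ^ 2 * Real.exp (γ * y ^ 2 * t)) MeasureTheory.volume 0 1 :=
    (by fun_prop : Continuous fun t : ℝ => B * y ^ 2 * Real.exp (γ * y ^ 2 * t)).intervalIntegrable _ _
  have e2 := intervalIntegral.integral_eq_sub_of_hasDerivAt hd ci
  have le := intervalIntegral.norm_integral_le_of_norm_le (μ := MeasureTheory.volume) (a := 0) (b := 1)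
    (f := fun t : ℝ => y ^ 2 * (t ^ m * F (y * t) - t ^ m * F' (y * t)))
    (g := fun t : ℝ => B * y ^ 2 * Real.exp (γ * y ^ 2 * t)) zero_le_one
    (Filter.Eventually.of_forall fun t ht => by
      have ht' : t ∈ Icc (0 : ℝ) 1 := ⟨ht.1.le, ht.2⟩
      have h1 := h t ht'
      have h2 : |t ^ m| ≤ 1 := by
        rw [abs_of_nonneg (pow_nonneg ht'.1 _)]; exact pow_le_one₀ ht'.1 ht'.2
      have h3 : Real.exp (γ * (y * t) ^ 2) ≤ Real.exp (γ * y ^ 2 * t) := by
        apply Real.exp_le_exp.2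
        have : t ^ 2 ≤ t := by nlinarith [ht'.1, ht'.2]
        have h4 : 0 ≤ γ * y ^ 2 := by positivity
        calc γ * (y * t) ^ 2 = γ * y ^ 2 * t ^ 2 := by ring
          _ ≤ _ := mul_le_mul_of_nonneg_left this h4
      rw [Real.norm_eq_abs, ← mul_sub, abs_mul, abs_mul, abs_of_nonneg (sq_nonneg y)]
      have h5 : |t ^ m| * |F (y * t) - F' (y * t)| ≤ 1 * (B * Real.exp (γ * y ^ 2 * t)) :=
        mul_le_mul h2 (h1.trans (mul_le_mul_of_nonneg_left h3 hB)) (abs_nonneg _) zero_le_one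
      calc y ^ 2 * (|t ^ m| * |F (y * t) - F' (y * t)|) ≤ y ^ 2 * (1 * (B * Real.exp (γ * y ^ 2 * t))) :=
            mul_le_mul_of_nonneg_left h5 (sq_nonneg y)
        _ = _ := by ring) ci
  rw [e2, Real.norm_eq_abs] at le
  rw [e]
  refine le.trans ?_
  have : 0 ≤ B / γ * Real.exp (γ * y ^ 2 * 0) := by positivity
  rw [mul_one]; linarith

/-- `|J m F y - J m F' y| ≤ ∫_0^1 |F(yt) - F'(yt)| dt ≤ B ∫_0^1 e^{γ y² t} dt` (as `t² ≤ t`), and
`y² ∫_0^1 e^{γ y² t} dt ≤ e^{γ y²}/γ`; `1/110 + 1/10 + 1/11 ≤ 1`. -/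
theorem vol_est (a : ℝ) {F F' : ℝ → ℝ} (hF : Continuous F) (hF' : Continuous F') {γ B y : ℝ} (hγ : 0 < γ)
    (h : ∀ t ∈ Icc (0 : ℝ) 1, |F (y * t) - F' (y * t)| ≤ B * Real.exp (γ * (y * t) ^ 2)) :
    |y * (vch a F).u y - y * (vch a F').u y| ≤ B / γ * Real.exp (γ * y ^ 2) := by
  have h0 := J_est 0 hF hF' hγ h
  have h10 := J_est 10 hF hF' hγ h
  have h11 := J_est 11 hF hF' hγ h
  have e : y * (vch a F).u y - y * (vch a F').u y =
      y ^ 2 * (J 0 F y - J 0 F' y) / 110 - y ^ 2 * (J 10 F y - J 10 F' y) / 10 +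
        y ^ 2 * (J 11 F y - J 11 F' y) / 11 := by
    simp only [vch]; ring
  rw [e]
  have hn := (abs_nonneg _).trans h0
  rw [abs_le] at h0 h10 h11 ⊢
  constructor <;> linarith [h0.1, h0.2, h10.1, h10.2, h11.1, h11.2]

theorem vol_gen (a a' : ℝ) {F F' : ℝ → ℝ} (hF : Continuous F) (hF' : Continuous F') {γ B : ℝ} (hγ : 1 ≤ γ)
    (h : ∀ s, |F s - F' s| ≤ B * Real.exp (γ * s ^ 2)) (y : ℝ) :
    |Real.exp (-(γ * y ^ 2)) * (y * (vch a F).u y) - Real.exp (-(γ * y ^ 2)) * (y * (vch a' F').u y)| ≤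
      |a - a'| + B / γ := by
  have h1 := vol_est a hF hF' (y := y) (lt_of_lt_of_le one_pos hγ) (fun t _ => h (y * t))
  have e : y * (vch a F).u y - y * (vch a' F').u y =
      (y * (vch a F).u y - y * (vch a F').u y) + (a - a') * y := by
    simp only [vch]; ring
  have h2 : |y| ≤ Real.exp (γ * y ^ 2) := by
    have := Real.add_one_le_exp (γ * y ^ 2)
    have h3 : |y| ≤ y ^ 2 + 1 := by
      rw [← sq_abs]; nlinarith [abs_nonneg y, sq_nonneg (|y| - 1)]
    nlinarith [sq_nonneg y]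
  have h4 : |y * (vch a F).u y - y * (vch a' F').u y| ≤ (|a - a'| + B / γ) * Real.exp (γ * y ^ 2) := by
    rw [e]
    refine (abs_add_le _ _).trans ?_
    rw [abs_mul (a - a')]
    have := mul_le_mul_of_nonneg_left h2 (abs_nonneg (a - a'))
    linarith
  rw [← mul_sub, abs_mul, abs_of_pos (Real.exp_pos _)]
  calc Real.exp (-(γ * y ^ 2)) * |y * (vch a F).u y - y * (vch a' F').u y|
      ≤ Real.exp (-(γ * y ^ 2)) * ((|a - a'| + B / γ) * Real.exp (γ * y ^ 2)) :=
        mul_le_mul_of_nonneg_left h4 (Real.exp_pos _).le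
    _ = (|a - a'| + B / γ) * (Real.exp (-(γ * y ^ 2)) * Real.exp (γ * y ^ 2)) := by ring
    _ = _ := by rw [← Real.exp_add]; simp

/-- Contraction on `BoundedContinuousFunction ℝ ℝ` for `v = e^{-γ y²} w`, `γ = 2L + 1`
(`ContractingWith.fixedPoint`); the dependence on `p = (a, c)` is only through the source `a y - c y²/132`
(or use `vol_est`), so `p ↦ v_p` is Lipschitz (`ContractingWith.fixedPoint_lipschitz_in_map` / `dist_fixedPoint_le`);
joint continuity by `BoundedContinuousFunction.continuous_eval`. -/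
theorem vol_exists (ψ : ℝ → ℝ → ℝ) (hc : Continuous (Function.uncurry ψ)) {L C : ℝ} (hL0 : 0 ≤ L)
    (hL : ∀ s g g', |ψ s g - ψ s g'| ≤ L * |g - g'|) (hC : ∀ s, |ψ s 1| ≤ C) :
    ∃ w : ℝ × ℝ → ℝ → ℝ, Continuous (Function.uncurry w) ∧
      ∀ p y, w p y = y * (vch p.1 (fun s => ψ s (1 + w p s) - p.2)).u y := by
  obtain ⟨γ, hγ⟩ : ∃ γ : ℝ, γ = 2 * L + 1 := ⟨_, rfl⟩
  have hγ1 : 1 ≤ γ := by linarith
  have hγ0 : 0 < γ := by linarith
  let Fm : ℝ × ℝ → BoundedContinuousFunction ℝ ℝ → ℝ → ℝ := fun p v s =>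
    ψ s (1 + Real.exp (γ * s ^ 2) * v s) - p.2
  have hFm : ∀ p v, Continuous (Fm p v) := by
    intro p v
    have h1 : Continuous fun s : ℝ => (s, 1 + Real.exp (γ * s ^ 2) * v s) := by fun_prop
    exact (hc.comp h1).sub continuous_const
  have hE : ∀ s : ℝ, 1 ≤ Real.exp (γ * s ^ 2) := fun s => Real.one_le_exp (by positivity)
  have hdiff : ∀ p p' v v' s, |Fm p v s - Fm p' v' s| ≤
      (L * dist v v' + |p.2 - p'.2|) * Real.exp (γ * s ^ 2) := by
    intro p p' v v' s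
    have h1 := hL s (1 + Real.exp (γ * s ^ 2) * v s) (1 + Real.exp (γ * s ^ 2) * v' s)
    have h2 : |v s - v' s| ≤ dist v v' := by
      rw [← Real.dist_eq]; exact BoundedContinuousFunction.dist_coe_le_dist s
    have h3 : |1 + Real.exp (γ * s ^ 2) * v s - (1 + Real.exp (γ * s ^ 2) * v' s)| ≤
        Real.exp (γ * s ^ 2) * dist v v' := by
      rw [add_sub_add_left_eq_sub, ← mul_sub, abs_mul, abs_of_pos (Real.exp_pos _)]
      exact mul_le_mul_of_nonneg_left h2 (Real.exp_pos _).le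
    have e : Fm p v s - Fm p' v' s = (ψ s (1 + Real.exp (γ * s ^ 2) * v s) -
        ψ s (1 + Real.exp (γ * s ^ 2) * v' s)) - (p.2 - p'.2) := by
      simp only [Fm]; ring
    rw [e]
    refine (abs_sub _ _).trans ?_
    have h4 := mul_le_mul_of_nonneg_left h3 hL0
    have h5 := mul_le_mul_of_nonneg_left (hE s) (abs_nonneg (p.2 - p'.2))
    nlinarith
  have hbd : ∀ p v s, |Fm p v s - (fun _ : ℝ => (0 : ℝ)) s| ≤
      (L * ‖v‖ + |p.2| + C) * Real.exp (γ * s ^ 2) := by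
    intro p v s
    have h1 := hdiff p (0, 0) v 0 s
    have h2 : Fm (0, 0) 0 s = ψ s 1 := by simp [Fm]
    rw [h2, dist_zero_right] at h1
    have h3 := hC s
    have hC0 : 0 ≤ C := (abs_nonneg _).trans h3
    have h4 := mul_le_mul_of_nonneg_left (hE s) hC0
    have h5 : |Fm p v s - 0| ≤ |Fm p v s - ψ s 1| + |ψ s 1| := by
      have := abs_add_le (Fm p v s - ψ s 1) (ψ s 1)
      simpa using this
    simp only [sub_zero] at h1 h5 ⊢
    nlinarith
  let T0 : ℝ × ℝ → BoundedContinuousFunction ℝ ℝ → ℝ → ℝ := fun p v y =>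
    Real.exp (-(γ * y ^ 2)) * (y * (vch p.1 (Fm p v)).u y)
  have hT0c : ∀ p v, Continuous (T0 p v) := by
    intro p v
    have := (vch_cont p.1 (hFm p v)).1
    simp only [T0]; fun_prop
  have hT0b : ∀ p v y, ‖T0 p v y‖ ≤ |p.1| + (L * ‖v‖ + |p.2| + C) / γ := by
    intro p v y
    have h1 := vol_gen p.1 0 (hFm p v) continuous_const hγ1 (hbd p v) y
    have h2 : (vch 0 (fun _ : ℝ => (0 : ℝ))).u y = 0 := by simp [vch, J]
    rw [h2] at h1
    simpa [T0] using h1
  let T : ℝ × ℝ → BoundedContinuousFunction ℝ ℝ → BoundedContinuousFunction ℝ ℝ := fun p v =>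
    BoundedContinuousFunction.ofNormedAddCommGroup (T0 p v) (hT0c p v) _ (hT0b p v)
  have hLγ : L / γ ≤ 1 / 2 := by
    rw [div_le_iff₀ hγ0]; linarith
  have hT : ∀ p p' v v', dist (T p v) (T p' v') ≤ |p.1 - p'.1| + |p.2 - p'.2| + 1 / 2 * dist v v' := by
    intro p p' v v'
    refine (BoundedContinuousFunction.dist_le (by positivity)).2 fun y => ?_
    have h1 := vol_gen p.1 p'.1 (hFm p v) (hFm p' v') hγ1 (hdiff p p' v v') y
    rw [Real.dist_eq]
    refine h1.trans ?_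
    have h2 : |p.2 - p'.2| / γ ≤ |p.2 - p'.2| := div_le_self (abs_nonneg _) hγ1
    have h3 := mul_le_mul_of_nonneg_right hLγ (dist_nonneg (x := v) (y := v'))
    have e : (L * dist v v' + |p.2 - p'.2|) / γ = L / γ * dist v v' + |p.2 - p'.2| / γ := by ring
    rw [e]; linarith
  have hK : ∀ p, ContractingWith (1 / 2 : NNReal) (T p) := by
    intro p
    refine ⟨by norm_num, LipschitzWith.of_dist_le_mul fun v v' => ?_⟩
    have := hT p p v v'
    simpa using this
  let V : ℝ × ℝ → BoundedContinuousFunction ℝ ℝ := fun p => (hK p).fixedPoint (T p)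
  have hV : ∀ p, T p (V p) = V p := fun p => (hK p).fixedPoint_isFixedPt
  have hVl : LipschitzWith 4 V := by
    refine LipschitzWith.of_dist_le_mul fun p p' => ?_
    have h1 := hT p p' (V p) (V p')
    rw [hV, hV] at h1
    have h2 : |p.1 - p'.1| ≤ dist p p' := by
      rw [← Real.dist_eq, Prod.dist_eq]; exact le_max_left _ _
    have h3 : |p.2 - p'.2| ≤ dist p p' := by
      rw [← Real.dist_eq, Prod.dist_eq]; exact le_max_right _ _
    push_cast; linarith
  refine ⟨fun p y => Real.exp (γ * y ^ 2) * V p y, ?_, ?_⟩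
  · have h1 : Continuous fun q : (ℝ × ℝ) × ℝ => V q.1 q.2 :=
      (hVl.continuous.comp continuous_fst).eval continuous_snd
    have h2 : Continuous fun q : (ℝ × ℝ) × ℝ => Real.exp (γ * q.2 ^ 2) := by fun_prop
    exact h2.mul h1
  · intro p y
    have h1 : V p y = T0 p (V p) y := by
      conv_lhs => rw [← hV p]
      rfl
    show Real.exp (γ * y ^ 2) * V p y = y * (vch p.1 (Fm p (V p))).u y
    rw [h1]
    simp only [T0]
    rw [← mul_assoc, ← Real.exp_add]; simp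

/-- maximum of `e^{-γ y²} |w - w'|` on `[0,S]` and `vol_est`. -/
theorem vol_unique {φ : ℝ → ℝ} {L : ℝ} (hL0 : 0 ≤ L) (hL : ∀ g g', |φ g - φ g'| ≤ L * |g - g'|)
    {a c : ℝ} {w w' : ℝ → ℝ} (hw : Continuous w) (hw' : Continuous w')
    (h : ∀ y, 0 ≤ y → w y = y * (vch a (fun s => φ (1 + w s) - c)).u y)
    (h' : ∀ y, 0 ≤ y → w' y = y * (vch a (fun s => φ (1 + w' s) - c)).u y) :
    ∀ y, 0 ≤ y → w y = w' y := by
  intro S hS
  obtain ⟨γ, hγ⟩ : ∃ γ : ℝ, γ = 2 * L + 1 := ⟨_, rfl⟩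
  have hγ0 : 0 < γ := by linarith
  have hφ : Continuous φ := by
    have : LipschitzWith ⟨L, hL0⟩ φ := LipschitzWith.of_dist_le_mul fun g g' => by
      rw [Real.dist_eq, Real.dist_eq]; exact hL g g'
    exact this.continuous
  have hcd : Continuous fun s : ℝ => Real.exp (-(γ * s ^ 2)) * |w s - w' s| := by fun_prop
  obtain ⟨s0, hs0, hmax⟩ := isCompact_Icc.exists_isMaxOn (nonempty_Icc.2 hS) hcd.continuousOn
  obtain ⟨M, hM⟩ : ∃ M, M = Real.exp (-(γ * s0 ^ 2)) * |w s0 - w' s0| := ⟨_, rfl⟩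
  have hM0 : 0 ≤ M := by rw [hM]; positivity
  have hle : ∀ s ∈ Icc 0 S, |w s - w' s| ≤ M * Real.exp (γ * s ^ 2) := by
    intro s hs
    have h1 : Real.exp (-(γ * s ^ 2)) * |w s - w' s| ≤ M := by rw [hM]; exact hmax hs
    calc |w s - w' s| = Real.exp (-(γ * s ^ 2)) * |w s - w' s| * Real.exp (γ * s ^ 2) := by
          rw [mul_right_comm, ← Real.exp_add]; simp
      _ ≤ _ := mul_le_mul_of_nonneg_right h1 (Real.exp_pos _).le
  have h1 := vol_est a (F := fun s => φ (1 + w s) - c) (F' := fun s => φ (1 + w' s) - c)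
    (by fun_prop) (by fun_prop) (B := L * M) (y := s0) hγ0 (fun t ht => by
      have hm : s0 * t ∈ Icc 0 S :=
        ⟨mul_nonneg hs0.1 ht.1, (mul_le_of_le_one_right hs0.1 ht.2).trans hs0.2⟩
      have h2 := hL (1 + w (s0 * t)) (1 + w' (s0 * t))
      rw [add_sub_add_left_eq_sub] at h2
      have h3 := mul_le_mul_of_nonneg_left (hle _ hm) hL0
      rw [sub_sub_sub_cancel_right, mul_assoc]
      exact h2.trans h3)
  rw [← h s0 hs0.1, ← h' s0 hs0.1] at h1
  have h2 : M ≤ L * M / γ := by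
    calc M = Real.exp (-(γ * s0 ^ 2)) * |w s0 - w' s0| := hM
      _ ≤ Real.exp (-(γ * s0 ^ 2)) * (L * M / γ * Real.exp (γ * s0 ^ 2)) :=
          mul_le_mul_of_nonneg_left h1 (Real.exp_pos _).le
      _ = L * M / γ * (Real.exp (-(γ * s0 ^ 2)) * Real.exp (γ * s0 ^ 2)) := by ring
      _ = _ := by rw [← Real.exp_add]; simp
  rw [le_div_iff₀ hγ0, hγ] at h2
  have hM1 : M = 0 := by nlinarith [mul_nonneg hL0 hM0]
  have h3 := hle S ⟨hS, le_rfl⟩
  rw [hM1, zero_mul] at h3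
  exact sub_eq_zero.1 (abs_nonpos_iff.1 h3)

end Crest.Agent.R213.Sh
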