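import Crest.Agent.R213.Defs

/-! # R213 / SigA : basic facts on `eps`, `sg0`, `sig`, `sig1` -/

set_option autoImplicit false

open MeasureTheory Set Filter Topology
open scoped ContDiff InnerProductSpace

namespace Crest.Agent.R213

theorem sa_uIcc {x y : ℝ} (hx : x ∈ Ioo (0 : ℝ) 1) (hy : y ∈ Ioo (0 : ℝ) 1) : uIcc x y ⊆ Ioo 0 1 :=
  ordConnected_Ioo.uIcc_subset hx hy

theorem sa_half : (1 / 2 : ℝ) ∈ Ioo (0 : ℝ) 1 := by constructor <;> norm_num

theorem sa_int (h : L2) {x y : ℝ} (hx : x ∈ Ioo (0 : ℝ) 1) (hy : y ∈ Ioo (0 : ℝ) 1) :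
    IntervalIntegrable h volume x y := by
  have h1 : IntegrableOn h (Ioo (0 : ℝ) 1) := (Lp.memLp h).integrable (by norm_num)
  exact (h1.mono_set (sa_uIcc hx hy)).intervalIntegrable

theorem sa_w_cont {x y : ℝ} (hx : x ∈ Ioo (0 : ℝ) 1) (hy : y ∈ Ioo (0 : ℝ) 1) :
    ContinuousOn (fun r : ℝ => (r ^ 2 * (1 - r))⁻¹) (uIcc x y) := by
  refine ContinuousOn.inv₀ (by fun_prop) fun r hr => ?_
  have h := sa_uIcc hx hy hr
  have h1 := h.1
  have h2 : 0 < 1 - r := sub_pos.2 h.2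
  positivity

theorem sa_eps_int (h : L2) {x y : ℝ} (hx : x ∈ Ioo (0 : ℝ) 1) (hy : y ∈ Ioo (0 : ℝ) 1) :
    IntervalIntegrable (eps h) volume x y := by
  have := (sa_int h hx hy).mul_continuousOn (sa_w_cont hx hy)
  simpa only [← div_eq_mul_inv] using! this

theorem sa_sig1_sub (h : L2) {x y : ℝ} (hx : x ∈ Ioo (0 : ℝ) 1) (hy : y ∈ Ioo (0 : ℝ) 1) :
    sig1 h y - sig1 h x = ∫ r in x..y, eps h r := by
  rw [← intervalIntegral.integral_interval_sub_left (sa_eps_int h sa_half hy) (sa_eps_int h sa_half hx)]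
  simp only [sig1]
  ring

/-- primitives of locally integrable functions on `(0,1)` are continuous. -/
theorem sa_prim_cont {f : ℝ → ℝ}
    (hf : ∀ x ∈ Ioo (0 : ℝ) 1, ∀ y ∈ Ioo (0 : ℝ) 1, IntervalIntegrable f volume x y) {c x : ℝ}
    (hc : c ∈ Ioo (0 : ℝ) 1) (hx : x ∈ Ioo (0 : ℝ) 1) : ContinuousAt (fun y => ∫ r in c..y, f r) x := by
  have hm : 0 < min x c := lt_min hx.1 hc.1
  have hM : max x c < 1 := max_lt hx.2 hc.2
  have h1 := min_le_left x c
  have h2 := min_le_right x c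
  have h3 := le_max_left x c
  have h4 := le_max_right x c
  have hab : min x c / 2 ≤ (1 + max x c) / 2 := by linarith
  have ha : min x c / 2 ∈ Ioo (0 : ℝ) 1 := ⟨by linarith, by linarith⟩
  have hb : (1 + max x c) / 2 ∈ Ioo (0 : ℝ) 1 := ⟨by linarith, by linarith⟩
  have := intervalIntegral.continuousOn_primitive_interval' (hf _ ha _ hb) (a := c)
    (by rw [uIcc_of_le hab]; constructor <;> linarith)
  rw [uIcc_of_le hab] at this
  exact this.continuousAt (Icc_mem_nhds (by linarith) (by linarith))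

theorem sa_sig1_cont (h : L2) : ContinuousOn (sig1 h) (Ioo 0 1) := fun _ hx =>
  ((sa_prim_cont (fun _ hx _ hy => sa_eps_int h hx hy) sa_half hx).add continuousAt_const).continuousWithinAt

theorem sa_taylor (h : L2) {x y : ℝ} (hx : x ∈ Ioo (0 : ℝ) 1) (hy : y ∈ Ioo (0 : ℝ) 1) :
    sig h y = sig h x + (y - x) * sig1 h x + ∫ r in x..y, (y - r) * eps h r := by
  have i1 : ∀ c : ℝ, ∀ {u v : ℝ}, u ∈ Ioo (0 : ℝ) 1 → v ∈ Ioo (0 : ℝ) 1 →
      IntervalIntegrable (fun r => (c - r) * eps h r) volume u v := fun c _ _ hu hv =>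
    (sa_eps_int h hu hv).continuousOn_mul (by fun_prop)
  have e1 : sg0 h y = (∫ r in (1 / 2 : ℝ)..x, (y - r) * eps h r) + ∫ r in x..y, (y - r) * eps h r :=
    (intervalIntegral.integral_add_adjacent_intervals (i1 y sa_half hx) (i1 y hx hy)).symm
  have e2 : (∫ r in (1 / 2 : ℝ)..x, (y - r) * eps h r) =
      sg0 h x + (y - x) * ∫ r in (1 / 2 : ℝ)..x, eps h r := by
    rw [sg0, ← intervalIntegral.integral_const_mul, ← intervalIntegral.integral_add (i1 x sa_half hx)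
      ((sa_eps_int h sa_half hx).const_mul _)]
    congr 1
    funext r
    ring
  simp only [sig, sig1]
  rw [e1, e2]
  ring

theorem sa_hasDerivAt (h : L2) {x : ℝ} (hx : x ∈ Ioo (0 : ℝ) 1) : HasDerivAt (sig h) (sig1 h x) x := by
  rw [hasDerivAt_iff_isLittleO, Asymptotics.isLittleO_iff]
  intro c hc
  have h1 : ContinuousAt (fun y => ∫ r in x..y, |eps h r|) x :=
    sa_prim_cont (fun _ hx _ hy => (sa_eps_int h hx hy).abs) hx hx
  have h2 : ∀ᶠ y in 𝓝 x, abs (∫ r in x..y, |eps h r|) < c := by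
    have := h1.abs.tendsto
    simp only [intervalIntegral.integral_same, abs_zero] at this
    exact this.eventually (gt_mem_nhds hc)
  filter_upwards [h2, Ioo_mem_nhds hx.1 hx.2] with y hy hy'
  have e : sig h y - sig h x - (y - x) • sig1 h x = ∫ r in x..y, (y - r) * eps h r := by
    rw [sa_taylor h hx hy', smul_eq_mul]; ring
  rw [e]
  calc ‖∫ r in x..y, (y - r) * eps h r‖ ≤ abs (∫ r in x..y, |y - x| * |eps h r|) := by
        refine intervalIntegral.norm_integral_le_abs_of_norm_le ?_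
          ((sa_eps_int h hx hy').abs.const_mul _)
        refine (ae_restrict_iff' measurableSet_uIoc).2 (Eventually.of_forall fun r hr => ?_)
        rw [Real.norm_eq_abs, abs_mul]
        refine mul_le_mul_of_nonneg_right ?_ (abs_nonneg _)
        have := abs_sub_right_of_mem_uIcc (uIoc_subset_uIcc hr)
        exact this
    _ = |y - x| * abs (∫ r in x..y, |eps h r|) := by
        rw [intervalIntegral.integral_const_mul, abs_mul, abs_abs]
    _ ≤ c * ‖y - x‖ := by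
        rw [mul_comm, Real.norm_eq_abs]
        exact mul_le_mul_of_nonneg_right hy.le (abs_nonneg _)

theorem sa_sig_cont (h : L2) : ContinuousOn (sig h) (Ioo 0 1) := fun _ hx =>
  (sa_hasDerivAt h hx).continuousAt.continuousWithinAt

theorem sa_sg0_cont (h : L2) : ContinuousOn (sg0 h) (Ioo 0 1) := by
  have : sg0 h = fun x => sig h x - (1320 * mB h - 1210 * mA h) - (1320 * mA h - 1452 * mB h) * x := by
    funext x; simp only [sig]; ring
  rw [this]
  exact ((sa_sig_cont h).sub continuousOn_const).sub (by fun_prop)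

/-! ### Cauchy–Schwarz -/

theorem sa_cs0 {μ : Measure ℝ} {f g : ℝ → ℝ} (hf : MemLp f 2 μ) (hg : MemLp g 2 μ) :
    (∫ r, f r * g r ∂μ) ^ 2 ≤ (∫ r, f r ^ 2 ∂μ) * ∫ r, g r ^ 2 ∂μ := by
  have key : ∀ {u v : ℝ → ℝ} (hu : MemLp u 2 μ) (hv : MemLp v 2 μ),
      ⟪hu.toLp u, hv.toLp v⟫_ℝ = ∫ r, u r * v r ∂μ := by
    intro u v hu hv
    rw [L2.inner_def]
    refine integral_congr_ae ?_
    filter_upwards [hu.coeFn_toLp, hv.coeFn_toLp] with r h1 h2
    rw [h1, h2]
    simp [mul_comm]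
  have := real_inner_mul_inner_self_le (hf.toLp f) (hg.toLp g)
  rw [key, key, key] at this
  simpa only [sq] using this

theorem sa_norm_sq (h : L2) : ∫ r in Ioo (0 : ℝ) 1, h r ^ 2 = ‖h‖ ^ 2 := by
  rw [← real_inner_self_eq_norm_sq, L2.inner_def]
  refine integral_congr_ae (Eventually.of_forall fun r => ?_)
  simp [sq]

theorem sa_cs (h : L2) {a b : ℝ} (ha : a ∈ Ioo (0 : ℝ) 1) (hb : b ∈ Ioo (0 : ℝ) 1) (hab : a ≤ b)
    {w W : ℝ → ℝ} (hw : ContinuousOn w (Icc a b)) (hW : ContinuousOn W (Icc a b))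
    (hle : ∀ r ∈ Icc a b, w r ^ 2 ≤ W r) :
    (∫ r in a..b, w r * h r) ^ 2 ≤ (∫ r in a..b, W r) * ‖h‖ ^ 2 := by
  have hsub : Ioc a b ⊆ Ioo 0 1 := fun r hr => ⟨ha.1.trans hr.1, hr.2.trans_lt hb.2⟩
  have hw2 : IntegrableOn (fun r => w r ^ 2) (Ioc a b) :=
    ((hw.pow 2).integrableOn_Icc).mono_set Ioc_subset_Icc_self
  have m1 : MemLp w 2 (volume.restrict (Ioc a b)) :=
    (memLp_two_iff_integrable_sq ((hw.mono Ioc_subset_Icc_self).aestronglyMeasurable measurableSet_Ioc)).2 hw2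
  have m2 : MemLp h 2 (volume.restrict (Ioc a b)) :=
    (Lp.memLp h).mono_measure (Measure.restrict_mono hsub le_rfl)
  have h1 := sa_cs0 m1 m2
  have h2 : ∫ r in Ioc a b, h r ^ 2 ≤ ‖h‖ ^ 2 := by
    rw [← sa_norm_sq]
    exact setIntegral_mono_set (Lp.memLp h).integrable_sq (Eventually.of_forall fun r => sq_nonneg _)
      hsub.eventuallyLE
  have h3 : ∫ r in Ioc a b, w r ^ 2 ≤ ∫ r in Ioc a b, W r :=
    setIntegral_mono_on hw2 (hW.integrableOn_Icc.mono_set Ioc_subset_Icc_self) measurableSet_Ioc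
      fun r hr => hle r (Ioc_subset_Icc_self hr)
  have h4 : 0 ≤ ∫ r in Ioc a b, w r ^ 2 := integral_nonneg fun r => sq_nonneg _
  rw [intervalIntegral.integral_of_le hab, intervalIntegral.integral_of_le hab]
  exact h1.trans (mul_le_mul h3 h2 (integral_nonneg fun r => sq_nonneg _) (h4.trans h3))

theorem sa_ftc {a b : ℝ} (hab : a ≤ b) {F f : ℝ → ℝ} (hF : ∀ r ∈ Icc a b, HasDerivAt F (f r) r)
    (hf : ContinuousOn f (Icc a b)) : ∫ r in a..b, f r = F b - F a :=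
  intervalIntegral.integral_eq_sub_of_hasDerivAt (by rwa [uIcc_of_le hab]) (hf.intervalIntegrable_of_Icc hab)

theorem sa_abs_le {u v s : ℝ} (hv : 0 ≤ v) (h : u ^ 2 * s ^ 2 ≤ v ^ 2) (hs : 0 ≤ s) : |u| * s ≤ v := by
  refine (pow_le_pow_iff_left₀ (by positivity) hv two_ne_zero).1 ?_
  rwa [mul_pow, sq_abs]

theorem sa_E_bd (h : L2) {x : ℝ} (hx : x ∈ Ioo (0 : ℝ) 1) :
    |∫ r in (1 / 2 : ℝ)..x, eps h r| * (x * Real.sqrt x * Real.sqrt (1 - x)) ≤ 4 * ‖h‖ := by
  have hx0 := hx.1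
  have hx1 : 0 < 1 - x := sub_pos.2 hx.2
  have he : eps h = fun r => (r ^ 2 * (1 - r))⁻¹ * h r := by
    funext r; rw [eps, div_eq_inv_mul]
  refine sa_abs_le (by positivity) ?_ (by positivity)
  have e : (x * Real.sqrt x * Real.sqrt (1 - x)) ^ 2 = x ^ 3 * (1 - x) := by
    rw [mul_pow, mul_pow, Real.sq_sqrt hx0.le, Real.sq_sqrt hx1.le]; ring
  rw [e, he]
  have hn : 0 ≤ ‖h‖ ^ 2 := sq_nonneg _
  rcases le_total x (1 / 2) with h12 | h12
  · have c1 := sa_w_cont hx sa_half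
    rw [uIcc_of_le h12] at c1
    have c2 : ContinuousOn (fun r : ℝ => 4 / r ^ 4) (Icc x (1 / 2)) :=
      continuousOn_const.div (by fun_prop) fun r hr => (pow_pos (hx0.trans_le hr.1) 4).ne'
    have k := sa_cs h hx sa_half h12 c1 c2 fun r hr => by
      have h0 : 0 < r := hx0.trans_le hr.1
      have h1 : 1 / 2 ≤ 1 - r := by linarith [hr.2]
      rw [inv_pow, inv_eq_one_div, div_le_div_iff₀ (by positivity) (by positivity)]
      have : 1 ≤ 4 * (1 - r) ^ 2 := by nlinarith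
      nlinarith [pow_pos h0 4]
    rw [sa_ftc h12 (F := fun r => -(4 / 3) * (r ^ 3)⁻¹) (fun r hr => by
      have h0 : r ≠ 0 := (hx0.trans_le hr.1).ne'
      refine (((hasDerivAt_pow 3 r).inv (pow_ne_zero 3 h0)).const_mul _).congr_deriv ?_
      field_simp
      norm_num) c2] at k
    rw [intervalIntegral.integral_symm, neg_sq]
    refine (mul_le_mul_of_nonneg_right k (by positivity)).trans ?_
    have h3 : (-(4 / 3) * ((1 / 2 : ℝ) ^ 3)⁻¹ - -(4 / 3) * (x ^ 3)⁻¹) * (x ^ 3 * (1 - x)) ≤ 16 := by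
      have e2 : (-(4 / 3) * ((1 / 2 : ℝ) ^ 3)⁻¹ - -(4 / 3) * (x ^ 3)⁻¹) * (x ^ 3 * (1 - x)) =
          4 / 3 * (1 - x) - 32 / 3 * (x ^ 3 * (1 - x)) := by field_simp; ring
      rw [e2]
      have : 0 < x ^ 3 * (1 - x) := by positivity
      linarith
    nlinarith
  · have c1 := sa_w_cont sa_half hx
    rw [uIcc_of_le h12] at c1
    have c2 : ContinuousOn (fun r : ℝ => 16 / (1 - r) ^ 2) (Icc (1 / 2) x) :=
      continuousOn_const.div (by fun_prop) fun r hr => (pow_pos (by linarith [hr.2]) 2).ne'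
    have k := sa_cs h sa_half hx h12 c1 c2 fun r hr => by
      have h0 : 1 / 2 ≤ r := hr.1
      have h1 : 0 < 1 - r := by linarith [hr.2]
      rw [inv_pow, inv_eq_one_div, div_le_div_iff₀ (by positivity) (by positivity)]
      have h2 : 1 / 4 ≤ r ^ 2 := by nlinarith
      have : 1 ≤ 16 * (r ^ 2) ^ 2 := by nlinarith
      nlinarith [pow_pos h1 2]
    rw [sa_ftc h12 (F := fun r => 16 * (1 - r)⁻¹) (fun r hr => by
      have h0 : 1 - r ≠ 0 := by linarith [hr.2]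
      refine ((((hasDerivAt_id r).const_sub 1).inv h0).const_mul _).congr_deriv ?_
      simp only [id]
      field_simp) c2] at k
    refine (mul_le_mul_of_nonneg_right k (by positivity)).trans ?_
    have h3 : (16 * (1 - x)⁻¹ - 16 * (1 - 1 / 2 : ℝ)⁻¹) * (x ^ 3 * (1 - x)) ≤ 16 := by
      have e2 : (16 * (1 - x)⁻¹ - 16 * (1 - 1 / 2 : ℝ)⁻¹) * (x ^ 3 * (1 - x)) =
          16 * x ^ 3 - 32 * (x ^ 3 * (1 - x)) := by field_simp; ring
      rw [e2]
      have : 0 < x ^ 3 * (1 - x) := by positivity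
      have : x ^ 3 ≤ 1 := pow_le_one₀ hx0.le hx.2.le
      linarith
    nlinarith

theorem sa_sg0_bd (h : L2) {x : ℝ} (hx : x ∈ Ioo (0 : ℝ) 1) : |sg0 h x| * Real.sqrt x ≤ 4 * ‖h‖ := by
  have hx0 := hx.1
  have hx1 : 0 < 1 - x := sub_pos.2 hx.2
  have he : (fun r => (x - r) * eps h r) = fun r => ((x - r) * (r ^ 2 * (1 - r))⁻¹) * h r := by
    funext r; rw [eps, div_eq_inv_mul, mul_assoc]
  refine sa_abs_le (by positivity) ?_ (by positivity)
  rw [Real.sq_sqrt hx0.le, sg0, he]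
  have hn : 0 ≤ ‖h‖ ^ 2 := sq_nonneg _
  rcases le_total x (1 / 2) with h12 | h12
  · have c1 := sa_w_cont hx sa_half
    rw [uIcc_of_le h12] at c1
    have c2 : ContinuousOn (fun r : ℝ => 4 / r ^ 2) (Icc x (1 / 2)) :=
      continuousOn_const.div (by fun_prop) fun r hr => (pow_pos (hx0.trans_le hr.1) 2).ne'
    have k := sa_cs h hx sa_half h12 (w := fun r => (x - r) * (r ^ 2 * (1 - r))⁻¹)
      (ContinuousOn.mul (by fun_prop) c1) c2 fun r hr => by
      have h0 : 0 < r := hx0.trans_le hr.1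
      have h1 : 1 / 2 ≤ 1 - r := by linarith [hr.2]
      rw [← div_eq_mul_inv, div_pow, div_le_div_iff₀ (by positivity) (by positivity)]
      have h2 : 1 ≤ 4 * (1 - r) ^ 2 := by nlinarith
      have h3 : (x - r) ^ 2 ≤ r ^ 2 := by nlinarith [hr.1]
      have h4 : (x - r) ^ 2 * r ^ 2 ≤ r ^ 2 * r ^ 2 := mul_le_mul_of_nonneg_right h3 (by positivity)
      nlinarith [pow_pos h0 4]
    rw [sa_ftc h12 (F := fun r => -4 * r⁻¹) (fun r hr => by
      have h0 : r ≠ 0 := (hx0.trans_le hr.1).ne'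
      refine ((hasDerivAt_inv h0).const_mul _).congr_deriv ?_
      field_simp) c2] at k
    rw [intervalIntegral.integral_symm, neg_sq]
    refine (mul_le_mul_of_nonneg_right k hx0.le).trans ?_
    have h3 : (-4 * (1 / 2 : ℝ)⁻¹ - -4 * x⁻¹) * x ≤ 16 := by
      have e2 : (-4 * (1 / 2 : ℝ)⁻¹ - -4 * x⁻¹) * x = 4 - 8 * x := by field_simp; ring
      rw [e2]
      linarith
    nlinarith
  · have c1 := sa_w_cont sa_half hx
    rw [uIcc_of_le h12] at c1
    have k := sa_cs h sa_half hx h12 (w := fun r => (x - r) * (r ^ 2 * (1 - r))⁻¹) (W := fun _ => 16)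
      (ContinuousOn.mul (by fun_prop) c1) continuousOn_const fun r hr => by
      have h0 : 1 / 2 ≤ r := hr.1
      have h1 : 0 < 1 - r := by linarith [hr.2]
      rw [← div_eq_mul_inv, div_pow, div_le_iff₀ (by positivity)]
      have h2 : 1 / 4 ≤ r ^ 2 := by nlinarith
      have h3 : 1 ≤ 16 * (r ^ 2) ^ 2 := by nlinarith
      have h4 : (x - r) ^ 2 ≤ (1 - r) ^ 2 := by nlinarith [hr.2]
      nlinarith [pow_pos h1 2]
    rw [intervalIntegral.integral_const, smul_eq_mul] at k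
    refine (mul_le_mul_of_nonneg_right k hx0.le).trans ?_
    have h3 : (x - 1 / 2) * 16 * x ≤ 16 := by nlinarith
    nlinarith

theorem sa_int01 (f : ℝ → ℝ) : ∫ r in (0 : ℝ)..1, f r = ∫ r in Ioo (0 : ℝ) 1, f r := by
  rw [intervalIntegral.integral_of_le zero_le_one, integral_Ioc_eq_integral_Ioo]

theorem sa_le_sqrt {r : ℝ} (hr : r ∈ Ioo (0 : ℝ) 1) : r ≤ Real.sqrt r :=
  Real.le_sqrt_of_sq_le (by nlinarith [hr.1, hr.2])

theorem sa_pow_sg0 (h : L2) (n : ℕ) {r : ℝ} (hr : r ∈ Ioo (0 : ℝ) 1) :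
    ‖r ^ (n + 1) * sg0 h r‖ ≤ 4 * ‖h‖ := by
  have h0 := hr.1
  rw [Real.norm_eq_abs, abs_mul, abs_of_pos (by positivity), mul_comm]
  refine le_trans (mul_le_mul_of_nonneg_left ?_ (abs_nonneg _)) (sa_sg0_bd h hr)
  rw [pow_succ]
  exact (mul_le_of_le_one_left h0.le (pow_le_one₀ h0.le hr.2.le)).trans (sa_le_sqrt hr)

theorem sa_mom_bd (h : L2) (n : ℕ) : |∫ r in (0 : ℝ)..1, r ^ (n + 1) * sg0 h r| ≤ 4 * ‖h‖ := by
  rw [sa_int01]
  have := norm_setIntegral_le_of_norm_le_const (μ := volume) (s := Ioo (0 : ℝ) 1)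
    (f := fun r => r ^ (n + 1) * sg0 h r) (by simp) fun r hr => sa_pow_sg0 h n hr
  simpa using this

theorem sa_bd : ∃ C : ℝ, 0 < C ∧ ∀ h : L2, ∀ x ∈ Ioo (0 : ℝ) 1,
    |sig h x| * Real.sqrt x ≤ C * ‖h‖ ∧
    |sig1 h x| * (x * Real.sqrt x * Real.sqrt (1 - x)) ≤ C * ‖h‖ := by
  refine ⟨30000, by norm_num, fun h x hx => ?_⟩
  have hA : |mA h| ≤ 4 * ‖h‖ := sa_mom_bd h 8
  have hB : |mB h| ≤ 4 * ‖h‖ := sa_mom_bd h 9
  have hA' := abs_le.1 hA
  have hB' := abs_le.1 hB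
  have hn := norm_nonneg h
  have h1 : |1320 * mB h - 1210 * mA h| ≤ 11000 * ‖h‖ := abs_le.2 ⟨by linarith, by linarith⟩
  have h2 : |1320 * mA h - 1452 * mB h| ≤ 12000 * ‖h‖ := abs_le.2 ⟨by linarith, by linarith⟩
  have s0 := Real.sqrt_nonneg x
  have s1 : Real.sqrt x ≤ 1 := Real.sqrt_le_one.2 hx.2.le
  constructor
  · have h3 : |(1320 * mA h - 1452 * mB h) * x| ≤ 12000 * ‖h‖ := by
      rw [abs_mul, abs_of_pos hx.1]
      exact (mul_le_of_le_one_right (abs_nonneg _) hx.2.le).trans h2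
    have h4 : |sig h x| ≤ |sg0 h x| + 23000 * ‖h‖ := by
      refine (abs_add_three _ _ _).trans ?_
      linarith
    have h5 := sa_sg0_bd h hx
    have h6 := mul_le_mul_of_nonneg_right h4 s0
    have h7 : 23000 * ‖h‖ * Real.sqrt x ≤ 23000 * ‖h‖ := mul_le_of_le_one_right (by positivity) s1
    rw [add_mul] at h6
    linarith
  · have h4 : |sig1 h x| ≤ |∫ r in (1 / 2 : ℝ)..x, eps h r| + 12000 * ‖h‖ := by
      refine (abs_add_le _ _).trans ?_
      linarith
    have h5 := sa_E_bd h hx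
    have s2 : Real.sqrt (1 - x) ≤ 1 := Real.sqrt_le_one.2 (by linarith [hx.1])
    have h0 := hx.1
    have s3 : x * Real.sqrt x * Real.sqrt (1 - x) ≤ 1 :=
      mul_le_one₀ (mul_le_one₀ hx.2.le s0 s1) (Real.sqrt_nonneg _) s2
    have h6 := mul_le_mul_of_nonneg_right h4 (show 0 ≤ x * Real.sqrt x * Real.sqrt (1 - x) by positivity)
    have h7 : 12000 * ‖h‖ * (x * Real.sqrt x * Real.sqrt (1 - x)) ≤ 12000 * ‖h‖ :=
      mul_le_of_le_one_right (by positivity) s3
    rw [add_mul] at h6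
    linarith

theorem sa_int_of_sqrt {f : ℝ → ℝ} (hf : ContinuousOn f (Ioo 0 1)) {M : ℝ}
    (hM : ∀ x ∈ Ioo (0 : ℝ) 1, |f x| * Real.sqrt x ≤ M) : IntervalIntegrable f volume 0 1 := by
  rw [intervalIntegrable_iff_integrableOn_Ioo_of_le zero_le_one]
  have h1 : IntegrableOn (fun x : ℝ => M * x ^ (-(1 / 2) : ℝ)) (Ioo 0 1) :=
    (intervalIntegrable_iff_integrableOn_Ioo_of_le zero_le_one).1
      ((intervalIntegral.intervalIntegrable_rpow' (by norm_num)).const_mul M)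
  refine h1.mono' (hf.aestronglyMeasurable measurableSet_Ioo) ?_
  refine (ae_restrict_iff' measurableSet_Ioo).2 (Eventually.of_forall fun x hx => ?_)
  rw [Real.rpow_neg hx.1.le, ← Real.sqrt_eq_rpow, ← div_eq_mul_inv, le_div_iff₀ (Real.sqrt_pos.2 hx.1)]
  exact hM x hx

theorem sa_sg0_int (h : L2) : IntervalIntegrable (sg0 h) volume 0 1 :=
  sa_int_of_sqrt (sa_sg0_cont h) fun _ hx => sa_sg0_bd h hx

theorem sa_sig_int (h : L2) : IntervalIntegrable (sig h) volume 0 1 := by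
  obtain ⟨C, -, hC⟩ := sa_bd
  exact sa_int_of_sqrt (sa_sig_cont h) fun x hx => (hC h x hx).1

theorem sa_mom (h : L2) (n : ℕ) : ∫ r in (0 : ℝ)..1, r ^ n * sig h r = (∫ r in (0 : ℝ)..1, r ^ n * sg0 h r) +
    (1320 * mB h - 1210 * mA h) / (n + 1) + (1320 * mA h - 1452 * mB h) / (n + 2) := by
  have e : (fun r : ℝ => r ^ n * sig h r) = fun r => r ^ n * sg0 h r + (1320 * mB h - 1210 * mA h) * r ^ n +
      (1320 * mA h - 1452 * mB h) * r ^ (n + 1) := by
    funext r; simp only [sig]; ring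
  have i1 : IntervalIntegrable (fun r : ℝ => r ^ n * sg0 h r) volume 0 1 :=
    (sa_sg0_int h).continuousOn_mul (by fun_prop)
  have i2 : ∀ (c : ℝ) (m : ℕ), IntervalIntegrable (fun r : ℝ => c * r ^ m) volume 0 1 := fun c m =>
    Continuous.intervalIntegrable (by fun_prop) _ _
  rw [e, intervalIntegral.integral_add (i1.add (i2 _ _)) (i2 _ _), intervalIntegral.integral_add i1 (i2 _ _),
    intervalIntegral.integral_const_mul, intervalIntegral.integral_const_mul, integral_pow, integral_pow]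
  push_cast
  simp only [one_pow, ne_eq, Nat.add_eq_zero_iff, one_ne_zero, and_false, not_false_eq_true, zero_pow, sub_zero]
  ring

theorem sa_moments (h : L2) : IntervalIntegrable (sig h) volume 0 1 ∧
    ∫ r in (0 : ℝ)..1, r ^ 9 * sig h r = 0 ∧ ∫ r in (0 : ℝ)..1, r ^ 10 * sig h r = 0 := by
  refine ⟨sa_sig_int h, ?_, ?_⟩
  · rw [sa_mom, ← mA]; push_cast; ring
  · rw [sa_mom, ← mB]; push_cast; ring

theorem sa_lin_int (h k : L2) (t : ℝ) {x : ℝ} (hx : x ∈ Ioo (0 : ℝ) 1) {w : ℝ → ℝ} (hw : Continuous w) :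
    ∫ r in (1 / 2 : ℝ)..x, w r * eps (h + t • k) r =
      (∫ r in (1 / 2 : ℝ)..x, w r * eps h r) + t * ∫ r in (1 / 2 : ℝ)..x, w r * eps k r := by
  rw [← intervalIntegral.integral_const_mul, ← intervalIntegral.integral_add
    ((sa_eps_int h sa_half hx).continuousOn_mul hw.continuousOn)
    (((sa_eps_int k sa_half hx).continuousOn_mul hw.continuousOn).const_mul t)]
  refine intervalIntegral.integral_congr_ae ?_
  have h1 : ∀ᵐ r ∂ν, (h + t • k : L2) r = h r + t * k r := by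
    filter_upwards [Lp.coeFn_add h (t • k), Lp.coeFn_smul t k] with r h1 h2
    rw [h1, Pi.add_apply, h2, Pi.smul_apply, smul_eq_mul]
  filter_upwards [(ae_restrict_iff' measurableSet_Ioo).1 h1] with r hr hr'
  simp only [eps]
  rw [hr (sa_uIcc sa_half hx (uIoc_subset_uIcc hr'))]
  ring

theorem sa_lin_sg0 (h k : L2) (t : ℝ) {x : ℝ} (hx : x ∈ Ioo (0 : ℝ) 1) :
    sg0 (h + t • k) x = sg0 h x + t * sg0 k x :=
  sa_lin_int h k t hx (w := fun r => x - r) (by fun_prop)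

theorem sa_lin_mom (h k : L2) (t : ℝ) (n : ℕ) : ∫ r in (0 : ℝ)..1, r ^ n * sg0 (h + t • k) r =
    (∫ r in (0 : ℝ)..1, r ^ n * sg0 h r) + t * ∫ r in (0 : ℝ)..1, r ^ n * sg0 k r := by
  have i1 : ∀ h : L2, IntervalIntegrable (fun r : ℝ => r ^ n * sg0 h r) volume 0 1 := fun h =>
    (sa_sg0_int h).continuousOn_mul (by fun_prop)
  rw [← intervalIntegral.integral_const_mul, ← intervalIntegral.integral_add (i1 h) ((i1 k).const_mul t),
    sa_int01, sa_int01]
  refine setIntegral_congr_fun measurableSet_Ioo fun r hr => ?_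
  rw [sa_lin_sg0 h k t hr]
  ring

theorem sa_lin_sig (h k : L2) (t : ℝ) {x : ℝ} (hx : x ∈ Ioo (0 : ℝ) 1) :
    sig (h + t • k) x = sig h x + t * sig k x := by
  have hA : mA (h + t • k) = mA h + t * mA k := sa_lin_mom h k t 9
  have hB : mB (h + t • k) = mB h + t * mB k := sa_lin_mom h k t 10
  simp only [sig]
  rw [hA, hB, sa_lin_sg0 h k t hx]
  ring

theorem sa_lin (h k : L2) (t : ℝ) {x : ℝ} (hx : x ∈ Ioo (0 : ℝ) 1) :
    sig (h + t • k) x = sig h x + t * sig k x ∧ sig1 (h + t • k) x = sig1 h x + t * sig1 k x ∧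
    xi (h + t • k) x = xi h x + t * xi k x := by
  have hA : mA (h + t • k) = mA h + t * mA k := sa_lin_mom h k t 9
  have hB : mB (h + t • k) = mB h + t * mB k := sa_lin_mom h k t 10
  refine ⟨sa_lin_sig h k t hx, ?_, ?_⟩
  · have := sa_lin_int h k t hx (w := fun _ => 1) continuous_const
    simp only [one_mul] at this
    simp only [sig1]
    rw [hA, hB, this]
    ring
  · have i1 : ∀ h : L2, IntervalIntegrable (fun r : ℝ => (x - r) * r ^ 9 * sig h r) volume 0 x := fun h =>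
      ((sa_sig_int h).mono_set (uIcc_subset_uIcc_left (by
        rw [uIcc_of_le zero_le_one]; exact Ioo_subset_Icc_self hx))).continuousOn_mul (by fun_prop)
    have e : ∫ r in (0 : ℝ)..x, (x - r) * r ^ 9 * sig (h + t • k) r =
        (∫ r in (0 : ℝ)..x, (x - r) * r ^ 9 * sig h r) + t * ∫ r in (0 : ℝ)..x, (x - r) * r ^ 9 * sig k r := by
      rw [← intervalIntegral.integral_const_mul, ← intervalIntegral.integral_add (i1 h) ((i1 k).const_mul t)]
      refine intervalIntegral.integral_congr_ae (Eventually.of_forall fun r hr => ?_)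
      rw [uIoc_of_le hx.1.le] at hr
      rw [sa_lin_sig h k t ⟨hr.1, hr.2.trans_lt hx.2⟩]
      ring
    simp only [xi]
    rw [e]
    ring

theorem sa_ibp (h : L2) {Φ : ℝ → ℝ} (hΦ : Test Φ) :
    ∫ x in Ioo (0 : ℝ) 1, sig h x * deriv (deriv Φ) x = ∫ x in Ioo (0 : ℝ) 1, eps h x * Φ x := by
  obtain ⟨hsm, δ0, hδ0, hz0⟩ := hΦ
  obtain ⟨δ, hδ, hδ4, hz⟩ : ∃ δ : ℝ, 0 < δ ∧ δ ≤ 1 / 4 ∧ ∀ x, x ∉ Icc δ (1 - δ) → Φ x = 0 := by
    refine ⟨min δ0 (1 / 4), lt_min hδ0 (by norm_num), min_le_right _ _, fun x hx => hz0 x fun hx' => hx ?_⟩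
    have := min_le_left δ0 (1 / 4)
    exact ⟨by linarith [hx'.1], by linarith [hx'.2]⟩
  have hz1 : ∀ {f : ℝ → ℝ}, (∀ x, x ∉ Icc δ (1 - δ) → f x = 0) → ∀ x, x ∉ Icc δ (1 - δ) → deriv f x = 0 := by
    intro f hf x hx
    have : f =ᶠ[𝓝 x] fun _ => 0 := by
      filter_upwards [isClosed_Icc.isOpen_compl.mem_nhds hx] with y hy using hf y hy
    rw [this.deriv_eq, deriv_const]
  have ha : δ / 2 ∈ Ioo (0 : ℝ) 1 := ⟨by linarith, by linarith⟩
  have hb : 1 - δ / 2 ∈ Ioo (0 : ℝ) 1 := ⟨by linarith, by linarith⟩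
  have hab : δ / 2 ≤ 1 - δ / 2 := by linarith
  have ha' : δ / 2 ∉ Icc δ (1 - δ) := fun h => by linarith [h.1]
  have hb' : 1 - δ / 2 ∉ Icc δ (1 - δ) := fun h => by linarith [h.2]
  have hred : ∀ {f g : ℝ → ℝ}, (∀ x, x ∉ Icc δ (1 - δ) → g x = 0) →
      ∫ x in Ioo (0 : ℝ) 1, f x * g x = ∫ x in (δ / 2)..(1 - δ / 2), f x * g x := by
    intro f g hg
    rw [intervalIntegral.integral_of_le hab]
    refine setIntegral_eq_of_subset_of_forall_sdiff_eq_zero measurableSet_Ioo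
      (fun r hr => ⟨ha.1.trans hr.1, hr.2.trans_lt hb.2⟩) fun r hr => ?_
    rw [hg r fun hr' => hr.2 ⟨by linarith [hr'.1], by linarith [hr'.2]⟩, mul_zero]
  have d1 : ContDiff ℝ 1 (deriv Φ) := hsm.deriv'
  have c2 : Continuous (deriv (deriv Φ)) := d1.continuous_deriv le_rfl
  have hsub := sa_uIcc ha hb
  rw [hred (hz1 (hz1 hz)), hred hz,
    intervalIntegral.integral_mul_deriv_eq_deriv_mul (u' := sig1 h) (v := deriv Φ)
      (fun x hx => sa_hasDerivAt h (hsub hx)) (fun x _ => (d1.differentiable one_ne_zero x).hasDerivAt)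
      (((sa_sig1_cont h).mono hsub).intervalIntegrable) (c2.intervalIntegrable _ _),
    hz1 hz _ ha', hz1 hz _ hb']
  have hh : (1 / 2 : ℝ) ∈ uIcc (δ / 2) (1 - δ / 2) := by
    rw [uIcc_of_le hab]; constructor <;> linarith
  have hE := (sa_eps_int h ha hb).absolutelyContinuousOnInterval_intervalIntegral hh
  have hΦ' : AbsolutelyContinuousOnInterval Φ (δ / 2) (1 - δ / 2) :=
    (hsm.of_le (by norm_num)).contDiffOn.absolutelyContinuousOnInterval
  have k1 := hE.integral_mul_deriv_eq_deriv_mul hΦ'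
  have k2 : ∫ x in (δ / 2)..(1 - δ / 2), deriv (fun x => ∫ v in (1 / 2 : ℝ)..x, eps h v) x * Φ x =
      ∫ x in (δ / 2)..(1 - δ / 2), eps h x * Φ x := by
    refine intervalIntegral.integral_congr_ae ?_
    filter_upwards [(sa_eps_int h ha hb).ae_hasDerivAt_integral] with x hx hx'
    rw [(hx (uIoc_subset_uIcc hx') _ hh).deriv]
  have k3 : ∫ x in (δ / 2)..(1 - δ / 2), deriv Φ x = 0 := by
    rw [intervalIntegral.integral_deriv_eq_sub (fun x _ => hsm.differentiable (by norm_num) x)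
      (d1.continuous.intervalIntegrable _ _), hz _ ha', hz _ hb', sub_zero]
  have k4 : ∫ x in (δ / 2)..(1 - δ / 2), sig1 h x * deriv Φ x =
      (∫ x in (δ / 2)..(1 - δ / 2), (∫ v in (1 / 2 : ℝ)..x, eps h v) * deriv Φ x) +
        (1320 * mA h - 1452 * mB h) * ∫ x in (δ / 2)..(1 - δ / 2), deriv Φ x := by
    rw [← intervalIntegral.integral_const_mul, ← intervalIntegral.integral_add
      ((hE.continuousOn.fun_mul d1.continuous.continuousOn).intervalIntegrable)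
      ((d1.continuous.intervalIntegrable _ _).const_mul _)]
    congr 1
    funext x
    simp only [sig1]
    ring
  rw [k4, k3, k1, k2, hz _ ha', hz _ hb']
  ring

end Crest.Agent.R213
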