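import Mathlib

/-!
# R213 / SpecA : analytic tools for `spec` (right inverse, Young, adjoint of a convolution)
-/

set_option autoImplicit false

open MeasureTheory Set Filter Topology
open scoped InnerProductSpace

namespace Crest.Agent.R213

/-- locally square integrable and vanishing on `(-∞, s0]`. -/
def LocAdm {E : Type} [NormedAddCommGroup E] (s0 : ℝ) (g : ℝ → E) : Prop :=
  (∀ s, s ≤ s0 → g s = 0) ∧ ∀ S, MemLp g 2 (volume.restrict (Ioc s0 S))

theorem spa_cs (p q : ℝ → ℝ) (hp : MemLp p 2 volume) (hq : MemLp q 2 volume) :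
    (∫ u, p u * q u) ^ 2 ≤ (∫ u, p u ^ 2) * ∫ u, q u ^ 2 := by
  have h1 : Integrable (fun u => p u ^ 2) := hp.integrable_sq
  have h2 : Integrable (fun u => q u ^ 2) := hq.integrable_sq
  have h3 : Integrable (fun u => p u * q u) := hp.integrable_mul hq
  have key : ∀ t : ℝ, 0 ≤ (∫ u, p u ^ 2) * (t * t) + (2 * ∫ u, p u * q u) * t + ∫ u, q u ^ 2 := by
    intro t
    have e : (∫ u, p u ^ 2) * (t * t) + (2 * ∫ u, p u * q u) * t + ∫ u, q u ^ 2
        = ∫ u, (p u * t + q u) ^ 2 := by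
      have e1 : (fun u => (p u * t + q u) ^ 2)
          = fun u => (p u ^ 2 * (t * t) + p u * q u * (2 * t)) + q u ^ 2 := by
        funext u; ring
      have h4 : Integrable (fun u => p u ^ 2 * (t * t) + p u * q u * (2 * t)) :=
        (h1.mul_const _).add (h3.mul_const _)
      rw [e1, integral_add h4 h2,
        integral_add (h1.mul_const _) (h3.mul_const _), integral_mul_const, integral_mul_const]
      ring
    rw [e]
    exact integral_nonneg fun u => sq_nonneg _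
  have := discrim_le_zero key
  unfold discrim at this
  nlinarith

theorem spa_shift {E : Type} [NormedAddCommGroup E] (f : ℝ → E) (hf : MemLp f 2 volume) (r : ℝ) :
    MemLp (fun u => f (r + u)) 2 volume :=
  hf.comp_measurePreserving (measurePreserving_add_left volume r)

/-- Right inverse from a lower bound for the adjoint.  `‖T† φ‖ ‖G‖ ≥ ⟪G, T† φ⟫ = ⟪T G, φ⟫` gives
`c ‖φ‖ ≤ ‖T† φ‖` on `S` (if `G = 0` then `φ = 0`), everywhere by density.  `T T†` is invertible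
(`ContinuousLinearMap.isUnit_of_forall_le_norm_inner_map`, `⟪T T† φ, φ⟫ = ‖T† φ‖²`);
`Λ = T† (T T†)⁻¹`; with `φ = (T T†)⁻¹ D`: `‖Λ D‖² = ⟪D, φ⟫ ≤ ‖D‖ ‖φ‖ ≤ ‖D‖ ‖Λ D‖ / c`. -/
theorem sp_rightInv {H1 H2 : Type} [NormedAddCommGroup H1] [InnerProductSpace ℝ H1]
    [CompleteSpace H1] [NormedAddCommGroup H2] [InnerProductSpace ℝ H2] [CompleteSpace H2]
    (T : H1 →L[ℝ] H2) (c : ℝ) (hc : 0 < c) (S : Set H2) (hS : Dense S)
    (h : ∀ φ ∈ S, ∃ G : H1, 2 * c * ‖φ‖ ≤ ‖G‖ ∧ ‖G‖ ^ 2 - c * ‖G‖ * ‖φ‖ ≤ ⟪T G, φ⟫_ℝ) :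
    ∃ Λ : H2 →L[ℝ] H1, ‖Λ‖ ≤ 1 / c ∧ ∀ D, T (Λ D) = D := by
  set A : H2 →L[ℝ] H1 := ContinuousLinearMap.adjoint T with hA
  have hlow : ∀ φ, c * ‖φ‖ ≤ ‖A φ‖ := by
    intro φ
    refine Dense.induction (P := fun φ => c * ‖φ‖ ≤ ‖A φ‖) hS ?_ ?_ φ
    · intro φ hφ
      obtain ⟨G, h1, h2⟩ := h φ hφ
      have h3 : ⟪T G, φ⟫_ℝ ≤ ‖G‖ * ‖A φ‖ := by
        rw [← ContinuousLinearMap.adjoint_inner_right]
        exact real_inner_le_norm _ _
      have h0 := norm_nonneg φ
      have h0' := norm_nonneg (A φ)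
      rcases (norm_nonneg G).eq_or_lt with hG | hG
      · rw [← hG] at h1
        nlinarith
      · have h4 : ‖G‖ * (‖G‖ - c * ‖φ‖) ≤ ‖G‖ * ‖A φ‖ := by nlinarith
        have h5 := le_of_mul_le_mul_left h4 hG
        linarith
    · exact isClosed_le (by fun_prop) (by fun_prop)
  have hM : ∀ x, ⟪(T ∘L A) x, x⟫_ℝ = ‖A x‖ ^ 2 := by
    intro x
    rw [ContinuousLinearMap.comp_apply, ← ContinuousLinearMap.adjoint_inner_right, ← hA,
      real_inner_self_eq_norm_sq]
  have hU : IsUnit (T ∘L A) := by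
    refine ContinuousLinearMap.isUnit_of_forall_le_norm_inner_map _
      (c := ⟨c ^ 2, by positivity⟩) (show (0 : ℝ) < c ^ 2 by positivity) fun x => ?_
    rw [hM x]
    have h1 := hlow x
    have h2 : (c * ‖x‖) ^ 2 ≤ ‖A x‖ ^ 2 := by gcongr
    refine le_trans ?_ (Real.le_norm_self _)
    show ‖x‖ ^ 2 * c ^ 2 ≤ _
    nlinarith
  obtain ⟨u, hu⟩ := hU
  have hinv : ∀ D, T (A ((↑u⁻¹ : H2 →L[ℝ] H2) D)) = D := by
    intro D
    have e : ((↑u : H2 →L[ℝ] H2) * (↑u⁻¹ : H2 →L[ℝ] H2)) D = D := by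
      rw [u.mul_inv]; rfl
    rw [hu] at e
    exact e
  refine ⟨A ∘L (↑u⁻¹ : H2 →L[ℝ] H2), ?_, hinv⟩
  refine ContinuousLinearMap.opNorm_le_bound _ (by positivity) fun D => ?_
  set φ := (↑u⁻¹ : H2 →L[ℝ] H2) D with hφ
  show ‖A φ‖ ≤ 1 / c * ‖D‖
  have h1 := hM φ
  rw [ContinuousLinearMap.comp_apply, hinv D] at h1
  have h2 : ‖A φ‖ ^ 2 ≤ ‖D‖ * ‖φ‖ := by
    rw [← h1]; exact real_inner_le_norm _ _
  have h3 := hlow φ
  have hD := norm_nonneg D
  rw [one_div, inv_mul_eq_div, le_div_iff₀ hc]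
  rcases (norm_nonneg (A φ)).eq_or_lt with h0 | h0
  · rw [← h0]; simp
  · have h4 : ‖A φ‖ * (‖A φ‖ * c) ≤ ‖A φ‖ * ‖D‖ := by nlinarith
    exact le_of_mul_le_mul_left h4 h0

/-- Young: `s ↦ ∫ w u ‖G (s-u)‖²` is the convolution of two integrable functions
(`Integrable.integrable_convolution`, `integral_convolution`). -/
theorem sp_young {F F' : Type} [NormedAddCommGroup F] [NormedAddCommGroup F']
    (w : ℝ → ℝ) (hw : Integrable w) (G : ℝ → F) (hG : MemLp G 2 volume)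
    (H : ℝ → F') (hH : AEStronglyMeasurable H volume) (B : ℝ)
    (h : ∀ s, ‖H s‖ ^ 2 ≤ B * ∫ u, w u * ‖G (s - u)‖ ^ 2) :
    MemLp H 2 volume ∧ ∫ s, ‖H s‖ ^ 2 ≤ B * (∫ u, w u) * ∫ r, ‖G r‖ ^ 2 := by
  have hG2 : Integrable (fun r => ‖G r‖ ^ 2) :=
    (memLp_two_iff_integrable_sq_norm hG.1).1 hG
  have hc : Integrable (fun s => ∫ u, w u * ‖G (s - u)‖ ^ 2) :=
    hw.integrable_convolution (ContinuousLinearMap.mul ℝ ℝ) hG2
  have hci : ∫ s, ∫ u, w u * ‖G (s - u)‖ ^ 2 = (∫ u, w u) * ∫ r, ‖G r‖ ^ 2 :=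
    integral_convolution (ContinuousLinearMap.mul ℝ ℝ) hw hG2
  have hH2 : Integrable (fun s => ‖H s‖ ^ 2) := by
    refine Integrable.mono' (hc.const_mul B) (hH.norm.pow 2) (Eventually.of_forall fun s => ?_)
    rw [Real.norm_of_nonneg (sq_nonneg _)]
    exact h s
  refine ⟨(memLp_two_iff_integrable_sq_norm hH).2 hH2, ?_⟩
  calc ∫ s, ‖H s‖ ^ 2 ≤ ∫ s, B * ∫ u, w u * ‖G (s - u)‖ ^ 2 :=
        integral_mono hH2 (hc.const_mul B) h
    _ = B * (∫ u, w u) * ∫ r, ‖G r‖ ^ 2 := by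
        rw [integral_const_mul, hci, mul_assoc]

/-- Correlation with an exponentially damped `L²` kernel vanishing on `u ≤ L`.  For each `r`,
Cauchy–Schwarz: `‖∫ f(r+u) e^{-au} κ u‖² ≤ (∫‖κ‖²) ∫ 1_{u>L} e^{-2au} f(r+u)²`; substitute `u → -u`
(`integral_neg_eq_self`) and use `sp_young`; `∫_{u>L} e^{-2au} = e^{-2aL}/(2a)`
(`integral_exp_mul_Ioi`).  Measurability: `AEStronglyMeasurable.integral_prod_right'`. -/
theorem sp_corr {F : Type} [NormedAddCommGroup F] [NormedSpace ℝ F]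
    (κ : ℝ → F) (hκ : MemLp κ 2 volume) (a L : ℝ) (ha : 0 < a) (hκ0 : ∀ u, u ≤ L → κ u = 0)
    (f : ℝ → ℝ) (hf : MemLp f 2 volume) :
    MemLp (fun r => ∫ u, f (r + u) • (Real.exp (-(a * u)) • κ u)) 2 volume ∧
      ∫ r, ‖∫ u, f (r + u) • (Real.exp (-(a * u)) • κ u)‖ ^ 2 ≤
        (∫ u, ‖κ u‖ ^ 2) * (Real.exp (-(2 * a * L)) / (2 * a)) * ∫ r, f r ^ 2 := by
  set v : ℝ → ℝ := (Ioi L).indicator (fun u => Real.exp (-(2 * a) * u)) with hv
  have hvI : Integrable v :=
    (integrable_indicator_iff measurableSet_Ioi).2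
      (integrableOn_exp_mul_Ioi (by linarith : -(2 * a) < 0) L)
  have hvint : ∫ u, v u = Real.exp (-(2 * a * L)) / (2 * a) := by
    rw [hv, integral_indicator measurableSet_Ioi,
      integral_exp_mul_Ioi (by linarith : -(2 * a) < 0) L]
    rw [neg_div_neg_eq, neg_mul]
  have hwI : Integrable (fun u => v (-u)) := hvI.comp_neg
  have hwint : ∫ u, v (-u) = Real.exp (-(2 * a * L)) / (2 * a) := by
    rw [integral_neg_eq_self v, hvint]
  have hexp : Continuous fun u : ℝ => Real.exp (-(a * u)) := by fun_prop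
  have hmeas : AEStronglyMeasurable
      (fun r => ∫ u, f (r + u) • (Real.exp (-(a * u)) • κ u)) volume := by
    have h1 : AEStronglyMeasurable (fun p : ℝ × ℝ => f (p.1 + p.2)) (volume.prod volume) :=
      hf.1.comp_quasiMeasurePreserving (quasiMeasurePreserving_add volume volume)
    have h2 : AEStronglyMeasurable (fun u : ℝ => Real.exp (-(a * u)) • κ u) volume :=
      hexp.aestronglyMeasurable.smul hκ.1
    have h3 : AEStronglyMeasurable
        (fun p : ℝ × ℝ => f (p.1 + p.2) • (Real.exp (-(a * p.2)) • κ p.2)) (volume.prod volume) :=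
      h1.smul h2.comp_snd
    exact h3.integral_prod_right'
  have hpt : ∀ r, ‖∫ u, f (r + u) • (Real.exp (-(a * u)) • κ u)‖ ^ 2 ≤
      (∫ u, ‖κ u‖ ^ 2) * ∫ u, v (-u) * ‖f (r - u)‖ ^ 2 := by
    intro r
    set p : ℝ → ℝ := fun u => (Ioi L).indicator (fun u => Real.exp (-(a * u))) u * ‖f (r + u)‖
      with hp
    have hpm : AEStronglyMeasurable p volume :=
      (hexp.aestronglyMeasurable.indicator measurableSet_Ioi).mul (spa_shift f hf r).1.norm
    have hp2 : MemLp p 2 volume := by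
      refine MemLp.of_le_mul (c := Real.exp (-(a * L))) (spa_shift f hf r) hpm
        (Eventually.of_forall fun u => ?_)
      rw [hp, norm_mul, norm_norm]
      refine mul_le_mul_of_nonneg_right ?_ (norm_nonneg _)
      by_cases hu : u ∈ Ioi L
      · rw [indicator_of_mem hu, Real.norm_of_nonneg (Real.exp_pos _).le]
        have : L < u := hu
        exact Real.exp_le_exp.2 (by nlinarith)
      · rw [indicator_of_notMem hu, norm_zero]
        exact (Real.exp_pos _).le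
    have e1 : ∀ u, ‖f (r + u) • (Real.exp (-(a * u)) • κ u)‖ = ‖κ u‖ * p u := by
      intro u
      by_cases hu : u ∈ Ioi L
      · simp only [hp, indicator_of_mem hu, norm_smul, Real.norm_of_nonneg (Real.exp_pos _).le]
        ring
      · have : u ≤ L := not_lt.1 hu
        simp [hκ0 u this]
    have e2 : ∀ u, p u ^ 2 = v u * ‖f (r + u)‖ ^ 2 := by
      intro u
      by_cases hu : u ∈ Ioi L
      · simp only [hp, hv, indicator_of_mem hu, mul_pow]
        rw [← Real.exp_nat_mul]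
        congr 2
        push_cast
        ring
      · simp [hp, hv, indicator_of_notMem hu]
    have e3 : ∫ u, v (-u) * ‖f (r - u)‖ ^ 2 = ∫ u, p u ^ 2 := by
      rw [← integral_neg_eq_self (fun u => p u ^ 2)]
      congr 1
      funext u
      rw [e2, sub_eq_add_neg]
    rw [e3]
    refine le_trans ?_ (spa_cs _ _ hκ.norm hp2)
    refine pow_le_pow_left₀ (norm_nonneg _) ?_ 2
    refine (norm_integral_le_integral_norm _).trans (le_of_eq ?_)
    simp only [e1]
  obtain ⟨h1, h2⟩ := sp_young _ hwI f hf _ hmeas _ hpt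
  refine ⟨h1, ?_⟩
  rw [hwint] at h2
  simpa only [Real.norm_eq_abs, sq_abs] using h2

/-- The damped kernel is integrable and square integrable. -/
theorem sp_damp {F : Type} [NormedAddCommGroup F] [NormedSpace ℝ F]
    (κ : ℝ → F) (hκ : MemLp κ 2 volume) (a : ℝ) (ha : 0 < a) (hκ0 : ∀ u, u ≤ 0 → κ u = 0) :
    Integrable (fun u => Real.exp (-(a * u)) • κ u) ∧
      MemLp (fun u => Real.exp (-(a * u)) • κ u) 2 volume := by
  have hexp : Continuous fun u : ℝ => Real.exp (-(a * u)) := by fun_prop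
  have hm : AEStronglyMeasurable (fun u : ℝ => Real.exp (-(a * u)) • κ u) volume :=
    hexp.aestronglyMeasurable.smul hκ.1
  have hκ2 : Integrable (fun r => ‖κ r‖ ^ 2) := (memLp_two_iff_integrable_sq_norm hκ.1).1 hκ
  have hvI : Integrable ((Ioi (0 : ℝ)).indicator (fun u => Real.exp (-(2 * a) * u))) :=
    (integrable_indicator_iff measurableSet_Ioi).2
      (integrableOn_exp_mul_Ioi (by linarith : -(2 * a) < 0) 0)
  constructor
  · refine Integrable.mono' (hvI.add hκ2) hm (Eventually.of_forall fun u => ?_)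
    by_cases hu : u ∈ Ioi (0 : ℝ)
    · simp only [Pi.add_apply, indicator_of_mem hu, norm_smul,
        Real.norm_of_nonneg (Real.exp_pos _).le]
      have e : Real.exp (-(2 * a) * u) = Real.exp (-(a * u)) ^ 2 := by
        rw [← Real.exp_nat_mul]
        congr 1
        push_cast
        ring
      rw [e]
      nlinarith [sq_nonneg (Real.exp (-(a * u)) - ‖κ u‖), sq_nonneg (Real.exp (-(a * u))),
        sq_nonneg ‖κ u‖]
    · have : u ≤ 0 := not_lt.1 hu
      simp [hκ0 u this, indicator_of_notMem hu]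
  · refine MemLp.of_le hκ hm (Eventually.of_forall fun u => ?_)
    by_cases hu : u ≤ 0
    · simp [hκ0 u hu]
    · rw [norm_smul, Real.norm_of_nonneg (Real.exp_pos _).le]
      have h1 : Real.exp (-(a * u)) ≤ 1 := Real.exp_le_one_iff.2 (by nlinarith)
      exact mul_le_of_le_one_left (norm_nonneg _) h1

/-- Adjoint of a convolution.  Both sides equal `∫ u, ∫ r, f (r+u) ⟪k u, G r⟫` (Fubini twice and the
shift `s = r + u`); domination `|f s| ‖k u‖ ‖G (s-u)‖ ≤ ‖k u‖ (f s² + ‖G (s-u)‖²)/2`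
(`Integrable.mul_prod`, `Integrable.convolution_integrand`).  The inner integrals exist for every
`s`, `r` since `k, f, G ∈ L²`. -/
theorem sp_adj {F : Type} [NormedAddCommGroup F] [InnerProductSpace ℝ F] [CompleteSpace F]
    [SecondCountableTopology F]
    (k : ℝ → F) (hk1 : Integrable k) (hk2 : MemLp k 2 volume) (f : ℝ → ℝ) (hf : MemLp f 2 volume)
    (G : ℝ → F) (hG : MemLp G 2 volume) :
    AEStronglyMeasurable (fun s => ∫ u, ⟪k u, G (s - u)⟫_ℝ) volume ∧
      Integrable (fun s => f s * ∫ u, ⟪k u, G (s - u)⟫_ℝ) ∧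
      ∫ s, f s * ∫ u, ⟪k u, G (s - u)⟫_ℝ = ∫ r, ⟪∫ u, f (r + u) • k u, G r⟫_ℝ := by
  have hf2 : Integrable (fun r => f r ^ 2) := hf.integrable_sq
  have hG2 : Integrable (fun r => ‖G r‖ ^ 2) := (memLp_two_iff_integrable_sq_norm hG.1).1 hG
  have hm0 : AEStronglyMeasurable (fun p : ℝ × ℝ => ⟪k p.2, G (p.1 - p.2)⟫_ℝ)
      (volume.prod volume) := by
    have h1 : AEStronglyMeasurable (fun p : ℝ × ℝ => G (p.1 - p.2)) (volume.prod volume) :=
      hG.1.comp_quasiMeasurePreserving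
        (quasiMeasurePreserving_sub_of_right_invariant volume volume)
    exact hk1.1.comp_snd.inner h1
  have hΦ : Integrable (fun p : ℝ × ℝ => f p.1 * ⟪k p.2, G (p.1 - p.2)⟫_ℝ)
      (volume.prod volume) := by
    have b1 : Integrable (fun p : ℝ × ℝ => f p.1 ^ 2 * ‖k p.2‖) (volume.prod volume) :=
      hf2.mul_prod hk1.norm
    have b2 : Integrable (fun p : ℝ × ℝ => ‖k p.2‖ * ‖G (p.1 - p.2)‖ ^ 2) (volume.prod volume) :=
      hk1.norm.convolution_integrand (ContinuousLinearMap.mul ℝ ℝ) hG2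
    refine Integrable.mono' (b1.add b2) (hf.1.comp_fst.mul hm0) (Eventually.of_forall fun p => ?_)
    simp only [Pi.add_apply, norm_mul]
    have c1 : ‖⟪k p.2, G (p.1 - p.2)⟫_ℝ‖ ≤ ‖k p.2‖ * ‖G (p.1 - p.2)‖ := norm_inner_le_norm _ _
    have c2 : f p.1 ^ 2 = ‖f p.1‖ ^ 2 := by rw [Real.norm_eq_abs, sq_abs]
    rw [c2]
    have n1 := norm_nonneg (f p.1)
    have n2 := norm_nonneg (k p.2)
    have n3 := norm_nonneg (G (p.1 - p.2))
    have c3 : ‖f p.1‖ * ‖G (p.1 - p.2)‖ ≤ ‖f p.1‖ ^ 2 + ‖G (p.1 - p.2)‖ ^ 2 := by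
      nlinarith [sq_nonneg (‖f p.1‖ - ‖G (p.1 - p.2)‖), mul_nonneg n1 n3]
    calc ‖f p.1‖ * ‖⟪k p.2, G (p.1 - p.2)⟫_ℝ‖ ≤ ‖f p.1‖ * (‖k p.2‖ * ‖G (p.1 - p.2)‖) :=
          mul_le_mul_of_nonneg_left c1 n1
      _ = ‖k p.2‖ * (‖f p.1‖ * ‖G (p.1 - p.2)‖) := by ring
      _ ≤ ‖k p.2‖ * (‖f p.1‖ ^ 2 + ‖G (p.1 - p.2)‖ ^ 2) := mul_le_mul_of_nonneg_left c3 n2
      _ = _ := by ring
  have hΨ : Integrable (fun p : ℝ × ℝ => f (p.1 + p.2) * ⟪k p.2, G p.1⟫_ℝ)
      (volume.prod volume) := by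
    have := (measurePreserving_add_prod (volume : Measure ℝ) volume).integrable_comp_of_integrable
      hΦ
    refine this.congr (Eventually.of_forall fun p => ?_)
    simp
  refine ⟨hm0.integral_prod_right', ?_, ?_⟩
  · have := hΦ.integral_prod_left
    simpa only [integral_const_mul] using this
  · calc ∫ s, f s * ∫ u, ⟪k u, G (s - u)⟫_ℝ = ∫ s, ∫ u, f s * ⟪k u, G (s - u)⟫_ℝ := by
          simp only [integral_const_mul]
      _ = ∫ u, ∫ s, f s * ⟪k u, G (s - u)⟫_ℝ := integral_integral_swap hΦ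
      _ = ∫ u, ∫ r, f (r + u) * ⟪k u, G r⟫_ℝ := by
          congr 1
          funext u
          rw [← integral_add_right_eq_self (fun s => f s * ⟪k u, G (s - u)⟫_ℝ) u]
          simp
      _ = ∫ r, ∫ u, f (r + u) * ⟪k u, G r⟫_ℝ := (integral_integral_swap hΨ).symm
      _ = ∫ r, ⟪∫ u, f (r + u) • k u, G r⟫_ℝ := by
          congr 1
          funext r
          have hI : Integrable (fun u => f (r + u) • k u) :=
            memLp_one_iff_integrable.1 (hk2.smul (spa_shift f hf r))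
          rw [real_inner_comm, ← integral_inner hI]
          congr 1
          funext u
          rw [real_inner_smul_right, real_inner_comm]

end Crest.Agent.R213
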