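import Crest.Agent.R213.IIneq
import Crest.Agent.R213.IExist
import Crest.Agent.R213.SpecA

/-! # R213 / Sol1 : the operators of the feedback system, Gårding, continuity of the energy -/

set_option autoImplicit false

open MeasureTheory Set Filter Topology
open scoped ContDiff InnerProductSpace

noncomputable section

namespace Crest.Agent.R213

variable {S : Sp} {A : Apx} {N : Anc}

/-- the lower order part `h ↦ τ b ξ - γ Σ L_i ξ f_i`. -/
def fbK (B : Fb S A N) (s : ℝ) : L2 →L[ℝ] VV :=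
  (Real.exp (-s) • S.mul (A.b s) -
    B.γ • ∑ i, ContinuousLinearMap.smulRightL ℝ VV VV (B.L i s) (B.f i s)).comp S.T.G

/-- the full operator. -/
def fbA (B : Fb S A N) (s : ℝ) : VV →L[ℝ] VV :=
  Real.exp (-s) • S.mul (fun x => A.g s x ^ 2) - (fbK B s).comp S.T.ι

/-- the full forcing. -/
def fbF (B : Fb S A N) (Fo : ℝ → VV) (g : ℝ → EuclideanSpace ℝ (Fin B.m)) (s : ℝ) : VV :=
  Fo s + ∑ i, g s i • B.f i s

theorem fbK_apply (B : Fb S A N) (s : ℝ) (h : L2) : fbK B s h =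
    Real.exp (-s) • S.mul (A.b s) (S.T.G h) - ∑ i, (B.γ * B.L i s (S.T.G h)) • B.f i s := by
  simp [fbK, Finset.smul_sum, smul_smul]

theorem fb_rhs (B : Fb S A N) (Fo : ℝ → VV) (g : ℝ → EuclideanSpace ℝ (Fin B.m)) (s : ℝ)
    (u : VV) : lin0 S A s u (S.T.ι u) + Fo s +
      ∑ i, (g s i - B.γ * B.L i s (S.T.G (S.T.ι u))) • B.f i s = -(fbA B s u) + fbF B Fo g s := by
  simp only [lin0, fbA, fbF, sub_apply, smul_apply, ContinuousLinearMap.comp_apply, fbK_apply,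
    sub_smul, Finset.sum_sub_distrib, smul_sub]
  abel

theorem g2_cont (S : Sp) (A : Apx) : Continuous fun s => S.mul (fun x => A.g s x ^ 2) :=
  S.mul_family (p := fun s x => A.g s x ^ 2) (A.smg.pow 2)

theorem fbK_cont (B : Fb S A N) : Continuous (fbK B) := by
  unfold fbK
  refine Continuous.clm_comp ?_ continuous_const
  refine ((Real.continuous_exp.comp continuous_neg).smul (S.mul_family A.smb)).sub
    (Continuous.const_smul (continuous_finsetSum _ fun i _ => ?_) B.γ)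
  exact ((ContinuousLinearMap.smulRightL ℝ VV VV).continuous.comp (B.L_cont i)).clm_apply
    (B.f_cont i)

theorem fbA_cont (B : Fb S A N) : Continuous (fbA B) := by
  unfold fbA
  exact ((Real.continuous_exp.comp continuous_neg).smul (g2_cont S A)).sub
    ((fbK_cont B).clm_comp continuous_const)

theorem lam_pos' (s : ℝ) : 0 < lam s := Real.exp_pos _

theorem lam_sq' (s : ℝ) : lam s ^ 2 = Real.exp (-s) := by
  rw [lam, ← Real.exp_nat_mul]; congr 1; push_cast; ring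

theorem wh_smooth : ContDiff ℝ ∞ (Function.uncurry wh) := by
  have : Function.uncurry wh = fun p : ℝ × ℝ => 1 / (1 + p.2 ^ 2 * Real.exp p.1) := by
    funext p; rfl
  rw [this]
  refine contDiff_const.div (by fun_prop) fun p => ?_
  positivity

theorem wh_pos' (s x : ℝ) : 0 < wh s x := by unfold wh; positivity

theorem wh_le_one' (s x : ℝ) : wh s x ≤ 1 := by
  unfold wh
  rw [div_le_one (by positivity)]
  have : 0 ≤ x ^ 2 * Real.exp s := by positivity
  linarith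

theorem wh_contOn (s : ℝ) : Continuous (wh s) :=
  wh_smooth.continuous.comp (continuous_const.prodMk continuous_id)

theorem EH_eq (S : Sp) (s : ℝ) (h : L2) :
    ∫ x in Ioo (0 : ℝ) 1, (wh s x * h x) ^ 2 = ‖S.mulH (wh s) h‖ ^ 2 := by
  rw [norm_sq_H]
  have h1 := (S.mulH_eq (wh s) 1 (wh_contOn s).continuousOn fun x _ => by
    rw [abs_of_pos (wh_pos' s x)]; exact wh_le_one' s x).1 h
  refine integral_congr_ae ?_
  filter_upwards [h1] with x hx
  rw [hx]

theorem EH_int (s : ℝ) (h : L2) : Integrable (fun x => (wh s x * h x) ^ 2) ν := by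
  have h1 : MemLp (fun x => wh s x * h x) 2 ν := by
    refine (Lp.memLp h).of_le_mul (c := 1)
      ((wh_contOn s).aestronglyMeasurable.mul (Lp.aestronglyMeasurable h)) ?_
    refine Eventually.of_forall fun x => ?_
    rw [norm_mul, Real.norm_of_nonneg (wh_pos' s x).le]
    gcongr
    exact wh_le_one' s x
  exact h1.integrable_sq

theorem EH_le_En (N : Anc) (s : ℝ) (h : L2) :
    ∫ x in Ioo (0 : ℝ) 1, (wh s x * h x) ^ 2 ≤ N.En s h := by
  unfold Anc.En
  have := lam_pos' s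
  have : 0 ≤ lam s * (N.al 0 s h ^ 2 + N.al 1 s h ^ 2) := by positivity
  linarith

theorem En_nonneg' (N : Anc) (s : ℝ) (h : L2) : 0 ≤ N.En s h :=
  le_trans (integral_nonneg fun _ => sq_nonneg _) (EH_le_En N s h)

/-- `τ ∫ (v/(x+λ))² ≤ 2 e^s ∫ (wh h)²`. -/
theorem d0_le_EH (S : Sp) {s : ℝ} (hs : 0 ≤ s) (u : VV) :
    Real.exp (-s) * ∫ x in Ioo (0 : ℝ) 1, (d0 u x / (x + lam s)) ^ 2 ≤
      2 * Real.exp s * ∫ x in Ioo (0 : ℝ) 1, (wh s x * S.T.ι u x) ^ 2 := by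
  rw [← integral_const_mul, ← integral_const_mul]
  refine integral_mono_of_nonneg (Eventually.of_forall fun x => by positivity)
    ((EH_int s _).const_mul _) ?_
  filter_upwards [S.ι_eq u, ae_restrict_mem measurableSet_Ioo] with x hx hx'
  rw [← hx, hv]
  have hl := lam_pos' s
  have hl2 := lam_sq' s
  have he : Real.exp (-s) * Real.exp s = 1 := by rw [← Real.exp_add]; simp
  have he1 : 1 ≤ Real.exp s := Real.one_le_exp hs
  have hx0 := hx'.1
  have hx1 := hx'.2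
  have hw := wh_pos' s x
  have h1 : Real.exp (-s) * ((1 - x) / (x + lam s)) ^ 2 ≤ wh s x := by
    rw [div_pow, ← mul_div_assoc, wh, div_le_div_iff₀ (by positivity) (by positivity), one_mul]
    have h2 : Real.exp (-s) * (1 - x) ^ 2 * (1 + x ^ 2 * Real.exp s)
        = (1 - x) ^ 2 * (lam s ^ 2 + x ^ 2) := by
      rw [hl2]; linear_combination (1 - x) ^ 2 * x ^ 2 * he
    rw [h2]
    have h3 : (1 - x) ^ 2 ≤ 1 := by nlinarith
    have h4 : 0 ≤ lam s ^ 2 + x ^ 2 := by positivity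
    nlinarith [mul_pos hx0 hl]
  have h2 : 1 ≤ 2 * Real.exp s * wh s x := by
    rw [wh, ← mul_div_assoc, le_div_iff₀ (by positivity)]
    have h3 : x ^ 2 ≤ 1 := by nlinarith
    nlinarith [Real.exp_pos s]
  have h3 : Real.exp (-s) * ((1 - x) / (x + lam s)) ^ 2 ≤ 2 * Real.exp s * wh s x ^ 2 := by
    nlinarith
  calc Real.exp (-s) * ((1 - x) * S.T.ι u x / (x + lam s)) ^ 2
      = Real.exp (-s) * ((1 - x) / (x + lam s)) ^ 2 * S.T.ι u x ^ 2 := by ring
    _ ≤ 2 * Real.exp s * wh s x ^ 2 * S.T.ι u x ^ 2 := by gcongr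
    _ = _ := by ring

theorem EH_le_norm (S : Sp) (s : ℝ) (h : L2) :
    ∫ x in Ioo (0 : ℝ) 1, (wh s x * h x) ^ 2 ≤ ‖h‖ ^ 2 := by
  rw [EH_eq S]
  have h1 := (S.mulH_eq (wh s) 1 (wh_contOn s).continuousOn fun x _ => by
    rw [abs_of_pos (wh_pos' s x)]; exact wh_le_one' s x).2
  have h2 := (S.mulH (wh s)).le_of_opNorm_le h1 h
  rw [one_mul] at h2
  gcongr

theorem fb_gar (B : Fb S A N) (s1 : ℝ) : ∃ c C : ℝ, 0 < c ∧ 0 ≤ C ∧ ∀ s ∈ Icc B.sst s1, ∀ u,
    c * ‖u‖ ^ 2 - C * ‖S.T.ι u‖ ^ 2 ≤ S.T.a (fbA B s u) u := by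
  obtain ⟨c, C, hc, hC, hg⟩ := garding_g S A
  obtain ⟨M, hM⟩ := (isCompact_Icc (a := B.sst) (b := s1)).exists_bound_of_continuousOn
    (fbK_cont B).continuousOn
  set c' := c * Real.exp (-s1) with hc'
  have hc'0 : 0 < c' := by positivity
  refine ⟨c' / 2, C * (2 * Real.exp s1) + (‖S.T.a‖ * M) ^ 2 / (2 * c'), by positivity,
    by positivity, fun s hs u => ?_⟩
  have hs0 : 0 ≤ s := by linarith [B.sst_ge, hs.1]
  have h1 := (hg s hs0).1 u
  have h2 := d0_le_EH S hs0 u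
  have h3 := EH_le_norm S s (S.T.ι u)
  have h4 : S.T.a (fbA B s u) u = Real.exp (-s) * S.T.a (S.mul (fun x => A.g s x ^ 2) u) u -
      S.T.a (fbK B s (S.T.ι u)) u := by
    simp [fbA]
  have h5 : S.T.a (fbK B s (S.T.ι u)) u ≤ ‖S.T.a‖ * M * ‖S.T.ι u‖ * ‖u‖ := by
    refine (ex_a_le S.T _ _).trans ?_
    have := (fbK B s).le_of_opNorm_le (hM s hs) (S.T.ι u)
    rw [mul_assoc ‖S.T.a‖ M]
    gcongr
  have h6 : ‖S.T.a‖ * M * ‖S.T.ι u‖ * ‖u‖ ≤
      c' / 2 * ‖u‖ ^ 2 + (‖S.T.a‖ * M) ^ 2 / (2 * c') * ‖S.T.ι u‖ ^ 2 := by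
    have h7 : c' / 2 * ‖u‖ ^ 2 + (‖S.T.a‖ * M) ^ 2 / (2 * c') * ‖S.T.ι u‖ ^ 2 -
        ‖S.T.a‖ * M * ‖S.T.ι u‖ * ‖u‖ = (c' * ‖u‖ - ‖S.T.a‖ * M * ‖S.T.ι u‖) ^ 2 / (2 * c') := by
      field_simp; ring
    have h8 : 0 ≤ (c' * ‖u‖ - ‖S.T.a‖ * M * ‖S.T.ι u‖) ^ 2 / (2 * c') := by positivity
    linarith
  have h7 : Real.exp (-s1) ≤ Real.exp (-s) := Real.exp_le_exp.2 (by linarith [hs.2])
  have h8 : Real.exp s ≤ Real.exp s1 := Real.exp_le_exp.2 hs.2
  have h9 : c' * ‖u‖ ^ 2 ≤ Real.exp (-s) * (c * ‖u‖ ^ 2) := by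
    rw [hc', ← mul_assoc, mul_comm (Real.exp (-s)) c]; gcongr
  have h10 : Real.exp (-s) * ∫ x in Ioo (0 : ℝ) 1, (d0 u x / (x + lam s)) ^ 2 ≤
      2 * Real.exp s1 * ‖S.T.ι u‖ ^ 2 := by
    refine h2.trans ?_
    have : 0 ≤ ∫ x in Ioo (0 : ℝ) 1, (wh s x * S.T.ι u x) ^ 2 := integral_nonneg fun x => sq_nonneg _
    gcongr
  have h11 := mul_le_mul_of_nonneg_left h1 (Real.exp_pos (-s)).le
  have h12 := mul_le_mul_of_nonneg_left h10 hC.le
  rw [h4]
  nlinarith

theorem fbF_memLp (B : Fb S A N) {Fo : ℝ → VV} {g : ℝ → EuclideanSpace ℝ (Fin B.m)} {s0 s1 : ℝ}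
    (hF : MemLp Fo 2 (volume.restrict (Ioc s0 s1))) (hg : MemLp g 2 (volume.restrict (Ioc s0 s1))) :
    MemLp (fbF B Fo g) 2 (volume.restrict (Ioc s0 s1)) := by
  unfold fbF
  refine hF.add (memLp_finsetSum _ fun i _ => ?_)
  obtain ⟨M, hM⟩ := (isCompact_Icc (a := s0) (b := s1)).exists_bound_of_continuousOn
    (B.f_cont i).continuousOn
  have hgi : AEStronglyMeasurable (fun s => g s i) (volume.restrict (Ioc s0 s1)) :=
    (EuclideanSpace.proj (𝕜 := ℝ) i).continuous.comp_aestronglyMeasurable hg.1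
  refine hg.of_le_mul (c := M) (hgi.smul (B.f_cont i).aestronglyMeasurable) ?_
  filter_upwards [ae_restrict_mem measurableSet_Ioc] with s hs
  rw [norm_smul, mul_comm]
  have h1 := hM s (Ioc_subset_Icc_self hs)
  have h2 : ‖g s i‖ ≤ ‖g s‖ := PiLp.norm_apply_le (g s) i
  exact mul_le_mul h1 h2 (norm_nonneg _) ((norm_nonneg _).trans h1)

/-- the equation in operator form. -/
theorem FbSol.eqn' {B : Fb S A N} {Fo : ℝ → VV} {g : ℝ → EuclideanSpace ℝ (Fin B.m)}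
    {v Z : ℝ → VV} {U : ℝ → L2} (h : FbSol B Fo g v Z U) {s1 : ℝ} (hs : B.sst ≤ s1) :
    ∀ᵐ s ∂(volume.restrict (Ioc B.sst s1)), Z s = -(fbA B s (v s)) + fbF B Fo g s := by
  filter_upwards [ae_restrict_of_ae_restrict_of_subset (Ioc_subset_Ioi_self : Ioc B.sst s1 ⊆ _) h.eqn,
    (h.sol s1 hs).rep] with s h1 h2
  rw [h1, ← h2, fb_rhs]

theorem sig_sub_le : ∃ C : ℝ, 0 < C ∧ (∀ h : L2, ∀ x ∈ Ioo (0 : ℝ) 1,
    |sig h x| ≤ C * ‖h‖ * x ^ (-(1 / 2 : ℝ))) ∧ ∀ h k : L2, ∀ x ∈ Ioo (0 : ℝ) 1,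
    |sig h x - sig k x| ≤ C * ‖h - k‖ * x ^ (-(1 / 2 : ℝ)) := by
  obtain ⟨C, hC, h⟩ := sig_bd
  have h1 : ∀ k : L2, ∀ x ∈ Ioo (0 : ℝ) 1, |sig k x| ≤ C * ‖k‖ * x ^ (-(1 / 2 : ℝ)) := by
    intro k x hx
    rw [Real.rpow_neg hx.1.le, ← Real.sqrt_eq_rpow, ← div_eq_mul_inv,
      le_div_iff₀ (Real.sqrt_pos.2 hx.1)]
    exact (h k x hx).1
  refine ⟨C, hC, h1, fun h k x hx => ?_⟩
  have h2 := (sig_lin h k (-1) hx).1
  have h3 : h + (-1 : ℝ) • k = h - k := by rw [neg_one_smul, sub_eq_add_neg]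
  rw [h3] at h2
  have h4 : sig h x - sig k x = sig (h - k) x := by rw [h2]; ring
  rw [h4]
  exact h1 _ x hx

theorem al_cont (N : Anc) (j : Fin 2) {U : ℝ → L2} (hU : Continuous U) :
    Continuous fun s => N.al j s (U s) := by
  obtain ⟨C, hC, hb, hd⟩ := sig_sub_le
  have hψc : Continuous (N.ψ j) := (N.sm j).continuous
  obtain ⟨K, hK⟩ : ∃ K, ∀ y, ‖N.ψ j y‖ ≤ K := by
    refine hψc.bounded_above_of_compact_support
      (HasCompactSupport.intro (isCompact_Icc (a := (1 : ℝ)) (b := 2)) fun y hy => ?_)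
    exact N.supp j y fun h => hy (Ioo_subset_Icc_self h)
  have hK0 : 0 ≤ K := (norm_nonneg _).trans (hK 0)
  have hlam : Continuous lam := Real.continuous_exp.comp (continuous_id.div_const 2).neg
  unfold Anc.al
  refine Continuous.div ?_ hlam fun s => (lam_pos' s).ne'
  rw [continuous_iff_continuousAt]
  intro s0
  refine continuousAt_of_dominated
    (bound := fun x => C * (‖U s0‖ + 1) * x ^ (-(1 / 2 : ℝ)) * K) ?_ ?_ ?_ ?_
  · refine Eventually.of_forall fun s => ?_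
    have h1 : ContinuousOn (sig (U s)) (Ioo 0 1) := fun x hx =>
      (hasDerivAt_sig (U s) hx).continuousAt.continuousWithinAt
    exact (h1.aestronglyMeasurable measurableSet_Ioo).mul
      (hψc.comp (continuous_id.div_const _)).aestronglyMeasurable
  · have h1 : ∀ᶠ s in 𝓝 s0, ‖U s‖ < ‖U s0‖ + 1 :=
      hU.norm.continuousAt.eventually (gt_mem_nhds (lt_add_one _))
    filter_upwards [h1] with s hs
    filter_upwards [ae_restrict_mem measurableSet_Ioo] with x hx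
    rw [norm_mul, Real.norm_eq_abs]
    have h2 : 0 ≤ x ^ (-(1 / 2 : ℝ)) := Real.rpow_nonneg hx.1.le _
    have h3 : |sig (U s) x| ≤ C * (‖U s0‖ + 1) * x ^ (-(1 / 2 : ℝ)) :=
      (hb _ x hx).trans (by gcongr)
    exact mul_le_mul h3 (hK _) (norm_nonneg _) (by positivity)
  · have h1 := (intervalIntegral.intervalIntegrable_rpow' (r := -(1 / 2 : ℝ)) (a := 0) (b := 1)
      (by norm_num)).1
    exact ((h1.mono_set Ioo_subset_Ioc_self).const_mul _).mul_const _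
  · filter_upwards [ae_restrict_mem measurableSet_Ioo] with x hx
    refine ContinuousAt.mul ?_ (hψc.comp (continuous_const.div hlam
      fun s => (lam_pos' s).ne')).continuousAt
    rw [ContinuousAt, tendsto_iff_norm_sub_tendsto_zero]
    refine squeeze_zero (fun _ => norm_nonneg _) (fun s => hd (U s) (U s0) x hx) ?_
    have h1 : Continuous fun s => C * ‖U s - U s0‖ * x ^ (-(1 / 2 : ℝ)) := by fun_prop
    simpa using h1.tendsto s0

theorem en_cont (S : Sp) (N : Anc) {U : ℝ → L2} (hU : Continuous U) :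
    Continuous fun s => N.En s (U s) := by
  have hlam : Continuous lam := Real.continuous_exp.comp (continuous_id.div_const 2).neg
  unfold Anc.En
  simp only [EH_eq S]
  exact (((S.mulH_family wh_smooth).1.clm_apply hU).norm.pow 2).add
    (hlam.mul (((al_cont N 0 hU).pow 2).add ((al_cont N 1 hU).pow 2)))

theorem wh_sq_ii (S : Sp) {s0 s1 : ℝ} (h01 : s0 ≤ s1) {v : ℝ → VV}
    (hv : MemLp v 2 (volume.restrict (Ioc s0 s1))) :
    IntervalIntegrable (fun r => ‖S.mul (wh r) (v r)‖ ^ 2) volume s0 s1 :=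
  (intervalIntegrable_iff_integrableOn_Ioc_of_le h01).2
    (ex_sq_int (ex_mul_memLp (S.mul_family wh_smooth).continuousOn hv))

end Crest.Agent.R213

end
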