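import Crest.Agent.R213.SpL2

/-! # R213 / SpCoer : coercivity of `a`

With `p = f`, `q = f'`, `r = f''` (pointwise on `(0,1)`):
`A := (x r + 18 q + 72 p/x)(x r + 4 q + 2 p/x)`, `N := (p/(x(1-x)²))² + (q/(1-x))² + (x r)²`,
`W := 11 x q² + 60 p q + 162 p²/x - (1/130)(3 p²/(1-x)³ + 16 x² q²/(1-x))`, then `A - N/130 ≥ W'`. -/

set_option autoImplicit false

open MeasureTheory Set Filter Topology
open scoped ContDiff InnerProductSpace ENNReal

noncomputable section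

namespace Crest.Agent.R213.SpE

theorem coer_atoms (a b c q k R : ℝ) (hc : c ^ 2 ≤ b ^ 2) :
    11 * q ^ 2 + 22 * q * R + 60 * (q ^ 2 + a * R) + 324 * a * q - 162 * a ^ 2 -
        1 / 130 * (6 * b * (k + q) + 9 * b ^ 2 + 32 * k * (q + R) + 16 * k ^ 2) ≤
      (R + 18 * q + 72 * a) * (R + 4 * q + 2 * a) -
        1 / 130 * ((a + c + b) ^ 2 + (k + q) ^ 2 + R ^ 2) := by
  nlinarith [sq_nonneg (R + 14 * a), sq_nonneg (a - c), sq_nonneg (a - b), sq_nonneg (b - c),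
    sq_nonneg (b + (k + q)), sq_nonneg (k - q), sq_nonneg (k + 2 * (q + R)), sq_nonneg (q - R),
    sq_nonneg a, sq_nonneg q]

/-- the derivative of the auxiliary function `W`. -/
def coerW1 (x p q r : ℝ) : ℝ :=
  11 * q ^ 2 + 22 * q * (x * r) + 60 * (q ^ 2 + p * r) + 324 * (p / x) * q - 162 * (p / x) ^ 2 -
    1 / 130 * (6 * (p / (1 - x) ^ 2) * (q / (1 - x)) + 9 * (p / (1 - x) ^ 2) ^ 2 +
      32 * (x * q / (1 - x)) * (q + x * r) + 16 * (x * q / (1 - x)) ^ 2)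

/-- the auxiliary function `W`. -/
def coerW (x p q : ℝ) : ℝ :=
  11 * x * q ^ 2 + 60 * p * q + 162 * p ^ 2 / x -
    1 / 130 * (3 * p ^ 2 / (1 - x) ^ 3 + 16 * x ^ 2 * q ^ 2 / (1 - x))

theorem coer_pw {x : ℝ} (p q r : ℝ) (hx : x ∈ Ioo (0 : ℝ) 1) :
    coerW1 x p q r ≤ (x * r + 18 * q + 72 * p / x) * (x * r + 4 * q + 2 * p / x) -
      1 / 130 * ((p / (x * (1 - x) ^ 2)) ^ 2 + (q / (1 - x)) ^ 2 + (x * r) ^ 2) := by
  have h0 : x ≠ 0 := hx.1.ne'
  have hy : 0 < 1 - x := by linarith [hx.2]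
  have h1 : 1 - x ≠ 0 := hy.ne'
  have hc : (p / (1 - x)) ^ 2 ≤ (p / (1 - x) ^ 2) ^ 2 := by
    have e : p / (1 - x) = (1 - x) * (p / (1 - x) ^ 2) := by field_simp
    rw [e, mul_pow]
    have : (1 - x) ^ 2 ≤ 1 := by nlinarith [hx.1]
    nlinarith [sq_nonneg (p / (1 - x) ^ 2)]
  have key := coer_atoms (p / x) (p / (1 - x) ^ 2) (p / (1 - x)) q (x * q / (1 - x)) (x * r) hc
  have e1 : p / (x * (1 - x) ^ 2) = p / x + p / (1 - x) + p / (1 - x) ^ 2 := by
    field_simp; ring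
  have e2 : q / (1 - x) = x * q / (1 - x) + q := by
    field_simp; ring
  have e3 : p * r = p / x * (x * r) := by field_simp
  have e4 : 72 * p / x = 72 * (p / x) := by ring
  have e5 : 2 * p / x = 2 * (p / x) := by ring
  rw [coerW1, e1, e2, e3, e4, e5]
  exact key

theorem coer_hasDerivAt {p q : ℝ → ℝ} {r x : ℝ} (hx : x ∈ Ioo (0 : ℝ) 1)
    (hp : HasDerivAt p (q x) x) (hq : HasDerivAt q r x) :
    HasDerivAt (fun y => coerW y (p y) (q y)) (coerW1 x (p x) (q x) r) x := by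
  have h0 : x ≠ 0 := hx.1.ne'
  have hy : 0 < 1 - x := by linarith [hx.2]
  have h1 : 1 - x ≠ 0 := hy.ne'
  have hid : HasDerivAt (fun y : ℝ => y) 1 x := hasDerivAt_id x
  have hone : HasDerivAt (fun y : ℝ => 1 - y) (-1) x := by
    simpa using hid.const_sub 1
  have t1 := (hid.const_mul 11).mul (hq.pow 2)
  have t2 := (hp.const_mul 60).mul hq
  have t3 := ((hp.pow 2).const_mul 162).div hid h0
  have t4 := ((hp.pow 2).const_mul 3).div (hone.pow 3) (pow_ne_zero 3 h1)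
  have t5 := (((hid.pow 2).const_mul 16).mul (hq.pow 2)).div hone h1
  have t := ((t1.add t2).add t3).sub ((t4.add t5).const_mul (1 / 130))
  refine HasDerivAt.congr_deriv (f' := _) (t.congr_of_eventuallyEq ?_) ?_
  · exact Eventually.of_forall fun y => by simp [coerW]
  · simp only [coerW1, Pi.pow_apply, Pi.mul_apply, Nat.cast_ofNat]
    field_simp
    ring

theorem coer_test {f : ℝ → ℝ} (hf : Test f) :
    (1 / 130 : ℝ) * ∫ x in Ioo (0 : ℝ) 1, ((f x / (x * (1 - x) ^ 2)) ^ 2 +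
        (deriv f x / (1 - x)) ^ 2 + (x * deriv (deriv f) x) ^ 2) ≤
      ∫ x in Ioo (0 : ℝ) 1, (x * deriv (deriv f) x + 18 * deriv f x + 72 * f x / x) *
        (x * deriv (deriv f) x + 4 * deriv f x + 2 * f x / x) := by
  obtain ⟨δ, hδ, hδ', hs⟩ := test_van hf
  have hf2 : ContDiffOn ℝ 2 f (Ioo 0 1) := hf.1.contDiffOn
  obtain ⟨c0, c1, c2⟩ := contOn_of_c2 hf2
  have cid : ContinuousOn (fun x : ℝ => x) (Ioo 0 1) := continuousOn_id
  have cone : ContinuousOn (fun x : ℝ => 1 - x) (Ioo 0 1) := continuousOn_const.sub cid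
  have n0 : ∀ x ∈ Ioo (0 : ℝ) 1, x ≠ 0 := fun x hx => hx.1.ne'
  have n1 : ∀ x ∈ Ioo (0 : ℝ) 1, 1 - x ≠ 0 := fun x hx => by linarith [hx.2] |> fun h : 0 < 1 - x => h.ne'
  have n2 : ∀ x ∈ Ioo (0 : ℝ) 1, (1 - x) ^ 2 ≠ 0 := fun x hx => pow_ne_zero 2 (n1 x hx)
  have n3 : ∀ x ∈ Ioo (0 : ℝ) 1, x * (1 - x) ^ 2 ≠ 0 := fun x hx => mul_ne_zero (n0 x hx) (n2 x hx)
  have cW : ContinuousOn (fun x => coerW1 x (f x) (deriv f x) (deriv (deriv f) x)) (Ioo 0 1) := by
    unfold coerW1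
    fun_prop (disch := assumption)
  have cA : ContinuousOn (fun x => (x * deriv (deriv f) x + 18 * deriv f x + 72 * f x / x) *
      (x * deriv (deriv f) x + 4 * deriv f x + 2 * f x / x)) (Ioo 0 1) := by
    fun_prop (disch := assumption)
  have cN : ContinuousOn (fun x => (f x / (x * (1 - x) ^ 2)) ^ 2 +
      (deriv f x / (1 - x)) ^ 2 + (x * deriv (deriv f) x) ^ 2) (Ioo 0 1) := by
    fun_prop (disch := assumption)
  have iW := integrableOn_of_van hδ cW fun x hx => by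
    obtain ⟨a, b, c⟩ := hs x hx
    simp [coerW1, a, b, c]
  have iA := integrableOn_of_van hδ cA fun x hx => by
    obtain ⟨a, b, c⟩ := hs x hx
    simp [a, b, c]
  have iN := integrableOn_of_van hδ cN fun x hx => by
    obtain ⟨a, b, c⟩ := hs x hx
    simp [a, b, c]
  have hz := integral_deriv_van (W := fun y => coerW y (f y) (deriv f y)) hδ hδ'
    (fun x hx => coer_hasDerivAt hx (hasDerivAt_of_c2 hf2 hx).1 (hasDerivAt_of_c2 hf2 hx).2) cW
    fun x hx => by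
      obtain ⟨a, b, c⟩ := hs x hx
      simp [coerW1, coerW, a, b, c]
  have hle := setIntegral_mono_on iW (iA.sub (iN.const_mul (1 / 130))) measurableSet_Ioo
    fun x hx => coer_pw (f x) (deriv f x) (deriv (deriv f) x) hx
  rw [hz] at hle
  simp only [Pi.sub_apply] at hle
  rw [integral_sub iA (iN.const_mul (1 / 130)), integral_const_mul] at hle
  linarith

theorem coer_of_eq (a : VV →L[ℝ] VV →L[ℝ] ℝ)
    (ha : ∀ u w, a u w = ∫ x in Ioo (0 : ℝ) 1,
      (x * d2 u x + 18 * d1 u x + 72 * d0 u x / x) * (x * d2 w x + 4 * d1 w x + 2 * d0 w x / x)) :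
    ∃ c : ℝ, 0 < c ∧ ∀ v, c * ‖v‖ ^ 2 ≤ a v v := by
  refine ⟨1 / 130, by norm_num, fun v => ?_⟩
  refine V_ind (P := fun v => (1 / 130 : ℝ) * ‖v‖ ^ 2 ≤ a v v) ?_ ?_ v
  · exact isClosed_le (by fun_prop) (by fun_prop)
  · intro u f hf hr
    obtain ⟨r0, r1, r2⟩ := hr.d
    have e1 : ‖u‖ ^ 2 = ∫ x in Ioo (0 : ℝ) 1, ((f x / (x * (1 - x) ^ 2)) ^ 2 +
        (deriv f x / (1 - x)) ^ 2 + (x * deriv (deriv f) x) ^ 2) := by
      rw [norm_sq_V]
      refine integral_congr_ae ?_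
      filter_upwards [r0, r1, r2] with x h0 h1 h2
      rw [h0, h1, h2]
    have e2 : a u u = ∫ x in Ioo (0 : ℝ) 1,
        (x * deriv (deriv f) x + 18 * deriv f x + 72 * f x / x) *
          (x * deriv (deriv f) x + 4 * deriv f x + 2 * f x / x) := by
      rw [ha]
      refine integral_congr_ae ?_
      filter_upwards [r0, r1, r2] with x h0 h1 h2
      rw [h0, h1, h2]
    rw [e1, e2]
    exact coer_test hf

end Crest.Agent.R213.SpE

end
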