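import Crest.Agent.R213.IV
import Crest.Agent.R213.ISig

/-! # R213 / SpL2 : multiplication operators on `L2`, test-function algebra, lifting into `V` -/

set_option autoImplicit false

open MeasureTheory Set Filter Topology
open scoped ContDiff InnerProductSpace ENNReal

noncomputable section

namespace Crest.Agent.R213.SpE

theorem ae_mem_Ioo : ∀ᵐ x ∂ν, x ∈ Ioo (0 : ℝ) 1 := ae_restrict_mem measurableSet_Ioo

theorem aesm_of_contOn {p : ℝ → ℝ} (hp : ContinuousOn p (Ioo 0 1)) : AEStronglyMeasurable p ν :=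
  hp.aestronglyMeasurable measurableSet_Ioo

theorem memLp_of_contOn_bd {p : ℝ → ℝ} {N : ℝ} (q : ℝ≥0∞) (hp : ContinuousOn p (Ioo 0 1))
    (hb : ∀ x ∈ Ioo (0 : ℝ) 1, |p x| ≤ N) : MemLp p q ν :=
  MemLp.of_bound (aesm_of_contOn hp) N (ae_mem_Ioo.mono fun x hx => hb x hx)

open Classical in
/-- multiplication by a bounded function on `L2` (junk value `0`). -/
def mulL (p : ℝ → ℝ) : L2 →L[ℝ] L2 :=
  if h : MemLp p ⊤ ν then (ContinuousLinearMap.mul ℝ ℝ).holderL ν ⊤ 2 2 (h.toLp p) else 0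

theorem mulL_ae {p : ℝ → ℝ} {N : ℝ} (hp : ContinuousOn p (Ioo 0 1))
    (hb : ∀ x ∈ Ioo (0 : ℝ) 1, |p x| ≤ N) (h : L2) : mulL p h =ᵐ[ν] fun x => p x * h x := by
  have hm : MemLp p ⊤ ν := memLp_of_contOn_bd ⊤ hp hb
  rw [mulL, dif_pos hm, ContinuousLinearMap.holderL_apply_apply]
  filter_upwards [(ContinuousLinearMap.mul ℝ ℝ).coeFn_holder (r := 2) (hm.toLp p) h,
    hm.coeFn_toLp] with x h1 h2
  rw [h1, h2]; rfl

theorem mulL_apply_le {p : ℝ → ℝ} {N : ℝ} (hp : ContinuousOn p (Ioo 0 1))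
    (hb : ∀ x ∈ Ioo (0 : ℝ) 1, |p x| ≤ N) (h : L2) : ‖mulL p h‖ ≤ N * ‖h‖ := by
  apply Lp.norm_le_mul_norm_of_ae_le_mul
  filter_upwards [mulL_ae hp hb h, ae_mem_Ioo] with x h1 hx
  rw [h1, norm_mul]
  exact mul_le_mul_of_nonneg_right (hb x hx) (norm_nonneg _)

theorem mulL_le {p : ℝ → ℝ} {N : ℝ} (hp : ContinuousOn p (Ioo 0 1))
    (hb : ∀ x ∈ Ioo (0 : ℝ) 1, |p x| ≤ N) : ‖mulL p‖ ≤ N :=
  ContinuousLinearMap.opNorm_le_bound _
    ((abs_nonneg _).trans (hb (1 / 2) ⟨by norm_num, by norm_num⟩)) (mulL_apply_le hp hb)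

/-- the `i`-th component of an element of `V`. -/
def cmp (i : Fin 3) : VV →L[ℝ] L2 :=
  (PiLp.proj 2 (fun _ : Fin 3 => L2) i).comp VV.eL.toContinuousLinearMap

theorem cmp_apply (i : Fin 3) (u : VV) : cmp i u = u.e i := rfl

theorem isClosed_Vs : IsClosed (Vs : Set E3) := Submodule.isClosed_topologicalClosure _

theorem exists_lift {X : Type} [NormedAddCommGroup X] [NormedSpace ℝ X] (F : X →L[ℝ] E3)
    (h : ∀ x, F x ∈ Vs) : ∃ F' : X →L[ℝ] VV, ∀ x, (F' x).e = F x :=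
  ⟨(F.codRestrict Vs h : X →L[ℝ] Vs), fun _ => rfl⟩

theorem inner_L2 (h k : L2) : ⟪h, k⟫_ℝ = ∫ x in Ioo (0 : ℝ) 1, h x * k x := by
  rw [L2.inner_def]
  refine integral_congr_ae (Eventually.of_forall fun x => ?_)
  simp [mul_comm]

theorem test_mul_on {p f : ℝ → ℝ} (hp : ContDiffOn ℝ 2 p (Ioo 0 1)) (hf : Test f) :
    Test (fun x => p x * f x) := by
  obtain ⟨hf2, δ, hδ, hs⟩ := hf
  refine ⟨contDiff_iff_contDiffAt.2 fun x => ?_, δ, hδ, fun x hx => by simp [hs x hx]⟩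
  by_cases hx : x ∈ Ioo (0 : ℝ) 1
  · exact (hp.contDiffAt (Ioo_mem_nhds hx.1 hx.2)).mul hf2.contDiffAt
  · have hx' : x ∈ (Icc δ (1 - δ))ᶜ := fun h => hx ⟨by linarith [h.1], by linarith [h.2]⟩
    refine (contDiffAt_const (c := (0 : ℝ))).congr_of_eventuallyEq ?_
    filter_upwards [isClosed_Icc.isOpen_compl.mem_nhds hx'] with y hy
    simp [hs y fun h => hy (Ioo_subset_Icc_self h)]

theorem hasDerivAt_of_c2 {p : ℝ → ℝ} (hp : ContDiffOn ℝ 2 p (Ioo 0 1)) {x : ℝ}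
    (hx : x ∈ Ioo (0 : ℝ) 1) :
    HasDerivAt p (deriv p x) x ∧ HasDerivAt (deriv p) (deriv (deriv p) x) x := by
  have h1 : ContDiffOn ℝ 1 (deriv p) (Ioo 0 1) := hp.deriv_of_isOpen isOpen_Ioo (by norm_num)
  exact ⟨((hp.contDiffAt (Ioo_mem_nhds hx.1 hx.2)).differentiableAt (by norm_num)).hasDerivAt,
    ((h1.contDiffAt (Ioo_mem_nhds hx.1 hx.2)).differentiableAt (by norm_num)).hasDerivAt⟩

theorem contOn_of_c2 {p : ℝ → ℝ} (hp : ContDiffOn ℝ 2 p (Ioo 0 1)) :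
    ContinuousOn p (Ioo 0 1) ∧ ContinuousOn (deriv p) (Ioo 0 1) ∧
      ContinuousOn (deriv (deriv p)) (Ioo 0 1) := by
  have h1 : ContDiffOn ℝ 1 (deriv p) (Ioo 0 1) := hp.deriv_of_isOpen isOpen_Ioo (by norm_num)
  have h2 : ContDiffOn ℝ 0 (deriv (deriv p)) (Ioo 0 1) :=
    h1.deriv_of_isOpen isOpen_Ioo (by norm_num)
  exact ⟨hp.continuousOn, h1.continuousOn, h2.continuousOn⟩

theorem deriv_mul_c2 {p f : ℝ → ℝ} (hp : ContDiffOn ℝ 2 p (Ioo 0 1))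
    (hf : ContDiffOn ℝ 2 f (Ioo 0 1)) {x : ℝ} (hx : x ∈ Ioo (0 : ℝ) 1) :
    deriv (fun y => p y * f y) x = p x * deriv f x + deriv p x * f x ∧
    deriv (deriv (fun y => p y * f y)) x =
      p x * deriv (deriv f) x + 2 * deriv p x * deriv f x + deriv (deriv p) x * f x := by
  have h1 : ∀ y ∈ Ioo (0 : ℝ) 1,
      deriv (fun y => p y * f y) y = p y * deriv f y + deriv p y * f y := fun y hy => by
    have := ((hasDerivAt_of_c2 hp hy).1.mul (hasDerivAt_of_c2 hf hy).1).deriv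
    rw [add_comm]; exact this
  refine ⟨h1 x hx, ?_⟩
  have he : deriv (fun y => p y * f y) =ᶠ[𝓝 x] fun y => p y * deriv f y + deriv p y * f y := by
    filter_upwards [Ioo_mem_nhds hx.1 hx.2] with y hy using h1 y hy
  rw [he.deriv_eq]
  obtain ⟨a1, a2⟩ := hasDerivAt_of_c2 hp hx
  obtain ⟨b1, b2⟩ := hasDerivAt_of_c2 hf hx
  have := ((a1.mul b2).add (a2.mul b1)).deriv
  refine Eq.trans this ?_
  ring

/-- a test function and its derivatives vanish outside a compact subinterval. -/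
theorem test_van {f : ℝ → ℝ} (hf : Test f) : ∃ δ : ℝ, 0 < δ ∧ δ < 1 / 2 ∧
    ∀ x, x ∉ Ioo δ (1 - δ) → f x = 0 ∧ deriv f x = 0 ∧ deriv (deriv f) x = 0 := by
  obtain ⟨_, δ, hδ, hs⟩ := hf
  refine ⟨min (δ / 2) (1 / 4), by positivity, by linarith [min_le_right (δ / 2) (1 / 4)],
    fun x hx => ?_⟩
  have hx' : x ∈ (Icc δ (1 - δ))ᶜ := fun h =>
    hx ⟨by linarith [h.1, min_le_left (δ / 2) (1 / 4)],
      by linarith [h.2, min_le_left (δ / 2) (1 / 4)]⟩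
  have h0 : f =ᶠ[𝓝 x] fun _ => 0 := by
    filter_upwards [isClosed_Icc.isOpen_compl.mem_nhds hx'] with y hy
    exact hs y fun h => hy (Ioo_subset_Icc_self h)
  have h1 : deriv f =ᶠ[𝓝 x] fun _ => 0 := by
    simpa using h0.deriv
  refine ⟨h0.eq_of_nhds, h1.eq_of_nhds, ?_⟩
  simpa using h1.deriv_eq

/-- continuous on `(0,1)` and supported in `(δ, 1-δ)` gives integrable. -/
theorem integrableOn_of_van {W : ℝ → ℝ} {δ : ℝ} (hδ : 0 < δ) (hc : ContinuousOn W (Ioo 0 1))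
    (hs : ∀ x, x ∉ Ioo δ (1 - δ) → W x = 0) : IntegrableOn W (Ioo 0 1) := by
  have h1 : IntegrableOn W (Icc δ (1 - δ)) :=
    (hc.mono fun x hx => ⟨by linarith [hx.1], by linarith [hx.2]⟩).integrableOn_compact
      isCompact_Icc
  refine h1.of_forall_sdiff_eq_zero measurableSet_Ioo fun x hx => hs x fun h => ?_
  exact hx.2 (Ioo_subset_Icc_self h)

/-- the integral of a total derivative vanishes. -/
theorem integral_deriv_van {W W' : ℝ → ℝ} {δ : ℝ} (hδ : 0 < δ) (hδ' : δ < 1 / 2)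
    (hW : ∀ x ∈ Ioo (0 : ℝ) 1, HasDerivAt W (W' x) x) (hc : ContinuousOn W' (Ioo 0 1))
    (hs : ∀ x, x ∉ Ioo δ (1 - δ) → W x = 0 ∧ W' x = 0) : ∫ x in Ioo (0 : ℝ) 1, W' x = 0 := by
  have hsub : Icc δ (1 - δ) ⊆ Ioo (0 : ℝ) 1 := fun x hx =>
    ⟨by linarith [hx.1], by linarith [hx.2]⟩
  have hle : δ ≤ 1 - δ := by linarith
  have h1 : ∫ x in Ioo (0 : ℝ) 1, W' x = ∫ x in Ioc δ (1 - δ), W' x := by
    refine setIntegral_eq_of_subset_of_forall_sdiff_eq_zero measurableSet_Ioo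
      (Ioc_subset_Icc_self.trans hsub) fun x hx => (hs x fun h => ?_).2
    exact hx.2 (Ioo_subset_Ioc_self h)
  rw [h1, ← intervalIntegral.integral_of_le hle,
    intervalIntegral.integral_eq_sub_of_hasDerivAt (f := W)]
  · rw [(hs δ (by simp)).1, (hs (1 - δ) (by simp)).1, sub_zero]
  · intro x hx
    rw [uIcc_of_le hle] at hx
    exact hW x (hsub hx)
  · refine ContinuousOn.intervalIntegrable ?_
    rw [uIcc_of_le hle]
    exact hc.mono hsub

end Crest.Agent.R213.SpE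

end
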