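import Crest.Agent.R213.SpecA

/-!
# R213 / SpecK : the limit kernel

For `f ∈ L²(ℝ;E)` put `gf h f = indicator (Ioc sst h) (r ↦ e^{ν(h-r)} • f (h-r)) ∈ LocAdm sst`; by `hB`,
`‖K (gf h f) h‖² ≤ |C0| ‖f‖²`.  `A f :=` limit of `h ↦ K (gf h f) h` along `U = Ultrafilter.of atTop`
(bounded, closed balls of `E` are compact: `IsCompact.ultrafilter_le_nhds`).  `K g s` depends only on the
a.e. class of `g` on `Ioc sst s` (`hlin` with `t = -1` and `hB` for the difference), so `A` is linear and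
bounded on `Lp E 2 volume`; Riesz (`ContinuousLinearMap.adjoint`, or `InnerProductSpace.toDual`):
`A f i = ∫ ⟪κ' i u, f u⟫`; `κ i = indicator (Ioi 0) (κ' i)`.  For `g ∈ LocAdm s0` and `s` put
`g' = indicator (Ioc s0 s) g ∈ LocAdm s0` (`K g s = K g' s`), `f u = e^{-νu} • g' (s-u) ∈ L²`; then
`gf (s+t) f = g' (· - t)` for `t ≥ 0`, and `hE` for `g'` passes to the limit along `U ≤ atTop`
(`le_of_tendsto`).
-/

set_option autoImplicit false

open MeasureTheory Set Filter Topology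
open scoped InnerProductSpace

namespace Crest.Agent.R213

theorem spk_memLp {E : Type} [NormedAddCommGroup E] [NormedSpace ℝ E] (a b c h : ℝ) {g : ℝ → E}
    (hg : MemLp g 2 (volume.restrict (Ioc a b))) :
    MemLp ((Ioc a b).indicator fun r => Real.exp (c * (h - r)) • g r) 2 volume := by
  rw [memLp_indicator_iff_restrict measurableSet_Ioc]
  have hc : Continuous fun r : ℝ => Real.exp (c * (h - r)) := by fun_prop
  obtain ⟨B, hB⟩ := (isCompact_Icc (a := a) (b := b)).exists_bound_of_continuousOn hc.continuousOn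
  refine hg.of_le_mul (c := B) (hc.aestronglyMeasurable.smul hg.1) ?_
  filter_upwards [ae_restrict_mem measurableSet_Ioc] with r hr
  rw [norm_smul]
  exact mul_le_mul_of_nonneg_right (hB r (Ioc_subset_Icc_self hr)) (norm_nonneg _)

theorem spk_mono {E : Type} [NormedAddCommGroup E] {a b : ℝ} (hab : a ≤ b) {g : ℝ → E}
    (hg : LocAdm b g) : LocAdm a g := by
  refine ⟨fun s hs => hg.1 s (hs.trans hab), fun S => ?_⟩
  have h1 := ((memLp_indicator_iff_restrict measurableSet_Ioc).2 (hg.2 S)).restrict (Ioc a S)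
  refine h1.ae_eq ?_
  filter_upwards [ae_restrict_mem measurableSet_Ioc] with r hr
  by_cases h : r ≤ b
  · rw [hg.1 r h, indicator_of_notMem fun h' => absurd h'.1 (not_lt.2 h)]
  · exact indicator_of_mem (show r ∈ Ioc b S from ⟨not_le.1 h, hr.2⟩) _

theorem spk_add {E : Type} [NormedAddCommGroup E] [NormedSpace ℝ E] {a : ℝ} {g g' : ℝ → E}
    (hg : LocAdm a g) (hg' : LocAdm a g') (t : ℝ) : LocAdm a fun r => g r + t • g' r :=
  ⟨fun s hs => by simp [hg.1 s hs, hg'.1 s hs], fun S => (hg.2 S).add ((hg'.2 S).const_smul t)⟩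

/-- the shifted datum -/
noncomputable def spk_gf {E : Type} [NormedAddCommGroup E] [NormedSpace ℝ E] (a ν h : ℝ)
    (f : ℝ → E) : ℝ → E :=
  (Ioc a h).indicator fun r => Real.exp (ν * (h - r)) • f (h - r)

theorem spk_gf_adm {E : Type} [NormedAddCommGroup E] [NormedSpace ℝ E] (a ν h : ℝ) {f : ℝ → E}
    (hf : MemLp f 2 volume) : LocAdm a (spk_gf a ν h f) :=
  ⟨fun _ hs => indicator_of_notMem (fun h' => absurd h'.1 (not_lt.2 hs)) _, fun _ =>
    (spk_memLp a h ν h ((hf.comp_measurePreserving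
      (Measure.measurePreserving_sub_left volume h)).restrict _)).restrict _⟩

theorem spk_gf_int {E : Type} [NormedAddCommGroup E] [NormedSpace ℝ E] (a ν h : ℝ) {f : ℝ → E}
    (hf : MemLp f 2 volume) :
    ∫ r in Ioc a h, Real.exp (-(2 * ν * (h - r))) * ‖spk_gf a ν h f r‖ ^ 2 ≤ ∫ u, ‖f u‖ ^ 2 := by
  have h1 : ∫ r in Ioc a h, Real.exp (-(2 * ν * (h - r))) * ‖spk_gf a ν h f r‖ ^ 2 =
      ∫ r in Ioc a h, ‖f (h - r)‖ ^ 2 := by
    refine setIntegral_congr_fun measurableSet_Ioc fun r hr => ?_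
    simp only [spk_gf, indicator_of_mem hr, norm_smul, Real.norm_eq_abs, Real.abs_exp, mul_pow]
    rw [← mul_assoc, ← Real.exp_nat_mul, ← Real.exp_add]
    rw [show -(2 * ν * (h - r)) + ((2 : ℕ) : ℝ) * (ν * (h - r)) = 0 by push_cast; ring,
      Real.exp_zero, one_mul]
  rw [h1, ← integral_sub_left_eq_self (fun u => ‖f u‖ ^ 2) volume h]
  have h2 : Integrable fun u => ‖f u‖ ^ 2 := (memLp_two_iff_integrable_sq_norm hf.1).1 hf
  exact setIntegral_le_integral (h2.comp_sub_left h) (Eventually.of_forall fun r => by positivity)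

theorem spk_gf_ae {E : Type} [NormedAddCommGroup E] [NormedSpace ℝ E] (a ν h : ℝ) {f f' : ℝ → E}
    (hf : f =ᵐ[volume] f') : spk_gf a ν h f =ᵐ[volume] spk_gf a ν h f' := by
  filter_upwards [(Measure.measurePreserving_sub_left volume h).quasiMeasurePreserving.ae_eq_comp hf]
    with r hr
  have hr' : f (h - r) = f' (h - r) := hr
  simp only [spk_gf, indicator, hr']

theorem spk_normsq {E : Type} [NormedAddCommGroup E] [InnerProductSpace ℝ E]
    (f : Lp E 2 (volume : Measure ℝ)) : ∫ u, ‖f u‖ ^ 2 = ‖f‖ ^ 2 := by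
  rw [← real_inner_self_eq_norm_sq, L2.inner_def]
  simp only [real_inner_self_eq_norm_sq]

theorem sp_kernel {m : ℕ} (K : (ℝ → EuclideanSpace ℝ (Fin m)) → ℝ → EuclideanSpace ℝ (Fin m))
    (sst ν C0 : ℝ) (ε : ℝ → ℝ)
    (hlin : ∀ g g' (t : ℝ), LocAdm sst g → LocAdm sst g' → ∀ s,
      K (fun r => g r + t • g' r) s = K g s + t • K g' s)
    (hB : ∀ g, LocAdm sst g → ∀ s,
      ‖K g s‖ ^ 2 ≤ C0 * ∫ r in Ioc sst s, Real.exp (-(2 * ν * (s - r))) * ‖g r‖ ^ 2)
    (hE : ∀ s0, sst ≤ s0 → ∀ g, LocAdm s0 g → ∀ h, 0 ≤ h → ∀ s,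
      ‖K (fun r => g (r - h)) (s + h) - K g s‖ ^ 2 ≤
        ε s0 * ∫ r in Ioc s0 s, Real.exp (-(2 * ν * (s - r))) * ‖g r‖ ^ 2) :
    ∃ κ : Fin m → ℝ → EuclideanSpace ℝ (Fin m), (∀ i, MemLp (κ i) 2 volume) ∧
      (∀ i u, u ≤ 0 → κ i u = 0) ∧
      ∀ s0, sst ≤ s0 → ∀ g, LocAdm s0 g → ∀ s,
        ∑ i, (K g s i - ∫ u, Real.exp (-(ν * u)) * ⟪κ i u, g (s - u)⟫_ℝ) ^ 2 ≤
          ε s0 * ∫ r in Ioc s0 s, Real.exp (-(2 * ν * (s - r))) * ‖g r‖ ^ 2 := by
  have hcongr : ∀ g g' s, LocAdm sst g → LocAdm sst g' →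
      (∀ᵐ r ∂volume.restrict (Ioc sst s), g r = g' r) → K g s = K g' s := by
    intro g g' s hg hg' h
    have h1 := hB _ (spk_add hg hg' (-1)) s
    have h2 : ∫ r in Ioc sst s, Real.exp (-(2 * ν * (s - r))) * ‖g r + (-1 : ℝ) • g' r‖ ^ 2 = 0 := by
      refine integral_eq_zero_of_ae ?_
      filter_upwards [h] with r hr
      simp [hr]
    rw [h2, mul_zero, hlin g g' _ hg hg'] at h1
    have h3 := norm_eq_zero.1 (pow_eq_zero_iff two_ne_zero |>.1 (le_antisymm h1 (by positivity)))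
    rwa [neg_one_smul, ← sub_eq_add_neg, sub_eq_zero] at h3
  have hbd : ∀ (f : Lp (EuclideanSpace ℝ (Fin m)) 2 (volume : Measure ℝ)) h,
      ‖K (spk_gf sst ν h f) h‖ ≤ √|C0| * ‖f‖ := by
    intro f h
    have h1 := hB _ (spk_gf_adm sst ν h (Lp.memLp f)) h
    have h2 := spk_gf_int sst ν h (Lp.memLp f)
    have h3 : 0 ≤ ∫ r in Ioc sst h, Real.exp (-(2 * ν * (h - r))) * ‖spk_gf sst ν h f r‖ ^ 2 :=
      integral_nonneg fun r => by positivity
    rw [spk_normsq] at h2
    refine (pow_le_pow_iff_left₀ (norm_nonneg _) (by positivity) two_ne_zero).1 ?_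
    rw [mul_pow, Real.sq_sqrt (abs_nonneg _)]
    exact h1.trans (mul_le_mul (le_abs_self _) h2 h3 (abs_nonneg _))
  set U : Ultrafilter ℝ := Ultrafilter.of atTop with hU
  have hUle : (U : Filter ℝ) ≤ atTop := Ultrafilter.of_le _
  have hex : ∀ f : Lp (EuclideanSpace ℝ (Fin m)) 2 (volume : Measure ℝ), ∃ a,
      Tendsto (fun h => K (spk_gf sst ν h f) h) U (𝓝 a) := by
    intro f
    obtain ⟨a, -, ha⟩ := (isCompact_closedBall (0 : EuclideanSpace ℝ (Fin m))
      (√|C0| * ‖f‖)).ultrafilter_le_nhds (U.map fun h => K (spk_gf sst ν h f) h) (by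
        rw [Ultrafilter.coe_map, le_principal_iff, mem_map]
        exact Eventually.of_forall fun h => mem_closedBall_zero_iff.2 (hbd f h))
    exact ⟨a, ha⟩
  choose A hA using hex
  have hAb : ∀ f, ‖A f‖ ≤ √|C0| * ‖f‖ := fun f =>
    le_of_tendsto (hA f).norm (Eventually.of_forall (hbd f))
  have hA0 : A 0 = 0 := by simpa using hAb 0
  have hAl : ∀ f f' (t : ℝ), A (f + t • f') = A f + t • A f' := by
    intro f f' t
    refine tendsto_nhds_unique (hA _) (((hA f).add ((hA f').const_smul t)).congr fun h => ?_)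
    have a1 := spk_gf_adm sst ν h (Lp.memLp f)
    have a2 := spk_gf_adm sst ν h (Lp.memLp f')
    rw [← hlin _ _ t a1 a2]
    refine hcongr _ _ h (spk_add a1 a2 t) (spk_gf_adm sst ν h (Lp.memLp _)) (ae_restrict_of_ae ?_)
    have a3 : (f + t • f' : Lp (EuclideanSpace ℝ (Fin m)) 2 (volume : Measure ℝ)) =ᵐ[volume]
        fun u => f u + t • f' u := by
      filter_upwards [Lp.coeFn_add f (t • f'), Lp.coeFn_smul t f'] with u b1 b2
      rw [b1, Pi.add_apply, b2, Pi.smul_apply]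
    filter_upwards [spk_gf_ae sst ν h a3] with r hr
    rw [hr]
    by_cases hm : r ∈ Ioc sst h
    · simp only [spk_gf, indicator_of_mem hm, smul_add, smul_comm t]
    · simp [spk_gf, indicator_of_notMem hm]
  let AL : Lp (EuclideanSpace ℝ (Fin m)) 2 (volume : Measure ℝ) →ₗ[ℝ] EuclideanSpace ℝ (Fin m) :=
    { toFun := A
      map_add' := fun f f' => by simpa using hAl f f' 1
      map_smul' := fun t f => by simpa [hA0] using hAl 0 f t }
  let AC := AL.mkContinuous _ hAb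
  let κ' : Fin m → Lp (EuclideanSpace ℝ (Fin m)) 2 (volume : Measure ℝ) := fun i =>
    (InnerProductSpace.toDual ℝ _).symm ((EuclideanSpace.proj i).comp AC)
  have hκ' : ∀ i f, A f i = ∫ u, ⟪κ' i u, f u⟫_ℝ := by
    intro i f
    rw [← L2.inner_def, InnerProductSpace.toDual_symm_apply]
    rfl
  refine ⟨fun i => (Ioi 0).indicator (κ' i), fun i => (Lp.memLp _).indicator measurableSet_Ioi,
    fun i u hu => indicator_of_notMem (not_lt.2 hu) _, fun s0 hs0 g hg s => ?_⟩
  set g' : ℝ → EuclideanSpace ℝ (Fin m) := (Ioc s0 s).indicator g with hg'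
  have hg'a : LocAdm s0 g' :=
    ⟨fun _ hs => indicator_of_notMem (fun h' => absurd h'.1 (not_lt.2 hs)) _, fun _ =>
      ((memLp_indicator_iff_restrict measurableSet_Ioc).2 (hg.2 s)).restrict _⟩
  have hK : K g' s = K g s := by
    refine hcongr _ _ s (spk_mono hs0 hg'a) (spk_mono hs0 hg) ?_
    filter_upwards [ae_restrict_mem measurableSet_Ioc] with r hr
    by_cases h : r ≤ s0
    · rw [hg.1 r h, hg'a.1 r h]
    · exact indicator_of_mem (show r ∈ Ioc s0 s from ⟨not_le.1 h, hr.2⟩) _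
  set f : ℝ → EuclideanSpace ℝ (Fin m) := fun u =>
    (Ioc s0 s).indicator (fun r => Real.exp (-ν * (s - r)) • g r) (s - u) with hf
  have hfm : MemLp f 2 volume :=
    (spk_memLp s0 s (-ν) s (hg.2 s)).comp_measurePreserving
      (Measure.measurePreserving_sub_left volume s)
  have hlim : ‖A (hfm.toLp f) - K g s‖ ^ 2 ≤
      ε s0 * ∫ r in Ioc s0 s, Real.exp (-(2 * ν * (s - r))) * ‖g r‖ ^ 2 := by
    refine le_of_tendsto (((hA (hfm.toLp f)).sub_const (K g s)).norm.pow 2) ?_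
    filter_upwards [hUle (eventually_ge_atTop s)] with h hh
    have a1 := hE s0 hs0 g' hg'a (h - s) (sub_nonneg.2 hh) s
    have a2 : ∫ r in Ioc s0 s, Real.exp (-(2 * ν * (s - r))) * ‖g' r‖ ^ 2 =
        ∫ r in Ioc s0 s, Real.exp (-(2 * ν * (s - r))) * ‖g r‖ ^ 2 :=
      setIntegral_congr_fun measurableSet_Ioc fun r hr => by simp only [hg', indicator_of_mem hr]
    have a3 : spk_gf sst ν h f = fun r => g' (r - (h - s)) := by
      funext r
      have b0 : s - (h - r) = r - (h - s) := by ring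
      by_cases hm : r - (h - s) ∈ Ioc s0 s
      · have b1 : r ∈ Ioc sst h := ⟨by linarith [hm.1], by linarith [hm.2]⟩
        simp only [spk_gf, hf, hg', indicator_of_mem b1, b0, indicator_of_mem hm, smul_smul]
        rw [← Real.exp_add, show ν * (h - r) + -ν * (s - (r - (h - s))) = 0 by ring, Real.exp_zero,
          one_smul]
      · simp only [spk_gf, hf, hg', indicator_of_notMem hm]
        refine indicator_apply_eq_zero.2 fun _ => ?_
        rw [b0, indicator_of_notMem hm, smul_zero]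
    rw [a2, hK, add_sub_cancel, ← a3] at a1
    rwa [hcongr _ _ h (spk_gf_adm sst ν h (Lp.memLp _)) (spk_gf_adm sst ν h hfm)
      (ae_restrict_of_ae (spk_gf_ae sst ν h hfm.coeFn_toLp))]
  refine le_trans (le_of_eq ?_) hlim
  rw [norm_sub_rev, EuclideanSpace.real_norm_sq_eq]
  refine Finset.sum_congr rfl fun i _ => ?_
  rw [PiLp.sub_apply, hκ']
  congr 2
  refine integral_congr_ae ?_
  filter_upwards [hfm.coeFn_toLp, compl_mem_ae_iff.2 (measure_singleton (0 : ℝ))] with u b1 b2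
  rw [b1]
  rcases lt_or_gt_of_ne (show u ≠ 0 from b2) with hu | hu
  · have b3 : s - u ∉ Ioc s0 s := fun h => by linarith [h.2]
    simp only [hf, indicator_of_notMem b3, indicator_of_notMem (show u ∉ Ioi 0 from not_lt.2 hu.le),
      inner_zero_left, inner_zero_right, mul_zero]
  · rw [indicator_of_mem (show u ∈ Ioi 0 from hu)]
    by_cases hm : s - u ∈ Ioc s0 s
    · simp only [hf, indicator_of_mem hm, inner_smul_right, sub_sub_cancel, neg_mul]
    · have b3 : s - u ≤ s0 := not_lt.1 fun h => hm ⟨h, by linarith⟩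
      simp only [hf, indicator_of_notMem hm, hg.1 _ b3, inner_zero_right, mul_zero]

end Crest.Agent.R213
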