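import Crest.Agent.R213.Defs

/-! # R213 / VB1 : weak derivatives in `V` (`ibp_V`, `ext_d0`, `rep_of_d0`, `norm_le_of_rep`) -/

set_option autoImplicit false

open MeasureTheory Set Filter Topology
open scoped ContDiff InnerProductSpace

namespace Crest.Agent.R213.VB

theorem ae_mem : ∀ᵐ x ∂ν, x ∈ Ioo (0 : ℝ) 1 := ae_restrict_mem measurableSet_Ioo

theorem rep_d {u : VV} {f : ℝ → ℝ} (h : Rep u f) :
    (d0 u =ᵐ[ν] f) ∧ (d1 u =ᵐ[ν] deriv f) ∧ (d2 u =ᵐ[ν] deriv (deriv f)) := by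
  obtain ⟨h0, h1, h2⟩ := h
  refine ⟨?_, ?_, ?_⟩
  · filter_upwards [h0, ae_mem] with x hx hm
    have a1 : x ≠ 0 := hm.1.ne'
    have a2 : 1 - x ≠ 0 := (sub_pos.2 hm.2).ne'
    simp only [d0, hx]; field_simp
  · filter_upwards [h1, ae_mem] with x hx hm
    have a2 : 1 - x ≠ 0 := (sub_pos.2 hm.2).ne'
    simp only [d1, hx]; field_simp
  · filter_upwards [h2, ae_mem] with x hx hm
    have a1 : x ≠ 0 := hm.1.ne'
    simp only [d2, hx]; field_simp

theorem rep_of_d' {u : VV} {f : ℝ → ℝ} (h0 : d0 u =ᵐ[ν] f) (h1 : d1 u =ᵐ[ν] deriv f)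
    (h2 : d2 u =ᵐ[ν] deriv (deriv f)) : Rep u f := by
  refine ⟨?_, ?_, ?_⟩
  · filter_upwards [h0, ae_mem] with x hx hm
    have a1 : x ≠ 0 := hm.1.ne'
    have a2 : 1 - x ≠ 0 := (sub_pos.2 hm.2).ne'
    rw [← hx]; simp only [d0]; field_simp
  · filter_upwards [h1, ae_mem] with x hx hm
    have a2 : 1 - x ≠ 0 := (sub_pos.2 hm.2).ne'
    rw [← hx]; simp only [d1]; field_simp
  · filter_upwards [h2, ae_mem] with x hx hm
    have a1 : x ≠ 0 := hm.1.ne'
    rw [← hx]; simp only [d2]; field_simp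

/-- pairing a component with an `L²` function is continuous. -/
theorem cont_pair (i : Fin 3) {g : ℝ → ℝ} (hg : MemLp g 2 ν) :
    Continuous fun u : VV => ∫ x in Ioo (0 : ℝ) 1, u.e i x * g x := by
  have : (fun u : VV => ∫ x in Ioo (0 : ℝ) 1, u.e i x * g x) =
      fun u : VV => ⟪hg.toLp g, u.e i⟫_ℝ := by
    funext u
    rw [L2.inner_def]
    refine integral_congr_ae ?_
    filter_upwards [hg.coeFn_toLp] with x hx
    rw [hx]; simp
  rw [this]
  have c1 : Continuous fun u : VV => u.e i :=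
    (PiLp.continuous_apply 2 _ i).comp VV.eL.continuous
  exact continuous_const.inner c1

theorem memLp_of_bd {g : ℝ → ℝ} (hg : AEStronglyMeasurable g ν) {C : ℝ}
    (hb : ∀ x ∈ Ioo (0 : ℝ) 1, |g x| ≤ C) : MemLp g 2 ν := by
  refine MemLp.of_bound hg C ?_
  filter_upwards [ae_mem] with x hx
  exact hb x hx

theorem memLp_of_cont {g : ℝ → ℝ} (hg : Continuous g) : MemLp g 2 ν := by
  obtain ⟨C, hC⟩ := (isCompact_Icc (a := (0 : ℝ)) (b := 1)).exists_bound_of_continuousOn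
    hg.continuousOn
  exact memLp_of_bd hg.aestronglyMeasurable fun x hx => hC x (Ioo_subset_Icc_self hx)

theorem deriv_zero_off {ψ : ℝ → ℝ} {δ : ℝ} (hs : ∀ x, x ∉ Ioo δ (1 - δ) → ψ x = 0) (x : ℝ)
    (hx : x ∉ Icc δ (1 - δ)) : deriv ψ x = 0 := by
  have : ψ =ᶠ[𝓝 x] fun _ => 0 := by
    filter_upwards [isClosed_Icc.isOpen_compl.mem_nhds hx] with y hy
    exact hs y fun h => hy (Ioo_subset_Icc_self h)
  rw [this.deriv_eq]; simp

/-- integration by parts against a test function. -/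
theorem ibp_fun {f ψ : ℝ → ℝ} (hf : ContDiffOn ℝ 1 f (Ioo 0 1)) (hψ : ContDiff ℝ 1 ψ) {δ : ℝ}
    (hδ : 0 < δ) (hs : ∀ x, x ∉ Ioo δ (1 - δ) → ψ x = 0) :
    ∫ x in Ioo (0 : ℝ) 1, deriv f x * ψ x = -∫ x in Ioo (0 : ℝ) 1, f x * deriv ψ x := by
  by_cases hle : δ ≤ 1 - δ
  swap
  · have : ψ = fun _ => 0 := by
      funext x; refine hs x fun h => hle ?_; linarith [h.1, h.2]
    subst this; simp
  have hsub : Icc δ (1 - δ) ⊆ Ioo (0 : ℝ) 1 := fun x hx => ⟨by linarith [hx.1], by linarith [hx.2]⟩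
  have e1 : ∫ x in Ioo (0 : ℝ) 1, deriv f x * ψ x = ∫ x in δ..(1 - δ), deriv f x * ψ x := by
    rw [intervalIntegral.integral_of_le hle, ← integral_Icc_eq_integral_Ioc]
    refine setIntegral_eq_of_subset_of_forall_sdiff_eq_zero measurableSet_Ioo hsub ?_
    intro x hx
    rw [hs x fun h => hx.2 (Ioo_subset_Icc_self h), mul_zero]
  have e2 : ∫ x in Ioo (0 : ℝ) 1, f x * deriv ψ x = ∫ x in δ..(1 - δ), f x * deriv ψ x := by
    rw [intervalIntegral.integral_of_le hle, ← integral_Icc_eq_integral_Ioc]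
    refine setIntegral_eq_of_subset_of_forall_sdiff_eq_zero measurableSet_Ioo hsub ?_
    intro x hx
    rw [deriv_zero_off hs x hx.2, mul_zero]
  have hfd : ContinuousOn (deriv f) (Ioo 0 1) := hf.continuousOn_deriv_of_isOpen isOpen_Ioo le_rfl
  have key := intervalIntegral.integral_mul_deriv_eq_deriv_mul (u := f) (u' := deriv f) (v := ψ)
    (v' := deriv ψ) (a := δ) (b := 1 - δ)
    (fun x hx => by
      rw [uIcc_of_le hle] at hx
      exact ((hf.differentiableOn one_ne_zero).differentiableAt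
        (isOpen_Ioo.mem_nhds (hsub hx))).hasDerivAt)
    (fun x _ => (hψ.differentiable one_ne_zero x).hasDerivAt)
    (by
      refine ContinuousOn.intervalIntegrable ?_
      rw [uIcc_of_le hle]; exact hfd.mono hsub)
    ((hψ.continuous_deriv le_rfl).intervalIntegrable _ _)
  rw [e1, e2, key, hs δ (by simp), hs (1 - δ) (by simp)]; ring

theorem contDiffOn_deriv {f : ℝ → ℝ} (hf : ContDiffOn ℝ 2 f (Ioo 0 1)) :
    ContDiffOn ℝ 1 (deriv f) (Ioo 0 1) :=
  hf.deriv_of_isOpen isOpen_Ioo (by norm_num)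

theorem ibp_V (hV : ∀ {P : VV → Prop}, IsClosed {u | P u} →
      (∀ u f, Test f → Rep u f → P u) → ∀ u : VV, P u)
    (u : VV) {ψ : ℝ → ℝ} (hψ : ContDiff ℝ 1 ψ) {δ : ℝ} (hδ : 0 < δ)
    (hs : ∀ x, x ∉ Ioo δ (1 - δ) → ψ x = 0) :
    (∫ x in Ioo (0 : ℝ) 1, d1 u x * ψ x = -∫ x in Ioo (0 : ℝ) 1, d0 u x * deriv ψ x) ∧
    (∫ x in Ioo (0 : ℝ) 1, d2 u x * ψ x = -∫ x in Ioo (0 : ℝ) 1, d1 u x * deriv ψ x) := by
  have c0 := hψ.continuous
  have c1 := hψ.continuous_deriv le_rfl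
  have m1 : MemLp (fun x => (1 - x) * ψ x) 2 ν := memLp_of_cont (by fun_prop)
  have m2 : MemLp (fun x => x * (1 - x) ^ 2 * deriv ψ x) 2 ν := memLp_of_cont (by fun_prop)
  have m3 : MemLp (fun x => (1 - x) * deriv ψ x) 2 ν := memLp_of_cont (by fun_prop)
  have m4 : MemLp (fun x => ψ x / x) 2 ν := by
    obtain ⟨C, hC⟩ := (isCompact_Icc (a := (0 : ℝ)) (b := 1)).exists_bound_of_continuousOn
      c0.continuousOn
    have hC0 : 0 ≤ C := (norm_nonneg _).trans (hC 0 (by simp))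
    refine memLp_of_bd (c0.measurable.div measurable_id).aestronglyMeasurable (C := C / δ) ?_
    intro x hx
    by_cases h : x ∈ Ioo δ (1 - δ)
    · rw [abs_div, abs_of_pos hx.1]
      exact div_le_div₀ hC0 (hC x (Ioo_subset_Icc_self hx)) hδ h.1.le
    · rw [hs x h]; simp; positivity
  have q1 : ∀ u : VV, ∫ x in Ioo (0 : ℝ) 1, d1 u x * ψ x =
      ∫ x in Ioo (0 : ℝ) 1, u.e 1 x * ((1 - x) * ψ x) := fun u => by
    congr 1; funext x; simp only [d1]; ring
  have q2 : ∀ u : VV, ∫ x in Ioo (0 : ℝ) 1, d0 u x * deriv ψ x =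
      ∫ x in Ioo (0 : ℝ) 1, u.e 0 x * (x * (1 - x) ^ 2 * deriv ψ x) := fun u => by
    congr 1; funext x; simp only [d0]; ring
  have q3 : ∀ u : VV, ∫ x in Ioo (0 : ℝ) 1, d1 u x * deriv ψ x =
      ∫ x in Ioo (0 : ℝ) 1, u.e 1 x * ((1 - x) * deriv ψ x) := fun u => by
    congr 1; funext x; simp only [d1]; ring
  have q4 : ∀ u : VV, ∫ x in Ioo (0 : ℝ) 1, d2 u x * ψ x =
      ∫ x in Ioo (0 : ℝ) 1, u.e 2 x * (ψ x / x) := fun u => by
    congr 1; funext x; simp only [d2]; ring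
  refine hV (P := fun u =>
    (∫ x in Ioo (0 : ℝ) 1, d1 u x * ψ x = -∫ x in Ioo (0 : ℝ) 1, d0 u x * deriv ψ x) ∧
    (∫ x in Ioo (0 : ℝ) 1, d2 u x * ψ x = -∫ x in Ioo (0 : ℝ) 1, d1 u x * deriv ψ x)) ?_ ?_ u
  · simp only [q1, q2, q3, q4]
    exact (isClosed_eq (cont_pair 1 m1) (cont_pair 0 m2).neg).inter
      (isClosed_eq (cont_pair 2 m4) (cont_pair 1 m3).neg)
  · intro u f hf hr
    obtain ⟨h0, h1, h2⟩ := rep_d hr
    have hf2 : ContDiffOn ℝ 2 f (Ioo 0 1) := hf.1.contDiffOn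
    constructor
    · rw [integral_congr_ae (f := fun x => d1 u x * ψ x) (g := fun x => deriv f x * ψ x)
        (by filter_upwards [h1] with x hx; rw [hx]),
        integral_congr_ae (f := fun x => d0 u x * deriv ψ x) (g := fun x => f x * deriv ψ x)
        (by filter_upwards [h0] with x hx; rw [hx])]
      exact ibp_fun (hf2.of_le (by norm_num)) hψ hδ hs
    · rw [integral_congr_ae (f := fun x => d2 u x * ψ x) (g := fun x => deriv (deriv f) x * ψ x)
        (by filter_upwards [h2] with x hx; rw [hx]),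
        integral_congr_ae (f := fun x => d1 u x * deriv ψ x) (g := fun x => deriv f x * deriv ψ x)
        (by filter_upwards [h1] with x hx; rw [hx])]
      exact ibp_fun (contDiffOn_deriv hf2) hψ hδ hs

/-- a compact subset of `(0,1)` lies in some `(δ, 1-δ)`. -/
theorem exists_delta {K : Set ℝ} (hK : IsCompact K) (hs : K ⊆ Ioo 0 1) :
    ∃ δ : ℝ, 0 < δ ∧ K ⊆ Ioo δ (1 - δ) := by
  rcases K.eq_empty_or_nonempty with rfl | hne
  · exact ⟨1, one_pos, empty_subset _⟩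
  obtain ⟨a, ha, hamin⟩ := hK.exists_isMinOn hne continuousOn_id
  obtain ⟨b, hb, hbmax⟩ := hK.exists_isMaxOn hne continuousOn_id
  have a0 := (hs ha).1
  have b1 := (hs hb).2
  refine ⟨min a (1 - b) / 2, by have := lt_min a0 (sub_pos.2 b1); linarith, fun x hx => ?_⟩
  have h1 : a ≤ x := hamin hx
  have h2 : x ≤ b := hbmax hx
  have m1 := min_le_left a (1 - b)
  have m2 := min_le_right a (1 - b)
  constructor <;> linarith

/-- two locally integrable functions with the same pairings agree. -/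
theorem weak_unique {a b : ℝ → ℝ} (ha : LocallyIntegrableOn a (Ioo 0 1) volume)
    (hb : LocallyIntegrableOn b (Ioo 0 1) volume)
    (h : ∀ ψ : ℝ → ℝ, ContDiff ℝ 1 ψ → ∀ δ : ℝ, 0 < δ → (∀ x, x ∉ Ioo δ (1 - δ) → ψ x = 0) →
      ∫ x in Ioo (0 : ℝ) 1, a x * ψ x = ∫ x in Ioo (0 : ℝ) 1, b x * ψ x) : a =ᵐ[ν] b := by
  have key := isOpen_Ioo.ae_eq_zero_of_integral_contDiff_smul_eq_zero (μ := volume)
    (f := fun x => a x - b x) (ha.sub hb) (by
      intro g hg hc hsub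
      obtain ⟨δ, hδ, hK⟩ := exists_delta hc hsub
      have hz : ∀ x, x ∉ tsupport g → g x = 0 := fun x hx => image_eq_zero_of_notMem_tsupport hx
      have hs : ∀ x, x ∉ Ioo δ (1 - δ) → g x = 0 := fun x hx => hz x fun h' => hx (hK h')
      have int : ∀ c : ℝ → ℝ, LocallyIntegrableOn c (Ioo 0 1) volume →
          IntegrableOn (fun x => c x * g x) (Ioo 0 1) volume := by
        intro c hc'
        have i1 : IntegrableOn (fun x => c x * g x) (tsupport g) volume :=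
          (hc'.integrableOn_compact_subset hsub hc).mul_continuousOn hg.continuous.continuousOn hc
        refine i1.of_forall_diff_eq_zero measurableSet_Ioo ?_
        intro x hx
        rw [hz x hx.2, mul_zero]
      have e := h g (hg.of_le (by norm_num)) δ hδ hs
      rw [← setIntegral_eq_integral_of_forall_compl_eq_zero (s := Ioo (0 : ℝ) 1)
        (fun x hx => by rw [hz x fun h' => hx (hsub h')]; simp)]
      have : (fun x => g x • (a x - b x)) = fun x => a x * g x - b x * g x := by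
        funext x; simp only [smul_eq_mul]; ring
      rw [this, integral_sub (int a ha) (int b hb), e, sub_self])
  rw [EventuallyEq, ae_restrict_iff' measurableSet_Ioo]
  filter_upwards [key] with x hx hm
  exact sub_eq_zero.1 (hx hm)

theorem locInt_e (u : VV) (i : Fin 3) : LocallyIntegrableOn (u.e i) (Ioo 0 1) volume := by
  have : IntegrableOn (u.e i) (Ioo (0 : ℝ) 1) volume := (Lp.memLp (u.e i)).integrable (by norm_num)
  exact this.locallyIntegrableOn

theorem locInt_d1 (u : VV) : LocallyIntegrableOn (d1 u) (Ioo 0 1) volume :=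
  (locInt_e u 1).continuousOn_mul (g := fun x => 1 - x) (by fun_prop) isOpen_Ioo.isLocallyClosed

theorem locInt_d2 (u : VV) : LocallyIntegrableOn (d2 u) (Ioo 0 1) volume := by
  have := (locInt_e u 2).mul_continuousOn (g := fun x => x⁻¹)
    (continuousOn_id.inv₀ fun x hx => hx.1.ne') isOpen_Ioo.isLocallyClosed
  have e : d2 u = fun x => u.e 2 x * x⁻¹ := by funext x; simp only [d2, div_eq_mul_inv]
  rw [e]; exact this

/-- the statement of `ibp_V`. -/
def Ibp : Prop := ∀ (u : VV) {ψ : ℝ → ℝ}, ContDiff ℝ 1 ψ → ∀ {δ : ℝ}, 0 < δ →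
    (∀ x, x ∉ Ioo δ (1 - δ) → ψ x = 0) →
    (∫ x in Ioo (0 : ℝ) 1, d1 u x * ψ x = -∫ x in Ioo (0 : ℝ) 1, d0 u x * deriv ψ x) ∧
    (∫ x in Ioo (0 : ℝ) 1, d2 u x * ψ x = -∫ x in Ioo (0 : ℝ) 1, d1 u x * deriv ψ x)

theorem ext_d0 (hI : Ibp) {u w : VV} (h : d0 u =ᵐ[ν] d0 w) : u = w := by
  have h1 : d1 u =ᵐ[ν] d1 w := by
    refine weak_unique (locInt_d1 u) (locInt_d1 w) fun ψ hψ δ hδ hs => ?_
    rw [(hI u hψ hδ hs).1, (hI w hψ hδ hs).1]
    congr 1
    exact integral_congr_ae (by filter_upwards [h] with x hx; rw [hx])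
  have h2 : d2 u =ᵐ[ν] d2 w := by
    refine weak_unique (locInt_d2 u) (locInt_d2 w) fun ψ hψ δ hδ hs => ?_
    rw [(hI u hψ hδ hs).2, (hI w hψ hδ hs).2]
    congr 1
    exact integral_congr_ae (by filter_upwards [h1] with x hx; rw [hx])
  refine VV.e_inj ?_
  have e0 : u.e 0 = w.e 0 := by
    refine Lp.ext ?_
    filter_upwards [h, ae_mem] with x hx hm
    have a1 : x * (1 - x) ^ 2 ≠ 0 := mul_ne_zero hm.1.ne' (pow_ne_zero _ (sub_pos.2 hm.2).ne')
    exact mul_left_cancel₀ a1 hx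
  have e1 : u.e 1 = w.e 1 := by
    refine Lp.ext ?_
    filter_upwards [h1, ae_mem] with x hx hm
    exact mul_left_cancel₀ (sub_pos.2 hm.2).ne' hx
  have e2 : u.e 2 = w.e 2 := by
    refine Lp.ext ?_
    filter_upwards [h2, ae_mem] with x hx hm
    exact (div_left_inj' hm.1.ne').1 hx
  ext1 i
  fin_cases i
  · exact e0
  · exact e1
  · exact e2

theorem rep_of_d0 (hI : Ibp) {u : VV} {f : ℝ → ℝ} (hf : ContDiffOn ℝ 2 f (Ioo 0 1))
    (h : d0 u =ᵐ[ν] f) : Rep u f := by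
  have hf1 := contDiffOn_deriv hf
  have h1 : d1 u =ᵐ[ν] deriv f := by
    refine weak_unique (locInt_d1 u)
      (hf1.continuousOn.locallyIntegrableOn measurableSet_Ioo) fun ψ hψ δ hδ hs => ?_
    rw [(hI u hψ hδ hs).1, ibp_fun (hf.of_le (by norm_num)) hψ hδ hs]
    congr 1
    exact integral_congr_ae (by filter_upwards [h] with x hx; rw [hx])
  have h2 : d2 u =ᵐ[ν] deriv (deriv f) := by
    refine weak_unique (locInt_d2 u)
      ((hf1.continuousOn_deriv_of_isOpen isOpen_Ioo le_rfl).locallyIntegrableOn measurableSet_Ioo)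
      fun ψ hψ δ hδ hs => ?_
    rw [(hI u hψ hδ hs).2, ibp_fun hf1 hψ hδ hs]
    congr 1
    exact integral_congr_ae (by filter_upwards [h1] with x hx; rw [hx])
  exact rep_of_d' h h1 h2

theorem norm_L2_le {g : L2} {C : ℝ} (hC : 0 ≤ C) (h : ∀ᵐ x ∂ν, |g x| ≤ C) : ‖g‖ ≤ C := by
  have := Lp.norm_le_of_ae_bound (f := g) hC h
  have e : measureUnivNNReal ν = 1 := by
    simp [measureUnivNNReal]
  simpa [e] using this

theorem bounds_of {f : ℝ → ℝ} {N : ℝ} (h1 : ∀ x, 1 / 2 ≤ x → f x = 0)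
    (hb : ∀ x ∈ Ioo (0 : ℝ) 1, |f x| ≤ N * x ∧ |deriv f x| ≤ N ∧ |x * deriv (deriv f) x| ≤ N) :
    (∀ x ∈ Ioo (0 : ℝ) 1, |f x / (x * (1 - x) ^ 2)| ≤ 4 * N) ∧
    (∀ x ∈ Ioo (0 : ℝ) 1, |deriv f x / (1 - x)| ≤ 2 * N) := by
  have hN : 0 ≤ N := (abs_nonneg _).trans (hb (1 / 2) (by norm_num)).2.1
  constructor
  · intro x hx
    by_cases hh : 1 / 2 ≤ x
    · rw [h1 x hh]; simp; linarith
    · push Not at hh
      have p : 0 < x * (1 - x) ^ 2 := mul_pos hx.1 (pow_pos (sub_pos.2 hx.2) _)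
      rw [abs_div, abs_of_pos p, div_le_iff₀ p]
      refine (hb x hx).1.trans ?_
      have : 1 ≤ 4 * (1 - x) ^ 2 := by nlinarith
      have h3 : 0 ≤ N * x := mul_nonneg hN hx.1.le
      nlinarith
  · intro x hx
    by_cases hh : 1 / 2 < x
    · have : f =ᶠ[𝓝 x] fun _ => 0 := by
        filter_upwards [lt_mem_nhds hh] with y hy
        exact h1 y hy.le
      rw [this.deriv_eq]; simp; linarith
    · push Not at hh
      have p : 0 < 1 - x := sub_pos.2 hx.2
      rw [abs_div, abs_of_pos p, div_le_iff₀ p]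
      refine (hb x hx).2.1.trans ?_
      nlinarith

theorem norm_le_of_rep {u : VV} {f : ℝ → ℝ} {N : ℝ} (h : Rep u f)
    (h1 : ∀ x, 1 / 2 ≤ x → f x = 0)
    (hb : ∀ x ∈ Ioo (0 : ℝ) 1, |f x| ≤ N * x ∧ |deriv f x| ≤ N ∧ |x * deriv (deriv f) x| ≤ N) :
    ‖u‖ ≤ 5 * N := by
  have hN : 0 ≤ N := (abs_nonneg _).trans (hb (1 / 2) (by norm_num)).2.1
  obtain ⟨b0, b1⟩ := bounds_of h1 hb
  have n0 : ‖u.e 0‖ ≤ 4 * N := norm_L2_le (by linarith) (by
    filter_upwards [h.1, ae_mem] with x hx hm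
    rw [hx]; exact b0 x hm)
  have n1 : ‖u.e 1‖ ≤ 2 * N := norm_L2_le (by linarith) (by
    filter_upwards [h.2.1, ae_mem] with x hx hm
    rw [hx]; exact b1 x hm)
  have n2 : ‖u.e 2‖ ≤ N := norm_L2_le hN (by
    filter_upwards [h.2.2, ae_mem] with x hx hm
    rw [hx]; exact (hb x hm).2.2)
  have e : ‖u‖ ^ 2 = ‖u.e 0‖ ^ 2 + ‖u.e 1‖ ^ 2 + ‖u.e 2‖ ^ 2 := by
    rw [← VV.norm_e, PiLp.norm_sq_eq_of_L2, Fin.sum_univ_three]
  have q0 := pow_le_pow_left₀ (norm_nonneg _) n0 2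
  have q1 := pow_le_pow_left₀ (norm_nonneg _) n1 2
  have q2 := pow_le_pow_left₀ (norm_nonneg _) n2 2
  refine (pow_le_pow_iff_left₀ (norm_nonneg _) (by linarith) two_ne_zero).1 ?_
  nlinarith

end Crest.Agent.R213.VB
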